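import Vale.Agent.Iso4.PSt

/-! One final step on the surface. -/

open scoped ContDiff Topology Manifold
open Set Filter

noncomputable section
namespace Vale.Agent.Iso4
universe u

variable {M : Type*} [TopologicalSpace M] [ChartedSpace E2 M] [T2Space M] [CompactSpace M]
  [IsManifold (𝓡 2) ∞ M]

theorem final_one : ∃ K : ℕ, 1 ≤ K ∧ ∀ {ι : Type u} (c : PCtx M ι), K ≤ c.K0 → 2 * K ≤ c.N →
    ∀ (e : ℕ) (F Ξ : ι → M → V) (E : ι → M → ℝ) (Q : ι → M → E2 → ℝ) (Z : Set M) (k : Fin c.A.n)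
      (ϖ ϱ : M → ℝ) (Pi : ι → M → ℝ), PSt c e F Ξ E Q Z → c.S ⊆ Z → Wt c k ϖ ϱ →
      PM (fun i => c.L0 i ^ e) Pi →
      (∃ κ : ℝ, 0 < κ ∧ ∀ᶠ i in c.𝓕, ∀ p, κ / c.L0 i ^ e ≤ Pi i p) →
      ∃ F', PSt c (e * K) F' Ξ E
        (fun i p u => Q i p u + ϱ p ^ (2 * c.N) * Pi i p * dM c.φ p u ^ 2) Z := by
  obtain ⟨K, hK, H⟩ := stepF'.{u}
  refine ⟨K, by omega, ?_⟩
  intro ι c hK0 hN e F Ξ E Q Z k ϖ ϱ Pi h hZ hw hPi ⟨κ1, k1, h1⟩
  have he : e ≤ e * K := Nat.le_mul_of_pos_right _ (by omega)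
  have e1 := h.e1
  obtain ⟨R, hR⟩ := c.A.bdd k
  obtain ⟨κ2, k2, h2⟩ := hw.sd_imm h.tF.smooth h.imm
  obtain ⟨κ3, k3, h3⟩ := h.nd
  obtain ⟨a, a0, ha⟩ := c.A.D_phi (X := V) c.adapt (c.A.e k) (c.adapt k) (c.A.cK0 k) (c.A.sub0 k)
  have hphi : ∀ p, 0 < ϖ p → ∃ (t : ℝ) (u : P2), 0 < t ∧ 1 ≤ a * t ∧ t ≤ a ∧
      ∀ G : M → V, Sm G → c.A.D G p = t • d2 ((c.A.e k).rep G) ((c.A.e k).to p) (0, 1) (0, 1) +
        fderiv ℝ ((c.A.e k).rep G) ((c.A.e k).to p) u := fun p hp => by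
    have := ha _ (hw.mem0 hp)
    rw [(c.A.e k).inv_to (hw.src hp)] at this
    obtain ⟨t, u, t1, t2, -, t3⟩ := this (hw.dom p hp).1
    exact ⟨t, u, (mul_pos_iff_of_pos_left a0).1 (by linarith), t1, t2, t3⟩
  set κ := min κ1 (min κ2 (κ3 / a)) with hκ
  have k0 : 0 < κ := lt_min k1 (lt_min k2 (div_pos k3 a0))
  have hD := hw.sd_ok (Pi := fun i => (c.A.e k).rep (Pi i)) h.tF
    ((hPi.tame (c.A.e k) _ (c.A.cK0 k) (c.A.sub0 k)).mono_scale fun _ => (pow_one _).ge) hR k0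
  obtain ⟨w, tw, hw0, C1, κ', k', hev⟩ := H c.N hN c.𝓕 _ (ContinuousLinearEquiv.refl ℝ P2) hD
    ((tendsto_pow_atTop (by omega)).comp c.lim) (by
      filter_upwards [h1, h2, h3] with i h1 h2 h3
      refine ⟨⟨fun z _ => (c.div_le i le_rfl k0.le (min_le_left _ _)).trans (h1 _), fun z hz =>
        (h2 z hz).mono (c.div_le i le_rfl k0.le ((min_le_right _ _).trans (min_le_left _ _)))⟩,
        fun z hz => ?_⟩
      obtain ⟨p, hp, rfl⟩ := hw.of_mem hz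
      obtain ⟨t, u, t0, -, t2, t3⟩ := hphi p hp
      have a1 := h3 p (hw.dom p hp).1
      rw [h.Ξ0 i p (hZ (hw.dom p hp).1), add_zero, t3 _ (h.tF.smooth i),
        (c.A.e k).tr_iff (h.tF.smooth i) (hw.src hp)] at a1
      have a2 := a1.add_range (-u)
      rw [map_neg, add_neg_cancel_right] at a2
      refine (a2.of_smul t0).mono ?_
      have := c.L0_pos i
      calc κ / c.L0 i ^ e ≤ κ3 / a / c.L0 i ^ e :=
            c.div_le i le_rfl k0.le ((min_le_right _ _).trans (min_le_right _ _))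
        _ = κ3 / c.L0 i ^ e / a := by ring
        _ ≤ _ := by gcongr)
  have tw' : PM (fun i => c.L0 i ^ (e * K)) fun i => (c.A.e k).ext (w i) :=
    hw.pm_ext (tw.mono_scale fun i => (pow_mul _ _ _).ge) hw0
  have m : ∀ i, c.L0 i ^ e ≤ c.L0 i ^ (e * K) := fun i => pow_le_pow_right₀ (c.L1 i) he
  have hs := tw.contDiff
  refine ⟨fun i q => F i q + (c.A.e k).ext (w i) q, e1.trans he, (h.tF.mono_scale m).add tw',
    h.tΞ.mono_scale m, h.tE.mono_scale m, hw.upd_imm he h.tF.smooth hs tw'.smooth hw0 h.imm k'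
      (hev.mono fun i hi z hz => (hi z hz).2.1), hw.upd_nd he h.tF.smooth hs tw'.smooth hw0
      (fun _ _ _ => rfl) h.nd (div_pos k' a0) (hev.mono fun i hi p hp => ?_), h.Esm, h.E0, ?_,
      fun i p hp => ?_, h.Ξ0⟩
  · obtain ⟨t, u, t0, t1, -, t3⟩ := hphi p hp
    have a1 := (hi _ (hw.to_mem hp)).2.2
    have zt := (c.A.e k).to_mem (hw.src hp)
    have ev : (c.A.e k).rep (fun q => F i q + (c.A.e k).ext (w i) q) =ᶠ[𝓝 ((c.A.e k).to p)]
        fun z => (c.A.e k).rep (F i) z + w i z := by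
      filter_upwards [(c.A.e k).rep_ext_ev (w i) zt] with z hz
      exact congrArg ((c.A.e k).rep (F i) z + ·) hz
    have sF := (c.A.e k).contDiffAt_rep (h.tF.smooth i) zt
    rw [h.Ξ0 i p (hZ (hw.dom p hp).1), add_zero, t3 _ ((h.tF.smooth i).add (tw'.smooth i)),
      d2_congr ev, ev.fderiv_eq, d2_add sF (hs i).contDiffAt,
      fderiv_fun_add (sF.differentiableAt (by simp)) (tw.differentiableAt (mem_univ _))]
    refine ((a1.smul t0).add_range u).mono ?_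
    have := c.L0_pos i
    have a2 : 1 / a ≤ t := by rw [div_le_iff₀' a0]; exact t1
    calc κ' / a / c.L0 i ^ e = 1 / a * (κ' / c.L0 i ^ e) := by ring
      _ ≤ _ := mul_le_mul_of_nonneg_right a2 (by positivity)
  · obtain ⟨C, hC⟩ := hw.upd_err (w := w) (C' := C1)
      (P := fun i p u => ‖dM (c.F1 i) p u‖ ^ 2 + Q i p u + E i p * dM c.φ p u ^ 2)
      (P' := fun i p u => ‖dM (c.F1 i) p u‖ ^ 2 + Q i p u + E i p * dM c.φ p u ^ 2 +
        ϱ p ^ (2 * c.N) * Pi i p * dM c.φ p u ^ 2) e1 hK0 (by omega) h.tF.smooth hs tw'.smooth hw0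
      (fun i p u hp => by rw [hw.ϱ_zero hp, zero_pow (by omega), zero_mul, zero_mul, add_zero])
      (h.err.imp fun C hC => hC.mono fun i hi p u => (abs_eq_abs.2 (Or.inl (by ring))).trans_le
        (hi p u)) (hev.mono fun i hi p u hp => by
        refine (abs_eq_abs.2 (Or.inl ?_)).trans_le ((hi _ (hw.to_mem hp)).1 ((c.A.e k).push p u))
        simp only [SData.amp2, PCtx.sd, (c.A.e k).cut_to ϱ (hw.src hp),
          (c.A.e k).rep_to _ (hw.src hp), (c.adapt k).push _ (hw.src hp),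
          ContinuousLinearEquiv.refl_apply]
        ring)
    exact ⟨C, hC.mono fun i hi p u => (abs_eq_abs.2 (Or.inl (by ring))).trans_le (hi p u)⟩
  · rw [← h.same i p hp]
    exact (hw.add_ev (F i) (hw0 i) fun h' => (hw.dom p h').2.1 hp).eq_of_nhds

end Vale.Agent.Iso4
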