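import Vale.Agent.Iso4.IterA

/-! Convergence of the iteration, and the openness theorem. -/

open scoped ContDiff Topology Manifold
open Set Filter

noncomputable section
namespace Vale.Agent.Iso4
universe u

variable {M : Type*} [TopologicalSpace M] [ChartedSpace E2 M] [T2Space M]

omit [T2Space M] in
theorem itB_sum (A : Atl M univ) {D : ℕ → M → V} (hD : ∀ n, Sm (D n))
    (hb : ∀ m, ∀ᶠ n in atTop, Bd A m ((1 / 2) ^ n) (D n)) :
    Sm (fun p => ∑' n, D n p) ∧ ∀ p u, HasSum (fun n => dM (D n) p u)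
      (dM (fun p => ∑' n, D n p) p u) := by
  have key : ∀ p, ∃ k, p ∈ (A.e k).source ∧
      ContDiffAt ℝ ∞ ((A.e k).rep fun p => ∑' n, D n p) ((A.e k).to p) ∧
      HasSum (fun n => fderiv ℝ ((A.e k).rep (D n)) ((A.e k).to p))
        (fderiv ℝ ((A.e k).rep fun p => ∑' n, D n p) ((A.e k).to p)) := by
    intro p
    obtain ⟨k, hp, hk⟩ := A.cover p (mem_univ p)
    refine ⟨k, hp, ?_⟩
    let w : ℕ → P2 → V := fun n z => A.bt k z • (A.e k).rep (D n) z
    have hK : tsupport (A.bt k) ⊆ A.K1 k := (A.supp k).trans (interior_subset.trans (A.K01 k))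
    have hout : ∀ n, ∀ z ∉ A.K1 k, w n =ᶠ[𝓝 z] fun _ => 0 := fun n z hz =>
      (notMem_tsupport_iff_eventuallyEq.1 fun h => hz (hK h)).mono fun y hy => by
        simp only [w, hy, Pi.zero_apply, zero_smul]
    have hw : ∀ n, ContDiff ℝ ∞ (w n) := fun n => contDiff_iff_contDiffAt.2 fun z => by
      by_cases hz : z ∈ A.K1 k
      · exact (A.smbt k).contDiffAt.smul ((A.e k).contDiffAt_rep (hD n) (A.sub1 k hz))
      · exact contDiffAt_const.congr_of_eventuallyEq (hout n z hz)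
    have hwc : ∀ n, HasCompactSupport (w n) := fun n => (A.bt_supp k).smul_right
    have hv : ∀ m, ∃ v : ℕ → ℝ, Summable v ∧ ∀ n z, ‖iteratedFDeriv ℝ m (w n) z‖ ≤ v n := by
      intro m
      choose c hc using fun j => ((A.smbt k).continuous_iteratedFDeriv
        (tame_le j)).bounded_above_of_compact_support ((A.bt_supp k).iteratedFDeriv j)
      have hc' : ∀ j, 0 ≤ c j := fun j => (norm_nonneg _).trans (hc j 0)
      choose v0 hv0 using fun n => ((hw n).continuous_iteratedFDeriv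
        (tame_le m)).bounded_above_of_compact_support ((hwc n).iteratedFDeriv m)
      obtain ⟨N, hN⟩ := eventually_atTop.1
        ((eventually_all_finset (Finset.range (m + 1))).2 fun j _ => hb j)
      set C := ‖(ContinuousLinearMap.lsmul ℝ ℝ : ℝ →L[ℝ] V →L[ℝ] V)‖ *
        ∑ j ∈ Finset.range (m + 1), (m.choose j : ℝ) * c j with hC
      have hC0 : 0 ≤ C := mul_nonneg (ContinuousLinearMap.opNorm_nonneg _)
        (Finset.sum_nonneg fun j _ => mul_nonneg (Nat.cast_nonneg _) (hc' j))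
      refine ⟨fun n => if N ≤ n then C * (1 / 2) ^ n else v0 n, ?_, fun n z => ?_⟩
      · refine (summable_geometric_two.mul_left C).congr_atTop ?_
        filter_upwards [eventually_ge_atTop N] with n hn
        rw [if_pos hn]
      · beta_reduce
        split_ifs with hn
        swap
        · exact hv0 n z
        by_cases hz : z ∈ A.K1 k
        · refine (tame_leib (ContinuousLinearMap.lsmul ℝ ℝ) (A.smbt k).contDiffAt
            ((A.e k).contDiffAt_rep (hD n) (A.sub1 k hz)) m).trans ?_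
          rw [hC, mul_assoc, Finset.sum_mul]
          gcongr with j hj
          · exact mul_nonneg (Nat.cast_nonneg _) (hc' j)
          · exact hc j z
          · exact hN n hn _ (Finset.mem_range.2 (by omega)) k z hz
        · rw [((hout n z hz).iteratedFDeriv ℝ m).self_of_nhds]
          simp only [iteratedFDeriv_fun_zero, Pi.zero_apply, norm_zero]
          positivity
    choose v hv hv' using hv
    have hone : ∀ᶠ z in 𝓝 ((A.e k).to p), A.bt k z = 1 :=
      ((A.smb k).continuous.continuousAt.eventually_ne (by rw [hk]; exact one_ne_zero)).mono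
        fun z hz => A.bt_one k z hz
    have he : ∀ n, (A.e k).rep (D n) =ᶠ[𝓝 ((A.e k).to p)] w n := fun n =>
      hone.mono fun z hz => by simp only [w, hz, one_smul]
    have he' : ((A.e k).rep fun p => ∑' n, D n p) =ᶠ[𝓝 ((A.e k).to p)] fun z => ∑' n, w n z :=
      hone.mono fun z hz => by simp only [w, hz, one_smul, Chart.rep]
    have h1 : ∀ n z, ‖fderiv ℝ (w n) z‖ ≤ v 1 n := fun n z => by simpa using hv' 1 n z
    refine ⟨(contDiff_tsum (N := ⊤) hw (fun m _ => hv m)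
      fun m n z _ => hv' m n z).contDiffAt.congr_of_eventuallyEq he', ?_⟩
    rw [he'.fderiv_eq, fderiv_tsum_apply (hv 1) (fun n => (hw n).differentiable (by simp)) h1
      (x₀ := 0) (Summable.of_norm_bounded (hv 0) fun n => by simpa using hv' 0 n 0)]
    have he2 : ∀ n, fderiv ℝ ((A.e k).rep (D n)) ((A.e k).to p) = fderiv ℝ (w n) ((A.e k).to p) :=
      fun n => (he n).fderiv_eq
    simp only [he2]
    exact (Summable.of_norm_bounded (hv 1) fun n => h1 n _).hasSum
  have hS : Sm fun p => ∑' n, D n p := Sm.of_rep fun p => by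
    obtain ⟨k, h1, h2, -⟩ := key p
    exact ⟨_, h1, h2⟩
  refine ⟨hS, fun p u => ?_⟩
  obtain ⟨k, h1, -, h3⟩ := key p
  simp only [fun n => (A.e k).dM_eq (hD n) h1 u, (A.e k).dM_eq hS h1 u]
  exact (ContinuousLinearMap.apply ℝ V ((A.e k).push p u)).hasSum h3

theorem iterate (A : Atl M univ) (g : Met M) {K b0 : ℕ} (hK : 2 ≤ K) (hb : 1 ≤ b0)
    (hs : StageP A g K b0) (h0 : ∀ (a : ℕ) (Λ : ℝ), ∃ L F, Λ ≤ L ∧ Inv A g a b0 L F) :
    ∃ F : M → V, Sm F ∧ ∀ p u, ‖dM F p u‖ ^ 2 = g.q p u := by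
  choose a Λ h using fun n : ℕ => itA_block hK hs (Nat.le_add_right b0 n)
    (show (0 : ℝ) < (1 / 2) ^ n by positivity)
  obtain ⟨f, hf⟩ := itA_seq (α := ℝ × (M → V))
    (P := fun n x => max (Λ n) (n + 1) ≤ x.1 ∧ Inv A g (a n) (b0 + n) x.1 x.2)
    (R := fun n x y => ∀ m, K * (m + 1) ≤ b0 + n + m →
      Bd A m ((1 / 2) ^ n) fun p => y.2 p - x.2 p)
    (by
      obtain ⟨L, F, h1, h2⟩ := h0 (a 0) (max (Λ 0) ((0 : ℕ) + 1))
      exact ⟨(L, F), h1, h2⟩)
    (fun n x hx => by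
      obtain ⟨L, F, h1, h2, h3⟩ := h n (a (n + 1)) (max (Λ (n + 1)) ((n + 1 : ℕ) + 1)) x.1 x.2
        ((le_max_left _ _).trans hx.1) hx.2
      exact ⟨(L, F), ⟨h1, h2⟩, h3⟩)
  have hsm : ∀ n, Sm (f n).2 := fun n => (hf n).1.2.sm
  obtain ⟨hS, hd⟩ := itB_sum A (D := fun n p => (f (n + 1)).2 p - (f n).2 p)
    (fun n => (hsm _).sub (hsm _)) fun m =>
      (eventually_ge_atTop (K * (m + 1))).mono fun n hn => (hf n).2 m (by omega)
  refine ⟨_, (hsm 0).add hS, fun p u => ?_⟩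
  have h1 := ((hd p u).tendsto_sum_nat).const_add (dM (f 0).2 p u)
  have h2 : ∀ N, dM (f 0).2 p u + ∑ n ∈ Finset.range N,
      dM (fun p => (f (n + 1)).2 p - (f n).2 p) p u = dM (f N).2 p u := by
    intro N
    simp only [fun n => dM_sub (p := p) (hsm (n + 1)) (hsm n), ContinuousLinearMap.sub_apply]
    rw [Finset.sum_range_sub fun n => dM (f n).2 p u]
    abel
  simp only [h2] at h1
  rw [dM_add (hsm 0) hS, ContinuousLinearMap.add_apply]
  refine tendsto_nhds_unique (h1.norm.pow 2) ?_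
  rw [tendsto_iff_dist_tendsto_zero]
  have h3 := (tendsto_one_div_add_atTop_nhds_zero_nat (𝕜 := ℝ)).const_mul (2 * g.q p u)
  rw [mul_zero] at h3
  refine squeeze_zero (fun _ => dist_nonneg) (fun N => ?_) h3
  have hq := g.q_nonneg p u
  have hL : (N : ℝ) + 1 ≤ (f N).1 := (le_max_right _ _).trans (hf N).1.1
  have hN : (0 : ℝ) < N + 1 := by positivity
  have hL1 : 1 ≤ (f N).1 := le_trans (by linarith [Nat.cast_nonneg (α := ℝ) N]) hL
  have hδ : del (b0 + N) (f N).1 ≤ 1 / (N + 1) := by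
    rw [del, one_div]
    exact inv_anti₀ hN (hL.trans (le_self_pow₀ hL1 (by omega)))
  have hδ0 : 0 ≤ del (b0 + N) (f N).1 := by rw [del]; positivity
  have hδ' : del (b0 + N) (f N).1 / (f N).1 ≤ 1 / (N + 1) := (div_le_self hδ0 hL1).trans hδ
  have he := abs_le.1 ((hf N).1.2.err p u)
  have h4 := mul_le_mul_of_nonneg_right hδ hq
  have h5 := mul_le_mul_of_nonneg_right hδ' hq
  have h6 := mul_nonneg hδ0 hq
  rw [Real.dist_eq, abs_le]
  constructor <;> nlinarith [he.1, he.2]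

/-- nondegeneracy of a family in all charts -/
def NDall {ι : Type*} (𝓕 : Filter ι) (L : ι → ℝ) (F : ι → M → V) : Prop :=
  ∀ (e : Chart M) (K : Set P2), IsCompact K → K ⊆ e.target → ∃ κ : ℝ, 0 < κ ∧ ∀ᶠ i in 𝓕, ∀ z ∈ K,
    ∃ v : P2, ‖v‖ ≤ 1 ∧ Tr (κ / L i) (d2 (e.rep (F i)) z v v) (fderiv ℝ (e.rep (F i)) z)

theorem openness [CompactSpace M] [IsManifold (𝓡 2) ∞ M] (g : Met M) : ∃ N0 : ℕ,
    ∀ {ι : Type u} (𝓕 : Filter ι) [𝓕.NeBot] (L : ι → ℝ) (F : ι → M → V), Tendsto L 𝓕 atTop →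
      PM L F → (∃ C : ℝ, ∀ᶠ i in 𝓕, ∀ p u, |‖dM (F i) p u‖ ^ 2 - g.q p u| ≤ C / L i ^ N0 * g.q p u) →
      NDall 𝓕 L F → ∃ F : M → V, Sm F ∧ ∀ p u, ‖dM F p u‖ ^ 2 = g.q p u := by
  obtain ⟨A, hA⟩ := exists_atl (M := M) isClosed_univ (fun e => e.Seven g)
    fun p _ => exists_seven g p
  obtain ⟨K, b0, hK, hb, hs⟩ := stage A g hA
  refine ⟨4 * b0 + 3, fun 𝓕 _ L F hL hF ⟨C, hC⟩ hN => iterate A g hK hb hs fun a Λ => ?_⟩
  choose κ hκ hN using fun k => hN (A.e k) (A.K1 k) (A.cK1 k) (A.sub1 k)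
  choose D hD0 hD using fun k m => (hF.tame (A.e k) (A.K1 k) (A.cK1 k) (A.sub1 k)).bound m
  have e1 : ∀ᶠ i in 𝓕, ∀ k, 2 / κ k ≤ L i :=
    eventually_all.2 fun k => hL.eventually_ge_atTop _
  have e2 : ∀ᶠ i in 𝓕, ∀ k, ∀ m ∈ Finset.range (a + 1), D k m ≤ L i :=
    eventually_all.2 fun k => (eventually_all_finset _).2 fun m _ => hL.eventually_ge_atTop _
  obtain ⟨i, ⟨⟨h1, h2⟩, h3, h4⟩, h5⟩ := (((e1.and e2).and (hC.and (eventually_all.2 hN))).and
    (hL.eventually_ge_atTop (max (max 2 Λ) C))).exists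
  simp only [max_le_iff] at h5
  obtain ⟨⟨h5, h6⟩, h7⟩ := h5
  have hL0 : 0 < L i := by linarith
  have hδ0 : 0 < del b0 (L i ^ 2) := by rw [del]; positivity
  have hδ : del b0 (L i ^ 2) ≤ 1 / 4 := by
    rw [del, one_div]
    refine inv_anti₀ (by norm_num) (le_trans ?_ (le_self_pow₀ (by nlinarith) (by omega)))
    nlinarith
  set c := √(1 - del b0 (L i ^ 2)) with hc
  have hc2 : c ^ 2 = 1 - del b0 (L i ^ 2) := Real.sq_sqrt (by linarith)
  have hc0 : 1 / 2 ≤ c := Real.le_sqrt_of_sq_le (by linarith)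
  have hc1 : c ≤ 1 := Real.sqrt_le_one.2 (by linarith)
  have hrep : ∀ k, (A.e k).rep (fun p => c • F i p) = c • (A.e k).rep (F i) := fun k => rfl
  refine ⟨L i ^ 2, fun p => c • F i p, by nlinarith, (Sm.const c).smul (hF.smooth i),
    fun m hm k z hz => ?_, fun p u => ?_, fun k z hz => ?_⟩
  · rw [hrep, iteratedFDeriv_const_smul_apply
      (((A.e k).contDiffAt_rep (hF.smooth i) (A.sub1 k hz)).of_le (tame_le m)), norm_smul,
      Real.norm_of_nonneg (by linarith)]
    refine (mul_le_of_le_one_left (norm_nonneg _) hc1).trans ((hD k m i z hz).trans ?_)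
    have h8 : D k m ≤ L i ^ (m + 1) := (h2 k m (Finset.mem_range.2 (by omega))).trans
      (le_self_pow₀ (by linarith) (Nat.succ_ne_zero m))
    calc D k m * (1 * L i ^ (1 + m)) ≤ L i ^ (m + 1) * (1 * L i ^ (1 + m)) := by gcongr
      _ = _ := by ring
  · have hq := g.q_nonneg p u
    rw [dM_const_smul (hF.smooth i), ContinuousLinearMap.smul_apply, norm_smul, mul_pow,
      Real.norm_eq_abs, sq_abs, hc2, ← mul_sub, abs_mul, abs_sub_comm (g.q p u),
      abs_of_nonneg (by linarith)]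
    refine (mul_le_of_le_one_left (abs_nonneg _) (by linarith)).trans ((h3 p u).trans ?_)
    refine mul_le_mul_of_nonneg_right ?_ hq
    calc C / L i ^ (4 * b0 + 3) ≤ L i / L i ^ (4 * b0 + 3) := by gcongr
      _ = _ := by rw [del]; field_simp; ring
  · obtain ⟨v, hv, hT⟩ := h4 k z hz
    refine ⟨v, hv, fun u => ?_⟩
    have hsm := (A.e k).contDiffAt_rep (hF.smooth i) (A.sub1 k hz)
    have h8 : fderiv ℝ (c • (A.e k).rep (F i)) = c • fderiv ℝ ((A.e k).rep (F i)) :=
      fderiv_const_smul_field c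
    have h8' : fderiv ℝ (c • fderiv ℝ ((A.e k).rep (F i))) z =
        c • fderiv ℝ (fderiv ℝ ((A.e k).rep (F i))) z :=
      fderiv_const_smul ((tame_fd hsm).differentiableAt (by simp)) c
    rw [hrep, d2, h8, h8']
    simp only [Pi.smul_apply, ContinuousLinearMap.smul_apply]
    rw [← smul_sub, norm_smul, Real.norm_of_nonneg (by linarith)]
    have h9 := hT u
    have h10 := h1 k
    have h11 := hκ k
    rw [div_le_iff₀ h11] at h10
    calc 1 / L i ^ 2 ≤ 1 / 2 * (κ k / L i) := by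
          rw [div_le_iff₀ (by positivity)]
          have : 1 / 2 * (κ k / L i) * L i ^ 2 = L i * κ k / 2 := by field_simp
          linarith
      _ ≤ _ := mul_le_mul hc0 h9 (by positivity) (by linarith)

end Vale.Agent.Iso4
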