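import Vale.Agent.Iso4.Geo

/-! Decomposition of the large deficit. -/

open scoped ContDiff Topology Manifold
open Set Filter

noncomputable section
namespace Vale.Agent.Iso4

variable {M : Type*} [TopologicalSpace M] [ChartedSpace E2 M] [T2Space M] [CompactSpace M]
  [IsManifold (𝓡 2) ∞ M]

/-- the normalising sum, positive everywhere -/
def Geo.SS {g : Met M} (Γ : Geo g) (A : Atl M (Γ.Out (1 / 2))) (N : ℕ) (p : M) : ℝ :=
  A.SN N p + Γ.bm (1 / 2) 1 p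

theorem Geo.SS_facts {g : Met M} (Γ : Geo g) (A : Atl M (Γ.Out (1 / 2))) (N : ℕ) :
    Sm (Γ.SS A N) ∧ (∀ p, 1 ≤ Γ.SS A N p) ∧ (∀ p, Γ.SS A N p ≤ A.n + 1) ∧
      ∀ p ∈ Γ.Out 1, Γ.SS A N p = A.SN N p := by
  refine ⟨(A.sm_SN N).add (Γ.sm_bm (by norm_num)), fun p => ?_, fun p =>
    add_le_add (A.SN_le N p) (Γ.bm_mem _ _ p).2, fun p hp => by rw [Geo.SS, Γ.bm_zero hp, add_zero]⟩
  by_cases hp : p ∈ Γ.Out (1 / 2)
  · exact le_add_of_le_of_nonneg (A.one_le_SN N hp) (Γ.bm_mem _ _ p).1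
  · rw [Geo.SS, Γ.bm_one (by norm_num) (by norm_num) hp]
    linarith [A.SN_nonneg N p]

/-- the large deficit in a chart -/
def Geo.preH {g : Met M} (Γ : Geo g) (e : Chart M) (x : ℝ) (F : M → V) (u w z : P2) : ℝ :=
  (1 - Γ.ζ (e.inv z)) * (g.cf e u w z / 4) + Γ.ζ (e.inv z) * (g.cf e u w z -
    inner ℝ (dd u (e.rep F) z) (dd w (e.rep F) z) - (x ^ 2)⁻¹ * (u.1 * w.1))

omit [T2Space M] [CompactSpace M] [IsManifold (𝓡 2) ∞ M] in
theorem Geo.preH_eq {g : Met M} (Γ : Geo g) {e : Chart M} (he : e.Adapt Γ.φ) (x : ℝ) {F : M → V}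
    (hF : Sm F) {p : M} (hp : p ∈ e.source) (u : E2) : Γ.Hq x F p u =
      Γ.preH e x F (1, 0) (1, 0) (e.to p) * (e.push p u).1 ^ 2 +
        2 * Γ.preH e x F (1, 0) (0, 1) (e.to p) * (e.push p u).1 * (e.push p u).2 +
        Γ.preH e x F (0, 1) (0, 1) (e.to p) * (e.push p u).2 ^ 2 := by
  have hv : e.push p u = (e.push p u).1 • ((1, 0) : P2) + (e.push p u).2 • ((0, 1) : P2) := by simp
  have h1 : dM F p u = (e.push p u).1 • dd (1, 0) (e.rep F) (e.to p) +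
      (e.push p u).2 • dd (0, 1) (e.rep F) (e.to p) := by
    rw [e.dM_eq hF hp, hv, map_add, map_smul, map_smul, ← hv]; rfl
  rw [Geo.Hq, g.q_eq e hp, g.cf_expand, Chart.Adapt.push e he hp, h1, ← real_inner_self_eq_norm_sq]
  simp only [Geo.preH, e.inv_to hp, inner_add_left, inner_add_right, real_inner_smul_left,
    real_inner_smul_right, real_inner_comm (dd (1, 0) (e.rep F) (e.to p))]
  ring

omit [CompactSpace M] [IsManifold (𝓡 2) ∞ M] in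
theorem Geo.preH_tame {g : Met M} (Γ : Geo g) {e : Chart M} {K : Set P2} (hK : IsCompact K)
    (h : K ⊆ e.target) {ι : Type*} {x L0 : ι → ℝ} (hx1 : ∀ i, 1 ≤ x i) {F : ι → M → V}
    (hF : PM L0 F) (u w : P2) :
    Tame (fun _ => K) (fun _ _ => 1) L0 4 fun i => Γ.preH e (x i) (F i) u w := by
  have hL := hF.one_le
  have hζ : Sm Γ.ζ := (Sm.const 1).sub (Γ.sm_bm (by norm_num))
  have t0 : ∀ {f : P2 → ℝ} (k : ℕ), (∀ z ∈ e.target, ContDiffAt ℝ ∞ f z) →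
      Tame (fun _ => K) (fun _ _ => 1) L0 k fun _ => f := fun k hf =>
    Tame.fixed_compact hL hK (fun z hz => hf z (h hz)) fun _ => subset_rfl
  have t1 := hF.tame e K hK h
  have t2 : Tame (fun _ => K) (fun _ _ => 1) L0 4 fun i (_ : P2) => (x i ^ 2)⁻¹ * (u.1 * w.1) :=
    (Tame.const (k := 0) hL (c := fun i => (x i ^ 2)⁻¹) fun i _ _ => by
      rw [Real.norm_of_nonneg (by positivity)]
      exact inv_le_one_of_one_le₀ (one_le_pow₀ (hx1 i))).mul1 (Tame.const_one (k := 4) hL _)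
  exact (t0 4 fun z hz => (contDiffAt_const.sub (e.contDiffAt_rep hζ hz)).mul
    ((g.contDiffAt_cf e u w hz).div_const 4)).add
    ((t0 0 fun z hz => e.contDiffAt_rep hζ hz).mul1
      (((t0 4 fun z hz => g.contDiffAt_cf e u w hz).sub ((t1.dd u).inner1 (t1.dd w))).sub t2))

omit [T2Space M] [CompactSpace M] [IsManifold (𝓡 2) ∞ M] in
theorem Geo.preH_low {g : Met M} (Γ : Geo g) {e : Chart M} (he : e.Phi g Γ.φ) {K : Set P2}
    (hK : IsCompact K) (h : K ⊆ e.target) : ∃ κ η : ℝ, 0 < κ ∧ 0 < η ∧ ∀ (x : ℝ) (F : M → V),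
      Sm F → (∀ p, ∃ h ∈ Icc (1 / 4 : ℝ) 1, ∀ u, |Γ.Hq x F p u - h * g.q p u| ≤ η * g.q p u) →
      ∀ z ∈ K, κ ≤ Γ.preH e x F (0, 1) (0, 1) z - |Γ.preH e x F (1, 0) (0, 1) z| ∧
        Γ.preH e x F (0, 1) (0, 1) z ≤ Γ.preH e x F (1, 0) (1, 0) z := by
  obtain ⟨c, C, hc, hC, hcmp⟩ := g.compare e hK h
  refine ⟨c / 16, c / (32 * C), by positivity, by positivity, fun x F hF hcl z hz => ?_⟩
  obtain ⟨t, ⟨ht1, ht2⟩, ht⟩ := hcl (e.inv z)
  have key : ∀ v : P2, ‖v‖ = 1 → |Γ.preH e x F (1, 0) (1, 0) z * v.1 ^ 2 +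
      2 * Γ.preH e x F (1, 0) (0, 1) z * v.1 * v.2 + Γ.preH e x F (0, 1) (0, 1) z * v.2 ^ 2 -
      t * g.cf e v v z| ≤ c / 32 := by
    intro v hv
    have h1 := ht (e.pull z v)
    rw [Γ.preH_eq he.1 x hF (e.inv_mem (h hz)), e.push_pull (h hz), e.to_inv (h hz),
      ← g.cf_eq] at h1
    have h2 := (hcmp z hz v).2
    rw [hv] at h2
    refine h1.trans ((mul_le_mul_of_nonneg_left h2 (by positivity)).trans_eq ?_)
    field_simp
  have k1 := abs_le.1 (key (1, 0) (by simp))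
  have k2 := abs_le.1 (key (0, 1) (by simp))
  have k3 := abs_le.1 (key (1, 1) (by simp))
  have k4 := abs_le.1 (key (1, -1) (by simp))
  rw [g.cf_expand e (1, 1)] at k3
  rw [g.cf_expand e (1, -1)] at k4
  have g2 := (hcmp z hz (0, 1)).1
  obtain ⟨g3, g4⟩ := he.2 z (h hz)
  have g5 := le_abs_self (g.cf e (1, 0) (0, 1) z)
  have g6 := neg_abs_le (g.cf e (1, 0) (0, 1) z)
  simp only [Prod.norm_mk, norm_zero, norm_one, zero_le_one, sup_of_le_right] at g2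
  norm_num at k1 k2 k3 k4 g2
  have ht0 : 0 ≤ t := by linarith
  have m1 := mul_le_mul_of_nonneg_left g3 ht0
  have m2 := mul_le_mul_of_nonneg_left g4 ht0
  have m3 := mul_le_mul_of_nonneg_left g5 ht0
  have m4 := mul_le_mul_of_nonneg_left g6 ht0
  have m5 : c / 4 ≤ t * g.cf e (0, 1) (0, 1) z := by nlinarith
  constructor
  · rw [le_sub_comm, abs_le]
    constructor <;> nlinarith [k1.1, k1.2, k2.1, k2.2, k3.1, k3.2, k4.1, k4.2]
  · nlinarith [k1.1, k1.2, k2.1, k2.2]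

theorem Geo.predata {g : Met M} (Γ : Geo g) (A : Atl M (Γ.Out (1 / 2)))
    (hA : ∀ k, (A.e k).Phi g Γ.φ) {ι : Type*} {𝓕 : Filter ι} {x L0 : ι → ℝ} (hx1 : ∀ i, 1 ≤ x i)
    (hx : Tendsto x 𝓕 atTop) {N : ℕ} (hN : 1 ≤ N) {F Ξ : ι → M → V}
    (h : Γ.InitOut A 𝓕 x L0 N F Ξ) :
    ∃ (Pi : Fin A.n → Bool → ι → P2 → ℝ) (c0 : ι → M → ℝ),
      (∀ k s, PT (fun _ => A.K0 k) (fun i => L0 i ^ 4) 1 (Pi k s)) ∧
      (∀ k s, ∃ κ : ℝ, 0 < κ ∧ ∀ᶠ i in 𝓕, ∀ z ∈ A.K0 k, κ ≤ Pi k s i z) ∧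
      PM (fun i => L0 i ^ 4) c0 ∧ (∀ᶠ i in 𝓕, ∀ p, 0 ≤ c0 i p) ∧
      (∀ i, ∀ p ∉ Γ.Out 3, c0 i p = 0) ∧
      ∀ i p u, ∑ k, ∑ s : Bool, (A.bM k p * Γ.ϑ0 p) ^ (2 * N) * Pi k s i ((A.e k).to p) *
          (((A.e k).push p u).2 + (if s then 1 else -1) * ((A.e k).push p u).1) ^ 2 =
        Γ.ϑ0 p ^ (2 * N) * Γ.Hq (x i) (F i) p u - c0 i p * dM Γ.φ p u ^ 2 := by
  obtain ⟨hS1, hS2, hS3, hS4⟩ := Γ.SS_facts A N
  have hL := h.tF.one_le
  have hS0 : ∀ p, 0 < Γ.SS A N p := fun p => one_pos.trans_le (hS2 p)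
  have hϑ : Sm Γ.ϑ0 := (Sm.const 1).sub (Γ.sm_bm (by norm_num))
  have hϑ0 : ∀ p ∉ Γ.Out 3, Γ.ϑ0 p = 0 := fun p hp => by
    rw [Geo.ϑ0, Γ.bm_one (by norm_num) (by norm_num) hp, sub_self]
  have hN0 : 2 * N ≠ 0 := by omega
  have tH := fun k => Γ.preH_tame (A.cK0 k) (A.sub0 k) hx1 h.tF
  have t0 : ∀ k, ∀ {f : P2 → ℝ}, (∀ z ∈ (A.e k).target, ContDiffAt ℝ ∞ f z) →
      Tame (fun _ => A.K0 k) (fun _ _ => 1) L0 0 fun _ => f := fun k f hf =>
    Tame.fixed_compact hL (A.cK0 k) (fun z hz => hf z (A.sub0 k hz)) fun _ => subset_rfl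
  have tS : ∀ k, Tame (fun _ => A.K0 k) (fun _ _ => 1) L0 0
      fun _ z => (Γ.SS A N ((A.e k).inv z))⁻¹ := fun k =>
    t0 k fun z hz => ((A.e k).contDiffAt_rep hS1 hz).inv (hS0 _).ne'
  have hL4 : ∀ i, L0 i ≤ L0 i ^ 4 := fun i => le_self_pow₀ (hL i) (by norm_num)
  choose κ η hκ hη hlow using fun k => Γ.preH_low (hA k) (A.cK0 k) (A.sub0 k)
  obtain ⟨C, hC⟩ := h.close
  have hev : ∀ k, ∀ᶠ i in 𝓕, ∀ z ∈ A.K0 k, κ k ≤ Γ.preH (A.e k) (x i) (F i) (0, 1) (0, 1) z -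
      |Γ.preH (A.e k) (x i) (F i) (1, 0) (0, 1) z| ∧ Γ.preH (A.e k) (x i) (F i) (0, 1) (0, 1) z ≤
        Γ.preH (A.e k) (x i) (F i) (1, 0) (1, 0) z := by
    intro k
    filter_upwards [hC, hx.eventually_ge_atTop (C / η k)] with i h1 h2
    refine hlow k _ _ (h.tF.smooth i) fun p => ?_
    obtain ⟨t, ht, ht'⟩ := h1 p
    refine ⟨t, ht, fun u => (ht' u).trans (mul_le_mul_of_nonneg_right ?_ (g.q_nonneg p u))⟩
    rw [div_le_iff₀ (hη k)] at h2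
    rw [div_le_iff₀ (one_pos.trans_le (hx1 i))]
    linarith
  refine ⟨fun k s i z => (Γ.SS A N ((A.e k).inv z))⁻¹ * (2⁻¹ *
      (Γ.preH (A.e k) (x i) (F i) (0, 1) (0, 1) z +
        (if s then 1 else -1) * Γ.preH (A.e k) (x i) (F i) (1, 0) (0, 1) z)),
    fun i p => ∑ k, (A.e k).ext (fun z => (A.b k z * Γ.ϑ0 ((A.e k).inv z)) ^ (2 * N) *
      ((Γ.SS A N ((A.e k).inv z))⁻¹ * (Γ.preH (A.e k) (x i) (F i) (1, 0) (1, 0) z -
        Γ.preH (A.e k) (x i) (F i) (0, 1) (0, 1) z))) p,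
    fun k s => ?_, fun k s => ?_, ?_, ?_, fun i p hp => ?_, fun i p u => ?_⟩
  · exact ((tS k).mul1 (((tH k _ _).add ((tH k _ _).const_mul _)).const_mul _)).absorb
      (fun i => by simpa using hL4 i) (fun i _ _ => by simp) fun _ _ _ => zero_le_one
  · refine ⟨((A.n : ℝ) + 1)⁻¹ * (2⁻¹ * κ k), by have := hκ k; positivity, ?_⟩
    filter_upwards [hev k] with i hi z hz
    have h1 := (hi z hz).1
    have h2 := hκ k
    refine mul_le_mul (inv_anti₀ (hS0 _) (hS3 _)) (mul_le_mul_of_nonneg_left ?_ (by norm_num))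
      (by positivity) (inv_pos.2 (hS0 _)).le
    have h3 := le_abs_self (Γ.preH (A.e k) (x i) (F i) (1, 0) (0, 1) z)
    have h4 := neg_abs_le (Γ.preH (A.e k) (x i) (F i) (1, 0) (0, 1) z)
    cases s <;> simp <;> linarith
  · refine TameM.sum (fun i => (hL i).trans (hL4 i)) (fun _ => zero_le_one) _ fun k _ =>
      TameM.ext (A.e k) (A.cK0 k) (A.sub0 k) (fun i z hz => ?_) (fun _ => zero_le_one) ?_
    · rw [A.b_zero k hz, zero_mul, zero_pow hN0, zero_mul]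
    · exact ((t0 k fun z hz => ((A.smb k).contDiffAt.mul ((A.e k).contDiffAt_rep hϑ hz)).pow
        (2 * N)).mul1 ((tS k).mul1 ((tH k _ _).sub (tH k _ _)))).absorb hL4
        (fun i _ _ => by simp) fun _ _ _ => zero_le_one
  · filter_upwards [eventually_all.2 hev] with i hi p
    refine Finset.sum_nonneg fun k _ => ?_
    by_cases hp : p ∈ (A.e k).source
    · rw [(A.e k).ext_of_mem _ hp]
      by_cases hz : (A.e k).to p ∈ A.K0 k
      · exact mul_nonneg (by rw [pow_mul]; positivity)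
          (mul_nonneg (inv_pos.2 (hS0 _)).le (sub_nonneg.2 (hi k _ hz).2))
      · rw [A.b_zero k hz, zero_mul, zero_pow hN0, zero_mul]
    · rw [(A.e k).ext_of_not_mem _ hp]
  · refine Finset.sum_eq_zero fun k _ => ?_
    by_cases hk : p ∈ (A.e k).source
    · rw [(A.e k).ext_of_mem _ hk, (A.e k).inv_to hk, hϑ0 p hp, mul_zero, zero_pow hN0, zero_mul]
    · rw [(A.e k).ext_of_not_mem _ hk]
  · have h1 : Γ.ϑ0 p ^ (2 * N) * Γ.Hq (x i) (F i) p u = ∑ k, (A.bM k p * Γ.ϑ0 p) ^ (2 * N) *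
        ((Γ.SS A N p)⁻¹ * Γ.Hq (x i) (F i) p u) := by
      simp only [mul_pow]
      rw [← Finset.sum_mul, ← Finset.sum_mul]
      by_cases hp : p ∈ Γ.Out 3
      · have h2 := hS4 p (Γ.Out_mono (by norm_num) hp)
        have h3 := (hS0 p).ne'
        rw [show ∑ k, A.bM k p ^ (2 * N) = Γ.SS A N p from h2.symm]
        field_simp
      · rw [hϑ0 p hp, zero_pow hN0]; ring
    rw [h1, Finset.sum_mul, ← Finset.sum_sub_distrib]
    refine Finset.sum_congr rfl fun k _ => ?_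
    by_cases hk : p ∈ (A.e k).source
    · rw [(A.e k).ext_of_mem _ hk, Atl.bM, (A.e k).ext_of_mem _ hk, (A.e k).inv_to hk,
        Γ.preH_eq (hA k).1 _ (h.tF.smooth i) hk, Chart.Adapt.push (A.e k) (hA k).1 hk]
      simp only [Fintype.sum_bool, if_true, Bool.false_eq_true, if_false, (A.e k).inv_to hk]
      ring
    · rw [(A.e k).ext_of_not_mem _ hk, Atl.bM, (A.e k).ext_of_not_mem _ hk, zero_mul,
        zero_pow hN0]
      simp

end Vale.Agent.Iso4
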