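import Vale.Agent.Iso4.PSt

/-! One preliminary step on the surface. -/

open scoped ContDiff Topology Manifold
open Set Filter

noncomputable section
namespace Vale.Agent.Iso4
universe u

variable {M : Type*} [TopologicalSpace M] [ChartedSpace E2 M] [T2Space M] [CompactSpace M]
  [IsManifold (𝓡 2) ∞ M]

/-- the change of coordinates of a preliminary step -/
def swS (σ : ℝ) : P2 ≃L[ℝ] P2 := (ContinuousLinearEquiv.prodComm ℝ ℝ ℝ).trans (shear σ)

theorem swS_apply (σ : ℝ) (u : P2) : swS σ u = (u.2 + σ * u.1, u.1) := rfl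

theorem swS_symm (σ : ℝ) : (swS σ).symm (1, 0) = (0, 1) := by
  rw [ContinuousLinearEquiv.symm_apply_eq, swS_apply]
  simp

theorem prelim_one : ∃ K : ℕ, 1 ≤ K ∧ ∀ {ι : Type u} (c : PCtx M ι), K ≤ c.K0 → 2 * K ≤ c.N →
    ∀ (e : ℕ) (F Ξ : ι → M → V) (E : ι → M → ℝ) (Q : ι → M → E2 → ℝ) (Z : Set M) (k : Fin c.A.n)
      (σ : ℝ) (ϖ ϱ : M → ℝ) (Pi : ι → P2 → ℝ), PSt c e F Ξ E Q Z → Wt c k ϖ ϱ →
      (∀ p, 0 < ϖ p → p ∉ c.U2) → PT (fun _ => c.A.K0 k) (fun i => c.L0 i ^ e) 1 Pi →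
      (∃ κ : ℝ, 0 < κ ∧ ∀ᶠ i in c.𝓕, ∀ z ∈ c.A.K0 k, κ ≤ Pi i z) →
      ∃ F' Ξ' E', PSt c (e * K) F' Ξ' E'
        (fun i p u => Q i p u + ϱ p ^ (2 * c.N) * Pi i ((c.A.e k).to p) *
          (((c.A.e k).push p u).2 + σ * ((c.A.e k).push p u).1) ^ 2) (Z ∪ {p | ϱ p = 1}) := by
  obtain ⟨K, hK, H⟩ := stepP'.{u}
  refine ⟨3 * K, by omega, ?_⟩
  intro ι c hK0 hN e0 F Ξ E Q Z k σ ϖ ϱ Pi h0 hw hU hPi ⟨κ1, k1, h1⟩
  rw [← mul_assoc]
  have tB : PM (fun i => c.L0 i ^ (e0 * 3)) fun i p => c.A.D (F i) p + Ξ i p :=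
    (((c.A.tame_D h0.tF).add (h0.tΞ.mono_k (by norm_num))).toPM (k' := 3) (fun _ => le_rfl)
      le_rfl (by norm_num)).mono_scale fun i => (pow_mul _ _ _).ge
  have h := h0.mono (by omega : e0 ≤ e0 * 3)
  replace hPi : PT (fun _ => c.A.K0 k) (fun i => c.L0 i ^ (e0 * 3)) 1 Pi :=
    hPi.mono_scale fun i => pow_le_pow_left₀ (pow_pos (c.L0_pos i) _).le
      (pow_le_pow_right₀ (c.L1 i) (by omega)) 1
  generalize e0 * 3 = e at tB h hPi ⊢
  have he : e ≤ e * K := Nat.le_mul_of_pos_right _ (by omega)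
  have e1 := h.e1
  obtain ⟨R, hR⟩ := c.A.bdd k
  obtain ⟨κ2, k2, h2⟩ := hw.sd_imm h.tF.smooth h.imm
  obtain ⟨κ3, k3, h3⟩ := h.nd
  obtain ⟨a, a0, ha⟩ := c.A.D_phi (X := V) c.adapt (c.A.e k) (c.adapt k) (c.A.cK0 k) (c.A.sub0 k)
  obtain ⟨b, b0, hb⟩ := h.tΞ.norm_le
  set κ := min κ1 (min κ2 κ3) with hκ
  have k0 : 0 < κ := lt_min k1 (lt_min k2 k3)
  have hD := hw.sd_ok h.tF hPi hR k0
  obtain ⟨w, Es, tw, tE, hw0, C1, κ', k', hev⟩ := H c.N (by omega) c.𝓕 _
    (fun i => (c.A.e k).rep fun p => c.A.D (F i) p + Ξ i p) (swS σ) (a + b + 2 ^ c.N) hD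
    ((tendsto_pow_atTop (by omega)).comp c.lim)
    (((tB.tame (c.A.e k) _ (c.A.cK0 k) (c.A.sub0 k)).mono_scale
      fun _ => (pow_one _).ge).mono_set fun _ _ hz => hw.sub0 hz) (by
      filter_upwards [h1, h2, h3] with i h1 h2 h3
      refine ⟨⟨fun z hz => ((div_le_self k0.le (hD.L1 i)).trans (min_le_left _ _)).trans
        (h1 _ (hw.sub0 hz)), fun z hz =>
        (h2 z hz).mono (c.div_le i le_rfl k0.le ((min_le_right _ _).trans (min_le_left _ _)))⟩,
        fun z hz => ?_⟩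
      obtain ⟨p, hp, rfl⟩ := hw.of_mem hz
      have a1 := h3 p (hw.dom p hp).1
      rw [(c.A.e k).tr_iff (h.tF.smooth i) (hw.src hp)] at a1
      rw [(c.A.e k).rep_to _ (hw.src hp)]
      exact a1.mono (c.div_le i le_rfl k0.le ((min_le_right _ _).trans (min_le_right _ _))))
  have hw1 : ∀ i z, (c.A.e k).cut ϖ z < 1 / 2 → w i z = 0 := fun i z hz => (hw0 i z hz).1
  have hw2 : ∀ i z, (c.A.e k).cut ϖ z < 1 / 2 → Es i z = 0 := fun i z hz => (hw0 i z hz).2
  have tw' : PM (fun i => c.L0 i ^ (e * K)) fun i => (c.A.e k).ext (w i) :=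
    hw.pm_ext (tw.mono_scale fun i => (pow_mul _ _ _).ge) hw1
  have tE' : PM (fun i => c.L0 i ^ (e * K)) fun i => (c.A.e k).ext (Es i) :=
    hw.pm_ext (tE.mono_scale fun i => (pow_mul _ _ _).ge) hw2
  have m : ∀ i, c.L0 i ^ e ≤ c.L0 i ^ (e * K) := fun i => pow_le_pow_right₀ (c.L1 i) he
  have hs := tw.contDiff
  have sζ : Sm fun p => 1 - Real.smoothTransition (2 * ϱ p - 1) :=
    hw.smϱ.outer (Φ := fun t => 1 - Real.smoothTransition (2 * t - 1)) fun p =>
      contDiffAt_const.sub (Real.smoothTransition.contDiff.contDiffAt.comp _ (by fun_prop))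
  have E0 : ∀ i p, ¬0 < ϖ p → E i p + (c.A.e k).ext (Es i) p = E i p := fun i p hp =>
    (hw.add_ev (E i) (hw2 i) hp).eq_of_nhds
  refine ⟨fun i q => F i q + (c.A.e k).ext (w i) q,
    fun i p => (1 - Real.smoothTransition (2 * ϱ p - 1)) • Ξ i p,
    fun i q => E i q + (c.A.e k).ext (Es i) q, e1.trans he, (h.tF.mono_scale m).add tw',
    (h.tΞ.mono_scale m).fsmul sζ, (h.tE.mono_scale m).add tE',
    hw.upd_imm he h.tF.smooth hs tw'.smooth hw1 h.imm k'
      (hev.mono fun i hi z hz => (hi z hz).2.2.1), hw.upd_nd he h.tF.smooth hs tw'.smooth hw1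
      (fun i p hp => ?_) h.nd k' (hev.mono fun i hi p hp => ?_), ?_, fun i p hp => ?_, ?_,
      fun i p hp => ?_, fun i p hp => ?_⟩
  · rw [hw.ϱ_zero hp, Real.smoothTransition.zero_of_nonpos (by norm_num), sub_zero, one_smul]
  · have zt := (c.A.e k).to_mem (hw.src hp)
    have a2 := ha _ (hw.mem0 hp)
    rw [(c.A.e k).inv_to (hw.src hp)] at a2
    obtain ⟨t, u, t1, t2, t3, t4⟩ := a2 (hw.dom p hp).1
    have t0 : 0 < t := (mul_pos_iff_of_pos_left a0).1 (by linarith)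
    have l0 := pow_pos (c.L0_pos i) e
    have n2 : (0 : ℝ) < 2 ^ c.N := by positivity
    have a1 := (hi _ (hw.to_mem hp)).2.2.2 t u (Real.smoothTransition (2 * ϱ p - 1) • Ξ i p)
      (by nlinarith) (by linarith) (by linarith) (by
        rw [norm_smul, Real.norm_of_nonneg (Real.smoothTransition.nonneg _)]
        have a3 := hb i p
        rw [one_mul, pow_one] at a3
        calc _ ≤ 1 * (b * c.L0 i ^ e) := by
              gcongr
              exact Real.smoothTransition.le_one _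
          _ ≤ (a + b + 2 ^ c.N) * c.L0 i ^ e := by nlinarith) (fun h' => by
        have a3 : 1 / 2 ≤ ϱ p := by
          by_contra a4
          exact h' (by rw [Real.smoothTransition.zero_of_nonpos (by linarith), zero_smul])
        have a4 : (1 / 2) ^ c.N ≤ ϱ p ^ c.N := pow_le_pow_left₀ (by norm_num) a3 _
        have a5 : (2 : ℝ) ^ c.N * (1 / 2) ^ c.N = 1 := by rw [← mul_pow]; simp
        have a6 : (0 : ℝ) < (1 / 2) ^ c.N := by positivity
        change 1 ≤ (a + b + 2 ^ c.N) * (1 * (c.A.e k).cut ϱ ((c.A.e k).to p) ^ c.N)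
        rw [(c.A.e k).cut_to ϱ (hw.src hp), one_mul]
        calc (1 : ℝ) = 2 ^ c.N * (1 / 2) ^ c.N := a5.symm
          _ ≤ _ := by gcongr; linarith)
    have ev := (c.A.e k).rep_ext_ev (w i) zt
    rw [swS_symm, (c.A.e k).rep_to _ (hw.src hp)] at a1
    rw [c.A.D_add (h.tF.smooth i) (tw'.smooth i), t4 _ (tw'.smooth i), d2_congr ev, ev.fderiv_eq,
      sub_smul, one_smul]
    refine fun v => (a1 v).trans (le_of_eq (congrArg norm ?_))
    change _ - (fderiv ℝ ((c.A.e k).rep (F i)) _ + _) v = _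
    abel
  · obtain ⟨C, hC⟩ := h.Esm
    refine ⟨C + |C1|, ?_⟩
    filter_upwards [hC, hev] with i hC hi p
    have := c.L0_pos i
    rw [add_div]
    by_cases hp : 0 < ϖ p
    · refine (abs_add_le _ _).trans (add_le_add (hC p) ?_)
      rw [(c.A.e k).ext_of_mem _ (hw.src hp)]
      refine (hi _ (hw.to_mem hp)).2.1.trans ?_
      exact div_le_div₀ (abs_nonneg _) (le_abs_self _) (by positivity)
        (pow_le_pow_left₀ this.le (le_self_pow₀ (c.L1 i) (by omega)) 3)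
    · rw [E0 i p hp]
      exact (hC p).trans (le_add_of_nonneg_right (by positivity))
  · rw [E0 i p fun h' => hU p h' hp, h.E0 i p hp]
  · obtain ⟨C, hC⟩ := hw.upd_err (w := w) (C' := C1) (K := K)
      (P := fun i p u => ‖dM (c.F1 i) p u‖ ^ 2 + Q i p u + E i p * dM c.φ p u ^ 2)
      (P' := fun i p u => ‖dM (c.F1 i) p u‖ ^ 2 + (Q i p u + ϱ p ^ (2 * c.N) *
        Pi i ((c.A.e k).to p) * (((c.A.e k).push p u).2 + σ * ((c.A.e k).push p u).1) ^ 2) +
        (E i p + (c.A.e k).ext (Es i) p) * dM c.φ p u ^ 2)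
      e1 (by omega) (by omega) h.tF.smooth hs tw'.smooth hw1
      (fun i p u hp => by
        rw [hw.ϱ_zero hp, zero_pow (by omega), zero_mul, zero_mul, add_zero, E0 i p hp])
      (h.err.imp fun C hC => hC.mono fun i hi p u => (abs_eq_abs.2 (Or.inl (by ring))).trans_le
        (hi p u)) (hev.mono fun i hi p u hp => by
        refine (abs_eq_abs.2 (Or.inl ?_)).trans_le ((hi _ (hw.to_mem hp)).1 ((c.A.e k).push p u))
        simp only [SData.amp2, PCtx.sd, (c.A.e k).cut_to ϱ (hw.src hp),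
          (c.A.e k).ext_of_mem _ (hw.src hp), (c.adapt k).push _ (hw.src hp), swS_apply]
        ring)
    exact ⟨C, hC.mono fun i hi p u => (abs_eq_abs.2 (Or.inl (by ring))).trans_le (hi p u)⟩
  · rw [← h.same i p hp]
    exact (hw.add_ev (F i) (hw1 i) fun h' => (hw.dom p h').2.1 hp).eq_of_nhds
  · rcases hp with hp | hp
    · rw [h.Ξ0 i p hp, smul_zero]
    · rw [show ϱ p = 1 from hp, Real.smoothTransition.one_of_one_le (by norm_num), sub_self,
        zero_smul]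

end Vale.Agent.Iso4
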