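import Vale.Agent.Iso4.Init
import Vale.Agent.Iso4.PrelimOne
import Vale.Agent.Iso4.FinalOne
import Vale.Agent.Iso4.PreData
import Vale.Agent.Iso4.Iter

/-! The approximate solution. -/

open scoped ContDiff Topology Manifold
open Set Filter

noncomputable section
namespace Vale.Agent.Iso4

variable {M : Type*} [TopologicalSpace M] [ChartedSpace E2 M]

theorem PSt.alter {ι : Type*} {c : PCtx M ι} {e e' : ℕ} {F Ξ : ι → M → V} {E : ι → M → ℝ}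
    {Q Q' : ι → M → E2 → ℝ} {Z Z' : Set M} (h : PSt c e F Ξ E Q Z) (he : e = e')
    (hQ : ∀ i p u, Q i p u = Q' i p u) (hZ : Z' ⊆ Z) : PSt c e' F Ξ E Q' Z' := by
  obtain rfl : Q = Q' := by funext i p u; exact hQ i p u
  subst he
  exact { h with Ξ0 := fun i p hp => h.Ξ0 i p (hZ hp) }

variable [T2Space M] [CompactSpace M] [IsManifold (𝓡 2) ∞ M]

theorem prelim_loop : ∃ K : ℕ, 1 ≤ K ∧ ∀ (c : PCtx M ℕ), K ≤ c.K0 → 2 * K ≤ c.N →
    ∀ {J : Type} (T : Finset J) (e : ℕ) (F Ξ : ℕ → M → V) (E : ℕ → M → ℝ) (Q : ℕ → M → E2 → ℝ)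
      (Z : Set M) (k : J → Fin c.A.n) (σ : J → ℝ) (ϖ ϱ : J → M → ℝ) (Pi : J → ℕ → P2 → ℝ),
      PSt c e F Ξ E Q Z → (∀ j, Wt c (k j) (ϖ j) (ϱ j)) → (∀ j p, 0 < ϖ j p → p ∉ c.U2) →
      (∀ j, PT (fun _ => c.A.K0 (k j)) (fun i => c.L0 i ^ e) 1 (Pi j)) →
      (∀ j, ∃ κ : ℝ, 0 < κ ∧ ∀ᶠ i in c.𝓕, ∀ z ∈ c.A.K0 (k j), κ ≤ Pi j i z) →
      ∃ F' Ξ' E', PSt c (e * K ^ T.card) F' Ξ' E'
        (fun i p u => Q i p u + ∑ j ∈ T, ϱ j p ^ (2 * c.N) * Pi j i ((c.A.e (k j)).to p) *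
          (((c.A.e (k j)).push p u).2 + σ j * ((c.A.e (k j)).push p u).1) ^ 2)
        (Z ∪ {p | ∃ j ∈ T, ϱ j p = 1}) := by
  obtain ⟨K, hK, h⟩ := prelim_one.{0} (M := M)
  refine ⟨K, hK, fun c h1 h2 J T e F Ξ E Q Z k σ ϖ ϱ Pi hs hw hU ht hp => ?_⟩
  classical
  induction T using Finset.induction_on with
  | empty => exact ⟨F, Ξ, E, hs.alter (by simp) (by simp) (by simp)⟩
  | insert j T hj ih =>
    obtain ⟨F', Ξ', E', h'⟩ := ih
    obtain ⟨F'', Ξ'', E'', h''⟩ := h c h1 h2 _ _ _ _ _ _ (k j) (σ j) (ϖ j) (ϱ j) (Pi j) h' (hw j)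
      (hU j) ((ht j).mono_scale fun i => pow_le_pow_left₀ (by have := c.L1 i; positivity)
        (pow_le_pow_right₀ (c.L1 i) (Nat.le_mul_of_pos_right _ (by positivity))) 1) (hp j)
    refine ⟨F'', Ξ'', E'', h''.alter (by rw [Finset.card_insert_of_notMem hj]; ring)
      (fun i p u => by rw [Finset.sum_insert hj]; ring) ?_⟩
    rintro p (hp | ⟨l, hl, hp⟩)
    · exact Or.inl (Or.inl hp)
    · rcases Finset.mem_insert.1 hl with rfl | hl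
      · exact Or.inr hp
      · exact Or.inl (Or.inr ⟨l, hl, hp⟩)

theorem final_loop : ∃ K : ℕ, 1 ≤ K ∧ ∀ (c : PCtx M ℕ), K ≤ c.K0 → 2 * K ≤ c.N →
    ∀ (T : Finset (Fin c.A.n)) (e : ℕ) (F Ξ : ℕ → M → V) (E : ℕ → M → ℝ) (Q : ℕ → M → E2 → ℝ)
      (Z : Set M) (ϖ ϱ : Fin c.A.n → M → ℝ) (Pi : ℕ → M → ℝ),
      PSt c e F Ξ E Q Z → c.S ⊆ Z → (∀ j, Wt c j (ϖ j) (ϱ j)) → PM (fun i => c.L0 i ^ e) Pi →
      (∃ κ : ℝ, 0 < κ ∧ ∀ᶠ i in c.𝓕, ∀ p, κ / c.L0 i ^ e ≤ Pi i p) →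
      ∃ F', PSt c (e * K ^ T.card) F' Ξ E
        (fun i p u => Q i p u + (∑ j ∈ T, ϱ j p ^ (2 * c.N)) * Pi i p * dM c.φ p u ^ 2) Z := by
  obtain ⟨K, hK, h⟩ := final_one.{0} (M := M)
  refine ⟨K, hK, fun c h1 h2 T e F Ξ E Q Z ϖ ϱ Pi hs hZ hw ht ⟨κ, hκ, hp⟩ => ?_⟩
  induction T using Finset.induction_on with
  | empty => exact ⟨F, hs.alter (by simp) (by simp) Subset.rfl⟩
  | insert j T hj ih =>
    obtain ⟨F', h'⟩ := ih
    have hle : ∀ i, c.L0 i ^ e ≤ c.L0 i ^ (e * K ^ T.card) := fun i =>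
      pow_le_pow_right₀ (c.L1 i) (Nat.le_mul_of_pos_right _ (by positivity))
    obtain ⟨F'', h''⟩ := h c h1 h2 _ _ _ _ _ _ j (ϖ j) (ϱ j) Pi h' hZ (hw j) (ht.mono_scale hle)
      ⟨κ, hκ, hp.mono fun i hi p => le_trans (div_le_div_of_nonneg_left hκ.le
        (by have := c.L1 i; positivity) (hle i)) (hi p)⟩
    exact ⟨F'', h''.alter (by rw [Finset.card_insert_of_notMem hj]; ring)
      (fun i p u => by rw [Finset.sum_insert hj]; ring) Subset.rfl⟩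

omit [CompactSpace M] [IsManifold (𝓡 2) ∞ M] in
theorem Geo.wt {g : Met M} (Γ : Geo g) (c : PCtx M ℕ) (hS : c.S = Γ.Out (1 / 2))
    (hU : c.U1 = (Γ.Out (3 / 4))ᶜ) (k : Fin c.A.n) {r1 r2 r3 : ℝ} (h0 : 3 / 4 ≤ r1) (h1 : r1 < r2)
    (h2 : r2 < r3) (h3 : r3 ≤ 10) :
    Wt c k (fun p => 2 * ((c.A.e k).ext (c.A.bt k) p * (1 - Γ.bm r1 r2 p)))
      (fun p => c.A.bM k p * (1 - Γ.bm r2 r3 p)) ∧
    ∀ p, 0 < 2 * ((c.A.e k).ext (c.A.bt k) p * (1 - Γ.bm r1 r2 p)) → p ∈ Γ.Out r1 := by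
  have m1 := fun p => Γ.bm_mem r1 r2 p
  have m2 := fun p => Γ.bm_mem r2 r3 p
  have m3 := fun p => c.A.bM_mem k p
  have m4 : ∀ p, 0 ≤ (c.A.e k).ext (c.A.bt k) p := fun p => by
    by_cases hp : p ∈ (c.A.e k).source
    · rw [Chart.ext_of_mem _ _ hp]; exact (c.A.membt k _).1
    · rw [Chart.ext_of_not_mem _ _ hp]
  have o1 : ∀ p, 0 < 2 * ((c.A.e k).ext (c.A.bt k) p * (1 - Γ.bm r1 r2 p)) → p ∈ Γ.Out r1 :=
    fun p hp => by
      by_contra h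
      simp [Γ.bm_one (by linarith) h1 h] at hp
  refine ⟨⟨(Sm.const 2).mul (((c.A.e k).sm_ext (c.A.cK0 k) (c.A.sub0 k)
    (fun z hz => c.A.bt_zero k hz) fun z _ => (c.A.smbt k).contDiffAt).mul
      ((Sm.const 1).sub (Γ.sm_bm (by linarith)))),
    (c.A.sm_bM k).mul ((Sm.const 1).sub (Γ.sm_bm h3)),
    fun p => mul_nonneg zero_le_two (mul_nonneg (m4 p) (by linarith [(m1 p).2])),
    fun p => mul_nonneg (m3 p).1 (by linarith [(m2 p).2]),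
    fun p => mul_le_one₀ (m3 p).2 (by linarith [(m2 p).2]) (by linarith [(m2 p).1]),
    fun p hp => ?_, fun p hp => ?_⟩, o1⟩
  · by_contra hne
    have a1 : c.A.bM k p ≠ 0 := left_ne_zero_of_mul hne
    have a2 : p ∈ Γ.Out r2 := by
      by_contra h
      exact right_ne_zero_of_mul hne (by rw [Γ.bm_one (by linarith) h2 h, sub_self])
    have a3 : p ∈ (c.A.e k).source := by
      by_contra h
      exact a1 (Chart.ext_of_not_mem _ _ h)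
    rw [Atl.bM, Chart.ext_of_mem _ _ a3] at a1
    rw [Chart.ext_of_mem _ _ a3, c.A.bt_one k _ a1, Γ.bm_zero a2] at hp
    norm_num at hp
  · have a1 := o1 p hp
    have a3 : p ∈ (c.A.e k).source := by
      by_contra h
      simp [Chart.ext_of_not_mem _ _ h] at hp
    refine ⟨hS ▸ Γ.Out_mono (by linarith) a1, hU ▸ fun h => h (Γ.Out_mono h0 a1), a3, ?_⟩
    by_contra h
    simp [Chart.ext_of_mem _ _ a3, c.A.bt_zero k h] at hp

omit [CompactSpace M] [IsManifold (𝓡 2) ∞ M] in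
theorem Geo.ndall {g : Met M} (Γ : Geo g) (A : Atl M (Γ.Out (1 / 2))) {L L0 : ℕ → ℝ}
    (h0 : ∀ i, 0 < L0 i) (h1 : ∀ i, L0 i ≤ L i) {F F1 : ℕ → M → V} (hF : ∀ i, Sm (F i))
    (same : ∀ i, ∀ p ∉ Γ.Out (3 / 4), F i p = F1 i p)
    (nd : ∃ κ : ℝ, 0 < κ ∧ ∀ᶠ i in atTop, ∀ p ∈ Γ.Out (1 / 2),
      Tr (κ / L i) (A.D (F i) p) (dM (F i) p))
    (ndc : ∃ κ : ℝ, 0 < κ ∧ ∀ᶠ i in atTop, ∀ k, ∀ z : P2, ‖z‖ ≤ 1 → Tr (κ / L0 i)
      (d2 ((Γ.c k).rep (F1 i)) z (1, 0) (1, 0)) (fderiv ℝ ((Γ.c k).rep (F1 i)) z)) :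
    NDall atTop L F := by
  intro e K hK hKe
  obtain ⟨κ1, hκ1, nd⟩ := nd
  obtain ⟨κ2, hκ2, ndc⟩ := ndc
  obtain ⟨c1, hc1, hD⟩ := A.nd_of_D (X := V) e hK hKe
  have sub : ∀ k, Metric.closedBall (0 : P2) (1 / 2) ⊆ (Γ.c k).target := fun k =>
    (Metric.closedBall_subset_closedBall (by norm_num)).trans (Γ.ball k)
  have hch := fun k => nd_change (X := V) (Γ.c k) e (K := (Γ.c k).inv '' Metric.closedBall 0 (1 / 2)
    ∩ e.inv '' K) (((Γ.c k).isCompact_inv (isCompact_closedBall _ _) (sub k)).inter_right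
      (e.isCompact_inv hK hKe).isClosed)
    (fun p hp => (((Γ.c k).mem_inv_image (sub k)).1 hp.1).1)
    fun p hp => ((e.mem_inv_image hKe).1 hp.2).1
  choose c2 hc2 hch using hch
  obtain ⟨c3, hc3, hc⟩ : ∃ c3 : ℝ, 0 < c3 ∧ ∀ k, c3 ≤ c2 k := by
    rcases isEmpty_or_nonempty (Fin Γ.n) with h | h
    · exact ⟨1, one_pos, fun k => h.elim k⟩
    · obtain ⟨k, hk⟩ := Finite.exists_min c2
      exact ⟨c2 k, hc2 k, hk⟩
  refine ⟨min (c1 * κ1) (c3 * κ2), by positivity, ?_⟩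
  filter_upwards [nd, ndc] with i n1 n2 z hz
  have Lp : 0 < L i := (h0 i).trans_le (h1 i)
  by_cases hp : e.inv z ∈ Γ.Out (1 / 2)
  · obtain ⟨v, hv, ht⟩ := hD z hz _ (hF i) _ (by positivity) (n1 _ hp)
    refine ⟨v, hv, ht.mono ?_⟩
    rw [← mul_div_assoc]
    exact div_le_div_of_nonneg_right (min_le_left _ _) Lp.le
  · obtain ⟨k, hk, hr⟩ := Γ.not_mem_Out.1 hp
    have ev : (Γ.c k).rep (F i) =ᶠ[𝓝 ((Γ.c k).to (e.inv z))] (Γ.c k).rep (F1 i) := by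
      refine (Γ.c k).ev_inv (P := fun q => F i q = F1 i q) ((Γ.c k).to_mem hk) ?_
      rw [(Γ.c k).inv_to hk]
      filter_upwards [(Γ.isClosed_Out (3 / 4)).isOpen_compl.mem_nhds
        fun h => hp (Γ.Out_mono (by norm_num) h)] with q hq using same i q hq
    have := hch k (e.inv z) ⟨((Γ.c k).mem_inv_image (sub k)).2
      ⟨hk, mem_closedBall_zero_iff.2 hr.le⟩, mem_image_of_mem _ hz⟩ _ (hF i) (κ2 / L0 i)
      (by have := h0 i; positivity) ⟨(1, 0), by simp, by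
        rw [d2_congr ev, ev.fderiv_eq]; exact n2 k _ (by linarith)⟩
    rw [e.to_inv (hKe hz)] at this
    obtain ⟨v, hv, ht⟩ := this
    refine ⟨v, hv, ht.mono ?_⟩
    rw [← mul_div_assoc]
    exact div_le_div₀ (by have := hc2 k; positivity)
      ((min_le_right _ _).trans (mul_le_mul_of_nonneg_right (hc k) hκ2.le)) (h0 i) (h1 i)

theorem Geo.approx {g : Met M} (Γ : Geo g) (N0 : ℕ) : ∃ (L : ℕ → ℝ) (F : ℕ → M → V),
    Tendsto L atTop atTop ∧ PM L F ∧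
      (∃ C : ℝ, ∀ᶠ i in atTop, ∀ p u, |‖dM (F i) p u‖ ^ 2 - g.q p u| ≤ C / L i ^ N0 * g.q p u) ∧
      NDall atTop L F := by
  obtain ⟨A, hA⟩ := Γ.exists_atlas
  obtain ⟨KP, hKP, hP⟩ := prelim_loop (M := M)
  obtain ⟨KF, hKF, hF⟩ := final_loop (M := M)
  set x : ℕ → ℝ := fun i => i + 1 with hx
  have x1 : ∀ i, 1 ≤ x i := fun i => by simp [hx]
  have xp : ∀ i, 0 < x i := fun i => one_pos.trans_le (x1 i)
  have xl : Tendsto x atTop atTop := tendsto_natCast_atTop_atTop.atTop_add tendsto_const_nhds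
  set eP := 4 * KP ^ (Finset.univ : Finset (Fin A.n × Bool)).card with heP
  set eF := eP * KF ^ (Finset.univ : Finset (Fin A.n)).card with heF
  have e4 : 4 ≤ eP := Nat.le_mul_of_pos_right _ (by positivity)
  have e1 : 1 ≤ eF := Nat.mul_pos (by omega) (by positivity)
  set N := 3 * (KP + KF) + eF * N0 + 1 with hN
  obtain ⟨F1, Ξ1, hI⟩ := Γ.init A atTop x x1 xl N (by omega)
  obtain ⟨Pi, c0, p1, p2, p3, p4, p5, p6⟩ := Γ.predata A hA x1 xl (by omega) hI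
  have L1 : ∀ i, 1 ≤ x i ^ 3 := fun i => one_le_pow₀ (x1 i)
  have Ll : Tendsto (fun i => x i ^ 3) atTop atTop := (tendsto_pow_atTop (by norm_num)).comp xl
  let c : PCtx M ℕ := ⟨g, Γ.φ, Γ.Out (1 / 2), (Γ.Out (3 / 4))ᶜ, (Γ.Out 2)ᶜ, A, atTop,
    fun i => x i ^ 3, KP + KF, N, F1, L1, Ll, fun k => (hA k).1⟩
  have s0 : PSt c 1 F1 Ξ1 (fun _ _ => 0) (fun _ _ _ => 0) (Γ.Out (9 / 2))ᶜ :=
    ⟨le_rfl, by simpa using hI.tF, by simpa using hI.tΞ,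
      TameM.zero (fun i => by simpa using L1 i) fun _ => zero_le_one, by simpa only [pow_one] using hI.imm,
      by simpa only [pow_one] using hI.nd, ⟨0, by simp⟩, fun _ _ _ => rfl, ⟨0, by simp [c]⟩, fun _ _ _ => rfl,
      hI.Ξ0⟩
  have w1 := fun k => Γ.wt c rfl rfl k (r1 := 2) (r2 := 3) (r3 := 4) (by norm_num) (by norm_num)
    (by norm_num) (by norm_num)
  have w2 := fun k => Γ.wt c rfl rfl k (r1 := 3 / 4) (r2 := 1) (r3 := 2) (by norm_num) (by norm_num)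
    (by norm_num) (by norm_num)
  obtain ⟨F2, Ξ2, E, s2⟩ := hP c (by simp [c]) (by simp only [c]; omega)
    (Finset.univ : Finset (Fin A.n × Bool)) 4 _ _ _ _ _ Prod.fst
    (fun j => if j.2 then 1 else -1) _ _ (fun j => Pi j.1 j.2) (s0.mono (by norm_num))
    (fun j => (w1 j.1).1) (fun j p hp h => h ((w1 j.1).2 p hp)) (fun j => p1 _ _) fun j => p2 _ _
  have hZ : c.S ⊆ (Γ.Out (9 / 2))ᶜ ∪ {p | ∃ j ∈ (Finset.univ : Finset (Fin A.n × Bool)),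
      c.A.bM j.1 p * (1 - Γ.bm 3 4 p) = 1} := fun p hp => by
    by_cases h : p ∈ Γ.Out (9 / 2)
    · obtain ⟨k, k1, -, k2⟩ := A.cover0 hp
      refine Or.inr ⟨(k, true), Finset.mem_univ _, ?_⟩
      rw [Γ.bm_zero (Γ.Out_mono (by norm_num) h), Atl.bM, Chart.ext_of_mem _ _ k1, k2]; simp
    · exact Or.inl h
  obtain ⟨q1, q2, q3, q4⟩ := Γ.SS_facts A N
  obtain ⟨CE, hE⟩ := s2.Esm
  have hμ : ∀ i, 1 ≤ (x i ^ 3) ^ eP := fun i => one_le_pow₀ (L1 i)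
  obtain ⟨F3, s3⟩ := hF c (by simp [c]) (by simp only [c]; omega) Finset.univ _ _ _ _ _ _ _ _
    (fun i p => (Γ.SS A N p)⁻¹ * ((x i ^ 2)⁻¹ + c0 i p - E i p)) s2 hZ (fun j => (w2 j).1)
    (TameM.fmul (q1.outer (Φ := fun t : ℝ => t⁻¹) fun p => contDiffAt_inv ℝ
      (by linarith [q2 p])) (((TameM.const hμ fun i => by
        rw [Real.norm_of_nonneg (by have := xp i; positivity)]
        exact inv_le_one_of_one_le₀ (one_le_pow₀ (x1 i))).add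
      (p3.mono_scale fun i => pow_le_pow_right₀ (L1 i) e4)).sub s2.tE))
    ⟨1 / (2 * (A.n + 1)), by positivity, by
      filter_upwards [p4, hE, ev_pow_le xl CE (ε := 1 / 2) (by norm_num) (show 2 < 9 by norm_num)]
        with i a1 a2 a3 p
      have := xp i
      have b1 : E i p ≤ 1 / 2 * (x i ^ 2)⁻¹ := by
        refine (le_abs_self _).trans ((a2 p).trans ?_)
        change CE / (x i ^ 3) ^ 3 ≤ _
        rw [← div_eq_mul_inv, div_le_div_iff₀ (by positivity) (by positivity), ← pow_mul]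
        exact a3
      have b2 : ((x i ^ 3) ^ eP)⁻¹ ≤ (x i ^ 2)⁻¹ := by
        rw [← pow_mul]
        exact inv_anti₀ (by positivity) (pow_le_pow_right₀ (x1 i) (by omega))
      have b3 : ((A.n : ℝ) + 1)⁻¹ ≤ (Γ.SS A N p)⁻¹ := inv_anti₀ (by linarith [q2 p]) (q3 p)
      calc _ = ((A.n : ℝ) + 1)⁻¹ * (1 / 2 * ((x i ^ 3) ^ eP)⁻¹) := by
            change _ / (x i ^ 3) ^ eP = _
            field_simp
        _ ≤ _ := mul_le_mul b3 (by linarith [a1 p]) (by positivity)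
            (by have := q2 p; positivity)⟩
  refine ⟨fun i => (x i ^ 3) ^ eF, F3, (tendsto_pow_atTop (by omega)).comp Ll, s3.tF, ?_,
    Γ.ndall A (L0 := fun i => x i ^ 3) (fun i => by have := xp i; positivity)
      (fun i => le_self_pow₀ (L1 i) (by omega)) s3.tF.smooth s3.same
      (s3.nd.imp fun κ h => ⟨h.1, h.2.mono fun i hi p hp => by
        have := hi p hp
        rwa [s3.Ξ0 i p (hZ hp), add_zero] at this⟩) hI.ndc⟩
  obtain ⟨C1, r1⟩ := s3.err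
  obtain ⟨C2, r2⟩ := hI.err
  refine ⟨|C1| + |C2|, ?_⟩
  filter_upwards [r1, r2] with i a1 a2 p u
  have a1 := a1 p u
  have a2 := a2 p u
  have hq := g.q_nonneg p u
  have t1 : ∑ j : Fin A.n × Bool, (A.bM j.1 p * (1 - Γ.bm 3 4 p)) ^ (2 * N) *
      Pi j.1 j.2 i ((A.e j.1).to p) * (((A.e j.1).push p u).2 +
        (if j.2 then 1 else -1) * ((A.e j.1).push p u).1) ^ 2 =
      Γ.ϑ0 p ^ (2 * N) * Γ.Hq (x i) (F1 i) p u - c0 i p * dM Γ.φ p u ^ 2 := by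
    rw [Fintype.sum_prod_type]; exact p6 i p u
  have t2 : (∑ j, (A.bM j p * (1 - Γ.bm 1 2 p)) ^ (2 * N)) *
      ((Γ.SS A N p)⁻¹ * ((x i ^ 2)⁻¹ + c0 i p - E i p)) =
      Γ.ρ0 p ^ (2 * N) * (x i ^ 2)⁻¹ + c0 i p - E i p := by
    simp only [mul_pow, ← Finset.sum_mul]
    change A.SN N p * Γ.ρ0 p ^ (2 * N) * _ = _
    by_cases h2 : p ∈ Γ.Out 2
    · have : Γ.ρ0 p = 1 := by simp [Geo.ρ0, Γ.bm_zero h2]
      have h3 := q2 p
      rw [this, ← q4 p (Γ.Out_mono (by norm_num) h2), one_pow]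
      field_simp
    · rw [s3.E0 i p h2, p5 i p fun h => h2 (Γ.Out_mono (by norm_num) h)]
      by_cases h1 : p ∈ Γ.Out 1
      · have h3 := q2 p
        rw [← q4 p h1]
        field_simp
        ring
      · have : Γ.ρ0 p = 0 := by simp [Geo.ρ0, Γ.bm_one one_pos one_lt_two h1]
        rw [this, zero_pow (by omega)]; ring
  simp only [c, zero_add, t1, t2] at a1
  have := xp i
  have u1 : C1 * (x i ^ 3) ^ (KP + KF) / (x i ^ 3) ^ N ≤ |C1| / ((x i ^ 3) ^ eF) ^ N0 := by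
    rw [div_le_div_iff₀ (by positivity) (by positivity), ← pow_mul _ eF, mul_assoc, ← pow_add]
    exact mul_le_mul (le_abs_self _) (pow_le_pow_right₀ (L1 i) (by omega)) (by positivity)
      (abs_nonneg _)
  have u2 : C2 / (x i ^ 3) ^ N ≤ |C2| / ((x i ^ 3) ^ eF) ^ N0 := by
    rw [← pow_mul _ eF]
    exact div_le_div₀ (abs_nonneg _) (le_abs_self _) (by positivity)
      (pow_le_pow_right₀ (L1 i) (by omega))
  have u3 := mul_le_mul_of_nonneg_right u1 hq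
  have u4 := mul_le_mul_of_nonneg_right u2 hq
  rw [add_div, add_mul]
  rw [abs_le] at a1 a2 ⊢
  constructor <;> linarith

theorem Geo.solve {g : Met M} (Γ : Geo g) :
    ∃ F : M → V, Sm F ∧ ∀ p u, ‖dM F p u‖ ^ 2 = g.q p u := by
  obtain ⟨N0, h⟩ := openness.{0} g
  obtain ⟨L, F, h1, h2, h3, h4⟩ := Γ.approx N0
  exact h atTop L F h1 h2 h3 h4

end Vale.Agent.Iso4
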