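import Vale.Agent.Iso4.TameInt

/-! The Clifford pattern `(ε ρ1 exp(i x / ε), ε ρ2 exp(i (y + om) / ε))` to all orders. -/

open scoped ContDiff Topology
open Set Filter

noncomputable section
namespace Vale.Agent.Iso4

/-- the square of radius ten -/
abbrev B10 : Set P2 := Metric.ball 0 10

section
variable {ι : Type*} {ε : ι → ℝ} {m m' : ℕ} {f g a : ι → P2 → ℝ}

/-- families of order `ε ^ m` on the square -/
abbrev CT (ε : ι → ℝ) (m : ℕ) (f : ι → P2 → ℝ) : Prop :=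
  Tame (fun _ => B10) (fun i _ => ε i ^ m) (fun _ => 1) 0 f

theorem CT.le (h : CT ε m f) (h0 : ∀ i, 0 < ε i) (h1 : ∀ i, ε i ≤ 1) (hm : m' ≤ m) : CT ε m' f :=
  h.weaken fun i _ _ => pow_le_pow_of_le_one (h0 i).le (h1 i) hm

theorem CT.m0 (hf : CT ε 0 f) (hg : CT ε m g) : CT ε m fun i z => f i z * g i z :=
  (Tame.mul hf hg).weaken fun i _ _ => by simp

theorem CT.m3 (ha : CT ε 0 a) (hf : CT ε 2 f) (hg : CT ε m g) :
    CT ε (2 + m) fun i z => a i z * f i z * g i z :=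
  (Tame.mul (ha.m0 hf) hg).weaken fun _ _ _ => (pow_add _ _ _).ge

theorem CT.d (hf : CT ε m f) (v : P2) : CT ε m fun i => dd v (f i) :=
  (hf.dd v).mono_aux (fun _ => le_rfl) fun _ _ => by simp

theorem CT.fix {F : P2 → ℝ} (hF : ∀ z ∈ Metric.closedBall (0 : P2) 10, ContDiffAt ℝ ∞ F z) :
    CT ε 0 fun _ => F :=
  (Tame.fixed_compact (fun _ => le_rfl) (isCompact_closedBall _ _) hF
    fun _ => Metric.ball_subset_closedBall).weaken fun _ _ _ => by simp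

theorem CT.eps : CT ε 2 fun i _ => ε i ^ 2 :=
  Tame.const (fun _ => le_rfl) fun _ _ _ => (Real.norm_of_nonneg (sq_nonneg _)).le

theorem CT.dd_add (hf : CT ε m f) (hg : CT ε m' g) (v : P2) (i : ι) {z : P2} (hz : z ∈ B10) :
    dd v (fun z => f i z + g i z) z = dd v (f i) z + dd v (g i) z :=
  congrArg (fun T : P2 →L[ℝ] ℝ => T v)
    (fderiv_fun_add (hf.differentiableAt hz) (hg.differentiableAt hz))

/-- the error of the first coefficient -/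
def cE11 (ε : ι → ℝ) (R1 : P2 → ℝ) (P ρ1 ρ2 om : ι → P2 → ℝ) (i : ι) (z : P2) : ℝ :=
  ρ1 i z ^ 2 + ε i ^ 2 * dx (ρ1 i) z ^ 2 + ε i ^ 2 * dx (ρ2 i) z ^ 2 +
    ρ2 i z ^ 2 * dx (om i) z ^ 2 - (R1 z ^ 2 + P i z)

/-- the error of the mixed coefficient -/
def cE12 (ε : ι → ℝ) (P ρ1 ρ2 om : ι → P2 → ℝ) (i : ι) (z : P2) : ℝ :=
  ε i ^ 2 * (dx (ρ1 i) z * dy (ρ1 i) z) + ε i ^ 2 * (dx (ρ2 i) z * dy (ρ2 i) z) +
    ρ2 i z ^ 2 * (dx (om i) z * (1 + dy (om i) z)) - P i z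

/-- the error of the last coefficient -/
def cE22 (ε : ι → ℝ) (R2 : P2 → ℝ) (P ρ1 ρ2 om : ι → P2 → ℝ) (i : ι) (z : P2) : ℝ :=
  ε i ^ 2 * dy (ρ1 i) z ^ 2 + ε i ^ 2 * dy (ρ2 i) z ^ 2 +
    ρ2 i z ^ 2 * (1 + dy (om i) z) ^ 2 - (R2 z ^ 2 + P i z)

theorem cliff_step (h0 : ∀ i, 0 < ε i) (h1 : ∀ i, ε i ≤ 1) (hm : 2 ≤ m) {R1 R2 : P2 → ℝ}
    (hR1 : ∀ z ∈ Metric.closedBall (0 : P2) 10, ContDiffAt ℝ ∞ R1 z ∧ 0 < R1 z)
    (hR2 : ∀ z ∈ Metric.closedBall (0 : P2) 10, ContDiffAt ℝ ∞ R2 z ∧ 0 < R2 z)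
    {P11 P12 P22 ρ1 ρ2 om : ι → P2 → ℝ} (a1 : CT ε 2 fun i z => ρ1 i z - R1 z)
    (a2 : CT ε 2 fun i z => ρ2 i z - R2 z) (ho : CT ε 2 om)
    (e11 : CT ε m (cE11 ε R1 P11 ρ1 ρ2 om)) (e12 : CT ε m (cE12 ε P12 ρ1 ρ2 om))
    (e22 : CT ε m (cE22 ε R2 P22 ρ1 ρ2 om)) :
    ∃ ρ1 ρ2 om : ι → P2 → ℝ, CT ε 2 (fun i z => ρ1 i z - R1 z) ∧
      CT ε 2 (fun i z => ρ2 i z - R2 z) ∧ CT ε 2 om ∧ CT ε (2 + m) (cE11 ε R1 P11 ρ1 ρ2 om) ∧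
      CT ε (2 + m) (cE12 ε P12 ρ1 ρ2 om) ∧ CT ε (2 + m) (cE22 ε R2 P22 ρ1 ρ2 om) := by
  have op : ∀ _ : ι, IsOpen B10 := fun _ => Metric.isOpen_ball
  have r1 : CT ε 0 fun _ => R1 := CT.fix fun z hz => (hR1 z hz).1
  have r2 : CT ε 0 fun _ => R2 := CT.fix fun z hz => (hR2 z hz).1
  have i1 : CT ε 0 fun _ z => (R1 z)⁻¹ := CT.fix fun z hz => (hR1 z hz).1.inv (hR1 z hz).2.ne'
  have i2 : CT ε 0 fun _ z => (R2 z)⁻¹ := CT.fix fun z hz => (hR2 z hz).1.inv (hR2 z hz).2.ne'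
  have one : CT ε 0 fun _ _ => 1 := CT.fix fun _ _ => contDiffAt_const
  have z2 : ∀ {f}, CT ε 2 f → CT ε 0 f := fun h => h.le h0 h1 (Nat.zero_le _)
  have s2 : ∀ {f}, CT ε m f → CT ε 2 f := fun h => h.le h0 h1 hm
  have z0 : ∀ {f}, CT ε m f → CT ε 0 f := fun h => z2 (s2 h)
  have p1 : CT ε 0 ρ1 := ((z2 a1).add r1).congr_open op fun _ _ _ => sub_add_cancel _ _
  have p2 : CT ε 0 ρ2 := ((z2 a2).add r2).congr_open op fun _ _ _ => sub_add_cancel _ _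
  obtain ⟨δ, d0, hδ⟩ := Tame.prim_x (i2.m0 (i2.m0 e12)).neg
  replace d0 : CT ε m δ := d0
  obtain ⟨δ1, d1, k1⟩ : ∃ δ1, CT ε m δ1 ∧ ∀ i, ∀ z ∈ B10,
      cE11 ε R1 P11 ρ1 ρ2 om i z + 2 * R1 z * δ1 i z = 0 :=
    ⟨_, (i1.m0 e11).const_mul (-2⁻¹), fun i z hz => by
      have := (hR1 z (Metric.ball_subset_closedBall hz)).2.ne'
      field_simp
      ring⟩
  obtain ⟨δ2, d2, k2⟩ : ∃ δ2, CT ε m δ2 ∧ ∀ i, ∀ z ∈ B10, cE22 ε R2 P22 ρ1 ρ2 om i z +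
      2 * R2 z * δ2 i z + 2 * R2 z ^ 2 * dy (δ i) z = 0 :=
    ⟨_, ((i2.m0 e22).const_mul (-2⁻¹)).sub (r2.m0 (d0.d (0, 1))), fun i z hz => by
      have := (hR2 z (Metric.ball_subset_closedBall hz)).2.ne'
      field_simp
      ring⟩
  have k0 : ∀ i, ∀ z ∈ B10, cE12 ε P12 ρ1 ρ2 om i z + R2 z ^ 2 * dx (δ i) z = 0 := fun i z hz => by
    have := (hR2 z (Metric.ball_subset_closedBall hz)).2.ne'
    rw [hδ i z hz]
    field_simp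
    ring
  have q2 : CT ε 0 fun i z => 2 * ρ2 i z + δ2 i z := (p2.const_mul 2).add (z0 d2)
  have o2 : ∀ v, CT ε 2 fun i z => dd v (om i) z + dd v (δ i) z := fun v =>
    (ho.d v).add (s2 (d0.d v))
  have t : ∀ {ρ δ}, CT ε 0 ρ → CT ε m δ → ∀ v, CT ε (2 + m) fun i z =>
      (2 * dd v (ρ i) z + dd v (δ i) z) * ε i ^ 2 * dd v (δ i) z := fun hρ hδ v =>
    CT.m3 (((hρ.d v).const_mul 2).add (z0 (hδ.d v))) CT.eps (hδ.d v)
  have t' : ∀ {ρ δ}, CT ε 0 ρ → CT ε m δ → CT ε (2 + m) fun i z =>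
      (dy (ρ i) z + dy (δ i) z) * ε i ^ 2 * dx (δ i) z + dx (ρ i) z * ε i ^ 2 * dy (δ i) z :=
    fun hρ hδ => (CT.m3 ((hρ.d _).add (z0 (hδ.d _))) CT.eps (hδ.d _)).add
      ((hρ.d _).m3 CT.eps (hδ.d _))
  refine ⟨fun i z => ρ1 i z + δ1 i z, fun i z => ρ2 i z + δ2 i z, fun i z => om i z + δ i z,
    (a1.add (s2 d1)).congr_open op fun _ _ _ => by ring,
    (a2.add (s2 d2)).congr_open op fun _ _ _ => by ring, ho.add (s2 d0), ?_, ?_, ?_⟩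
  · refine (((((one.m3 ((a1.const_mul 2).add (s2 d1)) d1).add (t p1 d1 (1, 0))).add
      (t p2 d2 (1, 0))).add ((q2.m0 (z2 (o2 (1, 0)))).m3 (o2 (1, 0)) d2)).add
      ((p2.m0 p2).m3 ((ho.d (1, 0)).add (o2 (1, 0))) (d0.d (1, 0)))).congr_open op
      fun i z hz => ?_
    have := k1 i z hz
    simp only [cE11, dx, p1.dd_add d1 _ i hz, p2.dd_add d2 _ i hz, ho.dd_add d0 _ i hz] at this ⊢
    linear_combination -this
  · refine ((((((t' p1 d1).add (t' p2 d2)).add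
      ((q2.m0 (one.add (z2 (o2 (0, 1))))).m3 (o2 (1, 0)) d2)).add
      ((p2.m0 p2).m3 (o2 (0, 1)) (d0.d (1, 0)))).add
      ((p2.m0 p2).m3 (ho.d (1, 0)) (d0.d (0, 1)))).add
      (CT.m3 (p2.add r2) a2 (d0.d (1, 0)))).congr_open op fun i z hz => ?_
    have := k0 i z hz
    simp only [cE12, dx, dy, p1.dd_add d1 _ i hz, p2.dd_add d2 _ i hz, ho.dd_add d0 _ i hz]
      at this ⊢
    linear_combination -this
  · refine ((((((t p1 d1 (0, 1)).add (t p2 d2 (0, 1))).add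
      (one.m3 ((a2.const_mul 2).add (s2 d2)) d2)).add
      ((q2.m0 ((one.const_mul 2).add (z2 (o2 (0, 1))))).m3 (o2 (0, 1)) d2)).add
      (CT.m3 ((p2.add r2).const_mul 2) a2 (d0.d (0, 1)))).add
      ((p2.m0 p2).m3 ((ho.d (0, 1)).add (o2 (0, 1))) (d0.d (0, 1)))).congr_open op
      fun i z hz => ?_
    have := k2 i z hz
    simp only [cE22, dy, p1.dd_add d1 _ i hz, p2.dd_add d2 _ i hz, ho.dd_add d0 _ i hz] at this ⊢
    linear_combination -this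

end

theorem cliff {ι : Type*} (n : ℕ) {ε : ι → ℝ} (h0 : ∀ i, 0 < ε i) (h1 : ∀ i, ε i ≤ 1)
    {R1 R2 : P2 → ℝ} (hR1 : ∀ z ∈ Metric.closedBall (0 : P2) 10, ContDiffAt ℝ ∞ R1 z ∧ 0 < R1 z)
    (hR2 : ∀ z ∈ Metric.closedBall (0 : P2) 10, ContDiffAt ℝ ∞ R2 z ∧ 0 < R2 z)
    {P11 P12 P22 : ι → P2 → ℝ}
    (h11 : Tame (fun _ => B10) (fun i _ => ε i ^ 2) (fun _ => 1) 0 P11)
    (h12 : Tame (fun _ => B10) (fun i _ => ε i ^ 2) (fun _ => 1) 0 P12)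
    (h22 : Tame (fun _ => B10) (fun i _ => ε i ^ 2) (fun _ => 1) 0 P22) :
    ∃ ρ1 ρ2 om : ι → P2 → ℝ,
      Tame (fun _ => B10) (fun i _ => ε i ^ 2) (fun _ => 1) 0 (fun i z => ρ1 i z - R1 z) ∧
      Tame (fun _ => B10) (fun i _ => ε i ^ 2) (fun _ => 1) 0 (fun i z => ρ2 i z - R2 z) ∧
      Tame (fun _ => B10) (fun i _ => ε i ^ 2) (fun _ => 1) 0 om ∧
      Tame (fun _ => B10) (fun i _ => ε i ^ n) (fun _ => 1) 0 (fun i z =>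
        ρ1 i z ^ 2 + ε i ^ 2 * dx (ρ1 i) z ^ 2 + ε i ^ 2 * dx (ρ2 i) z ^ 2 +
          ρ2 i z ^ 2 * dx (om i) z ^ 2 - (R1 z ^ 2 + P11 i z)) ∧
      Tame (fun _ => B10) (fun i _ => ε i ^ n) (fun _ => 1) 0 (fun i z =>
        ε i ^ 2 * (dx (ρ1 i) z * dy (ρ1 i) z) + ε i ^ 2 * (dx (ρ2 i) z * dy (ρ2 i) z) +
          ρ2 i z ^ 2 * (dx (om i) z * (1 + dy (om i) z)) - P12 i z) ∧
      Tame (fun _ => B10) (fun i _ => ε i ^ n) (fun _ => 1) 0 (fun i z =>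
        ε i ^ 2 * dy (ρ1 i) z ^ 2 + ε i ^ 2 * dy (ρ2 i) z ^ 2 +
          ρ2 i z ^ 2 * (1 + dy (om i) z) ^ 2 - (R2 z ^ 2 + P22 i z)) := by
  have key : ∀ m : ℕ, ∃ ρ1 ρ2 om : ι → P2 → ℝ, CT ε 2 (fun i z => ρ1 i z - R1 z) ∧
      CT ε 2 (fun i z => ρ2 i z - R2 z) ∧ CT ε 2 om ∧ CT ε (2 + m) (cE11 ε R1 P11 ρ1 ρ2 om) ∧
      CT ε (2 + m) (cE12 ε P12 ρ1 ρ2 om) ∧ CT ε (2 + m) (cE22 ε R2 P22 ρ1 ρ2 om) := by
    intro m
    induction m with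
    | zero =>
      have op : ∀ _ : ι, IsOpen B10 := fun _ => Metric.isOpen_ball
      have r1 : CT ε 0 fun _ => R1 := CT.fix fun z hz => (hR1 z hz).1
      have r2 : CT ε 0 fun _ => R2 := CT.fix fun z hz => (hR2 z hz).1
      have z : CT ε 2 fun _ _ => 0 := Tame.zero fun _ => le_rfl
      have t : ∀ v w, CT ε (2 + 0) fun i z =>
          dd v R1 z * ε i ^ 2 * dd w R1 z + dd v R2 z * ε i ^ 2 * dd w R2 z := fun v w =>
        ((r1.d v).m3 CT.eps (r1.d w)).add ((r2.d v).m3 CT.eps (r2.d w))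
      have e : ∀ v z, dd v (fun _ : P2 => (0 : ℝ)) z = 0 := fun v z => by simp [dd]
      refine ⟨fun _ => R1, fun _ => R2, fun _ _ => 0, z.congr_open op fun _ _ _ => (sub_self _).symm,
        z.congr_open op fun _ _ _ => (sub_self _).symm, z,
        ((t (1, 0) (1, 0)).sub h11).congr_open op fun i z _ => ?_,
        ((t (1, 0) (0, 1)).sub h12).congr_open op fun i z _ => ?_,
        ((t (0, 1) (0, 1)).sub h22).congr_open op fun i z _ => ?_⟩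
      · simp only [cE11, dx, e]
        ring
      · simp only [cE12, dx, dy, e]
        ring
      · simp only [cE22, dy, e]
        ring
    | succ m ih =>
      obtain ⟨ρ1, ρ2, om, a1, a2, ho, e11, e12, e22⟩ := ih
      obtain ⟨ρ1, ρ2, om, a1, a2, ho, e11, e12, e22⟩ :=
        cliff_step h0 h1 le_self_add hR1 hR2 a1 a2 ho e11 e12 e22
      exact ⟨ρ1, ρ2, om, a1, a2, ho, e11.le h0 h1 (by omega), e12.le h0 h1 (by omega),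
        e22.le h0 h1 (by omega)⟩
  obtain ⟨ρ1, ρ2, om, a1, a2, ho, e11, e12, e22⟩ := key n
  exact ⟨ρ1, ρ2, om, a1, a2, ho, e11.le h0 h1 le_add_self, e12.le h0 h1 le_add_self,
    e22.le h0 h1 le_add_self⟩

end Vale.Agent.Iso4
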