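import Vale.Agent.Iso4.CoreA

/-! One oscillation step to all orders. -/

open scoped ContDiff Topology
open Set Filter

noncomputable section
namespace Vale.Agent.Iso4
universe u

namespace CData
variable {ι : Type u} {D : CData ι} {θ : ℝ} {μ ε ε' : ι → ℝ} {B : ι → P2 → ℝ} {U : ι → P3 → V}

theorem OK.co_tvel (h : D.OK) :
    Tame (D.Ω3 0) (fun i z => D.a i z.1) (fun i => D.ell i ^ 2) 2 D.vel := by
  have up2 : ∀ i, D.ell i ≤ D.ell i ^ 2 := fun i => le_self_pow₀ (h.tF.one_le i) two_ne_zero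
  exact (up_of h.ta le_rfl fun _ => le_rfl).smul2
    ((((h.tv0.mono_scale up2).smul1 (up_of h.te0 le_rfl fun _ => le_rfl)).add
      ((h.tv1.mono_scale up2).smul1 (up_of h.tn1 le_rfl fun _ => le_rfl))).add
      ((h.tv2.mono_scale up2).smul1 (up_of h.tn2 le_rfl fun _ => le_rfl)))

/-- the function on the plane -/
def coW (D : CData ι) (U : ι → P3 → V) (i : ι) (p : P2) : V :=
  Real.smoothTransition (2 * D.ϖ i p - 1) • U i (coT (D.lam i) p)

theorem coW_zero {i : ι} {p : P2} (hp : D.ϖ i p < 1 / 2) : D.coW U i p = 0 := by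
  rw [coW, Real.smoothTransition.zero_of_nonpos (by linarith), zero_smul]

theorem coW_one {i : ι} {p : P2} (hp : p ∈ D.Ω 1 i) : D.coW U i p = U i (coT (D.lam i) p) := by
  have : 1 < D.ϖ i p := hp
  rw [coW, Real.smoothTransition.one_of_one_le (by linarith), one_smul]

theorem OK.coW_ev (h : D.OK) {i : ι} {p : P2} (hp : D.ϖ i p < 1 / 2) :
    D.coW U i =ᶠ[𝓝 p] fun _ => 0 :=
  eventually_of_mem ((isOpen_lt (h.tϖ.contDiff i).continuous continuous_const).mem_nhds hp)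
    fun _ hx => coW_zero hx

theorem St.tcoW (h : D.OK) (hs : D.St θ μ ε ε' B U) :
    Tame (D.Ω θ) D.a (fun i => D.lam i ^ 2) 0 (D.coW U) := by
  have lam1 : ∀ i, 1 ≤ D.lam i := fun i => (hs.one_le i).trans (hs.hi i)
  have one2 : ∀ i, 1 ≤ D.lam i ^ 2 := fun i => one_le_pow₀ (lam1 i)
  have le2 : ∀ i, D.lam i ≤ D.lam i ^ 2 := fun i => le_self_pow₀ (lam1 i) two_ne_zero
  have l2 : ∀ i, D.ell i ^ 2 ≤ D.lam i ^ 2 := fun i => ((hs.lo i).trans (hs.hi i)).trans (le2 i)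
  have h1 : Tame (D.Ω θ) (fun i _ => (μ i)⁻¹) (fun i => D.lam i ^ 2) 1
      fun i => fderiv ℝ (coT (D.lam i)) := by
    have a1 : Tame (D.Ω θ) (fun i _ => D.lam i) (fun i => D.lam i ^ 2) 0
        fun i _ => coT (D.lam i) := Tame.const one2 fun i _ _ => norm_coT_le (lam1 i)
    have m0 : ∀ i, 0 < μ i := fun i => one_pos.trans_le (hs.one_le i)
    refine (a1.absorb (fun _ => le_rfl) (fun i z _ => ?_) fun i _ _ =>
      (inv_pos.2 (m0 i)).le).congr fun i z _ => Eventually.of_forall fun x => ?_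
    · rw [pow_zero, mul_one, pow_one, le_inv_mul_iff₀ (m0 i), sq]
      exact mul_le_mul_of_nonneg_right (hs.hi i) (hs.lam_pos i).le
    · exact (coT (D.lam i)).fderiv.symm
  have h2 : Tame (D.Ω θ) D.a (fun i => D.lam i ^ 2) 0 fun i p => U i (coT (D.lam i) p) :=
    (hs.tU.comp (Ω' := D.Ω θ) (φ := fun i => coT (D.lam i)) (fun _ _ hz => hz)
      (fun i _ _ => (coT (D.lam i)).contDiff.contDiffAt) h1).weaken fun i z hz => by
      have a0 := (h.apos i z (Ω_mono hs.θ0 i hz)).le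
      show D.a i z / D.lam i * μ i ^ 1 ≤ D.a i z
      rw [pow_one, div_mul_eq_mul_div, div_le_iff₀ (hs.lam_pos i)]
      exact mul_le_mul_of_nonneg_left (hs.hi i) a0
  have h3 : Tame (fun _ => univ) (fun _ _ => 1) D.ell 1 fun i p => 2 * D.ϖ i p - 1 :=
    (h.tϖ.const_mul 2).sub (Tame.const_one h.tϖ.one_le 1)
  have h4 : Tame (fun _ => univ) (fun _ _ => 1) (fun i => D.lam i ^ 2) 0
      fun i p => Real.smoothTransition (2 * D.ϖ i p - 1) :=
    Tame.outer (S := univ) (fun _ _ => Real.smoothTransition.contDiffAt)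
      (fun m => (bdd_smoothTransition m).imp fun _ hC y _ => hC y) h3.smooth
      (fun _ _ _ => mem_univ _)
      (h3.fderiv.absorb (fun i => (le_self_pow₀ (h.tϖ.one_le i) two_ne_zero).trans (l2 i))
        (fun i z _ => by
          rw [one_mul, one_mul, pow_one]
          exact l2 i) fun _ _ _ => zero_le_one)
  exact (h4.mono_set fun _ => subset_univ _).smul1 h2

theorem St.tcoW0 (h : D.OK) (hs : D.St θ μ ε ε' B U) (hθ : θ < 1 / 4) :
    Tame (D.Ω 0) D.a (fun i => D.lam i ^ 2) 0 (D.coW U) := by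
  have h1 := hs.tcoW h
  have h2 : Tame (fun i => {p | p ∈ D.Ω 0 i ∧ D.ϖ i p < 1 / 2}) D.a (fun i => D.lam i ^ 2) 0
      (D.coW U) := (Tame.zero h1.one_le).congr fun i z hz => (h.coW_ev hz.2).symm
  refine (h1.union h2 fun i z hz => ?_).mono_set fun i z hz => ?_
  · exact (h.apos i z (hz.elim (fun hz => Ω_mono hs.θ0 i hz) fun hz => hz.1)).le
  · by_cases hz' : D.ϖ i z < 1 / 2
    · exact Or.inr ⟨hz, hz'⟩
    · exact Or.inl (show θ < D.ϖ i z by linarith [not_lt.1 hz'])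

theorem St.coW_smooth (h : D.OK) (hs : D.St θ μ ε ε' B U) (hθ : θ < 1 / 4) (i : ι) :
    ContDiff ℝ ∞ (D.coW U i) := by
  refine contDiff_iff_contDiffAt.2 fun z => ?_
  by_cases hz' : D.ϖ i z < 1 / 2
  · exact contDiffAt_const.congr_of_eventuallyEq (h.coW_ev hz')
  · exact (hs.tcoW h).smooth i z (show θ < D.ϖ i z by linarith [not_lt.1 hz'])

theorem St.dx_coW (h : D.OK) (hs : D.St θ μ ε ε' B U) (hθ : θ < 1 / 4) {i : ι} {z : P2}
    (hz : z ∈ D.Ω 1 i) : dx (D.coW U i) z = D.DU U i (coT (D.lam i) z) := by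
  have hz' : coT (D.lam i) z ∈ D.Ω3 θ i := Ω_mono (by linarith) i hz
  rw [dx, co_dd_congr (h.isOpen 1 i) hz fun x hx => coW_one hx]
  exact dx_coT (hs.tU.differentiableAt hz')

theorem St.dy_coW (h : D.OK) (hs : D.St θ μ ε ε' B U) (hθ : θ < 1 / 4) {i : ι} {z : P2}
    (hz : z ∈ D.Ω 1 i) : dy (D.coW U i) z = dd ey (U i) (coT (D.lam i) z) := by
  have hz' : coT (D.lam i) z ∈ D.Ω3 θ i := Ω_mono (by linarith) i hz
  rw [dy, co_dd_congr (h.isOpen 1 i) hz fun x hx => coW_one hx]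
  exact dy_coT (hs.tU.differentiableAt hz')

theorem St.co_tXρ (hs : D.St θ μ ε ε' B U) :
    Tame (D.Ω3 θ) (fun i z => D.a i z.1 / D.lam i) μ 2
      fun i z => dd ex (U i) z + (D.lam i • dd et (U i) z - D.velB B i z) :=
  (hs.tU.dd ex).add (hs.tρ.mono_k (by norm_num))

theorem St.co_tDU (h : D.OK) (hs : D.St θ μ ε ε' B U) :
    Tame (D.Ω3 θ) (fun i z => D.a i z.1) μ 2 (D.DU U) :=
  ((hs.co_tXρ.weaken fun i z hz => div_le_self (h.apos i _ (hs.mem0 hz)).le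
    ((hs.one_le i).trans (hs.hi i))).add (hs.tvel h)).congr_open (h.isOpen3 θ) fun i z _ => by
      simp only [DU]
      abel

theorem St.dxx_coW (h : D.OK) (hs : D.St θ μ ε ε' B U) (hθ : θ < 1 / 4) {i : ι} {z : P2}
    (hz : z ∈ D.Ω 1 i) : dx (dx (D.coW U i)) z -
      D.lam i • dd et (D.vel i) (z, D.lam i * z.1 + B i z) = dd ex (D.DU U i) (coT (D.lam i) z) +
      D.lam i • dd et (fun z => dd ex (U i) z + (D.lam i • dd et (U i) z - D.velB B i z))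
        (coT (D.lam i) z) := by
  have hz' : coT (D.lam i) z ∈ D.Ω3 θ i := Ω_mono (by linarith) i hz
  have e1 : dx (dx (D.coW U i)) z = _ :=
    (co_dd_congr (h.isOpen 1 i) hz (fun x hx => hs.dx_coW h hθ hx) _).trans
      (dx_coT ((hs.co_tDU h).differentiableAt hz'))
  have e2 : D.DU U i = fun z => (dd ex (U i) z + (D.lam i • dd et (U i) z - D.velB B i z)) +
      D.velB B i z := by
    funext x
    simp only [DU]
    abel
  have e3 : dd et (D.DU U i) (coT (D.lam i) z) =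
      dd et (fun z => dd ex (U i) z + (D.lam i • dd et (U i) z - D.velB B i z)) (coT (D.lam i) z) +
        dd et (D.velB B i) (coT (D.lam i) z) := by
    rw [e2]
    exact cc_dd_add (hs.co_tXρ.differentiableAt hz') ((hs.tvel h).differentiableAt hz') et
  have e4 : dd et (D.velB B i) (coT (D.lam i) z) = dd et (D.vel i) (z, D.lam i * z.1 + B i z) := by
    have a1 := dd_shift (f := D.vel i) (z := coT (D.lam i) z) (β := B i)
      ((hs.sB i).differentiable (by simp) _)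
      (h.co_tvel.differentiableAt (z := (z, D.lam i * z.1 + B i z)) (hs.mem0 hz')) et
    have a2 : dd et.1 (B i) (coT (D.lam i) z).1 = 0 := map_zero (fderiv ℝ (B i) z)
    rw [a2, zero_smul, add_zero] at a1
    exact a1
  rw [e1, e3, e4, smul_add]
  abel

end CData

theorem core : ∃ K : ℕ, 5 ≤ K ∧ ∀ (N : ℕ) {ι : Type u} (D : CData ι), D.OK →
    (∀ i, D.lam i = D.ell i ^ K) → ∃ (w : ι → P2 → V) (Θ : ι → P2 → ℝ),
      (∀ i, ContDiff ℝ ∞ (w i)) ∧ (∀ i z, D.ϖ i z < 1 / 2 → w i z = 0) ∧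
      Tame (D.Ω 0) D.a (fun i => D.lam i ^ 2) 0 w ∧
      ∃ C : ℝ, ∀ i z, 1 < D.ϖ i z →
        |2 * inner ℝ (dx (D.F i) z) (dx (w i) z) + inner ℝ (dx (w i) z) (dx (w i) z) -
          D.a i z ^ 2| ≤ C / D.ell i ^ N ∧
        |inner ℝ (dx (D.F i) z) (dy (w i) z) + inner ℝ (dy (D.F i) z) (dx (w i) z) +
          inner ℝ (dx (w i) z) (dy (w i) z)| ≤ C / D.ell i ^ N ∧
        |D.c * (2 * inner ℝ (dy (D.F i) z) (dy (w i) z) + inner ℝ (dy (w i) z) (dy (w i) z))| ≤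
          C / D.ell i ^ N ∧
        ‖dx (w i) z - D.vel i (z, Θ i z)‖ ≤ C * D.a i z / D.ell i ^ 5 ∧
        ‖dy (w i) z‖ ≤ C * D.a i z / D.ell i ^ 5 ∧
        ‖dy (dy (w i)) z‖ ≤ C * D.a i z / D.ell i ^ 5 ∧
        ‖dx (dx (w i)) z - D.lam i • dd et (D.vel i) (z, Θ i z)‖ ≤
          C * D.a i z * D.lam i / D.ell i ^ 5 := by
  obtain ⟨Q, K0, H⟩ := core_iter.{u}
  refine ⟨K0 + Q * 3 + 5, by omega, fun N {ι} D h hl => ?_⟩
  obtain ⟨θ, B, U, hθ, hs⟩ := H (K0 + Q * 3 + 5) (by omega) D h hl (N + 1)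
  have l1 : ∀ i, 1 ≤ D.ell i := h.tF.one_le
  have l0 : ∀ i, 0 < D.ell i := fun i => one_pos.trans_le (l1 i)
  have pos : ∀ i, ∀ z ∈ D.Ω3 θ i, 0 < D.a i z.1 := fun i z hz => h.apos i _ (hs.mem0 hz)
  have big : ∀ i, (D.ell i ^ Q) ^ 3 * D.ell i ^ 5 ≤ D.lam i := fun i => by
    rw [hl, ← pow_mul, ← pow_add]
    exact pow_le_pow_right₀ (l1 i) (by omega)
  have bA : ∀ {f : ι → P3 → V}, Tame (D.Ω3 θ) (fun i z => D.a i z.1 / D.lam i)
      (fun i => D.ell i ^ Q) 3 f → ∃ C : ℝ, 0 ≤ C ∧ ∀ C', C ≤ C' → ∀ i, ∀ z ∈ D.Ω3 θ i,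
        ‖f i z‖ ≤ C' * D.a i z.1 / D.ell i ^ 5 := fun hf => by
    obtain ⟨C, hC, hb⟩ := hf.norm_le
    refine ⟨C, hC, fun C' hC' i z hz => (hb i z hz).trans ?_⟩
    have := l0 i
    have a0 := pos i z hz
    rw [mul_div_assoc]
    refine mul_le_mul hC' ?_ (by have := hs.lam_pos i; positivity) (hC.trans hC')
    rw [div_mul_eq_mul_div, div_le_div_iff₀ (hs.lam_pos i) (by positivity), mul_assoc]
    exact mul_le_mul_of_nonneg_left (big i) a0.le
  have bB : ∀ {f : ι → P3 → V}, Tame (D.Ω3 θ) (fun i z => D.a i z.1)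
      (fun i => D.ell i ^ Q) 3 f → ∃ C : ℝ, 0 ≤ C ∧ ∀ C', C ≤ C' → ∀ i, ∀ z ∈ D.Ω3 θ i,
        ‖f i z‖ ≤ C' * D.a i z.1 * D.lam i / D.ell i ^ 5 := fun hf => by
    obtain ⟨C, hC, hb⟩ := hf.norm_le
    refine ⟨C, hC, fun C' hC' i z hz => (hb i z hz).trans ?_⟩
    have := l0 i
    have a0 := pos i z hz
    rw [mul_assoc, mul_div_assoc]
    refine mul_le_mul hC' ?_ (by positivity) (hC.trans hC')
    rw [le_div_iff₀ (by positivity), mul_assoc]
    exact mul_le_mul_of_nonneg_left (big i) a0.le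
  obtain ⟨Ca, hCa, ha⟩ := h.ta1.norm_le
  have bE : ∀ {f : ι → P3 → ℝ}, Tame (D.Ω3 θ) (fun i z => D.a i z.1 * (D.ell i ^ (N + 1))⁻¹)
      (fun i => D.ell i ^ Q) 0 f → ∃ C : ℝ, 0 ≤ C ∧ ∀ C', C ≤ C' → ∀ i, ∀ z ∈ D.Ω3 θ i,
        |f i z| ≤ C' / D.ell i ^ N := fun hf => by
    obtain ⟨C, hC, hb⟩ := hf.norm_le
    refine ⟨C * Ca, mul_nonneg hC hCa, fun C' hC' i z hz => (hb i z hz).trans ?_⟩
    have := l0 i
    have a1 : D.a i z.1 ≤ Ca * D.ell i := by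
      have a2 := ha i z.1 (hs.mem0 hz)
      rw [one_mul, pow_one] at a2
      exact (le_abs_self _).trans a2
    calc C * (D.a i z.1 * (D.ell i ^ (N + 1))⁻¹ * (D.ell i ^ Q) ^ 0)
        ≤ C * (Ca * D.ell i * (D.ell i ^ (N + 1))⁻¹ * (D.ell i ^ Q) ^ 0) := by gcongr
      _ = C * Ca / D.ell i ^ N := by field_simp; ring
      _ ≤ C' / D.ell i ^ N := by gcongr
  obtain ⟨C1, p1, b1⟩ := bE hs.t11
  obtain ⟨C2, p2, b2⟩ := bE hs.t12
  obtain ⟨C3, p3, b3⟩ := bE (hs.t22.weaken fun i z hz => mul_le_mul_of_nonneg_left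
    (div_le_self (hs.ε0 i) ((hs.one_le i).trans (hs.hi i))) (pos i z hz).le)
  obtain ⟨C4, p4, b4⟩ := bA (hs.co_tXρ.mono_k (by norm_num))
  obtain ⟨C5, p5, b5⟩ := bA ((hs.tU.dd ey).mono_k (by norm_num))
  obtain ⟨C6, p6, b6⟩ := bA ((hs.tU.dd ey).dd ey)
  obtain ⟨C7, p7, b7⟩ := bB (((hs.co_tDU h).dd ex).add (((hs.co_tXρ.dd et).smul_index
    (c := D.lam) (t := D.lam) fun i => (abs_of_pos (hs.lam_pos i)).le).weaken fun i z _ =>
      le_of_eq (mul_div_cancel₀ _ (hs.lam_pos i).ne')))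
  refine ⟨D.coW U, fun i z => D.lam i * z.1 + B i z, hs.coW_smooth h hθ,
    fun i z hz => CData.coW_zero hz, hs.tcoW0 h hθ, C1 + C2 + C3 + C4 + C5 + C6 + C7,
    fun i z hz => ?_⟩
  have hz' : coT (D.lam i) z ∈ D.Ω3 θ i := CData.Ω_mono (θ' := 1) (by linarith) i hz
  have e1 := hs.dx_coW h hθ hz
  have e2 := hs.dy_coW h hθ hz
  have e3 : dy (dy (D.coW U i)) z = dd ey (dd ey (U i)) (coT (D.lam i) z) :=
    (co_dd_congr (h.isOpen 1 i) hz (fun x hx => hs.dy_coW h hθ hx) _).trans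
      (dy_coT ((hs.tU.dd ey).differentiableAt hz'))
  have e4 : D.DU U i (coT (D.lam i) z) - D.vel i (z, D.lam i * z.1 + B i z) =
      dd ex (U i) (coT (D.lam i) z) + (D.lam i • dd et (U i) (coT (D.lam i) z) -
        D.velB B i (coT (D.lam i) z)) := by
    rw [CData.DU, add_sub_assoc]
    rfl
  rw [hs.dxx_coW h hθ hz, e3, e1, e2, e4]
  exact ⟨b1 _ (by linarith) i _ hz', b2 _ (by linarith) i _ hz', b3 _ (by linarith) i _ hz',
    b4 _ (by linarith) i _ hz', b5 _ (by linarith) i _ hz', b6 _ (by linarith) i _ hz',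
    b7 _ (by linarith) i _ hz'⟩

end Vale.Agent.Iso4
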