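import Vale.Agent.Iso4.CoreCorrB

/-! The oscillating correction. -/

open scoped ContDiff Topology
open Set Filter

noncomputable section
namespace Vale.Agent.Iso4
universe u

namespace CData

variable {ι : Type u} {D : CData ι} {θ : ℝ} {μ μ' ε : ι → ℝ} {B : ι → P2 → ℝ} {U : ι → P3 → V}

theorem cc_fin {s : ι → P2 → ℝ} {t t' : ι → ℝ} {k : ℕ} {f : ι → P3 → ℝ}
    (hf : D.T3 θ μ' (fun i p => s i p * t i) k f) (hk : k ≤ 36)
    (hs0 : ∀ i, ∀ z ∈ D.Ω3 θ i, 0 ≤ s i z.1) (ht0 : ∀ i, 0 ≤ t i)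
    (ht : ∀ i, t i * μ' i ^ 36 ≤ t' i) : D.T3 θ μ' (fun i p => s i p * t' i) 0 f := by
  refine (hf.mono_k hk).absorb (fun _ => le_rfl) (fun i z hz => ?_) fun i z hz => ?_
  · rw [pow_zero, mul_one, mul_assoc]
    exact mul_le_mul_of_nonneg_left (ht i) (hs0 i z hz)
  · have := hf.one_le i
    exact mul_nonneg (hs0 i z hz) ((mul_nonneg (ht0 i) (by positivity)).trans (ht i))

section
variable (h : D.OK) (hs : D.St θ μ ε (fun i => ε i / D.lam i) B U) {i : ι} {z : P3}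
include h hs

theorem St.apos (hz : z ∈ D.Ω3 θ i) : 0 < D.a i z.1 := h.apos i _ (hs.mem0 hz)

omit h in
theorem St.one_le_lam (i : ι) : 1 ≤ D.lam i := (hs.one_le i).trans (hs.hi i)

theorem St.tlamD : D.T3 θ μ (D.s1 ε) 17 fun i z => D.lam i • dd et (D.ccD B U i) z :=
  (((hs.tD h).dd et).smul_index (c := D.lam) (t := D.lam) fun i =>
    (abs_of_pos (hs.lam_pos i)).le).weaken fun i z _ => le_of_eq (by
      have := (hs.lam_pos i).ne'
      field_simp)

theorem St.tDD : D.T3 θ μ (D.s1 ε) 17 (D.DU (D.ccD B U)) :=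
  (((hs.tD h).dd ex).weaken fun i z hz => mul_le_mul_of_nonneg_left
    (div_le_self (hs.ε0 i) (hs.one_le_lam i)) (hs.apos h hz).le).add (hs.tlamD h)

omit h in
theorem St.tXρ : D.T3 θ μ (fun i p => D.a i p / D.lam i) 2
    fun i z => dd ex (U i) z + (D.lam i • dd et (U i) z - D.velB B i z) :=
  (hs.tU.dd ex).add (hs.tρ.mono_k (by norm_num))

theorem St.tDU : D.T3 θ μ D.a 2 (D.DU U) :=
  ((hs.tXρ.weaken fun i z hz => div_le_self (hs.apos h hz).le (hs.one_le_lam i)).add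
    (hs.tvel h)).congr_open (h.isOpen3 θ) fun i z _ => by
      simp only [DU]
      abel

theorem St.dd_new (hz : z ∈ D.Ω3 θ i) (v : P3) :
    dd v (fun x => U i x + D.ccD B U i x) z = dd v (U i) z + dd v (D.ccD B U i) z :=
  cc_dd_add (hs.tU.differentiableAt hz) ((hs.tD h).differentiableAt hz) v

theorem St.DU_new (hz : z ∈ D.Ω3 θ i) :
    D.DU (fun i x => U i x + D.ccD B U i x) i z = D.DU U i z + D.DU (D.ccD B U) i z := by
  simp only [DU]
  rw [hs.dd_new h hz, hs.dd_new h hz, smul_add]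
  abel

theorem St.E11_new (hz : z ∈ D.Ω3 θ i) : D.E11 (fun i x => U i x + D.ccD B U i x) i z =
    2 * inner ℝ (dx (D.F i) z.1) (dd ex (D.ccD B U i) z) +
      (2 * inner ℝ (D.velB B i z) (dd ex (D.ccD B U i) z) +
        2 * inner ℝ (dd ex (U i) z + (D.lam i • dd et (U i) z - D.velB B i z))
          (D.DU (D.ccD B U) i z) +
        inner ℝ (D.DU (D.ccD B U) i z) (D.DU (D.ccD B U) i z)) := by
  have e := hs.corr1 h hz
  have e1 : dd ex (U i) z + (D.lam i • dd et (U i) z - D.velB B i z) =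
      D.DU U i z - D.velB B i z := by
    simp only [DU]
    abel
  have e2 : ∀ w : V, inner ℝ w (D.DU (D.ccD B U) i z) = inner ℝ w (dd ex (D.ccD B U i) z) +
      D.lam i * inner ℝ w (dd et (D.ccD B U i) z) := fun w => by
    rw [DU, inner_add_right, real_inner_smul_right]
  have e3 := e2 (dx (D.F i) z.1)
  have e4 := e2 (D.velB B i z)
  rw [E11, ccW, inner_add_left] at e
  rw [E11, hs.DU_new h hz, e1]
  simp only [inner_add_left, inner_add_right, inner_sub_left]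
  rw [real_inner_comm (D.DU U i z) (D.DU (D.ccD B U) i z)]
  linear_combination e + 2 * e3 + 2 * e4

theorem St.E12_new (hz : z ∈ D.Ω3 θ i) : D.E12 (fun i x => U i x + D.ccD B U i x) i z =
    (inner ℝ (dx (D.F i) z.1) (dd ey (D.ccD B U i) z) +
      inner ℝ (dy (D.F i) z.1) (dd ex (D.ccD B U i) z)) +
    (mean (D.E12 U i) z + inner ℝ (D.DU U i z) (dd ey (D.ccD B U i) z) +
      inner ℝ (dd ey (U i) z) (D.DU (D.ccD B U) i z) +
      inner ℝ (D.DU (D.ccD B U) i z) (dd ey (D.ccD B U i) z)) := by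
  have e := hs.corr2 h hz
  have e3 : inner ℝ (dy (D.F i) z.1) (D.DU (D.ccD B U) i z) =
      inner ℝ (dy (D.F i) z.1) (dd ex (D.ccD B U i) z) +
      D.lam i * inner ℝ (dy (D.F i) z.1) (dd et (D.ccD B U i) z) := by
    rw [DU, inner_add_right, real_inner_smul_right]
  rw [E12] at e
  rw [E12, hs.DU_new h hz, hs.dd_new h hz]
  simp only [inner_add_left, inner_add_right]
  rw [real_inner_comm (dd ey (U i) z) (D.DU (D.ccD B U) i z)]
  linear_combination e + e3

theorem St.E22_new (hz : z ∈ D.Ω3 θ i) : D.E22 (fun i x => U i x + D.ccD B U i x) i z =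
    D.c * (2 * inner ℝ (dd ey (U i) z) (dd ey (D.ccD B U i) z) +
      inner ℝ (dd ey (D.ccD B U i) z) (dd ey (D.ccD B U i) z)) := by
  have e := hs.corr3 h hz
  rw [E22] at e
  rw [E22, hs.dd_new h hz]
  simp only [inner_add_left, inner_add_right]
  rw [real_inner_comm (dd ey (U i) z) (dd ey (D.ccD B U i) z)]
  linear_combination e

theorem St.tlin {G : ι → P2 → V} (hG : Tame (D.Ω 0) (fun _ _ => 1) D.ell 2 G) (v : P3) :
    D.T3 θ μ (D.s1 fun i => ε i / D.lam i) 19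
      fun i z => inner ℝ (G i z.1) (dd v (D.ccD B U i) z) :=
  (hs.up1 hG).inner1 ((hs.tD h).dd v)

theorem St.tmlin {G : ι → P2 → V} (hG : Tame (D.Ω 0) (fun _ _ => 1) D.ell 2 G) (v : P3) :
    D.T3 θ μ (D.s2 fun i => ε i / D.lam i) 4
      fun i => mean fun z => inner ℝ (G i z.1) (dd v (D.ccD B U i) z) :=
  ((hs.up1 hG).inner1 ((hs.tmD h).dd v)).congr_open (h.isOpen3 θ) fun i z hz => by
    rw [mean_inner (G i) (T3.smL ((hs.tD h).dd v) hz), dd_mean (T3.smL (hs.tD h) hz)]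

end

/-- an error which is the sum of a linear part and a quadratic part -/
theorem cc_pair (h : D.OK) (hθ : 0 ≤ θ) (hlo : ∀ i, D.ell i ^ 2 ≤ μ' i) {t t' : ι → ℝ}
    (ht0 : ∀ i, 0 ≤ t i) (ht : ∀ i, t i * μ' i ^ 36 ≤ t' i) {E L Q : ι → P3 → ℝ}
    (hL : D.T3 θ μ' (D.s1 t) 36 L) (hmL : D.T3 θ μ' (D.s2 t) 35 fun i => mean (L i))
    (hQ : D.T3 θ μ' (D.s2 t) 35 Q) (hE : ∀ i, ∀ z ∈ D.Ω3 θ i, E i z = L i z + Q i z) :
    D.T3 θ μ' (D.s1 t') 0 E ∧ D.T3 θ μ' (D.s2 t') 0 fun i => mean (E i) := by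
  have pos : ∀ i, ∀ z ∈ D.Ω3 θ i, 0 ≤ D.a i z.1 := fun i z hz =>
    (h.apos i _ (Ω3_mono hθ i hz)).le
  refine ⟨cc_fin ((hL.add (St.sq_le h hθ hlo ht0 hQ)).congr_open (h.isOpen3 θ) fun i z hz =>
    (hE i z hz).symm) le_rfl pos ht0 ht, cc_fin (k := 35) ((hmL.add hQ.mean).congr_open
      (h.isOpen3 θ) fun i z hz => ?_) (by norm_num) (fun i z _ => sq_nonneg _) ht0 ht⟩
  rw [← mean_add (T3.smL hL hz) (T3.smL hQ hz)]
  exact mean_congr fun t => (hE i (z.1, t) hz).symm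

end CData

open CData in
theorem core_corr : ∃ q : ℕ, ∀ {ι : Type u} (D : CData ι) (θ : ℝ) (μ μ' ε : ι → ℝ)
    (B : ι → P2 → ℝ) (U : ι → P3 → V), D.OK → D.St θ μ ε (fun i => ε i / D.lam i) B U →
    (∀ i, μ i ≤ μ' i) → (∀ i, μ' i ≤ D.lam i) → (∀ i, D.lam i * ε i * μ i ^ q ≤ μ' i) →
    ∃ U', D.St θ μ' (fun i => ε i * μ' i ^ q / D.lam i) (fun i => ε i * μ' i ^ q / D.lam i) B U' := by
  refine ⟨36, fun {ι} D θ μ μ' ε B U h hs h1 h2 h3 => ?_⟩
  have hlo : ∀ i, D.ell i ^ 2 ≤ μ' i := fun i => (hs.lo i).trans (h1 i)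
  have one' : ∀ i, 1 ≤ μ' i := fun i => (hs.one_le i).trans (h1 i)
  have h4 : ∀ i, ∀ k ≤ 36, D.lam i * ε i * μ i ^ k ≤ μ' i := fun i k hk =>
    (mul_le_mul_of_nonneg_left (pow_le_pow_right₀ (hs.one_le i) hk)
      (mul_nonneg (hs.lam_pos i).le (hs.ε0 i))).trans (h3 i)
  have h5 : ∀ i, ε i ≤ μ' i / D.lam i := fun i => by
    have := h4 i 0 (by norm_num)
    rw [le_div_iff₀ (hs.lam_pos i)]
    linarith
  have h6 : ∀ i, ε i ≤ 1 := fun i => (h5 i).trans ((div_le_one (hs.lam_pos i)).2 (h2 i))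
  have ht : ∀ i, ε i / D.lam i * μ' i ^ 36 ≤ ε i * μ' i ^ 36 / D.lam i := fun i =>
    le_of_eq (by ring)
  have tDy := (hs.tD h).dd ey
  have tUy := hs.tU.dd ey
  have q11 : D.T3 θ μ' (D.s2 fun i => ε i / D.lam i) 35
      fun i z => inner ℝ (D.DU (D.ccD B U) i z) (D.DU (D.ccD B U) i z) := by
    refine (((hs.tDD h).inner (hs.tDD h)).mono_scale h1).absorb (fun _ => le_rfl)
      (fun i z _ => ?_) fun i z _ => mul_nonneg (sq_nonneg _) (hs.t_nonneg i)
    have a1 : 0 ≤ D.a i z.1 ^ 2 * ε i * μ' i ^ 34 := by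
      have := hs.ε0 i
      have := one' i
      positivity
    calc D.a i z.1 * ε i * (D.a i z.1 * ε i) * μ' i ^ (17 + 17)
        = D.a i z.1 ^ 2 * ε i * μ' i ^ 34 * ε i := by ring
      _ ≤ D.a i z.1 ^ 2 * ε i * μ' i ^ 34 * (μ' i / D.lam i) :=
          mul_le_mul_of_nonneg_left (h5 i) a1
      _ = D.a i z.1 ^ 2 * (ε i / D.lam i) * μ' i ^ 35 := by ring
  have q11a : D.T3 θ μ (D.s2 fun i => ε i / D.lam i) 19
      fun i z => inner ℝ (D.velB B i z) (dd ex (D.ccD B U i) z) :=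
    ((hs.tvel h).inner ((hs.tD h).dd ex)).weaken fun i z _ => le_of_eq (by ring)
  have q11b : D.T3 θ μ (D.s2 fun i => ε i / D.lam i) 19
      fun i z => inner ℝ (dd ex (U i) z + (D.lam i • dd et (U i) z - D.velB B i z))
        (D.DU (D.ccD B U) i z) :=
    (hs.tXρ.inner (hs.tDD h)).weaken fun i z _ => le_of_eq (by ring)
  have p11 := cc_pair h hs.θ0 hlo hs.t_nonneg ht
    (E := D.E11 fun i x => U i x + D.ccD B U i x)
    ((((hs.tlin h (h.tF.dd _) ex).const_mul 2).mono_scale h1).mono_k (by norm_num))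
    (((((hs.tmlin h (h.tF.dd _) ex).const_mul 2).mono_scale h1).mono_k (by norm_num)).congr_open
      (h.isOpen3 θ) fun i z _ => (mean_mul fun _ => 2).symm)
    (((((q11a.const_mul 2).add (q11b.const_mul 2)).mono_scale h1).mono_k (by norm_num)).add q11)
    fun i z hz => hs.E11_new h hz
  have q12a : D.T3 θ μ (D.s2 fun i => ε i / D.lam i) 19
      fun i z => inner ℝ (D.DU U i z) (dd ey (D.ccD B U i) z) :=
    ((hs.tDU h).inner tDy).weaken fun i z _ => le_of_eq (by ring)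
  have q12b : D.T3 θ μ (D.s2 fun i => ε i / D.lam i) 19
      fun i z => inner ℝ (dd ey (U i) z) (D.DU (D.ccD B U) i z) :=
    (tUy.inner (hs.tDD h)).weaken fun i z _ => le_of_eq (by ring)
  have q12c : D.T3 θ μ (D.s2 fun i => ε i / D.lam i) 34
      fun i z => inner ℝ (D.DU (D.ccD B U) i z) (dd ey (D.ccD B U i) z) :=
    ((hs.tDD h).inner tDy).weaken fun i z _ => by
      calc D.a i z.1 * ε i * (D.a i z.1 * (ε i / D.lam i))
          = D.a i z.1 ^ 2 * (ε i / D.lam i) * ε i := by ring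
        _ ≤ D.a i z.1 ^ 2 * (ε i / D.lam i) :=
          mul_le_of_le_one_right (mul_nonneg (sq_nonneg _) (hs.t_nonneg i)) (h6 i)
  have p12 := cc_pair h hs.θ0 hlo hs.t_nonneg ht
    (E := D.E12 fun i x => U i x + D.ccD B U i x)
    ((((hs.tlin h (h.tF.dd ((1, 0) : P2)) ey).add
      (hs.tlin h (h.tF.dd ((0, 1) : P2)) ex)).mono_scale h1).mono_k (by norm_num))
    (((((hs.tmlin h (h.tF.dd ((1, 0) : P2)) ey).add
      (hs.tmlin h (h.tF.dd ((0, 1) : P2)) ex)).mono_scale h1).mono_k (by norm_num)).congr_open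
      (h.isOpen3 θ) fun i z hz => (mean_add (T3.smL (hs.tlin h (h.tF.dd ((1, 0) : P2)) ey) hz)
        (T3.smL (hs.tlin h (h.tF.dd ((0, 1) : P2)) ex) hz)).symm)
    ((((((hs.m12.mono_k (by norm_num)).add q12a).add q12b).mono_k (by norm_num)).add
      q12c).mono_scale h1 |>.mono_k (by norm_num))
    fun i z hz => hs.E12_new h hz
  have t0' : ∀ i, 0 ≤ ε i / D.lam i / D.lam i := fun i =>
    div_nonneg (hs.t_nonneg i) (hs.lam_pos i).le
  have q22a : D.T3 θ μ (D.s2 fun i => ε i / D.lam i / D.lam i) 19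
      fun i z => inner ℝ (dd ey (U i) z) (dd ey (D.ccD B U i) z) :=
    (tUy.inner tDy).weaken fun i z _ => le_of_eq (by ring)
  have q22b : D.T3 θ μ (D.s2 fun i => ε i / D.lam i / D.lam i) 34
      fun i z => inner ℝ (dd ey (D.ccD B U i) z) (dd ey (D.ccD B U i) z) :=
    (tDy.inner tDy).weaken fun i z _ => by
      calc D.a i z.1 * (ε i / D.lam i) * (D.a i z.1 * (ε i / D.lam i))
          = D.a i z.1 ^ 2 * (ε i / D.lam i / D.lam i) * ε i := by ring
        _ ≤ D.a i z.1 ^ 2 * (ε i / D.lam i / D.lam i) :=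
          mul_le_of_le_one_right (mul_nonneg (sq_nonneg _) (t0' i)) (h6 i)
  have p22 := cc_pair h hs.θ0 hlo t0'
    (t' := fun i => ε i * μ' i ^ 36 / D.lam i / D.lam i) (fun i => le_of_eq (by ring))
    (E := D.E22 fun i x => U i x + D.ccD B U i x) (L := fun _ _ => 0) (Tame.zero one')
    ((Tame.zero one').congr_open (h.isOpen3 θ) fun i z _ => (mean_up fun _ => (0 : ℝ)).symm)
    ((((((q22a.const_mul 2).mono_k (by norm_num)).add q22b).const_mul D.c).mono_scale h1).mono_k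
      (by norm_num))
    fun i z hz => (hs.E22_new h hz).trans (zero_add _).symm
  refine ⟨fun i x => U i x + D.ccD B U i x, hs.θ0, hlo, h2, fun i => ?_, hs.sB,
    hs.t0.mono_scale h1, hs.t1.mono_scale h1, hs.t2.mono_scale h1,
    fun i => Per.map₂ (fun x y : V => x + y) (hs.per i) (hs.perD h i), ?_, ?_, p11.1, p11.2,
    p12.1, p12.2, p22.1, p22.2⟩
  · have := hs.ε0 i
    have := one' i
    have := hs.lam_pos i
    positivity
  · refine (hs.tU.mono_scale h1).add ((hs.tD h).absorb h1 (fun i z hz => ?_) fun i z hz =>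
      div_nonneg (hs.apos h hz).le (hs.lam_pos i).le)
    have a1 : ε i * μ i ^ 16 ≤ μ' i := by
      refine le_trans ?_ (h4 i 16 (by norm_num))
      rw [mul_assoc]
      have := hs.one_le i
      exact le_mul_of_one_le_left (mul_nonneg (hs.ε0 i) (by positivity)) (hs.one_le_lam i)
    calc D.a i z.1 * (ε i / D.lam i) * μ i ^ 16 = D.a i z.1 / D.lam i * (ε i * μ i ^ 16) := by ring
      _ ≤ D.a i z.1 / D.lam i * μ' i ^ 1 := by
        rw [pow_one]
        exact mul_le_mul_of_nonneg_left a1 (div_nonneg (hs.apos h hz).le (hs.lam_pos i).le)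
  · refine ((hs.tρ.mono_scale h1).add ((hs.tlamD h).absorb h1 (fun i z hz => ?_) fun i z hz =>
      div_nonneg (hs.apos h hz).le (hs.lam_pos i).le)).congr_open (h.isOpen3 θ) fun i z hz => ?_
    · have l0 := (hs.lam_pos i).ne'
      calc D.a i z.1 * ε i * μ i ^ 17 = D.a i z.1 / D.lam i * (D.lam i * ε i * μ i ^ 17) := by
            field_simp
        _ ≤ D.a i z.1 / D.lam i * μ' i ^ 1 := by
          rw [pow_one]
          exact mul_le_mul_of_nonneg_left (h4 i 17 (by norm_num))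
            (div_nonneg (hs.apos h hz).le (hs.lam_pos i).le)
    · rw [hs.dd_new h hz, smul_add]
      abel

end Vale.Agent.Iso4
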