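import Vale.Agent.Iso4.CoreShift
import Vale.Agent.Iso4.CoreCorr

/-! Iteration of the rounds. -/

open scoped ContDiff Topology
open Set Filter

noncomputable section
namespace Vale.Agent.Iso4
universe u

theorem CData.St.co_mono {ι : Type u} {D : CData ι} {θ : ℝ} {μ ε ε' η η' : ι → ℝ}
    {B : ι → P2 → ℝ} {U : ι → P3 → V} (h : D.OK) (hs : D.St θ μ ε ε' B U) (h1 : ∀ i, ε i ≤ η i)
    (h2 : ∀ i, ε' i ≤ η' i) : D.St θ μ η η' B U := by
  have pos : ∀ i, ∀ z ∈ D.Ω3 θ i, 0 ≤ D.a i z.1 := fun i z hz => (h.apos i _ (hs.mem0 hz)).le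
  have h3 : ∀ i, ε i / D.lam i ≤ η i / D.lam i := fun i =>
    div_le_div_of_nonneg_right (h1 i) (hs.lam_pos i).le
  exact ⟨hs.θ0, hs.lo, hs.hi, fun i => (hs.ε0 i).trans (h1 i), hs.sB, hs.t0, hs.t1, hs.t2, hs.per,
    hs.tU, hs.tρ,
    hs.t11.weaken fun i z hz => mul_le_mul_of_nonneg_left (h1 i) (pos i z hz),
    hs.m11.weaken fun i z _ => mul_le_mul_of_nonneg_left (h1 i) (sq_nonneg _),
    hs.t12.weaken fun i z hz => mul_le_mul_of_nonneg_left (h1 i) (pos i z hz),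
    hs.m12.weaken fun i z _ => mul_le_mul_of_nonneg_left (h2 i) (sq_nonneg _),
    hs.t22.weaken fun i z hz => mul_le_mul_of_nonneg_left (h3 i) (pos i z hz),
    hs.m22.weaken fun i z _ => mul_le_mul_of_nonneg_left (h3 i) (sq_nonneg _)⟩

theorem core_iter : ∃ Q K0 : ℕ, ∀ K : ℕ, K0 ≤ K → ∀ {ι : Type u} (D : CData ι), D.OK →
    (∀ i, D.lam i = D.ell i ^ K) → ∀ n : ℕ, ∃ θ B U, θ < 1 / 4 ∧
      D.St θ (fun i => D.ell i ^ Q) (fun i => (D.ell i ^ n)⁻¹) (fun i => (D.ell i ^ n)⁻¹) B U := by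
  obtain ⟨q0, H0⟩ := core_init.{u}
  obtain ⟨q1, H1⟩ := core_shift.{u}
  obtain ⟨q2, H2⟩ := core_corr.{u}
  obtain ⟨a1, ha1⟩ : ∃ a1, a1 = q0 + q0 * q1 := ⟨_, rfl⟩
  obtain ⟨Q, hQ⟩ : ∃ Q, Q = a1 + q0 + a1 * q1 + a1 * q2 := ⟨_, rfl⟩
  refine ⟨Q, Q + q0 + a1 * q1 + Q * q2 + Q * q1 + Q * q2 + 1, fun K hK {ι} D h hl => ?_⟩
  have l1 : ∀ i, 1 ≤ D.ell i := h.tF.one_le
  have l0 : ∀ i, 0 < D.ell i := fun i => one_pos.trans_le (l1 i)
  have pw : ∀ i {a b : ℕ}, a ≤ b → D.ell i ^ a ≤ D.ell i ^ b := fun i _ _ hab =>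
    pow_le_pow_right₀ (l1 i) hab
  have hQl : ∀ i, D.ell i ^ Q ≤ D.lam i := fun i => by rw [hl]; exact pw i (by omega)
  have key : ∀ n : ℕ, ∃ θ B U, θ < 1 / 4 ∧ D.St θ (fun i => D.ell i ^ Q)
      (fun i => (D.ell i ^ (K + Q * q1 + Q * q2 + n))⁻¹)
      (fun i => (D.ell i ^ (K + Q * q1 + Q * q2 + n))⁻¹) B U := by
    intro n
    induction n with
    | zero =>
      obtain ⟨U0, s0⟩ := H0 D h fun i => by rw [hl]; exact pw i (by omega)
      obtain ⟨B1, U1, s1⟩ := H1 D 0 (1 / 8) _ (fun i => D.ell i ^ a1) _ _ _ h s0 (by norm_num)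
        (fun i => pw i (by omega)) (fun i => by rw [hl]; exact pw i (by omega)) fun i => by
          rw [mul_div_cancel₀ _ (s0.lam_pos i).ne', ← pow_mul, ← pow_add, ha1]
      obtain ⟨U2, s2⟩ := H2 D _ _ (fun i => D.ell i ^ Q) _ _ _ h s1 (fun i => pw i (by omega)) hQl
        fun i => by
          rw [← mul_assoc, mul_div_cancel₀ _ (s0.lam_pos i).ne', ← pow_mul, ← pow_mul, ← pow_add,
            ← pow_add]
          exact pw i (by omega)
      have e : ∀ i, D.ell i ^ q0 / D.lam i * (D.ell i ^ a1) ^ q1 * (D.ell i ^ Q) ^ q2 / D.lam i ≤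
          (D.ell i ^ (K + Q * q1 + Q * q2 + 0))⁻¹ := fun i => by
        have := l0 i
        rw [hl, div_mul_eq_mul_div, div_mul_eq_mul_div, div_div, inv_eq_one_div,
          div_le_div_iff₀ (by positivity) (by positivity), one_mul, ← pow_mul, ← pow_mul,
          ← pow_add, ← pow_add, ← pow_add, ← pow_add]
        exact pw i (by omega)
      exact ⟨1 / 8, B1, U2, by norm_num, s2.co_mono h e e⟩
    | succ n ih =>
      obtain ⟨θ, B, U, hθ, s0⟩ := ih
      have one : ∀ i, (1 : ℝ) ≤ D.ell i ^ Q := fun i => one_le_pow₀ (l1 i)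
      obtain ⟨B1, U1, s1⟩ := H1 D θ ((θ + 1 / 4) / 2) _ (fun i => D.ell i ^ Q) _ _ _ h s0
        (by linarith) (fun _ => le_rfl) hQl fun i => by
          have := l0 i
          refine le_trans ?_ (one i)
          rw [hl, mul_right_comm, ← div_eq_mul_inv, div_le_one (by positivity), ← pow_mul,
            ← pow_add]
          exact pw i (by omega)
      obtain ⟨U2, s2⟩ := H2 D _ _ (fun i => D.ell i ^ Q) _ _ _ h s1 (fun _ => le_rfl) hQl
        fun i => by
          have := l0 i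
          refine le_trans ?_ (one i)
          rw [hl, mul_comm (_⁻¹), ← mul_assoc, mul_right_comm, ← div_eq_mul_inv,
            div_le_one (by positivity), ← pow_mul, ← pow_mul, ← pow_add, ← pow_add]
          exact pw i (by omega)
      have e : ∀ i, (D.ell i ^ (K + Q * q1 + Q * q2 + n))⁻¹ * (D.ell i ^ Q) ^ q1 *
          (D.ell i ^ Q) ^ q2 / D.lam i ≤ (D.ell i ^ (K + Q * q1 + Q * q2 + (n + 1)))⁻¹ := fun i => by
        have := l0 i
        rw [hl, mul_assoc, mul_comm (_⁻¹), ← div_eq_mul_inv, div_div, inv_eq_one_div,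
          div_le_div_iff₀ (by positivity) (by positivity), one_mul, ← pow_mul, ← pow_mul,
          ← pow_add, ← pow_add, ← pow_add]
        exact pw i (by omega)
      exact ⟨_, B1, U2, by linarith, s2.co_mono h e e⟩
  intro n
  obtain ⟨θ, B, U, hθ, s⟩ := key n
  have e : ∀ i, (D.ell i ^ (K + Q * q1 + Q * q2 + n))⁻¹ ≤ (D.ell i ^ n)⁻¹ := fun i =>
    inv_anti₀ (pow_pos (l0 i) _) (pw i (by omega))
  exact ⟨θ, B, U, hθ, s.co_mono h e e⟩

section Graph
variable {X : Type} [NormedAddCommGroup X] [NormedSpace ℝ X]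

/-- the graph of the fast phase -/
def coT (c : ℝ) : P2 →L[ℝ] P3 :=
  (ContinuousLinearMap.id ℝ P2).prod (c • ContinuousLinearMap.fst ℝ ℝ ℝ)

theorem coT_apply (c : ℝ) (p : P2) : coT c p = (p, c * p.1) := rfl

theorem norm_coT_le {c : ℝ} (hc : 1 ≤ c) : ‖coT c‖ ≤ c := by
  refine ContinuousLinearMap.opNorm_le_bound _ (by linarith) fun p => ?_
  rw [coT_apply, Prod.norm_def, norm_mul, Real.norm_of_nonneg (by linarith : 0 ≤ c)]
  exact max_le (le_mul_of_one_le_left (norm_nonneg _) hc)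
    (mul_le_mul_of_nonneg_left (norm_fst_le p) (by linarith))

theorem dd_coT {f : P3 → X} {c : ℝ} {p : P2} (hf : DifferentiableAt ℝ f (coT c p)) (v : P2) :
    dd v (fun x => f (coT c x)) p = dd (coT c v) f (coT c p) := by
  have := (hf.hasFDerivAt.comp p (coT c).hasFDerivAt).fderiv
  simp only [dd]
  exact congrArg (fun T : P2 →L[ℝ] X => T v) this

theorem dx_coT {f : P3 → X} {c : ℝ} {p : P2} (hf : DifferentiableAt ℝ f (coT c p)) :
    dx (fun x => f (coT c x)) p = dd ex f (coT c p) + c • dd et f (coT c p) := by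
  have e : coT c (1, 0) = ex + c • et := by simp [coT_apply, ex, et]
  rw [dx, dd_coT hf, e]
  simp only [dd, map_add, map_smul]

theorem dy_coT {f : P3 → X} {c : ℝ} {p : P2} (hf : DifferentiableAt ℝ f (coT c p)) :
    dy (fun x => f (coT c x)) p = dd ey f (coT c p) := by
  have e : coT c (0, 1) = ey := by simp [coT_apply, ey]
  rw [dy, dd_coT hf, e]

theorem co_dd_congr {f g : P2 → X} {S : Set P2} (hS : IsOpen S) {z : P2} (hz : z ∈ S)
    (h : ∀ x ∈ S, f x = g x) (v : P2) : dd v f z = dd v g z := by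
  have : f =ᶠ[𝓝 z] g := eventually_of_mem (hS.mem_nhds hz) h
  simp only [dd]
  rw [this.fderiv_eq]

end Graph

end Vale.Agent.Iso4
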