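import Vale.Agent.Iso4.CoreDef

/-! Basic facts on the velocity loop, and the initial state. -/

open scoped ContDiff Topology
open Set Filter

noncomputable section
namespace Vale.Agent.Iso4
universe u
namespace CData
variable {ι : Type u} {D : CData ι} {θ θ' : ℝ} {μ ε ε' : ι → ℝ} {B : ι → P2 → ℝ} {U : ι → P3 → V}

theorem OK.isOpen (h : D.OK) (θ : ℝ) (i : ι) : IsOpen (D.Ω θ i) := by
  exact isOpen_lt continuous_const (h.tϖ.contDiff i).continuous
theorem OK.isOpen3 (h : D.OK) (θ : ℝ) (i : ι) : IsOpen (D.Ω3 θ i) := by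
  exact isOpen_tube (h.isOpen θ i)
theorem Ω_mono (h : θ ≤ θ') (i : ι) : D.Ω θ' i ⊆ D.Ω θ i := by
  exact fun _ hp => lt_of_le_of_lt h hp
theorem Ω3_mono (h : θ ≤ θ') (i : ι) : D.Ω3 θ' i ⊆ D.Ω3 θ i := by
  exact fun _ hp => lt_of_le_of_lt h hp

/-- coefficients read on the tube at a larger scale -/
theorem up_of {X : Type} [NormedAddCommGroup X] [NormedSpace ℝ X] {f : ι → P2 → X}
    {s : ι → P2 → ℝ} {k : ℕ} (hf : Tame (D.Ω 0) s D.ell k f) (hθ : 0 ≤ θ)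
    (hμ : ∀ i, D.ell i ^ 2 ≤ μ i) :
    Tame (D.Ω3 θ) (fun i z => s i z.1) μ k fun i z => f i z.1 := by
  have h1 : ∀ i, D.ell i ≤ μ i := fun i =>
    (le_self_pow₀ (hf.one_le i) two_ne_zero).trans (hμ i)
  exact ((hf.mono_set (Ω_mono hθ)).mono_scale h1).comp_clm (ContinuousLinearMap.fst ℝ P2 ℝ)

theorem velB_eq (i : ι) (z : P3) : D.velB B i z = D.a i z.1 •
    (sh B D.v0 i z • D.e0 i z.1 + sh B D.v1 i z • D.n1 i z.1 + sh B D.v2 i z • D.n2 i z.1) := rfl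

theorem OK.per_velB (h : D.OK) (i : ι) : Per (D.velB B i) := by
  intro z
  have e : (z + (2 * Real.pi) • et).1 = z.1 := Per.up (fun p => p) z
  have e0 : sh B D.v0 i (z + (2 * Real.pi) • et) = sh B D.v0 i z := (h.pv0 i).shift (B i) z
  have e1 : sh B D.v1 i (z + (2 * Real.pi) • et) = sh B D.v1 i z := (h.pv1 i).shift (B i) z
  have e2 : sh B D.v2 i (z + (2 * Real.pi) • et) = sh B D.v2 i z := (h.pv2 i).shift (B i) z
  rw [velB_eq, velB_eq, e, e0, e1, e2]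

theorem OK.cb_tvel (h : D.OK) (hθ : 0 ≤ θ) (hμ : ∀ i, D.ell i ^ 2 ≤ μ i)
    (t0 : Tame (D.Ω3 θ) (fun _ _ => 1) μ 1 (sh B D.v0))
    (t1 : Tame (D.Ω3 θ) (fun _ _ => 1) μ 1 (sh B D.v1))
    (t2 : Tame (D.Ω3 θ) (fun _ _ => 1) μ 1 (sh B D.v2)) :
    Tame (D.Ω3 θ) (fun i z => D.a i z.1) μ 2 (D.velB B) :=
  (up_of h.ta hθ hμ).smul2 (((t0.smul1 (up_of h.te0 hθ hμ)).add (t1.smul1 (up_of h.tn1 hθ hμ))).add
    (t2.smul1 (up_of h.tn2 hθ hμ)))

theorem OK.cb_mean_vel (h : D.OK) (hθ : 0 ≤ θ) (hμ : ∀ i, D.ell i ^ 2 ≤ μ i)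
    (t0 : Tame (D.Ω3 θ) (fun _ _ => 1) μ 1 (sh B D.v0))
    (t1 : Tame (D.Ω3 θ) (fun _ _ => 1) μ 1 (sh B D.v1))
    (t2 : Tame (D.Ω3 θ) (fun _ _ => 1) μ 1 (sh B D.v2)) {i : ι} {z : P3} (hz : z ∈ D.Ω3 θ i) :
    mean (D.velB B i) z = 0 := by
  have s0 := t0.smul1 (up_of h.te0 hθ hμ)
  have s1 := t1.smul1 (up_of h.tn1 hθ hμ)
  have s2 := t2.smul1 (up_of h.tn2 hθ hμ)
  have z0 := Ω3_mono hθ i hz
  have e : mean (D.velB B i) z = D.a i z.1 • mean (fun x => sh B D.v0 i x • D.e0 i x.1 +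
      sh B D.v1 i x • D.n1 i x.1 + sh B D.v2 i x • D.n2 i x.1) z := mean_smul (D.a i)
  have m0 : mean (sh B D.v0 i) z = 0 := (mean_shift (h.pv0 i) (B i)).trans (h.mv0 i z z0)
  have m1 : mean (sh B D.v1 i) z = 0 := (mean_shift (h.pv1 i) (B i)).trans (h.mv1 i z z0)
  have m2 : mean (sh B D.v2 i) z = 0 := (mean_shift (h.pv2 i) (B i)).trans (h.mv2 i z z0)
  rw [e, mean_add (Tame.smL (Ω := D.Ω θ) (s0.add s1) hz) (Tame.smL (Ω := D.Ω θ) s2 hz),
    mean_add (Tame.smL (Ω := D.Ω θ) s0 hz) (Tame.smL (Ω := D.Ω θ) s1 hz),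
    mean_smul_vec (D.e0 i), mean_smul_vec (D.n1 i), mean_smul_vec (D.n2 i), m0, m1, m2]
  simp

theorem St.tvel (h : D.OK) (hs : D.St θ μ ε ε' B U) :
    Tame (D.Ω3 θ) (fun i z => D.a i z.1) μ 2 (D.velB B) := by
  exact h.cb_tvel hs.θ0 hs.lo hs.t0 hs.t1 hs.t2

theorem St.mean_vel (h : D.OK) (hs : D.St θ μ ε ε' B U) {i : ι} {z : P3} (hz : z ∈ D.Ω3 θ i) :
    mean (D.velB B i) z = 0 := by
  exact h.cb_mean_vel hs.θ0 hs.lo hs.t0 hs.t1 hs.t2 hz

theorem OK.y_vel (h : D.OK) {i : ι} {z : P3} (hz : z ∈ D.Ω3 0 i) :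
    inner ℝ (dy (D.F i) z.1) (D.velB B i z) = (0 : ℝ) := by
  simp only [velB_eq, inner_add_right, real_inner_smul_right, h.y0 i _ hz, h.y1 i _ hz,
    h.y2 i _ hz]
  ring

theorem OK.x_vel (h : D.OK) {i : ι} {z : P3} (hz : z ∈ D.Ω3 0 i) :
    2 * inner ℝ (dx (D.F i) z.1) (D.velB B i z) + inner ℝ (D.velB B i z) (D.velB B i z) =
      D.a i z.1 ^ 2 := by
  have c01 := real_inner_comm (D.e0 i z.1) (D.n1 i z.1)
  have c02 := real_inner_comm (D.e0 i z.1) (D.n2 i z.1)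
  have c12 := real_inner_comm (D.n1 i z.1) (D.n2 i z.1)
  rw [h.e01 i _ hz] at c01
  rw [h.e02 i _ hz] at c02
  rw [h.e12 i _ hz] at c12
  have sp := h.sphere i (z.1, z.2 + B i z.1) hz
  simp only [velB_eq, inner_add_right, inner_add_left, real_inner_smul_right, real_inner_smul_left,
    h.x0 i _ hz, h.x1 i _ hz, h.x2 i _ hz, h.e00 i _ hz, h.e11 i _ hz, h.e22 i _ hz, h.e01 i _ hz,
    h.e02 i _ hz, h.e12 i _ hz, c01, c02, c12, sh]
  linear_combination D.a i z.1 * sp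

theorem St.mean_sq (h : D.OK) (hs : D.St θ μ ε ε' B U) {i : ι} {z : P3} (hz : z ∈ D.Ω3 θ i) :
    mean (fun x => inner ℝ (D.velB B i x) (D.velB B i x)) z = D.a i z.1 ^ 2 := by
  have t1 := ((up_of (h.tF.dd ((1, 0) : P2)) hs.θ0 hs.lo).inner1 (hs.tvel h)).const_mul 2
  have t2 := (up_of h.ta hs.θ0 hs.lo).mul (up_of h.ta hs.θ0 hs.lo)
  have e : mean (fun x => inner ℝ (D.velB B i x) (D.velB B i x)) z =
      mean (fun x => D.a i x.1 * D.a i x.1 - 2 * inner ℝ (dx (D.F i) x.1) (D.velB B i x)) z :=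
    mean_congr fun t => by
      have := h.x_vel (B := B) (z := (z.1, t)) (Ω3_mono hs.θ0 i hz)
      linear_combination this
  rw [e, mean_sub (Tame.smL (Ω := D.Ω θ) t2 hz) (Tame.smL (Ω := D.Ω θ) t1 hz),
    mean_up fun p => D.a i p * D.a i p, mean_mul fun _ => 2,
    mean_inner (dx (D.F i)) (Tame.smL (Ω := D.Ω θ) (hs.tvel h) hz), hs.mean_vel h hz,
    inner_zero_right]
  ring

theorem St.per11 (hs : D.St θ μ ε ε' B U) (i : ι) : Per (D.E11 U i) := by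
  intro z
  have e : (z + (2 * Real.pi) • et).1 = z.1 := Per.up (fun p => p) z
  simp only [E11, DU, e, (hs.per i).dd ex z, (hs.per i).dd et z]
theorem St.per12 (hs : D.St θ μ ε ε' B U) (i : ι) : Per (D.E12 U i) := by
  intro z
  have e : (z + (2 * Real.pi) • et).1 = z.1 := Per.up (fun p => p) z
  simp only [E12, DU, e, (hs.per i).dd ex z, (hs.per i).dd et z, (hs.per i).dd ey z]
theorem St.per22 (hs : D.St θ μ ε ε' B U) (i : ι) : Per (D.E22 U i) := by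
  intro z
  have e : (z + (2 * Real.pi) • et).1 = z.1 := Per.up (fun p => p) z
  simp only [E22, e, (hs.per i).dd ey z]

/-- the square of the amplitude is at most a multiple of the amplitude -/
theorem St.sq_le {X : Type} [NormedAddCommGroup X] [NormedSpace ℝ X] (h : D.OK) (hθ : 0 ≤ θ)
    (hμ : ∀ i, D.ell i ^ 2 ≤ μ i) {t : ι → ℝ} (ht : ∀ i, 0 ≤ t i) {k : ℕ} {f : ι → P3 → X}
    (hf : Tame (D.Ω3 θ) (fun i z => D.a i z.1 ^ 2 * t i) μ k f) :
    Tame (D.Ω3 θ) (fun i z => D.a i z.1 * t i) μ (k + 1) f := by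
  obtain ⟨C, hC, hb⟩ := (up_of h.ta1 hθ hμ).norm_le
  have pos : ∀ i, ∀ z ∈ D.Ω3 θ i, 0 ≤ D.a i z.1 * t i := fun i z hz =>
    mul_nonneg (h.apos i _ (Ω3_mono hθ i hz)).le (ht i)
  have h1 : Tame (D.Ω3 θ) (fun i z => D.a i z.1 * t i * μ i) μ k f :=
    hf.weakenC hC fun i z hz => by
      have := hb i z hz
      rw [one_mul, pow_one] at this
      have h2 := mul_le_mul_of_nonneg_left ((le_abs_self _).trans this) (pos i z hz)
      linarith
  exact h1.absorb (fun _ => le_rfl) (fun i z _ => le_of_eq (by ring)) pos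

end CData

section Calc
variable {X : Type} [NormedAddCommGroup X] [NormedSpace ℝ X] {z : P3}

theorem cb_dd_const_smul {f : P3 → X} (hf : DifferentiableAt ℝ f z) (c : ℝ) (v : P3) :
    dd v (fun x => c • f x) z = c • dd v f z := by
  simp only [dd]
  rw [fderiv_fun_const_smul hf]
  rfl

theorem cb_dd_inner {f g : P3 → V} (hf : DifferentiableAt ℝ f z) (hg : DifferentiableAt ℝ g z)
    (v : P3) : dd v (fun x => (inner ℝ (f x) (g x) : ℝ)) z =
      inner ℝ (f z) (dd v g z) + inner ℝ (dd v f z) (g z) :=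
  fderiv_inner_apply ℝ hf hg v

theorem cb_dd_congr {f g : P3 → X} {S : Set P3} (hS : IsOpen S) (hz : z ∈ S)
    (h : ∀ x ∈ S, f x = g x) (v : P3) : dd v f z = dd v g z := by
  have : f =ᶠ[𝓝 z] g := eventually_of_mem (hS.mem_nhds hz) h
  simp only [dd]
  rw [this.fderiv_eq]

end Calc

theorem CData.cb_pair {ι : Type u} {D : CData ι} (h : D.OK) {t t' : ι → ℝ} (ht0 : ∀ i, 0 ≤ t i)
    (ht : ∀ i, t i * D.ell i ^ 14 ≤ t' i) {E L Q : ι → P3 → ℝ}
    (hL : Tame (D.Ω3 0) (fun i z => D.a i z.1 * t i) (fun i => D.ell i ^ 2) 5 L)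
    (hmL : ∀ i, ∀ z ∈ D.Ω3 0 i, mean (L i) z = 0)
    (hQ : Tame (D.Ω3 0) (fun i z => D.a i z.1 ^ 2 * t i) (fun i => D.ell i ^ 2) 6 Q)
    (hE : ∀ i, ∀ z ∈ D.Ω3 0 i, E i z = L i z + Q i z) :
    Tame (D.Ω3 0) (fun i z => D.a i z.1 * t' i) (fun i => D.ell i ^ 14) 0 E ∧
      Tame (D.Ω3 0) (fun i z => D.a i z.1 ^ 2 * t' i) (fun i => D.ell i ^ 14) 0
        fun i => mean (E i) := by
  have l1 : ∀ i, 1 ≤ D.ell i := h.tF.one_le
  have lo : ∀ i, D.ell i ^ 2 ≤ D.ell i ^ 14 := fun i => pow_le_pow_right₀ (l1 i) (by norm_num)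
  have fin : ∀ {s : ι → P3 → ℝ} {f : ι → P3 → ℝ}, (∀ i, ∀ z ∈ D.Ω3 0 i, 0 ≤ s i z) →
      Tame (D.Ω3 0) (fun i z => s i z * t i) (fun i => D.ell i ^ 2) 7 f →
      Tame (D.Ω3 0) (fun i z => s i z * t' i) (fun i => D.ell i ^ 14) 0 f := fun hs0 hf => by
    refine hf.absorb lo (fun i z hz => ?_) fun i z hz => ?_
    · rw [pow_zero, mul_one, mul_assoc, ← pow_mul]
      exact mul_le_mul_of_nonneg_left (ht i) (hs0 i z hz)
    · have := l1 i
      exact mul_nonneg (hs0 i z hz) ((mul_nonneg (ht0 i) (by positivity)).trans (ht i))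
  refine ⟨fin (fun i z hz => (h.apos i _ hz).le) (((hL.mono_k (by norm_num)).add
    (CData.St.sq_le h le_rfl (fun _ => le_rfl) ht0 hQ)).congr_open (h.isOpen3 0) fun i z hz =>
      (hE i z hz).symm), fin (fun i z _ => sq_nonneg _)
    (((Tame.mean (Ω := D.Ω 0) (a := fun i p => D.a i p ^ 2 * t i) hQ).mono_k
      (by norm_num)).congr_open (h.isOpen3 0) fun i z hz => ?_)⟩
  rw [← zero_add (mean (Q i) z), ← hmL i z hz,
    ← mean_add (Tame.smL (Ω := D.Ω 0) hL hz) (Tame.smL (Ω := D.Ω 0) hQ hz)]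
  exact mean_congr fun t => (hE i (z.1, t) hz).symm

/-- The initial state `U = lam⁻¹ • prim vel`. -/
theorem core_init : ∃ q : ℕ, ∀ {ι : Type u} (D : CData ι), D.OK → (∀ i, D.ell i ^ q ≤ D.lam i) →
    ∃ U, D.St 0 (fun i => D.ell i ^ q) (fun i => D.ell i ^ q / D.lam i)
      (fun i => D.ell i ^ q / D.lam i) (fun _ _ => 0) U := by
  refine ⟨14, fun {ι} D h hq => ?_⟩
  have l1 : ∀ i, 1 ≤ D.ell i := h.tF.one_le
  have lo : ∀ i, D.ell i ^ 2 ≤ D.ell i ^ 14 := fun i => pow_le_pow_right₀ (l1 i) (by norm_num)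
  have lam1 : ∀ i, 1 ≤ D.lam i := fun i => (one_le_pow₀ (l1 i)).trans (hq i)
  have lam0 : ∀ i, 0 < D.lam i := fun i => one_pos.trans_le (lam1 i)
  have up2 : ∀ i, D.ell i ≤ D.ell i ^ 2 := fun i => le_self_pow₀ (l1 i) two_ne_zero
  have hsh : ∀ v : ι → P3 → ℝ, CData.sh (fun _ _ => 0) v = v := fun v => by
    funext i z
    simp [CData.sh]
  have t0 : Tame (D.Ω3 0) (fun _ _ => 1) (fun i => D.ell i ^ 2) 1 (CData.sh (fun _ _ => 0) D.v0) := by
    rw [hsh]; exact h.tv0.mono_scale up2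
  have t1 : Tame (D.Ω3 0) (fun _ _ => 1) (fun i => D.ell i ^ 2) 1 (CData.sh (fun _ _ => 0) D.v1) := by
    rw [hsh]; exact h.tv1.mono_scale up2
  have t2 : Tame (D.Ω3 0) (fun _ _ => 1) (fun i => D.ell i ^ 2) 1 (CData.sh (fun _ _ => 0) D.v2) := by
    rw [hsh]; exact h.tv2.mono_scale up2
  have tv := h.cb_tvel le_rfl (fun _ => le_rfl) t0 t1 t2
  have mv : ∀ i, ∀ z ∈ D.Ω3 0 i, mean (D.velB (fun _ _ => 0) i) z = 0 := fun i z hz =>
    h.cb_mean_vel le_rfl (fun _ => le_rfl) t0 t1 t2 hz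
  have yv : ∀ i, ∀ z ∈ D.Ω3 0 i, (inner ℝ (dy (D.F i) z.1) (D.velB (fun _ _ => 0) i z) : ℝ) = 0 :=
    fun i z hz => h.y_vel hz
  have xv := fun i z hz => h.x_vel (B := fun _ _ => 0) (i := i) (z := z) hz
  have yyv : ∀ i, ∀ z ∈ D.Ω3 0 i,
      (inner ℝ (D.c • dy (dy (D.F i)) z.1) (D.velB (fun _ _ => 0) i z) : ℝ) = 0 := fun i z hz => by
    simp only [CData.velB_eq, inner_add_right, real_inner_smul_right, real_inner_smul_left,
      h.yy0 i _ hz, h.yy1 i _ hz, h.yy2 i _ hz]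
    ring
  have pv := h.per_velB (B := fun _ _ => 0)
  generalize hw : D.velB (fun _ _ => 0) = w at tv mv yv xv yyv pv
  have sl : ∀ {X : Type} [NormedAddCommGroup X] [NormedSpace ℝ X] [CompleteSpace X]
      {s : ι → P3 → ℝ} {μ : ι → ℝ} {k : ℕ} {f : ι → P3 → X}, Tame (D.Ω3 0) s μ k f →
      ∀ {i : ι} {z : P3}, z ∈ D.Ω3 0 i → SmL (f i) z := fun hf _ _ hz =>
    Tame.smL (Ω := D.Ω 0) hf hz
  have tp : Tame (D.Ω3 0) (fun i z => D.a i z.1) (fun i => D.ell i ^ 2) 2 fun i => prim (w i) :=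
    Tame.prim (Ω := D.Ω 0) tv
  obtain ⟨U, hU⟩ : ∃ U : ι → P3 → V, U = fun i z => (D.lam i)⁻¹ • prim (w i) z := ⟨_, rfl⟩
  have tU : Tame (D.Ω3 0) (fun i z => D.a i z.1 * (D.lam i)⁻¹) (fun i => D.ell i ^ 2) 2 U := by
    rw [hU]
    exact (tp.smul_index (t := fun i => (D.lam i)⁻¹) fun i =>
      (abs_of_pos (inv_pos.2 (lam0 i))).le).weaken fun i z _ => le_of_eq (mul_comm _ _)
  have ht : ∀ i, ∀ z ∈ D.Ω3 0 i, D.lam i • dd et (U i) z = w i z := fun i z hz => by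
    rw [hU]
    show D.lam i • dd et (fun z => (D.lam i)⁻¹ • prim (w i) z) z = _
    rw [cb_dd_const_smul (tp.differentiableAt hz), dt_prim (pv i) (sl tv hz), mv i z hz, sub_zero,
      smul_smul, mul_inv_cancel₀ (lam0 i).ne', one_smul]
  have hm : ∀ i, ∀ z ∈ D.Ω3 0 i, ∀ v, mean (dd v (U i)) z = 0 := fun i z hz v => by
    have e : ∀ x ∈ D.Ω3 0 i, mean (U i) x = 0 := fun x hx => by
      rw [hU]
      show mean (fun z => (D.lam i)⁻¹ • prim (w i) z) x = 0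
      rw [mean_smul fun _ => (D.lam i)⁻¹, mean_prim (pv i) (sl tv hx), smul_zero]
    rw [← dd_mean (sl tU hz), cb_dd_congr (h.isOpen3 0 i) hz e]
    simp [dd]
  have hperp : ∀ (G : ι → P2 → V), (∀ i, ∀ z ∈ D.Ω3 0 i, (inner ℝ (G i z.1) (w i z) : ℝ) = 0) →
      ∀ i, ∀ z ∈ D.Ω3 0 i, (inner ℝ (G i z.1) (U i z) : ℝ) = 0 := fun G hG i z hz => by
    rw [hU]
    show inner ℝ (G i z.1) ((D.lam i)⁻¹ • prim (w i) z) = 0
    rw [real_inner_smul_right, ← prim_inner (G i) (sl tv hz),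
      prim_congr (g := fun _ => (0 : ℝ)) fun t => hG i (z.1, t) hz]
    simp [prim]
  have tFx := CData.up_of (μ := fun i => D.ell i ^ 2) (h.tF.dd ((1, 0) : P2)) le_rfl fun _ => le_rfl
  have tFy := CData.up_of (μ := fun i => D.ell i ^ 2) (h.tF.dd ((0, 1) : P2)) le_rfl fun _ => le_rfl
  have hy : ∀ i, ∀ z ∈ D.Ω3 0 i, D.c * inner ℝ (dy (D.F i) z.1) (dd ey (U i) z) = 0 := by
    intro i z hz
    have e1 := cb_dd_inner (tFy.differentiableAt hz) (tU.differentiableAt hz) ey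
    rw [cb_dd_congr (h.isOpen3 0 i) hz (hperp (fun i => dy (D.F i)) yv i),
      dd_up ((h.tF.dd _).differentiableAt hz)] at e1
    have e2 := hperp (fun i p => D.c • dy (dy (D.F i)) p) yyv i z hz
    rw [real_inner_smul_left] at e2
    have e3 : dd ey (fun _ : P3 => (0 : ℝ)) z = 0 := by simp [dd]
    have e4 : dd ey.1 (dd (0, 1) (D.F i)) z.1 = dy (dy (D.F i)) z.1 := rfl
    rw [e3, e4] at e1
    linear_combination (-D.c) * e1 - e2
  have hDU : ∀ i, ∀ z ∈ D.Ω3 0 i, D.DU U i z = dd ex (U i) z + w i z := fun i z hz => by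
    rw [CData.DU, ht i z hz]
  have sq : ∀ v v' : P3, Tame (D.Ω3 0) (fun i z => D.a i z.1 ^ 2 * ((D.lam i)⁻¹ * (D.lam i)⁻¹))
      (fun i => D.ell i ^ 2) 6 fun i z => (inner ℝ (dd v (U i) z) (dd v' (U i) z) : ℝ) :=
    fun v v' => ((tU.dd v).inner (tU.dd v')).weaken fun i z _ => le_of_eq (by ring)
  have sq' : ∀ v v' : P3, Tame (D.Ω3 0) (fun i z => D.a i z.1 ^ 2 * (D.lam i)⁻¹)
      (fun i => D.ell i ^ 2) 6 fun i z => (inner ℝ (dd v (U i) z) (dd v' (U i) z) : ℝ) :=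
    fun v v' => (sq v v').weaken fun i z _ => mul_le_mul_of_nonneg_left
      (mul_le_of_le_one_right (inv_pos.2 (lam0 i)).le (inv_le_one_of_one_le₀ (lam1 i)))
      (sq_nonneg _)
  have wq : ∀ v : P3, Tame (D.Ω3 0) (fun i z => D.a i z.1 ^ 2 * (D.lam i)⁻¹)
      (fun i => D.ell i ^ 2) 6 fun i z => (inner ℝ (w i z) (dd v (U i) z) : ℝ) :=
    fun v => ((tv.inner (tU.dd v)).weaken fun i z _ => le_of_eq (by ring)).mono_k (by norm_num)
  have ti : ∀ i, 0 ≤ (D.lam i)⁻¹ := fun i => (inv_pos.2 (lam0 i)).le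
  have p11 := CData.cb_pair h ti (t' := fun i => D.ell i ^ 14 / D.lam i)
    (fun i => le_of_eq (by ring)) (E := D.E11 U) ((tFx.inner1 (tU.dd ex)).const_mul 2)
    (fun i z hz => by
      rw [mean_mul fun _ => 2, mean_inner (dd (1, 0) (D.F i)) (sl (tU.dd ex) hz), hm i z hz,
        inner_zero_right, mul_zero])
    (((wq ex).const_mul 2).add (sq' ex ex)) fun i z hz => by
      have e := xv i z hz
      rw [CData.E11, hDU i z hz]
      simp only [inner_add_left, inner_add_right]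
      rw [real_inner_comm (w i z) (dd ex (U i) z)]
      linear_combination e
  have p12 := CData.cb_pair h ti (t' := fun i => D.ell i ^ 14 / D.lam i)
    (fun i => le_of_eq (by ring)) (E := D.E12 U)
    ((tFx.inner1 (tU.dd ey)).add (tFy.inner1 (tU.dd ex)))
    (fun i z hz => by
      rw [mean_add (sl (tFx.inner1 (tU.dd ey)) hz) (sl (tFy.inner1 (tU.dd ex)) hz),
        mean_inner (dd (1, 0) (D.F i)) (sl (tU.dd ey) hz),
        mean_inner (dd (0, 1) (D.F i)) (sl (tU.dd ex) hz), hm i z hz, hm i z hz,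
        inner_zero_right, inner_zero_right, add_zero])
    ((wq ey).add (sq' ex ey)) fun i z hz => by
      have e := yv i z hz
      rw [CData.E12, hDU i z hz]
      simp only [inner_add_left, inner_add_right]
      linear_combination e
  have p22 := CData.cb_pair h (fun i => mul_nonneg (ti i) (ti i))
    (t' := fun i => D.ell i ^ 14 / D.lam i / D.lam i)
    (fun i => le_of_eq (by ring)) (E := D.E22 U) (L := fun _ _ => 0) (Tame.zero tU.one_le)
    (fun i z _ => mean_up fun _ => (0 : ℝ)) ((sq ey ey).const_mul D.c) fun i z hz => by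
      have e := hy i z hz
      rw [CData.E22]
      linear_combination 2 * e
  refine ⟨U, le_rfl, lo, hq, fun i => div_nonneg (pow_nonneg (zero_le_one.trans (l1 i)) _)
    (lam0 i).le, fun _ => contDiff_const, t0.mono_scale lo, t1.mono_scale lo, t2.mono_scale lo,
    fun i => ?_, ?_, ?_, p11.1, p11.2, p12.1, p12.2, p22.1, p22.2⟩
  · rw [hU]
    exact Per.map₂ (fun (x : ℝ) (y : V) => x • y) (Per.up fun _ => (D.lam i)⁻¹) (pv i).prim
  · refine tU.absorb lo (fun i z hz => ?_) fun i z hz =>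
      div_nonneg (h.apos i _ hz).le (lam0 i).le
    rw [div_eq_mul_inv, ← pow_mul, ← pow_mul]
    exact mul_le_mul_of_nonneg_left (pow_le_pow_right₀ (l1 i) (by norm_num))
      (mul_nonneg (h.apos i _ hz).le (ti i))
  · refine (Tame.zero fun i => one_le_pow₀ (l1 i)).congr_open (h.isOpen3 0) fun i z hz => ?_
    rw [ht i z hz, hw, sub_self]

end Vale.Agent.Iso4
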