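import Vale.Agent.Iso4.CoreBasic

/-! Construction of the oscillating correction: definitions and sizes. -/

open scoped ContDiff Topology
open Set Filter

noncomputable section
namespace Vale.Agent.Iso4
universe u
namespace CData

section Defs
variable {ι : Type u} (D : CData ι) (B : ι → P2 → ℝ) (U : ι → P3 → V)

/-- coefficient of `f1` -/
def ccT (i : ι) (z : P3) : ℝ := (-(D.lam i)⁻¹) • prim (D.E12 U i) z
/-- coefficient of `f2` -/
def ccT' (i : ι) (z : P3) : ℝ := D.c * dd ey (D.ccT U i) z + 1 / 2 * D.E22 U i z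
/-- first part of the correction -/
def ccY (i : ι) (z : P3) : V := D.ccT U i z • D.f1 i z.1 + D.ccT' U i z • D.f2 i z.1
/-- full velocity -/
def ccW (i : ι) (z : P3) : V := dx (D.F i) z.1 + D.velB B i z
/-- right hand side -/
def ccH (i : ι) (z : P3) : ℝ :=
  (-(2 * D.lam i)⁻¹) • D.E11 U i z - inner ℝ (D.ccW B i z) (dd et (D.ccY U i) z)
/-- first component of the velocity -/
def ccA0 (i : ι) (z : P3) : ℝ := D.r0 i z.1 + D.a i z.1 * sh B D.v0 i z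
/-- other components of the velocity -/
def ccA (v : ι → P3 → ℝ) (i : ι) (z : P3) : ℝ := D.a i z.1 * sh B v i z
/-- normal square -/
def ccS (i : ι) (z : P3) : ℝ :=
  D.ccA B D.v1 i z * D.ccA B D.v1 i z + (1 - D.c) * (D.ccA B D.v2 i z * D.ccA B D.v2 i z)
/-- first constant -/
def ccG0 (i : ι) (p : P2) : ℝ := (D.nu i p * D.irr i p) *
  (mean (fun z => D.ccH B U i z * D.ccA0 B i z) (p, 0) * (D.a i p * D.a i p)⁻¹)
/-- other constants -/
def ccG (v : ι → P3 → ℝ) (i : ι) (p : P2) : ℝ :=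
  (D.irr i p * mean (fun z => D.ccH B U i z * D.ccA B v i z) (p, 0) +
    D.ccG0 B U i p * mean (fun z => D.ccA0 B i z * D.ccA B v i z) (p, 0)) * D.ir0 i p
/-- first component of the phase derivative -/
def ccZ0 (i : ι) (z : P3) : ℝ :=
  D.irr i z.1 * (D.ccH B U i z * D.ccA0 B i z) - D.ccG0 B U i z.1 * D.ccS B i z +
    D.ccG B U D.v1 i z.1 * D.ccA B D.v1 i z +
    (1 - D.c) * (D.ccG B U D.v2 i z.1 * D.ccA B D.v2 i z)
/-- other components of the phase derivative -/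
def ccZ (v : ι → P3 → ℝ) (i : ι) (z : P3) : ℝ :=
  D.irr i z.1 * (D.ccH B U i z * D.ccA B v i z) +
    D.ccG0 B U i z.1 * (D.ccA0 B i z * D.ccA B v i z) - D.ccG B U v i z.1 * D.ccA0 B i z
/-- the correction -/
def ccD (i : ι) (z : P3) : V := D.ccY U i z + (prim (D.ccZ0 B U i) z • D.e0 i z.1 +
  prim (D.ccZ B U D.v1 i) z • D.n1 i z.1 + prim (D.ccZ B U D.v2 i) z • D.n2 i z.1)

/-- tame on the tube with a size depending on the base point -/
abbrev T3 {X : Type} [NormedAddCommGroup X] [NormedSpace ℝ X] (θ : ℝ) (μ : ι → ℝ)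
    (s : ι → P2 → ℝ) (k : ℕ) (f : ι → P3 → X) : Prop :=
  Tame (D.Ω3 θ) (fun i z => s i z.1) μ k f

/-- amplitude times a constant -/
abbrev s1 (t : ι → ℝ) : ι → P2 → ℝ := fun i p => D.a i p * t i
/-- squared amplitude times a constant -/
abbrev s2 (t : ι → ℝ) : ι → P2 → ℝ := fun i p => D.a i p ^ 2 * t i

end Defs

variable {ι : Type u} {D : CData ι} {θ : ℝ} {μ ε ε' : ι → ℝ} {B : ι → P2 → ℝ} {U : ι → P3 → V}

section Gen
variable {X : Type} [NormedAddCommGroup X] [NormedSpace ℝ X] [CompleteSpace X]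
  {s : ι → P2 → ℝ} {k : ℕ} {f : ι → P3 → X}

theorem T3.mean (hf : D.T3 θ μ s k f) : D.T3 θ μ s k fun i => mean (f i) :=
  Tame.mean (Ω := D.Ω θ) hf

theorem T3.prim (hf : D.T3 θ μ s k f) : D.T3 θ μ s k fun i => prim (f i) :=
  Tame.prim (Ω := D.Ω θ) hf

theorem T3.base (hf : D.T3 θ μ s k f) : D.T3 θ μ s k fun i z => f i (z.1, 0) :=
  Tame.up (Ω := D.Ω θ) (Tame.down (Ω := D.Ω θ) hf)

theorem T3.smL {s : ι → P3 → ℝ} (hf : Tame (D.Ω3 θ) s μ k f) {i : ι} {z : P3}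
    (hz : z ∈ D.Ω3 θ i) : SmL (f i) z :=
  Tame.smL (Ω := D.Ω θ) hf hz

end Gen

theorem St.one_le (hs : D.St θ μ ε ε' B U) (i : ι) : 1 ≤ μ i := hs.tU.one_le i

theorem St.lam_pos (hs : D.St θ μ ε ε' B U) (i : ι) : 0 < D.lam i :=
  lt_of_lt_of_le one_pos ((hs.one_le i).trans (hs.hi i))

theorem St.mem0 (hs : D.St θ μ ε ε' B U) {i : ι} {z : P3} (hz : z ∈ D.Ω3 θ i) :
    z ∈ D.Ω3 0 i := Ω3_mono hs.θ0 i hz

theorem St.up1 {X : Type} [NormedAddCommGroup X] [NormedSpace ℝ X] (hs : D.St θ μ ε ε' B U)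
    {f : ι → P2 → X} {k : ℕ} (hf : Tame (D.Ω 0) (fun _ _ => 1) D.ell k f) :
    D.T3 θ μ (fun _ _ => 1) k fun i z => f i z.1 := up_of hf hs.θ0 hs.lo

theorem St.upa (h : D.OK) (hs : D.St θ μ ε ε' B U) : D.T3 θ μ D.a 0 fun i z => D.a i z.1 :=
  up_of h.ta hs.θ0 hs.lo

/-- a size `a` is at most a size one -/
theorem St.a_le {X : Type} [NormedAddCommGroup X] [NormedSpace ℝ X] (h : D.OK)
    (hs : D.St θ μ ε ε' B U) {k : ℕ} {f : ι → P3 → X} (hf : D.T3 θ μ D.a k f) :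
    D.T3 θ μ (fun _ _ => 1) (k + 1) f := by
  obtain ⟨C, hC, hb⟩ := (hs.up1 h.ta1).norm_le
  have h1 : Tame (D.Ω3 θ) (fun i _ => μ i) μ k f :=
    hf.weakenC hC fun i z hz => by
      have := hb i z hz
      rw [one_mul, pow_one] at this
      exact (le_abs_self _).trans this
  exact h1.absorb (fun _ => le_rfl) (fun i z _ => le_of_eq (by ring)) fun _ _ _ => zero_le_one

theorem St.tW (h : D.OK) (hs : D.St θ μ ε ε' B U) : D.T3 θ μ (fun _ _ => 1) 3 (D.ccW B) :=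
  ((hs.up1 (h.tF.dd _)).mono_k (by norm_num)).add (hs.a_le h (hs.tvel h))

theorem St.tA (h : D.OK) (hs : D.St θ μ ε ε' B U) {v : ι → P3 → ℝ}
    (hv : Tame (D.Ω3 θ) (fun _ _ => 1) μ 1 (sh B v)) : D.T3 θ μ D.a 1 (D.ccA B v) :=
  (hs.upa h).mul2 hv

theorem St.tA0 (h : D.OK) (hs : D.St θ μ ε ε' B U) : D.T3 θ μ (fun _ _ => 1) 2 (D.ccA0 B) :=
  ((hs.up1 h.tr0).mono_k (by norm_num)).add (hs.a_le h (hs.tA h hs.t0))

section Sizes
variable (h : D.OK) (hs : D.St θ μ ε (fun i => ε i / D.lam i) B U)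
include h hs

omit h in
theorem St.t_nonneg (i : ι) : 0 ≤ ε i / D.lam i := div_nonneg (hs.ε0 i) (hs.lam_pos i).le

omit h in
theorem St.tT : D.T3 θ μ (D.s1 fun i => ε i / D.lam i) 0 (D.ccT U) :=
  ((T3.prim (s := D.s1 ε) hs.t12).smul_index (c := fun i => -(D.lam i)⁻¹)
    (t := fun i => (D.lam i)⁻¹) fun i => by
      rw [abs_neg, abs_of_pos (inv_pos.2 (hs.lam_pos i))]).weaken fun i z _ =>
    le_of_eq (by simp only [div_eq_mul_inv]; ring)

omit h in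
theorem St.tT' : D.T3 θ μ (D.s1 fun i => ε i / D.lam i) 1 (D.ccT' U) :=
  ((hs.tT.dd ey).const_mul D.c).add ((hs.t22.const_mul (1 / 2)).mono_k (by norm_num))

theorem St.tY : D.T3 θ μ (D.s1 fun i => ε i / D.lam i) 2 (D.ccY U) :=
  ((hs.tT.smul2 (hs.up1 h.tf1)).mono_k (by norm_num)).add (hs.tT'.smul2 (hs.up1 h.tf2))

omit h in
theorem St.tE11' {s : ι → P2 → ℝ} {f : ι → P3 → ℝ} (hs0 : ∀ i, ∀ p ∈ D.Ω θ i, 0 ≤ s i p)
    (hf : D.T3 θ μ (fun i p => s i p * ε i) 0 f) :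
    D.T3 θ μ (fun i p => s i p * (ε i / D.lam i)) 0 fun i z => (-(2 * D.lam i)⁻¹) • f i z :=
  (hf.smul_index (c := fun i => -(2 * D.lam i)⁻¹) (t := fun i => (D.lam i)⁻¹) fun i => by
      have := hs.lam_pos i
      rw [abs_neg, abs_of_pos (by positivity)]
      exact inv_anti₀ this (by linarith)).weaken fun i z _ =>
    le_of_eq (by simp only [div_eq_mul_inv]; ring)

theorem St.tH : D.T3 θ μ (D.s1 fun i => ε i / D.lam i) 6 (D.ccH B U) :=
  ((hs.tE11' (fun i p hp => (h.apos i p (Ω_mono hs.θ0 i hp)).le) hs.t11).mono_k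
    (by norm_num)).sub ((hs.tW h).inner1 ((hs.tY h).dd et))

omit h in
theorem St.perT (i : ι) : Per (D.ccT U i) :=
  Per.map₂ (fun x y : ℝ => x • y) (Per.up fun _ => -(D.lam i)⁻¹) (hs.per12 i).prim

omit h in
theorem St.perT' (i : ι) : Per (D.ccT' U i) :=
  Per.map₂ (fun x y : ℝ => D.c * x + 1 / 2 * y) ((hs.perT i).dd ey) (hs.per22 i)

omit h in
theorem St.perY (i : ι) : Per (D.ccY U i) :=
  Per.map₂ (fun x y : V => x + y)
    (Per.map₂ (fun (x : ℝ) (y : V) => x • y) (hs.perT i) (Per.up (D.f1 i)))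
    (Per.map₂ (fun (x : ℝ) (y : V) => x • y) (hs.perT' i) (Per.up (D.f2 i)))

omit hs in
theorem OK.perW (i : ι) : Per (D.ccW B i) :=
  Per.map₂ (fun x y : V => x + y) (Per.up (dx (D.F i))) (h.per_velB i)

theorem St.perH (i : ι) : Per (D.ccH B U i) :=
  Per.map₂ (fun x y : ℝ => (-(2 * D.lam i)⁻¹) • x - y) (hs.per11 i)
    (Per.map₂ (fun x y : V => (inner ℝ x y : ℝ)) (h.perW i) ((hs.perY i).dd et))

theorem St.tmH : D.T3 θ μ (D.s2 fun i => ε i / D.lam i) 5 fun i => mean (D.ccH B U i) := by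
  have h1 := hs.tE11' (s := fun i p => D.a i p ^ 2) (fun i p _ => sq_nonneg _) hs.m11
  have h2 : D.T3 θ μ (D.s2 fun i => ε i / D.lam i) 5
      fun i z => inner ℝ (D.velB B i z) (dd et (D.ccY U i) z) :=
    ((hs.tvel h).inner ((hs.tY h).dd et)).weaken fun i z _ => le_of_eq (by ring)
  refine ((h1.mono_k (by norm_num)).sub h2.mean).congr_open (h.isOpen3 θ) fun i z hz => ?_
  have l1 := T3.smL (hs.tE11' (fun i p hp => (h.apos i p (Ω_mono hs.θ0 i hp)).le) hs.t11) hz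
  have l2 := T3.smL ((hs.tW h).inner1 ((hs.tY h).dd et)) hz
  have l3 := T3.smL ((hs.up1 (h.tF.dd ((1, 0) : P2))).inner1 ((hs.tY h).dd et)) hz
  have l4 := T3.smL h2 hz
  have e1 : mean (D.ccH B U i) z = mean (fun x => (-(2 * D.lam i)⁻¹) • D.E11 U i x) z -
      mean (fun x => inner ℝ (D.ccW B i x) (dd et (D.ccY U i) x)) z := mean_sub l1 l2
  have e2 : mean (fun x => inner ℝ (D.ccW B i x) (dd et (D.ccY U i) x)) z =
      mean (fun x => inner ℝ (dx (D.F i) x.1) (dd et (D.ccY U i) x)) z +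
      mean (fun x => inner ℝ (D.velB B i x) (dd et (D.ccY U i) x)) z := by
    rw [← mean_add l3 l4]
    exact mean_congr fun t => inner_add_left _ _ _
  rw [e1, e2, mean_smul fun _ => -(2 * D.lam i)⁻¹,
    mean_inner (dx (D.F i)) (T3.smL ((hs.tY h).dd et) hz),
    mean_dt (hs.perY i) (T3.smL (hs.tY h) hz), inner_zero_right, zero_add]

theorem St.tHA {v : ι → P3 → ℝ} (hv : Tame (D.Ω3 θ) (fun _ _ => 1) μ 1 (sh B v)) :
    D.T3 θ μ (D.s2 fun i => ε i / D.lam i) 7 fun i z => D.ccH B U i z * D.ccA B v i z :=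
  ((hs.tH h).mul (hs.tA h hv)).weaken fun i z _ => le_of_eq (by ring)

theorem St.tmHA0 : D.T3 θ μ (D.s2 fun i => ε i / D.lam i) 7
    fun i => mean fun z => D.ccH B U i z * D.ccA0 B i z := by
  have h1 := ((hs.up1 h.tr0).mul1 (hs.tmH h)).mono_k (k' := 7) (by norm_num)
  refine (h1.add (hs.tHA h hs.t0).mean).congr_open (h.isOpen3 θ) fun i z hz => ?_
  have l1 := T3.smL ((hs.up1 h.tr0).mul1 (hs.tH h)) hz
  have l2 := T3.smL (hs.tHA h hs.t0) hz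
  rw [← mean_mul (D.r0 i), ← mean_add l1 l2]
  refine mean_congr fun t => ?_
  simp only [ccA0, ccA]
  ring

theorem St.tG0 : D.T3 θ μ (fun i _ => ε i / D.lam i) 9 fun i z => D.ccG0 B U i z.1 := by
  have pos : ∀ i, ∀ z ∈ D.Ω3 θ i, 0 < D.a i z.1 := fun i z hz => h.apos i _ (hs.mem0 hz)
  have h1 : Tame (D.Ω3 θ) (fun i z => (D.a i z.1 * D.a i z.1)⁻¹) μ 0
      fun i z => (D.a i z.1 * D.a i z.1)⁻¹ :=
    Tame.inv_rel ((hs.upa h).mul (hs.upa h)) fun i z hz => mul_pos (pos i z hz) (pos i z hz)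
  have h2 : D.T3 θ μ (fun i _ => ε i / D.lam i) 7 fun i z =>
      mean (fun z => D.ccH B U i z * D.ccA0 B i z) (z.1, 0) * (D.a i z.1 * D.a i z.1)⁻¹ :=
    ((hs.tmHA0 h).base.mul h1).weaken fun i z hz => le_of_eq (by
      have := (pos i z hz).ne'
      field_simp)
  exact ((hs.up1 h.tnu).mul1 (hs.up1 h.tirr)).mul1 h2

theorem St.sq1 {X : Type} [NormedAddCommGroup X] [NormedSpace ℝ X] {k : ℕ} {f : ι → P3 → X}
    (hf : D.T3 θ μ (D.s2 fun i => ε i / D.lam i) k f) :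
    D.T3 θ μ (D.s1 fun i => ε i / D.lam i) (k + 1) f :=
  St.sq_le h hs.θ0 hs.lo hs.t_nonneg hf

theorem St.tA0A {v : ι → P3 → ℝ} (hv : Tame (D.Ω3 θ) (fun _ _ => 1) μ 1 (sh B v)) :
    D.T3 θ μ D.a 3 fun i z => D.ccA0 B i z * D.ccA B v i z := (hs.tA0 h).mul1 (hs.tA h hv)

theorem St.tG {v : ι → P3 → ℝ} (hv : Tame (D.Ω3 θ) (fun _ _ => 1) μ 1 (sh B v)) :
    D.T3 θ μ (D.s1 fun i => ε i / D.lam i) 13 fun i z => D.ccG B U v i z.1 := by
  have h1 := ((hs.up1 h.tirr).mul1 (hs.sq1 h (hs.tHA h hv).mean.base)).mono_k (k' := 12)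
    (by norm_num)
  have h2 : D.T3 θ μ (D.s1 fun i => ε i / D.lam i) 12 fun i z => D.ccG0 B U i z.1 *
      mean (fun z => D.ccA0 B i z * D.ccA B v i z) (z.1, 0) :=
    ((hs.tG0 h).mul (hs.tA0A h hv).mean.base).weaken fun i z _ => le_of_eq (by ring)
  exact (h1.add h2).mul2 (hs.up1 h.tir0)

theorem St.tS : Tame (D.Ω3 θ) (fun i z => D.a i z.1 * D.a i z.1) μ 2 (D.ccS B) :=
  ((hs.tA h hs.t1).mul (hs.tA h hs.t1)).add
    (((hs.tA h hs.t2).mul (hs.tA h hs.t2)).const_mul (1 - D.c))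

theorem St.tZ0a : D.T3 θ μ (D.s1 fun i => ε i / D.lam i) 15
    fun i z => D.irr i z.1 * (D.ccH B U i z * D.ccA0 B i z) :=
  ((hs.up1 h.tirr).mul1 ((hs.tH h).mul2 (hs.tA0 h))).mono_k (by norm_num)

theorem St.tZ0b : D.T3 θ μ (D.s1 fun i => ε i / D.lam i) 15
    fun i z => D.ccG0 B U i z.1 * D.ccS B i z :=
  (hs.sq1 h (k := 11) (((hs.tG0 h).mul (hs.tS h)).weaken fun i z _ =>
    le_of_eq (by ring))).mono_k (by norm_num)

theorem St.tZ0c {v : ι → P3 → ℝ} (hv : Tame (D.Ω3 θ) (fun _ _ => 1) μ 1 (sh B v)) :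
    D.T3 θ μ (D.s1 fun i => ε i / D.lam i) 15 fun i z => D.ccG B U v i z.1 * D.ccA B v i z :=
  (hs.tG h hv).mul2 (hs.a_le h (hs.tA h hv))

theorem St.tZ0 : D.T3 θ μ (D.s1 fun i => ε i / D.lam i) 15 (D.ccZ0 B U) :=
  (((hs.tZ0a h).sub (hs.tZ0b h)).add (hs.tZ0c h hs.t1)).add ((hs.tZ0c h hs.t2).const_mul (1 - D.c))

theorem St.tZa {v : ι → P3 → ℝ} (hv : Tame (D.Ω3 θ) (fun _ _ => 1) μ 1 (sh B v)) :
    D.T3 θ μ (D.s1 fun i => ε i / D.lam i) 15
      fun i z => D.irr i z.1 * (D.ccH B U i z * D.ccA B v i z) :=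
  ((hs.up1 h.tirr).mul1 (hs.sq1 h (hs.tHA h hv))).mono_k (by norm_num)

theorem St.tZb {v : ι → P3 → ℝ} (hv : Tame (D.Ω3 θ) (fun _ _ => 1) μ 1 (sh B v)) :
    D.T3 θ μ (D.s1 fun i => ε i / D.lam i) 15
      fun i z => D.ccG0 B U i z.1 * (D.ccA0 B i z * D.ccA B v i z) :=
  (((hs.tG0 h).mul (hs.tA0A h hv)).weaken fun i z _ => le_of_eq (by ring)).mono_k (by norm_num)

theorem St.tZc {v : ι → P3 → ℝ} (hv : Tame (D.Ω3 θ) (fun _ _ => 1) μ 1 (sh B v)) :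
    D.T3 θ μ (D.s1 fun i => ε i / D.lam i) 15 fun i z => D.ccG B U v i z.1 * D.ccA0 B i z :=
  (hs.tG h hv).mul2 (hs.tA0 h)

theorem St.tZ {v : ι → P3 → ℝ} (hv : Tame (D.Ω3 θ) (fun _ _ => 1) μ 1 (sh B v)) :
    D.T3 θ μ (D.s1 fun i => ε i / D.lam i) 15 (D.ccZ B U v) :=
  ((hs.tZa h hv).add (hs.tZb h hv)).sub (hs.tZc h hv)

theorem St.tD : D.T3 θ μ (D.s1 fun i => ε i / D.lam i) 16 (D.ccD B U) :=
  ((hs.tY h).mono_k (by norm_num)).add
    ((((hs.tZ0 h).prim.smul2 (hs.up1 h.te0)).add ((hs.tZ h hs.t1).prim.smul2 (hs.up1 h.tn1))).add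
      ((hs.tZ h hs.t2).prim.smul2 (hs.up1 h.tn2)))

omit hs h in
theorem perA {v : ι → P3 → ℝ} (hv : ∀ i, Per (v i)) (i : ι) : Per (D.ccA B v i) :=
  Per.map₂ (fun x y : ℝ => x * y) (Per.up (D.a i)) ((hv i).shift (B i))

omit hs in
theorem OK.perA0 (i : ι) : Per (D.ccA0 B i) :=
  Per.map₂ (fun x y : ℝ => x + y) (Per.up (D.r0 i)) (perA h.pv0 i)

omit hs in
theorem OK.perS (i : ι) : Per (D.ccS B i) :=
  Per.map₂ (fun x y : ℝ => x * x + (1 - D.c) * (y * y)) (perA h.pv1 i) (perA h.pv2 i)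

theorem St.perZ0 (i : ι) : Per (D.ccZ0 B U i) := fun z => by
  have e : (z + (2 * Real.pi) • et).1 = z.1 := Per.up (fun p => p) z
  simp only [ccZ0, e, hs.perH h i z, h.perA0 i z, h.perS i z, perA h.pv1 i z, perA h.pv2 i z]

theorem St.perZ {v : ι → P3 → ℝ} (hv : ∀ i, Per (v i)) (i : ι) : Per (D.ccZ B U v i) := fun z => by
  have e : (z + (2 * Real.pi) • et).1 = z.1 := Per.up (fun p => p) z
  simp only [ccZ, e, hs.perH h i z, h.perA0 i z, perA hv i z]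

theorem St.perD (i : ι) : Per (D.ccD B U i) := fun z => by
  have e : (z + (2 * Real.pi) • et).1 = z.1 := Per.up (fun p => p) z
  simp only [ccD, e, hs.perY i z, (hs.perZ0 h i).prim z, (hs.perZ h h.pv1 i).prim z,
    (hs.perZ h h.pv2 i).prim z]

end Sizes

end CData
end Vale.Agent.Iso4
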