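import Vale.Agent.Iso4.CoreCorrA

/-! Construction of the oscillating correction: identities. -/

open scoped ContDiff Topology
open Set Filter

noncomputable section
namespace Vale.Agent.Iso4
universe u

section Calc
variable {X : Type} [NormedAddCommGroup X] [NormedSpace ℝ X] {z : P3}

theorem cc_dd_add {f g : P3 → X} (hf : DifferentiableAt ℝ f z) (hg : DifferentiableAt ℝ g z)
    (v : P3) : dd v (fun x => f x + g x) z = dd v f z + dd v g z := by
  simp only [dd]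
  rw [fderiv_fun_add hf hg]
  rfl

theorem cc_dd_const_smul {f : P3 → X} (hf : DifferentiableAt ℝ f z) (c : ℝ) (v : P3) :
    dd v (fun x => c • f x) z = c • dd v f z := by
  simp only [dd]
  rw [fderiv_fun_const_smul hf]
  rfl

theorem cc_dd_inner {f g : P3 → V} (hf : DifferentiableAt ℝ f z) (hg : DifferentiableAt ℝ g z)
    (v : P3) : dd v (fun x => (inner ℝ (f x) (g x) : ℝ)) z =
      inner ℝ (f z) (dd v g z) + inner ℝ (dd v f z) (g z) :=
  fderiv_inner_apply ℝ hf hg v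

theorem cc_dt_up [CompleteSpace X] {F : P2 → X} (hF : DifferentiableAt ℝ F z.1) :
    dd et (fun x : P3 => F x.1) z = 0 := by
  rw [dd_up hF]
  exact map_zero (fderiv ℝ F z.1)

theorem cc_diff_up {F : P2 → X} (hF : DifferentiableAt ℝ F z.1) :
    DifferentiableAt ℝ (fun x : P3 => F x.1) z := hF.comp z differentiableAt_fst

theorem cc_dt_smul_up [CompleteSpace X] {c : P3 → ℝ} {F : P2 → X} (hc : DifferentiableAt ℝ c z)
    (hF : DifferentiableAt ℝ F z.1) :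
    dd et (fun x : P3 => c x • F x.1) z = dd et c z • F z.1 := by
  have h1 := cc_dt_up hF
  simp only [dd] at h1 ⊢
  rw [fderiv_fun_smul hc (cc_diff_up hF)]
  simp only [ContinuousLinearMap.add_apply, ContinuousLinearMap.smul_apply,
    ContinuousLinearMap.smulRight_apply, h1, smul_zero, zero_add]

theorem cc_dd_congr {f g : P3 → X} {S : Set P3} (hS : IsOpen S) (hz : z ∈ S)
    (h : ∀ x ∈ S, f x = g x) (v : P3) : dd v f z = dd v g z := by
  have : f =ᶠ[𝓝 z] g := eventually_of_mem (hS.mem_nhds hz) h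
  simp only [dd]
  rw [this.fderiv_eq]

end Calc

namespace CData

variable {ι : Type u} {D : CData ι} {θ : ℝ} {μ ε : ι → ℝ} {B : ι → P2 → ℝ} {U : ι → P3 → V}
  (h : D.OK) (hs : D.St θ μ ε (fun i => ε i / D.lam i) B U) {i : ι} {z : P3}

theorem meanA {v : ι → P3 → ℝ} (hv : ∀ i, Per (v i)) (hm : mean (v i) z = 0) :
    mean (D.ccA B v i) z = 0 := by
  have e1 : mean (D.ccA B v i) z = D.a i z.1 * mean (sh B v i) z := mean_mul (D.a i)
  have e2 : mean (sh B v i) z = mean (v i) z := mean_shift (hv i) (B i)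
  rw [e1, e2, hm, mul_zero]

theorem mean_base {X : Type} [NormedAddCommGroup X] [NormedSpace ℝ X] [CompleteSpace X]
    {f : P3 → X} (hf : Per f) (z : P3) : mean f (z.1, 0) = mean f z := mean_phase hf z.1 0 z.2

include h hs

theorem St.meanA0 (hz : z ∈ D.Ω3 θ i) : mean (D.ccA0 B i) z = D.r0 i z.1 := by
  have e1 : mean (D.ccA0 B i) z = mean (fun x => D.r0 i x.1) z + mean (D.ccA B D.v0 i) z :=
    mean_add (T3.smL (hs.up1 h.tr0) hz) (T3.smL (hs.tA h hs.t0) hz)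
  rw [e1, mean_up, meanA h.pv0 (h.mv0 i z (hs.mem0 hz)), add_zero]

theorem St.meanS (hz : z ∈ D.Ω3 θ i) :
    D.nu i z.1 * mean (D.ccS B i) z = D.a i z.1 * D.a i z.1 := by
  have p1 : Per fun x => D.v1 i x ^ 2 + (1 - D.c) * D.v2 i x ^ 2 :=
    Per.map₂ (fun x y : ℝ => x ^ 2 + (1 - D.c) * y ^ 2) (h.pv1 i) (h.pv2 i)
  have e1 : mean (D.ccS B i) z = D.a i z.1 * D.a i z.1 *
      mean (fun x => D.v1 i x ^ 2 + (1 - D.c) * D.v2 i x ^ 2) z := by
    rw [← mean_shift p1 (B i), ← mean_mul fun p => D.a i p * D.a i p]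
    refine mean_congr fun t => ?_
    simp only [ccS, ccA, sh]
    ring
  rw [e1, mul_left_comm, h.hnu i z (hs.mem0 hz), mul_one]

theorem St.meanZ0 (hz : z ∈ D.Ω3 θ i) : mean (D.ccZ0 B U i) z = 0 := by
  have l1 := T3.smL (hs.tZ0a h) hz
  have l2 := T3.smL (hs.tZ0b h) hz
  have l3 := T3.smL (hs.tZ0c h hs.t1) hz
  have l4 := T3.smL ((hs.tZ0c h hs.t2).const_mul (1 - D.c)) hz
  have l12 := T3.smL ((hs.tZ0a h).sub (hs.tZ0b h)) hz
  have l123 := T3.smL (((hs.tZ0a h).sub (hs.tZ0b h)).add (hs.tZ0c h hs.t1)) hz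
  have e : mean (D.ccZ0 B U i) z = _ := mean_add l123 l4
  rw [mean_add l12 l3, mean_sub l1 l2, mean_mul (D.irr i), mean_mul (D.ccG0 B U i),
    mean_mul (D.ccG B U D.v1 i), mean_mul fun _ => 1 - D.c, mean_mul (D.ccG B U D.v2 i),
    meanA h.pv1 (h.mv1 i z (hs.mem0 hz)), meanA h.pv2 (h.mv2 i z (hs.mem0 hz))] at e
  have p : Per fun z => D.ccH B U i z * D.ccA0 B i z :=
    Per.map₂ (fun x y : ℝ => x * y) (hs.perH h i) (h.perA0 i)
  have a0 := (h.apos i _ (hs.mem0 hz)).ne'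
  have e2 := hs.meanS h hz
  rw [e, ccG0, mean_base p]
  generalize mean (fun z => D.ccH B U i z * D.ccA0 B i z) z = m at *
  have e3 : D.nu i z.1 * D.irr i z.1 * (m * (D.a i z.1 * D.a i z.1)⁻¹) * mean (D.ccS B i) z =
      D.irr i z.1 * m * ((D.nu i z.1 * mean (D.ccS B i) z) * (D.a i z.1 * D.a i z.1)⁻¹) := by ring
  rw [e3, e2, mul_inv_cancel₀ (mul_ne_zero a0 a0)]
  ring

theorem St.meanZ {v : ι → P3 → ℝ} (hv : Tame (D.Ω3 θ) (fun _ _ => 1) μ 1 (sh B v))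
    (hp : ∀ i, Per (v i)) (hz : z ∈ D.Ω3 θ i) : mean (D.ccZ B U v i) z = 0 := by
  have l1 := T3.smL (hs.tZa h hv) hz
  have l2 := T3.smL (hs.tZb h hv) hz
  have l3 := T3.smL (hs.tZc h hv) hz
  have l12 := T3.smL ((hs.tZa h hv).add (hs.tZb h hv)) hz
  have e : mean (D.ccZ B U v i) z = _ := mean_sub l12 l3
  rw [mean_add l1 l2, mean_mul (D.irr i), mean_mul (D.ccG0 B U i), mean_mul (D.ccG B U v i),
    hs.meanA0 h hz] at e
  have p1 : Per fun z => D.ccH B U i z * D.ccA B v i z :=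
    Per.map₂ (fun x y : ℝ => x * y) (hs.perH h i) (perA hp i)
  have p2 : Per fun z => D.ccA0 B i z * D.ccA B v i z :=
    Per.map₂ (fun x y : ℝ => x * y) (h.perA0 i) (perA hp i)
  rw [e, ccG, mean_base p1, mean_base p2, mul_assoc, h.hir0 i _ (hs.mem0 hz), mul_one, sub_self]

theorem St.meanD (hz : z ∈ D.Ω3 θ i) :
    mean (D.ccD B U i) z = (1 / 2 * mean (D.E22 U i) z) • D.f2 i z.1 := by
  have t0 := (hs.tZ0 h).prim.smul2 (hs.up1 h.te0)
  have t1 := (hs.tZ h hs.t1).prim.smul2 (hs.up1 h.tn1)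
  have t2 := (hs.tZ h hs.t2).prim.smul2 (hs.up1 h.tn2)
  have e : mean (D.ccD B U i) z = _ := mean_add (T3.smL (hs.tY h) hz) (T3.smL ((t0.add t1).add t2) hz)
  rw [mean_add (T3.smL (t0.add t1) hz) (T3.smL t2 hz), mean_add (T3.smL t0 hz) (T3.smL t1 hz),
    mean_smul_vec (D.e0 i), mean_smul_vec (D.n1 i), mean_smul_vec (D.n2 i),
    mean_prim (hs.perZ0 h i) (T3.smL (hs.tZ0 h) hz),
    mean_prim (hs.perZ h h.pv1 i) (T3.smL (hs.tZ h hs.t1) hz),
    mean_prim (hs.perZ h h.pv2 i) (T3.smL (hs.tZ h hs.t2) hz)] at e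
  have e1 : mean (D.ccY U i) z = _ := mean_add (T3.smL (hs.tT.smul2 (hs.up1 h.tf1)) hz)
    (T3.smL (hs.tT'.smul2 (hs.up1 h.tf2)) hz)
  have e2 : ∀ x ∈ D.Ω3 θ i, mean (D.ccT U i) x = 0 := fun x hx => by
    have : mean (D.ccT U i) x = _ := mean_smul fun _ => -(D.lam i)⁻¹
    rw [this, mean_prim (hs.per12 i) (T3.smL hs.t12 hx), smul_zero]
  have e3 : mean (D.ccT' U i) z = _ := mean_add (T3.smL ((hs.tT.dd ey).const_mul D.c) hz)
    (T3.smL (hs.t22.const_mul (1 / 2)) hz)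
  have e4 : mean (dd ey (D.ccT U i)) z = 0 := by
    rw [← dd_mean (T3.smL hs.tT hz), cc_dd_congr (h.isOpen3 θ i) hz e2]
    simp [dd]
  rw [mean_mul fun _ => D.c, mean_mul fun _ => 1 / 2, e4] at e3
  rw [mean_smul_vec (D.f1 i), mean_smul_vec (D.f2 i), e2 z hz, e3] at e1
  rw [e, e1]
  simp

theorem St.tmD : D.T3 θ μ (D.s2 fun i => ε i / D.lam i) 1 fun i => mean (D.ccD B U i) :=
  ((hs.m22.const_mul (1 / 2)).smul2 (hs.up1 h.tf2)).congr_open (h.isOpen3 θ) fun _ _ hz =>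
    (hs.meanD h hz).symm

theorem St.dtD (hz : z ∈ D.Ω3 θ i) : dd et (D.ccD B U i) z = dd et (D.ccY U i) z +
    (D.ccZ0 B U i z • D.e0 i z.1 + D.ccZ B U D.v1 i z • D.n1 i z.1 +
      D.ccZ B U D.v2 i z • D.n2 i z.1) := by
  have t0 := (hs.tZ0 h).prim.smul2 (hs.up1 h.te0)
  have t1 := (hs.tZ h hs.t1).prim.smul2 (hs.up1 h.tn1)
  have t2 := (hs.tZ h hs.t2).prim.smul2 (hs.up1 h.tn2)
  have z0 : z.1 ∈ D.Ω 0 i := hs.mem0 hz
  have e : dd et (D.ccD B U i) z = _ := cc_dd_add ((hs.tY h).differentiableAt hz)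
    (((t0.add t1).add t2).differentiableAt hz) et
  rw [e, cc_dd_add ((t0.add t1).differentiableAt hz) (t2.differentiableAt hz),
    cc_dd_add (t0.differentiableAt hz) (t1.differentiableAt hz),
    cc_dt_smul_up ((hs.tZ0 h).prim.differentiableAt hz) (h.te0.differentiableAt z0),
    cc_dt_smul_up ((hs.tZ h hs.t1).prim.differentiableAt hz) (h.tn1.differentiableAt z0),
    cc_dt_smul_up ((hs.tZ h hs.t2).prim.differentiableAt hz) (h.tn2.differentiableAt z0),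
    dt_prim (hs.perZ0 h i) (T3.smL (hs.tZ0 h) hz),
    dt_prim (hs.perZ h h.pv1 i) (T3.smL (hs.tZ h hs.t1) hz),
    dt_prim (hs.perZ h h.pv2 i) (T3.smL (hs.tZ h hs.t2) hz), hs.meanZ0 h hz,
    hs.meanZ h hs.t1 h.pv1 hz, hs.meanZ h hs.t2 h.pv2 hz, sub_zero, sub_zero, sub_zero]

theorem St.corr1 (hz : z ∈ D.Ω3 θ i) :
    D.E11 U i z + 2 * D.lam i * inner ℝ (D.ccW B i z) (dd et (D.ccD B U i) z) = 0 := by
  have z0 : z.1 ∈ D.Ω 0 i := hs.mem0 hz
  have c01 := real_inner_comm (D.e0 i z.1) (D.n1 i z.1)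
  have c02 := real_inner_comm (D.e0 i z.1) (D.n2 i z.1)
  have c12 := real_inner_comm (D.n1 i z.1) (D.n2 i z.1)
  rw [h.e01 i _ z0] at c01
  rw [h.e02 i _ z0] at c02
  rw [h.e12 i _ z0] at c12
  have w0 : inner ℝ (D.ccW B i z) (D.e0 i z.1) = D.ccA0 B i z := by
    simp only [ccW, ccA0, velB_eq, inner_add_left, real_inner_smul_left, h.x0 i _ z0,
      h.e00 i _ z0, c01, c02]
    ring
  have w1 : inner ℝ (D.ccW B i z) (D.n1 i z.1) = D.ccA B D.v1 i z := by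
    simp only [ccW, ccA, velB_eq, inner_add_left, real_inner_smul_left, h.x1 i _ z0,
      h.e01 i _ z0, h.e11 i _ z0, c12]
    ring
  have w2 : inner ℝ (D.ccW B i z) (D.n2 i z.1) = (1 - D.c) * D.ccA B D.v2 i z := by
    simp only [ccW, ccA, velB_eq, inner_add_left, real_inner_smul_left, h.x2 i _ z0,
      h.e02 i _ z0, h.e12 i _ z0, h.e22 i _ z0]
    ring
  have sp := h.sphere i (z.1, z.2 + B i z.1) z0
  have e1 : D.irr i z.1 * (D.ccA0 B i z * D.ccA0 B i z + D.ccS B i z) = 1 := by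
    rw [← h.hirr i _ z0]
    simp only [ccA0, ccS, ccA, sh]
    linear_combination (D.irr i z.1 * D.a i z.1) * sp
  have e2 : inner ℝ (D.ccW B i z) (D.ccZ0 B U i z • D.e0 i z.1 + D.ccZ B U D.v1 i z • D.n1 i z.1 +
      D.ccZ B U D.v2 i z • D.n2 i z.1) = D.ccH B U i z := by
    rw [inner_add_right, inner_add_right, real_inner_smul_right, real_inner_smul_right,
      real_inner_smul_right, w0, w1, w2]
    simp only [ccZ0, ccZ]
    rw [ccS] at e1 ⊢
    linear_combination D.ccH B U i z * e1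
  have l0 := (hs.lam_pos i).ne'
  rw [hs.dtD h hz, inner_add_right, e2, ccH, smul_eq_mul]
  field_simp
  ring

omit hs in
theorem OK.yD (hz : z ∈ D.Ω3 0 i) : inner ℝ (dy (D.F i) z.1) (D.ccD B U i z) = D.ccT U i z := by
  simp only [ccD, ccY, inner_add_right, real_inner_smul_right, h.yf1 i _ hz, h.yf2 i _ hz,
    h.y0 i _ hz, h.y1 i _ hz, h.y2 i _ hz]
  ring

omit hs in
theorem OK.yyD (hz : z ∈ D.Ω3 0 i) :
    D.c * inner ℝ (dy (dy (D.F i)) z.1) (D.ccD B U i z) = D.c * D.ccT' U i z := by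
  simp only [ccD, ccY, inner_add_right, real_inner_smul_right]
  linear_combination D.ccT U i z * h.yyf1 i _ hz + D.ccT' U i z * h.yyf2 i _ hz +
    prim (D.ccZ0 B U i) z * h.yy0 i _ hz + prim (D.ccZ B U D.v1 i) z * h.yy1 i _ hz +
    prim (D.ccZ B U D.v2 i) z * h.yy2 i _ hz

theorem St.ddT (hz : z ∈ D.Ω3 θ i) (v : P3) : dd v (D.ccT U i) z =
    inner ℝ (dy (D.F i) z.1) (dd v (D.ccD B U i) z) +
      inner ℝ (dd v (fun x : P3 => dy (D.F i) x.1) z) (D.ccD B U i z) := by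
  rw [← cc_dd_inner ((hs.up1 (h.tF.dd _)).differentiableAt hz) ((hs.tD h).differentiableAt hz)]
  exact cc_dd_congr (h.isOpen3 θ i) hz (fun x hx => (h.yD (hs.mem0 hx)).symm) v

theorem St.corr2 (hz : z ∈ D.Ω3 θ i) :
    D.E12 U i z + D.lam i * inner ℝ (dy (D.F i) z.1) (dd et (D.ccD B U i) z) =
      mean (D.E12 U i) z := by
  have e := hs.ddT h hz et
  have e2 : dd et (D.ccT U i) z = _ :=
    cc_dd_const_smul ((T3.prim (s := D.s1 ε) hs.t12).differentiableAt hz) (-(D.lam i)⁻¹) et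
  rw [cc_dt_up ((h.tF.dd _).differentiableAt (hs.mem0 hz)), inner_zero_left, add_zero, e2,
    dt_prim (hs.per12 i) (T3.smL hs.t12 hz), smul_eq_mul] at e
  have l0 := (hs.lam_pos i).ne'
  rw [← e]
  field_simp
  ring

theorem St.corr3 (hz : z ∈ D.Ω3 θ i) :
    D.E22 U i z + 2 * (D.c * inner ℝ (dy (D.F i) z.1) (dd ey (D.ccD B U i) z)) = 0 := by
  have e := hs.ddT h hz ey
  rw [dd_up ((h.tF.dd _).differentiableAt (hs.mem0 hz))] at e
  have e2 : D.c * inner ℝ (dd ey.1 (dy (D.F i)) z.1) (D.ccD B U i z) = D.c * D.ccT' U i z :=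
    h.yyD (hs.mem0 hz)
  have cc : D.c * D.c = D.c := by rcases h.c01 with hc | hc <;> rw [hc] <;> norm_num
  have e3 : D.c * D.E22 U i z = D.E22 U i z := by rw [E22, ← mul_assoc, cc]
  rw [ccT'] at e2
  linear_combination (-2 * D.c) * e - 2 * e2 - e3 - 2 * dd ey (D.ccT U i) z * cc

end CData
end Vale.Agent.Iso4
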