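import Vale.Agent.Iso4.TameInt

/-! Data of one oscillation step. -/

open scoped ContDiff Topology
open Set Filter

noncomputable section
namespace Vale.Agent.Iso4

/-- Data of a step: scale `ell`, frequency `lam`, base map `F`, amplitude `a`, level function `ϖ`,
frame `e0 n1 n2 f1 f2`, loop `v0 v1 v2`. The number `c` is one if the last component of the metric
is prescribed and zero otherwise. -/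
structure CData (ι : Type*) where
  (ell lam : ι → ℝ)
  (c R : ℝ)
  (F e0 n1 n2 f1 f2 : ι → P2 → V)
  (a ϖ r0 ir0 irr nu : ι → P2 → ℝ)
  (v0 v1 v2 : ι → P3 → ℝ)

namespace CData
variable {ι : Type*} (D : CData ι)

/-- level sets -/
def Ω (θ : ℝ) (i : ι) : Set P2 := {p | θ < D.ϖ i p}
/-- tubes over level sets -/
def Ω3 (θ : ℝ) (i : ι) : Set P3 := tube (D.Ω θ i)

/-- shift of the phase -/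
def sh (B : ι → P2 → ℝ) (v : ι → P3 → ℝ) (i : ι) (z : P3) : ℝ := v i (z.1, z.2 + B i z.1)

/-- the velocity loop -/
def vel (i : ι) (z : P3) : V :=
  D.a i z.1 • (D.v0 i z • D.e0 i z.1 + D.v1 i z • D.n1 i z.1 + D.v2 i z • D.n2 i z.1)

/-- the shifted velocity loop -/
def velB (B : ι → P2 → ℝ) (i : ι) (z : P3) : V := D.vel i (z.1, z.2 + B i z.1)

/-- total derivative in the first direction -/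
def DU (U : ι → P3 → V) (i : ι) (z : P3) : V := dd ex (U i) z + D.lam i • dd et (U i) z

/-- error in the first component -/
def E11 (U : ι → P3 → V) (i : ι) (z : P3) : ℝ :=
  2 * inner ℝ (dx (D.F i) z.1) (D.DU U i z) + inner ℝ (D.DU U i z) (D.DU U i z) - D.a i z.1 ^ 2

/-- error in the mixed component -/
def E12 (U : ι → P3 → V) (i : ι) (z : P3) : ℝ :=
  inner ℝ (dx (D.F i) z.1) (dd ey (U i) z) + inner ℝ (dy (D.F i) z.1) (D.DU U i z) +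
    inner ℝ (D.DU U i z) (dd ey (U i) z)

/-- error in the last component -/
def E22 (U : ι → P3 → V) (i : ι) (z : P3) : ℝ :=
  D.c * (2 * inner ℝ (dy (D.F i) z.1) (dd ey (U i) z) + inner ℝ (dd ey (U i) z) (dd ey (U i) z))

/-- hypotheses on the data -/
structure OK : Prop where
  c01 : D.c = 0 ∨ D.c = 1
  tϖ : Tame (fun _ => univ) (fun _ _ => 1) D.ell 1 D.ϖ
  bdd : ∀ i, ∀ p ∈ D.Ω 0 i, |p.2| < D.R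
  tF : Tame (D.Ω 0) (fun _ _ => 1) D.ell 1 D.F
  te0 : Tame (D.Ω 0) (fun _ _ => 1) D.ell 1 D.e0
  tn1 : Tame (D.Ω 0) (fun _ _ => 1) D.ell 1 D.n1
  tn2 : Tame (D.Ω 0) (fun _ _ => 1) D.ell 1 D.n2
  tf1 : Tame (D.Ω 0) (fun _ _ => 1) D.ell 1 D.f1
  tf2 : Tame (D.Ω 0) (fun _ _ => 1) D.ell 1 D.f2
  tr0 : Tame (D.Ω 0) (fun _ _ => 1) D.ell 1 D.r0
  tir0 : Tame (D.Ω 0) (fun _ _ => 1) D.ell 1 D.ir0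
  tirr : Tame (D.Ω 0) (fun _ _ => 1) D.ell 1 D.irr
  tnu : Tame (D.Ω 0) (fun _ _ => 1) D.ell 1 D.nu
  ta : Tame (D.Ω 0) D.a D.ell 0 D.a
  ta1 : Tame (D.Ω 0) (fun _ _ => 1) D.ell 1 D.a
  apos : ∀ i, ∀ p ∈ D.Ω 0 i, 0 < D.a i p
  tv0 : Tame (D.Ω3 0) (fun _ _ => 1) D.ell 1 D.v0
  tv1 : Tame (D.Ω3 0) (fun _ _ => 1) D.ell 1 D.v1
  tv2 : Tame (D.Ω3 0) (fun _ _ => 1) D.ell 1 D.v2
  pv0 : ∀ i, Per (D.v0 i)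
  pv1 : ∀ i, Per (D.v1 i)
  pv2 : ∀ i, Per (D.v2 i)
  mv0 : ∀ i, ∀ z ∈ D.Ω3 0 i, mean (D.v0 i) z = 0
  mv1 : ∀ i, ∀ z ∈ D.Ω3 0 i, mean (D.v1 i) z = 0
  mv2 : ∀ i, ∀ z ∈ D.Ω3 0 i, mean (D.v2 i) z = 0
  e00 : ∀ i, ∀ p ∈ D.Ω 0 i, inner ℝ (D.e0 i p) (D.e0 i p) = (1 : ℝ)
  e11 : ∀ i, ∀ p ∈ D.Ω 0 i, inner ℝ (D.n1 i p) (D.n1 i p) = (1 : ℝ)
  e22 : ∀ i, ∀ p ∈ D.Ω 0 i, inner ℝ (D.n2 i p) (D.n2 i p) = 1 - D.c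
  e01 : ∀ i, ∀ p ∈ D.Ω 0 i, inner ℝ (D.e0 i p) (D.n1 i p) = (0 : ℝ)
  e02 : ∀ i, ∀ p ∈ D.Ω 0 i, inner ℝ (D.e0 i p) (D.n2 i p) = (0 : ℝ)
  e12 : ∀ i, ∀ p ∈ D.Ω 0 i, inner ℝ (D.n1 i p) (D.n2 i p) = (0 : ℝ)
  x0 : ∀ i, ∀ p ∈ D.Ω 0 i, inner ℝ (dx (D.F i) p) (D.e0 i p) = D.r0 i p
  x1 : ∀ i, ∀ p ∈ D.Ω 0 i, inner ℝ (dx (D.F i) p) (D.n1 i p) = (0 : ℝ)
  x2 : ∀ i, ∀ p ∈ D.Ω 0 i, inner ℝ (dx (D.F i) p) (D.n2 i p) = (0 : ℝ)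
  y0 : ∀ i, ∀ p ∈ D.Ω 0 i, inner ℝ (dy (D.F i) p) (D.e0 i p) = (0 : ℝ)
  y1 : ∀ i, ∀ p ∈ D.Ω 0 i, inner ℝ (dy (D.F i) p) (D.n1 i p) = (0 : ℝ)
  y2 : ∀ i, ∀ p ∈ D.Ω 0 i, inner ℝ (dy (D.F i) p) (D.n2 i p) = (0 : ℝ)
  yf1 : ∀ i, ∀ p ∈ D.Ω 0 i, inner ℝ (dy (D.F i) p) (D.f1 i p) = (1 : ℝ)
  yf2 : ∀ i, ∀ p ∈ D.Ω 0 i, inner ℝ (dy (D.F i) p) (D.f2 i p) = (0 : ℝ)
  yy0 : ∀ i, ∀ p ∈ D.Ω 0 i, D.c * inner ℝ (dy (dy (D.F i)) p) (D.e0 i p) = 0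
  yy1 : ∀ i, ∀ p ∈ D.Ω 0 i, D.c * inner ℝ (dy (dy (D.F i)) p) (D.n1 i p) = 0
  yy2 : ∀ i, ∀ p ∈ D.Ω 0 i, D.c * inner ℝ (dy (dy (D.F i)) p) (D.n2 i p) = 0
  yyf1 : ∀ i, ∀ p ∈ D.Ω 0 i, D.c * inner ℝ (dy (dy (D.F i)) p) (D.f1 i p) = 0
  yyf2 : ∀ i, ∀ p ∈ D.Ω 0 i, D.c * inner ℝ (dy (dy (D.F i)) p) (D.f2 i p) = D.c
  hir0 : ∀ i, ∀ p ∈ D.Ω 0 i, D.ir0 i p * D.r0 i p = 1
  hirr : ∀ i, ∀ p ∈ D.Ω 0 i, D.irr i p * (D.r0 i p ^ 2 + D.a i p ^ 2) = 1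
  sphere : ∀ i, ∀ z ∈ D.Ω3 0 i, 2 * D.r0 i z.1 * D.v0 i z +
    D.a i z.1 * (D.v0 i z ^ 2 + D.v1 i z ^ 2 + (1 - D.c) * D.v2 i z ^ 2) = D.a i z.1
  hnu : ∀ i, ∀ z ∈ D.Ω3 0 i,
    D.nu i z.1 * mean (fun x => D.v1 i x ^ 2 + (1 - D.c) * D.v2 i x ^ 2) z = 1

/-- State of the iteration: level `θ`, scale `μ`, error `ε`, error `ε'` of the mean of the mixed
component, phase shift `B`, correction `U`. -/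
structure St (θ : ℝ) (μ ε ε' : ι → ℝ) (B : ι → P2 → ℝ) (U : ι → P3 → V) : Prop where
  θ0 : 0 ≤ θ
  lo : ∀ i, D.ell i ^ 2 ≤ μ i
  hi : ∀ i, μ i ≤ D.lam i
  ε0 : ∀ i, 0 ≤ ε i
  sB : ∀ i, ContDiff ℝ ∞ (B i)
  t0 : Tame (D.Ω3 θ) (fun _ _ => 1) μ 1 (sh B D.v0)
  t1 : Tame (D.Ω3 θ) (fun _ _ => 1) μ 1 (sh B D.v1)
  t2 : Tame (D.Ω3 θ) (fun _ _ => 1) μ 1 (sh B D.v2)
  per : ∀ i, Per (U i)
  tU : Tame (D.Ω3 θ) (fun i z => D.a i z.1 / D.lam i) μ 1 U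
  tρ : Tame (D.Ω3 θ) (fun i z => D.a i z.1 / D.lam i) μ 1
    fun i z => D.lam i • dd et (U i) z - D.velB B i z
  t11 : Tame (D.Ω3 θ) (fun i z => D.a i z.1 * ε i) μ 0 (D.E11 U)
  m11 : Tame (D.Ω3 θ) (fun i z => D.a i z.1 ^ 2 * ε i) μ 0 fun i => mean (D.E11 U i)
  t12 : Tame (D.Ω3 θ) (fun i z => D.a i z.1 * ε i) μ 0 (D.E12 U)
  m12 : Tame (D.Ω3 θ) (fun i z => D.a i z.1 ^ 2 * ε' i) μ 0 fun i => mean (D.E12 U i)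
  t22 : Tame (D.Ω3 θ) (fun i z => D.a i z.1 * (ε i / D.lam i)) μ 0 (D.E22 U)
  m22 : Tame (D.Ω3 θ) (fun i z => D.a i z.1 ^ 2 * (ε i / D.lam i)) μ 0 fun i => mean (D.E22 U i)

end CData

end Vale.Agent.Iso4
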