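import Vale.Agent.Iso4.CoreBasic

/-! The phase shift removes the mean of the mixed error. -/

open scoped ContDiff Topology
open Set Filter

noncomputable section
namespace Vale.Agent.Iso4
universe u

section Aux
variable {ι : Type u} {D : CData ι} {θ θ' : ℝ} {μ μ' ε : ι → ℝ} {B β : ι → P2 → ℝ}
  {U : ι → P3 → V} {X : Type} [NormedAddCommGroup X] [NormedSpace ℝ X]

theorem shift_sz {S : ι → Set P3} {s s' : ι → P3 → ℝ} {k k' : ℕ} {f : ι → P3 → X}
    (h : Tame S s μ k f) (hk : k ≤ k') (hs : ∀ i, ∀ z ∈ S i, s i z ≤ s' i z) : Tame S s' μ k' f :=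
  (h.weaken hs).mono_k hk

/-- the phase shift -/
theorem shift_beta (h : D.OK) (hs : D.St θ μ ε ε B U) (hθ : θ < θ') :
    ∃ β : ι → P2 → ℝ, Tame (fun _ => univ) (fun i _ => D.lam i * ε i) μ 0 β ∧ ∀ i, ∀ p ∈ D.Ω θ' i,
      (D.lam i)⁻¹ * dy (β i) p * D.a i p ^ 2 = -mean (D.E12 U i) (p, 0) := by
  have m1 := hs.tU.one_le
  have l1 : ∀ i, 1 ≤ D.lam i := fun i => (m1 i).trans (hs.hi i)
  have e1 : ∀ i, D.ell i ≤ μ i := fun i => by nlinarith [hs.lo i, h.tϖ.one_le i]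
  have hΩ := CData.Ω_mono (D := D) hs.θ0
  have t1 := ((h.ta.inv_rel h.apos).mono_set hΩ).mono_scale e1
  have t2 := (((Tame.down (a := fun i p => D.a i p ^ 2 * ε i) hs.m12).mul t1).mul t1).smul_index
    (c := fun i => -D.lam i) (t := D.lam) fun i => by rw [abs_neg, abs_of_nonneg (by linarith [l1 i])]
  have t3 := (h.tϖ.sub (Tame.const_one h.tϖ.one_le ((θ + θ') / 2))).const_mul (2 / (θ' - θ))
  have t4 := Tame.outer (Φ := Real.smoothTransition) (S := univ) (μ' := μ)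
    (fun _ _ => Real.smoothTransition.contDiffAt) (fun m => by simpa using bdd_smoothTransition m)
    t3.smooth (fun _ _ _ => trivial) (t3.fderiv.absorb e1 (fun i _ _ => by simpa using hs.lo i)
      fun _ _ _ => zero_le_one)
  have hθ' : 0 < θ' - θ := by linarith
  have s1 : ∀ i, tsupport (fun p => Real.smoothTransition (2 / (θ' - θ) *
      (D.ϖ i p - (θ + θ') / 2))) ⊆ D.Ω θ i := fun i => by
    refine (closure_minimal (fun p hp => ?_) (isClosed_le (continuous_const (y := (θ + θ') / 2))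
      (h.tϖ.contDiff i).continuous)).trans fun p hp => lt_of_lt_of_le (by linarith : θ < (θ + θ') / 2) hp
    by_contra hn
    exact hp (Real.smoothTransition.zero_of_nonpos (mul_nonpos_of_nonneg_of_nonpos (by positivity)
      (sub_nonpos.2 (not_le.1 hn).le)))
  obtain ⟨β, b1, b2⟩ := Tame.prim_y (R := D.R) (t4.cut t2 s1 (s' := fun i _ => D.lam i * ε i)
    (fun i _ => mul_nonneg (by linarith [l1 i]) (hs.ε0 i)) fun i z hz => le_of_eq (by
      have := (h.apos i z (hΩ i hz)).ne'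
      field_simp)) fun i z hz => by
    rw [image_eq_zero_of_notMem_tsupport fun hn => (h.bdd i z (hΩ i (s1 i hn))).not_ge hz, zero_smul]
  refine ⟨β, b1, fun i p hp => ?_⟩
  have hp0 := hΩ i (CData.Ω_mono hθ.le i hp)
  have := (h.apos i p hp0).ne'
  have := (zero_lt_one.trans_le (l1 i)).ne'
  rw [b2 i p (h.bdd i p hp0), Real.smoothTransition.one_of_one_le (by
    rw [div_mul_eq_mul_div, one_le_div hθ']; linarith [show θ' < D.ϖ i p from hp]), one_smul,
    smul_eq_mul]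
  field_simp

theorem shift_comp {S : ι → Set P2} {t : ι → ℝ} (hβ : Tame (fun _ => univ) (fun i _ => t i) μ 0 β)
    (h1 : ∀ i, μ i ≤ μ' i) (h2 : ∀ i, t i * μ i ^ 2 ≤ μ' i) {s : ι → P2 → ℝ} {k : ℕ}
    {f : ι → P3 → X} (hf : Tame (fun i => tube (S i)) (fun i z => s i z.1) μ k f) :
    Tame (fun i => tube (S i)) (fun i z => s i z.1 * μ i ^ k) μ' 0
      fun i z => f i (z.1, z.2 + β i z.1) := by
  have m1 := hβ.one_le
  have m0 : ∀ i, 0 < μ i := fun i => zero_lt_one.trans_le (m1 i)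
  have t1 := (Tame.up (hβ.mono_set fun i => subset_univ (S i))).clm (ContinuousLinearMap.inr ℝ P2 ℝ)
  have e : ∀ i, (fun z : P3 => (z.1, z.2 + β i z.1)) =
      fun z => z + ContinuousLinearMap.inr ℝ P2 ℝ (β i z.1) := fun i => funext fun z => by
    ext <;> simp
  refine hf.comp (φ := fun i z => (z.1, z.2 + β i z.1)) (fun _ _ hz => hz)
    (fun i z hz => e i ▸ contDiffAt_id.add (t1.smooth i z hz)) ?_
  refine (((Tame.const_one (k := 0) (fun i => (m1 i).trans (h1 i)) (ContinuousLinearMap.id ℝ P3)).absorb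
    (fun _ => le_rfl) (fun i _ _ => ?_) fun i _ _ => (inv_pos.2 (m0 i)).le).add
    (t1.fderiv.absorb h1 (fun i _ _ => ?_) fun i _ _ => (inv_pos.2 (m0 i)).le)).congr
    fun i z hz => ?_
  · rw [le_inv_mul_iff₀ (m0 i)]; simpa using h1 i
  · rw [le_inv_mul_iff₀ (m0 i), zero_add, pow_one, pow_one]; linarith [h2 i]
  · refine Eventually.of_forall fun x => ?_
    rw [e]
    exact ((hasFDerivAt_id x).add (((ContinuousLinearMap.inr ℝ P2 ℝ).contDiff.comp
      ((hβ.contDiff i).comp contDiff_fst)).differentiable (by simp) x).hasFDerivAt).fderiv.symm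

theorem shift_dd (hs : D.St θ μ ε ε B U) {i : ι} (hβ : ContDiff ℝ ∞ (β i)) {z : P3}
    (hz : z ∈ D.Ω3 θ i) :
    dd et (fun x : P3 => U i (x.1, x.2 + β i x.1)) z = dd et (U i) (z.1, z.2 + β i z.1) ∧
    dd ey (fun x : P3 => U i (x.1, x.2 + β i x.1)) z = dd ey (U i) (z.1, z.2 + β i z.1) +
      dy (β i) z.1 • dd et (U i) (z.1, z.2 + β i z.1) ∧
    D.DU (fun i x => U i (x.1, x.2 + β i x.1)) i z = D.DU U i (z.1, z.2 + β i z.1) +
      dx (β i) z.1 • dd et (U i) (z.1, z.2 + β i z.1) := by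
  have H := dd_shift (hβ.differentiable (by simp) z.1)
    (hs.tU.differentiableAt (z := (z.1, z.2 + β i z.1)) hz)
  have h1 := H et
  rw [show dd et.1 (β i) z.1 = 0 from map_zero _, zero_smul, add_zero] at h1
  refine ⟨h1, H ey, ?_⟩
  rw [CData.DU, CData.DU, h1, H ex, add_right_comm]
  rfl

end Aux

theorem core_shift : ∃ q : ℕ, ∀ {ι : Type u} (D : CData ι) (θ θ' : ℝ) (μ μ' ε : ι → ℝ)
    (B : ι → P2 → ℝ) (U : ι → P3 → V), D.OK → D.St θ μ ε ε B U → θ < θ' → (∀ i, μ i ≤ μ' i) →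
    (∀ i, μ' i ≤ D.lam i) → (∀ i, D.lam i * ε i * μ i ^ q ≤ μ' i) →
    ∃ B' U', D.St θ' μ' (fun i => ε i * μ' i ^ q) (fun i => ε i * μ' i ^ q / D.lam i) B' U' := by
  refine ⟨10, fun {ι} D θ θ' μ μ' ε B U h hs hθ h1 h2 h3 => ?_⟩
  obtain ⟨β, hβ, hβy⟩ := shift_beta h hs hθ
  have m1 := hs.tU.one_le
  have m2 : ∀ i, 1 ≤ μ' i := fun i => (m1 i).trans (h1 i)
  have l0 : ∀ i, 0 < D.lam i := fun i => by linarith [m2 i, h2 i]
  have e0 := hs.ε0
  have h4 : ∀ i, D.lam i * ε i * μ i ^ 2 ≤ μ' i := fun i => le_trans (mul_le_mul_of_nonneg_left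
    (pow_le_pow_right₀ (m1 i) (by norm_num)) (mul_nonneg (l0 i).le (e0 i))) (h3 i)
  have h5 : ∀ i, D.lam i * ε i ≤ μ' i := fun i => le_trans (le_mul_of_one_le_right
    (mul_nonneg (l0 i).le (e0 i)) (one_le_pow₀ (m1 i))) (h4 i)
  have θ0 : 0 ≤ θ' := hs.θ0.trans hθ.le
  have hS := CData.Ω3_mono (D := D) hθ.le
  have hS0 := CData.Ω3_mono (D := D) θ0
  have a0 : ∀ i, ∀ z ∈ D.Ω3 θ' i, 0 < D.a i z.1 := fun i z hz => h.apos i _ (hS0 i hz)
  have ho := h.isOpen3 θ'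
  obtain ⟨e, he⟩ : ∃ e : ι → ℝ, ∀ i, e i = ε i * μ' i / D.lam i := ⟨_, fun _ => rfl⟩
  have e1 : ∀ i, ε i / D.lam i ≤ e i := fun i => he i ▸ div_le_div_of_nonneg_right
    (le_mul_of_one_le_right (e0 i) (m2 i)) (l0 i).le
  have e2 : ∀ i, e i ≤ ε i := fun i => by
    rw [he, div_le_iff₀ (l0 i)]; exact mul_le_mul_of_nonneg_left (h2 i) (e0 i)
  have e3 : ∀ i, 0 ≤ e i := fun i => (div_nonneg (e0 i) (l0 i).le).trans (e1 i)
  have p9 : ∀ i, μ i ^ 9 ≤ μ' i ^ 9 := fun i => pow_le_pow_left₀ (by linarith [m1 i]) (h1 i) 9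
  have f1 : ∀ i, ε i * μ i ^ 9 ≤ ε i * μ' i ^ 10 := fun i => mul_le_mul_of_nonneg_left
    ((p9 i).trans (pow_le_pow_right₀ (m2 i) (by norm_num))) (e0 i)
  have f2 : ∀ i, e i * μ i ^ 9 ≤ ε i * μ' i ^ 10 / D.lam i := fun i =>
    (mul_le_mul_of_nonneg_left (p9 i) (e3 i)).trans_eq (by rw [he]; ring)
  have cmp : ∀ {X : Type} [NormedAddCommGroup X] [NormedSpace ℝ X] {s : ι → P2 → ℝ}
      {f : ι → P3 → X}, Tame (D.Ω3 θ) (fun i z => s i z.1) μ 1 f →
      (∀ i, ∀ z ∈ D.Ω3 θ' i, 0 ≤ s i z.1) → Tame (D.Ω3 θ') (fun i z => s i z.1) μ' 1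
        fun i z => f i (z.1, z.2 + β i z.1) := fun hf h0 =>
    (shift_comp (S := D.Ω θ') hβ h1 h4 (hf.mono_set hS)).absorb (fun _ => le_rfl) (fun i z hz => by
      simpa using mul_le_mul_of_nonneg_left (h1 i) (h0 i z hz)) h0
  have fin1 : ∀ {E G : ι → P3 → ℝ} {t t' : ι → ℝ}, (∀ i, 0 ≤ t i) → (∀ i, t i * μ i ^ 9 ≤ t' i) →
      (∀ i, ∀ z ∈ D.Ω3 θ' i, G i (z.1, z.2 + β i z.1) = E i z) →
      Tame (D.Ω3 θ') (fun i z => D.a i z.1 * t i) μ 9 G →
      Tame (D.Ω3 θ') (fun i z => D.a i z.1 * t' i) μ' 0 E := fun t0 ht hG tG =>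
    ((shift_comp (S := D.Ω θ') (s := fun i p => D.a i p * _) hβ h1 h4 tG).weaken fun i z hz => by
      rw [mul_assoc]; exact mul_le_mul_of_nonneg_left (ht i) (a0 i z hz).le).congr_open ho hG
  have fin2 : ∀ {E G M s : ι → P3 → ℝ} {t t' : ι → ℝ}, Tame (D.Ω3 θ') s μ 9 G →
      (∀ i, 0 ≤ t i) → (∀ i, t i * μ i ^ 9 ≤ t' i) →
      (∀ i, ∀ z ∈ D.Ω3 θ' i, G i (z.1, z.2 + β i z.1) = E i z) → (∀ i, Per (G i)) →
      (∀ i, ∀ z ∈ D.Ω3 θ' i, M i z = mean (G i) z) →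
      Tame (D.Ω3 θ') (fun i z => D.a i z.1 ^ 2 * t i) μ 9 M →
      Tame (D.Ω3 θ') (fun i z => D.a i z.1 ^ 2 * t' i) μ' 0 fun i => mean (E i) :=
    fun _ t0 ht hG hp hM tM => (tM.absorb h1 (fun i z _ => by
      rw [pow_zero, mul_one, mul_assoc]; exact mul_le_mul_of_nonneg_left (ht i) (sq_nonneg _))
      fun i z _ => mul_nonneg (sq_nonneg _) ((mul_nonneg (t0 i) (pow_nonneg (by linarith [m1 i])
        _)).trans (ht i))).congr_open ho fun i z hz => by
      rw [hM i z hz, ← mean_shift (hp i) (β i)]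
      exact mean_congr fun t => hG i (z.1, t) hz
  have tU := hs.tU.mono_set hS
  have tT := tU.dd et
  have tX := tU.dd ex
  have tY := tU.dd ey
  have tρ := hs.tρ.mono_set hS
  have tv := (hs.tvel h).mono_set hS
  have tl : Tame (D.Ω3 θ') (fun i z => D.a i z.1) μ 2 fun i z => D.lam i • dd et (U i) z :=
    (tT.smul_index fun i => (abs_of_pos (l0 i)).le).weaken fun i z _ =>
      (mul_div_cancel₀ _ (l0 i).ne').le
  have tD : Tame (D.Ω3 θ') (fun i z => D.a i z.1) μ 2 (D.DU U) :=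
    (tX.weaken fun i z hz => div_le_self (a0 i z hz).le ((m2 i).trans (h2 i))).add tl
  have tFx := CData.up_of (h.tF.dd ((1, 0) : P2)) θ0 hs.lo
  have tFy := CData.up_of (h.tF.dd ((0, 1) : P2)) θ0 hs.lo
  have tb : ∀ v : P2, Tame (D.Ω3 θ') (fun i _ => D.lam i * ε i) μ 1 fun i z => dd v (β i) z.1 :=
    fun v => Tame.up (Ω := D.Ω θ') ((hβ.dd v).mono_set fun _ => subset_univ _)
  have tbl : Tame (D.Ω3 θ') (fun i _ => ε i) μ 1 fun i z => (D.lam i)⁻¹ * dy (β i) z.1 :=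
    ((tb _).smul_index fun i => (abs_of_pos (inv_pos.2 (l0 i))).le).weaken fun i z _ =>
      (inv_mul_cancel_left₀ (l0 i).ne' _).le
  have tQ : ∀ v : P2, Tame (D.Ω3 θ') (fun i z => μ' i * (D.a i z.1 / D.lam i) ^ 2) μ 5
      fun i z => dd v (β i) z.1 * inner ℝ (dd et (U i) z) (dd et (U i) z) := fun v =>
    (((tb v).weaken fun i _ _ => h5 i).mul (tT.inner tT)).weaken fun i z _ => by rw [sq]
  have tR : Tame (D.Ω3 θ') (fun i z => μ' i * (D.a i z.1 / D.lam i) ^ 2) μ 5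
      fun i z => inner ℝ (dd ey (U i) z) (dd et (U i) z) := shift_sz (tY.inner tT) (by norm_num)
    fun i z _ => by rw [← sq]; exact le_mul_of_one_le_left (sq_nonneg _) (m2 i)
  have tS : ∀ (v : P2) {f : ι → P3 → ℝ}, Tame (D.Ω3 θ')
      (fun i z => μ' i * (D.a i z.1 / D.lam i) ^ 2) μ 5 f → Tame (D.Ω3 θ')
      (fun i z => D.a i z.1 ^ 2 * e i) μ 8 fun i z => dd v (β i) z.1 * f i z := fun v f hf =>
    shift_sz ((tb v).mul hf) (by norm_num) fun i z _ => le_of_eq (by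
      have := (l0 i).ne'; rw [he]; field_simp)
  have tK : ∀ {c : ι → P3 → V}, Tame (D.Ω3 θ') (fun i _ => D.lam i * ε i * 1) μ 3 c →
      Tame (D.Ω3 θ') (fun i z => D.a i z.1 * ε i) μ 9
        fun i z => inner ℝ (c i z) (dd et (U i) z) := fun hc =>
    shift_sz (hc.inner tT) (by norm_num) fun i z _ => le_of_eq (by
      have := (l0 i).ne'; field_simp)
  have mK : ∀ i (c : P2 → V), ∀ z ∈ D.Ω3 θ' i,
      mean (fun x => inner ℝ (c x.1) (dd et (U i) x)) z = 0 := fun i c z hz => by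
    rw [mean_inner c (tT.smL hz), mean_dt (hs.per i) (tU.smL hz), inner_zero_right]
  have wk : ∀ {f : ι → P3 → ℝ}, Tame (D.Ω3 θ') (fun i z => D.a i z.1 ^ 2 * e i) μ 8 f →
      Tame (D.Ω3 θ') (fun i z => D.a i z.1 ^ 2 * ε i) μ 8 f := fun hf =>
    hf.weaken fun i z _ => mul_le_mul_of_nonneg_left (e2 i) (sq_nonneg _)
  have sq1 : ∀ {t : ι → ℝ} {f : ι → P3 → ℝ}, (∀ i, 0 ≤ t i) → Tame (D.Ω3 θ')
      (fun i z => D.a i z.1 ^ 2 * t i) μ 8 f → Tame (D.Ω3 θ') (fun i z => D.a i z.1 * t i) μ 9 f :=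
    fun t0 hf => CData.St.sq_le h θ0 hs.lo t0 hf
  have p1 : ∀ z : P3, (z + (2 * Real.pi) • et).1 = z.1 := fun z => by simp [et]
  have pd := fun i v => (hs.per i).dd v
  have hd := fun i z hz => shift_dd (β := β) hs (hβ.contDiff i) (hS i (a := z) hz)
  have L11 : Tame (D.Ω3 θ') (fun i z => D.a i z.1 ^ 2 * ε i) μ 8 fun i z =>
      2 * (dx (β i) z.1 * inner ℝ (D.DU U i z) (dd et (U i) z)) +
      dx (β i) z.1 * (dx (β i) z.1 * inner ℝ (dd et (U i) z) (dd et (U i) z)) :=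
    (shift_sz (((tb _).mul (tD.inner tT)).const_mul 2) (by norm_num) fun i z _ => le_of_eq (by
      have := (l0 i).ne'; field_simp)).add (wk (tS _ (tQ _)))
  have K11 := tK (((tb (1, 0)).smul tFx).const_smul 2)
  have G11 := ((hs.t11.mono_set hS).mono_k (Nat.zero_le 9)).add (K11.add (sq1 e0 L11))
  have i11 := fun i z (hz : z ∈ D.Ω3 θ' i) => show (fun z => D.E11 U i z + (inner ℝ ((2 : ℝ) •
      dx (β i) z.1 • dx (D.F i) z.1) (dd et (U i) z) + (2 * (dx (β i) z.1 * inner ℝ (D.DU U i z)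
      (dd et (U i) z)) + dx (β i) z.1 * (dx (β i) z.1 * inner ℝ (dd et (U i) z) (dd et (U i) z)))))
      (z.1, z.2 + β i z.1) = D.E11 (fun i x => U i (x.1, x.2 + β i x.1)) i z by
    simp only [CData.E11, (hd i z hz).2.2, inner_add_left, inner_add_right, real_inner_smul_left,
      real_inner_smul_right, real_inner_comm (D.DU U i _) (dd et (U i) _)]
    ring
  have L22 := ((tS (0, 1) ((tR.const_mul 2).add (tQ (0, 1)))).const_mul D.c)
  have K22 : Tame (D.Ω3 θ') (fun i z => D.a i z.1 * e i) μ 9 fun i z => inner ℝ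
      ((2 * D.c) • dy (β i) z.1 • dy (D.F i) z.1) (dd et (U i) z) :=
    (shift_sz ((tbl.mul (tFy.inner1 tρ)).const_mul (2 * D.c)) (by norm_num) fun i z hz => by
      rw [mul_comm, mul_comm_div]
      exact mul_le_mul_of_nonneg_left (e1 i) (a0 i z hz).le).congr_open ho fun i z hz => by
      have := (l0 i).ne'
      simp only [inner_sub_right, h.y_vel (hS0 i hz), real_inner_smul_left, real_inner_smul_right]
      field_simp
      ring
  have w2 : ∀ i, ∀ z ∈ D.Ω3 θ' i, D.a i z.1 ^ 2 * (ε i / D.lam i) ≤ D.a i z.1 ^ 2 * e i :=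
    fun i z _ => mul_le_mul_of_nonneg_left (e1 i) (sq_nonneg _)
  have G22 := (shift_sz (hs.t22.mono_set hS) (Nat.zero_le 9) fun i z hz =>
    mul_le_mul_of_nonneg_left (e1 i) (a0 i z hz).le).add (K22.add (sq1 e3 L22))
  have i22 := fun i z (hz : z ∈ D.Ω3 θ' i) => show (fun z => D.E22 U i z + (inner ℝ ((2 * D.c) •
      dy (β i) z.1 • dy (D.F i) z.1) (dd et (U i) z) + D.c * (dy (β i) z.1 * (2 * inner ℝ
      (dd ey (U i) z) (dd et (U i) z) + dy (β i) z.1 * inner ℝ (dd et (U i) z) (dd et (U i) z)))))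
      (z.1, z.2 + β i z.1) = D.E22 (fun i x => U i (x.1, x.2 + β i x.1)) i z by
    simp only [CData.E22, (hd i z hz).2.1, inner_add_left, inner_add_right, real_inner_smul_left,
      real_inner_smul_right, real_inner_comm (dd ey (U i) _) (dd et (U i) _)]
    ring
  have L12 : Tame (D.Ω3 θ') (fun i z => D.a i z.1 ^ 2 * e i) μ 8 fun i z =>
      dy (β i) z.1 * inner ℝ (dd ex (U i) z) (dd et (U i) z) + (D.lam i)⁻¹ * dy (β i) z.1 *
      inner ℝ (D.lam i • dd et (U i) z - D.velB B i z) (D.lam i • dd et (U i) z + D.velB B i z) +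
      dx (β i) z.1 * (inner ℝ (dd ey (U i) z) (dd et (U i) z) +
        dy (β i) z.1 * inner ℝ (dd et (U i) z) (dd et (U i) z)) :=
    ((shift_sz ((tb _).mul (tX.inner tT)) (by norm_num) fun i z hz => le_trans (le_of_eq (by
      have := (l0 i).ne'; field_simp)) (w2 i z hz)).add (shift_sz (tbl.mul (tρ.inner (tl.add tv)))
      (by norm_num) fun i z hz => le_trans (le_of_eq (by ring)) (w2 i z hz))).add
      (tS _ (tR.add (tQ _)))
  have K12 := tK (((tb (0, 1)).smul tFx).add ((tb (1, 0)).smul tFy))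
  have V12 : Tame (D.Ω3 θ') (fun i z => D.a i z.1 ^ 2 * ε i) μ 8 fun i z =>
      (D.lam i)⁻¹ * dy (β i) z.1 * inner ℝ (D.velB B i z) (D.velB B i z) :=
    shift_sz (tbl.mul (tv.inner tv)) (by norm_num) fun i z _ => le_of_eq (by ring)
  have E12 := (hs.t12.mono_set hS).mono_k (Nat.zero_le 9)
  have G12 := (E12.add (sq1 e0 V12)).add (K12.add (sq1 e0 (wk L12)))
  have i12 := fun i z (hz : z ∈ D.Ω3 θ' i) => show (fun z => D.E12 U i z + (D.lam i)⁻¹ *
      dy (β i) z.1 * inner ℝ (D.velB B i z) (D.velB B i z) + (inner ℝ (dy (β i) z.1 • dx (D.F i) z.1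
      + dx (β i) z.1 • dy (D.F i) z.1) (dd et (U i) z) +
      (dy (β i) z.1 * inner ℝ (dd ex (U i) z) (dd et (U i) z) + (D.lam i)⁻¹ * dy (β i) z.1 *
      inner ℝ (D.lam i • dd et (U i) z - D.velB B i z) (D.lam i • dd et (U i) z + D.velB B i z) +
      dx (β i) z.1 * (inner ℝ (dd ey (U i) z) (dd et (U i) z) +
        dy (β i) z.1 * inner ℝ (dd et (U i) z) (dd et (U i) z)))))
      (z.1, z.2 + β i z.1) = D.E12 (fun i x => U i (x.1, x.2 + β i x.1)) i z by
    have := (l0 i).ne'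
    simp only [CData.E12, (hd i z hz).2.1, (hd i z hz).2.2]
    simp only [CData.DU, inner_add_left, inner_add_right, inner_sub_left, real_inner_smul_left,
      real_inner_smul_right, real_inner_comm (dd ey (U i) _) (dd et (U i) _),
      real_inner_comm (D.velB B i _) (dd et (U i) _)]
    field_simp
    ring
  have vB : ∀ i (z : P3), z.2 + β i z.1 + B i z.1 = z.2 + (B i z.1 + β i z.1) := fun _ _ => by ring
  have o1 : ∀ i, ∀ z ∈ D.Ω3 θ' i, (0 : ℝ) ≤ 1 := fun _ _ _ => zero_le_one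
  have o2 : ∀ i, ∀ z ∈ D.Ω3 θ' i, 0 ≤ D.a i z.1 / D.lam i := fun i z hz =>
    (div_pos (a0 i z hz) (l0 i)).le
  refine ⟨fun i p => B i p + β i p, fun i z => U i (z.1, z.2 + β i z.1), θ0,
    fun i => (hs.lo i).trans (h1 i), h2, fun i => mul_nonneg (e0 i) (by have := m2 i; positivity),
    fun i => (hs.sB i).add (hβ.contDiff i),
    (cmp (s := fun _ _ => 1) hs.t0 o1).congr_open ho fun i z _ => by simp only [CData.sh, vB],
    (cmp (s := fun _ _ => 1) hs.t1 o1).congr_open ho fun i z _ => by simp only [CData.sh, vB],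
    (cmp (s := fun _ _ => 1) hs.t2 o1).congr_open ho fun i z _ => by simp only [CData.sh, vB],
    fun i => (hs.per i).shift _, cmp (s := fun i p => D.a i p / D.lam i) hs.tU o2,
    (cmp (s := fun i p => D.a i p / D.lam i) hs.tρ o2).congr_open ho fun i z hz => by
      simp only [CData.velB, vB, (hd i z hz).1],
    fin1 e0 f1 i11 G11, fin2 G11 e0 f1 i11 (fun i z => ?_) (fun i z hz => ?_)
      (((hs.m11.mono_set hS).mono_k (Nat.zero_le 9)).add
      ((Tame.mean (a := fun i p => D.a i p ^ 2 * ε i) L11).mono_k (Nat.le_succ 8))),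
    fin1 e0 f1 i12 G12, fin2 G12 e3 f2 i12 (fun i z => ?_) (fun i z hz => ?_)
      ((Tame.mean (a := fun i p => D.a i p ^ 2 * e i) L12).mono_k (Nat.le_succ 8)),
    (fin1 e3 f2 i22 G22 :), (fin2 G22 e3 f2 i22 (fun i z => ?_) (fun i z hz => ?_)
      ((shift_sz (hs.m22.mono_set hS) (Nat.zero_le 9) w2).add
      ((Tame.mean (a := fun i p => D.a i p ^ 2 * e i) L22).mono_k (Nat.le_succ 8))) :)⟩
  · simp only [p1, hs.per11 i z, CData.DU, pd i _ z]
  · rw [mean_add ((hs.t11.mono_set hS).smL hz) ((K11.add (sq1 e0 L11)).smL hz),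
      mean_add (K11.smL hz) (L11.smL hz), mK i (fun p => (2 : ℝ) • dx (β i) p • dx (D.F i) p) z hz,
      zero_add]
  · simp only [p1, hs.per12 i z, pd i _ z, h.per_velB i z]
  · rw [mean_add ((E12.add (sq1 e0 V12)).smL hz) ((K12.add (sq1 e0 (wk L12))).smL hz),
      mean_add (K12.smL hz) (L12.smL hz), mean_add (E12.smL hz) (V12.smL hz),
      mK i (fun p => dy (β i) p • dx (D.F i) p + dx (β i) p • dy (D.F i) p) z hz,
      mean_mul fun p => (D.lam i)⁻¹ * dy (β i) p, hs.mean_sq h (hS i hz), hβy i z.1 hz,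
      mean_phase (hs.per12 i) z.1 0 z.2]
    simp
  · simp only [p1, hs.per22 i z, pd i _ z]
  · rw [mean_add ((hs.t22.mono_set hS).smL hz) ((K22.add (sq1 e3 L22)).smL hz),
      mean_add (K22.smL hz) (L22.smL hz),
      mK i (fun p => (2 * D.c) • dy (β i) p • dy (D.F i) p) z hz, zero_add]

end Vale.Agent.Iso4
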