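import Vale.Agent.Iso4.Tame2

/-! Tame orthonormal frames, and perturbation of transversality. -/

open scoped ContDiff Topology
open Set Filter

noncomputable section
namespace Vale.Agent.Iso4
universe u

/-- orthonormal quadruple -/
structure ON4 (e1 e2 e3 e4 : V) : Prop where
  h11 : inner ℝ e1 e1 = (1 : ℝ)
  h22 : inner ℝ e2 e2 = (1 : ℝ)
  h33 : inner ℝ e3 e3 = (1 : ℝ)
  h44 : inner ℝ e4 e4 = (1 : ℝ)
  h12 : inner ℝ e1 e2 = (0 : ℝ)
  h13 : inner ℝ e1 e3 = (0 : ℝ)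
  h14 : inner ℝ e1 e4 = (0 : ℝ)
  h23 : inner ℝ e2 e3 = (0 : ℝ)
  h24 : inner ℝ e2 e4 = (0 : ℝ)
  h34 : inner ℝ e3 e4 = (0 : ℝ)

/-- three by three minor -/
def gsDet (a b c : V) (i j k : Fin 4) : ℝ :=
  a i * (b j * c k - b k * c j) - a j * (b i * c k - b k * c i) + a k * (b i * c j - b j * c i)

/-- cross product of three vectors -/
def gsCross (a b c : V) : V :=
  gsDet a b c 1 2 3 • EuclideanSpace.single 0 (1 : ℝ) -
    gsDet a b c 0 2 3 • EuclideanSpace.single 1 (1 : ℝ) +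
    gsDet a b c 0 1 3 • EuclideanSpace.single 2 (1 : ℝ) -
    gsDet a b c 0 1 2 • EuclideanSpace.single 3 (1 : ℝ)

theorem gs_inner (a b : V) : inner ℝ a b = a 0 * b 0 + a 1 * b 1 + a 2 * b 2 + a 3 * b 3 := by
  simp only [PiLp.inner_apply, Fin.sum_univ_four, RCLike.inner_apply, conj_trivial]
  ring

theorem gsCross_on {a b c : V} (h11 : inner ℝ a a = (1 : ℝ)) (h22 : inner ℝ b b = (1 : ℝ))
    (h33 : inner ℝ c c = (1 : ℝ)) (h12 : inner ℝ a b = (0 : ℝ)) (h13 : inner ℝ a c = (0 : ℝ))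
    (h23 : inner ℝ b c = (0 : ℝ)) : ON4 a b c (gsCross a b c) := by
  have e0 : gsCross a b c 0 = gsDet a b c 1 2 3 := by simp [gsCross]
  have e1 : gsCross a b c 1 = -gsDet a b c 0 2 3 := by simp [gsCross]
  have e2 : gsCross a b c 2 = gsDet a b c 0 1 3 := by simp [gsCross]
  have e3 : gsCross a b c 3 = -gsDet a b c 0 1 2 := by simp [gsCross]
  refine ⟨h11, h22, h33, ?_, h12, h13, ?_, h23, ?_, ?_⟩
  · have : inner ℝ (gsCross a b c) (gsCross a b c) =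
        inner ℝ a a * (inner ℝ b b * inner ℝ c c - inner ℝ b c * inner ℝ b c) -
          inner ℝ a b * (inner ℝ a b * inner ℝ c c - inner ℝ b c * inner ℝ a c) +
          inner ℝ a c * (inner ℝ a b * inner ℝ b c - inner ℝ b b * (inner ℝ a c : ℝ)) := by
      simp only [gs_inner, e0, e1, e2, e3, gsDet]
      ring
    rw [this, h11, h22, h33, h12, h13, h23]
    ring
  all_goals
    simp only [gs_inner, e0, e1, e2, e3, gsDet]
    ring

section
variable {ι : Type*} {Ω : ι → Set P2} {L : ι → ℝ} {p : ℕ}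

theorem PT.gsDet {a b c : ι → P2 → V} (hL : ∀ i, 1 ≤ L i) (ha : PT Ω L p a) (hb : PT Ω L p b)
    (hc : PT Ω L p c) (i j k : Fin 4) :
    PT Ω L (p + (p + p)) fun l z => gsDet (a l z) (b l z) (c l z) i j k := by
  have co : ∀ {a : ι → P2 → V}, PT Ω L p a → ∀ i : Fin 4, PT Ω L p fun l z => a l z i :=
    fun ha i => Tame.clm ha (EuclideanSpace.proj i)
  have m2 : ∀ j k : Fin 4, PT Ω L (p + p) fun l z => b l z j * c l z k - b l z k * c l z j :=
    fun j k => Tame.sub ((co hb j).mul (co hc k) hL) ((co hb k).mul (co hc j) hL)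
  exact Tame.add (Tame.sub ((co ha i).mul (m2 j k) hL) ((co ha j).mul (m2 i k) hL))
    ((co ha k).mul (m2 i j) hL)

theorem PT.gsCross {a b c : ι → P2 → V} (hL : ∀ i, 1 ≤ L i) (ha : PT Ω L p a) (hb : PT Ω L p b)
    (hc : PT Ω L p c) :
    PT Ω L (p + (p + p) + 0) fun l z => gsCross (a l z) (b l z) (c l z) := by
  have h : ∀ (i j k m : Fin 4), PT Ω L (p + (p + p) + 0) fun l z =>
      Iso4.gsDet (a l z) (b l z) (c l z) i j k • (EuclideanSpace.single m (1 : ℝ) : V) :=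
    fun i j k m => (PT.gsDet hL ha hb hc i j k).smul (PT.const hL _) hL
  exact Tame.sub (Tame.add (Tame.sub (h 1 2 3 0) (h 0 2 3 1)) (h 0 1 3 2)) (h 0 1 2 3)

theorem PT.gsUnit {u : ι → P2 → V} {c : ℝ} {p0 : ℕ} (hL : ∀ i, 1 ≤ L i) (hc : 0 < c)
    (hu : PT Ω L p u) (hp : p0 ≤ p) (h0 : ∀ i, ∀ z ∈ Ω i, c / L i ^ p0 ≤ ‖u i z‖) :
    PT Ω L (6 * p) (fun i z => ‖u i z‖) ∧ PT Ω L (19 * p) fun i z => ‖u i z‖⁻¹ • u i z := by
  have hw : ∀ q, p0 ≤ q → ∀ i, ∀ z ∈ Ω i, c / L i ^ q ≤ ‖u i z‖ := fun q hq i z hz =>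
    (div_le_div_of_nonneg_left hc.le (pow_pos (one_pos.trans_le (hL i)) _)
      (pow_le_pow_right₀ (hL i) hq)).trans (h0 i z hz)
  have h1 := hu.norm hL hc (hw p hp)
  exact ⟨h1, ((h1.inv hL hc (hw _ (by omega))).smul hu hL).mono hL (by omega)⟩

end

theorem gs_unit {u : V} (h : 0 < ‖u‖) :
    inner ℝ (‖u‖⁻¹ • u) (‖u‖⁻¹ • u) = (1 : ℝ) ∧ u = ‖u‖ • ‖u‖⁻¹ • u := by
  constructor
  · rw [real_inner_smul_left, real_inner_smul_right, real_inner_self_eq_norm_mul_norm]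
    field_simp
  · rw [smul_smul, mul_inv_cancel₀ h.ne', one_smul]

theorem gs_orth {a b : V} (x : V) (r : ℝ) (ha : inner ℝ a a = (1 : ℝ)) (hb : inner ℝ b b = (1 : ℝ))
    (hab : inner ℝ a b = (0 : ℝ)) :
    inner ℝ a (r • (x - inner ℝ x a • a - inner ℝ x b • b)) = (0 : ℝ) ∧
      inner ℝ b (r • (x - inner ℝ x a • a - inner ℝ x b • b)) = (0 : ℝ) := by
  simp only [real_inner_smul_right, inner_sub_right, ha, hb, hab, real_inner_comm a b,
    real_inner_comm a x, real_inner_comm b x]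
  constructor <;> ring

/-- Orthonormalisation of three tame vector fields, completed by the cross product. -/
theorem gram (p : ℕ) : ∃ q : ℕ, p ≤ q ∧ ∀ {ι : Type u} {Ω : ι → Set P2} {L : ι → ℝ}
    {b1 b2 b3 : ι → P2 → V} {c : ℝ}, (∀ i, 1 ≤ L i) → 0 < c → PT Ω L p b1 → PT Ω L p b2 →
    PT Ω L p b3 → (∀ i, ∀ z ∈ Ω i, c / L i ^ p ≤ ‖b1 i z‖) →
    (∀ i, ∀ z ∈ Ω i, ∀ t : ℝ, c / L i ^ p ≤ ‖b2 i z - t • b1 i z‖) →
    (∀ i, ∀ z ∈ Ω i, ∀ t t' : ℝ, c / L i ^ p ≤ ‖b3 i z - t • b1 i z - t' • b2 i z‖) →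
    ∃ (e1 e2 e3 e4 : ι → P2 → V) (r1 r2 r3 s21 s31 s32 : ι → P2 → ℝ),
      PT Ω L q e1 ∧ PT Ω L q e2 ∧ PT Ω L q e3 ∧ PT Ω L q e4 ∧
      PT Ω L q r1 ∧ PT Ω L q r2 ∧ PT Ω L q r3 ∧ PT Ω L q s21 ∧ ∀ i, ∀ z ∈ Ω i,
        ON4 (e1 i z) (e2 i z) (e3 i z) (e4 i z) ∧
        c / L i ^ p ≤ r1 i z ∧ c / L i ^ p ≤ r2 i z ∧ c / L i ^ p ≤ r3 i z ∧
        b1 i z = r1 i z • e1 i z ∧ b2 i z = s21 i z • e1 i z + r2 i z • e2 i z ∧
        b3 i z = s31 i z • e1 i z + s32 i z • e2 i z + r3 i z • e3 i z := by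
  refine ⟨90000 * p, by omega, ?_⟩
  intro ι Ω L b1 b2 b3 c hL hc h1 h2 h3 l1 l2 l3
  have hpos : ∀ i, 0 < c / L i ^ p := fun i => div_pos hc (pow_pos (one_pos.trans_le (hL i)) _)
  obtain ⟨tr1, te1⟩ := PT.gsUnit hL hc h1 le_rfl l1
  set e1 : ι → P2 → V := fun i z => ‖b1 i z‖⁻¹ • b1 i z with he1
  set s21 : ι → P2 → ℝ := fun i z => inner ℝ (b2 i z) (e1 i z) with hs21
  have ts21 : PT Ω L (p + 19 * p) s21 := h2.inner te1 hL
  set c2 : ι → P2 → V := fun i z => b2 i z - s21 i z • e1 i z with hc2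
  have tc2 : PT Ω L (p + (p + 19 * p + 19 * p)) c2 := h2.sub (ts21.smul te1 hL) hL
  have l2' : ∀ i, ∀ z ∈ Ω i, c / L i ^ p ≤ ‖c2 i z‖ := fun i z hz => by
    have := l2 i z hz (s21 i z * ‖b1 i z‖⁻¹)
    rwa [← smul_smul] at this
  obtain ⟨tr2, te2⟩ := PT.gsUnit hL hc tc2 (by omega) l2'
  set e2 : ι → P2 → V := fun i z => ‖c2 i z‖⁻¹ • c2 i z with he2
  set s31 : ι → P2 → ℝ := fun i z => inner ℝ (b3 i z) (e1 i z) with hs31
  set s32 : ι → P2 → ℝ := fun i z => inner ℝ (b3 i z) (e2 i z) with hs32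
  set c3 : ι → P2 → V := fun i z => b3 i z - s31 i z • e1 i z - s32 i z • e2 i z with hc3
  have tc3 : PT Ω L (1561 * p) c3 := ((h3.sub ((h3.inner te1 hL).smul te1 hL) hL).sub
    ((h3.inner te2 hL).smul te2 hL) hL).mono hL (by omega)
  have l3' : ∀ i, ∀ z ∈ Ω i, c / L i ^ p ≤ ‖c3 i z‖ := fun i z hz => by
    have := l3 i z hz ((s31 i z - s32 i z * ‖c2 i z‖⁻¹ * s21 i z) * ‖b1 i z‖⁻¹)
      (s32 i z * ‖c2 i z‖⁻¹)
    refine this.trans_eq (congrArg norm ?_)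
    have e : c3 i z = b3 i z - s31 i z • ‖b1 i z‖⁻¹ • b1 i z -
        s32 i z • ‖c2 i z‖⁻¹ • (b2 i z - s21 i z • ‖b1 i z‖⁻¹ • b1 i z) := rfl
    rw [e]
    module
  obtain ⟨tr3, te3⟩ := PT.gsUnit hL hc tc3 (by omega) l3'
  set e3 : ι → P2 → V := fun i z => ‖c3 i z‖⁻¹ • c3 i z with he3
  have te4 := PT.gsCross (p := 30000 * p) hL (te1.mono hL (by omega)) (te2.mono hL (by omega))
    (te3.mono hL (by omega))
  refine ⟨e1, e2, e3, fun i z => gsCross (e1 i z) (e2 i z) (e3 i z), fun i z => ‖b1 i z‖,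
    fun i z => ‖c2 i z‖, fun i z => ‖c3 i z‖, s21, s31, s32, te1.mono hL (by omega),
    te2.mono hL (by omega), te3.mono hL (by omega), te4.mono hL (by omega),
    tr1.mono hL (by omega), tr2.mono hL (by omega), tr3.mono hL (by omega),
    ts21.mono hL (by omega), fun i z hz => ?_⟩
  obtain ⟨u1, v1⟩ := gs_unit ((hpos i).trans_le (l1 i z hz))
  obtain ⟨u2, v2⟩ := gs_unit ((hpos i).trans_le (l2' i z hz))
  obtain ⟨u3, v3⟩ := gs_unit ((hpos i).trans_le (l3' i z hz))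
  have u1' : inner ℝ (e1 i z) (e1 i z) = (1 : ℝ) := u1
  have u2' : inner ℝ (e2 i z) (e2 i z) = (1 : ℝ) := u2
  have o12 : inner ℝ (e1 i z) (e2 i z) = (0 : ℝ) := by
    have e : e2 i z = ‖c2 i z‖⁻¹ • (b2 i z - inner ℝ (b2 i z) (e1 i z) • e1 i z) := rfl
    rw [e, real_inner_smul_right, inner_sub_right, real_inner_smul_right, u1', real_inner_comm]
    ring
  have e : e3 i z = ‖c3 i z‖⁻¹ • (b3 i z - inner ℝ (b3 i z) (e1 i z) • e1 i z -
      inner ℝ (b3 i z) (e2 i z) • e2 i z) := rfl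
  obtain ⟨o13, o23⟩ := gs_orth (b3 i z) ‖c3 i z‖⁻¹ u1' u2' o12
  rw [← e] at o13 o23
  refine ⟨gsCross_on u1 u2 u3 o12 o13 o23, l1 i z hz, l2' i z hz, l3' i z hz, v1, ?_, ?_⟩
  · have e' : ‖c2 i z‖ • e2 i z = b2 i z - s21 i z • e1 i z := v2.symm
    simp only [e']
    abel
  · have e' : ‖c3 i z‖ • e3 i z = b3 i z - s31 i z • e1 i z - s32 i z • e2 i z := v3.symm
    simp only [e']
    abel

section
variable {E X : Type} [NormedAddCommGroup E] [NormedSpace ℝ E] [NormedAddCommGroup X]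
  [NormedSpace ℝ X] {T T' : E →L[ℝ] X} {x x' : X} {κ κ' D η : ℝ}

theorem Imm.mono (h : Imm κ T) (hκ : κ' ≤ κ) : Imm κ' T := fun u =>
  (mul_le_mul_of_nonneg_right hκ (norm_nonneg u)).trans (h u)

theorem Tr.mono (h : Tr κ x T) (hκ : κ' ≤ κ) : Tr κ' x T := fun u => hκ.trans (h u)

theorem Imm.pert (h : Imm κ T) (hη : ∀ u, ‖T' u - T u‖ ≤ η * ‖u‖) : Imm (κ - η) T' := by
  intro u
  have h1 := h u
  have h2 := hη u
  have h3 := norm_sub_norm_le (T u) (T' u)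
  rw [norm_sub_rev] at h3
  linarith

theorem Tr.pert (h : Tr D x T) (hT : Imm κ T) (hκ : 0 < κ) (hη0 : 0 ≤ η)
    (hη : ∀ u, ‖T' u - T u‖ ≤ η * ‖u‖) (h2 : 2 * η ≤ κ) :
    Tr (D - ‖x - x'‖ - 4 * η * ‖x'‖ / κ) x' T' := by
  intro u
  have h0 : 0 ≤ 4 * η * ‖x'‖ / κ := by positivity
  by_cases hu : ‖u‖ ≤ 4 * ‖x'‖ / κ
  · have h1 := h u
    have h3 := hη u
    have h4 : η * ‖u‖ ≤ 4 * η * ‖x'‖ / κ :=
      (mul_le_mul_of_nonneg_left hu hη0).trans_eq (by ring)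
    have h5 : ‖x - T u‖ ≤ ‖x - x'‖ + ‖x' - T' u‖ + ‖T' u - T u‖ :=
      (congrArg norm (by abel)).trans_le norm_add₃_le
    linarith
  · have h1 := (hT.pert hη) u
    have h3 : 4 * ‖x'‖ ≤ κ * ‖u‖ := by
      have := (div_le_iff₀ hκ).1 (not_le.1 hu).le
      linarith
    have h4 : 2 * η * ‖u‖ ≤ κ * ‖u‖ := mul_le_mul_of_nonneg_right h2 (norm_nonneg u)
    have h5 := h 0
    rw [map_zero, sub_zero] at h5
    have h6 := norm_sub_norm_le x x'
    have h7 := norm_sub_norm_le (T' u) x'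
    rw [norm_sub_rev] at h7
    linarith

theorem Tr.add_range (h : Tr D x T) (u : E) : Tr D (x + T u) T := fun v =>
  (h (v - u)).trans_eq (congrArg norm (by rw [map_sub]; abel))

theorem Tr.smul (h : Tr D x T) {c : ℝ} (hc : 0 < c) : Tr (c * D) (c • x) T := by
  intro u
  have e : c • x - T u = c • (x - T (c⁻¹ • u)) := by
    rw [map_smul, smul_sub, smul_smul, mul_inv_cancel₀ hc.ne', one_smul]
  rw [e, norm_smul, Real.norm_of_nonneg hc.le]
  exact mul_le_mul_of_nonneg_left (h _) hc.le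

theorem Tr.of_smul {c : ℝ} (h : Tr D (c • x) T) (hc : 0 < c) : Tr (D / c) x T := by
  have := h.smul (inv_pos.2 hc)
  rwa [smul_smul, inv_mul_cancel₀ hc.ne', one_smul, ← div_eq_inv_mul] at this

theorem Tr.comp {E' : Type} [NormedAddCommGroup E'] [NormedSpace ℝ E'] (h : Tr D x T)
    (A : E' →L[ℝ] E) : Tr D x (T.comp A) := fun u => h (A u)

theorem Tr.of_comp {E' : Type} [NormedAddCommGroup E'] [NormedSpace ℝ E'] {A : E' →L[ℝ] E}
    (h : Tr D x (T.comp A)) : Function.Surjective A → Tr D x T := fun hA u => by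
  obtain ⟨v, rfl⟩ := hA u
  exact h v

/-- if a combination is transversal then so is one of the terms -/
theorem Tr.exists_term {n : ℕ} {y : Fin n → X} {β : Fin n → ℝ} {b : ℝ} (hD : 0 < D)
    (h : Tr D (∑ j, β j • y j) T) (hb : ∀ j, |β j| ≤ b) : ∃ j, Tr (D / (n * b)) (y j) T := by
  by_contra hcon
  simp only [Tr, not_exists, not_forall, not_le] at hcon
  choose u hu using hcon
  have h1 := h (∑ j, β j • u j)
  have e : ∑ j, β j • y j - T (∑ j, β j • u j) = ∑ j, β j • (y j - T (u j)) := by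
    simp only [map_sum, map_smul, smul_sub, Finset.sum_sub_distrib]
  rw [e] at h1
  rcases Nat.eq_zero_or_pos n with rfl | hn
  · simp at h1
    linarith
  · have hp := (norm_nonneg _).trans_lt (hu ⟨0, hn⟩)
    have hnb : 0 < n * b := (div_pos_iff_of_pos_left hD).1 hp
    have hb0 : 0 < b := (mul_pos_iff_of_pos_left (by exact_mod_cast hn)).1 hnb
    have h2 : ∑ j, ‖β j • (y j - T (u j))‖ < ∑ _j : Fin n, b * (D / (n * b)) := by
      refine Finset.sum_lt_sum_of_nonempty ⟨⟨0, hn⟩, Finset.mem_univ _⟩ fun j _ => ?_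
      rw [norm_smul, Real.norm_eq_abs]
      exact (mul_le_mul_of_nonneg_right (hb j) (norm_nonneg _)).trans_lt
        (mul_lt_mul_of_pos_left (hu j) hb0)
    rw [Finset.sum_const, Finset.card_univ, Fintype.card_fin, nsmul_eq_mul, ← mul_assoc,
      mul_div_cancel₀ _ hnb.ne'] at h2
    linarith [norm_sum_le Finset.univ fun j => β j • (y j - T (u j))]

end

/-- a test vector orthogonal to the range -/
theorem Tr.of_test {E : Type} [NormedAddCommGroup E] [NormedSpace ℝ E] {T : E →L[ℝ] V} {x n : V}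
    (hn : ‖n‖ ≤ 2) (hT : ∀ u, inner ℝ n (T u) = (0 : ℝ)) : Tr (inner ℝ n x / 2) x T := by
  intro u
  have h1 := real_inner_le_norm n (x - T u)
  rw [inner_sub_right, hT, sub_zero] at h1
  have h2 := mul_le_mul_of_nonneg_right hn (norm_nonneg (x - T u))
  linarith

end Vale.Agent.Iso4
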