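import Vale.Agent.Iso4.Formal
import Vale.Agent.Iso4.GS

/-! Corrugation along the level lines. -/

open scoped ContDiff Topology Manifold
open Set Filter

noncomputable section
namespace Vale.Agent.Iso4

theorem inner_ev0 (x : V) : inner ℝ ev0 x = x 0 := by simp [ev0, EuclideanSpace.inner_single_left]

theorem corr_cos (t : ℝ) : ∃ σ : ℝ, σ ^ 2 = 1 ∧ 1 / 4 ≤ σ * Real.cos t - Real.cos (2 * t) / 4 := by
  have h1 := Real.cos_le_one t
  have h2 := Real.neg_one_le_cos t
  rw [Real.cos_two_mul]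
  rcases le_total 0 (Real.cos t) with h | h
  · exact ⟨1, by norm_num, by nlinarith⟩
  · exact ⟨-1, by norm_num, by nlinarith⟩

theorem corr_dy {P Q : P2 → V} (hP : ContDiff ℝ ∞ P) (hQ : ContDiff ℝ ∞ Q) (m : ℝ) {l : ℝ}
    (hl : l ≠ 0) (z : P2) :
    dy (fun z => (m / l) • (Real.sin (l * z.2) • P z - (Real.sin (2 * (l * z.2)) / 8) • Q z)) z =
      m • (Real.cos (l * z.2) • P z - (Real.cos (2 * (l * z.2)) / 4) • Q z) +
        (m / l) • (Real.sin (l * z.2) • dy P z - (Real.sin (2 * (l * z.2)) / 8) • dy Q z) := by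
  have h0 : HasFDerivAt (fun z : P2 => l * z.2) (l • ContinuousLinearMap.snd ℝ ℝ ℝ) z :=
    hasFDerivAt_snd.const_mul l
  have h1 := h0.sin.smul (hP.differentiable (by simp) z).hasFDerivAt
  have h2 := ((h0.const_mul 2).sin.mul_const (8 : ℝ)⁻¹).smul
    (hQ.differentiable (by simp) z).hasFDerivAt
  have h3 := ((h1.sub h2).const_smul (m / l)).fderiv
  simp only [dd, div_eq_mul_inv (Real.sin _)]
  refine (congrArg (fun T : P2 →L[ℝ] V => T (0, 1)) h3).trans ?_
  simp only [ContinuousLinearMap.smul_apply, ContinuousLinearMap.sub_apply,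
    ContinuousLinearMap.add_apply, ContinuousLinearMap.smulRight_apply,
    ContinuousLinearMap.coe_snd', smul_eq_mul]
  match_scalars <;> field_simp <;> ring

theorem corr_plane {K : Set P2} (hK : IsCompact K) {a B ξ : P2 → V} {b : P2 → ℝ}
    (ha : ∀ z ∈ K, ContDiffAt ℝ ∞ a z) (hB : ∀ z ∈ K, ContDiffAt ℝ ∞ B z)
    (hξ : ∀ z ∈ K, ContDiffAt ℝ ∞ ξ z) (hb : ContDiff ℝ ∞ b) (cb : HasCompactSupport b)
    (sb : tsupport b ⊆ K) (b0 : ∀ z, 0 ≤ b z) (B0 : ∀ z ∈ K, B z 0 = 0) (B1 : ∀ z ∈ K, B z ≠ 0)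
    (hi : ∀ z ∈ K, ∀ s t : ℝ, a z ≠ s • ev0 + t • B z) :
    ∃ w : P2 → V, ContDiff ℝ ∞ w ∧ (∀ z ∉ K, w z = 0) ∧ (∀ z, w z 0 = 0) ∧ ∀ z ∈ K, ∀ s t : ℝ,
      a z + dy w z - Real.smoothTransition (2 * b z - 1) • ξ z ≠ s • ev0 + t • B z := by
  obtain ⟨c, C', hc, -, hl⟩ := man_hom (W := ℝ × ℝ × ℝ) hK
    (Q := fun z u => ‖u.1 • a z - u.2.1 • ev0 - u.2.2 • B z‖) (n := 1) one_ne_zero
    (fun z hz u => by
      have h1 : ContinuousAt (fun p : P2 × ℝ × ℝ × ℝ => a p.1) (z, u) :=
        (ha z hz).continuousAt.comp_of_eq continuousAt_fst rfl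
      have h2 : ContinuousAt (fun p : P2 × ℝ × ℝ × ℝ => B p.1) (z, u) :=
        (hB z hz).continuousAt.comp_of_eq continuousAt_fst rfl
      fun_prop)
    (fun z hz u hu => norm_pos_iff.2 fun h => by
      obtain ⟨r, s, t⟩ := u
      by_cases hr : r = 0
      · subst hr
        have h1 := congrArg (fun x : V => x 0) h
        simp [ev0, B0 z hz] at h1
        subst h1
        simp [B1 z hz] at h
        exact hu (by simp [h])
      · refine hi z hz (r⁻¹ * s) (r⁻¹ * t) ?_
        have : r • a z = s • ev0 + t • B z := by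
          rw [← sub_eq_zero, ← sub_sub]; exact h
        rw [mul_smul, mul_smul, ← smul_add, ← this, smul_smul, inv_mul_cancel₀ hr, one_smul])
    (fun z u t ht => by
      simp only [Prod.smul_fst, Prod.smul_snd, smul_eq_mul, mul_smul, ← smul_sub, norm_smul,
        Real.norm_of_nonneg ht, pow_one])
  have hl' : ∀ z ∈ K, ∀ u : ℝ × ℝ × ℝ, 1 ≤ ‖u‖ → c ≤ ‖u.1 • a z - u.2.1 • ev0 - u.2.2 • B z‖ :=
    fun z hz u hu => le_trans (by rw [pow_one]; exact le_mul_of_one_le_right hc.le hu) (hl z hz u).1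
  obtain ⟨q, -, hg⟩ := gram.{0} 0
  have h1 : ∀ _ : Unit, (1 : ℝ) ≤ 1 := fun _ => le_rfl
  obtain ⟨e1, e2, e3, e4, r1, r2, r3, s21, s31, s32, -, -, t3, t4, -, -, -, -, hf⟩ :=
    hg (ι := Unit) (Ω := fun _ => K) (L := fun _ => 1) (b1 := fun _ _ => ev0) (b2 := fun _ => B)
      (b3 := fun _ => a) (c := c) h1 hc (PT.const h1 _) (PT.fixed h1 hK hB fun _ => Subset.rfl)
      (PT.fixed h1 hK ha fun _ => Subset.rfl)
      (fun _ z hz => by simpa using hl' z hz (0, -1, 0) (by simp))
      (fun _ z hz t => by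
        have := hl' z hz (0, t, -1) (by simp [Prod.norm_def])
        simpa [neg_add_eq_sub] using this)
      fun _ z hz t t' => by simpa using hl' z hz (1, t, t') (by simp [Prod.norm_def])
  have tb : Tame (fun _ : Unit => univ) (fun _ _ => 1) (fun _ => (1 : ℝ) ^ q) 0 fun _ => b :=
    Tame.fixed_supp t3.one_le hb cb
  have p4 := Tame.cut tb t4 (fun _ => sb) (s' := fun _ _ => 1) (fun _ _ => zero_le_one)
    fun _ _ _ => le_rfl
  have p3 := Tame.cut tb t3 (fun _ => sb) (s' := fun _ _ => 1) (fun _ _ => zero_le_one)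
    fun _ _ _ => le_rfl
  obtain ⟨C4, hC4, d4⟩ := (p4.dd (0, 1)).norm_le
  obtain ⟨C3, hC3, d3⟩ := (p3.dd (0, 1)).norm_le
  obtain ⟨C0, hC0, d0⟩ := (PT.fixed (Ω := fun _ => K) (p := 0) h1 hK hξ fun _ => Subset.rfl).norm_le
  simp only [one_pow, mul_one] at d4 d3 d0
  set m := 16 * C0 with hm
  set l := 4 * m * (C4 + C3) / c + 1 with hl0
  have lp : 0 < l := by positivity
  have bz : ∀ z ∉ K, b z = 0 := fun z hz => image_eq_zero_of_notMem_tsupport fun h => hz (sb h)
  have o3 : ∀ z ∈ K, inner ℝ (e3 () z) ev0 = (0 : ℝ) ∧ inner ℝ (e4 () z) ev0 = (0 : ℝ) :=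
    fun z hz => by
      obtain ⟨on, -, -, -, k1, -, -⟩ := hf () z hz
      rw [k1, inner_smul_right, inner_smul_right, real_inner_comm, on.h13,
        real_inner_comm, on.h14]; simp
  refine ⟨fun z => (m / l) • (Real.sin (l * z.2) • b z • e4 () z -
    (Real.sin (2 * (l * z.2)) / 8) • b z • e3 () z), ?_, fun z hz => by simp [bz z hz],
    fun z => ?_, fun z hz s t h => ?_⟩
  · have := p4.contDiff ()
    have := p3.contDiff ()
    fun_prop
  · by_cases hz : z ∈ K
    · rw [← inner_ev0]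
      beta_reduce
      rw [real_inner_comm]
      simp only [inner_smul_left, inner_sub_left, (o3 z hz).1, (o3 z hz).2]
      simp
    · simp [bz z hz]
  · rw [corr_dy (p4.contDiff ()) (p3.contDiff ()) m lp.ne'] at h
    obtain ⟨on, -, -, k0, -, k2, k3⟩ := hf () z hz
    obtain ⟨σ, hσ, hcos⟩ := corr_cos (l * z.2)
    set T := σ • e4 () z + e3 () z with hT
    have n4 : ‖e4 () z‖ = 1 := by
      have := on.h44; rw [real_inner_self_eq_norm_sq] at this; nlinarith [norm_nonneg (e4 () z)]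
    have n3 : ‖e3 () z‖ = 1 := by
      have := on.h33; rw [real_inner_self_eq_norm_sq] at this; nlinarith [norm_nonneg (e3 () z)]
    have nT : ‖T‖ ≤ 2 := by
      have : |σ| = 1 := by rw [← sq_eq_sq₀ (abs_nonneg _) zero_le_one, sq_abs]; linarith
      refine (norm_add_le _ _).trans ?_
      rw [norm_smul, n4, n3, Real.norm_eq_abs, this]; norm_num
    have i1 : inner ℝ T (e1 () z) = (0 : ℝ) := by
      rw [real_inner_comm]; simp [hT, inner_add_right, inner_smul_right, on.h13, on.h14]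
    have i2 : inner ℝ T (e2 () z) = (0 : ℝ) := by
      rw [real_inner_comm]; simp [hT, inner_add_right, inner_smul_right, on.h23, on.h24]
    have i3 : inner ℝ T (e3 () z) = (1 : ℝ) := by
      simp only [hT, inner_add_left, inner_smul_left, real_inner_comm (e3 () z) (e4 () z), on.h33,
        on.h34]; simp
    have i4 : inner ℝ T (e4 () z) = σ := by
      simp only [hT, inner_add_left, inner_smul_left, on.h44, on.h34]; simp
    have i0 : inner ℝ T ev0 = (0 : ℝ) := by
      simp [hT, inner_add_left, inner_smul_left, (o3 z hz).1, (o3 z hz).2]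
    set R := Real.sin (l * z.2) • dy (fun z => b z • e4 () z) z -
      (Real.sin (2 * (l * z.2)) / 8) • dy (fun z => b z • e3 () z) z with hR
    have nR : ‖R‖ ≤ C4 + C3 := by
      refine (norm_sub_le _ _).trans (add_le_add ?_ ?_)
      · rw [norm_smul]
        exact (mul_le_of_le_one_left (norm_nonneg _) (Real.abs_sin_le_one _)).trans
          (d4 () z (mem_univ _))
      · rw [norm_smul]
        refine (mul_le_of_le_one_left (norm_nonneg _) ?_).trans (d3 () z (mem_univ _))
        rw [Real.norm_eq_abs, abs_div]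
        have := Real.abs_sin_le_one (2 * (l * z.2))
        norm_num; linarith
    have h2 := congrArg (fun x => inner ℝ T x) h
    rw [k3, k2] at h2
    simp only [inner_add_right, inner_sub_right, inner_smul_right, i0, i1, i2, i3, i4] at h2
    have u1 : -(2 * (C4 + C3)) ≤ inner ℝ T R := (neg_le_neg
      ((abs_real_inner_le_norm _ _).trans (by gcongr))).trans (neg_abs_le _)
    have u2 : inner ℝ T (ξ z) ≤ 2 * C0 :=
      (real_inner_le_norm _ _).trans (by gcongr; exact d0 () z hz)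
    have u3 : -(c / 2) ≤ m / l * inner ℝ T R := by
      have : m / l * (2 * (C4 + C3)) ≤ c / 2 := by
        have : c * l = 4 * m * (C4 + C3) + c := by rw [hl0]; field_simp
        rw [div_mul_eq_mul_div, div_le_div_iff₀ lp two_pos, this]
        linarith
      have h5 : 0 ≤ m / l := by positivity
      nlinarith
    have u4 : Real.smoothTransition (2 * b z - 1) * inner ℝ T (ξ z) ≤ m * b z / 4 := by
      have := b0 z
      rcases le_total (b z) (1 / 2) with h' | h'
      · rw [Real.smoothTransition.zero_of_nonpos (by linarith), zero_mul]; positivity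
      · have v0 := Real.smoothTransition.nonneg (2 * b z - 1)
        have v1 := Real.smoothTransition.le_one (2 * b z - 1)
        nlinarith
    have u5 := mul_le_mul_of_nonneg_left hcos (show 0 ≤ m * b z from mul_nonneg (by positivity) (b0 z))
    simp only [one_pow, div_one] at k0
    linarith

variable {M : Type*} [TopologicalSpace M] [ChartedSpace E2 M]

/-- the state of the corrugation process -/
def CorrSt (G : M → V) (A : M → E2 →L[ℝ] V) (B G' : M → V) (χ : M → ℝ) : Prop :=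
  Sm G' ∧ fst0 G' = fst0 G ∧ Sm χ ∧ ∀ p v, v ≠ 0 → dM (fst0 G) p v = 0 → ∀ s t : ℝ,
    dM G' p v + χ p • (A p v - dM G p v) ≠ s • ev0 + t • B p

theorem corr_step [T2Space M] {G : M → V} (hG : Sm G) {A : M → E2 →L[ℝ] V} {B : M → V}
    {U S : Set M} (h : FormalSol G A B U) (At : Atl M S) (k : Fin At.n)
    (hk : (At.e k).Adapt (fst0 G)) {G' : M → V} {χ : M → ℝ} (hs : CorrSt G A B G' χ) :
    ∃ G'', CorrSt G A B G'' fun p => (1 - Real.smoothTransition (2 * At.bM k p - 1)) * χ p := by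
  obtain ⟨s1, s2, s3, s4⟩ := hs
  set e := At.e k with he
  have sub := At.sub0 k
  set ξ : P2 → V := fun z => e.rep χ z • (A (e.inv z) (e.pull z (0, 1)) - dy (e.rep G) z) with hξ
  have sξ : ∀ z ∈ At.K0 k, ContDiffAt ℝ ∞ ξ z := fun z hz =>
    (e.contDiffAt_rep s3 (sub hz)).smul ((h.smA e _ z (sub hz)).sub
      (ContDiffAt_dd (e.contDiffAt_rep hG (sub hz)) _))
  obtain ⟨w, w1, w2, w3, w4⟩ := corr_plane (At.cK0 k) (a := fun z => dy (e.rep G') z + ξ z)
    (B := e.rep B) (ξ := ξ)
    (fun z hz => (ContDiffAt_dd (e.contDiffAt_rep s1 (sub hz)) _).add (sξ z hz))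
    (fun z hz => e.contDiffAt_rep h.smB (sub hz)) sξ (At.smb k) (At.b_supp k)
    ((closure_mono fun z hz => by
      simp [At.bt_one k z hz]).trans ((At.supp k).trans interior_subset))
    (fun z => (At.memb k z).1) (fun z _ => h.B00 _) (fun z _ => h.B0 _) (fun z hz s t => by
      have := s4 (e.inv z) (e.pull z (0, 1)) (fun h0 => by
        have := e.push_pull (sub hz) (0, 1)
        rw [h0, map_zero] at this
        simpa using congrArg Prod.snd this) (by
          rw [hk.push e (e.inv_mem (sub hz)), e.push_pull (sub hz)]) s t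
      simpa only [hξ, dd, e.fderiv_rep s1 (sub hz), e.fderiv_rep hG (sub hz), Chart.rep] using this)
  have sw : Sm (e.ext w) := e.sm_ext (At.cK0 k) sub w2 fun z _ => w1.contDiffAt
  refine ⟨fun p => G' p + e.ext w p, s1.add sw, ?_, ((Sm.const 1).sub
    ((((Sm.const 2).mul (At.sm_bM k)).sub (Sm.const 1)).outer fun _ =>
      Real.smoothTransition.contDiff.contDiffAt)).mul s3, fun p v hv h0 s t => ?_⟩
  · rw [← s2]
    funext p
    by_cases hp : p ∈ e.source
    · simp [fst0, e.ext_of_mem _ hp, w3]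
    · simp [fst0, e.ext_of_not_mem _ hp]
  · rw [dM_add s1 sw]
    by_cases hp : p ∈ e.inv '' At.K0 k
    · obtain ⟨hp, hz⟩ := (e.mem_inv_image sub).1 hp
      rw [hk.push e hp] at h0
      set m := (e.push p v).2
      have e1 : e.push p v = m • ((0, 1) : P2) := by ext <;> simp [h0, m]
      have e2 : v = m • e.pull (e.to p) (0, 1) := by rw [← map_smul, ← e1, e.pull_push hp]
      have m0 : m ≠ 0 := fun h' => hv (by rw [e2, h', zero_smul])
      intro h'
      refine w4 _ hz (m⁻¹ * s) (m⁻¹ * t) ?_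
      rw [e.rep_to _ hp, mul_smul, mul_smul, ← smul_add, ← h', ContinuousLinearMap.add_apply,
        e.dM_ext hp w1.contDiffAt, e.dM_eq s1 hp, e.dM_eq hG hp, e1]
      simp only [hξ, dd, e.rep_to _ hp, e.inv_to hp, Atl.bM, ← he, e.ext_of_mem _ hp, map_smul]
      conv_rhs => rw [e2, map_smul]
      match_scalars <;> field_simp <;> ring
    · have b0 : At.bM k p = 0 := by
        by_cases hq : p ∈ e.source
        · rw [Atl.bM, e.ext_of_mem _ hq]
          exact At.b_zero k fun hz => hp ((e.mem_inv_image sub).2 ⟨hq, hz⟩)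
        · exact e.ext_of_not_mem _ hq
      beta_reduce
      rw [e.dM_ext_zero (At.cK0 k) sub w2 hp, add_zero, b0,
        Real.smoothTransition.zero_of_nonpos (by norm_num), sub_zero, one_mul]
      exact s4 p v hv h0 s t

theorem corrugate [T2Space M] [CompactSpace M] [IsManifold (𝓡 2) ∞ M] (g : Met M) {G : M → V}
    (hG : Sm G) {A : M → E2 →L[ℝ] V} {B : M → V} {U : Set M} (h : FormalSol G A B U) :
    ∃ G' : M → V, Sm G' ∧ fst0 G' = fst0 G ∧
      ∀ p v, v ≠ 0 → dM (fst0 G) p v = 0 → ∀ t : ℝ, dM G' p v ≠ t • B p := by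
  have hφ : Sm (fst0 G) := hG.outer (Φ := fun x : V => x 0) fun _ =>
    (EuclideanSpace.proj (0 : Fin 4) : V →L[ℝ] ℝ).contDiff.contDiffAt
  obtain ⟨At, hA⟩ := exists_atl (S := Uᶜ) h.opn.isClosed_compl (fun e => e.Adapt (fst0 G))
    fun p hp => (exists_phi g hφ fun h0 => hp (h.crit p h0)).imp fun e he => ⟨he.1, he.2.1⟩
  have key : ∀ T : Finset (Fin At.n), ∃ G' χ, CorrSt G A B G' χ ∧
      ∀ k ∈ T, ∀ p, At.bM k p = 1 → χ p = 0 := fun T => by
    induction T using Finset.induction_on with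
    | empty => exact ⟨G, fun _ => 1, ⟨hG, rfl, Sm.const 1, fun p v hv h0 s t => by
        simpa using h.ind p v hv h0 s t⟩, by simp⟩
    | insert k T _ ih =>
      obtain ⟨G', χ, h1, h2⟩ := ih
      obtain ⟨G'', h3⟩ := corr_step hG h At k (hA k) h1
      refine ⟨G'', _, h3, fun l hl p hp => ?_⟩
      rcases Finset.mem_insert.1 hl with rfl | hl
      · rw [hp, Real.smoothTransition.one_of_one_le (by norm_num), sub_self, zero_mul]
      · rw [h2 l hl p hp, mul_zero]
  obtain ⟨G', χ, ⟨s1, s2, -, s4⟩, h2⟩ := key Finset.univ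
  refine ⟨G', s1, s2, fun p v hv h0 t => ?_⟩
  have := s4 p v hv h0 0 t
  by_cases hp : p ∈ U
  · simpa [h.hol p hp] using this
  · obtain ⟨k, k1, -, k2⟩ := At.cover0 hp
    simpa [h2 k (Finset.mem_univ _) p (by rw [Atl.bM, Chart.ext_of_mem _ _ k1, k2])] using this

end Vale.Agent.Iso4
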