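import Mathlib

/-! Basic definitions for the isometric immersion of closed surfaces into four-space. -/

open scoped ContDiff Topology Manifold
open Set Filter

noncomputable section
namespace Vale.Agent.Iso4

/-- the chart plane -/
abbrev P2 := ℝ × ℝ
/-- chart plane times phase -/
abbrev P3 := P2 × ℝ
/-- the target space -/
abbrev V := EuclideanSpace ℝ (Fin 4)
/-- the model space -/
abbrev E2 := EuclideanSpace ℝ (Fin 2)

section Tame
variable {ι : Type*} {E X : Type} [NormedAddCommGroup E] [NormedSpace ℝ E]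
  [NormedAddCommGroup X] [NormedSpace ℝ X]

/-- A family of functions, smooth at the points of `Ω i`, whose derivatives of order `m` are
bounded there by a constant times `s i z * μ i ^ (k + m)`. -/
structure Tame (Ω : ι → Set E) (s : ι → E → ℝ) (μ : ι → ℝ) (k : ℕ) (f : ι → E → X) : Prop where
  one_le : ∀ i, 1 ≤ μ i
  smooth : ∀ i, ∀ z ∈ Ω i, ContDiffAt ℝ ∞ (f i) z
  bound : ∀ m : ℕ, ∃ C : ℝ, 0 ≤ C ∧ ∀ i, ∀ z ∈ Ω i,
    ‖iteratedFDeriv ℝ m (f i) z‖ ≤ C * (s i z * μ i ^ (k + m))

/-- Polynomially tame: size and scale `L ^ p`. -/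
abbrev PT (Ω : ι → Set E) (L : ι → ℝ) (p : ℕ) (f : ι → E → X) : Prop :=
  Tame Ω (fun _ _ => 1) (fun i => L i ^ p) 1 f

/-- directional derivative -/
def dd (v : E) (f : E → X) : E → X := fun z => fderiv ℝ f z v

/-- second derivative -/
def d2 (f : E → X) (z v w : E) : X := fderiv ℝ (fderiv ℝ f) z v w

/-- the vector `x` is at distance at least `κ` from the range of `T` -/
def Tr (κ : ℝ) (x : X) (T : E →L[ℝ] X) : Prop := ∀ u, κ ≤ ‖x - T u‖

/-- quantitative injectivity -/
def Imm (κ : ℝ) (T : E →L[ℝ] X) : Prop := ∀ u, κ * ‖u‖ ≤ ‖T u‖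

end Tame

section Per
variable {X : Type} [NormedAddCommGroup X] [NormedSpace ℝ X]

/-- first coordinate derivative -/
abbrev dx (f : P2 → X) : P2 → X := dd ((1, 0) : P2) f
/-- second coordinate derivative -/
abbrev dy (f : P2 → X) : P2 → X := dd ((0, 1) : P2) f
/-- first direction -/
def ex : P3 := ((1, 0), 0)
/-- second direction -/
def ey : P3 := ((0, 1), 0)
/-- phase direction -/
def et : P3 := ((0, 0), 1)

/-- periodic in the phase -/
def Per (f : P3 → X) : Prop := ∀ z, f (z + (2 * Real.pi) • et) = f z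

/-- mean over the phase -/
def mean (f : P3 → X) : P3 → X :=
  fun z => (2 * Real.pi)⁻¹ • ∫ s in (0 : ℝ)..2 * Real.pi, f (z + s • et)

/-- primitive in the phase with mean zero -/
def prim (f : P3 → X) : P3 → X :=
  fun z => (2 * Real.pi)⁻¹ • ∫ s in (0 : ℝ)..2 * Real.pi, (s - Real.pi) • f (z + s • et)

/-- the tube over a set -/
def tube (S : Set P2) : Set P3 := {z | z.1 ∈ S}

end Per

/-- A bump equal to one on the closed ball of radius `r` and vanishing outside the ball of radius
`R` (sup norm). -/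
def bmp (r R : ℝ) : P2 → ℝ :=
  if h : 0 < r ∧ r < R then (⟨r, R, h.1, h.2⟩ : ContDiffBump (0 : P2)) else 0

section Man
variable {X : Type} [NormedAddCommGroup X] [NormedSpace ℝ X]

/-- smooth charts into the plane -/
structure Chart (M : Type*) [TopologicalSpace M] [ChartedSpace E2 M] extends
    OpenPartialHomeomorph M P2 where
  sm : ContMDiffOn (𝓡 2) 𝓘(ℝ, P2) ∞ toFun source
  sm' : ContMDiffOn 𝓘(ℝ, P2) (𝓡 2) ∞ invFun target

variable {M : Type*} [TopologicalSpace M] [ChartedSpace E2 M]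

/-- the chart map -/
def Chart.to (e : Chart M) (p : M) : P2 := e.toOpenPartialHomeomorph p
/-- the inverse of the chart map -/
def Chart.inv (e : Chart M) (z : P2) : M := e.toOpenPartialHomeomorph.symm z

/-- smooth functions on the surface -/
def Sm (f : M → X) : Prop := ContMDiff (𝓡 2) 𝓘(ℝ, X) ∞ f

/-- differential -/
def dM (f : M → X) (p : M) : E2 →L[ℝ] X := mfderiv (𝓡 2) 𝓘(ℝ, X) f p

/-- differential of the chart -/
def Chart.push (e : Chart M) (p : M) : E2 →L[ℝ] P2 := dM e.to p
/-- differential of the inverse chart -/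
def Chart.pull (e : Chart M) (z : P2) : P2 →L[ℝ] E2 := mfderiv 𝓘(ℝ, P2) (𝓡 2) e.inv z

/-- a function read in a chart -/
def Chart.rep {Y : Type*} (e : Chart M) (f : M → Y) : P2 → Y := fun z => f (e.inv z)

open Classical in
/-- extension by zero -/
def Chart.ext {Y : Type*} [Zero Y] (e : Chart M) (w : P2 → Y) : M → Y :=
  fun p => if p ∈ e.source then w (e.to p) else 0

/-- Riemannian metrics, with smoothness read in charts -/
structure Met (M : Type*) [TopologicalSpace M] [ChartedSpace E2 M] where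
  /-- the scalar product -/
  G : M → E2 →L[ℝ] E2 →L[ℝ] ℝ
  symm : ∀ p u w, G p u w = G p w u
  pos : ∀ p u, u ≠ 0 → 0 < G p u u
  smooth : ∀ (e : Chart M) (u w : P2),
    ContDiffOn ℝ ∞ (fun z => G (e.inv z) (e.pull z u) (e.pull z w)) e.target

/-- the quadratic form -/
def Met.q (g : Met M) (p : M) (u : E2) : ℝ := g.G p u u
/-- the metric in a chart -/
def Met.cf (g : Met M) (e : Chart M) (u w : P2) (z : P2) : ℝ :=
  g.G (e.inv z) (e.pull z u) (e.pull z w)

/-- tame families on the surface -/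
structure TameM {ι : Type*} (s μ : ι → ℝ) (k : ℕ) (f : ι → M → X) : Prop where
  one_le : ∀ i, 1 ≤ μ i
  nonneg : ∀ i, 0 ≤ s i
  smooth : ∀ i, Sm (f i)
  tame : ∀ (e : Chart M) (K : Set P2), IsCompact K → K ⊆ e.target →
    Tame (fun _ => K) (fun i _ => s i) μ k fun i => e.rep (f i)

/-- finite families of charts with bump functions covering a set -/
structure Atl (M : Type*) [TopologicalSpace M] [ChartedSpace E2 M] (S : Set M) where
  /-- number of charts -/
  n : ℕ
  /-- the charts -/
  e : Fin n → Chart M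
  /-- inner bumps -/
  b : Fin n → P2 → ℝ
  /-- outer bumps -/
  bt : Fin n → P2 → ℝ
  /-- inner compact sets -/
  K0 : Fin n → Set P2
  /-- outer compact sets -/
  K1 : Fin n → Set P2
  smb : ∀ k, ContDiff ℝ ∞ (b k)
  smbt : ∀ k, ContDiff ℝ ∞ (bt k)
  memb : ∀ k z, b k z ∈ Icc (0 : ℝ) 1
  membt : ∀ k z, bt k z ∈ Icc (0 : ℝ) 1
  bt_one : ∀ k z, b k z ≠ 0 → bt k z = 1
  supp : ∀ k, tsupport (bt k) ⊆ interior (K0 k)
  cK0 : ∀ k, IsCompact (K0 k)
  cK1 : ∀ k, IsCompact (K1 k)
  sub01 : ∀ k, K0 k ⊆ interior (K1 k)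
  sub1 : ∀ k, K1 k ⊆ (e k).target
  cover : ∀ p ∈ S, ∃ k, p ∈ (e k).source ∧ b k ((e k).to p) = 1

/-- the second order operator along the second coordinate lines of an atlas -/
def Atl.D {S : Set M} (A : Atl M S) (F : M → X) : M → X :=
  fun p => ∑ k, (A.e k).ext (fun z => A.b k z • dy (dy ((A.e k).rep F)) z) p

/-- the first coordinate of the chart is `φ` -/
def Chart.Adapt (e : Chart M) (φ : M → ℝ) : Prop := ∀ p ∈ e.source, (e.to p).1 = φ p

end Man

end Vale.Agent.Iso4
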