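import Vale.Agent.Iso4.Deg2A

/-! Parity of the number of preimages under compactly supported changes. -/

open scoped ContDiff Topology Manifold
open Set Filter MeasureTheory

namespace Vale.Agent.Iso4

theorem deg_finite {E Y : Type} [NormedAddCommGroup E] [NormedSpace ℝ E] [FiniteDimensional ℝ E]
    [NormedAddCommGroup Y] [NormedSpace ℝ Y] [FiniteDimensional ℝ Y]
    (hd : Module.finrank ℝ E = Module.finrank ℝ Y)
    {U K : Set E} (hU : IsOpen U) (hK : IsCompact K) (hKU : K ⊆ U) {f : E → Y}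
    (hf : ContDiffOn ℝ ∞ f U) {y : Y}
    (hfy : ∀ x ∈ U, f x = y → Function.Injective (fderiv ℝ f x)) : {x ∈ K | f x = y}.Finite := by
  have hl : ∀ z ∈ K, f z = y → (∃ V ∈ 𝓝 z, InjOn f V) ∧ map f (𝓝 z) = 𝓝 (f z) := fun z hz e =>
    deg_loc hd ((hf.contDiffAt (hU.mem_nhds (hKU hz))).of_le (by exact_mod_cast le_top))
      (hfy z (hKU hz) e)
  choose! V hV using fun z hz e => (hl z hz e).1
  exact (deg_sheets hK (hf.continuousOn.mono hKU) V fun z hz e =>
    ⟨(hV z hz e).1, (hV z hz e).2, by rw [(hl z hz e).2, e]⟩).1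

theorem deg_extend {E Y : Type} [NormedAddCommGroup E] [NormedSpace ℝ E] [FiniteDimensional ℝ E]
    [NormedAddCommGroup Y] [NormedSpace ℝ Y] {U K : Set E} (hU : IsOpen U) (hK : IsCompact K)
    (hKU : K ⊆ U) {f : E → Y} (hf : ContDiffOn ℝ ∞ f U) :
    ∃ F : E → Y, ContDiff ℝ ∞ F ∧ ∀ x ∈ K, F =ᶠ[𝓝 x] f := by
  obtain ⟨χ, h0, h1, -⟩ := exists_contMDiffMap_zero_one_nhds_of_isClosed (n := ⊤) 𝓘(ℝ, E)
    hU.isClosed_compl hK.isClosed (disjoint_compl_left_iff_subset.2 hKU)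
  have hχ : ContDiff ℝ ∞ χ := χ.contMDiff.contDiff
  refine ⟨fun x => χ x • f x, contDiff_iff_contDiffAt.2 fun x => ?_, fun x hx => ?_⟩
  · by_cases hx : x ∈ U
    · exact hχ.contDiffAt.smul (hf.contDiffAt (hU.mem_nhds hx))
    · refine (contDiffAt_const (c := (0 : Y))).congr_of_eventuallyEq ?_
      filter_upwards [h0.filter_mono (nhds_le_nhdsSet hx)] with y hy
      simp [hy]
  · filter_upwards [h1.filter_mono (nhds_le_nhdsSet hx)] with y hy
    simp [hy]

theorem parity_self {E : Type} [NormedAddCommGroup E] [NormedSpace ℝ E] [FiniteDimensional ℝ E]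
    {U K : Set E} (hU : IsOpen U) (hK : IsCompact K) (hKU : K ⊆ U) {f g : E → E}
    (hf : ContDiffOn ℝ ∞ f U) (hg : ContDiffOn ℝ ∞ g U) (hfg : ∀ x ∈ U, x ∉ K → f x = g x) {y : E}
    (hfy : ∀ x ∈ U, f x = y → Function.Injective (fderiv ℝ f x))
    (hgy : ∀ x ∈ U, g x = y → Function.Injective (fderiv ℝ g x)) :
    (Even {x ∈ K | f x = y}.ncard ↔ Even {x ∈ K | g x = y}.ncard) := by
  borelize E
  obtain ⟨K1, hK1, hKK1, hK1U⟩ := exists_compact_between hK hU hKU
  have hfin := (deg_finite rfl hU hK1 hK1U hf hfy).subset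
    (show {x ∈ K1 | f x = y} \ K ⊆ _ from sdiff_subset)
  obtain ⟨K2, hK2, hKK2, hK2U⟩ := exists_compact_between hK
    (isOpen_interior.sdiff hfin.isClosed) (fun x hx => ⟨hKK1 hx, fun h => h.2 hx⟩)
  have hK21 : K2 ⊆ K1 := fun x hx => interior_subset (hK2U hx).1
  have hK2U' : K2 ⊆ U := hK21.trans hK1U
  have hno : ∀ x ∈ K2, x ∉ K → f x ≠ y := fun x hx hxK e => (hK2U hx).2 ⟨⟨hK21 hx, e⟩, hxK⟩
  obtain ⟨F, hF, hFf⟩ := deg_extend hU hK2 hK2U' hf
  obtain ⟨G, hG, hGg⟩ := deg_extend hU hK2 hK2U' hg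
  have eF : {x ∈ K2 | F x = y} = {x ∈ K | f x = y} := by
    ext x
    constructor
    · rintro ⟨h1, h2⟩
      rw [(hFf x h1).eq_of_nhds] at h2
      exact ⟨by_contra fun h => hno x h1 h h2, h2⟩
    · rintro ⟨h1, h2⟩
      have := interior_subset (hKK2 h1)
      exact ⟨this, (hFf x this).eq_of_nhds.trans h2⟩
  have eG : {x ∈ K2 | G x = y} = {x ∈ K | g x = y} := by
    ext x
    constructor
    · rintro ⟨h1, h2⟩
      rw [(hGg x h1).eq_of_nhds] at h2
      exact ⟨by_contra fun h => hno x h1 h ((hfg x (hK2U' h1) h).trans h2), h2⟩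
    · rintro ⟨h1, h2⟩
      have := interior_subset (hKK2 h1)
      exact ⟨this, (hGg x this).eq_of_nhds.trans h2⟩
  obtain ⟨s, hs, N, hN, hsN⟩ := deg_sum Measure.addHaar hK2 (hF.of_le (by exact_mod_cast le_top))
    (y := y) fun x hx e => by
      have h1 : x ∈ {x ∈ K | f x = y} := eF ▸ (show x ∈ {x ∈ K2 | F x = y} from ⟨hx, e⟩)
      rw [(hFf x hx).fderiv_eq]
      exact ⟨hKK2 h1.1, hfy x (hKU h1.1) h1.2⟩
  obtain ⟨s', hs', N', hN', hsN'⟩ := deg_sum Measure.addHaar hK2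
    (hG.of_le (by exact_mod_cast le_top)) (y := y) fun x hx e => by
      have h1 : x ∈ {x ∈ K | g x = y} := eG ▸ (show x ∈ {x ∈ K2 | G x = y} from ⟨hx, e⟩)
      rw [(hGg x hx).fderiv_eq]
      exact ⟨hKK2 h1.1, hgy x (hKU h1.1) h1.2⟩
  have hc := (hK2.diff (isOpen_interior (s := K2))).image hF.continuous
  have hy : y ∉ F '' (K2 \ interior K2) := by
    rintro ⟨x, hx, e⟩
    rw [(hFf x hx.1).eq_of_nhds] at e
    exact hno x hx.1 (fun h => hx.2 (hKK2 h)) e
  obtain ⟨ψ, hψs, hψc, hψ, hψ01, hψ1⟩ := exists_contDiff_tsupport_subset (n := 1)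
    (inter_mem (inter_mem hN hN') (hc.isClosed.isOpen_compl.mem_nhds hy))
  have key := deg_int Measure.addHaar (fun p : ℝ × E => F p.2 + p.1 • (G p.2 - F p.2))
    (by
      have h1 : ContDiff ℝ 2 F := contDiff_infty.1 hF 2
      have h2 : ContDiff ℝ 2 G := contDiff_infty.1 hG 2
      fun_prop) isOpen_interior hK2 interior_subset hψ (by
      intro t _ x hx hx' h
      have e : G x = F x := by
        rw [(hFf x hx).eq_of_nhds, (hGg x hx).eq_of_nhds,
          hfg x (hK2U' hx) fun h => hx' (hKK2 h)]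
      simp only [e, sub_self, smul_zero, add_zero] at h
      exact (hψs h).2 ⟨x, ⟨hx, hx'⟩, rfl⟩)
  simp only [zero_smul, add_zero, one_smul, add_sub_cancel] at key
  rw [hsN ψ hψ.continuous fun x hx => (hψs (subset_tsupport _ hx)).1.1,
    hsN' ψ hψ.continuous fun x hx => (hψs (subset_tsupport _ hx)).1.2] at key
  have hpos := hψ.continuous.integral_pos_of_hasCompactSupport_nonneg_nonzero
    (μ := Measure.addHaar) hψc (fun z => (hψ01 ⟨z, rfl⟩).1) (x := y) (by simp [hψ1])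
  have : s = s' := by exact_mod_cast mul_right_cancel₀ hpos.ne' key
  rw [← eF, ← eG, ← hs, ← hs', this]

theorem parity_local {E Y : Type} [NormedAddCommGroup E] [NormedSpace ℝ E] [FiniteDimensional ℝ E]
    [NormedAddCommGroup Y] [NormedSpace ℝ Y] [FiniteDimensional ℝ Y]
    (hd : Module.finrank ℝ E = Module.finrank ℝ Y) (h0 : 0 < Module.finrank ℝ E)
    {U K : Set E} (hU : IsOpen U) (hK : IsCompact K) (hKU : K ⊆ U) {f g : E → Y}
    (hf : ContDiffOn ℝ ∞ f U) (hg : ContDiffOn ℝ ∞ g U) (hfg : ∀ x ∈ U, x ∉ K → f x = g x) {y : Y}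
    (hfy : ∀ x ∈ U, f x = y → Function.Injective (fderiv ℝ f x))
    (hgy : ∀ x ∈ U, g x = y → Function.Injective (fderiv ℝ g x)) :
    (Even {x ∈ K | f x = y}.ncard ↔ Even {x ∈ K | g x = y}.ncard) := by
  have _ := h0
  let e : Y ≃L[ℝ] E := ContinuousLinearEquiv.ofFinrankEq hd.symm
  have hr : ∀ {f : E → Y}, (∀ x ∈ U, f x = y → Function.Injective (fderiv ℝ f x)) →
      ∀ x ∈ U, (e ∘ f) x = e y → Function.Injective (fderiv ℝ (e ∘ f) x) := by
    intro f h x hx h1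
    rw [e.comp_fderiv]
    exact e.injective.comp (h x hx (e.injective h1))
  have := parity_self hU hK hKU (e.contDiff.comp_contDiffOn hf) (e.contDiff.comp_contDiffOn hg)
    (fun x hx hx' => congrArg e (hfg x hx hx')) (hr hfy) (hr hgy)
  simpa only [Function.comp_apply, e.injective.eq_iff] using this

end Vale.Agent.Iso4
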