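import Vale.Agent.Lib.Degree

/-! Sheets over a regular value, and the degree integral. -/

open scoped ContDiff Topology
open Set Filter MeasureTheory

namespace Vale.Agent.Iso4

theorem deg_sheets {X Y : Type*} [TopologicalSpace X] [T2Space X] [TopologicalSpace Y] [T2Space Y]
    {K : Set X} (hK : IsCompact K) {f : X → Y} (hf : ContinuousOn f K) {y : Y} (V : X → Set X)
    (hV : ∀ z ∈ K, f z = y → V z ∈ 𝓝 z ∧ InjOn f (V z) ∧ 𝓝 y ≤ map f (𝓝 z)) :
    {z ∈ K | f z = y}.Finite ∧ ∃ W : X → Set X,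
      (∀ z ∈ K, f z = y → IsOpen (W z) ∧ z ∈ W z ∧ W z ⊆ V z) ∧
      {z ∈ K | f z = y}.PairwiseDisjoint W ∧
      ∀ᶠ y' in 𝓝 y, (∀ z ∈ K, f z = y → y' ∈ f '' W z) ∧
        ∀ x ∈ K, f x = y' → ∃ z ∈ K, f z = y ∧ x ∈ W z := by
  have hZ : IsCompact {z ∈ K | f z = y} :=
    hK.of_isClosed_subset (hf.preimage_isClosed_of_isClosed hK.isClosed isClosed_singleton)
      fun _ h => h.1
  have hfin : {z ∈ K | f z = y}.Finite := by
    obtain ⟨t, ht, hcov⟩ := hZ.elim_nhds_subcover V fun z hz => (hV z hz.1 hz.2).1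
    refine t.finite_toSet.subset fun x hx => ?_
    obtain ⟨z, hz, hxz⟩ := mem_iUnion₂.1 (hcov hx)
    have h1 := hV z (ht z hz).1 (ht z hz).2
    rw [h1.2.1 hxz (mem_of_mem_nhds h1.1) (hx.2.trans (ht z hz).2.symm)]
    exact hz
  obtain ⟨O, hO, hOd⟩ := hfin.t2_separation
  let W : X → Set X := fun z => O z ∩ interior (V z)
  have hW : ∀ z ∈ K, f z = y → IsOpen (W z) ∧ z ∈ W z ∧ W z ⊆ V z := fun z hz e =>
    ⟨(hO z).2.inter isOpen_interior, ⟨(hO z).1, mem_interior_iff_mem_nhds.2 (hV z hz e).1⟩,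
      inter_subset_right.trans interior_subset⟩
  refine ⟨hfin, W, hW, hOd.mono fun _ => inter_subset_left, Eventually.and ?_ ?_⟩
  · have := (hfin.eventually_all (l := 𝓝 y) (p := fun z y' => y' ∈ f '' W z)).2 fun z hz =>
      (hV z hz.1 hz.2).2.2 (image_mem_map ((hW z hz.1 hz.2).1.mem_nhds (hW z hz.1 hz.2).2.1))
    exact this.mono fun y' h z hz e => h z ⟨hz, e⟩
  · have ho : IsOpen (⋃ z ∈ {z ∈ K | f z = y}, W z) :=
      isOpen_biUnion fun z hz => (hW z hz.1 hz.2).1
    have hc := (hK.diff ho).image_of_continuousOn (hf.mono sdiff_subset)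
    have hy : y ∉ f '' (K \ ⋃ z ∈ {z ∈ K | f z = y}, W z) := by
      rintro ⟨x, hx, e⟩
      exact hx.2 (mem_biUnion (show x ∈ {z ∈ K | f z = y} from ⟨hx.1, e⟩) (hW x hx.1 e).2.1)
    filter_upwards [hc.isClosed.isOpen_compl.mem_nhds hy] with y' hy' x hx e
    by_contra hcon
    refine hy' ⟨x, ⟨hx, fun h => hcon ?_⟩, e⟩
    obtain ⟨z, hz, hxz⟩ := mem_iUnion₂.1 h
    exact ⟨z, hz.1, hz.2, hxz⟩

theorem deg_loc {E Y : Type*} [NormedAddCommGroup E] [NormedSpace ℝ E] [FiniteDimensional ℝ E]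
    [NormedAddCommGroup Y] [NormedSpace ℝ Y] [FiniteDimensional ℝ Y]
    (hd : Module.finrank ℝ E = Module.finrank ℝ Y) {f : E → Y} {z : E} (hf : ContDiffAt ℝ 1 f z)
    (hi : Function.Injective (fderiv ℝ f z)) :
    (∃ V ∈ 𝓝 z, InjOn f V) ∧ map f (𝓝 z) = 𝓝 (f z) := by
  have : CompleteSpace E := FiniteDimensional.complete ℝ E
  let e : E ≃L[ℝ] Y := (LinearMap.linearEquivOfInjective (fderiv ℝ f z).toLinearMap hi
    hd).toContinuousLinearEquiv
  have h : HasStrictFDerivAt f (e : E →L[ℝ] Y) z := by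
    have e1 : (e : E →L[ℝ] Y) = fderiv ℝ f z := by
      ext v
      simp [e]
    rw [e1]
    exact hf.hasStrictFDerivAt (by simp)
  exact ⟨⟨_, (h.toOpenPartialHomeomorph f).open_source.mem_nhds
    h.mem_toOpenPartialHomeomorph_source, (h.toOpenPartialHomeomorph f).injOn⟩,
    h.map_nhds_eq_of_equiv⟩

variable {E : Type} [NormedAddCommGroup E] [NormedSpace ℝ E] [FiniteDimensional ℝ E]
  [MeasurableSpace E] [BorelSpace E] (μ : Measure E) [μ.IsAddHaarMeasure]

theorem deg_sum {K : Set E} (hK : IsCompact K) {f : E → E} (hf : ContDiff ℝ 1 f) {y : E}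
    (hy : ∀ x ∈ K, f x = y → x ∈ interior K ∧ Function.Injective (fderiv ℝ f x)) :
    ∃ s : ℤ, (Even s ↔ Even {x ∈ K | f x = y}.ncard) ∧ ∃ N ∈ 𝓝 y, ∀ ψ : E → ℝ, Continuous ψ →
      Function.support ψ ⊆ N →
      ∫ x in interior K, ψ (f x) * (fderiv ℝ f x).det ∂μ = s * ∫ y, ψ y ∂μ := by
  classical
  have hdc : Continuous fun x => (fderiv ℝ f x).det :=
    ContinuousLinearMap.continuous_det.comp (hf.continuous_fderiv (by simp))
  let sg : E → ℤ := fun z => if 0 < (fderiv ℝ f z).det then 1 else -1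
  have hloc : ∀ z ∈ K, f z = y → ∃ V ∈ 𝓝 z, InjOn f V ∧ V ⊆ interior K ∧
      ∀ x ∈ V, (fderiv ℝ f x).det = sg z * |(fderiv ℝ f x).det| := by
    intro z hz e
    obtain ⟨⟨V, hV, hi⟩, -⟩ := deg_loc rfl hf.contDiffAt (hy z hz e).2
    have hne : (fderiv ℝ f z).det ≠ 0 := by
      intro h
      have := LinearMap.bot_lt_ker_of_det_eq_zero h
      rw [LinearMap.ker_eq_bot.2 (hy z hz e).2] at this
      exact lt_irrefl _ this
    have h2 : ∀ᶠ x in 𝓝 z, (fderiv ℝ f x).det = sg z * |(fderiv ℝ f x).det| := by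
      by_cases hp : 0 < (fderiv ℝ f z).det
      · filter_upwards [hdc.continuousAt.eventually (lt_mem_nhds hp)] with x hx
        simp [sg, hp, abs_of_pos hx]
      · have hn : (fderiv ℝ f z).det < 0 := lt_of_le_of_ne (not_lt.1 hp) hne
        filter_upwards [hdc.continuousAt.eventually (gt_mem_nhds hn)] with x hx
        simp [sg, hp, abs_of_neg hx]
    exact ⟨_, inter_mem hV (inter_mem (isOpen_interior.mem_nhds (hy z hz e).1) h2),
      hi.mono inter_subset_left, fun x hx => hx.2.1, fun x hx => hx.2.2⟩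
  choose! V hV using hloc
  obtain ⟨hfin, W, hW, hWd, hev⟩ := deg_sheets hK hf.continuous.continuousOn V
    fun z hz e => ⟨(hV z hz e).1, (hV z hz e).2.1, by
      rw [(deg_loc rfl hf.contDiffAt (hy z hz e).2).2, e]⟩
  refine ⟨∑ z ∈ hfin.toFinset, sg z, ?_, _, hev, fun ψ hψ hs => ?_⟩
  · rw [ncard_eq_toFinset_card _ hfin]
    induction hfin.toFinset using Finset.induction_on with
    | empty => simp
    | insert a t ha ih =>
      rw [Finset.sum_insert ha, Finset.card_insert_of_notMem ha, Nat.even_add_one, ← ih,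
        Int.even_add]
      have : ¬ Even (sg a) := by
        simp only [sg]
        split_ifs <;> decide
      tauto
  · have hm : ∀ z ∈ hfin.toFinset, z ∈ K ∧ f z = y := fun z hz => hfin.mem_toFinset.1 hz
    have hc : Continuous fun x => ψ (f x) * (fderiv ℝ f x).det :=
      (hψ.comp hf.continuous).mul hdc
    have hsub : ∀ z ∈ hfin.toFinset, W z ⊆ interior K := fun z hz =>
      (hW z (hm z hz).1 (hm z hz).2).2.2.trans (hV z (hm z hz).1 (hm z hz).2).2.2.1
    rw [setIntegral_eq_of_subset_of_forall_sdiff_eq_zero isOpen_interior.measurableSet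
      (iUnion₂_subset hsub) ?_, integral_biUnion_finset _
      (fun z hz => (hW z (hm z hz).1 (hm z hz).2).1.measurableSet)
      (by rw [Finite.coe_toFinset]; exact hWd)
      (fun z hz => (hc.continuousOn.integrableOn_compact hK).mono_set
        ((hsub z hz).trans interior_subset))]
    · push_cast
      rw [Finset.sum_mul]
      refine Finset.sum_congr rfl fun z hz => ?_
      obtain ⟨h1, h2, h3⟩ := hW z (hm z hz).1 (hm z hz).2
      obtain ⟨-, h4, -, h5⟩ := hV z (hm z hz).1 (hm z hz).2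
      rw [← setIntegral_eq_integral_of_forall_compl_eq_zero (f := ψ) (s := f '' W z) fun x hx => by
          by_contra h
          exact hx ((hs h).1 z (hm z hz).1 (hm z hz).2),
        integral_image_eq_integral_abs_det_fderiv_smul μ h1.measurableSet
          (fun x _ => (hf.differentiable (by simp) x).hasFDerivAt.hasFDerivWithinAt)
          (h4.mono h3), ← integral_const_mul]
      refine setIntegral_congr_fun h1.measurableSet fun x hx => ?_
      simp only [smul_eq_mul]
      conv_lhs => rw [h5 x (h3 hx)]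
      ring
    · intro x hx
      by_contra h
      obtain ⟨z, hz, e, hxz⟩ := (hs (left_ne_zero_of_mul h)).2 x (interior_subset hx.1) rfl
      exact hx.2 (mem_biUnion (hfin.mem_toFinset.2 ⟨hz, e⟩) hxz)

theorem deg_int (H : ℝ × E → E) (hH : ContDiff ℝ 2 H) {Ω K : Set E} (hΩ : IsOpen Ω)
    (hK : IsCompact K) (hΩK : Ω ⊆ K) {g : E → ℝ} (hg : ContDiff ℝ 1 g)
    (hfr : ∀ s ∈ Icc (0 : ℝ) 1, ∀ x ∈ K, x ∉ Ω → H (s, x) ∉ tsupport g) :
    ∫ x in Ω, g (H (0, x)) * (fderiv ℝ (fun y => H (0, y)) x).det ∂μ =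
      ∫ x in Ω, g (H (1, x)) * (fderiv ℝ (fun y => H (1, y)) x).det ∂μ := by
  classical
  have hst : ContDiff ℝ 2 Real.smoothTransition := Real.smoothTransition.contDiff (n := 2)
  have hsd : Differentiable ℝ Real.smoothTransition := hst.differentiable (by norm_num)
  let Ht : ℝ × E → E := fun x => H (Real.smoothTransition x.1, x.2)
  have hHt : ContDiff ℝ 2 Ht := hH.comp ((hst.comp contDiff_fst).prodMk contDiff_snd)
  let χ : ℝ → ℝ := fun s => Real.smoothTransition (s + 1) - Real.smoothTransition (s - 1)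
  have hχ : ContDiff ℝ 2 χ := (hst.comp (by fun_prop)).sub (hst.comp (by fun_prop))
  let w : ℝ × E → ℝ := fun x => χ x.1 * g (Ht x)
  have hw : ContDiff ℝ 1 w :=
    ((hχ.of_le (by norm_num)).comp contDiff_fst).mul (hg.comp (hHt.of_le (by norm_num)))
  let u0 : ℝ × E → ℝ := fun x => if x.2 ∈ Ω then w x else 0
  have hin : ∀ x : ℝ × E, x.2 ∈ Ω → u0 =ᶠ[𝓝 x] w := by
    intro x hx
    filter_upwards [(hΩ.preimage continuous_snd).mem_nhds hx] with y hy
    exact if_pos hy
  have hout : ∀ x : ℝ × E, x.2 ∉ Ω → u0 =ᶠ[𝓝 x] fun _ => 0 := by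
    intro x hx
    by_cases hxK : x.2 ∈ K
    · have h2 : Ht x ∈ (tsupport g)ᶜ :=
        hfr _ ⟨Real.smoothTransition.nonneg _, Real.smoothTransition.le_one _⟩ _ hxK hx
      filter_upwards [((isClosed_tsupport g).isOpen_compl.preimage hHt.continuous).mem_nhds h2]
        with y hy
      simp [u0, w, image_eq_zero_of_notMem_tsupport hy]
    · filter_upwards [(hK.isClosed.isOpen_compl.preimage continuous_snd).mem_nhds hxK] with y hy
      exact if_neg fun h => hy (hΩK h)
  have hu0 : ContDiff ℝ 1 u0 := by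
    rw [contDiff_iff_contDiffAt]
    intro x
    by_cases hx : x.2 ∈ Ω
    · exact hw.contDiffAt.congr_of_eventuallyEq (hin x hx)
    · exact contDiffAt_const.congr_of_eventuallyEq (hout x hx)
  have hu0c : HasCompactSupport u0 := by
    refine HasCompactSupport.intro (isCompact_Icc.prod hK : IsCompact (Icc (-1 : ℝ) 2 ×ˢ K)) ?_
    rintro ⟨s, y⟩ hx
    by_cases hy : y ∈ Ω
    · have hs : s < -1 ∨ 2 < s := by
        by_contra hc
        push Not at hc
        exact hx ⟨hc, hΩK hy⟩
      rcases hs with hs | hs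
      · simp [u0, w, χ, Real.smoothTransition.zero_of_nonpos (show s + 1 ≤ 0 by linarith),
          Real.smoothTransition.zero_of_nonpos (show s - 1 ≤ 0 by linarith)]
      · simp [u0, w, χ, Real.smoothTransition.one_of_one_le (show 1 ≤ s + 1 by linarith),
          Real.smoothTransition.one_of_one_le (show 1 ≤ s - 1 by linarith)]
    · simp [u0, hy]
  let b := Module.finBasis ℝ E
  let u : Unit ⊕ Fin (Module.finrank ℝ E) → ℝ × E → ℝ :=
    Sum.elim (fun _ => u0) fun j x => (LinearMap.toContinuousLinearMap (b.coord j)) (Ht x)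
  let v : Unit ⊕ Fin (Module.finrank ℝ E) → ℝ × E :=
    Sum.elim (fun _ => ((1 : ℝ), (0 : E))) (fun i => (0, b i))
  have hu2 : ∀ i, i ≠ Sum.inl () → ContDiff ℝ 2 (u i) := by
    rintro (i | i) hi
    · exact absurd rfl hi
    · exact (LinearMap.toContinuousLinearMap (b.coord i)).contDiff.comp hHt
  have hZ := Lib.Degree.integral_det_eq_zero ((volume : Measure ℝ).prod μ) (Sum.inl ()) u v
    hu0 hu0c hu2
  have hfin : ∀ x : ℝ × E, x.2 ∈ Ω → (Matrix.of fun i j => fderiv ℝ (u j) x (v i)).det =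
      (deriv χ x.1 * g (Ht x)) * (fderiv ℝ (fun y => Ht (x.1, y)) x.2).det := by
    intro x hx
    have hL := (hHt.differentiable (by norm_num) x).hasFDerivAt
    have hgd := (hg.differentiable (by norm_num) (Ht x)).hasFDerivAt
    have hχd := (hχ.differentiable (by norm_num) x.1).hasDerivAt
    have hwd := (hχd.hasFDerivAt.comp x hasFDerivAt_fst).mul (hgd.comp x hL)
    have hu0d : fderiv ℝ u0 x = _ := (hin x hx).fderiv_eq.trans hwd.fderiv
    have key := Lib.Degree.det_block b (fderiv ℝ u0 x) (fderiv ℝ Ht x) (deriv χ x.1 * g (Ht x))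
      (χ x.1 • fderiv ℝ g (Ht x)) (fun y => by rw [hu0d]; simp; ring)
    have h5 : fderiv ℝ (fun y => Ht (x.1, y)) x.2 =
        (fderiv ℝ Ht x).comp (ContinuousLinearMap.inr ℝ ℝ E) :=
      (HasFDerivAt.comp (g := Ht) (f := fun y => (x.1, y)) x.2 hL
        (hasFDerivAt_prodMk_right x.1 x.2)).fderiv
    rw [h5, ← key]
    congr 1
    ext i (j | j)
    · rfl
    · have := ((LinearMap.toContinuousLinearMap (b.coord j)).hasFDerivAt.comp x hL).fderiv
      simp only [Matrix.of_apply, Sum.elim_inr, u]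
      rw [← this]
      rfl
  let d : ℝ → ℝ := deriv Real.smoothTransition
  have hd0 : ∀ s, s < 0 ∨ 1 < s → d s = 0 := by
    rintro s (hs | hs)
    · have : Real.smoothTransition =ᶠ[𝓝 s] fun _ => 0 := by
        filter_upwards [Iio_mem_nhds hs] with t ht
        exact Real.smoothTransition.zero_of_nonpos (le_of_lt ht)
      simp [d, this.deriv_eq]
    · have : Real.smoothTransition =ᶠ[𝓝 s] fun _ => 1 := by
        filter_upwards [Ioi_mem_nhds hs] with t ht
        exact Real.smoothTransition.one_of_one_le (le_of_lt ht)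
      simp [d, this.deriv_eq]
  have hdc : Continuous d := hst.continuous_deriv (by norm_num)
  have hds : HasCompactSupport d := HasCompactSupport.intro (isCompact_Icc (a := 0) (b := 1))
    fun s hs => hd0 s (by
      by_contra hc
      push Not at hc
      exact hs hc)
  have hχ' : ∀ s, deriv χ s = d (s + 1) - d (s - 1) := fun s =>
    (((hsd _).hasDerivAt.comp_add_const s 1).sub ((hsd _).hasDerivAt.comp_sub_const s 1)).deriv
  let A : ℝ → E → ℝ := fun s => Ω.indicator fun x =>
    g (H (s, x)) * (fderiv ℝ (fun y => H (s, y)) x).det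
  have hA : ∀ s, Integrable (A s) μ := by
    intro s
    have hHs : ContDiff ℝ 2 fun y => H (s, y) := hH.comp (by fun_prop)
    refine IntegrableOn.integrable_indicator ?_ hΩ.measurableSet
    exact (((hg.continuous.comp hHs.continuous).mul (ContinuousLinearMap.continuous_det.comp
      (hHs.continuous_fderiv (by norm_num)))).continuousOn.integrableOn_compact hK).mono_set hΩK
  have hF : ∀ x : ℝ × E, (Matrix.of fun i j => fderiv ℝ (u j) x (v i)).det =
      d (x.1 + 1) * A 0 x.2 - d (x.1 - 1) * A 1 x.2 := by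
    rintro ⟨s, y⟩
    by_cases hy : y ∈ Ω
    · rw [hfin _ hy, hχ']
      simp only [A, indicator_of_mem hy, Ht]
      rcases le_or_gt s 0 with hs | hs
      · rw [hd0 (s - 1) (Or.inl (by linarith)), Real.smoothTransition.zero_of_nonpos hs]
        ring
      · rw [hd0 (s + 1) (Or.inr (by linarith))]
        rcases le_or_gt 1 s with hs' | hs'
        · rw [Real.smoothTransition.one_of_one_le hs']
          ring
        · rw [hd0 (s - 1) (Or.inl (by linarith))]
          ring
    · simp only [A, indicator_of_notMem hy, mul_zero, sub_zero]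
      refine Matrix.det_eq_zero_of_column_eq_zero (Sum.inl ()) fun i => ?_
      simp [u, (hout (s, y) hy).fderiv_eq]
  have hdi : Integrable d := hdc.integrable_of_hasCompactSupport hds
  simp only [hF] at hZ
  rw [integral_sub ((hdi.comp_add_right 1).mul_prod (hA 0)) ((hdi.comp_sub_right 1).mul_prod (hA 1)),
    integral_prod_mul (fun s => d (s + 1)) (A 0), integral_prod_mul (fun s => d (s - 1)) (A 1),
    integral_add_right_eq_self, integral_sub_right_eq_self, ← mul_sub] at hZ
  have hpos : 0 < ∫ s, d s := by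
    obtain ⟨s0, -, hs0⟩ := exists_deriv_eq_slope Real.smoothTransition (show (0 : ℝ) < 1 by norm_num)
      hsd.continuous.continuousOn hsd.differentiableOn
    refine hdc.integral_pos_of_hasCompactSupport_nonneg_nonzero hds
      (fun s => Real.smoothTransition.monotone.deriv_nonneg) (x := s0) ?_
    simp [d, hs0]
  have := sub_eq_zero.1 ((mul_eq_zero.1 hZ).resolve_left hpos.ne')
  simpa only [A, integral_indicator hΩ.measurableSet] using this

end Vale.Agent.Iso4
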