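import Mathlib

/-! Generic parameters for equations depending affinely on a parameter. -/

open scoped ContDiff Topology
open Set Filter MeasureTheory

namespace Vale.Agent.Iso4

variable {E A Y : Type} [NormedAddCommGroup E] [NormedSpace ℝ E] [FiniteDimensional ℝ E]
  [NormedAddCommGroup A] [NormedSpace ℝ A] [FiniteDimensional ℝ A] [MeasurableSpace A]
  [BorelSpace A] [NormedAddCommGroup Y] [NormedSpace ℝ Y] [FiniteDimensional ℝ Y]

theorem sard_value (μ : Measure A) [μ.IsAddHaarMeasure] {U : Set E} {f : E → A}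
    (hf : ∀ x ∈ U, DifferentiableAt ℝ f x) (hd : Module.finrank ℝ E = Module.finrank ℝ A) :
    ∀ᵐ y ∂μ, ∀ x ∈ U, f x = y → Function.Injective (fderiv ℝ f x) := by
  let φ : A ≃L[ℝ] E := ContinuousLinearEquiv.ofFinrankEq hd.symm
  let f' : A → A →L[ℝ] A := fun z => (fderiv ℝ f (φ z)).comp (φ : A →L[ℝ] E)
  have h0 := addHaar_image_eq_zero_of_det_fderivWithin_eq_zero μ
    (s := {z | φ z ∈ U ∧ (f' z).det = 0}) (f := fun z => f (φ z)) (f' := f')
    (fun z hz => ((hf _ hz.1).hasFDerivAt.comp z φ.hasFDerivAt).hasFDerivWithinAt)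
    fun z hz => hz.2
  filter_upwards [measure_eq_zero_iff_ae_notMem.1 h0] with y hy x hx hxy
  by_contra hn
  refine hy ⟨φ.symm x, ⟨by simpa using hx, ?_⟩, by simpa using hxy⟩
  refine LinearMap.det_eq_zero_iff_ker_ne_bot.2 fun hk => hn fun u v huv => ?_
  have h1 := LinearMap.ker_eq_bot.1 hk
  refine φ.symm.injective (h1 ?_)
  simpa [f'] using huv

theorem sard_local (μ : Measure A) [μ.IsAddHaarMeasure] {U : Set E} (hU : IsOpen U)
    {Λ : E → A →L[ℝ] Y} {c : Y} (hΛ : ∀ x ∈ U, DifferentiableAt ℝ Λ x) {x0 : E} (hx0 : x0 ∈ U)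
    (hs : Function.Surjective (Λ x0)) (hd : Module.finrank ℝ E = Module.finrank ℝ Y) :
    ∃ W ∈ 𝓝 x0, ∀ᵐ a ∂μ, ∀ x ∈ W, Λ x a = c →
      Function.Injective (fderiv ℝ (fun x => Λ x a) x) := by
  haveI : CompleteSpace Y := FiniteDimensional.complete ℝ Y
  obtain ⟨R, hR⟩ := (Λ x0).exists_rightInverse_of_surjective (LinearMap.range_eq_top.2 hs)
  have hR' : ∀ y, Λ x0 (R y) = y := fun y => by
    simpa using congrArg (fun T : Y →L[ℝ] Y => T y) hR
  let K : Submodule ℝ A := LinearMap.ker (Λ x0 : A →ₗ[ℝ] Y)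
  let N : E → Y →L[ℝ] Y := fun x => (Λ x).comp R
  have hN : ∀ x ∈ U, DifferentiableAt ℝ N x := fun x hx =>
    (hΛ x hx).clm_comp (differentiableAt_const R)
  let W : Set E := {x | x ∈ U ∧ IsUnit (N x)}
  have hW : ∀ x ∈ W, W ∈ 𝓝 x := fun x hx =>
    inter_mem (hU.mem_nhds hx.1) ((hN x hx.1).continuousAt (Units.isOpen.mem_nhds hx.2))
  have hx0W : x0 ∈ W := ⟨hx0, by
    have : N x0 = 1 := hR
    rw [this]; exact isUnit_one⟩
  let yy : E × K → Y := fun z => Ring.inverse (N z.1) (c - Λ z.1 z.2)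
  let P : E × K → A := fun z => z.2 + R (yy z)
  have hyy : ∀ z : E × K, z.1 ∈ W → DifferentiableAt ℝ yy z := fun z hz => by
    have h1 : DifferentiableAt ℝ (fun z : E × K => Λ z.1) z :=
      (hΛ _ hz.1).comp z differentiableAt_fst
    have h2 : DifferentiableAt ℝ (fun z : E × K => Ring.inverse (N z.1)) z :=
      ((differentiableAt_inverse hz.2).comp z.1 (hN _ hz.1)).comp z differentiableAt_fst
    exact h2.clm_apply ((differentiableAt_const c).sub
      (h1.clm_apply (K.subtypeL.differentiableAt.comp z differentiableAt_snd)))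
  have hP : ∀ z : E × K, z.1 ∈ W → HasFDerivAt P
      (K.subtypeL.comp (ContinuousLinearMap.snd ℝ E K) + R.comp (fderiv ℝ yy z)) z := fun z hz =>
    (K.subtypeL.hasFDerivAt.comp z hasFDerivAt_snd).add
      (R.hasFDerivAt.comp z (hyy z hz).hasFDerivAt)
  have hdim : Module.finrank ℝ (E × K) = Module.finrank ℝ A := by
    have h1 := LinearMap.finrank_range_add_finrank_ker (Λ x0 : A →ₗ[ℝ] Y)
    rw [LinearMap.range_eq_top.2 hs, finrank_top] at h1
    rw [Module.finrank_prod, hd, ← h1]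
  have hinv : ∀ x ∈ W, ∀ y, N x (Ring.inverse (N x) y) = y := fun x hx y => by
    simpa using congrArg (fun T : Y →L[ℝ] Y => T y) (Ring.mul_inverse_cancel _ hx.2)
  have hinv' : ∀ x ∈ W, ∀ y, Ring.inverse (N x) (N x y) = y := fun x hx y => by
    simpa using congrArg (fun T : Y →L[ℝ] Y => T y) (Ring.inverse_mul_cancel _ hx.2)
  refine ⟨W, hW x0 hx0W, ?_⟩
  filter_upwards [sard_value μ (U := {z : E × K | z.1 ∈ W}) (f := P)
    (fun z hz => (hP z hz).differentiableAt) hdim] with a ha x hx hxa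
  let k : K := ⟨a - R (Λ x0 a), by simp [K, hR']⟩
  have hk : (k : A) = a - R (Λ x0 a) := rfl
  have hy : yy (x, k) = Λ x0 a := by
    have h1 : c - Λ x k = N x (Λ x0 a) := by
      rw [hk, map_sub, hxa]
      simp [N]
    simp only [yy, h1, hinv' x hx]
  have hPa : P (x, k) = a := by simp only [P, hy, hk, sub_add_cancel]
  have hinj := ha (x, k) hx hPa
  rw [(hP (x, k) hx).fderiv] at hinj
  refine (injective_iff_map_eq_zero _).2 fun ξ hξ => ?_
  have hΛx := (hΛ x hx.1).hasFDerivAt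
  have h1 : fderiv ℝ Λ x ξ a = 0 := by
    rw [(hΛx.clm_apply (hasFDerivAt_const a x)).fderiv] at hξ
    simpa using hξ
  have h2 := (hP (x, k) hx).comp x (f := fun x => (x, k)) (hasFDerivAt_prodMk_left (𝕜 := ℝ) x k)
  simp only [Function.comp_def] at h2
  have h3 := hΛx.clm_apply h2
  have h4 : (fun x => Λ x (P (x, k))) =ᶠ[𝓝 x] fun _ => c := by
    filter_upwards [hW x hx] with z hz
    have h5 := hinv z hz (c - Λ z k)
    simp only [N, ContinuousLinearMap.comp_apply] at h5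
    simp only [P, yy, map_add, N, h5, add_sub_cancel]
  have h5 := congrArg (fun T : E →L[ℝ] Y => T ξ)
    (h3.unique ((hasFDerivAt_const c x).congr_of_eventuallyEq h4))
  have h6 : N x (fderiv ℝ yy (x, k) (ξ, 0)) = 0 := by
    simpa [hPa, h1, N] using h5
  have h7 : fderiv ℝ yy (x, k) (ξ, 0) = 0 := by
    rw [← hinv' x hx (fderiv ℝ yy (x, k) (ξ, 0)), h6, map_zero]
  have h8 := (injective_iff_map_eq_zero _).1 hinj (ξ, 0) (by simp [h7])
  exact congrArg Prod.fst h8

theorem ae_regular (μ : Measure A) [μ.IsAddHaarMeasure] {U : Set E} (hU : IsOpen U)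
    {Λ : E → A →L[ℝ] Y} {c : Y} (hΛ : ContDiffOn ℝ ∞ Λ U)
    (hs : ∀ x ∈ U, Function.Surjective (Λ x)) (hd : Module.finrank ℝ E = Module.finrank ℝ Y) :
    ∀ᵐ a ∂μ, ∀ x ∈ U, Λ x a = c → Function.Injective (fderiv ℝ (fun x => Λ x a) x) := by
  have hD : ∀ x ∈ U, DifferentiableAt ℝ Λ x := fun x hx =>
    (hΛ.contDiffAt (hU.mem_nhds hx)).differentiableAt (by simp)
  choose! W hW hae using fun x hx => sard_local μ hU (c := c) hD hx (hs x hx) hd
  obtain ⟨t, ht, htc, hcov⟩ := TopologicalSpace.countable_cover_nhdsWithin (f := W) (s := U)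
    fun x hx => mem_nhdsWithin_of_mem_nhds (hW x hx)
  filter_upwards [(ae_ball_iff htc).2 fun x hx => hae x (ht hx)] with a ha x hx
  obtain ⟨x0, hx0, hx1⟩ := mem_iUnion₂.1 (hcov hx)
  exact ha x0 hx0 x hx1

theorem ae_nozero (μ : Measure A) [μ.IsAddHaarMeasure] {U : Set E} (hU : IsOpen U)
    {Λ : E → A →L[ℝ] Y} {c : Y} (hΛ : ContDiffOn ℝ ∞ Λ U)
    (hs : ∀ x ∈ U, Function.Surjective (Λ x)) (hd : Module.finrank ℝ E < Module.finrank ℝ Y) :
    ∀ᵐ a ∂μ, ∀ x ∈ U, Λ x a ≠ c := by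
  obtain ⟨d, hd'⟩ := Nat.exists_eq_add_of_lt hd
  have h := ae_regular μ (E := E × (Fin (d + 1) → ℝ)) (U := Prod.fst ⁻¹' U)
    (hU.preimage continuous_fst) (Λ := fun z => Λ z.1) (c := c)
    (hΛ.comp contDiffOn_fst fun _ hz => hz) (fun z hz => hs z.1 hz)
    (by rw [Module.finrank_prod, hd', Module.finrank_fin_fun, add_assoc])
  filter_upwards [h] with a ha x hx hxa
  have h1 := ha (x, 0) hx hxa
  have h2 : DifferentiableAt ℝ (fun x => Λ x a) x :=
    ((hΛ.contDiffAt (hU.mem_nhds hx)).differentiableAt (by simp)).clm_apply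
      (differentiableAt_const a)
  have h3 := h2.hasFDerivAt.comp ((x, 0) : E × (Fin (d + 1) → ℝ)) (f := Prod.fst)
    (hasFDerivAt_fst (𝕜 := ℝ))
  simp only [Function.comp_def] at h3
  rw [h3.fderiv] at h1
  have h4 := (injective_iff_map_eq_zero _).1 h1 (0, fun _ => 1) (by simp)
  simpa using congrFun (congrArg Prod.snd h4) 0

/-- almost every value is regular -/
theorem ae_regular_value (μ : Measure A) [μ.IsAddHaarMeasure] {U : Set E} (hU : IsOpen U)
    {f : E → A} (hf : ContDiffOn ℝ ∞ f U) (hd : Module.finrank ℝ E = Module.finrank ℝ A) :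
    ∀ᵐ y ∂μ, ∀ x ∈ U, f x = y → Function.Injective (fderiv ℝ f x) :=
  sard_value μ (fun _ hx => (hf.contDiffAt (hU.mem_nhds hx)).differentiableAt (by simp)) hd

end Vale.Agent.Iso4
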