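import Vale.Agent.Iso4.Deg2
import Vale.Agent.Iso4.Sard

/-! The fibre over a regular value of a map from a closed manifold to a vector space of the same
dimension has an even number of points. -/

open scoped ContDiff Topology Manifold
open Set Filter MeasureTheory

namespace Vale.Agent.Iso4

section
variable {E Y : Type} [NormedAddCommGroup E] [NormedSpace ℝ E] [FiniteDimensional ℝ E]
  [NormedAddCommGroup Y] [NormedSpace ℝ Y] [FiniteDimensional ℝ Y] {H : Type*}
  [TopologicalSpace H] (I : ModelWithCorners ℝ E H) [I.Boundaryless] {N : Type*}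
  [TopologicalSpace N] [ChartedSpace H N] [IsManifold I ∞ N]

omit [FiniteDimensional ℝ E] [FiniteDimensional ℝ Y] [I.Boundaryless] in
theorem deg_rep {f : N → Y} (hf : ContMDiff I 𝓘(ℝ, Y) ∞ f) (c : N) :
    ContDiffOn ℝ ∞ (f ∘ (extChartAt I c).symm) (extChartAt I c).target :=
  (hf.comp_contMDiffOn (contMDiffOn_extChartAt_symm c)).contDiffOn

theorem deg_locM (hd : Module.finrank ℝ E = Module.finrank ℝ Y) {f : N → Y}
    (hf : ContMDiff I 𝓘(ℝ, Y) ∞ f) {z : N} (hi : Function.Injective (mfderiv I 𝓘(ℝ, Y) f z)) :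
    (∃ V ∈ 𝓝 z, InjOn f V) ∧ map f (𝓝 z) = 𝓝 (f z) := by
  have h1 := (deg_rep I hf z).contDiffAt (extChartAt_target_mem_nhds z)
  have e : mfderiv I 𝓘(ℝ, Y) f z = fderiv ℝ (f ∘ (extChartAt I z).symm) (extChartAt I z z) := by
    rw [(hf.mdifferentiableAt (by simp)).mfderiv, I.range_eq_univ, fderivWithin_univ]
    rfl
  obtain ⟨⟨V, hV, hVi⟩, h2⟩ := deg_loc hd (h1.of_le (by exact_mod_cast le_top)) (e ▸ hi)
  have hev : ∀ x ∈ (extChartAt I z).source, (f ∘ (extChartAt I z).symm) (extChartAt I z x) = f x :=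
    fun x hx => congrArg f ((extChartAt I z).left_inv hx)
  refine ⟨⟨(extChartAt I z).source ∩ extChartAt I z ⁻¹' V, inter_mem (extChartAt_source_mem_nhds z)
    ((continuousAt_extChartAt z).preimage_mem_nhds hV), fun a ha b hb hab => ?_⟩, ?_⟩
  · refine (extChartAt I z).injOn ha.1 hb.1 (hVi ha.2 hb.2 ?_)
    rw [hev a ha.1, hev b hb.1, hab]
  · rw [hev z (mem_extChartAt_source z), ← map_extChartAt_nhds_of_boundaryless, Filter.map_map]
      at h2
    rw [← h2]
    refine map_congr ?_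
    filter_upwards [extChartAt_source_mem_nhds (I := I) z] with x hx
    exact (hev x hx).symm

theorem deg_step [MeasurableSpace Y] [BorelSpace Y]
    (hd : Module.finrank ℝ E = Module.finrank ℝ Y) (h0 : 0 < Module.finrank ℝ E) {f g : N → Y}
    (hf : ContMDiff I 𝓘(ℝ, Y) ∞ f) (hg : ContMDiff I 𝓘(ℝ, Y) ∞ g) (c : N) {K : Set N}
    (hK : IsCompact K) (hKc : K ⊆ (extChartAt I c).source) (hfg : ∀ x, x ∉ K → f x = g x) :
    ∀ᵐ y ∂(Measure.addHaar : Measure Y),
      (Even {x | f x = y}.ncard ↔ Even {x | g x = y}.ncard) := by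
  have hU := isOpen_extChartAt_target (I := I) c
  have hK' := hK.image_of_continuousOn ((continuousOn_extChartAt (I := I) c).mono hKc)
  have hKU : extChartAt I c '' K ⊆ (extChartAt I c).target := by
    rintro _ ⟨x, hx, rfl⟩
    exact (extChartAt I c).map_source (hKc hx)
  have him : ∀ (f : N → Y) (y : Y), extChartAt I c '' {x ∈ K | f x = y} =
      {x ∈ extChartAt I c '' K | (f ∘ (extChartAt I c).symm) x = y} := by
    intro f y
    ext w
    constructor
    · rintro ⟨x, ⟨h1, h2⟩, rfl⟩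
      exact ⟨⟨x, h1, rfl⟩, (congrArg f ((extChartAt I c).left_inv (hKc h1))).trans h2⟩
    · rintro ⟨⟨x, h1, rfl⟩, h2⟩
      exact ⟨x, ⟨h1, (congrArg f ((extChartAt I c).left_inv (hKc h1))).symm.trans h2⟩, rfl⟩
  have hinj : ∀ (f : N → Y) (y : Y), InjOn (extChartAt I c) {x ∈ K | f x = y} := fun f y =>
    (extChartAt I c).injOn.mono fun x hx => hKc hx.1
  filter_upwards [ae_regular_value Measure.addHaar hU (deg_rep I hf c) hd,
    ae_regular_value Measure.addHaar hU (deg_rep I hg c) hd] with y h1 h2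
  have p := parity_local hd h0 hU hK' hKU (deg_rep I hf c) (deg_rep I hg c) (fun w hw hw' =>
    hfg _ fun h => hw' ⟨_, h, (extChartAt I c).right_inv hw⟩) h1 h2
  have f1 := deg_finite hd hU hK' hKU (deg_rep I hf c) h1
  have f2 := deg_finite hd hU hK' hKU (deg_rep I hg c) h2
  rw [← him] at f1 f2
  rw [← him, ← him, (hinj f y).ncard_image, (hinj g y).ncard_image] at p
  have f1 := f1.of_finite_image (hinj f y)
  have f2 := f2.of_finite_image (hinj g y)
  have e1 : {x | f x = y} = {x ∈ K | f x = y} ∪ {x | x ∉ K ∧ f x = y} := by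
    ext x
    by_cases hx : x ∈ K <;> simp [hx]
  have e2 : {x | g x = y} = {x ∈ K | g x = y} ∪ {x | x ∉ K ∧ f x = y} := by
    ext x
    by_cases hx : x ∈ K
    · simp [hx]
    · simp [hx, hfg x hx]
  rw [e1, e2]
  by_cases hfin : {x | x ∉ K ∧ f x = y}.Finite
  · rw [ncard_union_eq (disjoint_left.2 fun x h h' => h'.1 h.1) f1 hfin,
      ncard_union_eq (disjoint_left.2 fun x h h' => h'.1 h.1) f2 hfin, Nat.even_add, Nat.even_add,
      p]
  · rw [(Set.Infinite.mono subset_union_right hfin).ncard,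
      (Set.Infinite.mono subset_union_right hfin).ncard]

theorem even_ae [T2Space N] [CompactSpace N] [MeasurableSpace Y] [BorelSpace Y]
    (hd : Module.finrank ℝ E = Module.finrank ℝ Y) (h0 : 0 < Module.finrank ℝ E) {f : N → Y}
    (hf : ContMDiff I 𝓘(ℝ, Y) ∞ f) :
    ∀ᵐ y ∂(Measure.addHaar : Measure Y), Even {x | f x = y}.ncard := by
  classical
  have : Nontrivial Y := Module.nontrivial_of_finrank_pos (hd ▸ h0)
  obtain ⟨ρ, hρ⟩ := SmoothPartitionOfUnity.exists_isSubordinate_chartAt_source I N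
  have hfin := ρ.locallyFinite.finite_nonempty_of_compact
  have key : ∀ t : Finset N, ∀ᵐ y ∂(Measure.addHaar : Measure Y),
      Even {x | (∑ i ∈ t, ρ i x) • f x = y}.ncard := by
    have hs : ∀ t : Finset N, ContMDiff I 𝓘(ℝ, Y) ∞ fun x => (∑ i ∈ t, ρ i x) • f x := fun t =>
      (contMDiff_finsetSum fun i _ => (ρ i).contMDiff).smul hf
    intro t
    induction t using Finset.induction_on with
    | empty =>
      filter_upwards [Measure.ae_ne Measure.addHaar (0 : Y)] with y hy
      simp [hy.symm]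
    | insert a t ha ih =>
      filter_upwards [ih, deg_step I hd h0 (hs t) (hs (insert a t)) a
        (isClosed_tsupport (ρ a)).isCompact (by rw [extChartAt_source]; exact hρ a) (by
          intro x hx
          rw [Finset.sum_insert ha, image_eq_zero_of_notMem_tsupport hx, zero_add])] with y h1 h2
      exact h2.1 h1
  have e : ∀ x, ∑ i ∈ hfin.toFinset, ρ i x = 1 := fun x =>
    ρ.sum_finsupport' x (mem_univ x) fun i hi =>
      hfin.mem_toFinset.2 ⟨x, (ρ.mem_finsupport x).1 hi⟩
  simpa only [e, one_smul] using key hfin.toFinset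

end

theorem even_fibre {E Y : Type} [NormedAddCommGroup E] [NormedSpace ℝ E] [FiniteDimensional ℝ E]
    [NormedAddCommGroup Y] [NormedSpace ℝ Y] [FiniteDimensional ℝ Y] {H : Type*}
    [TopologicalSpace H] (I : ModelWithCorners ℝ E H) [I.Boundaryless] {N : Type*}
    [TopologicalSpace N] [ChartedSpace H N] [IsManifold I ∞ N] [T2Space N] [CompactSpace N]
    (hd : Module.finrank ℝ E = Module.finrank ℝ Y) (h0 : 0 < Module.finrank ℝ E) {f : N → Y}
    (hf : ContMDiff I 𝓘(ℝ, Y) ∞ f) {C : Set N} (hC : IsClopen C) {y : Y}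
    (hy : ∀ x ∈ C, f x = y → Function.Injective (mfderiv I 𝓘(ℝ, Y) f x)) :
    Even {x ∈ C | f x = y}.ncard := by
  classical
  borelize Y
  have : Nontrivial Y := Module.nontrivial_of_finrank_pos (hd ▸ h0)
  let g : N → Y := fun x => if x ∈ C then f x else 0
  have hg : ContMDiff I 𝓘(ℝ, Y) ∞ g := by
    intro x
    by_cases hx : x ∈ C
    · refine (hf x).congr_of_eventuallyEq ?_
      filter_upwards [hC.isOpen.mem_nhds hx] with z hz
      exact if_pos hz
    · refine (contMDiffAt_const (c := (0 : Y))).congr_of_eventuallyEq ?_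
      filter_upwards [hC.isClosed.isOpen_compl.mem_nhds hx] with z hz
      exact if_neg hz
  have hl := fun z hz e => deg_locM I hd hf (hy z hz e)
  choose! V hV using fun z hz e => (hl z hz e).1
  obtain ⟨hfin, W, hW, hWd, hev⟩ := deg_sheets hC.isClosed.isCompact hf.continuous.continuousOn
    (fun z => V z ∩ C) fun z hz e => ⟨inter_mem (hV z hz e).1 (hC.isOpen.mem_nhds hz),
      (hV z hz e).2.mono inter_subset_left, by rw [(hl z hz e).2, e]⟩
  obtain ⟨y', ⟨h1, h2⟩, h3, h4⟩ := (Measure.dense_of_ae ((even_ae I hd h0 hg).and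
    (Measure.ae_ne Measure.addHaar (0 : Y)))).inter_nhds_nonempty hev |>.imp fun _ h => h.symm
  have e : {x | g x = y'} = {x ∈ C | f x = y'} := by
    ext x
    by_cases hx : x ∈ C
    · simp [g, hx]
    · simp [g, hx, h4.symm]
  choose! p hp using h1
  rw [e, ← ncard_congr (s := {x ∈ C | f x = y}) (t := {x ∈ C | f x = y'}) (fun z _ => p z)
    (fun z hz => ⟨((hW z hz.1 hz.2).2.2 (hp z hz.1 hz.2).1).2, (hp z hz.1 hz.2).2⟩)
    (fun z z' hz hz' h => by
      by_contra hne
      exact disjoint_left.1 (hWd hz hz' hne) (hp z hz.1 hz.2).1 (h ▸ (hp z' hz'.1 hz'.2).1))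
    (fun x hx => by
      obtain ⟨z, hz, e, hxz⟩ := h2 x hx.1 hx.2
      exact ⟨z, ⟨hz, e⟩, (hV z hz e).2 ((hW z hz e).2.2 (hp z hz e).1).1
        ((hW z hz e).2.2 hxz).1 ((hp z hz e).2.trans hx.2.symm)⟩)] at h3
  exact h3

end Vale.Agent.Iso4
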