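import Vale.Agent.Iso4.TameInt
import Vale.Agent.Iso4.Deg2A

/-! The equation `g z' - g z = τ • c` near the diagonal. -/

open scoped ContDiff Topology
open Set Filter

noncomputable section
namespace Vale.Agent.Iso4

section aux
variable {E Y : Type*} [NormedAddCommGroup E] [NormedSpace ℝ E] [FiniteDimensional ℝ E]
  [NormedAddCommGroup Y] [NormedSpace ℝ Y]

theorem diag_low {T : E →L[ℝ] Y} (hi : Function.Injective T) :
    ∃ κ : ℝ, 0 < κ ∧ ∀ u, κ * ‖u‖ ≤ ‖T u‖ := by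
  obtain ⟨K, hK, h⟩ := (T : E →ₗ[ℝ] Y).exists_antilipschitzWith (LinearMap.ker_eq_bot.2 hi)
  have hK' : (0 : ℝ) < K := hK
  refine ⟨(K : ℝ)⁻¹, inv_pos.2 hK', fun u => ?_⟩
  rw [inv_mul_le_iff₀ hK']
  exact ZeroHomClass.bound_of_antilipschitz _ h u

theorem diag_loc [FiniteDimensional ℝ Y] (hd : Module.finrank ℝ E = Module.finrank ℝ Y)
    {f : E → Y} {z : E} (hf : ContDiffAt ℝ ∞ f z) (hi : Function.Injective (fderiv ℝ f z)) :
    (∃ V ∈ 𝓝 z, InjOn f V ∧ ∀ x ∈ V, Function.Injective (fderiv ℝ f x)) ∧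
      map f (𝓝 z) = 𝓝 (f z) := by
  obtain ⟨⟨V, hV, h1⟩, h2⟩ := deg_loc hd (hf.of_le (tame_le 1)) hi
  have h3 := (hf.continuousAt_fderiv (by simp)).preimage_mem_nhds
    (ContinuousLinearMap.isOpen_injective.mem_nhds hi)
  exact ⟨⟨_, inter_mem hV h3, h1.mono inter_subset_left, fun x hx => hx.2⟩, h2⟩

omit [NormedSpace ℝ E] [FiniteDimensional ℝ E] in
theorem diag_close {w a : E} {κ η : ℝ} (hη : 0 ≤ η) (h2 : 2 * η ≤ κ)
    (h : κ * ‖w - a‖ ≤ η * ‖w‖) : κ * ‖w - a‖ ≤ 2 * η * ‖a‖ := by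
  have h1 : ‖w‖ ≤ ‖w - a‖ + ‖a‖ := by simpa using norm_add_le (w - a) a
  have h3 := mul_le_mul_of_nonneg_left h1 hη
  have h4 := mul_le_mul_of_nonneg_right h2 (norm_nonneg (w - a))
  linarith

end aux

variable {g : P2 → V} {z0 : P2} {c : V}

theorem diag_strict (hg : ∀ᶠ z in 𝓝 z0, ContDiffAt ℝ ∞ g z) {η : ℝ} (hη : 0 < η) :
    ∀ᶠ y : P2 × P2 in 𝓝 (z0, z0),
      ‖g y.2 - g y.1 - fderiv ℝ g z0 (y.2 - y.1)‖ ≤ η * ‖y.2 - y.1‖ := by
  have h := (hg.self_of_nhds.hasStrictFDerivAt (by simp)).isLittleO.def hη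
  filter_upwards [h] with y hy
  rw [← norm_neg, norm_sub_rev y.2]
  refine le_trans (le_of_eq (congrArg norm ?_)) hy
  simp only [map_sub]
  abel

theorem diag_none (hg : ∀ᶠ z in 𝓝 z0, ContDiffAt ℝ ∞ g z)
    (hi : Function.Injective (fderiv ℝ g z0)) (hc : ∀ u, fderiv ℝ g z0 u ≠ c) :
    ∃ O ∈ 𝓝 (z0, z0), ∀ τ : ℝ, 0 < τ → ∀ y ∈ O, g y.2 - g y.1 ≠ τ • c := by
  let T : P2 × ℝ →L[ℝ] V := (fderiv ℝ g z0).comp (ContinuousLinearMap.fst ℝ P2 ℝ) -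
    (ContinuousLinearMap.snd ℝ P2 ℝ).smulRight c
  have hT : ∀ w τ, T (w, τ) = fderiv ℝ g z0 w - τ • c := fun _ _ => rfl
  obtain ⟨κ, hκ, h⟩ := diag_low (T := T) ((injective_iff_map_eq_zero T).2 fun ⟨w, τ⟩ h => by
    rw [hT, sub_eq_zero] at h
    by_cases h0 : τ = 0
    · rw [h0, zero_smul, ← map_zero (fderiv ℝ g z0)] at h
      rw [hi h, h0]
      rfl
    · refine absurd ?_ (hc (τ⁻¹ • w))
      rw [map_smul, h, smul_smul, inv_mul_cancel₀ h0, one_smul])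
  refine ⟨_, diag_strict hg (half_pos hκ), fun τ hτ y hy e => ?_⟩
  have h1 : ‖g y.2 - g y.1 - fderiv ℝ g z0 (y.2 - y.1)‖ ≤ κ / 2 * ‖y.2 - y.1‖ := hy
  have h2 := h (y.2 - y.1, τ)
  rw [hT, norm_sub_rev, ← e] at h2
  have h3 := norm_fst_le ((y.2 - y.1, τ) : P2 × ℝ)
  have h4 := norm_snd_le ((y.2 - y.1, τ) : P2 × ℝ)
  rw [Real.norm_of_nonneg hτ.le] at h4
  simp only at h3 h4
  nlinarith

theorem diag_inj (hg : ∀ᶠ z in 𝓝 z0, ContDiffAt ℝ ∞ g z)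
    (hi : Function.Injective (fderiv ℝ g z0)) :
    ∃ O ∈ 𝓝 (z0, z0), ∀ y ∈ O, g y.2 = g y.1 → y.2 = y.1 := by
  obtain ⟨κ, hκ, h⟩ := diag_low hi
  refine ⟨_, diag_strict hg (half_pos hκ), fun y hy e => ?_⟩
  have h1 : ‖g y.2 - g y.1 - fderiv ℝ g z0 (y.2 - y.1)‖ ≤ κ / 2 * ‖y.2 - y.1‖ := hy
  rw [e, sub_self, zero_sub, norm_neg] at h1
  have h2 := h (y.2 - y.1)
  rw [← sub_eq_zero, ← norm_le_zero_iff]
  nlinarith

/-- the difference quotient -/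
def diagQ (g : P2 → V) (p : ℝ × P2 × P2) : V :=
  ∫ t in (0 : ℝ)..1, fderiv ℝ g (p.2.1 + (t * p.1) • p.2.2) p.2.2

theorem diagQ_zero (z u : P2) : diagQ g (0, z, u) = fderiv ℝ g z u := by
  simp [diagQ]

theorem diagQ_eq {p : ℝ × P2 × P2}
    (h : ∀ t ∈ Icc (0 : ℝ) 1, ContDiffAt ℝ ∞ g (p.2.1 + (t * p.1) • p.2.2)) :
    ContDiffAt ℝ ∞ (diagQ g) p ∧ p.1 • diagQ g p = g (p.2.1 + p.1 • p.2.2) - g p.2.1 := by
  have hs : ∀ t ∈ Icc (0 : ℝ) 1, ContDiffAt ℝ ∞ (fun x : (ℝ × P2 × P2) × ℝ =>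
      fderiv ℝ g (x.1.2.1 + (x.2 * x.1.1) • x.1.2.2) x.1.2.2) (p, t) := fun t ht =>
    (ContDiffAt.comp (g := fderiv ℝ g) (p, t) (tame_fd (h t ht)) (by fun_prop)).clm_apply
      (by fun_prop)
  refine ⟨contDiffAt_integral zero_le_one hs, ?_⟩
  rw [diagQ, ← intervalIntegral.integral_smul]
  have := intervalIntegral.integral_eq_sub_of_hasDerivAt
    (f := fun t : ℝ => g (p.2.1 + (t * p.1) • p.2.2))
    (f' := fun t => p.1 • fderiv ℝ g (p.2.1 + (t * p.1) • p.2.2) p.2.2) (a := 0) (b := 1)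
    (fun t ht => by
      rw [uIcc_of_le zero_le_one] at ht
      have h1 : HasDerivAt (fun t : ℝ => p.2.1 + (t * p.1) • p.2.2) (p.1 • p.2.2) t := by
        simpa using (((hasDerivAt_id t).mul_const p.1).smul_const p.2.2).const_add p.2.1
      have h2 := ((h t ht).differentiableAt (by simp)).hasFDerivAt.comp_hasDerivAt t h1
      rw [map_smul] at h2
      exact h2)
    (((ti_cont fun t ht => (hs t ht).continuousAt).const_smul p.1).intervalIntegrable_of_Icc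
      zero_le_one)
  simpa using this

theorem diag_one (hg : ∀ᶠ z in 𝓝 z0, ContDiffAt ℝ ∞ g z)
    (hi : Function.Injective (fderiv ℝ g z0)) {u0 : P2} (hc : fderiv ℝ g z0 u0 = c)
    (hr : ∀ ξ η : P2, d2 g z0 ξ u0 + fderiv ℝ g z0 η = 0 → ξ = 0) :
    (∃ O ∈ 𝓝 (z0, z0), ∀ᶠ τ : ℝ in 𝓝[>] 0, ∀ y ∈ O, g y.2 - g y.1 = τ • c →
      (∀ y' ∈ O, g y'.2 - g y'.1 = τ • c → y' = y) ∧
      ∀ ξ η : P2, fderiv ℝ g y.2 η = fderiv ℝ g y.1 ξ → ξ = 0) ∧
    (∀ O ∈ 𝓝 (z0, z0), ∀ᶠ τ : ℝ in 𝓝[>] 0, ∃ y ∈ O, g y.2 - g y.1 = τ • c) ∧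
    ∀ᶠ z in 𝓝[≠] z0, ∀ u, fderiv ℝ g z u ≠ c := by
  set p0 : ℝ × P2 × P2 := (0, z0, u0) with hp0
  have hev : ∀ᶠ p : ℝ × P2 × P2 in 𝓝 p0, ∀ t ∈ Icc (0 : ℝ) 1,
      ContDiffAt ℝ ∞ g (p.2.1 + (t * p.1) • p.2.2) := by
    refine isCompact_Icc.eventually_forall_of_forall_eventually fun t _ => ?_
    have hc : ContinuousAt (fun x : (ℝ × P2 × P2) × ℝ => x.1.2.1 + (x.2 * x.1.1) • x.1.2.2)
        (p0, t) := by fun_prop
    exact hc.eventually (by simpa [hp0] using hg)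
  let Ψ : ℝ × P2 × P2 → ℝ × V := fun p => (p.1, diagQ g p)
  have hΨd : ∀ p, ContDiffAt ℝ ∞ (diagQ g) p → ∀ ξ ζ : P2,
      fderiv ℝ Ψ p (0, ξ, ζ) = (0, fderiv ℝ (fun x : P2 × P2 => diagQ g (p.1, x)) p.2 (ξ, ζ)) := by
    intro p hp ξ ζ
    have h1 := (hp.differentiableAt (by simp)).hasFDerivAt
    rw [(hasFDerivAt_fst.prodMk h1).fderiv,
      (show HasFDerivAt (fun x : P2 × P2 => diagQ g (p.1, x)) _ p.2 from
        HasFDerivAt.comp (g := diagQ g) (f := fun x => (p.1, x)) p.2 h1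
        (hasFDerivAt_prodMk_right p.1 p.2)).fderiv]
    rfl
  have h0 := (diagQ_eq hev.self_of_nhds).1
  have hinj : Function.Injective (fderiv ℝ Ψ p0) := by
    refine (injective_iff_map_eq_zero _).2 fun ⟨σ, ξ, ζ⟩ h => ?_
    have hσ : σ = 0 := by
      rw [(hasFDerivAt_fst.prodMk (h0.differentiableAt (by simp)).hasFDerivAt).fderiv] at h
      exact congrArg Prod.fst h
    subst hσ
    rw [hΨd p0 h0] at h
    have h2 : fderiv ℝ (fun x : P2 × P2 => diagQ g (0, x.1, x.2)) (z0, u0) (ξ, ζ) = 0 :=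
      congrArg Prod.snd h
    simp only [diagQ_zero] at h2
    have h3 := (HasFDerivAt.comp (g := fderiv ℝ g) (f := Prod.fst) (z0, u0)
      ((tame_fd hg.self_of_nhds).differentiableAt (by simp)).hasFDerivAt
      hasFDerivAt_fst).clm_apply (hasFDerivAt_snd (p := (z0, u0)))
    rw [(show HasFDerivAt (fun x : P2 × P2 => fderiv ℝ g x.1 x.2) _ (z0, u0) from h3).fderiv] at h2
    have h4 : d2 g z0 ξ u0 + fderiv ℝ g z0 ζ = 0 := by simpa [d2, add_comm] using h2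
    have h5 := hr ξ ζ h4
    rw [h5, d2, map_zero, zero_apply, zero_add,
      ← map_zero (fderiv ℝ g z0)] at h4
    rw [h5, hi h4]
    rfl
  obtain ⟨⟨N, hN, hNi, hNd⟩, hmap⟩ := diag_loc (f := Ψ) (by simp) (contDiffAt_fst.prodMk h0) hinj
  have hΨ0 : Ψ p0 = (0, c) := by simp only [Ψ, hp0, diagQ_zero, hc]
  obtain ⟨ε, hε, hball⟩ := Metric.mem_nhds_iff.1 (inter_mem hN hev.eventually_nhds)
  obtain ⟨κ, hκ, hlow⟩ := diag_low hi
  obtain ⟨η, hη, hη1, hη2⟩ : ∃ η : ℝ, 0 < η ∧ 2 * η ≤ κ ∧ 2 * η * ‖u0‖ < κ * ε := by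
    have ht : Tendsto (fun η : ℝ => 2 * η * ‖u0‖) (𝓝[>] 0) (𝓝 (2 * 0 * ‖u0‖)) :=
      tendsto_nhdsWithin_of_tendsto_nhds (Continuous.tendsto (by fun_prop) 0)
    obtain ⟨η, h1, h2⟩ := ((ht.eventually (gt_mem_nhds (by simpa using mul_pos hκ hε))).and
      (Ioo_mem_nhdsGT (half_pos hκ))).exists
    exact ⟨η, h2.1, by linarith [h2.2], h1⟩
  have hmem : ∀ (τ : ℝ) (z u : P2), |τ| < ε → dist z z0 < ε → κ * ‖u - u0‖ ≤ η * ‖u‖ →
      (τ, z, u) ∈ Metric.ball p0 ε := by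
    intro τ z u h1 h2 h3
    have h4 := (diag_close hη.le hη1 h3).trans_lt hη2
    rw [mul_lt_mul_iff_right₀ hκ] at h4
    simp only [Metric.mem_ball, hp0, Prod.dist_eq, max_lt_iff, Real.dist_eq, sub_zero] at h2 ⊢
    rw [← dist_eq_norm] at h4
    simp only [Prod.dist_eq, max_lt_iff, Real.dist_eq] at h4
    exact ⟨h1, h2, h4⟩
  refine ⟨⟨_, inter_mem (diag_strict hg hη) (continuous_fst.continuousAt.preimage_mem_nhds
    (Metric.ball_mem_nhds z0 hε)), ?_⟩, fun O hO => ?_, ?_⟩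
  · filter_upwards [Ioo_mem_nhdsGT hε] with τ hτ
    have key : ∀ y : P2 × P2, ‖g y.2 - g y.1 - fderiv ℝ g z0 (y.2 - y.1)‖ ≤ η * ‖y.2 - y.1‖ →
        dist y.1 z0 < ε → g y.2 - g y.1 = τ • c →
        (τ, y.1, τ⁻¹ • (y.2 - y.1)) ∈ Metric.ball p0 ε ∧
          Ψ (τ, y.1, τ⁻¹ • (y.2 - y.1)) = (τ, c) := by
      intro y h1 h2 e
      have hm : (τ, y.1, τ⁻¹ • (y.2 - y.1)) ∈ Metric.ball p0 ε := by
        refine hmem _ _ _ (by rw [abs_of_pos hτ.1]; exact hτ.2) h2 ((hlow _).trans ?_)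
        have e1 : fderiv ℝ g z0 (τ⁻¹ • (y.2 - y.1) - u0) =
            -τ⁻¹ • (g y.2 - g y.1 - fderiv ℝ g z0 (y.2 - y.1)) := by
          rw [e, map_sub, map_smul, hc, smul_sub, smul_smul, neg_mul, inv_mul_cancel₀ hτ.1.ne']
          module
        rw [e1, norm_smul, norm_smul, norm_neg, mul_left_comm]
        exact mul_le_mul_of_nonneg_left h1 (norm_nonneg _)
      refine ⟨hm, Prod.ext rfl (smul_right_injective V hτ.1.ne' ?_)⟩
      have := (diagQ_eq (hball hm).2.self_of_nhds).2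
      simp only [smul_smul, mul_inv_cancel₀ hτ.1.ne', one_smul, add_sub_cancel] at this
      exact this.trans e
    intro y hy e
    obtain ⟨h1, h2⟩ := key y hy.1 hy.2 e
    refine ⟨fun y' hy' e' => ?_, fun ξ η' h => ?_⟩
    · obtain ⟨h3, h4⟩ := key y' hy'.1 hy'.2 e'
      have h5 := hNi (hball h3).1 (hball h1).1 (h4.trans h2.symm)
      simp only [Prod.mk.injEq, true_and] at h5
      have h6 := smul_right_injective P2 (inv_ne_zero hτ.1.ne') h5.2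
      rw [h5.1, sub_left_inj] at h6
      exact Prod.ext h5.1 h6
    · set p : ℝ × P2 × P2 := (τ, y.1, τ⁻¹ • (y.2 - y.1)) with hp
      have hs := (hball h1).2
      have e2 : y.1 + τ • τ⁻¹ • (y.2 - y.1) = y.2 := by
        rw [smul_smul, mul_inv_cancel₀ hτ.1.ne', one_smul, add_sub_cancel]
      have hq := (diagQ_eq hs.self_of_nhds).1
      have hev2 : (fun x : P2 × P2 => τ • diagQ g (τ, x)) =ᶠ[𝓝 p.2]
          fun x => g (x.1 + τ • x.2) - g x.1 := by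
        have hc : ContinuousAt (fun x : P2 × P2 => ((τ, x) : ℝ × P2 × P2)) p.2 := by fun_prop
        filter_upwards [hc.eventually hs] with x hx using (diagQ_eq (p := (τ, x)) hx).2
      have d1 : DifferentiableAt ℝ g y.1 := by
        simpa [hp] using (hs.self_of_nhds 0 (by simp)).differentiableAt (by simp)
      have d2 : DifferentiableAt ℝ g (y.1 + τ • τ⁻¹ • (y.2 - y.1)) := by
        simpa only [hp, one_mul] using (hs.self_of_nhds 1 (by simp)).differentiableAt (by simp)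
      have d3 := (HasFDerivAt.comp (g := g) (f := fun x : P2 × P2 => x.1 + τ • x.2) p.2
        d2.hasFDerivAt (hasFDerivAt_fst.add (hasFDerivAt_snd.const_smul τ))).sub
        (HasFDerivAt.comp (g := g) (f := Prod.fst) p.2 d1.hasFDerivAt hasFDerivAt_fst)
      have d4 : DifferentiableAt ℝ (fun x : P2 × P2 => diagQ g (τ, x)) p.2 :=
        DifferentiableAt.comp (g := diagQ g) p.2 (hq.differentiableAt (by simp)) (by fun_prop)
      have d5 := (d4.hasFDerivAt.const_smul τ).unique (d3.congr_of_eventuallyEq hev2)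
      have d6 := DFunLike.congr_fun d5 (ξ, τ⁻¹ • (η' - ξ))
      have e3 : ξ + τ • τ⁻¹ • (η' - ξ) = η' := by
        rw [smul_smul, mul_inv_cancel₀ hτ.1.ne', one_smul, add_sub_cancel]
      have d7 : τ • fderiv ℝ (fun x : P2 × P2 => diagQ g (τ, x)) p.2 (ξ, τ⁻¹ • (η' - ξ)) =
          fderiv ℝ g (y.1 + τ • τ⁻¹ • (y.2 - y.1)) (ξ + τ • τ⁻¹ • (η' - ξ)) -
            fderiv ℝ g y.1 ξ := d6
      rw [e2, e3, h, sub_self, smul_eq_zero_iff_right hτ.1.ne'] at d7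
      have d8 := hΨd p hq ξ (τ⁻¹ • (η' - ξ))
      rw [d7] at d8
      have d9 := (injective_iff_map_eq_zero _).1 (hNd p (hball h1).1) _ d8
      exact congrArg (·.2.1) d9
  · have hc' : ContinuousAt (fun p : ℝ × P2 × P2 => (p.2.1, p.2.1 + p.1 • p.2.2)) p0 := by fun_prop
    have h1 := image_mem_map (m := Ψ) (inter_mem (hc'.preimage_mem_nhds (by simpa [hp0] using hO))
      hev)
    rw [hmap, hΨ0] at h1
    have hc2 : ContinuousAt (fun τ : ℝ => (τ, c)) 0 := by fun_prop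
    filter_upwards [nhdsWithin_le_nhds (hc2.preimage_mem_nhds h1)] with τ ⟨p, hp, e⟩
    refine ⟨_, hp.1, ?_⟩
    have e1 : p.1 = τ := congrArg Prod.fst e
    have e2 : diagQ g p = c := congrArg Prod.snd e
    rw [← (diagQ_eq hp.2).2, e1, e2]
  · have h1 := (tame_fd hg.self_of_nhds).continuousAt.preimage_mem_nhds (Metric.ball_mem_nhds _ hη)
    filter_upwards [nhdsWithin_le_nhds h1, nhdsWithin_le_nhds (Metric.ball_mem_nhds z0 hε),
      self_mem_nhdsWithin] with z h2 h3 h4 u e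
    have hm := hmem 0 z u (by simpa using hε) h3 ((hlow _).trans (by
      rw [map_sub, hc, ← e, ← sub_apply]
      refine (ContinuousLinearMap.le_opNorm _ _).trans (mul_le_mul_of_nonneg_right ?_ (norm_nonneg _))
      rw [← dist_eq_norm, dist_comm]
      exact le_of_lt h2))
    have h5 := hNi (hball hm).1 (mem_of_mem_nhds hN) (by
      rw [hΨ0]
      simp only [Ψ, diagQ_zero, e])
    exact h4 (show z = z0 from congrArg (·.2.1) h5)

/-- transversal double points -/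
theorem dbl_one {g' : P2 → V} {z1 : P2} (hg : ∀ᶠ z in 𝓝 z0, ContDiffAt ℝ ∞ g z)
    (hg' : ∀ᶠ z in 𝓝 z1, ContDiffAt ℝ ∞ g' z) (he : g z0 = g' z1)
    (hr : ∀ ξ η : P2, fderiv ℝ g' z1 η = fderiv ℝ g z0 ξ → ξ = 0 ∧ η = 0) :
    (∃ O ∈ 𝓝 (z0, z1), ∀ y ∈ O, (∀ y' ∈ O, g' y'.2 - g y'.1 = g' y.2 - g y.1 → y' = y) ∧
      ∀ ξ η : P2, fderiv ℝ g' y.2 η = fderiv ℝ g y.1 ξ → ξ = 0) ∧
    ∀ O ∈ 𝓝 (z0, z1), ∀ᶠ τ : ℝ in 𝓝[>] 0, ∃ y ∈ O, g' y.2 - g y.1 = τ • c := by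
  let F : P2 × P2 → V := fun y => g' y.2 - g y.1
  have hd : ∀ y : P2 × P2, ContDiffAt ℝ ∞ g y.1 → ContDiffAt ℝ ∞ g' y.2 → ∀ ξ η : P2,
      fderiv ℝ F y (ξ, η) = fderiv ℝ g' y.2 η - fderiv ℝ g y.1 ξ := by
    intro y h1 h2 ξ η
    have := (HasFDerivAt.comp (g := g') (f := Prod.snd) y
      (h2.differentiableAt (by simp)).hasFDerivAt hasFDerivAt_snd).sub
      (HasFDerivAt.comp (g := g) (f := Prod.fst) y
        (h1.differentiableAt (by simp)).hasFDerivAt hasFDerivAt_fst)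
    rw [(show HasFDerivAt F _ y from this).fderiv]
    rfl
  obtain ⟨⟨N, hN, hNi, hNd⟩, hmap⟩ := diag_loc (f := F) (z := (z0, z1)) (by simp)
    ((ContDiffAt.comp (g := g') (f := Prod.snd) (z0, z1) hg'.self_of_nhds contDiffAt_snd).sub
      (ContDiffAt.comp (g := g) (f := Prod.fst) (z0, z1) hg.self_of_nhds contDiffAt_fst))
    ((injective_iff_map_eq_zero _).2 fun ⟨ξ, η⟩ h => by
      rw [hd _ hg.self_of_nhds hg'.self_of_nhds, sub_eq_zero] at h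
      exact Prod.ext (hr ξ η h).1 (hr ξ η h).2)
  refine ⟨⟨_, inter_mem hN (prod_mem_nhds hg hg'), fun y hy =>
    ⟨fun y' hy' e => hNi hy'.1 hy.1 e, fun ξ η h => ?_⟩⟩, fun O hO => ?_⟩
  · have h1 := hd y hy.2.1 hy.2.2 ξ η
    rw [h, sub_self] at h1
    exact congrArg Prod.fst ((injective_iff_map_eq_zero _).1 (hNd y hy.1) _ h1)
  · have h1 := image_mem_map (m := F) hO
    rw [hmap] at h1
    have hc : ContinuousAt (fun τ : ℝ => τ • c) 0 := by fun_prop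
    filter_upwards [nhdsWithin_le_nhds (hc.preimage_mem_nhds (by simpa [F, he] using h1))]
      with τ hτ using hτ

end Vale.Agent.Iso4
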