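import Vale.Agent.Iso4.GS

/-! Nine directions in three triples. -/

open scoped ContDiff Topology
open Set Filter

noncomputable section
namespace Vale.Agent.Iso4

/-- the slopes -/
def slope : Fin 3 → Fin 3 → ℝ := ![![-3, 0, 3], ![-4, 1, 4], ![-5, -1, 5]]

/-- the shear `(x, y) ↦ (x + t * y, y)` -/
def shear (t : ℝ) : P2 ≃L[ℝ] P2 :=
  LinearEquiv.toContinuousLinearEquiv
    { toFun := fun z => (z.1 + t * z.2, z.2)
      invFun := fun z => (z.1 - t * z.2, z.2)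
      map_add' := fun a b => by ext <;> simp; ring
      map_smul' := fun c a => by ext <;> simp; ring
      left_inv := fun z => by ext <;> simp
      right_inv := fun z => by ext <;> simp }

theorem shear_apply (t : ℝ) (z : P2) : shear t z = (z.1 + t * z.2, z.2) := rfl
theorem shear_symm (t : ℝ) (z : P2) : (shear t).symm z = (z.1 - t * z.2, z.2) := rfl

/-- the direction of the level lines of `x + t * y` -/
def leaf (j l : Fin 3) : P2 := (-slope j l, 1)

theorem shear_leaf (j l : Fin 3) : (shear (slope j l)).symm (0, 1) = leaf j l := by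
  simp [shear_symm, leaf]

theorem dirs_slope (j l : Fin 3) : |slope j l| ≤ 5 := by
  fin_cases j <;> fin_cases l <;> simp [slope] <;> norm_num

theorem dirs_gap {j j' : Fin 3} (h : j ≠ j') (l l' : Fin 3) : 1 ≤ |slope j l - slope j' l'| := by
  fin_cases j <;> fin_cases j' <;> first
    | exact absurd rfl h
    | (fin_cases l <;> fin_cases l' <;> simp [slope] <;> norm_num)

theorem norm_leaf (j l : Fin 3) : ‖leaf j l‖ ≤ 5 := by
  rw [leaf, Prod.norm_mk, Real.norm_eq_abs, abs_neg, norm_one]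
  exact max_le (dirs_slope j l) (by norm_num)

/-- Lagrange coefficients -/
def lag (j l : Fin 3) (h11 h12 h22 : ℝ) : ℝ :=
  (h22 - (slope j (l + 1) + slope j (l + 2)) * h12 + slope j (l + 1) * slope j (l + 2) * h11) /
    ((slope j l - slope j (l + 1)) * (slope j l - slope j (l + 2)))

theorem lag_sum (j : Fin 3) (h11 h12 h22 : ℝ) (u : P2) :
    ∑ l, lag j l h11 h12 h22 * (u.1 + slope j l * u.2) ^ 2 =
      h11 * u.1 ^ 2 + 2 * h12 * u.1 * u.2 + h22 * u.2 ^ 2 := by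
  fin_cases j <;> simp [Fin.sum_univ_three, lag, slope] <;> ring

theorem lag_pos (j l : Fin 3) {h11 h12 h22 : ℝ} (h1 : |h11 - 1| ≤ 1 / 50) (h2 : |h12| ≤ 1 / 50)
    (h3 : |h22 - 7| ≤ 1 / 50) : 1 / 100 ≤ lag j l h11 h12 h22 := by
  rw [abs_le] at h1 h2 h3
  obtain ⟨_, _⟩ := h1
  obtain ⟨_, _⟩ := h2
  obtain ⟨_, _⟩ := h3
  fin_cases j <;> fin_cases l <;> simp [lag, slope] <;> norm_num <;> linarith

theorem dirs_d2 {f : P2 → V} {z : P2} (hf : ContDiffAt ℝ ∞ f z) (v : P2) :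
    d2 f z v v = v.1 ^ 2 • d2 f z (1, 0) (1, 0) + (2 * v.1 * v.2) • d2 f z (1, 0) (0, 1) +
      v.2 ^ 2 • d2 f z (0, 1) (0, 1) := by
  have h := d2_symm hf (0, 1) (1, 0)
  have hv : v = v.1 • ((1, 0) : P2) + v.2 • ((0, 1) : P2) := by simp
  simp only [d2] at h ⊢
  conv_lhs => rw [hv]
  simp only [map_add, map_smul, ContinuousLinearMap.add_apply, ContinuousLinearMap.smul_apply, h]
  module

theorem dirs_coef {x y a b c : ℝ} (hx : |x| ≤ 1) (hy : |y| ≤ 1) (hb : |b| ≤ 5) (hc : |c| ≤ 5)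
    (h1 : 1 ≤ |a - b|) (h2 : 1 ≤ |a - c|) :
    |(x + b * y) * (x + c * y) / ((a - b) * (a - c))| ≤ 36 := by
  have h : ∀ t : ℝ, |t| ≤ 5 → |x + t * y| ≤ 6 := fun t ht => by
    have := mul_le_mul ht hy (abs_nonneg _) (by norm_num)
    refine (abs_add_le _ _).trans ?_
    rw [abs_mul]; linarith
  rw [abs_div, abs_mul, abs_mul, div_le_iff₀ (by positivity)]
  have := mul_le_mul (h b hb) (h c hc) (abs_nonneg _) (by norm_num)
  nlinarith [mul_le_mul h1 h2 zero_le_one (abs_nonneg _)]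

/-- one of the triples consists of good directions -/
theorem good_triple : ∃ c : ℝ, 0 < c ∧ ∀ (f : P2 → V) (z : P2) (κ : ℝ), ContDiffAt ℝ ∞ f z →
    0 < κ → (∃ v : P2, ‖v‖ ≤ 1 ∧ Tr κ (d2 f z v v) (fderiv ℝ f z)) →
    ∃ j, ∀ l, Tr (c * κ) (d2 f z (leaf j l) (leaf j l)) (fderiv ℝ f z) := by
  refine ⟨1 / 108, by norm_num, fun f z κ hf hκ ⟨v, hv, hT⟩ => ?_⟩
  by_contra hn
  push Not at hn
  choose l hl using hn
  have hx : |v.1| ≤ 1 := (norm_fst_le v).trans hv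
  have hy : |v.2| ≤ 1 := (norm_snd_le v).trans hv
  have g01 := dirs_gap (show (0 : Fin 3) ≠ 1 by decide) (l 0) (l 1)
  have g02 := dirs_gap (show (0 : Fin 3) ≠ 2 by decide) (l 0) (l 2)
  have g10 := dirs_gap (show (1 : Fin 3) ≠ 0 by decide) (l 1) (l 0)
  have g12 := dirs_gap (show (1 : Fin 3) ≠ 2 by decide) (l 1) (l 2)
  have g20 := dirs_gap (show (2 : Fin 3) ≠ 0 by decide) (l 2) (l 0)
  have g21 := dirs_gap (show (2 : Fin 3) ≠ 1 by decide) (l 2) (l 1)
  have s0 := dirs_slope 0 (l 0)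
  have s1 := dirs_slope 1 (l 1)
  have s2 := dirs_slope 2 (l 2)
  set a := slope 0 (l 0) with ha
  set b := slope 1 (l 1) with hb
  set c := slope 2 (l 2) with hc
  have hne : ∀ x : ℝ, 1 ≤ |x| → x ≠ 0 := fun x hx h => by rw [h] at hx; norm_num at hx
  have hsum : d2 f z v v = ∑ j : Fin 3,
      ![(v.1 + b * v.2) * (v.1 + c * v.2) / ((a - b) * (a - c)),
        (v.1 + a * v.2) * (v.1 + c * v.2) / ((b - a) * (b - c)),
        (v.1 + a * v.2) * (v.1 + b * v.2) / ((c - a) * (c - b))] j •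
        d2 f z (leaf j (l j)) (leaf j (l j)) := by
    have := hne _ g01
    have := hne _ g02
    have := hne _ g10
    have := hne _ g12
    have := hne _ g20
    have := hne _ g21
    rw [Fin.sum_univ_three, dirs_d2 hf v, dirs_d2 hf (leaf 0 _), dirs_d2 hf (leaf 1 _),
      dirs_d2 hf (leaf 2 _)]
    simp only [leaf, ← ha, ← hb, ← hc, Matrix.cons_val_zero, Matrix.cons_val_one,
      Matrix.cons_val_two, Matrix.head_cons, Matrix.tail_cons]
    match_scalars <;> field_simp <;> ring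
  rw [hsum] at hT
  obtain ⟨j, hj⟩ := hT.exists_term (b := 36) hκ fun j => by
    fin_cases j
    · exact dirs_coef hx hy s1 s2 g01 g02
    · exact dirs_coef hx hy s0 s2 g10 g12
    · exact dirs_coef hx hy s0 s1 g20 g21
  refine hl j (hj.mono (le_of_eq ?_))
  push_cast
  ring

/-- Gram determinant of two vectors -/
def gram2 (a b : V) : ℝ := inner ℝ a a * inner ℝ b b - inner ℝ a b ^ 2

/-- Gram determinant of three vectors -/
def gram3 (x a b : V) : ℝ := inner ℝ x x * gram2 a b - inner ℝ x a ^ 2 * inner ℝ b b -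
  inner ℝ x b ^ 2 * inner ℝ a a + 2 * inner ℝ x a * inner ℝ x b * inner ℝ a b

theorem dirs_norm (T : P2 →L[ℝ] V) (x : V) (u : P2) : ‖x - T u‖ ^ 2 = inner ℝ x x -
    2 * u.1 * inner ℝ x (T (1, 0)) - 2 * u.2 * inner ℝ x (T (0, 1)) +
    u.1 ^ 2 * inner ℝ (T (1, 0)) (T (1, 0)) + 2 * u.1 * u.2 * inner ℝ (T (1, 0)) (T (0, 1)) +
    u.2 ^ 2 * inner ℝ (T (0, 1)) (T (0, 1)) := by
  have hu : u = u.1 • ((1, 0) : P2) + u.2 • ((0, 1) : P2) := by simp
  conv_lhs => rw [hu, map_add, map_smul, map_smul, ← real_inner_self_eq_norm_sq]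
  simp only [inner_sub_left, inner_sub_right, inner_add_left, inner_add_right,
    real_inner_smul_left, real_inner_smul_right, real_inner_comm x,
    real_inner_comm (T (1, 0)) (T (0, 1))]
  ring

theorem gram3_of_tr {T : P2 →L[ℝ] V} {x : V} {D : ℝ} (hD : 0 ≤ D) (h : Tr D x T)
    (h2 : 0 < gram2 (T (1, 0)) (T (0, 1))) :
    D ^ 2 * gram2 (T (1, 0)) (T (0, 1)) ≤ gram3 x (T (1, 0)) (T (0, 1)) := by
  have h1 := pow_le_pow_left₀ hD (h
    ((inner ℝ x (T (1, 0)) * inner ℝ (T (0, 1)) (T (0, 1)) -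
      inner ℝ x (T (0, 1)) * inner ℝ (T (1, 0)) (T (0, 1))) / gram2 (T (1, 0)) (T (0, 1)),
    (inner ℝ x (T (0, 1)) * inner ℝ (T (1, 0)) (T (1, 0)) -
      inner ℝ x (T (1, 0)) * inner ℝ (T (1, 0)) (T (0, 1))) / gram2 (T (1, 0)) (T (0, 1)))) 2
  rw [dirs_norm] at h1
  refine (mul_le_mul_of_nonneg_right h1 h2.le).trans_eq ?_
  have h3 := h2.ne'
  simp only [gram3]
  field_simp
  simp only [gram2]
  ring

theorem tr_of_gram3 {T : P2 →L[ℝ] V} {x : V} {D : ℝ} (h2 : 0 < gram2 (T (1, 0)) (T (0, 1)))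
    (h : D ^ 2 * gram2 (T (1, 0)) (T (0, 1)) ≤ gram3 x (T (1, 0)) (T (0, 1))) : Tr D x T := by
  intro u
  refine (le_abs_self D).trans (abs_le_of_sq_le_sq ?_ (norm_nonneg _))
  have h1 := sq_nonneg ‖(0 : V) - T
    (gram2 (T (1, 0)) (T (0, 1)) * u.1 - (inner ℝ x (T (1, 0)) * inner ℝ (T (0, 1)) (T (0, 1)) -
      inner ℝ x (T (0, 1)) * inner ℝ (T (1, 0)) (T (0, 1))),
    gram2 (T (1, 0)) (T (0, 1)) * u.2 - (inner ℝ x (T (0, 1)) * inner ℝ (T (1, 0)) (T (1, 0)) -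
      inner ℝ x (T (1, 0)) * inner ℝ (T (1, 0)) (T (0, 1))))‖
  rw [dirs_norm] at h1
  simp only [inner_zero_left] at h1
  have h3 : 0 ≤ gram2 (T (1, 0)) (T (0, 1)) *
      (‖x - T u‖ ^ 2 * gram2 (T (1, 0)) (T (0, 1)) - gram3 x (T (1, 0)) (T (0, 1))) := by
    refine h1.trans_eq ?_
    rw [dirs_norm]
    simp only [gram3, gram2]
    ring
  have h4 := nonneg_of_mul_nonneg_right h3 h2
  exact le_of_mul_le_mul_right (by linarith) h2

theorem PT.gram3 {ι : Type*} {Ω : ι → Set P2} {L : ι → ℝ} {p : ℕ} {x a b : ι → P2 → V}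
    (hL : ∀ i, 1 ≤ L i) (hx : PT Ω L p x) (ha : PT Ω L p a) (hb : PT Ω L p b) :
    PT Ω L (6 * p) fun i z => gram3 (x i z) (a i z) (b i z) := by
  have h : ∀ {u v w : ι → P2 → ℝ}, PT Ω L (p + p) u → PT Ω L (p + p) v → PT Ω L (p + p) w →
      PT Ω L (6 * p) fun i z => u i z * v i z * w i z := fun hu hv hw =>
    ((hu.mul hv hL).mul hw hL).mono hL (by omega)
  have xx := hx.inner hx hL
  have xa := hx.inner ha hL
  have xb := hx.inner hb hL
  have aa := ha.inner ha hL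
  have ab := ha.inner hb hL
  have bb := hb.inner hb hL
  have key := Tame.add (Tame.sub (Tame.sub (Tame.sub (h xx aa bb) (h xx ab ab)) (h xa xa bb))
    (h xb xb aa)) (Tame.const_mul (h xa xb ab) 2)
  refine Tame.congr key fun i z _ => Eventually.of_forall fun y => ?_
  simp only [Vale.Agent.Iso4.gram3, gram2]
  ring

end Vale.Agent.Iso4
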