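import Vale.Agent.Iso4.FlatA

/-! Flattening of the immersion near the critical points. -/

open scoped ContDiff Topology Manifold
open Set Filter

noncomputable section
namespace Vale.Agent.Iso4

variable {M : Type*} [TopologicalSpace M] [ChartedSpace E2 M]

theorem flat_chart [IsManifold (𝓡 2) ∞ M] (g : Met M) {G B : M → V} (hG : Sm G) (hB : Sm B) {p : M}
    (htr : ∀ u (t : ℝ), dM G p u = t • B p → u = 0) (h0 : B p ≠ 0) {W : Set M} (hW : IsOpen W)
    (hp : p ∈ W) : ∃ (c : Chart M) (O : ℂ × ℂ →L[ℝ] V) (Lin : P2 →L[ℝ] ℂ),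
      (p ∈ c.source ∧ c.to p = 0) ∧ c.source ⊆ W ∧ (∀ z ∈ c.target, g.cf c (1, 0) (0, 1) z = 0) ∧
      IsoO O ∧ Function.Injective Lin ∧ (∃ α : ℝ, 0 < α ∧ Lin (0, 1) = α) ∧
      ∀ z : P2, ‖z‖ ≤ 20 → z ∈ c.target ∧
        (∀ u (t : ℝ), fderiv ℝ (fun y => c.rep G y - bmp 10 20 y •
          (c.rep G y - (G p + O (0, Lin y)))) z u =
          t • (c.rep B z - bmp 10 20 z • (c.rep B z - O (1, 0))) → u = 0) ∧
        c.rep B z - bmp 10 20 z • (c.rep B z - O (1, 0)) ≠ 0 := by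
  obtain ⟨e0, a1, a2, a3⟩ := exists_orth g p
  obtain ⟨e, b1, b2, b3, b4⟩ := e0.exists_restr hW
  have hs : p ∈ e.source := b1 ▸ ⟨a1, hp⟩
  have h1 : e.to p = 0 := b2 ▸ a2
  have ht : (0 : P2) ∈ e.target := h1 ▸ e.to_mem hs
  have hi : e.inv 0 = p := h1 ▸ e.inv_to hs
  have ho : ∀ z ∈ e.target, g.cf e (1, 0) (0, 1) z = 0 := fun z hz => by
    have h7 : e.pull z = e0.pull z := by
      unfold Chart.pull
      rw [b3]
    rw [b4] at hz
    simpa only [Met.cf, h7, b3] using a3 z hz.1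
  obtain ⟨τ, O, Lin, hτ, hO, hL, hα, H⟩ := flat_plane (e.open_target.mem_nhds ht)
    (e.contDiffAt_rep hG ht) (e.contDiffAt_rep hB ht).continuousAt (fun u t hu => by
      rw [e.fderiv_rep hG ht, Chart.rep, hi] at hu
      rw [← e.push_pull ht u, htr _ t hu, map_zero]) (by rwa [Chart.rep, hi])
  let A : P2 ≃L[ℝ] P2 := (ContinuousLinearEquiv.smulLeft (Units.mk0 τ hτ.ne')).symm
  obtain ⟨c, c1, c2, c3, c4⟩ := e.exists_affine A 0
  have hA : ∀ z, A.symm z + 0 = τ • z := fun z => add_zero _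
  simp only [hA] at c3 c4
  have hc : c.inv = e.inv ∘ fun z => τ • z := funext c3
  refine ⟨c, O, Lin, ⟨c1 ▸ hs, by rw [c2, h1, sub_zero, map_zero]⟩,
    by rw [c1, b1]; exact inter_subset_right, fun z hz => ?_, hO, hL, hα, fun z hz => ?_⟩
  · rw [c4] at hz
    have h2 : ∀ v, c.pull z v = τ • e.pull (τ • z) v := fun v => by
      rw [← map_smul, Chart.pull, hc]
      exact DFunLike.congr_fun (((e.contMDiffAt_inv hz).mdifferentiableAt
        (by simp)).hasMFDerivAt.comp z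
        ((hasFDerivAt_id z).fun_const_smul τ).hasMFDerivAt).mfderiv v
    have h3 := ho _ hz
    rw [Met.cf] at h3
    simp only [Met.cf, h2, c3, map_smul, ContinuousLinearMap.smul_apply, h3, smul_zero]
  · have := H z hz
    simp only [Chart.rep, hi, ← c3] at this
    exact ⟨c4 ▸ this.1, this.2⟩

theorem flat_sum {n : ℕ} {c : Fin n → Chart M}
    (hd : ∀ k l, k ≠ l → Disjoint (c k).source (c l).source) (w : Fin n → P2 → V) {k : Fin n}
    {p : M} (hp : p ∈ (c k).source) : ∑ l, (c l).ext (w l) p = w k ((c k).to p) := by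
  rw [Finset.sum_eq_single k (fun l _ h => (c l).ext_of_not_mem _
    fun hl => Set.disjoint_left.1 (hd l k h) hl hp)
    (fun h => absurd (Finset.mem_univ k) h), (c k).ext_of_mem _ hp]

theorem exists_geo [T2Space M] [IsManifold (𝓡 2) ∞ M] (g : Met M) {φ : M → ℝ} {G B : M → V}
    (hφ : Sm φ) (hG : Sm G) (hB : Sm B) (hfin : {p | dM φ p = 0}.Finite)
    (htr : ∀ p u (t : ℝ), dM G p u = t • B p → u = 0) (h0 : ∀ p, B p ≠ 0) :
    Nonempty (Geo g) := by
  obtain ⟨W, hW, hd⟩ := hfin.t2_separation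
  obtain ⟨n, x, hx, hx'⟩ := hfin.fin_param
  choose c O Lin h1 h2 h3 h4 h5 h6 h7 using fun k =>
    flat_chart g hG hB (htr (x k)) (h0 (x k)) (hW (x k)).2 (hW (x k)).1
  have hm : ∀ k, x k ∈ {p | dM φ p = 0} := fun k => hx' ▸ mem_range_self k
  have disj : ∀ k l, k ≠ l → Disjoint (c k).source (c l).source := fun k l h =>
    (hd (hm k) (hm l) fun e => h (hx e)).mono (h2 k) (h2 l)
  have hs : ∀ k, Metric.closedBall (0 : P2) 20 ⊆ (c k).target := fun k z hz =>
    (h7 k z (mem_closedBall_zero_iff.1 hz)).1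
  have hz : ∀ z ∉ Metric.closedBall (0 : P2) 20, ∀ v : V, bmp 10 20 z • v = 0 := fun z hz v => by
    rw [bmp_zero (le_of_lt (not_le.1 fun h => hz (mem_closedBall_zero_iff.2 h))), zero_smul]
  let w : Fin n → P2 → V := fun k y => bmp 10 20 y • ((c k).rep G y - (G (x k) + O k (0, Lin k y)))
  let v : Fin n → P2 → V := fun k y => bmp 10 20 y • ((c k).rep B y - O k (1, 0))
  have sw : ∀ k, ∀ z ∈ (c k).target, ContDiffAt ℝ ∞ (w k) z := fun k z hz =>
    (bmp_smooth 10 20).contDiffAt.smul (((c k).contDiffAt_rep hG hz).sub (by fun_prop))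
  have sv : ∀ k, ∀ z ∈ (c k).target, ContDiffAt ℝ ∞ (v k) z := fun k z hz =>
    (bmp_smooth 10 20).contDiffAt.smul (((c k).contDiffAt_rep hB hz).sub (by fun_prop))
  have sG : Sm fun p => G p - ∑ k, (c k).ext (w k) p := hG.sub (Sm.sum _ fun k _ =>
    (c k).sm_ext (isCompact_closedBall 0 20) (hs k) (fun z h => hz z h _) (sw k))
  have sB : Sm fun p => B p - ∑ k, (c k).ext (v k) p := hB.sub (Sm.sum _ fun k _ =>
    (c k).sm_ext (isCompact_closedBall 0 20) (hs k) (fun z h => hz z h _) (sv k))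
  have key : ∀ p, (∀ u (t : ℝ), dM (fun p => G p - ∑ k, (c k).ext (w k) p) p u =
      t • (B p - ∑ k, (c k).ext (v k) p) → u = 0) ∧ B p - ∑ k, (c k).ext (v k) p ≠ 0 := by
    intro p
    by_cases hp : ∃ k, p ∈ (c k).inv '' Metric.closedBall (0 : P2) 20
    · obtain ⟨k, hk⟩ := hp
      obtain ⟨a1, a2⟩ := ((c k).mem_inv_image (hs k)).1 hk
      obtain ⟨a3, a4, a5⟩ := h7 k _ (mem_closedBall_zero_iff.1 a2)
      have e1 : (c k).rep (fun p => G p - ∑ k, (c k).ext (w k) p) =ᶠ[𝓝 ((c k).to p)]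
          fun y => (c k).rep G y - w k y := by
        filter_upwards [(c k).open_target.mem_nhds a3] with y hy
        rw [Chart.rep, flat_sum disj w ((c k).inv_mem hy), (c k).to_inv hy, Chart.rep]
      rw [flat_sum disj v a1, ← (c k).rep_to B a1]
      refine ⟨fun u t hu => ?_, a5⟩
      rw [(c k).dM_eq sG a1, e1.fderiv_eq] at hu
      rw [← (c k).pull_push a1 u, a4 _ t hu, map_zero]
    · have e1 : ∀ {F : M → V} {a : Fin n → P2 → V},
          (∀ k, ∀ z ∉ Metric.closedBall (0 : P2) 20, a k z = 0) →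
          (fun p => F p - ∑ k, (c k).ext (a k) p) =ᶠ[𝓝 p] F := fun ha => by
        filter_upwards [eventually_all.2 fun k => (c k).ext_ev_zero (isCompact_closedBall 0 20)
          (hs k) (ha k) fun h => hp ⟨k, h⟩] with q hq
        rw [Finset.sum_eq_zero fun k _ => hq k, sub_zero]
      rw [dM_congr (e1 fun k z h => hz z h _), (e1 (F := B) (a := v)
        fun k z h => hz z h _).eq_of_nhds]
      exact ⟨htr p, h0 p⟩
  have h10 : ∀ k, Metric.closedBall (0 : P2) 10 ⊆ (c k).target := fun k =>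
    (Metric.closedBall_subset_closedBall (by norm_num)).trans (hs k)
  have h11 : ∀ z ∈ Metric.closedBall (0 : P2) 10, bmp 10 20 z = 1 := fun z hz =>
    bmp_one (by norm_num) (by norm_num) (mem_closedBall_zero_iff.1 hz)
  refine ⟨⟨φ, _, _, n, c, O, Lin, fun k => G (x k), hφ, sG, sB, fun p => (key p).1,
    fun p => (key p).2, h10, disj, h3, fun p hp => ?_, h4, h5, h6, fun k z hz => ?_,
    fun k z hz => ?_⟩⟩
  · obtain ⟨k, rfl⟩ : p ∈ range x := hx'.symm ▸ hp
    exact ⟨k, h1 k⟩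
  · rw [flat_sum disj w ((c k).inv_mem (h10 k hz)), (c k).to_inv (h10 k hz)]
    simp only [w, h11 z hz, one_smul, Chart.rep, sub_sub_cancel]
  · rw [flat_sum disj v ((c k).inv_mem (h10 k hz)), (c k).to_inv (h10 k hz)]
    simp only [v, h11 z hz, one_smul, Chart.rep, sub_sub_cancel]

end Vale.Agent.Iso4
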