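import Vale.Agent.Iso4.Geo

/-! Flattening of an immersion of the plane near the origin. -/

open scoped ContDiff Topology Manifold
open Set Filter

noncomputable section
namespace Vale.Agent.Iso4

theorem flat_gs {b1 b2 b3 : V} (h1 : b1 ≠ 0) (h2 : ∀ t : ℝ, b2 - t • b1 ≠ 0)
    (h3 : ∀ t t' : ℝ, b3 - t • b1 - t' • b2 ≠ 0) : ∃ (e1 e2 e3 e4 : V) (r1 r2 s : ℝ),
    ON4 e1 e2 e3 e4 ∧ 0 < r1 ∧ 0 < r2 ∧ b1 = r1 • e1 ∧ b2 = s • e1 + r2 • e2 ∧
      0 < inner ℝ e3 b3 := by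
  obtain ⟨u1, v1⟩ := gs_unit (norm_pos_iff.2 h1)
  obtain ⟨e1, he1⟩ : ∃ e, e = ‖b1‖⁻¹ • b1 := ⟨_, rfl⟩
  obtain ⟨c2, hc2⟩ : ∃ c, c = b2 - inner ℝ b2 e1 • e1 := ⟨_, rfl⟩
  have l2 : c2 ≠ 0 := by
    have := h2 (inner ℝ b2 e1 * ‖b1‖⁻¹)
    rwa [← smul_smul, ← he1, ← hc2] at this
  obtain ⟨u2, v2⟩ := gs_unit (norm_pos_iff.2 l2)
  obtain ⟨e2, he2⟩ : ∃ e, e = ‖c2‖⁻¹ • c2 := ⟨_, rfl⟩
  obtain ⟨c3, hc3⟩ : ∃ c, c = b3 - inner ℝ b3 e1 • e1 - inner ℝ b3 e2 • e2 := ⟨_, rfl⟩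
  have l3 : c3 ≠ 0 := by
    have := h3 ((inner ℝ b3 e1 - inner ℝ b3 e2 * ‖c2‖⁻¹ * inner ℝ b2 e1) * ‖b1‖⁻¹)
      (inner ℝ b3 e2 * ‖c2‖⁻¹)
    refine fun h => this (Eq.trans ?_ h)
    have e : c3 = b3 - inner ℝ b3 e1 • ‖b1‖⁻¹ • b1 -
        inner ℝ b3 e2 • ‖c2‖⁻¹ • (b2 - inner ℝ b2 e1 • ‖b1‖⁻¹ • b1) := by
      rw [← he1, ← hc2, ← he2, hc3]
    rw [e]
    module
  obtain ⟨u3, v3⟩ := gs_unit (norm_pos_iff.2 l3)
  rw [← he1] at u1 v1
  rw [← he2] at u2 v2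
  have o12 : inner ℝ e1 e2 = (0 : ℝ) := by
    rw [he2, real_inner_smul_right, hc2, inner_sub_right, real_inner_smul_right, u1,
      real_inner_comm]
    ring
  obtain ⟨o13, o23⟩ := gs_orth b3 ‖c3‖⁻¹ u1 u2 o12
  rw [← hc3] at o13 o23
  obtain ⟨e3, he3⟩ : ∃ e, e = ‖c3‖⁻¹ • c3 := ⟨_, rfl⟩
  rw [← he3] at u3 v3 o13 o23
  refine ⟨e1, e2, e3, _, ‖b1‖, ‖c2‖, inner ℝ b2 e1, gsCross_on u1 u2 u3 o12 o13 o23,
    norm_pos_iff.2 h1, norm_pos_iff.2 l2, v1, by rw [← v2, hc2]; abel, ?_⟩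
  have e : inner ℝ e3 b3 = inner ℝ e3 (‖c3‖ • e3 + inner ℝ b3 e1 • e1 + inner ℝ b3 e2 • e2) := by
    rw [← v3, hc3]; congr 1; abel
  rw [e, inner_add_right, inner_add_right, real_inner_smul_right, real_inner_smul_right,
    real_inner_smul_right, u3, real_inner_comm e1 e3, o13, real_inner_comm e2 e3, o23]
  simpa using l3

theorem flat_frame (T : P2 →L[ℝ] V) {b : V} (h : ∀ u (t : ℝ), T u = t • b → u = 0) (h0 : b ≠ 0) :
    ∃ (O : ℂ × ℂ →L[ℝ] V) (Lin : P2 →L[ℝ] ℂ), IsoO O ∧ Function.Injective Lin ∧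
      (∃ α : ℝ, 0 < α ∧ Lin (0, 1) = α) ∧ (∀ z, T z = O (0, Lin z)) ∧
        0 < inner ℝ (O (1, 0)) b := by
  have hT : ∀ x y : ℝ, T (x, y) = y • T (0, 1) + x • T (1, 0) := fun x y => by
    rw [← map_smul, ← map_smul, ← map_add]; simp
  obtain ⟨e1, e2, e3, e4, r1, r2, s, ho, h1, h2, h3, h4, h5⟩ := flat_gs (b1 := T (0, 1))
    (b2 := T (1, 0)) (b3 := b) (fun e => one_ne_zero (congrArg Prod.snd (h _ 0 (by rw [e, zero_smul]))))
    (fun t e => by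
      have := h (1, -t) 0 (by rw [hT, zero_smul, ← e]; module)
      simp at this)
    (fun t t' e => by
      have h6 : T (t', t) = (1 : ℝ) • b := by
        rw [hT, one_smul, ← sub_eq_zero, ← neg_eq_zero, ← e]; module
      rw [h _ _ h6, map_zero, one_smul] at h6
      exact h0 h6.symm)
  let O : ℂ × ℂ →L[ℝ] V :=
    (Complex.reCLM.comp (ContinuousLinearMap.fst ℝ ℂ ℂ)).smulRight e3 +
    (Complex.imCLM.comp (ContinuousLinearMap.fst ℝ ℂ ℂ)).smulRight e4 +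
    (Complex.reCLM.comp (ContinuousLinearMap.snd ℝ ℂ ℂ)).smulRight e1 +
    (Complex.imCLM.comp (ContinuousLinearMap.snd ℝ ℂ ℂ)).smulRight e2
  have hO : ∀ a : ℂ × ℂ, O a = a.1.re • e3 + a.1.im • e4 + a.2.re • e1 + a.2.im • e2 :=
    fun _ => rfl
  let Lin : P2 →L[ℝ] ℂ := (ContinuousLinearMap.snd ℝ ℝ ℝ).smulRight (r1 : ℂ) +
    (ContinuousLinearMap.fst ℝ ℝ ℝ).smulRight (s + r2 * Complex.I)
  have hre : ∀ z : P2, (Lin z).re = z.2 * r1 + z.1 * s := fun z => by simp [Lin]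
  have him : ∀ z : P2, (Lin z).im = z.1 * r2 := fun z => by simp [Lin]
  refine ⟨O, Lin, fun a c => ?_, (injective_iff_map_eq_zero Lin).2 fun z hz => ?_,
    ⟨r1, h1, by simp [Lin]⟩, fun z => ?_, by simpa [hO] using h5⟩
  · simp only [hO, inner_add_left, inner_add_right, real_inner_smul_left, real_inner_smul_right,
      ho.h11, ho.h22, ho.h33, ho.h44, ho.h12, ho.h13, ho.h14, ho.h23, ho.h24, ho.h34,
      real_inner_comm e1 e2, real_inner_comm e1 e3, real_inner_comm e1 e4, real_inner_comm e2 e3,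
      real_inner_comm e2 e4, real_inner_comm e3 e4, Complex.inner, Complex.mul_re, Complex.conj_re,
      Complex.conj_im]
    ring
  · have a1 := hre z
    have a2 := him z
    rw [hz] at a1 a2
    have a3 : z.1 = 0 := by simpa [h2.ne'] using a2.symm
    exact Prod.ext a3 (by simpa [a3, h1.ne'] using a1.symm)
  · rw [hO, hre, him, hT z.1 z.2, h3, h4]
    simp only [Complex.zero_re, Complex.zero_im]
    module

theorem flat_alg {T T' : P2 →L[ℝ] V} {n c c' : V} {κ m C η : ℝ} (hη : 0 ≤ η) (hn : ‖n‖ = 1)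
    (hT : ∀ u, inner ℝ n (T u) = (0 : ℝ)) (hκ : Imm κ T) (hT' : ∀ u, ‖T' u - T u‖ ≤ η * ‖u‖)
    (hm : m ≤ inner ℝ n c) (hC : ‖c‖ ≤ C) (hc : ‖c' - c‖ ≤ η) (h1 : η < m)
    (h2 : η * (C + η) < (κ - η) * (m - η)) :
    (∀ u (t : ℝ), T' u = t • c' → u = 0) ∧ c' ≠ 0 := by
  have a1 : m - η ≤ inner ℝ n c' := by
    have := abs_real_inner_le_norm n (c' - c)
    rw [inner_sub_right, hn, one_mul] at this
    linarith [(abs_le.1 (this.trans hc)).1]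
  refine ⟨fun u t h => by_contra fun hu => ?_, fun h => by
    rw [h, inner_zero_right] at a1; linarith⟩
  have a2 := norm_pos_iff.2 hu
  have a3 : |t| * (m - η) ≤ η * ‖u‖ := by
    have := abs_real_inner_le_norm n (T' u - T u)
    rw [inner_sub_right, hn, one_mul, hT, sub_zero, h, real_inner_smul_right, abs_mul, ← h] at this
    exact (mul_le_mul_of_nonneg_left (a1.trans (le_abs_self _)) (abs_nonneg _)).trans
      (this.trans (hT' u))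
  have a4 : (κ - η) * ‖u‖ ≤ |t| * (C + η) := by
    refine (hκ.pert hT' u).trans ?_
    rw [h, norm_smul, Real.norm_eq_abs]
    refine mul_le_mul_of_nonneg_left ?_ (abs_nonneg _)
    have := norm_add_le (c' - c) c
    rw [sub_add_cancel] at this
    linarith
  have a5 : 0 ≤ C + η := by linarith [norm_nonneg c]
  have a6 := mul_le_mul_of_nonneg_right a3 a5
  have a7 := mul_le_mul_of_nonneg_right a4 (sub_pos.2 h1).le
  nlinarith [mul_lt_mul_of_pos_right h2 a2]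

theorem flat_plane {f b : P2 → V} {U : Set P2} (hU : U ∈ 𝓝 (0 : P2))
    (hf : ContDiffAt ℝ ∞ f 0) (hb : ContinuousAt b 0)
    (h : ∀ u (t : ℝ), fderiv ℝ f 0 u = t • b 0 → u = 0) (h0 : b 0 ≠ 0) :
    ∃ (τ : ℝ) (O : ℂ × ℂ →L[ℝ] V) (Lin : P2 →L[ℝ] ℂ), 0 < τ ∧ IsoO O ∧ Function.Injective Lin ∧
      (∃ α : ℝ, 0 < α ∧ Lin (0, 1) = α) ∧ ∀ z : P2, ‖z‖ ≤ 20 → τ • z ∈ U ∧
        (∀ u (t : ℝ), fderiv ℝ (fun y => f (τ • y) - bmp 10 20 y •
          (f (τ • y) - (f 0 + O (0, Lin y)))) z u =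
          t • (b (τ • z) - bmp 10 20 z • (b (τ • z) - O (1, 0))) → u = 0) ∧
        b (τ • z) - bmp 10 20 z • (b (τ • z) - O (1, 0)) ≠ 0 := by
  obtain ⟨O, Lin, hO, hL, ⟨α, hα, hα'⟩, hT, hn⟩ := flat_frame _ h h0
  obtain ⟨T, hT0⟩ : ∃ T, T = fderiv ℝ f 0 := ⟨_, rfl⟩
  rw [← hT0] at h hT
  have n1 : inner ℝ (O (1, 0)) (O (1, 0)) = (1 : ℝ) := by rw [hO]; simp
  have n2 : ‖O (1, 0)‖ = 1 := by rw [norm_eq_sqrt_real_inner, n1, Real.sqrt_one]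
  have n3 : ∀ u, inner ℝ (O (1, 0)) (T u) = (0 : ℝ) := fun u => by rw [hT, hO]; simp
  obtain ⟨κ, hκ, hκ'⟩ : ∃ κ : ℝ, 0 < κ ∧ Imm κ T := by
    obtain ⟨K, hK, hK'⟩ := (T : P2 →ₗ[ℝ] V).exists_antilipschitzWith
      (LinearMap.ker_eq_bot'.2 fun u hu => h u 0 (by rw [zero_smul]; exact hu))
    refine ⟨(K : ℝ)⁻¹, by positivity, fun u => ?_⟩
    rw [inv_mul_le_iff₀ (by positivity)]
    simpa using hK'.le_mul_dist u 0
  obtain ⟨D, hD⟩ := ((bmp_supp 10 20).fderiv ℝ).exists_bound_of_continuous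
    ((bmp_smooth 10 20).continuous_fderiv (by simp))
  have hD0 : 0 ≤ D := (norm_nonneg _).trans (hD 0)
  obtain ⟨m, hm, hm1, hm2⟩ : ∃ m : ℝ, 0 < m ∧ m ≤ 1 ∧ m ≤ inner ℝ (O (1, 0)) (b 0) :=
    ⟨min 1 _, lt_min one_pos hn, min_le_left _ _, min_le_right _ _⟩
  obtain ⟨η, ⟨h1, h2⟩, hη⟩ : ∃ η : ℝ, (η < m ∧ η * (‖b 0‖ + 1 + η) < (κ - η) * (m - η)) ∧
      η ∈ Ioi (0 : ℝ) := by
    have k1 : ∀ᶠ η in 𝓝 (0 : ℝ), η * (‖b 0‖ + 1 + η) < (κ - η) * (m - η) :=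
      ContinuousAt.eventually_lt (by fun_prop) (by fun_prop) (by simpa using mul_pos hκ hm)
    have k2 : ∀ᶠ η in 𝓝[>] (0 : ℝ), η ∈ Ioi (0 : ℝ) := self_mem_nhdsWithin
    exact (((Eventually.and (gt_mem_nhds hm) k1).filter_mono nhdsWithin_le_nhds).and k2).exists
  have hη0 : 0 < η := hη
  obtain ⟨ε, hε, hε'⟩ : ∃ ε : ℝ, 0 < ε ∧ ε * (1 + 20 * D) = η :=
    ⟨η / (1 + 20 * D), by positivity, div_mul_cancel₀ _ (by positivity)⟩
  have e1 : ∀ᶠ y in 𝓝 (0 : P2), ‖fderiv ℝ f y - T‖ ≤ ε := by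
    have := (hf.continuousAt_fderiv (by simp)).eventually (Metric.closedBall_mem_nhds _ hε)
    rw [hT0]
    exact this.mono fun y hy => mem_closedBall_iff_norm.1 hy
  have e2 : ∀ᶠ y in 𝓝 (0 : P2), ‖f y - f 0 - T y‖ ≤ ε * ‖y‖ := by
    have := (hf.differentiableAt (by simp)).hasFDerivAt.isLittleO.def hε
    simpa only [sub_zero, ← hT0] using this
  have e3 : ∀ᶠ y in 𝓝 (0 : P2), ‖b y - b 0‖ ≤ η :=
    (hb.eventually (Metric.closedBall_mem_nhds _ hη0)).mono fun y hy => mem_closedBall_iff_norm.1 hy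
  have e4 : ∀ᶠ y in 𝓝 (0 : P2), DifferentiableAt ℝ f y :=
    ((hf.of_le (show (1 : WithTop ℕ∞) ≤ ∞ by simp)).eventually (by simp)).mono
      fun y hy => hy.differentiableAt (by simp)
  obtain ⟨δ, hδ, hδ'⟩ := Metric.nhds_basis_closedBall.eventually_iff.1
    ((((e1.and e2).and e3).and e4).and hU)
  obtain ⟨τ, hτ, hτ'⟩ : ∃ τ : ℝ, 0 < τ ∧ τ * 20 = δ := ⟨δ / 20, by positivity, by ring⟩
  refine ⟨τ, O, τ • Lin, hτ, hO, fun x y hxy => hL (smul_right_injective ℂ hτ.ne' hxy),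
    ⟨τ * α, by positivity, by simp [hα']⟩, fun z hz => ?_⟩
  have hz' : ‖τ • z‖ ≤ τ * 20 := by
    rw [norm_smul, Real.norm_of_nonneg hτ.le]; exact mul_le_mul_of_nonneg_left hz hτ.le
  obtain ⟨⟨⟨⟨a1, a2⟩, a3⟩, a4⟩, a5⟩ := hδ' (mem_closedBall_zero_iff.2 (hτ' ▸ hz'))
  have hχ := bmp_mem 10 20 z
  have hb' := ((bmp_smooth 10 20).differentiable (by simp) z).hasFDerivAt
  have d1 := a4.hasFDerivAt.comp z ((hasFDerivAt_id z).fun_const_smul τ)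
  have d2 := d1.fun_sub (hb'.fun_smul (d1.fun_sub
    (((τ • T).hasFDerivAt (x := z)).const_add (f 0))))
  have d3 : (fun y => f (τ • y) - bmp 10 20 y • (f (τ • y) - (f 0 + O (0, (τ • Lin) y)))) =
      fun y => (f ∘ HSMul.hSMul τ) y - bmp 10 20 y • ((f ∘ HSMul.hSMul τ) y -
        (f 0 + (τ • T) y)) := by
    funext y
    simp only [Function.comp_apply, ContinuousLinearMap.smul_apply, hT, ← O.map_smul,
      Prod.smul_mk, smul_zero]
  have key := flat_alg (T' := (1 - bmp 10 20 z) • fderiv ℝ f (τ • z) + bmp 10 20 z • T -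
      (fderiv ℝ (bmp 10 20) z).smulRight (τ⁻¹ • (f (τ • z) - f 0 - T (τ • z))))
    (c := b 0 - bmp 10 20 z • (b 0 - O (1, 0)))
    (c' := b (τ • z) - bmp 10 20 z • (b (τ • z) - O (1, 0))) hη0.le n2 n3 hκ' (fun u => ?_)
    (m := m) ?_ (C := ‖b 0‖ + 1) ?_ ?_ h1 h2
  · refine ⟨a5, fun u t hu => key.1 u (τ⁻¹ * t) ?_, key.2⟩
    rw [d3, d2.fderiv] at hu
    rw [← smul_smul, ← hu, eq_inv_smul_iff₀ hτ.ne']
    simp only [ContinuousLinearMap.sub_apply, ContinuousLinearMap.add_apply,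
      ContinuousLinearMap.smul_apply, ContinuousLinearMap.smulRight_apply,
      ContinuousLinearMap.comp_apply, ContinuousLinearMap.id_apply, map_smul, Function.comp_apply,
      id]
    match_scalars <;> field_simp <;> ring
  · have e : ((1 - bmp 10 20 z) • fderiv ℝ f (τ • z) + bmp 10 20 z • T -
        (fderiv ℝ (bmp 10 20) z).smulRight (τ⁻¹ • (f (τ • z) - f 0 - T (τ • z)))) u - T u =
        (1 - bmp 10 20 z) • (fderiv ℝ f (τ • z) - T) u -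
          fderiv ℝ (bmp 10 20) z u • τ⁻¹ • (f (τ • z) - f 0 - T (τ • z)) := by
      simp only [ContinuousLinearMap.sub_apply, ContinuousLinearMap.add_apply,
        ContinuousLinearMap.smul_apply, ContinuousLinearMap.smulRight_apply]
      module
    have b1 : ‖(1 - bmp 10 20 z) • (fderiv ℝ f (τ • z) - T) u‖ ≤ 1 * (ε * ‖u‖) := by
      rw [norm_smul, Real.norm_of_nonneg (sub_nonneg.2 hχ.2)]
      exact mul_le_mul (by linarith [hχ.1]) (ContinuousLinearMap.le_of_opNorm_le _ a1 u)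
        (norm_nonneg _) zero_le_one
    have b2 : ‖fderiv ℝ (bmp 10 20) z u • τ⁻¹ • (f (τ • z) - f 0 - T (τ • z))‖ ≤
        D * ‖u‖ * (ε * 20) := by
      rw [norm_smul, norm_smul, Real.norm_of_nonneg (inv_pos.2 hτ).le]
      refine mul_le_mul (ContinuousLinearMap.le_of_opNorm_le _ (hD z) u) ?_ (by positivity)
        (by positivity)
      rw [inv_mul_le_iff₀ hτ]
      nlinarith [mul_le_mul_of_nonneg_left hz' hε.le]
    rw [e, ← hε']
    linarith [norm_sub_le ((1 - bmp 10 20 z) • (fderiv ℝ f (τ • z) - T) u)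
      (fderiv ℝ (bmp 10 20) z u • τ⁻¹ • (f (τ • z) - f 0 - T (τ • z)))]
  · rw [inner_sub_right, real_inner_smul_right, inner_sub_right, n1]
    nlinarith [mul_le_mul_of_nonneg_left hm1 hχ.1,
      mul_le_mul_of_nonneg_left hm2 (sub_nonneg.2 hχ.2)]
  · rw [show b 0 - bmp 10 20 z • (b 0 - O (1, 0)) = (1 - bmp 10 20 z) • b 0 +
      bmp 10 20 z • O (1, 0) by module]
    refine (norm_add_le _ _).trans ?_
    rw [norm_smul, norm_smul, n2, Real.norm_of_nonneg (sub_nonneg.2 hχ.2),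
      Real.norm_of_nonneg hχ.1]
    nlinarith [hχ.1, hχ.2, mul_nonneg hχ.1 (norm_nonneg (b 0))]
  · rw [show b (τ • z) - bmp 10 20 z • (b (τ • z) - O (1, 0)) - (b 0 - bmp 10 20 z •
      (b 0 - O (1, 0))) = (1 - bmp 10 20 z) • (b (τ • z) - b 0) by module, norm_smul,
      Real.norm_of_nonneg (sub_nonneg.2 hχ.2)]
    nlinarith [hχ.1, mul_nonneg hχ.1 (norm_nonneg (b (τ • z) - b 0))]

end Vale.Agent.Iso4
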