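import Vale.Agent.Iso4.ManA

/-! Products of functions with simple zeros, and the belt trick. -/

open scoped ContDiff Topology ComplexConjugate
open Set Filter

noncomputable section
namespace Vale.Agent.Iso4

variable {f1 f2 : P2 → ℂ} {z0 : P2}

theorem lz_aux {T1 T2 : P2 →L[ℝ] ℂ} (h1 : HasFDerivAt f1 T1 z0) (h2 : HasFDerivAt f2 T2 z0)
    (z1 : f1 z0 = 0) (z2 : f2 z0 = 0) {α : ℂ} (hα : ‖α‖ = 1) {c : ℝ} (hc0 : 0 < c)
    (hc : ∀ v, c * ‖v‖ ^ 2 ≤ (α * (T1 v * T2 v)).re) :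
    ∀ᶠ z in 𝓝[≠] z0, 0 < (α * (f1 z * f2 z)).re := by
  have o1 := h1.isLittleO
  have o2 := h2.isLittleO
  have b2 := h2.isBigO_sub
  have b1 := T1.isBigO_comp (fun z => z - z0) (𝓝 z0)
  simp only [z1, z2, sub_zero] at o1 o2 b2
  have o := (o1.norm_right.mul_isBigO b2.norm_right).add (b1.norm_right.mul_isLittleO o2.norm_right)
  filter_upwards [mem_nhdsWithin_of_mem_nhds (o.def (half_pos hc0)), self_mem_nhdsWithin]
    with z hz hz0
  have h3 : 0 < ‖z - z0‖ := norm_pos_iff.2 (sub_ne_zero.2 hz0)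
  have h4 := hc (z - z0)
  have h5 : α * (f1 z * f2 z) = α * (T1 (z - z0) * T2 (z - z0)) +
      α * ((f1 z - T1 (z - z0)) * f2 z + T1 (z - z0) * (f2 z - T2 (z - z0))) := by ring
  have h6 := (abs_le.1 (Complex.abs_re_le_norm
    (α * ((f1 z - T1 (z - z0)) * f2 z + T1 (z - z0) * (f2 z - T2 (z - z0)))))).1
  rw [norm_mul, hα, one_mul] at h6
  rw [Real.norm_of_nonneg (by positivity)] at hz
  rw [h5, Complex.add_re]
  nlinarith [mul_pos hc0 (mul_pos h3 h3)]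

theorem lz_unit {a b : ℂ} (h : ‖b‖ < ‖a‖) : ∃ α : ℂ, ‖α‖ = 1 ∧ ∀ w : ℂ,
    (‖a‖ - ‖b‖) * ‖w‖ ^ 2 ≤ (α * ((a * w + b * conj w) * conj w)).re := by
  have ha : ‖a‖ ≠ 0 := ((norm_nonneg b).trans_lt h).ne'
  have ha' : (‖a‖ : ℂ) ≠ 0 := by exact_mod_cast ha
  have hα : ‖conj a / (‖a‖ : ℂ)‖ = 1 := by simp [ha]
  refine ⟨conj a / ‖a‖, hα, fun w => ?_⟩
  have h1 : conj a / ‖a‖ * ((a * w + b * conj w) * conj w) =
      ((‖a‖ * ‖w‖ ^ 2 : ℝ) : ℂ) + conj a / ‖a‖ * (b * conj w * conj w) := by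
    have h2 := Complex.mul_conj' a
    have h3 := Complex.mul_conj' w
    push_cast
    field_simp
    linear_combination (w * conj w) * h2 + (‖a‖ : ℂ) ^ 2 * h3
  have h2 := (abs_le.1 (Complex.abs_re_le_norm (conj a / ‖a‖ * (b * conj w * conj w)))).1
  rw [norm_mul, hα, norm_mul, norm_mul, Complex.norm_conj] at h2
  rw [h1, Complex.add_re, Complex.ofReal_re]
  linarith

theorem lz_lin {T1 T2 : P2 →L[ℝ] ℂ} (i1 : Function.Injective T1) (i2 : Function.Injective T2) :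
    ∃ a b : ℂ, ‖a‖ ≠ ‖b‖ ∧ ∀ v, T1 v = a * T2 v + b * conj (T2 v) := by
  have hs : Function.Surjective (T2 : P2 →ₗ[ℝ] ℂ) :=
    (LinearMap.injective_iff_surjective_of_finrank_eq_finrank (by simp)).1 i2
  obtain ⟨e1, he1⟩ := hs 1
  obtain ⟨e2, he2⟩ := hs Complex.I
  replace he1 : T2 e1 = 1 := he1
  replace he2 : T2 e2 = Complex.I := he2
  refine ⟨(T1 e1 - Complex.I * T1 e2) / 2, (T1 e1 + Complex.I * T1 e2) / 2, fun h => ?_,
    fun v => ?_⟩
  · have h1 : (T1 e1).re * (T1 e2).im - (T1 e1).im * (T1 e2).re = 0 := by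
      have h2 := congrArg (fun x : ℝ => x ^ 2) h
      simp only [Complex.sq_norm, Complex.normSq_apply] at h2
      simp at h2
      linarith
    have h2 : T1 ((-((T1 e1).re * (T1 e2).re + (T1 e1).im * (T1 e2).im)) • e1 +
        ((T1 e1).re ^ 2 + (T1 e1).im ^ 2) • e2) = T1 0 := by
      rw [map_add, map_smul, map_smul, map_zero]
      refine Complex.ext ?_ ?_
      · simp only [Complex.add_re, Complex.smul_re, smul_eq_mul, Complex.zero_re]
        linear_combination (-(T1 e1).im) * h1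
      · simp only [Complex.add_im, Complex.smul_im, smul_eq_mul, Complex.zero_im]
        linear_combination (T1 e1).re * h1
    have h3 := congrArg (fun v => (T2 v).im) (i1 h2)
    simp only [map_add, map_smul, he1, he2, map_zero, Complex.add_im, Complex.smul_im,
      Complex.one_im, Complex.I_im, smul_eq_mul, mul_zero, mul_one, zero_add,
      Complex.zero_im] at h3
    have h4 : T1 e1 = T1 0 := by
      rw [map_zero]
      exact Complex.ext (by simp; nlinarith) (by simp; nlinarith)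
    rw [i1 h4, map_zero] at he1
    exact zero_ne_one he1
  · have hv : v = (T2 v).re • e1 + (T2 v).im • e2 := i2 (by
      rw [map_add, map_smul, map_smul, he1, he2]
      refine Complex.ext ?_ ?_ <;> simp)
    generalize T2 v = w at hv
    rw [hv, map_add, map_smul, map_smul]
    refine Complex.ext ?_ ?_ <;> simp <;> ring

theorem lemZ (h1 : DifferentiableAt ℝ f1 z0) (h2 : DifferentiableAt ℝ f2 z0) (z1 : f1 z0 = 0)
    (z2 : f2 z0 = 0) (i1 : Function.Injective (fderiv ℝ f1 z0))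
    (i2 : Function.Injective (fderiv ℝ f2 z0)) : ∃ α : ℂ, ‖α‖ = 1 ∧
      ((∀ᶠ z in 𝓝[≠] z0, 0 < (α * (f1 z * f2 z)).re) ∨
        ∀ᶠ z in 𝓝[≠] z0, 0 < (α * (f1 z * conj (f2 z))).re) := by
  obtain ⟨a, b, hab, hT⟩ := lz_lin i1 i2
  obtain ⟨K, hK0, hK⟩ := LinearMap.exists_antilipschitzWith _ (LinearMap.ker_eq_bot.2
    (show Function.Injective (fderiv ℝ f2 z0).toLinearMap from i2))
  have hK0' : (0 : ℝ) < K := hK0
  have hb : ∀ {c : ℝ}, 0 < c → ∀ v, c / K ^ 2 * ‖v‖ ^ 2 ≤ c * ‖fderiv ℝ f2 z0 v‖ ^ 2 := by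
    intro c hc v
    have h3 : ‖v‖ ≤ K * ‖fderiv ℝ f2 z0 v‖ := by simpa using hK.le_mul_dist v 0
    have h4 := pow_le_pow_left₀ (norm_nonneg _) h3 2
    rw [div_mul_eq_mul_div, div_le_iff₀ (by positivity)]
    nlinarith [mul_le_mul_of_nonneg_left h4 hc.le]
  rcases lt_or_gt_of_ne hab with h | h
  · obtain ⟨α, hα, hw⟩ := lz_unit h
    have hc := sub_pos.2 h
    refine ⟨α, hα, Or.inl (lz_aux h1.hasFDerivAt h2.hasFDerivAt z1 z2 hα
      (c := (‖b‖ - ‖a‖) / K ^ 2) (by positivity) fun v => (hb hc v).trans ?_)⟩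
    have h3 := hw (conj (fderiv ℝ f2 z0 v))
    rwa [Complex.norm_conj, Complex.conj_conj, add_comm, ← hT] at h3
  · obtain ⟨α, hα, hw⟩ := lz_unit h
    have hc := sub_pos.2 h
    refine ⟨α, hα, Or.inr (lz_aux (f2 := fun z => conj (f2 z)) h1.hasFDerivAt
      ((Complex.conjCLE : ℂ →L[ℝ] ℂ).hasFDerivAt.comp z0 h2.hasFDerivAt) z1 (by simp [z2]) hα
      (c := (‖a‖ - ‖b‖) / K ^ 2) (by positivity) fun v => (hb hc v).trans ?_)⟩
    have h3 := hw (fderiv ℝ f2 z0 v)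
    rwa [← hT] at h3

/-- rotation by the quaternion `f + χ j` -/
def lzR (f : ℂ) (χ : ℝ) (w : ℂ) (t : ℝ) : ℂ × ℝ :=
  (f.re ^ 2 + f.im ^ 2 + χ ^ 2)⁻¹ • (f ^ 2 * w + χ ^ 2 • conj w - (2 * χ * t) • (Complex.I * f),
    t * (f.re ^ 2 + f.im ^ 2 - χ ^ 2) + 2 * χ * (f * w).im)

theorem lzR_zero {f w : ℂ} {χ t : ℝ} (hN : f.re ^ 2 + f.im ^ 2 + χ ^ 2 ≠ 0)
    (h : lzR f χ w t = 0) : w = 0 ∧ t = 0 := by
  have h1 := (smul_eq_zero.1 h).resolve_left (inv_ne_zero hN)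
  have h2 := congrArg (fun x : ℂ × ℝ => x.1.re) h1
  have h3 := congrArg (fun x : ℂ × ℝ => x.1.im) h1
  have h4 := congrArg (fun x : ℂ × ℝ => x.2) h1
  simp only [sq, Complex.sub_re, Complex.add_re, Complex.mul_re, Complex.mul_im, Complex.smul_re,
    Complex.smul_im, Complex.sub_im, Complex.add_im, Complex.conj_re, Complex.conj_im,
    Complex.I_re, Complex.I_im, smul_eq_mul, Prod.fst_zero, Prod.snd_zero, Complex.zero_re,
    Complex.zero_im] at h2 h3 h4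
  have h5 : (f.re ^ 2 + f.im ^ 2 + χ ^ 2) ^ 2 * (w.re ^ 2 + w.im ^ 2 + t ^ 2) = 0 := by
    have h6 := congrArg₂ (· + ·) (congrArg₂ (· + ·) (congrArg (· ^ 2) h2) (congrArg (· ^ 2) h3))
      (congrArg (· ^ 2) h4)
    linear_combination h6
  have h6 := (mul_eq_zero.1 h5).resolve_left (pow_ne_zero 2 hN)
  exact ⟨Complex.ext (by simp; nlinarith) (by simp; nlinarith), by nlinarith⟩

theorem lzR_sub (f w : ℂ) (χ t s : ℝ) : lzR f χ w (t - s) = lzR f χ w t - s • lzR f χ 0 1 := by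
  unfold lzR
  rw [smul_comm s, ← smul_sub]
  congr 1
  refine Prod.ext (Complex.ext ?_ ?_) ?_ <;> simp <;> ring

theorem lzR_out {f : ℂ} (hf : f.re ^ 2 + f.im ^ 2 + 0 ^ 2 ≠ 0) (g : ℂ) (t : ℝ) :
    lzR f 0 (g * conj f) t = (g * f, t) ∧ lzR f 0 0 1 = (0, 1) := by
  have hf' : f.re ^ 2 + f.im ^ 2 ≠ 0 := by simpa using hf
  unfold lzR
  rw [inv_smul_eq_iff₀ hf, inv_smul_eq_iff₀ hf]
  refine ⟨Prod.ext (Complex.ext ?_ ?_) ?_, Prod.ext ?_ ?_⟩ <;> simp [sq] <;> ring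

theorem lzR_smooth {f w : P2 → ℂ} {χ t : P2 → ℝ} {z : P2} (hf : ContDiffAt ℝ ∞ f z)
    (hw : ContDiffAt ℝ ∞ w z) (hχ : ContDiffAt ℝ ∞ χ z) (ht : ContDiffAt ℝ ∞ t z)
    (hN : (f z).re ^ 2 + (f z).im ^ 2 + χ z ^ 2 ≠ 0) :
    ContDiffAt ℝ ∞ (fun z => lzR (f z) (χ z) (w z) (t z)) z := by
  have h1 : ContDiffAt ℝ ∞ (fun z => (f z).re) z := Complex.reCLM.contDiff.contDiffAt.comp z hf
  have h2 : ContDiffAt ℝ ∞ (fun z => (f z).im) z := Complex.imCLM.contDiff.contDiffAt.comp z hf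
  have h3 : ContDiffAt ℝ ∞ (fun z => conj (w z)) z :=
    Complex.conjCLE.contDiff.contDiffAt.comp z hw
  have h4 : ContDiffAt ℝ ∞ (fun z => (f z * w z).im) z :=
    Complex.imCLM.contDiff.contDiffAt.comp z (hf.mul hw)
  unfold lzR
  exact ((((h1.pow 2).add (h2.pow 2)).add (hχ.pow 2)).inv hN).smul
    (((((hf.pow 2).mul hw).add ((hχ.pow 2).smul h3)).sub
      (((contDiffAt_const.mul hχ).mul ht).smul (contDiffAt_const.mul hf))).prodMk
      ((ht.mul (((h1.pow 2).add (h2.pow 2)).sub (hχ.pow 2))).add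
        ((contDiffAt_const.mul hχ).mul h4)))

theorem lz_ne {α F : ℂ} {χ : ℝ} (hα : ‖α‖ = 1) (h : 0 < (α * F).re + χ) : F + χ • conj α ≠ 0 := by
  intro h0
  have h1 : α * (F + χ • conj α) = α * F + χ := by
    have h2 := Complex.mul_conj' α
    rw [hα, Complex.ofReal_one] at h2
    rw [Complex.real_smul]
    linear_combination (χ : ℂ) * h2
  rw [h0, mul_zero] at h1
  have h2 := congrArg Complex.re h1
  simp only [Complex.zero_re, Complex.add_re, Complex.ofReal_re] at h2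
  linarith

/-- a bump inside a neighbourhood -/
theorem lz_bump {O : Set P2} (hO : O ∈ 𝓝 z0) : ∃ (r : ℝ) (χ : P2 → ℝ), 0 < r ∧
    Metric.ball z0 (2 * r) ⊆ O ∧ ContDiff ℝ ∞ χ ∧ (∀ z, 0 ≤ χ z) ∧ (χ =ᶠ[𝓝 z0] fun _ => 1) ∧
    ∀ z ∉ Metric.closedBall z0 r, χ z = 0 := by
  obtain ⟨ε, hε, hb⟩ := Metric.mem_nhds_iff.1 hO
  let χ : ContDiffBump z0 := ⟨ε / 4, ε / 2, by positivity, by linarith⟩
  refine ⟨ε / 2, χ, by positivity, by rwa [mul_div_cancel₀ _ two_ne_zero], χ.contDiff,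
    fun z => χ.nonneg, χ.eventuallyEq_one, fun z hz => χ.zero_of_le_dist ?_⟩
  exact (not_le.1 hz).le

/-- The pair `((f1 * f2, h), (0, 1))` is modified near `z0` into a pair of independent vectors. -/
theorem belt {h : P2 → ℝ} {O : Set P2} (hO : IsOpen O) (h0 : z0 ∈ O)
    (h1 : ∀ z ∈ O, ContDiffAt ℝ ∞ f1 z) (h2 : ∀ z ∈ O, ContDiffAt ℝ ∞ f2 z)
    (h3 : ∀ z ∈ O, ContDiffAt ℝ ∞ h z) (z1 : f1 z0 = 0) (z2 : f2 z0 = 0)
    (i1 : Function.Injective (fderiv ℝ f1 z0)) (i2 : Function.Injective (fderiv ℝ f2 z0)) :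
    ∃ (K : Set P2) (a b : P2 → ℂ × ℝ), IsCompact K ∧ K ⊆ O ∧ z0 ∈ K ∧
      (∀ z ∈ O, ContDiffAt ℝ ∞ a z) ∧ (∀ z ∈ O, ContDiffAt ℝ ∞ b z) ∧
      (∀ z ∉ K, a z = (f1 z * f2 z, h z) ∧ b z = (0, 1)) ∧
      ∀ z ∈ K, b z ≠ 0 ∧ ∀ t : ℝ, a z ≠ t • b z := by
  obtain ⟨α, hα, hc⟩ := lemZ ((h1 z0 h0).differentiableAt (by simp))
    ((h2 z0 h0).differentiableAt (by simp)) z1 z2 i1 i2
  rcases hc with hc | hc
  · obtain ⟨r, χ, hr, hb, hχ, hχ0, hχ1, hχ2⟩ :=
      lz_bump (inter_mem (hO.mem_nhds h0) (eventually_nhdsWithin_iff.1 hc))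
    have hK : Metric.closedBall z0 r ⊆ Metric.ball z0 (2 * r) :=
      Metric.closedBall_subset_ball (by linarith)
    refine ⟨Metric.closedBall z0 r, fun z => (f1 z * f2 z + χ z • conj α, h z), fun _ => (0, 1),
      isCompact_closedBall _ _, fun z hz => (hb (hK hz)).1, Metric.mem_closedBall_self hr.le,
      fun z hz => (((h1 z hz).mul (h2 z hz)).add (hχ.contDiffAt.smul contDiffAt_const)).prodMk
        (h3 z hz), fun z _ => contDiffAt_const, fun z hz => by simp [hχ2 z hz],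
      fun z hz => ⟨by simp, fun t ht => lz_ne (F := f1 z * f2 z) (χ := χ z) hα ?_ ?_⟩⟩
    · by_cases hz0 : z = z0
      · simp [hz0, z1, hχ1.eq_of_nhds]
      · exact add_pos_of_pos_of_nonneg ((hb (hK hz)).2 hz0) (hχ0 z)
    · simpa using congrArg Prod.fst ht
  classical
  obtain ⟨r, χ, hr, hb, hχ, hχ0, hχ1, hχ2⟩ :=
    lz_bump (inter_mem (hO.mem_nhds h0) (eventually_nhdsWithin_iff.1 hc))
  have hK : Metric.closedBall z0 r ⊆ Metric.ball z0 (2 * r) :=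
    Metric.closedBall_subset_ball (by linarith)
  have hN : ∀ z ∈ Metric.ball z0 (2 * r), (f2 z).re ^ 2 + (f2 z).im ^ 2 + χ z ^ 2 ≠ 0 := by
    intro z hz hn
    by_cases hz0 : z = z0
    · simp [hz0, z2, hχ1.eq_of_nhds] at hn
    · have h4 : f2 z = 0 := Complex.ext (by simp; nlinarith) (by simp; nlinarith)
      simpa [h4] using (hb hz).2 hz0
  let a : P2 → ℂ × ℝ := fun z => if z ∈ Metric.closedBall z0 r then
    lzR (f2 z) (χ z) (f1 z * conj (f2 z) + χ z • conj α) (h z) else (f1 z * f2 z, h z)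
  let b : P2 → ℂ × ℝ := fun z => if z ∈ Metric.closedBall z0 r then
    lzR (f2 z) (χ z) 0 1 else (0, 1)
  have hab : ∀ z ∈ Metric.ball z0 (2 * r),
      a z = lzR (f2 z) (χ z) (f1 z * conj (f2 z) + χ z • conj α) (h z) ∧
        b z = lzR (f2 z) (χ z) 0 1 := fun z hz => by
    by_cases hz' : z ∈ Metric.closedBall z0 r
    · simp only [a, b, if_pos hz', and_self]
    · have h4 := hN z hz
      rw [hχ2 z hz'] at h4
      simp only [a, b, if_neg hz', hχ2 z hz', zero_smul, add_zero, lzR_out h4 (f1 z) (h z),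
        and_self]
  have hout : ∀ z ∉ Metric.closedBall z0 r, a z = (f1 z * f2 z, h z) ∧ b z = (0, 1) :=
    fun z hz => by simp only [a, b, if_neg hz, and_self]
  refine ⟨Metric.closedBall z0 r, a, b, isCompact_closedBall _ _, fun z hz => (hb (hK hz)).1,
    Metric.mem_closedBall_self hr.le, fun z hz => ?_, fun z hz => ?_, hout, fun z hz => ?_⟩
  · by_cases hz' : z ∈ Metric.closedBall z0 r
    · refine (lzR_smooth (h2 z hz) (((h1 z hz).mul
        (Complex.conjCLE.contDiff.contDiffAt.comp z (h2 z hz))).add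
        (hχ.contDiffAt.smul (contDiffAt_const (c := conj α)))) hχ.contDiffAt (h3 z hz)
        (hN z (hK hz'))).congr_of_eventuallyEq ?_
      filter_upwards [Metric.isOpen_ball.mem_nhds (hK hz')] with y hy using (hab y hy).1
    · refine (((h1 z hz).mul (h2 z hz)).prodMk (h3 z hz)).congr_of_eventuallyEq ?_
      filter_upwards [Metric.isClosed_closedBall.isOpen_compl.mem_nhds hz'] with y hy
        using (hout y hy).1
  · by_cases hz' : z ∈ Metric.closedBall z0 r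
    · refine (lzR_smooth (h2 z hz) (contDiffAt_const (c := 0)) hχ.contDiffAt
        (contDiffAt_const (c := 1)) (hN z (hK hz'))).congr_of_eventuallyEq ?_
      filter_upwards [Metric.isOpen_ball.mem_nhds (hK hz')] with y hy using (hab y hy).2
    · refine (contDiffAt_const (c := ((0, 1) : ℂ × ℝ))).congr_of_eventuallyEq ?_
      filter_upwards [Metric.isClosed_closedBall.isOpen_compl.mem_nhds hz'] with y hy
        using (hout y hy).2
  · rw [(hab z (hK hz)).1, (hab z (hK hz)).2]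
    refine ⟨fun hn => one_ne_zero (lzR_zero (hN z (hK hz)) hn).2, fun t ht => ?_⟩
    rw [← sub_eq_zero, ← lzR_sub] at ht
    refine lz_ne hα ?_ (lzR_zero (hN z (hK hz)) ht).1
    by_cases hz0 : z = z0
    · simp [hz0, z1, hχ1.eq_of_nhds]
    · exact add_pos_of_pos_of_nonneg ((hb (hK hz)).2 hz0) (hχ0 z)

end Vale.Agent.Iso4
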