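import Vale.Agent.Iso4.ManB
import Vale.Agent.P234.Flow

/-! Atlases and special charts. -/

open scoped ContDiff Topology Manifold
open Set Filter

noncomputable section
namespace Vale.Agent.Iso4

variable {M : Type*} [TopologicalSpace M] [ChartedSpace E2 M]

theorem exists_atl [CompactSpace M] {S : Set M} (hS : IsClosed S) (P : Chart M → Prop)
    (h : ∀ p ∈ S, ∃ e : Chart M, p ∈ e.source ∧ P e) : ∃ A : Atl M S, ∀ k, P (A.e k) := by
  have h' : ∀ p : S, ∃ (e : Chart M) (r : ℝ), p.1 ∈ e.source ∧ P e ∧ 0 < r ∧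
      Metric.closedBall (e.to p) (5 * r) ⊆ e.target := fun p => by
    obtain ⟨e, he, hP⟩ := h p p.2
    obtain ⟨r, hr, h1⟩ := Metric.nhds_basis_closedBall.mem_iff.1
      (e.open_target.mem_nhds (e.to_mem he))
    exact ⟨e, r / 5, he, hP, by positivity, by rwa [mul_div_cancel₀ _ (by norm_num)]⟩
  choose e r he hP hr hs using h'
  obtain ⟨t, ht⟩ := hS.isCompact.elim_nhds_subcover' (fun p hp => {q | q ∈ (e ⟨p, hp⟩).source ∧
    (e ⟨p, hp⟩).to q ∈ Metric.closedBall ((e ⟨p, hp⟩).to p) (r ⟨p, hp⟩)}) fun p hp =>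
    (e ⟨p, hp⟩).ev_to (he ⟨p, hp⟩) (Metric.closedBall_mem_nhds _ (hr _))
  let x : Fin t.card → S := fun k => t.equivFin.symm k
  let c : Fin t.card → P2 := fun k => (e (x k)).to (x k)
  have hb : ∀ (k) (a b : ℝ), a < b → Metric.closedBall (c k) (a * r (x k)) ⊆
      interior (Metric.closedBall (c k) (b * r (x k))) := fun k a b hab =>
    (Metric.closedBall_subset_ball (mul_lt_mul_of_pos_right hab (hr _))).trans
      Metric.ball_subset_interior_closedBall
  refine ⟨⟨t.card, fun k => e (x k), fun k z => bmp (r (x k)) (2 * r (x k)) (z - c k),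
    fun k z => bmp (2 * r (x k)) (3 * r (x k)) (z - c k),
    fun k => Metric.closedBall (c k) (4 * r (x k)), fun k => Metric.closedBall (c k) (5 * r (x k)),
    fun k => (bmp_smooth _ _).comp (by fun_prop), fun k => (bmp_smooth _ _).comp (by fun_prop),
    fun k z => bmp_mem _ _ _, fun k z => bmp_mem _ _ _, fun k z hz => ?_,
    fun k => (closure_minimal (fun z hz => ?_) Metric.isClosed_closedBall).trans
      (hb k 3 4 (by norm_num)), fun k => isCompact_closedBall _ _,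
    fun k => isCompact_closedBall _ _, fun k => hb k 4 5 (by norm_num), fun k => hs _,
    fun p hp => ?_⟩, fun k => hP _⟩
  · have := hr (x k)
    exact bmp_one (by linarith) (by linarith) (not_le.1 fun h => hz (bmp_zero h)).le
  · exact mem_closedBall_iff_norm.2 (not_le.1 fun h => hz (bmp_zero h)).le
  · obtain ⟨q, hq, h1, h2⟩ := mem_iUnion₂.1 (ht hp)
    have hx : x (t.equivFin ⟨q, hq⟩) = q := congrArg Subtype.val (t.equivFin.symm_apply_apply _)
    have := hr q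
    refine ⟨t.equivFin ⟨q, hq⟩, by rwa [hx], ?_⟩
    simp only [c, hx]
    exact bmp_one this (by linarith) (mem_closedBall_iff_norm.1 h2)

theorem man_restr (g : Met M) (e : Chart M) {p : M} (hp : p ∈ e.source)
    {P : (P2 → P2 → ℝ) → Prop} (h : ∀ᶠ z in 𝓝 (e.to p), P fun u w => g.cf e u w z) :
    ∃ e' : Chart M, p ∈ e'.source ∧ e'.source ⊆ e.source ∧ e'.to = e.to ∧
      ∀ z ∈ e'.target, P fun u w => g.cf e' u w z := by
  obtain ⟨U, h1, hU, h2⟩ := mem_nhds_iff.1 (e.ev_to hp h)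
  obtain ⟨e', h3, h4, h5, h6⟩ := e.exists_restr hU
  refine ⟨e', h3 ▸ ⟨hp, h2⟩, h3 ▸ inter_subset_left, h4, fun z hz => ?_⟩
  rw [h6] at hz
  have := (h1 hz.2).2
  rw [e.to_inv hz.1] at this
  have h7 : e'.pull z = e.pull z := by
    unfold Chart.pull
    rw [h5]
  simpa only [Met.cf, h7, h5] using this

theorem man_cf (g : Met M) (e : Chart M) (s a m : ℝ) (z : P2) : g.cf e (s, a) (0, m) z =
    m * (s * g.cf e (1, 0) (0, 1) z + a * g.cf e (0, 1) (0, 1) z) := by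
  rw [show ((s, a) : P2) = s • ((1, 0) : P2) + a • ((0, 1) : P2) by simp,
    show ((0, m) : P2) = m • ((0, 1) : P2) by simp]
  simp only [Met.cf, map_add, map_smul, add_apply, smul_apply, smul_eq_mul]

theorem man_diag (g : Met M) (e : Chart M) {p : M} (hp : p ∈ e.source) :
    ∃ A B : ℝ, 0 < A ∧ 0 < B ∧ ∀ s t : ℝ, s ≠ 0 → t ≠ 0 → ∃ e' : Chart M, p ∈ e'.source ∧
      (∀ q ∈ e'.source, q ∈ e.source ∧ (e.to q).1 = s * (e'.to q).1) ∧
      g.cf e' (1, 0) (1, 0) (e'.to p) = s ^ 2 * A ∧ g.cf e' (1, 0) (0, 1) (e'.to p) = 0 ∧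
      g.cf e' (0, 1) (0, 1) (e'.to p) = t ^ 2 * B := by
  have hB := g.cf_pos e (e.to_mem hp) (u := (0, 1)) (by simp)
  obtain ⟨a, ha⟩ : ∃ a : ℝ,
      g.cf e (1, 0) (0, 1) (e.to p) + a * g.cf e (0, 1) (0, 1) (e.to p) = 0 :=
    ⟨-(_ / _), by rw [neg_mul, div_mul_cancel₀ _ hB.ne', add_neg_cancel]⟩
  refine ⟨_, _, g.cf_pos e (e.to_mem hp) (u := (1, a)) (by simp), hB, fun s t hs ht => ?_⟩
  let L : P2 →L[ℝ] P2 := (ContinuousLinearMap.fst ℝ ℝ ℝ).smulRight (s • (1, a)) +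
    (ContinuousLinearMap.snd ℝ ℝ ℝ).smulRight (t • (0, 1))
  have hL : Function.Injective L := (injective_iff_map_eq_zero L).2 fun u hu => by
    have h1 : u.1 = 0 := by simpa [L, hs] using congrArg Prod.fst hu
    exact Prod.ext h1 (by simpa [L, ht, h1] using congrArg Prod.snd hu)
  obtain ⟨z, hz⟩ := LinearMap.injective_iff_surjective.1 (show Function.Injective L.toLinearMap
    from hL) (e.to p)
  replace hz : L z = e.to p := hz
  obtain ⟨e', h1, -, h2, h3⟩ := exists_chart_inv e isOpen_univ (mem_univ z)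
    (fun _ _ => L.contDiff.contDiffAt) (hz ▸ e.to_mem hp) (by rwa [L.fderiv])
  obtain ⟨-, h4, h5⟩ := h3 z h1
  rw [hz, e.inv_to hp] at h4
  have h6 : ∀ u w, g.cf e' u w (e'.to p) = g.cf e (L u) (L w) (e.to p) := fun u w => by
    rw [← h4, e'.to_inv h1, Met.cf, h5, h5, h4, hz, L.fderiv, Met.cf, e.inv_to hp]
  have h7 : L (1, 0) = s • (1, a) := by simp [L]
  have h8 : L (0, 1) = t • (0, 1) := by simp [L]
  have h9 := man_cf g e 1 a 1 (e.to p)
  rw [one_mul, one_mul, ha, Met.cf] at h9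
  refine ⟨e', h4 ▸ e'.inv_mem h1, fun q hq => ⟨h2 hq, ?_⟩, ?_⟩
  · obtain ⟨h9, h10, -⟩ := h3 _ (e'.to_mem hq)
    rw [e'.inv_to hq] at h10
    rw [congrArg e.to h10, e.to_inv h9]
    simp [L, mul_comm]
  · simp only [h6, h7, h8]
    simp only [Met.cf, map_smul, smul_apply, smul_eq_mul, h9]
    exact ⟨by ring, by ring, by ring⟩

/-- charts adapted to `φ` in which the metric is almost diagonal with a small last entry -/
def Chart.Phi (e : Chart M) (g : Met M) (φ : M → ℝ) : Prop :=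
  e.Adapt φ ∧ ∀ z ∈ e.target, 2 * |g.cf e (1, 0) (0, 1) z| ≤ g.cf e (0, 1) (0, 1) z ∧
    2 * g.cf e (0, 1) (0, 1) z ≤ g.cf e (1, 0) (1, 0) z

theorem exists_phi [IsManifold (𝓡 2) ∞ M] (g : Met M) {φ : M → ℝ} (hφ : Sm φ) {p : M}
    (hp : dM φ p ≠ 0) : ∃ e : Chart M, p ∈ e.source ∧ e.Phi g φ := by
  obtain ⟨e0, h0, -⟩ := exists_chart p
  let D := fderiv ℝ (e0.rep φ) (e0.to p)
  let l : P2 →L[ℝ] ℝ :=
    D (1, 0) • ContinuousLinearMap.snd ℝ ℝ ℝ - D (0, 1) • ContinuousLinearMap.fst ℝ ℝ ℝ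
  have hD : ∀ v : P2, D v = v.1 * D (1, 0) + v.2 * D (0, 1) := fun v => by
    rw [← smul_eq_mul, ← smul_eq_mul, ← map_smul, ← map_smul, ← map_add]
    simp
  have hs : ∀ q ∈ e0.source, ContMDiffAt (𝓡 2) 𝓘(ℝ, P2) ∞ (fun q => (φ q, l (e0.to q))) q :=
    fun q hq => (hφ q).prodMk_space (l.contDiff.contDiffAt.comp_contMDiffAt (e0.contMDiffAt_to hq))
  obtain ⟨e1, h1, -, h2⟩ := exists_chart_of e0.open_source h0 hs
    ((injective_iff_map_eq_zero _).2 fun u hu => by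
      have h3 := dM_comp (hs p h0) differentiableAt_fst u
      have h4 := dM_comp (hs p h0) differentiableAt_snd u
      rw [hu, map_zero] at h3 h4
      rw [e0.dM_eq hφ h0] at h3
      rw [dM_comp (e0.contMDiffAt_to h0) l.differentiableAt, l.fderiv] at h4
      replace h3 := (hD _).symm.trans h3
      replace h4 : D (1, 0) * (e0.push p u).2 - D (0, 1) * (e0.push p u).1 = 0 := h4
      have h5 : D (1, 0) ^ 2 + D (0, 1) ^ 2 ≠ 0 := fun h => hp (ContinuousLinearMap.ext fun v => by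
        rw [e0.dM_eq hφ h0]
        refine (hD _).trans ?_
        rw [show D (1, 0) = 0 by nlinarith, show D (0, 1) = 0 by nlinarith]
        simp)
      rw [← e0.pull_push h0 u, show e0.push p u = (0, 0) from Prod.ext
        (mul_left_cancel₀ h5 (by linear_combination D (1, 0) * h3 - D (0, 1) * h4))
        (mul_left_cancel₀ h5 (by linear_combination D (0, 1) * h3 + D (1, 0) * h4))]
      exact map_zero _)
  obtain ⟨A, B, hA, hB, H⟩ := man_diag g e1 h1
  obtain ⟨e2, h3, h4, h5, h6, h7⟩ := H 1 √(A / (4 * B)) one_ne_zero (by positivity)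
  rw [Real.sq_sqrt (by positivity), show A / (4 * B) * B = A / 4 by field_simp] at h7
  have hc := fun u w => (g.contDiffAt_cf e2 u w (e2.to_mem h3)).continuousAt
  obtain ⟨e, h8, h9, h10, h11⟩ := man_restr g e2 h3 (P := fun c => 2 * |c (1, 0) (0, 1)| <
    c (0, 1) (0, 1) ∧ 2 * c (0, 1) (0, 1) < c (1, 0) (1, 0))
    (((continuousAt_const.mul (hc _ _).abs).eventually_lt (hc _ _) (by
      simp only [Pi.mul_apply, h6, h7, abs_zero]
      linarith)).and ((continuousAt_const.mul (hc _ _)).eventually_lt (hc _ _) (by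
      simp only [Pi.mul_apply, h5, h7]
      linarith)))
  refine ⟨e, h8, fun q hq => ?_, fun z hz => ⟨(h11 z hz).1.le, (h11 z hz).2.le⟩⟩
  obtain ⟨h12, h13⟩ := h4 q (h9 hq)
  rw [h10, ← one_mul (e2.to q).1, ← h13, h2 q h12]

/-- charts in which the metric is close to `dx ^ 2 + 7 dy ^ 2` -/
def Chart.Seven (e : Chart M) (g : Met M) : Prop :=
  ∀ z ∈ e.target, |g.cf e (1, 0) (1, 0) z - 1| ≤ 1 / 100 ∧ |g.cf e (1, 0) (0, 1) z| ≤ 1 / 100 ∧
    |g.cf e (0, 1) (0, 1) z - 7| ≤ 1 / 100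

theorem exists_seven [IsManifold (𝓡 2) ∞ M] (g : Met M) (p : M) :
    ∃ e : Chart M, p ∈ e.source ∧ e.Seven g := by
  obtain ⟨e0, h0, -⟩ := exists_chart p
  obtain ⟨A, B, hA, hB, H⟩ := man_diag g e0 h0
  obtain ⟨e2, h3, -, h5, h6, h7⟩ := H √(1 / A) √(7 / B) (by positivity) (by positivity)
  rw [Real.sq_sqrt (by positivity), div_mul_cancel₀ _ (by positivity)] at h5 h7
  have hc : ∀ u w a, g.cf e2 u w (e2.to p) = a →
      ∀ᶠ z in 𝓝 (e2.to p), |g.cf e2 u w z - a| ≤ 1 / 100 := fun u w a ha =>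
    ha ▸ (g.contDiffAt_cf e2 u w (e2.to_mem h3)).continuousAt.eventually
      (Metric.closedBall_mem_nhds _ (by norm_num))
  obtain ⟨e, h8, -, -, h11⟩ := man_restr g e2 h3 (P := fun c => |c (1, 0) (1, 0) - 1| ≤ 1 / 100 ∧
    |c (1, 0) (0, 1) - 0| ≤ 1 / 100 ∧ |c (0, 1) (0, 1) - 7| ≤ 1 / 100)
    ((hc _ _ _ h5).and ((hc _ _ _ h6).and (hc _ _ _ h7)))
  exact ⟨e, h8, fun z hz => by simpa only [sub_zero] using h11 z hz⟩

/-- orthogonal coordinates -/
theorem exists_orth [IsManifold (𝓡 2) ∞ M] (g : Met M) (p : M) :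
    ∃ e : Chart M, p ∈ e.source ∧ e.to p = 0 ∧ ∀ z ∈ e.target, g.cf e (1, 0) (0, 1) z = 0 := by
  obtain ⟨e, hp, h0⟩ := exists_chart p
  have ht : (0 : P2) ∈ e.target := h0 ▸ e.to_mem hp
  obtain ⟨r, hr, h1⟩ := Metric.nhds_basis_closedBall.mem_iff.1 (e.open_target.mem_nhds ht)
  have hB := fun z hz => (g.cf_pos e (z := z) hz (u := (0, 1)) (by simp)).ne'
  let V : P2 → P2 := fun z =>
    (1, bmp (r / 2) r z * -(g.cf e (1, 0) (0, 1) z / g.cf e (0, 1) (0, 1) z))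
  have hV : ContDiff ℝ ∞ V := contDiff_const.prodMk (contDiff_iff_contDiffAt.2 fun z => by
    by_cases hz : z ∈ e.target
    · exact (bmp_smooth _ _).contDiffAt.mul
        ((g.contDiffAt_cf e _ _ hz).div (g.contDiffAt_cf e _ _ hz) (hB z hz)).neg
    · exact (contDiffAt_const (c := 0)).congr_of_eventuallyEq ((bmp_ev_zero (r := r / 2)
        (not_le.1 fun h => hz (h1 (mem_closedBall_zero_iff.2 h)))).mono fun x hx =>
        mul_eq_zero_of_left hx _))
  obtain ⟨φ, δ, hδ, h2, h3, h4⟩ := P234.exists_smooth_flow hV 0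
  let ψ : P2 → P2 := fun x => φ (x.1, (0, x.2))
  have hm : ∀ x ∈ Metric.ball (0 : P2) δ,
      x.1 ∈ Metric.ball (0 : ℝ) δ ∧ ((0, x.2) : P2) ∈ Metric.ball (0 : P2) δ := fun x hx => by
    rw [← ball_prod_same] at hx ⊢
    exact ⟨hx.1, Metric.mem_ball_self hδ, hx.2⟩
  have hψ : ∀ x ∈ Metric.ball (0 : P2) δ, ContDiffAt ℝ ∞ ψ x := fun x hx =>
    (h2.contDiffAt ((Metric.isOpen_ball.prod Metric.isOpen_ball).mem_nhds (hm x hx))).comp x
      (f := fun x : P2 => (x.1, ((0 : ℝ), x.2))) (by fun_prop)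
  have hd := fun x hx => ((hψ x hx).differentiableAt (by simp)).hasFDerivAt
  have h4' : ∀ z ∈ Metric.ball (0 : P2) δ, ∀ t ∈ Metric.ball (0 : ℝ) δ,
      HasDerivAt (fun s => (φ (s, z)).1) 1 t := fun z hz t ht =>
    (ContinuousLinearMap.fst ℝ ℝ ℝ).hasFDerivAt.comp_hasDerivAt t (h4 z hz t ht)
  have h5 : ∀ x ∈ Metric.ball (0 : P2) δ, (ψ x).1 = x.1 := fun x hx =>
    Metric.isOpen_ball.eqOn_of_deriv_eq (f := fun s => (φ (s, (0, x.2))).1) (g := id)
      (convex_ball 0 δ).isPreconnected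
      (fun t ht => (h4' _ (hm x hx).2 t ht).differentiableAt.differentiableWithinAt)
      differentiableOn_id (fun t ht => (h4' _ (hm x hx).2 t ht).deriv.trans (deriv_id t).symm)
      (Metric.mem_ball_self hδ) (congrArg Prod.fst (h3 _ (hm x hx).2)) (hm x hx).1
  have h6 : ∀ x ∈ Metric.ball (0 : P2) δ, ∀ v, (fderiv ℝ ψ x v).1 = v.1 := fun x hx v =>
    DFunLike.congr_fun ((hd x hx).fst.unique (hasFDerivAt_fst.congr_of_eventuallyEq
      (mem_of_superset (Metric.isOpen_ball.mem_nhds hx) h5))) v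
  have h7 : ∀ x ∈ Metric.ball (0 : P2) δ, fderiv ℝ ψ x (1, 0) = V (ψ x) := fun x hx =>
    (HasFDerivAt.comp_hasDerivAt (l := ψ) x.1 (hd x hx) ((hasDerivAt_id x.1).prodMk
      (hasDerivAt_const x.1 x.2))).unique (h4 _ (hm x hx).2 _ (hm x hx).1)
  have hz := Metric.mem_ball_self (x := (0 : P2)) hδ
  have h8 : fderiv ℝ ψ 0 (0, 1) = (0, 1) := by
    have h9 : HasDerivAt (fun t : ℝ => (((0 : ℝ), t) : P2)) (0, 1) 0 :=
      (hasDerivAt_const 0 0).prodMk (hasDerivAt_id 0)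
    exact ((hd 0 hz).comp_hasDerivAt 0 h9).unique (h9.congr_of_eventuallyEq
      ((h9.continuousAt.eventually (Metric.isOpen_ball.mem_nhds hz)).mono fun t ht => h3 _ ht))
  have h9 : ψ 0 = 0 := h3 _ hz
  obtain ⟨e', h10, h11, -, h12⟩ := exists_chart_inv e (ContinuousOn.isOpen_inter_preimage
    (fun x hx => (hψ x hx).continuousAt.continuousWithinAt) Metric.isOpen_ball
    (Metric.isOpen_ball (x := 0) (ε := r / 2)))
    ⟨hz, by rw [mem_preimage, h9]; exact Metric.mem_ball_self (by positivity)⟩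
    (fun x hx => hψ x hx.1) (by rwa [h9]) ((injective_iff_map_eq_zero _).2 fun u hu => by
      have h10 := h6 0 hz u
      rw [hu] at h10
      rw [show u = u.2 • ((0, 1) : P2) from Prod.ext (by simpa using h10.symm) (by simp),
        map_smul, h8] at hu
      exact Prod.ext h10.symm (by simpa using hu))
  have h13 : e'.inv 0 = p := by rw [(h12 0 h10).2.1, h9, ← h0, e.inv_to hp]
  refine ⟨e', h13 ▸ e'.inv_mem h10, h13 ▸ e'.to_inv h10, fun x hx => ?_⟩
  obtain ⟨h14, h15, h16⟩ := h12 x hx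
  rw [Met.cf, h15, h16, h16, h7 x (h11 hx).1, show fderiv ℝ ψ x (0, 1) =
    (0, (fderiv ℝ ψ x (0, 1)).2) from Prod.ext (h6 x (h11 hx).1 _) rfl]
  refine (man_cf g e _ _ _ _).trans ?_
  rw [bmp_one (by positivity) (by linarith) (mem_ball_zero_iff.1 (h11 hx).2).le, one_mul, one_mul,
    neg_mul, div_mul_cancel₀ _ (hB _ h14), add_neg_cancel, mul_zero]

namespace Atl
variable {S : Set M} (A : Atl M S)

theorem sub0 (k : Fin A.n) : A.K0 k ⊆ (A.e k).target :=
  ((A.sub01 k).trans interior_subset).trans (A.sub1 k)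
theorem K01 (k : Fin A.n) : A.K0 k ⊆ A.K1 k :=
  (A.sub01 k).trans interior_subset
theorem bt_zero (k : Fin A.n) {z : P2} (hz : z ∉ A.K0 k) : A.bt k z = 0 :=
  image_eq_zero_of_notMem_tsupport fun h => hz (interior_subset (A.supp k h))
theorem b_zero (k : Fin A.n) {z : P2} (hz : z ∉ A.K0 k) : A.b k z = 0 :=
  by_contra fun h => one_ne_zero ((A.bt_one k z h).symm.trans (A.bt_zero k hz))
theorem b_supp (k : Fin A.n) : HasCompactSupport (A.b k) :=
  HasCompactSupport.intro (A.cK0 k) fun _ => A.b_zero k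
theorem bt_supp (k : Fin A.n) : HasCompactSupport (A.bt k) :=
  HasCompactSupport.intro (A.cK0 k) fun _ => A.bt_zero k
theorem cover0 {p : M} (hp : p ∈ S) :
    ∃ k, p ∈ (A.e k).source ∧ (A.e k).to p ∈ A.K0 k ∧ A.b k ((A.e k).to p) = 1 :=
  (A.cover p hp).imp fun k h =>
    ⟨h.1, by_contra fun h' => one_ne_zero (h.2.symm.trans (A.b_zero k h')), h.2⟩
theorem bdd (k : Fin A.n) : ∃ R, ∀ z ∈ A.K1 k, ‖z‖ < R :=
  (A.cK1 k).isBounded.exists_pos_norm_lt.imp fun _ h => h.2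

/-- the bumps on the surface -/
def bM (k : Fin A.n) : M → ℝ := (A.e k).ext (A.b k)
/-- sum of powers of the bumps -/
def SN (N : ℕ) (p : M) : ℝ := ∑ k, A.bM k p ^ (2 * N)

theorem sm_bM [T2Space M] (k : Fin A.n) : Sm (A.bM k) :=
  (A.e k).sm_ext (A.cK0 k) (A.sub0 k) (fun _ => A.b_zero k) fun _ _ => (A.smb k).contDiffAt
theorem bM_mem (k : Fin A.n) (p : M) : A.bM k p ∈ Icc (0 : ℝ) 1 := by
  unfold bM Chart.ext
  split_ifs
  exacts [A.memb _ _, ⟨le_rfl, zero_le_one⟩]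
theorem sm_SN [T2Space M] (N : ℕ) : Sm (A.SN N) :=
  Sm.sum _ fun k _ => (A.sm_bM k).outer (Φ := fun x => x ^ (2 * N)) fun _ => by fun_prop
theorem one_le_SN (N : ℕ) {p : M} (hp : p ∈ S) : 1 ≤ A.SN N p := by
  obtain ⟨k, h1, h2⟩ := A.cover p hp
  refine le_of_eq_of_le ?_ (Finset.single_le_sum (f := fun k => A.bM k p ^ (2 * N))
    (fun k _ => pow_nonneg (A.bM_mem k p).1 _) (Finset.mem_univ k))
  rw [bM, Chart.ext_of_mem _ _ h1, h2, one_pow]
theorem SN_nonneg (N : ℕ) (p : M) : 0 ≤ A.SN N p :=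
  Finset.sum_nonneg fun k _ => pow_nonneg (A.bM_mem k p).1 _
theorem SN_le (N : ℕ) (p : M) : A.SN N p ≤ A.n := by
  simpa [SN] using Finset.sum_le_card_nsmul Finset.univ (fun k => A.bM k p ^ (2 * N)) 1
    fun k _ => pow_le_one₀ (A.bM_mem k p).1 (A.bM_mem k p).2

end Atl

end Vale.Agent.Iso4
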