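import Vale.Agent.Iso4.Generic
import Vale.Agent.Iso4.LemZ
import Vale.Agent.Iso4.ManC

/-! The formal solution. -/

open scoped ContDiff Topology Manifold
open Set Filter

noncomputable section
namespace Vale.Agent.Iso4

variable {M : Type*} [TopologicalSpace M] [ChartedSpace E2 M]

/-- smooth one-forms -/
def SmF (A : M → E2 →L[ℝ] V) : Prop :=
  ∀ (e : Chart M) (u : P2), ∀ z ∈ e.target, ContDiffAt ℝ ∞ (fun z => A (e.inv z) (e.pull z u)) z

/-- formal solutions -/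
structure FormalSol (G : M → V) (A : M → E2 →L[ℝ] V) (B : M → V) (U : Set M) : Prop where
  smA : SmF A
  smB : Sm B
  B00 : ∀ p, B p 0 = 0
  B0 : ∀ p, B p ≠ 0
  opn : IsOpen U
  crit : ∀ p, dM (fst0 G) p = 0 → p ∈ U
  hol : ∀ p ∈ U, A p = dM G p
  ind : ∀ p v, v ≠ 0 → dM (fst0 G) p v = 0 → ∀ s t : ℝ, A p v ≠ s • ev0 + t • B p

/-- the two middle components -/
def fmS : V →L[ℝ] ℂ := (EuclideanSpace.proj (1 : Fin 4) : V →L[ℝ] ℝ).smulRight (1 : ℂ) +
  (EuclideanSpace.proj (2 : Fin 4) : V →L[ℝ] ℝ).smulRight Complex.I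

/-- the last three components -/
def fmP : V →L[ℝ] ℂ × ℝ := fmS.prod (EuclideanSpace.proj (3 : Fin 4))

/-- the inclusion of the last three components -/
def fmI : ℂ × ℝ →L[ℝ] V :=
  (Complex.reCLM.comp (ContinuousLinearMap.fst ℝ ℂ ℝ)).smulRight (EuclideanSpace.single 1 1) +
  (Complex.imCLM.comp (ContinuousLinearMap.fst ℝ ℂ ℝ)).smulRight (EuclideanSpace.single 2 1) +
  (ContinuousLinearMap.snd ℝ ℂ ℝ).smulRight ev3

theorem fmP_apply (x : V) : fmP x = (fmS x, x 3) := rfl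

theorem fmI_zero (y : ℂ × ℝ) : fmI y 0 = 0 := by simp [fmI, ev3]

theorem fmP_I (y : ℂ × ℝ) : fmP (fmI y) = y := by
  refine Prod.ext (Complex.ext ?_ ?_) ?_ <;> simp [fmP_apply, fmS, fmI, ev3]

theorem fmI_P {x : V} (h : x 0 = 0) : fmI (fmP x) = x := by
  ext j
  fin_cases j <;> simp [fmP_apply, fmS, fmI, ev3, h]

theorem fmP_ev0 : fmP ev0 = 0 := by
  refine Prod.ext (Complex.ext ?_ ?_) ?_ <;> simp [fmP_apply, fmS, ev0]

theorem fmI_last (t : ℝ) : fmI (0, t) = t • ev3 := by simp [fmI]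

theorem fm_vert {x : V} (h : x 0 = 0) (h' : fmS x = 0) : x = x 3 • ev3 := by
  rw [← fmI_last, ← h', ← fmP_apply, fmI_P h]

theorem fm_dM0 {G : M → V} (hG : Sm G) (p : M) (u : E2) : dM (fst0 G) p u = dM G p u 0 :=
  dM_clm (EuclideanSpace.proj (0 : Fin 4) : V →L[ℝ] ℝ) hG u

/-- the rotated differential -/
def fmA (G : M → V) (ϖ : M → ℂ) (p : M) : E2 →L[ℝ] V :=
  dM G p + (fmI.comp (ContinuousLinearMap.inl ℝ ℂ ℝ)).comp ((ϖ p - 1) • fmS.comp (dM G p))

theorem fmA_apply (G : M → V) (ϖ : M → ℂ) (p : M) (u : E2) :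
    fmA G ϖ p u = dM G p u + fmI ((ϖ p - 1) * fmS (dM G p u), 0) := rfl

theorem fmP_A (G : M → V) (ϖ : M → ℂ) (p : M) (u : E2) :
    fmP (fmA G ϖ p u) = (fmS (dM G p u) * ϖ p, dM G p u 3) := by
  rw [fmA_apply, map_add, fmP_I, fmP_apply, Prod.mk_add_mk, add_zero]
  congr 1
  ring

theorem smF_A {G : M → V} (hG : Sm G) {ϖ : M → ℂ} (hs : Sm ϖ) : SmF (fmA G ϖ) := by
  intro e u z hz
  have h1 : ContDiffAt ℝ ∞ (fun z => dM G (e.inv z) (e.pull z u)) z :=
    (ContDiffAt_dd (e.contDiffAt_rep hG hz) u).congr_of_eventuallyEq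
      (mem_of_superset (e.open_target.mem_nhds hz) fun y hy => (e.fderiv_rep hG hy u).symm)
  simp only [fmA_apply]
  exact h1.add (fmI.contDiff.contDiffAt.comp z ((((e.contDiffAt_rep hs hz).sub contDiffAt_const).mul
    (fmS.contDiff.contDiffAt.comp z h1)).prodMk contDiffAt_const))

theorem smF_ext [T2Space M] (e : Chart M) {K : Set P2} (hK : IsCompact K) (h : K ⊆ e.target)
    {w : P2 → ℂ × ℝ} (hw : ∀ z ∉ K, w z = 0) (hs : ∀ z ∈ e.target, ContDiffAt ℝ ∞ w z) :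
    SmF fun p => ((ContinuousLinearMap.snd ℝ ℝ ℝ).comp (e.push p)).smulRight (fmI (e.ext w p)) := by
  intro e' u z hz
  change ContDiffAt ℝ ∞ (fun z => (e.push (e'.inv z) (e'.pull z u)).2 • fmI (e.ext w (e'.inv z))) z
  by_cases hp : e'.inv z ∈ e.source
  · suffices H : ContDiffAt ℝ ∞ (fun z => e.push (e'.inv z) (e'.pull z u)) z from H.snd.smul
      (fmI.contDiff.contDiffAt.comp z (e'.contDiffAt_rep (e.sm_ext hK h hw hs) hz))
    refine (ContDiffAt_dd (e'.contDiffAt_tr e hz hp) u).congr_of_eventuallyEq ?_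
    filter_upwards [e'.open_target.mem_nhds hz,
      e'.ev_inv (P := (· ∈ e.source)) hz (e.open_source.mem_nhds hp)] with y h1 h2
    exact (e'.fderiv_tr e h1 h2 u).symm
  · refine (contDiffAt_const (c := (0 : V))).congr_of_eventuallyEq ?_
    filter_upwards [e'.ev_inv hz (e.ext_ev_zero hK h hw fun hn => hp ((e.mem_inv_image h).1 hn).1)]
      with y hy
    rw [hy, map_zero, smul_zero]

theorem fm_ker {G : M → V} (hG : Sm G) {e : Chart M} (he : e.Adapt (fst0 G)) {p : M}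
    (hp : p ∈ e.source) {v : E2} (h0 : dM (fst0 G) p v = 0) :
    dM G p v = (e.push p v).2 • dy (e.rep G) (e.to p) ∧ (v ≠ 0 → (e.push p v).2 ≠ 0) := by
  rw [Chart.Adapt.push e he hp] at h0
  have h1 : e.push p v = (e.push p v).2 • ((0, 1) : P2) := Prod.ext (by simpa using h0) (by simp)
  refine ⟨?_, fun hv h => hv ?_⟩
  · rw [e.dM_eq hG hp, h1, map_smul]
    simp [dd]
  · rw [← e.pull_push hp v, h1, h, zero_smul, map_zero]

/-- the local modification near a point where the last basis vector is tangent -/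
theorem fm_local {G : M → V} (hG : Gen G) {ϖ : M → ℂ} (hs : Sm ϖ) {s : M} (hs0 : s ∈ Umb G)
    (hz : ϖ s = 0) (hi : Function.Injective (dM ϖ s)) {e : Chart M} (he : e.Adapt (fst0 G))
    (hp : s ∈ e.source) : ∃ (K : Set P2) (a b : P2 → ℂ × ℝ), IsCompact K ∧ K ⊆ e.target ∧
      e.to s ∈ K ∧ (∀ z ∈ e.target, ContDiffAt ℝ ∞ a z) ∧ (∀ z ∈ e.target, ContDiffAt ℝ ∞ b z) ∧
      (∀ z ∉ K, a z = 0) ∧ (∀ z ∉ K, b z = 0) ∧ ∀ z ∈ K, (0, 1) + b z ≠ 0 ∧ ∀ t : ℝ,
        (fmS (dy (e.rep G) z) * e.rep ϖ z, dy (e.rep G) z 3) + a z ≠ t • ((0, 1) + b z) := by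
  have hz0 := e.to_mem hp
  have sG := fun z (hz : z ∈ e.target) => e.contDiffAt_rep hG.sm hz
  have sY : ∀ z ∈ e.target, ContDiffAt ℝ ∞ (dy (e.rep G)) z := fun z hz => ContDiffAt_dd (sG z hz) _
  have s1 : ∀ z ∈ e.target, ContDiffAt ℝ ∞ (fun z => fmS (dy (e.rep G) z)) z := fun z hz =>
    fmS.contDiff.contDiffAt.comp z (sY z hz)
  have s2 := fun z (hz : z ∈ e.target) => e.contDiffAt_rep hs hz
  have s3 : ∀ z ∈ e.target, ContDiffAt ℝ ∞ (fun z => dy (e.rep G) z 3) z := fun z hz =>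
    (EuclideanSpace.proj (3 : Fin 4) : V →L[ℝ] ℝ).contDiff.contDiffAt.comp z (sY z hz)
  obtain ⟨u, hu⟩ := hs0
  obtain ⟨k1, k2⟩ := fm_ker hG.sm he hp (v := u) (by rw [fm_dM0 hG.sm, hu]; simp [ev3])
  have hc := k2 (fun h => by
    rw [h, map_zero] at hu
    simpa [ev3] using congrArg (fun x : V => x 3) hu)
  rw [hu] at k1
  set c := (e.push s u).2
  have k3 : fderiv ℝ (e.rep G) (e.to s) (c • ((0, 1) : P2)) = ev3 := by
    rw [map_smul, k1]; rfl
  have z1 : fmS (dy (e.rep G) (e.to s)) = 0 := by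
    have := congrArg fmS k1
    rw [map_smul, show fmS ev3 = 0 from by simp [fmS, ev3]] at this
    exact (smul_eq_zero.1 this.symm).resolve_left hc
  have hd := ((sY _ hz0).differentiableAt (by simp)).hasFDerivAt
  have i1 : Function.Injective (fderiv ℝ (fun z => fmS (dy (e.rep G) z)) (e.to s)) := by
    refine (injective_iff_map_eq_zero _).2 fun ξ hξ => ?_
    replace hξ : fmS (fderiv ℝ (dy (e.rep G)) (e.to s) ξ) = 0 :=
      (DFunLike.congr_fun (fmS.hasFDerivAt.comp _ hd).fderiv ξ).symm.trans hξ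
    have d0 : fderiv ℝ (dy (e.rep G)) (e.to s) ξ 0 = 0 := by
      have h1 := (EuclideanSpace.proj (0 : Fin 4) : V →L[ℝ] ℝ).hasFDerivAt.comp _ hd
      have h2 : (EuclideanSpace.proj (0 : Fin 4) : V →L[ℝ] ℝ) ∘ dy (e.rep G) =ᶠ[𝓝 (e.to s)]
          fun _ => 0 := by
        filter_upwards [e.open_target.mem_nhds hz0] with y hy
        change fderiv ℝ (e.rep G) y (0, 1) 0 = 0
        rw [e.fderiv_rep hG.sm hy, ← fm_dM0 hG.sm, Chart.Adapt.push e he (e.inv_mem hy),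
          e.push_pull hy]
      have h3 := h1.fderiv.symm.trans (h2.fderiv_eq.trans (fderiv_const_apply 0))
      exact DFunLike.congr_fun h3 ξ
    have d1 := fm_vert d0 hξ
    have d2' : fderiv ℝ (dy (e.rep G)) (e.to s) ξ = d2 (e.rep G) (e.to s) ξ (0, 1) :=
      dd_dd (sG _ hz0) ξ (0, 1)
    refine hG.umb e _ hz0 _ k3 ξ (-(c * fderiv ℝ (dy (e.rep G)) (e.to s) ξ 3) • c • ((0, 1) : P2)) ?_
    rw [map_smul, k3, d2, map_smul, ← d2, ← d2', d1]
    simp [ev3, smul_smul]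
  have i2 : Function.Injective (fderiv ℝ (e.rep ϖ) (e.to s)) := fun v w h => by
    rw [e.fderiv_rep hs hz0, e.fderiv_rep hs hz0, e.inv_to hp] at h
    rw [← e.push_pull' hp v, hi h, e.push_pull' hp]
  obtain ⟨K, a, b, c1, c2, c3, c4, c5, c6, c7⟩ := belt e.open_target hz0 s1 s2 s3 z1
    ((e.rep_to ϖ hp).trans hz) i1 i2
  refine ⟨K, fun z => a z - (fmS (dy (e.rep G) z) * e.rep ϖ z, dy (e.rep G) z 3),
    fun z => b z - (0, 1), c1, c2, c3,
    fun z hz => (c4 z hz).sub (((s1 z hz).mul (s2 z hz)).prodMk (s3 z hz)),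
    fun z hz => (c5 z hz).sub contDiffAt_const, fun z hz => sub_eq_zero.2 (c6 z hz).1,
    fun z hz => sub_eq_zero.2 (c6 z hz).2, fun z hz => ?_⟩
  simpa only [add_sub_cancel] using c7 z hz

theorem exists_formal [T2Space M] [IsManifold (𝓡 2) ∞ M] (g : Met M) {G : M → V} (hG : Gen G)
    (hfin : (Umb G).Finite) {ϖ : M → ℂ} (hs : Sm ϖ) (hz : ∀ p, ϖ p = 0 ↔ p ∈ Umb G)
    (hi : ∀ p ∈ Umb G, Function.Injective (dM ϖ p))
    (h1 : ∀ p, dM (fst0 G) p = 0 → ϖ =ᶠ[𝓝 p] fun _ => 1) : ∃ A B U, FormalSol G A B U := by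
  classical
  haveI := hfin.fintype
  have hφ : Sm (fst0 G) := hG.sm.outer (Φ := fun x : V => x 0) fun _ =>
    (EuclideanSpace.proj (0 : Fin 4) : V →L[ℝ] ℝ).contDiff.contDiffAt
  obtain ⟨W, hW, hd⟩ := hfin.t2_separation
  have hch : ∀ s : Umb G, ∃ e : Chart M, s.1 ∈ e.source ∧ e.Adapt (fst0 G) ∧ e.source ⊆ W s :=
    fun s => by
      obtain ⟨e, h1, h2⟩ := exists_phi g hφ (hG.sep s s.2)
      obtain ⟨e', a1, a2, -, -⟩ := e.exists_restr (hW s).2
      exact ⟨e', by rw [a1]; exact ⟨h1, (hW s).1⟩, fun p hp => by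
        rw [a2]; exact h2.1 p (by rw [a1] at hp; exact hp.1), by rw [a1]; exact inter_subset_right⟩
  choose e e1 e2 e3 using hch
  choose K a b c1 c2 c3 c4 c5 c6 c7 c8 using fun s : Umb G =>
    fm_local hG hs s.2 ((hz s).2 s.2) (hi s s.2) (e2 s) (e1 s)
  have dis : ∀ {s l : Umb G} {p : M}, p ∈ (e s).source → l ≠ s → p ∉ (e l).source :=
    fun {s l p} hp hl hq => Set.disjoint_left.1 (hd l.2 s.2 fun h => hl (Subtype.ext h))
      (e3 l hq) (e3 s hp)
  have out : ∀ {w : Umb G → P2 → ℂ × ℝ} {p : M}, (∀ s, ∀ z ∉ K s, w s z = 0) →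
      (¬∃ s, p ∈ (e s).source ∧ (e s).to p ∈ K s) → ∀ s, (e s).ext (w s) p = 0 :=
    fun {w p} hw hp s => by
      by_cases h : p ∈ (e s).source
      · rw [Chart.ext_of_mem _ _ h, hw s _ fun h' => hp ⟨s, h, h'⟩]
      · rw [Chart.ext_of_not_mem _ _ h]
  have hB : ∀ {s : Umb G} {p : M}, p ∈ (e s).source →
      ∑ l, (e l).ext (b l) p = b s ((e s).to p) := fun {s p} hp => by
    rw [Finset.sum_eq_single s (fun l _ hl => Chart.ext_of_not_mem _ _ (dis hp hl)) (by simp),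
      Chart.ext_of_mem _ _ hp]
  refine ⟨fun p => fmA G ϖ p + ∑ s, ((ContinuousLinearMap.snd ℝ ℝ ℝ).comp ((e s).push p)).smulRight
      (fmI ((e s).ext (a s) p)), fun p => fmI ((0, 1) + ∑ s, (e s).ext (b s) p),
    interior {p | fmA G ϖ p + ∑ s, ((ContinuousLinearMap.snd ℝ ℝ ℝ).comp ((e s).push p)).smulRight
      (fmI ((e s).ext (a s) p)) = dM G p}, fun e' u z hz => ?_, ?_, fun p => fmI_zero _,
    fun p hp => ?_, isOpen_interior, fun p hp => ?_, fun p hp => by exact (interior_subset hp :),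
    fun p v hv h0 r t h => ?_⟩
  · simp only [add_apply, ContinuousLinearMap.sum_apply]
    exact (smF_A hG.sm hs e' u z hz).add (ContDiffAt.sum fun s _ =>
      smF_ext (e s) (c1 s) (c2 s) (c6 s) (c4 s) e' u z hz)
  · exact ((Sm.const _).add (Sm.sum _ fun s _ => (e s).sm_ext (c1 s) (c2 s) (c7 s) (c5 s))).outer
      fun _ => fmI.contDiff.contDiffAt
  · have h2 := congrArg fmP hp
    rw [fmP_I, map_zero] at h2
    by_cases hin : ∃ s, p ∈ (e s).source ∧ (e s).to p ∈ K s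
    · obtain ⟨s, k1, k2⟩ := hin
      rw [hB k1] at h2
      exact (c8 s _ k2).1 h2
    · simp [out c7 hin] at h2
  · refine mem_interior_iff_mem_nhds.2 ?_
    have h2 : ∀ s, (e s).ext (a s) =ᶠ[𝓝 p] fun _ => 0 := fun s =>
      (e s).ext_ev_zero (c1 s) (c2 s) (c6 s) fun hn => by
        have k1 := (((e s).mem_inv_image (c2 s)).1 hn).1
        have := Chart.Adapt.push _ (e2 s) k1 ((e s).pull ((e s).to p) (1, 0))
        rw [hp, (e s).push_pull' k1] at this
        simp at this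
    filter_upwards [h1 p hp, eventually_all.2 h2] with q k1 k2
    ext u : 1
    simp [fmA_apply, k1, k2, Prod.mk_zero_zero]
  · have h2 := congrArg fmP h
    simp only [add_apply, ContinuousLinearMap.sum_apply, ContinuousLinearMap.smulRight_apply,
      ContinuousLinearMap.comp_apply, ContinuousLinearMap.coe_snd', map_add, map_sum, map_smul,
      fmP_I, fmP_A, fmP_ev0, smul_zero, zero_add] at h2
    by_cases hin : ∃ s, p ∈ (e s).source ∧ (e s).to p ∈ K s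
    · obtain ⟨s, k1, k2⟩ := hin
      obtain ⟨m1, m2⟩ := fm_ker hG.sm (e2 s) k1 h0
      rw [hB k1, Finset.sum_eq_single s (fun l _ hl => by
        rw [Chart.ext_of_not_mem _ _ (dis k1 hl), smul_zero]) (by simp),
        Chart.ext_of_mem _ _ k1, m1] at h2
      refine (c8 s _ k2).2 ((((e s).push p v).2)⁻¹ * t) ?_
      rw [mul_smul, ← h2, eq_inv_smul_iff₀ (m2 hv), smul_add, (e s).rep_to ϖ k1, map_smul]
      simp [mul_assoc]
    · have hp : p ∉ Umb G := fun hp => hin ⟨⟨p, hp⟩, e1 ⟨p, hp⟩, c3 ⟨p, hp⟩⟩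
      have h3 := congrArg Prod.fst h2
      simp only [out c6 hin, out c7 hin, smul_zero, Finset.sum_const_zero, add_zero, Prod.smul_fst,
        mul_eq_zero] at h3
      have h4 := fm_vert (by rw [← fm_dM0 hG.sm, h0]) (h3.resolve_right fun h => hp ((hz p).1 h))
      have h5 : dM G p v 3 ≠ 0 := fun h => hv (hG.imm p v (by rw [h4, h, zero_smul]))
      exact hp ⟨(dM G p v 3)⁻¹ • v, by rw [map_smul, inv_smul_eq_iff₀ h5]; exact h4⟩

end Vale.Agent.Iso4
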