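import Vale.Agent.Iso4.ManB
import Vale.Agent.Iso4.Sard

/-! Generic maps of a closed surface into four-space. -/

open scoped ContDiff Topology Manifold
open Set Filter

noncomputable section
namespace Vale.Agent.Iso4

/-- first basis vector -/
def ev0 : V := EuclideanSpace.single 0 1
/-- last basis vector -/
def ev3 : V := EuclideanSpace.single 3 1

variable {M : Type*} [TopologicalSpace M] [ChartedSpace E2 M]

/-- first component -/
def fst0 (G : M → V) (p : M) : ℝ := G p 0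

/-- the points where the last basis vector is tangent -/
def Umb (G : M → V) : Set M := {p | ∃ u, dM G p u = ev3}

/-- generic maps -/
structure Gen (G : M → V) : Prop where
  sm : Sm G
  imm : ∀ p u, dM G p u = 0 → u = 0
  crit : {p | dM (fst0 G) p = 0}.Finite
  umb : ∀ (e : Chart M), ∀ z ∈ e.target, ∀ u, fderiv ℝ (e.rep G) z u = ev3 → ∀ ξ η : P2,
    d2 (e.rep G) z ξ u + fderiv ℝ (e.rep G) z η = 0 → ξ = 0
  dbl : ∀ p q, p ≠ q → G p = G q → ∀ u w, dM G p u = dM G q w → u = 0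
  sep : ∀ p ∈ Umb G, dM (fst0 G) p ≠ 0

section Plane
open MeasureTheory

variable {F : Type} [NormedAddCommGroup F] [NormedSpace ℝ F] [FiniteDimensional ℝ F]

theorem gen_one {v : F} (hv : v ≠ 0) (y : V) : ∃ a : F →L[ℝ] V, a v = y := by
  obtain ⟨g, -, hg⟩ := exists_dual_vector ℝ v (norm_ne_zero_iff.2 hv)
  refine ⟨g.smulRight (‖v‖⁻¹ • y), ?_⟩
  have : ‖v‖ ≠ 0 := norm_ne_zero_iff.2 hv
  simp [hg, smul_smul, this]

theorem gen_two {T : P2 →L[ℝ] F} (hT : Function.Injective T) {u : P2} (hu : u ≠ 0) (y y' : V) :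
    ∃ a : F →L[ℝ] V, a (T u) = y ∧ a (T (-u.2, u.1)) = y' := by
  obtain ⟨g, hg⟩ := (T : P2 →ₗ[ℝ] F).exists_leftInverse_of_injective (LinearMap.ker_eq_bot.2 hT)
  have hg' : ∀ v, g (T v) = v := fun v => by simpa using congrArg (fun S : P2 →ₗ[ℝ] P2 => S v) hg
  have hn : u.1 ^ 2 + u.2 ^ 2 ≠ 0 := fun h => hu (Prod.ext (by simp; nlinarith) (by simp; nlinarith))
  let S : P2 →L[ℝ] V :=
    (u.1 • ContinuousLinearMap.fst ℝ ℝ ℝ + u.2 • ContinuousLinearMap.snd ℝ ℝ ℝ).smulRight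
        ((u.1 ^ 2 + u.2 ^ 2)⁻¹ • y) +
      (-u.2 • ContinuousLinearMap.fst ℝ ℝ ℝ + u.1 • ContinuousLinearMap.snd ℝ ℝ ℝ).smulRight
        ((u.1 ^ 2 + u.2 ^ 2)⁻¹ • y')
  refine ⟨S.comp (LinearMap.toContinuousLinearMap g), ?_, ?_⟩
  · simp only [S, ContinuousLinearMap.comp_apply, LinearMap.coe_toContinuousLinearMap', hg',
      add_apply, smul_apply, ContinuousLinearMap.smulRight_apply, ContinuousLinearMap.coe_fst',
      ContinuousLinearMap.coe_snd', smul_eq_mul, smul_smul]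
    rw [show (u.1 * u.1 + u.2 * u.2) * (u.1 ^ 2 + u.2 ^ 2)⁻¹ = 1 by field_simp,
      show (-u.2 * u.1 + u.1 * u.2) * (u.1 ^ 2 + u.2 ^ 2)⁻¹ = 0 by ring]
    simp
  · simp only [S, ContinuousLinearMap.comp_apply, LinearMap.coe_toContinuousLinearMap', hg',
      add_apply, smul_apply, ContinuousLinearMap.smulRight_apply, ContinuousLinearMap.coe_fst',
      ContinuousLinearMap.coe_snd', smul_eq_mul, smul_smul]
    rw [show (-u.2 * -u.2 + u.1 * u.1) * (u.1 ^ 2 + u.2 ^ 2)⁻¹ = 1 by field_simp; ring,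
      show (u.1 * -u.2 + u.2 * u.1) * (u.1 ^ 2 + u.2 ^ 2)⁻¹ = 0 by ring]
    simp

omit [FiniteDimensional ℝ F] in
theorem gen_fd {g : P2 → F} {z : P2} (hg : ContDiffAt ℝ ∞ g z) (u : P2) :
    HasFDerivAt (fun x : P2 × P2 => fderiv ℝ g x.1 x.2)
      ((fderiv ℝ g z).comp (ContinuousLinearMap.snd ℝ P2 P2) +
        ((fderiv ℝ (fderiv ℝ g) z).comp (ContinuousLinearMap.fst ℝ P2 P2)).flip u) (z, u) := by
  have h1 := ((tame_fd hg).differentiableAt (by simp)).hasFDerivAt.comp ((z, u) : P2 × P2)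
    (f := Prod.fst) (hasFDerivAt_fst (𝕜 := ℝ))
  exact h1.clm_apply hasFDerivAt_snd

variable [MeasurableSpace (F →L[ℝ] V)] [BorelSpace (F →L[ℝ] V)] (μ : Measure (F →L[ℝ] V))
  [μ.IsAddHaarMeasure] {U U' : Set P2} {g g' : P2 → F}

theorem gen_umb (c : V) (hU : IsOpen U) (hg : ∀ z ∈ U, ContDiffAt ℝ ∞ g z)
    (hi : ∀ z ∈ U, Function.Injective (fderiv ℝ g z)) :
    ∀ᵐ a ∂μ, ∀ z ∈ U, ∀ u ≠ 0, a (fderiv ℝ g z u) = c → ∀ ξ η : P2,
      a (d2 g z ξ u) + a (fderiv ℝ g z η) = 0 → ξ = 0 ∧ η = 0 := by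
  have h := ae_regular μ (E := P2 × P2) (U := U ×ˢ {0}ᶜ) (hU.prod isOpen_compl_singleton)
    (Λ := fun x => ContinuousLinearMap.apply ℝ V (fderiv ℝ g x.1 x.2)) (c := c)
    (contDiffOn_clm_apply.2 fun a x hx => (a.contDiff.contDiffAt.comp x
      (((tame_fd (hg x.1 hx.1)).comp x contDiffAt_fst).clm_apply
        contDiffAt_snd)).contDiffWithinAt)
    (fun x hx y => (gen_two (hi x.1 hx.1) hx.2 y 0).imp fun _ h => h.1) (by simp)
  filter_upwards [h] with a ha z hz u hu hc ξ η h0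
  have h1 := ha (z, u) ⟨hz, hu⟩ hc
  have h2 := a.hasFDerivAt.comp ((z, u) : P2 × P2) (gen_fd (hg z hz) u)
  simp only [Function.comp_def] at h2
  simp only [ContinuousLinearMap.apply_apply] at h1
  rw [h2.fderiv] at h1
  have h3 := (injective_iff_map_eq_zero _).1 h1 (ξ, η) (by rw [← h0, add_comm]; simp [d2])
  exact Prod.mk_eq_zero.1 h3

/-- the first coordinate -/
def genP : V →L[ℝ] ℝ := EuclideanSpace.proj 0

theorem genP_apply (x : V) : genP x = x 0 := rfl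

theorem genP_ev0 : genP ev0 = 1 := by simp [genP_apply, ev0]

theorem gen_crit (hU : IsOpen U) (hg : ∀ z ∈ U, ContDiffAt ℝ ∞ g z)
    (hi : ∀ z ∈ U, Function.Injective (fderiv ℝ g z)) :
    ∀ᵐ a ∂μ, ∀ z ∈ U, ∀ᶠ w in 𝓝[≠] z,
      (genP (a (fderiv ℝ g w (1, 0))), genP (a (fderiv ℝ g w (0, 1)))) ≠ 0 := by
  have hs : ∀ a : F →L[ℝ] V, ∀ z ∈ U, ContDiffAt ℝ ∞
      (fun w => (genP (a (fderiv ℝ g w (1, 0))), genP (a (fderiv ℝ g w (0, 1))))) z :=
    fun a z hz => ((genP.comp a).contDiff.contDiffAt.comp z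
      ((tame_fd (hg z hz)).clm_apply contDiffAt_const)).prodMk
      ((genP.comp a).contDiff.contDiffAt.comp z ((tame_fd (hg z hz)).clm_apply contDiffAt_const))
  have h := ae_regular μ (E := P2) (Y := ℝ × ℝ) hU
    (Λ := fun x => (genP.comp (ContinuousLinearMap.apply ℝ V (fderiv ℝ g x (1, 0)))).prod
      (genP.comp (ContinuousLinearMap.apply ℝ V (fderiv ℝ g x (0, 1))))) (c := 0)
    (contDiffOn_clm_apply.2 fun a x hx => (hs a x hx).contDiffWithinAt)
    (fun x hx y => by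
      obtain ⟨a, h1, h2⟩ := gen_two (hi x hx) (u := (1, 0)) (by simp) (y.1 • ev0) (y.2 • ev0)
      rw [neg_zero] at h2
      exact ⟨a, by simp [h1, h2, genP_ev0]⟩) rfl
  filter_upwards [h] with a ha z hz
  by_cases h0 : (genP (a (fderiv ℝ g z (1, 0))), genP (a (fderiv ℝ g z (0, 1)))) = 0
  · obtain ⟨K, -, hK⟩ := LinearMap.exists_antilipschitzWith _ (LinearMap.ker_eq_bot.2
      (show Function.Injective (fderiv ℝ _ z).toLinearMap from ha z hz h0))
    exact ((hs a z hz).differentiableAt (by simp)).hasFDerivAt.eventually_ne ⟨K, hK⟩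
  · exact mem_nhdsWithin_of_mem_nhds ((hs a z hz).continuousAt.eventually_ne h0)

theorem gen_dbl (hU : IsOpen U) (hU' : IsOpen U') (hg : ∀ z ∈ U, ContDiffAt ℝ ∞ g z)
    (hg' : ∀ z ∈ U', ContDiffAt ℝ ∞ g' z) :
    ∀ᵐ a ∂μ, ∀ z ∈ U, ∀ z' ∈ U', g z ≠ g' z' → a (g z) = a (g' z') → ∀ u w : P2,
      a (fderiv ℝ g z u) = a (fderiv ℝ g' z' w) → u = 0 := by
  have hs : ∀ x ∈ U ×ˢ U', ContDiffAt ℝ ∞ (fun x : P2 × P2 => g x.1 - g' x.2) x := fun x hx =>
    ((hg x.1 hx.1).comp x contDiffAt_fst).sub ((hg' x.2 hx.2).comp x contDiffAt_snd)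
  have h := ae_regular μ (E := P2 × P2) (U := {x | x ∈ U ×ˢ U' ∧ g x.1 - g' x.2 ≠ 0})
    (isOpen_iff_mem_nhds.2 fun x hx => inter_mem ((hU.prod hU').mem_nhds hx.1)
      ((hs x hx.1).continuousAt.eventually_ne hx.2))
    (Λ := fun x => ContinuousLinearMap.apply ℝ V (g x.1 - g' x.2)) (c := 0)
    (contDiffOn_clm_apply.2 fun a x hx =>
      (a.contDiff.contDiffAt.comp x (hs x hx.1)).contDiffWithinAt)
    (fun x hx y => gen_one hx.2 y) (by simp)
  filter_upwards [h] with a ha z hz z' hz' hne he u w h0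
  have h1 := ha (z, z') ⟨⟨hz, hz'⟩, sub_ne_zero.2 hne⟩ (by simp [he])
  have h2 := a.hasFDerivAt.comp ((z, z') : P2 × P2)
    ((((hg z hz).differentiableAt (by simp)).hasFDerivAt.comp ((z, z') : P2 × P2)
      (f := Prod.fst) (hasFDerivAt_fst (𝕜 := ℝ))).fun_sub
      (((hg' z' hz').differentiableAt (by simp)).hasFDerivAt.comp ((z, z') : P2 × P2)
      (f := Prod.snd) (hasFDerivAt_snd (𝕜 := ℝ))))
  simp only [Function.comp_def] at h2
  simp only [ContinuousLinearMap.apply_apply] at h1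
  rw [h2.fderiv] at h1
  have h3 := (injective_iff_map_eq_zero _).1 h1 (u, w) (by simp [h0])
  exact (Prod.mk_eq_zero.1 h3).1

theorem gen_sep (hU : IsOpen U) (hg : ∀ z ∈ U, ContDiffAt ℝ ∞ g z)
    (hi : ∀ z ∈ U, Function.Injective (fderiv ℝ g z)) :
    ∀ᵐ a ∂μ, ∀ z ∈ U, ∀ u ≠ 0,
      (a (fderiv ℝ g z u), genP (a (fderiv ℝ g z (-u.2, u.1)))) ≠ (ev3, 0) := by
  have h := ae_nozero μ (E := P2 × P2) (Y := V × ℝ) (U := U ×ˢ {0}ᶜ)
    (hU.prod isOpen_compl_singleton)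
    (Λ := fun x => (ContinuousLinearMap.apply ℝ V (fderiv ℝ g x.1 x.2)).prod
      (genP.comp (ContinuousLinearMap.apply ℝ V (fderiv ℝ g x.1 (-x.2.2, x.2.1))))) (c := (ev3, 0))
    (contDiffOn_clm_apply.2 fun a x hx => ((a.contDiff.contDiffAt.comp x
      (((tame_fd (hg x.1 hx.1)).comp x contDiffAt_fst).clm_apply contDiffAt_snd)).prodMk
      ((genP.comp a).contDiff.contDiffAt.comp x
        (((tame_fd (hg x.1 hx.1)).comp x contDiffAt_fst).clm_apply
          (by fun_prop)))).contDiffWithinAt)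
    (fun x hx y => by
      obtain ⟨a, h1, h2⟩ := gen_two (hi x.1 hx.1) hx.2 y.1 (y.2 • ev0)
      exact ⟨a, by simp [h1, h2, genP_ev0]⟩) (by simp)
  filter_upwards [h] with a ha z hz u hu
  exact ha (z, u) ⟨hz, hu⟩

end Plane

theorem gen_ev3 : ev3 ≠ 0 := fun h => by simpa [ev3] using congrArg (fun x : V => x 3) h

theorem exists_gen [T2Space M] [CompactSpace M] [IsManifold (𝓡 2) ∞ M] :
    ∃ G : M → V, Gen G := by
  obtain ⟨n, θ, hθ, hemb, hinj⟩ := exists_embedding_euclidean_of_compact (I := 𝓡 2) (M := M)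
  replace hθ : Sm θ := hθ
  replace hinj : ∀ p, Function.Injective (dM θ p) := hinj
  choose e he _ using fun p : M => exists_chart p
  obtain ⟨t, -, ht⟩ := isCompact_univ.elim_nhds_subcover (fun p => (e p).source)
    fun p _ => (e p).open_source.mem_nhds (he p)
  have hcov : ∀ p : M, ∃ k : t, p ∈ (e k).source := fun p => by
    obtain ⟨k, hk, hp⟩ := mem_iUnion₂.1 (ht (mem_univ p))
    exact ⟨⟨k, hk⟩, hp⟩
  letI : MeasurableSpace (EuclideanSpace ℝ (Fin n) →L[ℝ] V) := borel _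
  haveI : BorelSpace (EuclideanSpace ℝ (Fin n) →L[ℝ] V) := ⟨rfl⟩
  let μ : MeasureTheory.Measure (EuclideanSpace ℝ (Fin n) →L[ℝ] V) :=
    (Module.finBasis ℝ _).addHaar
  have hs : ∀ c : Chart M, ∀ z ∈ c.target, ContDiffAt ℝ ∞ (c.rep θ) z := fun c z hz =>
    c.contDiffAt_rep hθ hz
  have hi : ∀ c : Chart M, ∀ z ∈ c.target, Function.Injective (fderiv ℝ (c.rep θ) z) :=
    fun c z hz u v huv => by
      rw [c.fderiv_rep hθ hz, c.fderiv_rep hθ hz] at huv
      rw [← c.push_pull hz u, hinj _ huv, c.push_pull hz]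
  have h1 := MeasureTheory.ae_all_iff.2 fun k : t =>
    gen_umb μ 0 (e k).open_target (hs (e k)) (hi (e k))
  have h2 := MeasureTheory.ae_all_iff.2 fun k : t =>
    gen_umb μ ev3 (e k).open_target (hs (e k)) (hi (e k))
  have h3 := MeasureTheory.ae_all_iff.2 fun k : t =>
    gen_crit μ (e k).open_target (hs (e k)) (hi (e k))
  have h4 := MeasureTheory.ae_all_iff.2 fun k : t => MeasureTheory.ae_all_iff.2 fun l : t =>
    gen_dbl μ (e k).open_target (e l).open_target (hs (e k)) (hs (e l))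
  have h5 := MeasureTheory.ae_all_iff.2 fun k : t =>
    gen_sep μ (e k).open_target (hs (e k)) (hi (e k))
  obtain ⟨a, ⟨⟨⟨a1, a2⟩, a3⟩, a4⟩, a5⟩ := ((((h1.and h2).and h3).and h4).and h5).exists
  have hG : Sm fun p => a (θ p) := hθ.outer fun _ => a.contDiff.contDiffAt
  have hd : ∀ (c : Chart M) (p : M), p ∈ c.source → ∀ u,
      dM (fun p => a (θ p)) p u = a (fderiv ℝ (c.rep θ) (c.to p) (c.push p u)) :=
    fun c p hp u => by rw [dM_clm a hθ, c.dM_eq hθ hp]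
  have hd0 : ∀ p u, dM (fst0 fun p => a (θ p)) p u = genP (dM (fun p => a (θ p)) p u) :=
    fun p u => dM_clm genP hG u
  have hz : ∀ (c : Chart M) (p : M), p ∈ c.source → ∀ u, c.push p u = 0 → u = 0 :=
    fun c p hp u hu => by rw [← c.pull_push hp u, hu, map_zero]
  refine ⟨fun p => a (θ p), hG, fun p u hu => ?_, ?_, fun c z hzc u hu ξ η h0 => ?_,
    fun p q hpq hG' u w h0 => ?_, fun p ⟨u, hu⟩ h0 => ?_⟩
  · obtain ⟨k, hk⟩ := hcov p
    rw [hd _ p hk] at hu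
    refine hz _ p hk u (by_contra fun hn => hn ?_)
    exact (a1 k _ ((e k).to_mem hk) _ hn hu 0 _ (by simp [d2, hu])).2
  · have hloc : ∀ p : M, ∀ᶠ q in 𝓝 p, dM (fst0 fun p => a (θ p)) q = 0 → q = p := fun p => by
      obtain ⟨k, hk⟩ := hcov p
      have h6 := a3 k _ ((e k).to_mem hk)
      rw [eventually_nhdsWithin_iff] at h6
      filter_upwards [(e k).ev_to hk h6] with q ⟨hq, hq'⟩ h0
      by_contra hn
      refine hq' (fun h => hn ?_) (Prod.ext ?_ ?_)
      · rw [← (e k).inv_to hq, mem_singleton_iff.1 h, (e k).inv_to hk]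
      · rw [← (e k).push_pull' hq (1, 0), ← hd _ q hq, ← hd0, h0]
        rfl
      · rw [← (e k).push_pull' hq (0, 1), ← hd _ q hq, ← hd0, h0]
        rfl
    obtain ⟨s, -, hs'⟩ := isCompact_univ.elim_nhds_subcover _ fun p _ => hloc p
    refine s.finite_toSet.subset fun q hq => ?_
    obtain ⟨p, hp, hqp⟩ := mem_iUnion₂.1 (hs' (mem_univ q))
    rw [hqp hq]
    exact hp
  · obtain ⟨k, hk⟩ := hcov (c.inv z)
    have hT := c.contDiffAt_tr (e k) hzc hk
    have hm : c.tr (e k) z ∈ (e k).target := (e k).to_mem hk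
    have hr := c.rep_tr (e k) (fun p => a (θ p)) hzc hk
    have hsG := (e k).contDiffAt_rep hG hm
    have hfd : ∀ v, fderiv ℝ (c.rep fun p => a (θ p)) z v =
        fderiv ℝ ((e k).rep fun p => a (θ p)) (c.tr (e k) z) (fderiv ℝ (c.tr (e k)) z v) :=
      fun v => by
        rw [hr.fderiv_eq]
        exact congrArg (fun T : P2 →L[ℝ] V => T v) (fderiv_comp z
          (hsG.differentiableAt (by simp)) (hT.differentiableAt (by simp)))
    have ha1 : ∀ v, fderiv ℝ ((e k).rep fun p => a (θ p)) (c.tr (e k) z) v =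
        a (fderiv ℝ ((e k).rep θ) (c.tr (e k) z) v) := fun v =>
      congrArg (fun T : P2 →L[ℝ] V => T v) (a.hasFDerivAt.comp _
        ((hs _ _ hm).differentiableAt (by simp)).hasFDerivAt).fderiv
    have ha2 : ∀ v w, d2 ((e k).rep fun p => a (θ p)) (c.tr (e k) z) v w =
        a (d2 ((e k).rep θ) (c.tr (e k) z) v w) := fun v w => by
      have h6 := d2_comp (f := a) (T := (e k).rep θ) a.contDiff.contDiffAt (hs _ _ hm) v w
      have h7 : fderiv ℝ a = fun _ => a := funext fun _ => a.fderiv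
      simp only [d2, h7, fderiv_fun_const, Pi.zero_apply, ContinuousLinearMap.zero_apply,
        zero_add] at h6
      exact h6
    rw [hfd, ha1] at hu
    rw [d2_congr hr, d2_comp hsG hT, hfd, add_assoc, ← map_add, ha1, ha2] at h0
    have h6 := (a2 k _ hm _ (fun h => gen_ev3 (by rw [← hu, h]; simp)) hu _ _ h0).1
    rw [c.fderiv_tr (e k) hzc hk] at h6
    rw [← c.push_pull hzc ξ, hz _ _ hk _ h6, map_zero]
  · obtain ⟨k, hk⟩ := hcov p
    obtain ⟨l, hl⟩ := hcov q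
    rw [hd _ p hk, hd _ q hl] at h0
    refine hz _ p hk u (a4 k l _ ((e k).to_mem hk) _ ((e l).to_mem hl) ?_ ?_ _ _ h0)
    · rw [(e k).rep_to θ hk, (e l).rep_to θ hl]
      exact fun h => hpq (hemb.injective h)
    · rw [(e k).rep_to θ hk, (e l).rep_to θ hl]
      exact hG'
  · obtain ⟨k, hk⟩ := hcov p
    rw [hd _ p hk] at hu
    refine a5 k _ ((e k).to_mem hk) ((e k).push p u) (fun h => gen_ev3 (by rw [← hu, h]; simp))
      (Prod.ext hu ?_)
    dsimp only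
    rw [← (e k).push_pull' hk (-((e k).push p u).2, ((e k).push p u).1), ← hd _ p hk, ← hd0, h0]
    rfl

end Vale.Agent.Iso4
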