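import Vale.Agent.Iso4.Tame2

/-! Calculus in charts. -/

open scoped ContDiff Topology Manifold
open Set Filter

noncomputable section
namespace Vale.Agent.Iso4

variable {M : Type*} [TopologicalSpace M] [ChartedSpace E2 M]
  {X Y : Type} [NormedAddCommGroup X] [NormedSpace ℝ X] [NormedAddCommGroup Y] [NormedSpace ℝ Y]

theorem dM_congr {f g : M → X} {p : M} (h : f =ᶠ[𝓝 p] g) : dM f p = dM g p :=
  h.mfderiv_eq

theorem dM_comp {Φ : X → Y} {f : M → X} {p : M} (hf : ContMDiffAt (𝓡 2) 𝓘(ℝ, X) ∞ f p)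
    (hΦ : DifferentiableAt ℝ Φ (f p)) (u : E2) :
    dM (fun p => Φ (f p)) p u = fderiv ℝ Φ (f p) (dM f p u) :=
  DFunLike.congr_fun (hΦ.hasFDerivAt.hasMFDerivAt.comp p
    (hf.mdifferentiableAt (by simp)).hasMFDerivAt).mfderiv u

namespace Chart
variable (e e' : Chart M) {p : M} {z : P2} {f : M → X} {w : P2 → X}

theorem to_mem (hp : p ∈ e.source) : e.to p ∈ e.target := e.toOpenPartialHomeomorph.map_source hp
theorem inv_mem (hz : z ∈ e.target) : e.inv z ∈ e.source := e.toOpenPartialHomeomorph.map_target hz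
theorem inv_to (hp : p ∈ e.source) : e.inv (e.to p) = p := e.toOpenPartialHomeomorph.left_inv hp
theorem to_inv (hz : z ∈ e.target) : e.to (e.inv z) = z := e.toOpenPartialHomeomorph.right_inv hz
theorem rep_to {Z : Type*} (f : M → Z) (hp : p ∈ e.source) : e.rep f (e.to p) = f p :=
  congrArg f (e.inv_to hp)
theorem ext_of_mem {Z : Type*} [Zero Z] (w : P2 → Z) (hp : p ∈ e.source) :
    e.ext w p = w (e.to p) :=
  if_pos hp
theorem ext_of_not_mem {Z : Type*} [Zero Z] (w : P2 → Z) (hp : p ∉ e.source) : e.ext w p = 0 :=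
  if_neg hp
theorem rep_ext {Z : Type*} [Zero Z] (w : P2 → Z) (hz : z ∈ e.target) : e.rep (e.ext w) z = w z :=
  (e.ext_of_mem w (e.inv_mem hz)).trans (congrArg w (e.to_inv hz))
theorem rep_ext_ev {Z : Type*} [Zero Z] (w : P2 → Z) (hz : z ∈ e.target) :
    e.rep (e.ext w) =ᶠ[𝓝 z] w :=
  mem_of_superset (e.open_target.mem_nhds hz) fun _ h => e.rep_ext w h
theorem continuousAt_to (hp : p ∈ e.source) : ContinuousAt e.to p :=
  e.toOpenPartialHomeomorph.continuousAt hp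
theorem continuousAt_inv (hz : z ∈ e.target) : ContinuousAt e.inv z :=
  e.toOpenPartialHomeomorph.continuousAt_symm hz
theorem contMDiffAt_to (hp : p ∈ e.source) : ContMDiffAt (𝓡 2) 𝓘(ℝ, P2) ∞ e.to p :=
  e.sm.contMDiffAt (e.open_source.mem_nhds hp)
theorem contMDiffAt_inv (hz : z ∈ e.target) : ContMDiffAt 𝓘(ℝ, P2) (𝓡 2) ∞ e.inv z :=
  e.sm'.contMDiffAt (e.open_target.mem_nhds hz)
theorem isCompact_inv {K : Set P2} (hK : IsCompact K) (h : K ⊆ e.target) :
    IsCompact (e.inv '' K) :=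
  hK.image_of_continuousOn fun _ hz => (e.continuousAt_inv (h hz)).continuousWithinAt
theorem isCompact_to {K : Set M} (hK : IsCompact K) (h : K ⊆ e.source) :
    IsCompact (e.to '' K) :=
  hK.image_of_continuousOn fun _ hz => (e.continuousAt_to (h hz)).continuousWithinAt
theorem isOpen_inv {U : Set P2} (hU : IsOpen U) (h : U ⊆ e.target) : IsOpen (e.inv '' U) :=
  e.toOpenPartialHomeomorph.isOpen_image_symm_of_subset_target hU h
theorem mem_inv_image {K : Set P2} (h : K ⊆ e.target) :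
    p ∈ e.inv '' K ↔ p ∈ e.source ∧ e.to p ∈ K :=
  ⟨by
    rintro ⟨z, hz, rfl⟩
    exact ⟨e.inv_mem (h hz), by rwa [e.to_inv (h hz)]⟩, fun hp => ⟨_, hp.2, e.inv_to hp.1⟩⟩
/-- transfer of eventual properties -/
theorem ev_inv {P : M → Prop} (hz : z ∈ e.target) (h : ∀ᶠ q in 𝓝 (e.inv z), P q) :
    ∀ᶠ x in 𝓝 z, P (e.inv x) :=
  (e.continuousAt_inv hz).eventually h
theorem ev_to {P : P2 → Prop} (hp : p ∈ e.source) (h : ∀ᶠ x in 𝓝 (e.to p), P x) :
    ∀ᶠ q in 𝓝 p, q ∈ e.source ∧ P (e.to q) :=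
  Eventually.and (e.open_source.mem_nhds hp) ((e.continuousAt_to hp).eventually h)

theorem ev_rep {Z : Type*} (f : M → Z) (hp : p ∈ e.source) :
    f =ᶠ[𝓝 p] fun q => e.rep f (e.to q) :=
  mem_of_superset (e.open_source.mem_nhds hp) fun _ hq => (e.rep_to f hq).symm

theorem contDiffAt_rep' (hz : z ∈ e.target) (hf : ContMDiffAt (𝓡 2) 𝓘(ℝ, X) ∞ f (e.inv z)) :
    ContDiffAt ℝ ∞ (e.rep f) z :=
  (hf.comp z (e.contMDiffAt_inv hz)).contDiffAt
theorem contDiffAt_rep (hf : Sm f) (hz : z ∈ e.target) : ContDiffAt ℝ ∞ (e.rep f) z :=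
  e.contDiffAt_rep' hz (hf _)
theorem contMDiffAt_of_rep (hp : p ∈ e.source) (hf : ContDiffAt ℝ ∞ (e.rep f) (e.to p)) :
    ContMDiffAt (𝓡 2) 𝓘(ℝ, X) ∞ f p :=
  (hf.comp_contMDiffAt (e.contMDiffAt_to hp)).congr_of_eventuallyEq (e.ev_rep f hp)

theorem fderiv_rep' (hz : z ∈ e.target) (hf : ContMDiffAt (𝓡 2) 𝓘(ℝ, X) ∞ f (e.inv z)) (v : P2) :
    fderiv ℝ (e.rep f) z v = dM f (e.inv z) (e.pull z v) := by
  rw [← mfderiv_eq_fderiv]
  exact mfderiv_comp_apply z (hf.mdifferentiableAt (by simp))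
    ((e.contMDiffAt_inv hz).mdifferentiableAt (by simp)) v

theorem pull_push (hp : p ∈ e.source) (u : E2) : e.pull (e.to p) (e.push p u) = u := by
  have h : e.inv ∘ e.to =ᶠ[𝓝 p] id :=
    mem_of_superset (e.open_source.mem_nhds hp) fun _ hq => e.inv_to hq
  have := mfderiv_comp_apply p ((e.contMDiffAt_inv (e.to_mem hp)).mdifferentiableAt (by simp))
    ((e.contMDiffAt_to hp).mdifferentiableAt (by simp)) u
  rw [h.mfderiv_eq, mfderiv_id] at this
  exact this.symm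
theorem push_pull (hz : z ∈ e.target) (v : P2) : e.push (e.inv z) (e.pull z v) = v := by
  have h : e.rep e.to =ᶠ[𝓝 z] id :=
    mem_of_superset (e.open_target.mem_nhds hz) fun _ hq => e.to_inv hq
  have := e.fderiv_rep' hz (e.contMDiffAt_to (e.inv_mem hz)) v
  rw [h.fderiv_eq, fderiv_id] at this
  exact this.symm
theorem push_pull' (hp : p ∈ e.source) (v : P2) : e.push p (e.pull (e.to p) v) = v := by
  have := e.push_pull (e.to_mem hp) v
  rwa [e.inv_to hp] at this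

theorem dM_eq' (hp : p ∈ e.source) (hf : ContMDiffAt (𝓡 2) 𝓘(ℝ, X) ∞ f p) (u : E2) :
    dM f p u = fderiv ℝ (e.rep f) (e.to p) (e.push p u) := by
  rw [e.fderiv_rep' (e.to_mem hp) (by rwa [e.inv_to hp]), e.pull_push hp, e.inv_to hp]
theorem dM_eq (hf : Sm f) (hp : p ∈ e.source) (u : E2) :
    dM f p u = fderiv ℝ (e.rep f) (e.to p) (e.push p u) :=
  e.dM_eq' hp (hf p) u
theorem fderiv_rep (hf : Sm f) (hz : z ∈ e.target) (v : P2) :
    fderiv ℝ (e.rep f) z v = dM f (e.inv z) (e.pull z v) :=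
  e.fderiv_rep' hz (hf _) v

/-- transversality read in a chart -/
theorem tr_iff (hf : Sm f) (hp : p ∈ e.source) {κ : ℝ} {x : X} :
    Tr κ x (dM f p) ↔ Tr κ x (fderiv ℝ (e.rep f) (e.to p)) :=
  ⟨fun h v => by
    rw [e.fderiv_rep hf (e.to_mem hp), e.inv_to hp]
    exact h _, fun h u => by
    rw [e.dM_eq hf hp]
    exact h _⟩

/-- change of coordinates -/
def tr (z : P2) : P2 := e'.to (e.inv z)

theorem contDiffAt_tr (hz : z ∈ e.target) (hz' : e.inv z ∈ e'.source) :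
    ContDiffAt ℝ ∞ (e.tr e') z :=
  e.contDiffAt_rep' hz (e'.contMDiffAt_to hz')
theorem rep_tr {Z : Type*} (f : M → Z) (hz : z ∈ e.target) (hz' : e.inv z ∈ e'.source) :
    e.rep f =ᶠ[𝓝 z] fun x => e'.rep f (e.tr e' x) :=
  e.ev_inv (P := fun q => f q = e'.rep f (e'.to q)) hz (e'.ev_rep f hz')
theorem fderiv_tr (hz : z ∈ e.target) (hz' : e.inv z ∈ e'.source) (v : P2) :
    fderiv ℝ (e.tr e') z v = e'.push (e.inv z) (e.pull z v) :=
  e.fderiv_rep' hz (e'.contMDiffAt_to hz') v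

theorem Adapt.push {φ : M → ℝ} (h : e.Adapt φ) (hp : p ∈ e.source) (u : E2) :
    dM φ p u = (e.push p u).1 := by
  rw [dM_congr (g := fun q => (e.to q).1) (mem_of_superset (e.open_source.mem_nhds hp)
    fun q hq => (h q hq).symm), dM_comp (e.contMDiffAt_to hp) differentiableAt_fst, fderiv_fst]
  rfl
theorem Adapt.tr_fst {φ : M → ℝ} (h : e.Adapt φ) (h' : e'.Adapt φ) (hz : z ∈ e.target)
    (hz' : e.inv z ∈ e'.source) : (fun x => (e.tr e' x).1) =ᶠ[𝓝 z] fun x => x.1 := by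
  filter_upwards [e.ev_inv (P := (· ∈ e'.source)) hz (e'.open_source.mem_nhds hz'),
    e.open_target.mem_nhds hz] with x h1 h2
  rw [tr, h' _ h1, ← h _ (e.inv_mem h2), e.to_inv h2]

section T2
variable [T2Space M] {K : Set P2}

theorem ext_ev_zero {Z : Type*} [Zero Z] {w : P2 → Z} (hK : IsCompact K) (h : K ⊆ e.target)
    (hw : ∀ z ∉ K, w z = 0) (hp : p ∉ e.inv '' K) : e.ext w =ᶠ[𝓝 p] fun _ => 0 := by
  filter_upwards [(e.isCompact_inv hK h).isClosed.isOpen_compl.mem_nhds hp] with q hq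
  by_cases hs : q ∈ e.source
  · rw [e.ext_of_mem w hs]
    exact hw _ fun h' => hq ((e.mem_inv_image h).2 ⟨hs, h'⟩)
  · exact e.ext_of_not_mem w hs
theorem sm_ext (hK : IsCompact K) (h : K ⊆ e.target) (hw : ∀ z ∉ K, w z = 0)
    (hs : ∀ z ∈ e.target, ContDiffAt ℝ ∞ w z) : Sm (e.ext w) := by
  intro p
  by_cases hp : p ∈ e.source
  · exact e.contMDiffAt_of_rep hp ((hs _ (e.to_mem hp)).congr_of_eventuallyEq
      (e.rep_ext_ev w (e.to_mem hp)))
  · exact contMDiffAt_const.congr_of_eventuallyEq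
      (e.ext_ev_zero hK h hw fun h' => hp ((e.mem_inv_image h).1 h').1)
theorem dM_ext (hp : p ∈ e.source) (hs : ContDiffAt ℝ ∞ w (e.to p)) (u : E2) :
    dM (e.ext w) p u = fderiv ℝ w (e.to p) (e.push p u) := by
  have h := e.rep_ext_ev w (e.to_mem hp)
  rw [e.dM_eq' hp (e.contMDiffAt_of_rep hp (hs.congr_of_eventuallyEq h)), h.fderiv_eq]
theorem dM_ext_zero (hK : IsCompact K) (h : K ⊆ e.target) (hw : ∀ z ∉ K, w z = 0)
    (hp : p ∉ e.inv '' K) : dM (e.ext w) p = 0 :=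
  (dM_congr (e.ext_ev_zero hK h hw hp)).trans mfderiv_const
end T2

/-- affine change of a chart -/
theorem exists_affine (A : P2 ≃L[ℝ] P2) (c : P2) : ∃ e' : Chart M, e'.source = e.source ∧
    (∀ p, e'.to p = A (e.to p - c)) ∧ (∀ z, e'.inv z = e.inv (A.symm z + c)) ∧
    e'.target = {z | A.symm z + c ∈ e.target} := by
  refine ⟨⟨e.toOpenPartialHomeomorph.transHomeomorph
    ((Homeomorph.subRight c).trans A.toHomeomorph), ?_, ?_⟩, rfl, fun _ => rfl, fun _ => rfl, rfl⟩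
  · exact (show ContDiff ℝ ∞ fun z => A (z - c) by fun_prop).contMDiff.comp_contMDiffOn e.sm
  · exact e.sm'.comp (show ContDiff ℝ ∞ fun z => A.symm z + c by fun_prop).contMDiff.contMDiffOn
      fun _ h => h

/-- restriction of a chart to an open set -/
theorem exists_restr {U : Set M} (hU : IsOpen U) : ∃ e' : Chart M, e'.source = e.source ∩ U ∧
    e'.to = e.to ∧ e'.inv = e.inv ∧ e'.target = e.target ∩ e.inv ⁻¹' U :=
  ⟨⟨e.toOpenPartialHomeomorph.restrOpen U hU, e.sm.mono inter_subset_left,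
    e.sm'.mono inter_subset_left⟩, rfl, rfl, rfl, rfl⟩

/-- composition with a local diffeomorphism of the plane -/
def transO (h : OpenPartialHomeomorph P2 P2) (h1 : ∀ x ∈ h.source, ContDiffAt ℝ ∞ h x)
    (h2 : ∀ x ∈ h.target, ContDiffAt ℝ ∞ h.symm x) : Chart M :=
  ⟨e.toOpenPartialHomeomorph.trans h, fun _ hp =>
    ((h1 _ hp.2).comp_contMDiffAt (e.contMDiffAt_to hp.1)).contMDiffWithinAt, fun z hz =>
    ((e.contMDiffAt_inv hz.2).comp z (h2 z hz.1).contMDiffAt).contMDiffWithinAt⟩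

end Chart

theorem exists_chart [IsManifold (𝓡 2) ∞ M] (p : M) : ∃ e : Chart M, p ∈ e.source ∧ e.to p = 0 := by
  obtain ⟨L⟩ : Nonempty (E2 ≃L[ℝ] P2) :=
    FiniteDimensional.nonempty_continuousLinearEquiv_of_finrank_eq (by simp)
  let e : Chart M := ⟨(chartAt E2 p).transHomeomorph L.toHomeomorph,
    L.contDiff.contMDiff.comp_contMDiffOn contMDiffOn_chart,
    contMDiffOn_chart_symm.comp L.symm.contDiff.contMDiff.contMDiffOn fun _ h => h⟩
  obtain ⟨e', h1, h2, -⟩ := e.exists_affine (ContinuousLinearEquiv.refl ℝ P2) (e.to p)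
  exact ⟨e', h1 ▸ mem_chart_source E2 p, by simp [h2]⟩

theorem man_ift {ψ : P2 → P2} {z : P2} {U : Set P2} (hU : IsOpen U) (hz : z ∈ U)
    (hψ : ∀ x ∈ U, ContDiffAt ℝ ∞ ψ x) (hi : Function.Injective (fderiv ℝ ψ z)) :
    ∃ h : OpenPartialHomeomorph P2 P2, z ∈ h.source ∧ h.source ⊆ U ∧ (h : P2 → P2) = ψ ∧
      ∀ x ∈ h.target, ContDiffAt ℝ ∞ h.symm x := by
  have hW := ContinuousOn.isOpen_inter_preimage (f := fderiv ℝ ψ)
    (fun x hx => (tame_fd (hψ x hx)).continuousAt.continuousWithinAt) hU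
    (ContinuousLinearEquiv.isOpen (𝕜 := ℝ) (E := P2) (F := P2))
  let A : P2 ≃L[ℝ] P2 :=
    (LinearEquiv.ofInjectiveEndo (fderiv ℝ ψ z).toLinearMap hi).toContinuousLinearEquiv
  have hA : (A : P2 →L[ℝ] P2) = fderiv ℝ ψ z := ContinuousLinearMap.ext fun _ => rfl
  have hd : HasFDerivAt ψ (A : P2 →L[ℝ] P2) z :=
    hA ▸ ((hψ z hz).differentiableAt (by simp)).hasFDerivAt
  refine ⟨((hψ z hz).toOpenPartialHomeomorph ψ hd (by simp)).restrOpen _ hW,
    ⟨(hψ z hz).mem_toOpenPartialHomeomorph_source hd _, hz, A, hA⟩, fun x hx => hx.2.1, rfl,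
    fun x hx => ?_⟩
  obtain ⟨h1, B, hB⟩ := hx.2
  exact OpenPartialHomeomorph.contDiffAt_symm _ (f₀' := B) hx
    (hB ▸ ((hψ _ h1).differentiableAt (by simp)).hasFDerivAt) (hψ _ h1)

/-- a map with injective differential is a chart near the point -/
theorem exists_chart_of [IsManifold (𝓡 2) ∞ M] {f : M → P2} {p : M} {U : Set M} (hU : IsOpen U)
    (hp : p ∈ U) (hf : ∀ q ∈ U, ContMDiffAt (𝓡 2) 𝓘(ℝ, P2) ∞ f q)
    (hi : Function.Injective (dM f p)) :
    ∃ e : Chart M, p ∈ e.source ∧ e.source ⊆ U ∧ ∀ q ∈ e.source, e.to q = f q := by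
  obtain ⟨e, he, -⟩ := exists_chart p
  have hp' : e.inv (e.to p) ∈ U := by rwa [e.inv_to he]
  have hψ : ∀ x ∈ e.target ∩ e.inv ⁻¹' U, ContDiffAt ℝ ∞ (e.rep f) x :=
    fun x hx => e.contDiffAt_rep' hx.1 (hf _ hx.2)
  obtain ⟨h, h1, h2, h3, h4⟩ := man_ift (ψ := e.rep f)
    (e.toOpenPartialHomeomorph.isOpen_inter_preimage_symm hU) ⟨e.to_mem he, hp'⟩ hψ
    fun v w hvw => by
      rw [e.fderiv_rep' (e.to_mem he) (hf _ hp'), e.fderiv_rep' (e.to_mem he) (hf _ hp'),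
        e.inv_to he] at hvw
      rw [← e.push_pull' he v, hi hvw, e.push_pull' he]
  refine ⟨e.transO h (fun x hx => h3 ▸ hψ x (h2 hx)) h4, ⟨he, h1⟩, fun q hq => ?_, fun q hq => ?_⟩
  · rw [← e.inv_to hq.1]
    exact (h2 hq.2).2
  · exact (congrFun h3 _).trans (e.rep_to f hq.1)

/-- a local diffeomorphism of the plane into the target of a chart gives a chart -/
theorem exists_chart_inv (e : Chart M) {ψ : P2 → P2} {z : P2} {U : Set P2} (hU : IsOpen U)
    (hz : z ∈ U) (hψ : ∀ x ∈ U, ContDiffAt ℝ ∞ ψ x) (hm : ψ z ∈ e.target)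
    (hi : Function.Injective (fderiv ℝ ψ z)) :
    ∃ e' : Chart M, z ∈ e'.target ∧ e'.target ⊆ U ∧ e'.source ⊆ e.source ∧
      ∀ x ∈ e'.target, ψ x ∈ e.target ∧ e'.inv x = e.inv (ψ x) ∧
        ∀ v, e'.pull x v = e.pull (ψ x) (fderiv ℝ ψ x v) := by
  obtain ⟨h, h1, h2, rfl, h4⟩ := man_ift (ContinuousOn.isOpen_inter_preimage
    (fun x hx => (hψ x hx).continuousAt.continuousWithinAt) hU e.open_target) ⟨hz, hm⟩
    (fun x hx => hψ x hx.1) hi
  refine ⟨e.transO h.symm h4 fun x hx => hψ x (h2 hx).1, ⟨h1, hm⟩, fun x hx => (h2 hx.1).1,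
    fun q hq => hq.1, fun x hx => ⟨hx.2, rfl, fun v => ?_⟩⟩
  exact DFunLike.congr_fun (((e.contMDiffAt_inv hx.2).mdifferentiableAt
    (by simp)).hasMFDerivAt.comp x
    ((hψ x (h2 hx.1).1).differentiableAt (by simp)).hasFDerivAt.hasMFDerivAt).mfderiv v

section Sm
variable {f g : M → X} {p : M}

theorem Sm.cont (hf : Sm f) : Continuous f :=
  ContMDiff.continuous hf
theorem Sm.const (c : X) : Sm fun _ : M => c :=
  contMDiff_const
theorem Sm.add (hf : Sm f) (hg : Sm g) : Sm fun p => f p + g p :=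
  ContMDiff.add hf hg
theorem Sm.sub (hf : Sm f) (hg : Sm g) : Sm fun p => f p - g p :=
  ContMDiff.sub hf hg
theorem Sm.neg (hf : Sm f) : Sm fun p => -f p :=
  ContMDiff.neg hf
theorem Sm.sum {κ : Type*} (t : Finset κ) {F : κ → M → X} (h : ∀ j ∈ t, Sm (F j)) :
    Sm fun p => ∑ j ∈ t, F j p :=
  contMDiff_finsetSum h
theorem Sm.smul {c : M → ℝ} (hc : Sm c) (hf : Sm f) : Sm fun p => c p • f p :=
  ContMDiff.smul hc hf
theorem Sm.mul {f g : M → ℝ} (hf : Sm f) (hg : Sm g) : Sm fun p => f p * g p :=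
  hf.smul hg
theorem Sm.prod {g : M → Y} (hf : Sm f) (hg : Sm g) : Sm fun p => (f p, g p) :=
  ContMDiff.prodMk_space hf hg
theorem Sm.outer {Φ : X → Y} (hf : Sm f) (hΦ : ∀ p, ContDiffAt ℝ ∞ Φ (f p)) :
    Sm fun p => Φ (f p) :=
  fun p => (hΦ p).comp_contMDiffAt (hf p)
theorem Sm.of_rep (h : ∀ p, ∃ e : Chart M, p ∈ e.source ∧ ContDiffAt ℝ ∞ (e.rep f) (e.to p)) :
    Sm f :=
  fun p => (h p).elim fun e he => e.contMDiffAt_of_rep he.1 he.2

theorem dM_const (c : X) : dM (fun _ : M => c) p = 0 :=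
  mfderiv_const
theorem dM_add (hf : Sm f) (hg : Sm g) : dM (fun p => f p + g p) p = dM f p + dM g p :=
  mfderiv_add ((hf p).mdifferentiableAt (by simp)) ((hg p).mdifferentiableAt (by simp))
theorem dM_sub (hf : Sm f) (hg : Sm g) : dM (fun p => f p - g p) p = dM f p - dM g p :=
  mfderiv_sub ((hf p).mdifferentiableAt (by simp)) ((hg p).mdifferentiableAt (by simp))
theorem dM_sum {κ : Type*} (t : Finset κ) {F : κ → M → X} (h : ∀ j ∈ t, Sm (F j)) :
    dM (fun p => ∑ j ∈ t, F j p) p = ∑ j ∈ t, dM (F j) p := by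
  classical
  induction t using Finset.induction_on with
  | empty => simpa only [Finset.sum_empty] using dM_const 0
  | insert j t hj ih =>
    have h' := fun l hl => h l (Finset.mem_insert_of_mem hl)
    simp only [Finset.sum_insert hj]
    rw [dM_add (h j (Finset.mem_insert_self j t)) (Sm.sum t h'), ih h']
theorem dM_const_smul (hf : Sm f) (c : ℝ) : dM (fun p => c • f p) p = c • dM f p :=
  const_smul_mfderiv ((hf p).mdifferentiableAt (by simp)) c
theorem dM_smul {c : M → ℝ} (hc : Sm c) (hf : Sm f) (u : E2) :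
    dM (fun p => c p • f p) p u = c p • dM f p u + dM c p u • f p :=
  DFunLike.congr_fun (mvfderiv_smul ((hc p).mdifferentiableAt (by simp))
    ((hf p).mdifferentiableAt (by simp))) u
theorem dM_outer {Φ : X → Y} (hf : Sm f) (hΦ : DifferentiableAt ℝ Φ (f p)) (u : E2) :
    dM (fun p => Φ (f p)) p u = fderiv ℝ Φ (f p) (dM f p u) :=
  dM_comp (hf p) hΦ u
theorem dM_clm (T : X →L[ℝ] Y) (hf : Sm f) (u : E2) :
    dM (fun p => T (f p)) p u = T (dM f p u) := by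
  rw [dM_outer hf T.differentiableAt, T.fderiv]

end Sm

/-! The bumps `bmp`. -/

theorem bmp_smooth (r R : ℝ) : ContDiff ℝ ∞ (bmp r R) := by
  unfold bmp
  split_ifs
  exacts [ContDiffBump.contDiff _, contDiff_const]
theorem bmp_mem (r R : ℝ) (z : P2) : bmp r R z ∈ Icc (0 : ℝ) 1 := by
  unfold bmp
  split_ifs
  exacts [⟨ContDiffBump.nonneg _, ContDiffBump.le_one _⟩, ⟨le_rfl, zero_le_one⟩]
theorem bmp_one {r R : ℝ} (h0 : 0 < r) (h : r < R) {z : P2} (hz : ‖z‖ ≤ r) : bmp r R z = 1 := by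
  rw [bmp, dif_pos ⟨h0, h⟩]
  exact ContDiffBump.one_of_mem_closedBall _ (mem_closedBall_zero_iff.2 hz)
theorem bmp_zero {r R : ℝ} {z : P2} (hz : R ≤ ‖z‖) : bmp r R z = 0 := by
  unfold bmp
  split_ifs
  exacts [ContDiffBump.zero_of_le_dist _ (by rwa [dist_zero_right]), rfl]
theorem bmp_supp (r R : ℝ) : HasCompactSupport (bmp r R) :=
  HasCompactSupport.intro (isCompact_closedBall 0 R) fun _ hz =>
    bmp_zero (not_le.1 fun h => hz (mem_closedBall_zero_iff.2 h)).le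
theorem bmp_ev_one {r R : ℝ} (h0 : 0 < r) (h : r < R) {z : P2} (hz : ‖z‖ < r) :
    bmp r R =ᶠ[𝓝 z] fun _ => 1 :=
  (continuous_norm.continuousAt.eventually (gt_mem_nhds hz)).mono fun _ hx => bmp_one h0 h hx.le
theorem bmp_ev_zero {r R : ℝ} {z : P2} (hz : R < ‖z‖) : bmp r R =ᶠ[𝓝 z] fun _ => 0 :=
  (continuous_norm.continuousAt.eventually (lt_mem_nhds hz)).mono fun _ hx => bmp_zero hx.le

end Vale.Agent.Iso4
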