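import Vale.Agent.Iso4.Cliff
import Vale.Agent.Iso4.ManA
import Vale.Agent.Iso4.GS

/-! The local model near a critical point: the Clifford pattern is unwound into a small flat map. -/

open scoped ContDiff Topology
open Set Filter

noncomputable section
namespace Vale.Agent.Iso4

/-- the exponential -/
def cis (t : ℝ) : ℂ := Complex.exp (t * Complex.I)

/-- isometric identifications of two complex lines with four-space -/
def IsoO (O : ℂ × ℂ →L[ℝ] V) : Prop :=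
  ∀ a b : ℂ × ℂ, inner ℝ (O a) (O b) = inner ℝ a.1 b.1 + inner ℝ a.2 b.2

theorem ld_cis {a g : P2 → ℝ} {A G : P2 →L[ℝ] ℝ} {z : P2} (ha : HasFDerivAt a A z)
    (hg : HasFDerivAt g G z) : ∃ T : P2 →L[ℝ] ℂ, HasFDerivAt (fun y => a y • cis (g y)) T z ∧
      ∀ u, T u = ((A u : ℝ) + (a z * G u : ℝ) * Complex.I) * cis (g z) := by
  refine ⟨_, ha.fun_smul ((Complex.ofRealCLM.hasFDerivAt.comp z hg).mul_const Complex.I).cexp,
    fun u => ?_⟩
  simp only [cis, add_apply, smul_apply, smul_eq_mul, ContinuousLinearMap.comp_apply,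
    Complex.ofRealCLM_apply, Function.comp_apply, ContinuousLinearMap.smulRight_apply,
    Complex.real_smul]
  push_cast
  ring

section
variable {ι : Type*} {x : ι → ℝ} {g : ι → P2 → ℝ}

/-- families bounded with all derivatives on the square -/
abbrev LdT {X : Type} [NormedAddCommGroup X] [NormedSpace ℝ X] (μ : ι → ℝ) (f : ι → P2 → X) : Prop :=
  Tame (fun _ => B10) (fun _ _ => 1) μ 0 f

theorem ld_tcis (hx : ∀ i, 1 ≤ x i) (hg : LdT (fun _ => 1) g) :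
    LdT x fun i z => cis (x i * g i z) := by
  have h := hg.smul_index (c := x) (t := x) fun i => (abs_of_pos (one_pos.trans_le (hx i))).le
  exact Tame.outer (Φ := cis) (S := univ)
    (fun _ _ => ((Complex.ofRealCLM.contDiff.mul contDiff_const).cexp).contDiffAt)
    (fun m => (bdd_cis m).imp fun _ hC y _ => hC y) h.smooth (fun _ _ _ => trivial)
    (h.fderiv.absorb hx (fun i _ _ => by simp) fun _ _ _ => zero_le_one)

theorem ld_bmp (hx : ∀ i, 1 ≤ x i) (r R : ℝ) : LdT x fun _ => bmp r R :=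
  Tame.fixed_supp hx (bmp_smooth r R) (bmp_supp r R)

theorem ld_bmp' (hx : ∀ i, 1 ≤ x i) (r R : ℝ) : LdT x fun _ z => 1 - bmp r R z :=
  (Tame.const_one hx 1).sub (ld_bmp hx r R)

theorem ld_clm {X : Type} [NormedAddCommGroup X] [NormedSpace ℝ X] (hx : ∀ i, 1 ≤ x i)
    (T : P2 →L[ℝ] X) : LdT x fun _ => T :=
  Tame.fixed_clm hx T (R := 10) fun _ _ hz => (mem_ball_zero_iff.1 hz).le

theorem ld_ext {X : Type} [NormedAddCommGroup X] [NormedSpace ℝ X] {f : ι → P2 → X} (h : LdT x f)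
    (h0 : ∀ i z, 9 ≤ ‖z‖ → f i z = 0) : Tame (fun _ => univ) (fun _ _ => 1) x 0 f :=
  h.of_vanish (fun i _ hz => (continuous_norm.continuousAt.eventually (lt_mem_nhds
    (lt_of_lt_of_le (by norm_num) (not_lt.1 fun e => hz (mem_ball_zero_iff.2 e))))).mono
      fun y hy => h0 i y hy.le) (fun _ _ => zero_le_one) fun _ _ _ => le_rfl

end

/-- local data -/
structure LData (ι : Type*) where
  (x : ι → ℝ)
  (R1 R2 : P2 → ℝ)
  (ρ1 ρ2 om : ι → P2 → ℝ)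
  (O : ℂ × ℂ →L[ℝ] V)
  (Lin : P2 →L[ℝ] ℂ)

namespace LData
variable {ι : Type*} (D : LData ι)

/-- the small parameter -/
def ε (i : ι) : ℝ := (D.x i)⁻¹

/-- first amplitude -/
def A1 (i : ι) (z : P2) : ℝ := bmp 5 6 z * D.ρ1 i z + D.ε i *
  ((1 - bmp 5 6 z) * bmp 6 (13 / 2) z * D.ρ1 i z + (1 - bmp 6 (13 / 2) z) * bmp 8 9 z * (20 + z.2))

/-- second amplitude -/
def A2 (i : ι) (z : P2) : ℝ :=
  bmp 5 6 z * D.ρ2 i z + D.ε i * ((1 - bmp 5 6 z) * bmp 7 (15 / 2) z * D.ρ2 i z)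

/-- the compactly supported modification of the map -/
def W (i : ι) (z : P2) : V :=
  D.O ((D.ε i * D.A1 i z) • cis (D.x i * z.1),
    (D.ε i * D.A2 i z) • cis (D.x i * (z.2 + D.om i z)) -
      (D.ε i ^ 3 * bmp 7 (15 / 2) z) • D.Lin z)

/-- the local map -/
def f (i : ι) (z : P2) : V := D.W i z + D.ε i ^ 3 • D.O (0, D.Lin z)

/-- the local transversal field -/
def Bf (i : ι) (z : P2) : V :=
  D.O ((1 - bmp (15 / 2) 8 z) • cis (bmp 8 9 z * (D.x i * z.1)),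
    -(bmp (15 / 2) 8 z • cis (bmp (13 / 2) (15 / 2) z * (D.x i * (z.2 + D.om i z)))))

/-- hypotheses -/
structure OK : Prop where
  x1 : ∀ i, 1 ≤ D.x i
  hR1 : ∀ z ∈ Metric.closedBall (0 : P2) 10, ContDiffAt ℝ ∞ D.R1 z ∧ 0 < D.R1 z
  hR2 : ∀ z ∈ Metric.closedBall (0 : P2) 10, ContDiffAt ℝ ∞ D.R2 z ∧ 0 < D.R2 z
  t1 : Tame (fun _ => B10) (fun i _ => D.ε i ^ 2) (fun _ => 1) 0 fun i z => D.ρ1 i z - D.R1 z
  t2 : Tame (fun _ => B10) (fun i _ => D.ε i ^ 2) (fun _ => 1) 0 fun i z => D.ρ2 i z - D.R2 z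
  tom : Tame (fun _ => B10) (fun i _ => D.ε i ^ 2) (fun _ => 1) 0 D.om
  iso : IsoO D.O
  inj : Function.Injective D.Lin
  pos : ∃ α : ℝ, 0 < α ∧ D.Lin (0, 1) = α

variable {D}

theorem OK.ld_pos (h : D.OK) (i : ι) : 0 < D.ε i := inv_pos.2 (one_pos.trans_le (h.x1 i))

theorem OK.ld_le (h : D.OK) (i : ι) : D.ε i ≤ 1 := inv_le_one_of_one_le₀ (h.x1 i)

theorem OK.ld_one (h : D.OK) {g : ι → P2 → ℝ} (hg : CT D.ε 2 g) : LdT (fun _ => 1) g :=
  hg.weaken fun i _ _ => pow_le_one₀ (h.ld_pos i).le (h.ld_le i)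

theorem OK.ld_eps {X : Type} [NormedAddCommGroup X] [NormedSpace ℝ X] (h : D.OK) {μ : ι → ℝ}
    {g : ι → P2 → X} (hg : LdT μ g) : LdT μ fun i z => D.ε i • g i z :=
  (hg.smul_index (t := fun _ => 1) fun i => (abs_of_pos (h.ld_pos i)).trans_le (h.ld_le i)).weaken
    fun _ _ _ => (one_mul _).le

theorem ld_fix {R : P2 → ℝ} (hR : ∀ z ∈ Metric.closedBall (0 : P2) 10, ContDiffAt ℝ ∞ R z ∧ 0 < R z) :
    LdT (fun _ : ι => 1) fun _ => R :=
  Tame.fixed_compact (fun _ => le_rfl) (isCompact_closedBall 0 10) (fun z hz => (hR z hz).1)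
    fun _ => Metric.ball_subset_closedBall

theorem OK.ld_ρ1 (h : D.OK) : LdT (fun _ => 1) D.ρ1 :=
  ((h.ld_one h.t1).add (ld_fix h.hR1)).congr_open (fun _ => Metric.isOpen_ball)
    fun _ _ _ => sub_add_cancel _ _

theorem OK.ld_ρ2 (h : D.OK) : LdT (fun _ => 1) D.ρ2 :=
  ((h.ld_one h.t2).add (ld_fix h.hR2)).congr_open (fun _ => Metric.isOpen_ball)
    fun _ _ _ => sub_add_cancel _ _

theorem OK.ld_G1 (h : D.OK) : LdT (fun _ => 1) fun i z => (1 - bmp 5 6 z) * bmp 6 (13 / 2) z *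
    D.ρ1 i z + (1 - bmp 6 (13 / 2) z) * bmp 8 9 z * (20 + z.2) :=
  have o : ∀ _ : ι, (1 : ℝ) ≤ 1 := fun _ => le_rfl
  (((ld_bmp' o _ _).mul1 (ld_bmp o _ _)).mul1 h.ld_ρ1).add (((ld_bmp' o _ _).mul1
    (ld_bmp o _ _)).mul1 ((Tame.const_one o 20).add (ld_clm o (ContinuousLinearMap.snd ℝ ℝ ℝ))))

theorem OK.ld_G2 (h : D.OK) :
    LdT (fun _ => 1) fun i z => (1 - bmp 5 6 z) * bmp 7 (15 / 2) z * D.ρ2 i z :=
  have o : ∀ _ : ι, (1 : ℝ) ≤ 1 := fun _ => le_rfl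
  ((ld_bmp' o _ _).mul1 (ld_bmp o _ _)).mul1 h.ld_ρ2

theorem OK.ld_A1 (h : D.OK) : LdT (fun _ => 1) D.A1 :=
  ((ld_bmp (fun _ => le_rfl) _ _).mul1 h.ld_ρ1).add (h.ld_eps h.ld_G1)

theorem OK.ld_A2 (h : D.OK) : LdT (fun _ => 1) D.A2 :=
  ((ld_bmp (fun _ => le_rfl) _ _).mul1 h.ld_ρ2).add (h.ld_eps h.ld_G2)

theorem OK.ld_y (h : D.OK) : LdT (fun _ => 1) fun i z => z.2 + D.om i z :=
  (ld_clm (fun _ => le_rfl) (ContinuousLinearMap.snd ℝ ℝ ℝ)).add (h.ld_one h.tom)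

theorem W_zero (i : ι) {z : P2} (hz : 9 ≤ ‖z‖) : D.W i z = 0 := by
  simp [W, A1, A2, bmp_zero hz, bmp_zero (R := 6) (z := z) (by linarith),
    bmp_zero (R := 13 / 2) (z := z) (by linarith), bmp_zero (R := 15 / 2) (z := z) (by linarith),
    Prod.mk_zero_zero]

theorem OK.tameW (h : D.OK) : Tame (fun _ => univ) (fun _ _ => 1) D.x 0 D.W := by
  refine ld_ext ?_ fun i z hz => W_zero i hz
  have h1 := ((h.ld_eps h.ld_A1).mono_scale h.x1).smul1
    (ld_tcis h.x1 (ld_clm (fun _ => le_rfl) (ContinuousLinearMap.fst ℝ ℝ ℝ)))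
  have h2 := ((h.ld_eps h.ld_A2).mono_scale h.x1).smul1 (ld_tcis h.x1 h.ld_y)
  have h3 := (h.ld_eps (h.ld_eps (h.ld_eps (ld_bmp h.x1 7 (15 / 2))))).smul1 (ld_clm h.x1 D.Lin)
  refine ((h1.prod (h2.sub h3)).clm D.O).congr_open (fun _ => Metric.isOpen_ball) fun i z _ => ?_
  simp only [W, smul_eq_mul, ContinuousLinearMap.coe_fst', ← mul_assoc, pow_succ, pow_zero, one_mul]

theorem Bf_out (i : ι) {z : P2} (hz : 9 ≤ ‖z‖) : D.Bf i z = D.O (1, 0) := by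
  simp [Bf, cis, bmp_zero hz, bmp_zero (R := 8) (z := z) (by linarith)]

theorem OK.tameB (h : D.OK) : Tame (fun _ => univ) (fun _ _ => 1) D.x 0 D.Bf := by
  have o : ∀ _ : ι, (1 : ℝ) ≤ 1 := fun _ => le_rfl
  have h1 := (ld_bmp' h.x1 (15 / 2) 8).smul1
    (ld_tcis h.x1 ((ld_bmp o 8 9).mul1 (ld_clm o (ContinuousLinearMap.fst ℝ ℝ ℝ))))
  have h2 := (ld_bmp h.x1 (15 / 2) 8).smul1
    (ld_tcis h.x1 ((ld_bmp o (13 / 2) (15 / 2)).mul1 h.ld_y))
  have h3 : LdT D.x D.Bf := ((h1.prod h2.neg).clm D.O).congr_open (fun _ => Metric.isOpen_ball)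
    fun i z _ => by simp only [Bf, ContinuousLinearMap.coe_fst', mul_left_comm (D.x i)]
  exact ((ld_ext (h3.sub (Tame.const_one h.x1 (D.O (1, 0)))) fun i z hz => by
    rw [Bf_out i hz, sub_self]).add (Tame.const_one h.x1 (D.O (1, 0)))).congr_open
      (fun _ => isOpen_univ) fun _ _ _ => sub_add_cancel _ _

/-- formula for the derivative -/
theorem OK.fderiv_f (h : D.OK) (i : ι) {z : P2} (hz : z ∈ B10) (u : P2) :
    fderiv ℝ (D.f i) z u = D.O
      (((D.ε i * dd u (D.A1 i) z : ℝ) + (D.A1 i z * u.1 : ℝ) * Complex.I) * cis (D.x i * z.1),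
       ((D.ε i * dd u (D.A2 i) z : ℝ) + (D.A2 i z * (u.2 + dd u (D.om i) z) : ℝ) * Complex.I) *
          cis (D.x i * (z.2 + D.om i z)) +
        D.ε i ^ 3 • ((1 - bmp 7 (15 / 2) z) • D.Lin u - dd u (bmp 7 (15 / 2)) z • D.Lin z)) := by
  have x0 := (one_pos.trans_le (h.x1 i)).ne'
  obtain ⟨T1, h1, k1⟩ := ld_cis ((h.ld_A1.differentiableAt (i := i) hz).hasFDerivAt.const_mul (D.ε i))
    (hasFDerivAt_fst.const_mul (D.x i))
  obtain ⟨T2, h2, k2⟩ := ld_cis ((h.ld_A2.differentiableAt (i := i) hz).hasFDerivAt.const_mul (D.ε i))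
    ((hasFDerivAt_snd.fun_add (h.tom.differentiableAt (i := i) hz).hasFDerivAt).const_mul (D.x i))
  have h3 := ((((bmp_smooth 7 (15 / 2)).differentiable (by simp)) z).hasFDerivAt.const_mul
    (D.ε i ^ 3)).fun_smul D.Lin.hasFDerivAt
  have h4 := (D.O.hasFDerivAt.comp z
    ((hasFDerivAt_const (0 : ℂ) z).prodMk D.Lin.hasFDerivAt)).fun_const_smul (D.ε i ^ 3)
  have e : fderiv ℝ (D.f i) z = _ :=
    ((D.O.hasFDerivAt.comp z (h1.prodMk (h2.fun_sub h3))).fun_add h4).fderiv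
  rw [e]
  simp only [add_apply, smul_apply, sub_apply, ContinuousLinearMap.comp_apply,
    ContinuousLinearMap.prod_apply, k1, k2, ← map_smul, ← map_add, Prod.smul_mk, Prod.mk_add_mk,
    zero_apply, smul_zero, add_zero, smul_eq_mul, ContinuousLinearMap.coe_fst',
    ContinuousLinearMap.coe_snd', ContinuousLinearMap.smulRight_apply, dd]
  have e1 : ∀ a b : ℝ, D.ε i * a * (D.x i * b) = a * b := fun a b => by
    rw [ε]; field_simp
  rw [e1, e1]
  refine congrArg D.O (Prod.ext rfl ?_)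
  simp only [map_add, map_smul, Complex.real_smul]
  push_cast
  ring

end LData

end Vale.Agent.Iso4
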