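import Vale.Agent.Iso4.ManD
import Vale.Agent.Iso4.LocDef

/-! The fixed geometric data. -/

open scoped ContDiff Topology Manifold
open Set Filter

noncomputable section
namespace Vale.Agent.Iso4

variable {M : Type*} [TopologicalSpace M] [ChartedSpace E2 M]

/-- A function `φ`, an immersion `G` with a transversal field `B`, and orthogonal charts around the
critical points of `φ` in which `G` is affine and `B` is a constant normal vector. -/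
structure Geo (g : Met M) where
  (φ : M → ℝ)
  (G B : M → V)
  (n : ℕ)
  (c : Fin n → Chart M)
  (O : Fin n → ℂ × ℂ →L[ℝ] V)
  (Lin : Fin n → P2 →L[ℝ] ℂ)
  (G0 : Fin n → V)
  smφ : Sm φ
  smG : Sm G
  smB : Sm B
  tr : ∀ p u (t : ℝ), dM G p u = t • B p → u = 0
  B0 : ∀ p, B p ≠ 0
  ball : ∀ k, Metric.closedBall (0 : P2) 10 ⊆ (c k).target
  disj : ∀ k l, k ≠ l → Disjoint (c k).source (c l).source
  orth : ∀ k, ∀ z ∈ (c k).target, g.cf (c k) (1, 0) (0, 1) z = 0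
  crit : ∀ p, dM φ p = 0 → ∃ k, p ∈ (c k).source ∧ (c k).to p = 0
  iso : ∀ k, IsoO (O k)
  inj : ∀ k, Function.Injective (Lin k)
  pos : ∀ k, ∃ α : ℝ, 0 < α ∧ Lin k (0, 1) = α
  flatG : ∀ k, ∀ z ∈ Metric.closedBall (0 : P2) 10, G ((c k).inv z) = G0 k + O k (0, Lin k z)
  flatB : ∀ k, ∀ z ∈ Metric.closedBall (0 : P2) 10, B ((c k).inv z) = O k (1, 0)

namespace Geo
variable {g : Met M} (Γ : Geo g)

/-- bumps around the critical points -/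
def bm (r R : ℝ) (p : M) : ℝ := ∑ k, (Γ.c k).ext (bmp r R) p

/-- the region outside the discs of radius `r` -/
def Out (r : ℝ) : Set M := {p | ∀ k, p ∈ (Γ.c k).source → r ≤ ‖(Γ.c k).to p‖}

variable {r R r' : ℝ} {p : M}

theorem Out_mono (h : r ≤ r') : Γ.Out r' ⊆ Γ.Out r := fun _ hp k hk => h.trans (hp k hk)

theorem not_mem_Out : p ∉ Γ.Out r ↔ ∃ k, p ∈ (Γ.c k).source ∧ ‖(Γ.c k).to p‖ < r := by
  simp [Out]

theorem isClosed_Out (r : ℝ) : IsClosed (Γ.Out r) := by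
  rw [← isOpen_compl_iff, isOpen_iff_mem_nhds]
  intro p hp
  obtain ⟨k, hk, h⟩ := Γ.not_mem_Out.1 hp
  filter_upwards [(Γ.c k).ev_to (P := fun z => ‖z‖ < r) hk
    (continuous_norm.continuousAt.eventually_lt continuousAt_const h)] with q hq
  exact Γ.not_mem_Out.2 ⟨k, hq⟩

theorem geo_not_mem {k l : Fin Γ.n} (hp : p ∈ (Γ.c k).source) (h : l ≠ k) : p ∉ (Γ.c l).source :=
  fun hl => Set.disjoint_left.1 (Γ.disj l k h) hl hp

theorem mem_Out {k : Fin Γ.n} (hp : p ∈ (Γ.c k).source) :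
    p ∈ Γ.Out r ↔ r ≤ ‖(Γ.c k).to p‖ := by
  refine ⟨fun h => h k hp, fun h l hl => ?_⟩
  by_cases hlk : l = k
  · rwa [hlk]
  · exact absurd hl (Γ.geo_not_mem hp hlk)

theorem sum_ext {X : Type} [AddCommMonoid X] (w : Fin Γ.n → P2 → X) {k : Fin Γ.n}
    (hp : p ∈ (Γ.c k).source) : ∑ l, (Γ.c l).ext (w l) p = w k ((Γ.c k).to p) := by
  rw [Finset.sum_eq_single k (fun l _ h => (Γ.c l).ext_of_not_mem _ (Γ.geo_not_mem hp h))
    (fun h => absurd (Finset.mem_univ k) h), (Γ.c k).ext_of_mem _ hp]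

theorem geo_sum_zero {X : Type} [AddCommMonoid X] (w : Fin Γ.n → P2 → X)
    (hp : ∀ k, p ∉ (Γ.c k).source) : ∑ l, (Γ.c l).ext (w l) p = 0 :=
  Finset.sum_eq_zero fun l _ => (Γ.c l).ext_of_not_mem _ (hp l)

theorem bm_of_mem {k : Fin Γ.n} (hp : p ∈ (Γ.c k).source) :
    Γ.bm r R p = bmp r R ((Γ.c k).to p) := Γ.sum_ext (fun _ => bmp r R) hp

theorem bm_mem (r R : ℝ) (p : M) : Γ.bm r R p ∈ Icc (0 : ℝ) 1 := by
  by_cases h : ∃ k, p ∈ (Γ.c k).source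
  · obtain ⟨k, hk⟩ := h
    rw [Γ.bm_of_mem hk]; exact bmp_mem _ _ _
  · rw [bm, Γ.geo_sum_zero _ (not_exists.1 h)]; exact ⟨le_rfl, zero_le_one⟩

theorem bm_zero (hp : p ∈ Γ.Out R) : Γ.bm r R p = 0 := by
  by_cases h : ∃ k, p ∈ (Γ.c k).source
  · obtain ⟨k, hk⟩ := h
    rw [Γ.bm_of_mem hk]; exact bmp_zero (hp k hk)
  · exact Γ.geo_sum_zero _ (not_exists.1 h)

theorem bm_one (h0 : 0 < r) (h : r < R) (hp : p ∉ Γ.Out r) : Γ.bm r R p = 1 := by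
  obtain ⟨k, hk, h'⟩ := Γ.not_mem_Out.1 hp
  rw [Γ.bm_of_mem hk]; exact bmp_one h0 h h'.le

theorem sm_bm [T2Space M] (hR : R ≤ 10) : Sm (Γ.bm r R) :=
  Sm.sum Finset.univ fun k _ => (Γ.c k).sm_ext (isCompact_closedBall 0 10) (Γ.ball k)
    (fun z hz => bmp_zero (hR.trans (by simpa using le_of_lt (not_le.1 fun h => hz
      (mem_closedBall_zero_iff.2 h))))) fun z _ => (bmp_smooth r R).contDiffAt

theorem reg (h0 : 0 < r) (hp : p ∈ Γ.Out r) : dM Γ.φ p ≠ 0 := fun h => by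
  obtain ⟨k, hk, h'⟩ := Γ.crit p h
  have := hp k hk
  rw [h', norm_zero] at this
  linarith

/-- a compactly supported modification vanishes near the points outside the discs -/
theorem sum_ext_ev [T2Space M] {X : Type} [AddCommMonoid X] {w : Fin Γ.n → P2 → X} (hR : r < R)
    (h10 : r ≤ 10) (hw : ∀ k z, r ≤ ‖z‖ → w k z = 0) (hp : p ∈ Γ.Out R) :
    (fun q => ∑ l, (Γ.c l).ext (w l) q) =ᶠ[𝓝 p] fun _ => 0 := by
  have h : ∀ l, (Γ.c l).ext (w l) =ᶠ[𝓝 p] fun _ => 0 := by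
    intro l
    have hs : Metric.closedBall (0 : P2) r ⊆ (Γ.c l).target :=
      (Metric.closedBall_subset_closedBall h10).trans (Γ.ball l)
    refine (Γ.c l).ext_ev_zero (isCompact_closedBall 0 r) hs (fun z hz => hw l z
      (le_of_lt (not_le.1 fun h => hz (mem_closedBall_zero_iff.2 h)))) fun h => ?_
    obtain ⟨h1, h2⟩ := ((Γ.c l).mem_inv_image hs).1 h
    linarith [hp l h1, mem_closedBall_zero_iff.1 h2]
  filter_upwards [eventually_all.2 h] with q hq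
  exact Finset.sum_eq_zero fun l _ => hq l

theorem exists_atlas [CompactSpace M] [IsManifold (𝓡 2) ∞ M] :
    ∃ A : Atl M (Γ.Out (1 / 2)), ∀ k, (A.e k).Phi g Γ.φ :=
  exists_atl (Γ.isClosed_Out _) (fun e => e.Phi g Γ.φ) fun _ hp =>
    exists_phi g Γ.smφ (Γ.reg (by norm_num) hp)

/-- weight of the small deficit -/
def ρ0 (p : M) : ℝ := 1 - Γ.bm 1 2 p
/-- weight of the large deficit -/
def ϑ0 (p : M) : ℝ := 1 - Γ.bm 3 4 p
/-- weight of the formal region -/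
def ζ (p : M) : ℝ := 1 - Γ.bm (9 / 2) 5 p

/-- the normalised large deficit -/
def Hq (x : ℝ) (F : M → V) (p : M) (u : E2) : ℝ :=
  (1 - Γ.ζ p) * (g.q p u / 4) + Γ.ζ p * (g.q p u - ‖dM F p u‖ ^ 2 - (x ^ 2)⁻¹ * dM Γ.φ p u ^ 2)

/-- properties of the initial map -/
structure InitOut {S : Set M} (A : Atl M S) {ι : Type*} (𝓕 : Filter ι) (x L0 : ι → ℝ) (N : ℕ)
    (F Ξ : ι → M → V) : Prop where
  tF : PM L0 F
  tΞ : PM L0 Ξ
  imm : ∃ κ : ℝ, 0 < κ ∧ ∀ᶠ i in 𝓕, ∀ p u, (κ / L0 i) ^ 2 * g.q p u ≤ ‖dM (F i) p u‖ ^ 2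
  nd : ∃ κ : ℝ, 0 < κ ∧ ∀ᶠ i in 𝓕, ∀ p ∈ S, Tr (κ / L0 i) (A.D (F i) p + Ξ i p) (dM (F i) p)
  Ξ0 : ∀ i, ∀ p ∉ Γ.Out (9 / 2), Ξ i p = 0
  err : ∃ C : ℝ, ∀ᶠ i in 𝓕, ∀ p u, |g.q p u - ‖dM (F i) p u‖ ^ 2 -
    Γ.ϑ0 p ^ (2 * N) * Γ.Hq (x i) (F i) p u -
      Γ.ρ0 p ^ (2 * N) * ((x i ^ 2)⁻¹ * dM Γ.φ p u ^ 2)| ≤ C / L0 i ^ N * g.q p u
  close : ∃ C : ℝ, ∀ᶠ i in 𝓕, ∀ p, ∃ h ∈ Icc (1 / 4 : ℝ) 1, ∀ u,
    |Γ.Hq (x i) (F i) p u - h * g.q p u| ≤ C / x i * g.q p u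
  ndc : ∃ κ : ℝ, 0 < κ ∧ ∀ᶠ i in 𝓕, ∀ k, ∀ z : P2, ‖z‖ ≤ 1 →
    Tr (κ / L0 i) (d2 ((Γ.c k).rep (F i)) z (1, 0) (1, 0)) (fderiv ℝ ((Γ.c k).rep (F i)) z)

end Geo

end Vale.Agent.Iso4
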