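import Vale.Agent.Iso4.LocB

/-! The local model: injectivity, transversality and size of the metric. -/

open scoped ContDiff Topology
open Set Filter

noncomputable section
namespace Vale.Agent.Iso4

section
variable {O : ℂ × ℂ →L[ℝ] V}

theorem la_norm (hO : IsoO O) (a b : ℂ) : ‖O (a, b)‖ ^ 2 = ‖a‖ ^ 2 + ‖b‖ ^ 2 := by
  rw [← real_inner_self_eq_norm_sq, hO, real_inner_self_eq_norm_sq, real_inner_self_eq_norm_sq]

theorem la_fst (hO : IsoO O) (a b : ℂ) : ‖a‖ ≤ ‖O (a, b)‖ :=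
  (abs_le_of_sq_le_sq' (by rw [la_norm hO]; nlinarith) (norm_nonneg _)).2

theorem la_snd (hO : IsoO O) (a b : ℂ) : ‖b‖ ≤ ‖O (a, b)‖ :=
  (abs_le_of_sq_le_sq' (by rw [la_norm hO]; nlinarith) (norm_nonneg _)).2

theorem la_split (hO : IsoO O) {v : V} {a b : ℂ} (e : v = O (a, b)) : ‖a‖ ≤ ‖v‖ ∧ ‖b‖ ≤ ‖v‖ :=
  e ▸ ⟨la_fst hO a b, la_snd hO a b⟩

theorem la_nb {c : ℝ} (hc : 0 < c) : ∀ᶠ c' in 𝓝[>] (0 : ℝ), c' ≤ c :=
  nhdsWithin_le_nhds (ge_mem_nhds hc)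

theorem la_le (hO : IsoO O) (a b : ℂ) : ‖O (a, b)‖ ≤ ‖a‖ + ‖b‖ :=
  (abs_le_of_sq_le_sq' (by rw [la_norm hO]; nlinarith [norm_nonneg a, norm_nonneg b])
    (by positivity)).2

theorem la_sq (p q t : ℝ) : ‖((p : ℂ) + q * Complex.I) * cis t‖ ^ 2 = p ^ 2 + q ^ 2 := by
  rw [norm_mul, lb_cis, mul_one, Complex.sq_norm, Complex.normSq_add_mul_I]

theorem la_re (p q t : ℝ) : |p| ≤ ‖((p : ℂ) + q * Complex.I) * cis t‖ :=
  abs_le_of_sq_le_sq (by rw [la_sq]; nlinarith) (norm_nonneg _)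

theorem la_im (p q t : ℝ) : |q| ≤ ‖((p : ℂ) + q * Complex.I) * cis t‖ :=
  abs_le_of_sq_le_sq (by rw [la_sq]; nlinarith) (norm_nonneg _)

theorem la_up (p q t : ℝ) : ‖((p : ℂ) + q * Complex.I) * cis t‖ ≤ |p| + |q| :=
  (abs_le_of_sq_le_sq' (by
    rw [la_sq, add_sq, sq_abs, sq_abs]; nlinarith [mul_nonneg (abs_nonneg p) (abs_nonneg q)])
    (by positivity)).2

theorem la_sub (r p q t : ℝ) : r • cis t - ((p : ℂ) + q * Complex.I) * cis t =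
    (((r - p : ℝ) : ℂ) + (-q : ℝ) * Complex.I) * cis t := by
  rw [Complex.real_smul]; push_cast; ring

theorem la_ev {ι : Type*} {F : ι → P2 → ℝ} {s : ι → ℝ} (hs : ∀ i, 0 ≤ s i)
    {k : ℕ} (h : ∃ C : ℝ, 0 ≤ C ∧ ∀ i, ∀ z ∈ B10, F i z ≤ C * (s i * 1 ^ k)) :
    ∀ᶠ C in atTop, ∀ i, ∀ z ∈ B10, F i z ≤ C * s i := by
  obtain ⟨C, -, h⟩ := h
  simp only [one_pow, mul_one] at h
  exact (eventually_ge_atTop C).mono fun C' hC i z hz =>
    (h i z hz).trans (mul_le_mul_of_nonneg_right hC (hs i))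

theorem la_mul {a b A B : ℝ} (ha : |a| ≤ A) (hb : |b| ≤ B) : |a * b| ≤ A * B := by
  rw [abs_mul]; exact mul_le_mul ha hb (abs_nonneg _) ((abs_nonneg _).trans ha)

end

namespace LData
variable {ι : Type*} {D : LData ι} {𝓕 : Filter ι}

/-- first component of the derivative -/
def c1 (D : LData ι) (i : ι) (z u : P2) : ℂ :=
  ((D.ε i * dd u (D.A1 i) z : ℝ) + (D.A1 i z * u.1 : ℝ) * Complex.I) * cis (D.x i * z.1)

/-- oscillating part of the second component -/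
def c2 (D : LData ι) (i : ι) (z u : P2) : ℂ :=
  ((D.ε i * dd u (D.A2 i) z : ℝ) + (D.A2 i z * (u.2 + dd u (D.om i) z) : ℝ) * Complex.I) *
    cis (D.x i * (z.2 + D.om i z))

/-- flat part of the second component -/
def c3 (D : LData ι) (z u : P2) : ℂ :=
  (1 - bmp 7 (15 / 2) z) • D.Lin u - dd u (bmp 7 (15 / 2)) z • D.Lin z

theorem OK.la_fd (h : D.OK) (i : ι) {z : P2} (hz : z ∈ B10) (u : P2) :
    fderiv ℝ (D.f i) z u = D.O (D.c1 i z u, D.c2 i z u + D.ε i ^ 3 • D.c3 z u) := h.fderiv_f i hz u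

/-- the constants -/
structure LaB (D : LData ι) (c C α : ℝ) : Prop where
  ok : D.OK
  c0 : 0 < c
  cle : c ≤ 1
  r1 : ∀ z ∈ B10, c ≤ D.R1 z
  r2 : ∀ z ∈ B10, c ≤ D.R2 z
  lin : ∀ u, c * ‖u‖ ≤ ‖D.Lin u‖
  al : D.Lin (0, 1) = α
  al1 : c ≤ α
  al2 : α ≤ C
  l10 : ‖D.Lin (1, 0)‖ ≤ C
  R1 : ∀ _ : ι, ∀ z ∈ B10, |D.R1 z| ≤ C * 1
  R2 : ∀ _ : ι, ∀ z ∈ B10, |D.R2 z| ≤ C * 1
  dA1 : ∀ i, ∀ z ∈ B10, ‖fderiv ℝ (D.A1 i) z‖ ≤ C * 1
  dA2 : ∀ i, ∀ z ∈ B10, ‖fderiv ℝ (D.A2 i) z‖ ≤ C * 1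
  A2 : ∀ i, ∀ z ∈ B10, |D.A2 i z| ≤ C * 1
  dom : ∀ i, ∀ z ∈ B10, ‖fderiv ℝ (D.om i) z‖ ≤ C * D.ε i ^ 2
  ρ1 : ∀ i, ∀ z ∈ B10, |D.ρ1 i z - D.R1 z| ≤ C * D.ε i ^ 2
  ρ2 : ∀ i, ∀ z ∈ B10, |D.ρ2 i z - D.R2 z| ≤ C * D.ε i ^ 2
  a1 : ∀ i, ∀ z ∈ B10, |D.A1 i z - bmp 5 6 z * D.R1 z| ≤ C * D.ε i
  a2 : ∀ i, ∀ z ∈ B10, |D.A2 i z - bmp 5 6 z * D.R2 z| ≤ C * D.ε i
  c3 : ∀ z ∈ B10, ∀ u, ‖D.c3 z u‖ ≤ C * ‖u‖

theorem OK.la_a (h : D.OK) {ρ G : ι → P2 → ℝ} {R : P2 → ℝ} (h1 : CT D.ε 2 fun i z => ρ i z - R z)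
    (h2 : LdT (fun _ => 1) G) : ∀ᶠ C in atTop, ∀ i, ∀ z ∈ B10,
      |bmp 5 6 z * ρ i z + D.ε i * G i z - bmp 5 6 z * R z| ≤ C * D.ε i := by
  have h3 := ((ld_bmp (fun _ => le_rfl) 5 6).mul1 (h1.weaken (s' := fun i _ => D.ε i)
    fun i _ _ => pow_le_of_le_one (h.ld_pos i).le (h.ld_le i) two_ne_zero)).add
    ((h2.smul_index (c := D.ε) fun i => (abs_of_pos (h.ld_pos i)).le).weaken
      fun i _ _ => (mul_one _).le)
  refine (la_ev (fun i => (h.ld_pos i).le) h3.norm_le).mono fun C hC i z hz => ?_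
  have := hC i z hz
  rw [Real.norm_eq_abs, smul_eq_mul] at this
  refine le_trans (le_of_eq ?_) this
  congr 1
  ring

theorem OK.la_bds (h : D.OK) : ∃ c C α, LaB D c C α := by
  have low : ∀ {R : P2 → ℝ}, (∀ z ∈ Metric.closedBall (0 : P2) 10, ContDiffAt ℝ ∞ R z ∧ 0 < R z) →
      ∀ᶠ c in 𝓝[>] (0 : ℝ), ∀ z ∈ B10, c ≤ R z := fun hR => by
    obtain ⟨c, hc, h⟩ := (isCompact_closedBall _ _).exists_forall_le'
      (fun z hz => (hR z hz).1.continuousAt.continuousWithinAt) fun z hz => (hR z hz).2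
    exact (la_nb hc).mono fun c' hc' z hz =>
      hc'.trans (h z (Metric.ball_subset_closedBall hz))
  obtain ⟨α, a0, hα⟩ := h.pos
  obtain ⟨K, K0, hK⟩ := (D.Lin : P2 →ₗ[ℝ] ℂ).exists_antilipschitzWith
    (LinearMap.ker_eq_bot.2 h.inj)
  have K1 : (0 : ℝ) < K := K0
  obtain ⟨c, c0, c1, c2, c3, c4, c5⟩ := ((eventually_mem_nhdsWithin (s := Ioi (0 : ℝ))).and
    ((la_nb one_pos).and ((low h.hR1).and ((low h.hR2).and ((la_nb a0).and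
    (la_nb (inv_pos.2 K1))))))).exists
  have o : ∀ _ : ι, (0 : ℝ) ≤ 1 := fun _ => zero_le_one
  have o2 : ∀ i, 0 ≤ D.ε i ^ 2 := fun _ => sq_nonneg _
  obtain ⟨B, B0, hB⟩ := (ld_bmp (ι := Unit) (fun _ => le_rfl) 7 (15 / 2)).norm_fderiv_le
  obtain ⟨C, h1, h2, h3, h4, h5, h6, h7, h8, h9, h10, h11, h12, h13⟩ := ((eventually_ge_atTop α).and
    ((eventually_ge_atTop ‖D.Lin (1, 0)‖).and
    ((la_ev o (ld_fix (ι := ι) h.hR1).norm_le).and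
    ((la_ev o (ld_fix (ι := ι) h.hR2).norm_le).and
    ((la_ev o h.ld_A1.norm_fderiv_le).and
    ((la_ev o h.ld_A2.norm_fderiv_le).and
    ((la_ev o h.ld_A2.norm_le).and
    ((la_ev o2 h.tom.norm_fderiv_le).and
    ((la_ev o2 h.t1.norm_le).and
    ((la_ev o2 h.t2.norm_le).and
    ((h.la_a h.t1 h.ld_G1).and ((h.la_a h.t2 h.ld_G2).and
    (eventually_ge_atTop (‖D.Lin‖ + B * (‖D.Lin‖ * 10))))))))))))))).exists
  refine ⟨c, C, α, h, c0, c1, c2, c3, fun u => ?_, hα, c4, h1, h2, h3, h4, h5, h6, h7, h8, h9, h10,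
    h11, h12, fun z hz u => ?_⟩
  · have := ZeroHomClass.bound_of_antilipschitz _ hK u
    refine (mul_le_mul_of_nonneg_right c5 (norm_nonneg _)).trans ?_
    rwa [inv_mul_le_iff₀ K1]
  · have b1 := bmp_mem 7 (15 / 2) z
    have b2 : |dd u (bmp 7 (15 / 2)) z| ≤ B * ‖u‖ := (fderiv ℝ _ z).le_of_opNorm_le
      (by simpa using hB () z hz) u
    have b3 := D.Lin.le_of_opNorm_le_of_le le_rfl (mem_ball_zero_iff.1 hz).le
    have b4 := D.Lin.le_opNorm u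
    refine (norm_sub_le _ _).trans ?_
    rw [norm_smul, norm_smul, Real.norm_of_nonneg (sub_nonneg.2 b1.2), Real.norm_eq_abs]
    have b5 := mul_le_mul b2 b3 (norm_nonneg _) (by positivity)
    have b6 := mul_le_of_le_one_left (norm_nonneg (D.Lin u)) (sub_le_self 1 b1.1)
    nlinarith [mul_le_mul_of_nonneg_right h13 (norm_nonneg u)]

namespace LaB

variable {c C α : ℝ} (b : LaB D c C α) {i : ι} {z : P2} (hz : z ∈ B10) (u : P2)
include b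

theorem C0 : 0 ≤ C := (norm_nonneg _).trans b.l10

theorem abs_eps {y Y : ℝ} (h : |y| ≤ Y) : |D.ε i * y| ≤ D.ε i * Y :=
  la_mul (abs_of_pos (b.ok.ld_pos i)).le h

include hz

theorem d1 : |dd u (D.A1 i) z| ≤ C * ‖u‖ :=
  (fderiv ℝ _ z).le_of_opNorm_le ((b.dA1 i z hz).trans_eq (mul_one _)) u

theorem d2 : |dd u (D.A2 i) z| ≤ C * ‖u‖ :=
  (fderiv ℝ _ z).le_of_opNorm_le ((b.dA2 i z hz).trans_eq (mul_one _)) u

/-- inner zone -/
theorem z1 (hs : C * D.ε i ^ 2 ≤ c / 2) (h : ‖z‖ ≤ 13 / 2) {N : ℝ} (h1 : |D.A1 i z * u.1| ≤ N)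
    (h2 : |D.A2 i z * (u.2 + dd u (D.om i) z)| ≤ N) : D.ε i * c * ‖u‖ ≤ 4 * N := by
  have e0 := b.ok.ld_pos i
  have e1 := b.ok.ld_le i
  have c0 := b.c0
  have r1 : c / 2 ≤ D.ρ1 i z := by linarith [(abs_le.1 (b.ρ1 i z hz)).1, b.r1 z hz]
  have r2 : c / 2 ≤ D.ρ2 i z := by linarith [(abs_le.1 (b.ρ2 i z hz)).1, b.r2 z hz]
  have y : c / 2 ≤ 20 + z.2 := by
    linarith [(abs_le.1 ((norm_snd_le z).trans h)).1, b.cle]
  obtain ⟨p0, p1⟩ := bmp_mem 5 6 z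
  obtain ⟨q0, q1⟩ := bmp_mem 6 (13 / 2) z
  have a1 : D.ε i * (c / 2) ≤ D.A1 i z := by
    rw [A1, bmp_one (r := 8) (by norm_num) (by norm_num) (by linarith), mul_one]
    have k1 := mul_le_mul_of_nonneg_left r1 p0
    have k2 := mul_le_mul_of_nonneg_left r1 (mul_nonneg (sub_nonneg.2 p1) q0)
    have k3 := mul_le_mul_of_nonneg_left y (sub_nonneg.2 q1)
    have k4 := mul_le_mul_of_nonneg_left (add_le_add k2 k3) e0.le
    have k5 := mul_le_of_le_one_left (mul_nonneg p0 (half_pos c0).le) e1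
    nlinarith [mul_nonneg (mul_nonneg e0.le c0.le) (mul_nonneg p0 (sub_nonneg.2 q1))]
  have a2 : D.ε i * (c / 2) ≤ D.A2 i z := by
    rw [LData.A2, bmp_one (r := 7) (by norm_num) (by norm_num) (by linarith), mul_one]
    have k1 := mul_le_mul_of_nonneg_left r2 p0
    have k2 := mul_le_mul_of_nonneg_left (mul_le_mul_of_nonneg_left r2 (sub_nonneg.2 p1)) e0.le
    have k5 := mul_le_of_le_one_left (mul_nonneg p0 (half_pos c0).le) e1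
    nlinarith
  have m0 : 0 < D.ε i * (c / 2) := by positivity
  have key : ∀ r y : ℝ, D.ε i * (c / 2) ≤ r → |r * y| ≤ N → |y| ≤ N / (D.ε i * (c / 2)) :=
    fun r y hr h => by
      rw [abs_mul, abs_of_pos (m0.trans_le hr)] at h
      rw [le_div_iff₀ m0]
      nlinarith [abs_nonneg y]
  have k := lb_u (l := fderiv ℝ (D.om i) z) (by linarith [b.dom i z hz, b.cle]) (key _ _ a1 h1)
    (key _ _ a2 h2)
  rw [← mul_div_assoc, le_div_iff₀ m0] at k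
  linarith

omit b hz in
theorem c3_in (h : ‖z‖ < 7) : D.c3 z u = 0 := by
  have e := bmp_ev_one (r := 7) (R := 15 / 2) (by norm_num) (by norm_num) h
  simp [LData.c3, dd, e.fderiv_eq, e.eq_of_nhds]

omit b hz in
theorem out (h : 15 / 2 < ‖z‖) : D.c2 i z u + D.ε i ^ 3 • D.c3 z u = D.ε i ^ 3 • D.Lin u := by
  have e := bmp_ev_zero (r := 7) h
  have e2 : D.A2 i =ᶠ[𝓝 z] fun _ => 0 := by
    filter_upwards [e, bmp_ev_zero (r := 5) (R := 6) (z := z) (by linarith)] with y h1 h2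
    simp [LData.A2, h1, h2]
  simp [LData.c3, c2, dd, e.fderiv_eq, e.eq_of_nhds, e2.fderiv_eq, e2.eq_of_nhds]

omit b hz in
theorem mid (h : 13 / 2 < ‖z‖) (h' : ‖z‖ < 8) : D.c1 i z u = ((D.ε i * (D.ε i * u.2) : ℝ) +
    (D.ε i * (20 + z.2) * u.1 : ℝ) * Complex.I) * cis (D.x i * z.1) := by
  have e : D.A1 i =ᶠ[𝓝 z] fun y => D.ε i * (20 + y.2) := by
    filter_upwards [bmp_ev_zero (r := 6) h, bmp_ev_zero (r := 5) (R := 6) (z := z) (by linarith),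
      bmp_ev_one (r := 8) (R := 9) (by norm_num) (by norm_num) h'] with y h1 h2 h3
    simp [A1, h1, h2, h3]
  rw [c1, dd, e.fderiv_eq, e.eq_of_nhds,
    ((hasFDerivAt_snd.const_add 20).const_mul (D.ε i)).fderiv]
  rfl

theorem mid1 {N : ℝ} (h : |D.ε i * (20 + z.2) * u.1| ≤ N) : D.ε i * |u.1| ≤ N := by
  have e0 := b.ok.ld_pos i
  have y : 1 ≤ 20 + z.2 := by
    linarith [(abs_le.1 ((norm_snd_le z).trans (mem_ball_zero_iff.1 hz).le)).1]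
  rw [abs_mul, abs_of_pos (by positivity)] at h
  nlinarith [mul_nonneg e0.le (abs_nonneg u.1)]

theorem mid2 (h : 13 / 2 < ‖z‖) (h' : ‖z‖ < 8) : D.ε i ^ 2 * ‖u‖ ≤ ‖D.c1 i z u‖ := by
  have e0 := b.ok.ld_pos i
  have e1 := b.ok.ld_le i
  rw [mid u h h', Prod.norm_def, mul_max_of_nonneg _ _ (sq_nonneg _)]
  refine max_le (le_trans ?_ (b.mid1 hz u (la_im _ _ _))) (le_trans (le_of_eq ?_) (la_re _ _ _))
  · exact mul_le_mul_of_nonneg_right (pow_le_of_le_one e0.le e1 two_ne_zero) (abs_nonneg _)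
  · rw [abs_mul, abs_mul, abs_of_pos e0, Real.norm_eq_abs]; ring

theorem imm (hs : C * D.ε i ^ 2 ≤ c / 2) :
    c * D.ε i ^ 3 * ‖u‖ ≤ 4 * ‖fderiv ℝ (D.f i) z u‖ := by
  have e0 := b.ok.ld_pos i
  have e1 := b.ok.ld_le i
  have c0 := b.c0
  obtain ⟨k1, k2⟩ := la_split b.ok.iso (b.ok.la_fd i hz u)
  have n0 := norm_nonneg (fderiv ℝ (D.f i) z u)
  have u0 := norm_nonneg u
  rcases le_or_gt ‖z‖ (13 / 2) with h | h
  · rw [c3_in u (by linarith), smul_zero, add_zero] at k2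
    refine le_trans ?_ (b.z1 hz u hs h ((la_im _ _ _).trans k1) ((la_im _ _ _).trans k2))
    rw [mul_comm c]
    gcongr
    exact pow_le_of_le_one e0.le e1 three_ne_zero
  rcases lt_or_ge ‖z‖ 8 with h' | h'
  · have := (b.mid2 hz u h h').trans k1
    have k3 : c * D.ε i ^ 3 ≤ D.ε i ^ 2 := (mul_le_of_le_one_left (by positivity) b.cle).trans
      (pow_le_pow_of_le_one e0.le e1 (by norm_num))
    nlinarith [mul_le_mul_of_nonneg_right k3 u0]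
  · rw [out u (by linarith), norm_smul, Real.norm_of_nonneg (by positivity)] at k2
    nlinarith [mul_le_mul_of_nonneg_left (b.lin u) (pow_pos e0 3).le]

theorem tr1 (hs : C * D.ε i ^ 2 ≤ c / 2) (h : ‖z‖ ≤ 13 / 2) :
    c ≤ (1 + 4 * C) * ‖D.Bf i z - fderiv ℝ (D.f i) z u‖ := by
  have e : D.Bf i z - fderiv ℝ (D.f i) z u = D.O ((0 : ℝ) • cis (D.x i * z.1) - D.c1 i z u,
      (-1 : ℝ) • cis (D.x i * (z.2 + D.om i z)) - D.c2 i z u) := by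
    simp [b.ok.la_fd i hz, c3_in u (show ‖z‖ < 7 by linarith), Bf, ← map_sub,
      bmp_one (r := 15 / 2) (R := 8) (z := z) (by norm_num) (by norm_num) (by linarith),
      bmp_one (r := 13 / 2) (R := 15 / 2) (z := z) (by norm_num) (by norm_num) h]
  rw [c1, c2, la_sub, la_sub] at e
  obtain ⟨j1, j2⟩ := la_split b.ok.iso e
  generalize ‖D.Bf i z - fderiv ℝ (D.f i) z u‖ = N at *
  have k1 := (la_im _ _ _).trans j1
  have k2 := (la_im _ _ _).trans j2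
  have k3 := (la_re _ _ _).trans j2
  rw [abs_neg] at k1 k2
  have k4 := b.z1 hz u hs h k1 k2
  have k5 := b.abs_eps (i := i) (b.d2 (i := i) hz u)
  have k6 : 1 ≤ N + D.ε i * (C * ‖u‖) := by linarith [(abs_le.1 k3).1, (abs_le.1 k5).1]
  have N0 := (abs_nonneg _).trans k1
  nlinarith [mul_le_mul_of_nonneg_left k6 b.c0.le, mul_le_mul_of_nonneg_left k4 b.C0,
    mul_le_of_le_one_left N0 b.cle]

theorem tr2 (hs : C * D.ε i ^ 2 ≤ c / 2) (h : 13 / 2 < ‖z‖) (h' : ‖z‖ ≤ 15 / 2) :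
    D.ε i ≤ (1 + 4 * C) * ‖D.Bf i z - fderiv ℝ (D.f i) z u‖ := by
  have e0 := b.ok.ld_pos i
  have e1 := b.ok.ld_le i
  have C0 := b.C0
  have u0 := norm_nonneg u
  obtain ⟨w, w1, e⟩ : ∃ w : ℂ, ‖w‖ = 1 ∧ D.Bf i z - fderiv ℝ (D.f i) z u =
      D.O (-D.c1 i z u, -(w + (D.c2 i z u + D.ε i ^ 3 • D.c3 z u))) := ⟨_, lb_cis _, by
    rw [b.ok.la_fd i hz, Bf, bmp_one (r := 15 / 2) (by norm_num) (by norm_num) h', ← map_sub,
      sub_self, zero_smul, one_smul, Prod.mk_sub_mk, zero_sub, ← neg_add']⟩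
  obtain ⟨k1, k2⟩ := la_split b.ok.iso e
  generalize ‖D.Bf i z - fderiv ℝ (D.f i) z u‖ = N at *
  rw [norm_neg] at k1 k2
  have k3 := (b.mid2 hz u h (by linarith)).trans k1
  have k4 := norm_sub_le (w + (D.c2 i z u + D.ε i ^ 3 • D.c3 z u)) (D.c2 i z u + D.ε i ^ 3 • D.c3 z u)
  rw [add_sub_cancel_right, w1] at k4
  have a2 := b.a2 i z hz
  rw [bmp_zero (by linarith), zero_mul, sub_zero] at a2
  have l1 : |dd u (D.om i) z| ≤ 1 / 2 * ‖u‖ :=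
    (fderiv ℝ (D.om i) z).le_of_opNorm_le (by linarith [b.dom i z hz, b.cle]) u
  have l2 : |u.2 + dd u (D.om i) z| ≤ 2 * ‖u‖ :=
    (abs_add_le _ _).trans (by linarith [show |u.2| ≤ ‖u‖ from norm_snd_le u])
  have k5 : ‖D.c2 i z u‖ ≤ _ := (la_up _ _ _).trans
    (add_le_add (b.abs_eps (b.d2 hz u)) (la_mul a2 l2))
  have k6 : ‖D.ε i ^ 3 • D.c3 z u‖ ≤ D.ε i * (C * ‖u‖) := by
    rw [norm_smul, Real.norm_of_nonneg (by positivity)]
    exact mul_le_mul (pow_le_of_le_one e0.le e1 three_ne_zero) (b.c3 z hz u) (norm_nonneg _) e0.le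
  have k7 : 1 ≤ N + 4 * C * D.ε i * ‖u‖ := by
    linarith [norm_add_le (D.c2 i z u) (D.ε i ^ 3 • D.c3 z u)]
  have N0 := (norm_nonneg _).trans k1
  nlinarith [mul_le_mul_of_nonneg_left k7 e0.le, mul_le_mul_of_nonneg_left k3 C0,
    mul_le_of_le_one_left N0 e1]

theorem tr3 (h : 15 / 2 < ‖z‖) (h' : ‖z‖ < 8) :
    D.ε i * c ≤ (1 + 2 * C) * ‖D.Bf i z - fderiv ℝ (D.f i) z u‖ := by
  have e0 := b.ok.ld_pos i
  have e1 := b.ok.ld_le i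
  have C0 := b.C0
  have c0 := b.c0
  obtain ⟨p0, p1⟩ := bmp_mem (15 / 2) 8 z
  have e : D.Bf i z - fderiv ℝ (D.f i) z u =
      D.O ((1 - bmp (15 / 2) 8 z) • cis (D.x i * z.1) - D.c1 i z u,
        -((bmp (15 / 2) 8 z : ℂ) + D.ε i ^ 3 • D.Lin u)) := by
    rw [b.ok.la_fd i hz, out u h, Bf, bmp_one (r := 8) (by norm_num) (by norm_num) h'.le,
      bmp_zero h.le, ← map_sub, one_mul, zero_mul, Prod.mk_sub_mk, ← neg_add']
    simp [cis]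
  rw [mid u (by linarith) h', la_sub] at e
  obtain ⟨i1, i2⟩ := la_split b.ok.iso e
  generalize ‖D.Bf i z - fderiv ℝ (D.f i) z u‖ = N at *
  generalize bmp (15 / 2) 8 z = β at *
  have k1 := (la_re _ _ _).trans i1
  have k2 := (la_im _ _ _).trans i1
  have k3 := ((Complex.re_le_norm _).trans_eq (norm_neg _).symm).trans i2
  rw [abs_neg] at k2
  have k4 := b.mid1 hz u k2
  have l1 : D.Lin u = u.1 • D.Lin (1, 0) + u.2 • (α : ℂ) := by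
    rw [← b.al, ← map_smul, ← map_smul, ← map_add]; simp
  have l2 := la_mul (le_refl |u.1|) ((Complex.abs_re_le_norm _).trans b.l10)
  simp only [l1, Complex.add_re, Complex.smul_re, Complex.ofReal_re, smul_eq_mul] at k3
  have N0 := (abs_nonneg _).trans k1
  have a0 := c0.trans_le b.al1
  have j1 := mul_le_mul_of_nonneg_left (abs_le.1 k1).2 (mul_pos e0 a0).le
  have j2 := mul_le_mul_of_nonneg_left (abs_le.1 l2).1 (pow_pos e0 3).le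
  have j3 := mul_le_mul (pow_le_one₀ (n := 2) e0.le e1) (mul_le_mul_of_nonneg_left k4 C0)
    (by positivity) zero_le_one
  have j4 := mul_le_mul_of_nonneg_right (mul_le_mul e1 b.al2 a0.le zero_le_one) N0
  have j5 := mul_le_mul_of_nonneg_left b.al1 (mul_nonneg e0.le (sub_nonneg.2 p1))
  have j6 := mul_le_of_le_one_left p0 (mul_le_one₀ e1 c0.le b.cle)
  nlinarith

theorem tr4 (h : 8 ≤ ‖z‖) :
    c * D.ε i ^ 2 ≤ (1 + 2 * C) * ‖D.Bf i z - fderiv ℝ (D.f i) z u‖ := by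
  have e0 := b.ok.ld_pos i
  have e1 := b.ok.ld_le i
  have C0 := b.C0
  have c0 := b.c0
  obtain ⟨w, w1, e⟩ : ∃ w : ℂ, ‖w‖ = 1 ∧ D.Bf i z - fderiv ℝ (D.f i) z u =
      D.O (w - D.c1 i z u, -(D.ε i ^ 3 • D.Lin u)) := ⟨_, lb_cis _, by
    rw [b.ok.la_fd i hz, out u (by linarith), Bf, bmp_zero h, ← map_sub, sub_zero, zero_smul,
      one_smul, Prod.mk_sub_mk, neg_zero, zero_sub]⟩
  obtain ⟨k1, k2⟩ := la_split b.ok.iso e
  generalize ‖D.Bf i z - fderiv ℝ (D.f i) z u‖ = N at *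
  rw [norm_neg, norm_smul, Real.norm_of_nonneg (by positivity)] at k2
  have k3 := (mul_le_mul_of_nonneg_left (b.lin u) (pow_pos e0 3).le).trans k2
  have k4 := norm_sub_norm_le w (D.c1 i z u)
  have a1 := b.a1 i z hz
  rw [bmp_zero (by linarith), zero_mul, sub_zero] at a1
  have k5 : ‖D.c1 i z u‖ ≤ _ := (la_up _ _ _).trans
    (add_le_add (b.abs_eps (b.d1 hz u)) (la_mul a1 (norm_fst_le u)))
  have k7 : 1 ≤ N + 2 * C * D.ε i * ‖u‖ := by linarith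
  have N0 := (norm_nonneg _).trans k1
  nlinarith [mul_le_mul_of_nonneg_left k7 (mul_pos c0 (pow_pos e0 2)).le,
    mul_le_mul_of_nonneg_left k3 C0,
    mul_le_of_le_one_left N0 (mul_le_one₀ b.cle (sq_nonneg _) (pow_le_one₀ (n := 2) e0.le e1))]

theorem tr (hs : C * D.ε i ^ 2 ≤ c / 2) :
    c * D.ε i ^ 3 ≤ (1 + 4 * C) * ‖D.Bf i z - fderiv ℝ (D.f i) z u‖ := by
  have e0 := b.ok.ld_pos i
  have e1 := b.ok.ld_le i
  have c0 := b.c0
  have k := mul_nonneg b.C0 (norm_nonneg (D.Bf i z - fderiv ℝ (D.f i) z u))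
  have k1 := mul_le_mul_of_nonneg_left (pow_le_of_le_one e0.le e1 three_ne_zero) c0.le
  rcases le_or_gt ‖z‖ (13 / 2) with h | h
  · exact (mul_le_of_le_one_right c0.le (pow_le_one₀ e0.le e1)).trans (b.tr1 hz u hs h)
  rcases le_or_gt ‖z‖ (15 / 2) with h1 | h1
  · exact (k1.trans (mul_le_of_le_one_left e0.le b.cle)).trans (b.tr2 hz u hs h h1)
  rcases lt_or_ge ‖z‖ 8 with h2 | h2
  · linarith [b.tr3 (i := i) hz u h1 h2]
  · linarith [b.tr4 (i := i) hz u h2, mul_le_mul_of_nonneg_left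
      (pow_le_pow_of_le_one e0.le e1 (show 2 ≤ 3 by norm_num)) c0.le]

theorem close : |‖fderiv ℝ (D.f i) z u‖ ^ 2 -
    bmp 5 6 z ^ 2 * (D.R1 z ^ 2 * u.1 ^ 2 + D.R2 z ^ 2 * u.2 ^ 2)| ≤
      (5 * C + C * C) * (4 * C + (5 * C + C * C)) * D.ε i * ‖u‖ ^ 2 := by
  have e0 := b.ok.ld_pos i
  have e1 := b.ok.ld_le i
  have C0 := b.C0
  have u0 := norm_nonneg u
  have u1 : |u.1| ≤ ‖u‖ := norm_fst_le u
  have u2 : |u.2| ≤ ‖u‖ := norm_snd_le u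
  obtain ⟨p0, p1⟩ := bmp_mem 5 6 z
  obtain ⟨T, hT⟩ : ∃ T, T = D.O ((((0 : ℝ) : ℂ) + (bmp 5 6 z * D.R1 z * u.1 : ℝ) * Complex.I) *
    cis (D.x i * z.1), (((0 : ℝ) : ℂ) + (bmp 5 6 z * D.R2 z * u.2 : ℝ) * Complex.I) *
      cis (D.x i * (z.2 + D.om i z))) := ⟨_, rfl⟩
  have t1 : bmp 5 6 z ^ 2 * (D.R1 z ^ 2 * u.1 ^ 2 + D.R2 z ^ 2 * u.2 ^ 2) = ‖T‖ ^ 2 := by
    rw [hT, la_norm b.ok.iso, la_sq, la_sq]; ring
  have t2 : ‖T‖ ≤ 2 * C * ‖u‖ := by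
    have j1 := la_mul (la_mul ((abs_of_nonneg p0).trans_le p1) (b.R1 i z hz)) u1
    have j2 := la_mul (la_mul ((abs_of_nonneg p0).trans_le p1) (b.R2 i z hz)) u2
    refine (hT ▸ (la_le b.ok.iso _ _).trans (add_le_add (la_up _ _ _) (la_up _ _ _))).trans ?_
    rw [abs_zero]
    linarith
  have t3 : ‖fderiv ℝ (D.f i) z u - T‖ ≤ D.ε i * ((5 * C + C * C) * ‖u‖) := by
    have e : fderiv ℝ (D.f i) z u - T = D.O (((D.ε i * dd u (D.A1 i) z : ℝ) +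
        ((D.A1 i z - bmp 5 6 z * D.R1 z) * u.1 : ℝ) * Complex.I) * cis (D.x i * z.1),
        ((D.ε i * dd u (D.A2 i) z : ℝ) + ((D.A2 i z - bmp 5 6 z * D.R2 z) * u.2 +
          D.A2 i z * dd u (D.om i) z : ℝ) * Complex.I) * cis (D.x i * (z.2 + D.om i z)) +
          D.ε i ^ 3 • D.c3 z u) := by
      rw [b.ok.la_fd i hz, hT, ← map_sub, Prod.mk_sub_mk, c1, c2]
      push_cast
      congr 2 <;> ring
    have j1 := b.abs_eps (i := i) (b.d1 (i := i) hz u)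
    have j2 := b.abs_eps (i := i) (b.d2 (i := i) hz u)
    have j3 := la_mul (b.a1 i z hz) u1
    have j4 := la_mul (b.a2 i z hz) u2
    have j5 := la_mul (b.A2 i z hz) (show |dd u (D.om i) z| ≤ C * D.ε i * ‖u‖ from
      (fderiv ℝ _ z).le_of_opNorm_le ((b.dom i z hz).trans (mul_le_mul_of_nonneg_left
        (pow_le_of_le_one e0.le e1 two_ne_zero) C0)) u)
    have j6 : ‖D.ε i ^ 3 • D.c3 z u‖ ≤ D.ε i * (C * ‖u‖) := by
      rw [norm_smul, Real.norm_of_nonneg (by positivity)]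
      exact mul_le_mul (pow_le_of_le_one e0.le e1 three_ne_zero) (b.c3 z hz u) (norm_nonneg _) e0.le
    rw [e]
    refine ((la_le b.ok.iso _ _).trans (add_le_add (la_up _ _ _) ((norm_add_le _ _).trans
      (add_le_add ((la_up _ _ _).trans (add_le_add le_rfl (abs_add_le _ _))) le_rfl)))).trans ?_
    linarith
  have t4 := (abs_norm_sub_norm_le _ _).trans t3
  have t5 : |‖fderiv ℝ (D.f i) z u‖ + ‖T‖| ≤ (4 * C + (5 * C + C * C)) * ‖u‖ := by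
    rw [abs_of_nonneg (by positivity)]
    linarith [(abs_le.1 t4).2, mul_le_of_le_one_left (show 0 ≤ (5 * C + C * C) * ‖u‖ by positivity) e1]
  rw [t1, sq_sub_sq]
  exact (la_mul t5 t4).trans_eq (by ring)

end LaB

theorem la_small (hx : Tendsto D.x 𝓕 atTop) (C : ℝ) {c : ℝ} (hc : 0 < c) :
    ∀ᶠ i in 𝓕, C * D.ε i ^ 2 ≤ c / 2 :=
  ((hx.inv_tendsto_atTop.pow 2).const_mul C).eventually_le_const (by simpa using hc)

theorem OK.imm (h : D.OK) (hx : Tendsto D.x 𝓕 atTop) : ∃ κ : ℝ, 0 < κ ∧ ∀ᶠ i in 𝓕, ∀ z ∈ B10,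
    Imm (κ / D.x i ^ 3) (fderiv ℝ (D.f i) z) := by
  obtain ⟨c, C, α, b⟩ := h.la_bds
  refine ⟨c / 4, div_pos b.c0 four_pos, (la_small hx C b.c0).mono fun i hi z hz u => ?_⟩
  have := b.imm hz u hi
  rw [ε, inv_pow] at this
  rw [div_eq_mul_inv _ (_ ^ 3)]
  linarith

theorem OK.tr (h : D.OK) (hx : Tendsto D.x 𝓕 atTop) : ∃ κ : ℝ, 0 < κ ∧ ∀ᶠ i in 𝓕, ∀ z ∈ B10,
    Tr (κ / D.x i ^ 3) (D.Bf i z) (fderiv ℝ (D.f i) z) := by
  obtain ⟨c, C, α, b⟩ := h.la_bds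
  have C0 : 0 < 1 + 4 * C := by linarith [b.C0]
  refine ⟨c / (1 + 4 * C), div_pos b.c0 C0, (la_small hx C b.c0).mono fun i hi z hz u => ?_⟩
  have := b.tr hz u hi
  rwa [ε, inv_pow, ← div_le_iff₀' C0, ← div_eq_mul_inv, div_right_comm] at this

theorem OK.close (h : D.OK) : ∃ C : ℝ, ∀ i, ∀ z ∈ B10, ∀ u : P2,
    |‖fderiv ℝ (D.f i) z u‖ ^ 2 - bmp 5 6 z ^ 2 * (D.R1 z ^ 2 * u.1 ^ 2 + D.R2 z ^ 2 * u.2 ^ 2)| ≤
      C / D.x i * ‖u‖ ^ 2 := by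
  obtain ⟨c, C, α, b⟩ := h.la_bds
  exact ⟨_, fun i z hz u => b.close hz u⟩

end LData
end Vale.Agent.Iso4
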