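import Vale.Agent.Iso4.LocDef

/-! The local model in the Clifford zone. -/

open scoped ContDiff Topology
open Set Filter

noncomputable section
namespace Vale.Agent.Iso4

section
variable {O : ℂ × ℂ →L[ℝ] V} {e e' : ℂ}

/-- a vector given by its radial and angular components -/
def lbv (O : ℂ × ℂ →L[ℝ] V) (e e' : ℂ) (p q p' q' : ℝ) : V :=
  O ((p + q * Complex.I) * e, (p' + q' * Complex.I) * e')

theorem lb_cis (t : ℝ) : ‖cis t‖ = 1 := Complex.norm_exp_ofReal_mul_I t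

theorem lbv_norm (hO : IsoO O) (he : ‖e‖ = 1) (he' : ‖e'‖ = 1) (p q p' q' : ℝ) :
    ‖lbv O e e' p q p' q'‖ ^ 2 = p ^ 2 + q ^ 2 + p' ^ 2 + q' ^ 2 := by
  rw [lbv, ← real_inner_self_eq_norm_sq, hO, real_inner_self_eq_norm_sq,
    real_inner_self_eq_norm_sq]
  simp only [norm_mul, he, he', mul_one]
  rw [Complex.sq_norm, Complex.sq_norm, Complex.normSq_add_mul_I, Complex.normSq_add_mul_I]
  ring

theorem lbv_ge (hO : IsoO O) (he : ‖e‖ = 1) (he' : ‖e'‖ = 1) (p q p' q' : ℝ) :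
    |p| ≤ ‖lbv O e e' p q p' q'‖ ∧ |q| ≤ ‖lbv O e e' p q p' q'‖ ∧
      |p'| ≤ ‖lbv O e e' p q p' q'‖ ∧ |q'| ≤ ‖lbv O e e' p q p' q'‖ := by
  have := lbv_norm hO he he' p q p' q'
  have h1 := sq_nonneg p
  have h2 := sq_nonneg q
  have h3 := sq_nonneg p'
  have h4 := sq_nonneg q'
  refine ⟨?_, ?_, ?_, ?_⟩ <;> exact abs_le_of_sq_le_sq (by linarith) (norm_nonneg _)

theorem lbv_le (hO : IsoO O) (he : ‖e‖ = 1) (he' : ‖e'‖ = 1) (p p' : ℝ) :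
    ‖lbv O e e' p 0 p' 0‖ ≤ |p| + |p'| := by
  refine (abs_le_of_sq_le_sq' ?_ (by positivity)).2
  rw [lbv_norm hO he he', add_sq, sq_abs, sq_abs]
  nlinarith [mul_nonneg (abs_nonneg p) (abs_nonneg p')]

theorem lbv_sub (p q p' q' r s r' s' : ℝ) : lbv O e e' p q p' q' - lbv O e e' r s r' s' =
    lbv O e e' (p - r) (q - s) (p' - r') (q' - s') := by
  rw [lbv, lbv, lbv, ← map_sub, Prod.mk_sub_mk]
  push_cast
  congr 2 <;> ring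

theorem lbv_rad (a b : ℝ) : a • O (-e, 0) + b • O (0, -e') = lbv O e e' (-a) 0 (-b) 0 := by
  rw [lbv, ← map_smul, ← map_smul, ← map_add]
  simp

theorem lb_coord (l : P2 →L[ℝ] ℝ) (u : P2) : l u = u.1 * l (1, 0) + u.2 * l (0, 1) := by
  rw [← smul_eq_mul, ← smul_eq_mul, ← map_smul, ← map_smul, ← map_add]
  simp

theorem lb_u {l : P2 →L[ℝ] ℝ} (hl : ‖l‖ ≤ 1 / 2) {u : P2} {t : ℝ} (h1 : |u.1| ≤ t)
    (h2 : |u.2 + l u| ≤ t) : ‖u‖ ≤ 2 * t := by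
  have h3 : |l u| ≤ 1 / 2 * ‖u‖ := l.le_of_opNorm_le hl u
  have h4 := abs_sub (u.2 + l u) (l u)
  rw [add_sub_cancel_right] at h4
  have h5 : ‖u‖ ≤ t + 1 / 2 * ‖u‖ :=
    max_le (h1.trans (le_add_of_nonneg_right (by positivity))) (h4.trans (add_le_add h2 h3))
  linarith

theorem lb_tr (hO : IsoO O) (he : ‖e‖ = 1) (he' : ‖e'‖ = 1) {c C ε r1 r2 : ℝ} (hc : 0 < c)
    (hC : 0 ≤ C) (h0 : 0 ≤ ε) (hε : ε ≤ 1) (h1 : c ≤ r1) (h2 : c ≤ r2) {l1 l2 l : P2 →L[ℝ] ℝ}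
    (b1 : ‖l1‖ ≤ C) (b2 : ‖l2‖ ≤ C) (hl : ‖l‖ ≤ 1 / 2) {T : P2 →L[ℝ] V}
    (hT : ∀ u, T u = lbv O e e' (ε * l1 u) (r1 * u.1) (ε * l2 u) (r2 * (u.2 + l u))) (a b : ℝ) :
    Tr (c / (2 * c + 4 * C) * (a + b)) (lbv O e e' (-a) 0 (-b) 0) T := by
  intro u
  rw [hT, lbv_sub]
  obtain ⟨k1, k2, k3, k4⟩ := lbv_ge hO he he' (-a - ε * l1 u) (0 - r1 * u.1) (-b - ε * l2 u)
    (0 - r2 * (u.2 + l u))
  generalize ‖lbv O e e' _ _ _ _‖ = N at *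
  have key : ∀ r y : ℝ, c ≤ r → |0 - r * y| ≤ N → |y| ≤ N / c := fun r y hr h => by
    rw [zero_sub, abs_neg, abs_mul, abs_of_pos (hc.trans_le hr)] at h
    rw [le_div_iff₀ hc]
    nlinarith [abs_nonneg y]
  have k5 := lb_u hl (key _ _ h1 k2) (key _ _ h2 k4)
  have key' : ∀ (m : P2 →L[ℝ] ℝ) (y : ℝ), ‖m‖ ≤ C → |-y - ε * m u| ≤ N →
      y ≤ N + C * (2 * (N / c)) := fun m y hm h => by
    have j1 : |m u| ≤ C * (2 * (N / c)) :=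
      (m.le_of_opNorm_le hm u).trans (mul_le_mul_of_nonneg_left k5 hC)
    have j2 : |ε * m u| ≤ |m u| := by
      rw [abs_mul, abs_of_nonneg h0]
      exact mul_le_of_le_one_left (abs_nonneg _) hε
    linarith [(abs_le.1 h).1, (abs_le.1 j2).1]
  have k6 := add_le_add (key' l1 a b1 k1) (key' l2 b b2 k3)
  calc c / (2 * c + 4 * C) * (a + b)
      ≤ c / (2 * c + 4 * C) * (N + C * (2 * (N / c)) + (N + C * (2 * (N / c)))) := by gcongr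
    _ = N := by
      field_simp
      ring

theorem lb_nd (hO : IsoO O) (he : ‖e‖ = 1) (he' : ‖e'‖ = 1) {c C x r1 r2 : ℝ} (hc : 0 < c)
    (hC : 0 ≤ C) (hx : 1 ≤ x) (h1 : c ≤ r1) (h2 : c ≤ r2) {l1 l2 l : P2 →L[ℝ] ℝ}
    (b1 : ‖l1‖ ≤ C) (b2 : ‖l2‖ ≤ C) (hl : ‖l‖ ≤ 1 / 2) {T : P2 →L[ℝ] V}
    (hT : ∀ u, T u = lbv O e e' (x⁻¹ * l1 u) (r1 * u.1) (x⁻¹ * l2 u) (r2 * (u.2 + l u))) (v : P2)
    {q1 q2 q : ℝ} (c1 : |q1| ≤ C * ‖v‖ ^ 2) (c2 : |q2| ≤ C * ‖v‖ ^ 2) (c3 : |q| ≤ C * ‖v‖ ^ 2) :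
    ∃ (a b : ℝ) (u : P2), 0 ≤ a ∧ 0 ≤ b ∧ c / 4 * ‖v‖ ^ 2 ≤ a + b ∧
      ‖lbv O e e' (x⁻¹ * q1 - x * r1 * v.1 ^ 2) (2 * l1 v * v.1)
        (x⁻¹ * q2 - x * r2 * (v.2 + l v) ^ 2) (2 * l2 v * (v.2 + l v) + r2 * q) -
        lbv O e e' (-a) 0 (-b) 0 - T u‖ ≤ 2 * (C + C * (2 * (3 * C / c + C))) / x * ‖v‖ ^ 2 := by
  have p1 := hc.trans_le h1
  have p2 := hc.trans_le h2
  have x0 := one_pos.trans_le hx
  have v1 : |v.1| ≤ ‖v‖ := norm_fst_le v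
  have v2 : |v.2 + l v| ≤ 3 / 2 * ‖v‖ := by
    have j1 : |l v| ≤ 1 / 2 * ‖v‖ := l.le_of_opNorm_le hl v
    have j2 : |v.2| ≤ ‖v‖ := norm_snd_le v
    linarith [abs_add_le v.2 (l v)]
  have l0 : 1 + l (0, 1) ≠ 0 := by
    have j1 : |l (0, 1)| ≤ 1 / 2 * ‖((0, 1) : P2)‖ := l.le_of_opNorm_le hl _
    simp only [Prod.norm_mk, norm_zero, norm_one, zero_le_one, max_eq_right] at j1
    linarith [(abs_le.1 j1).1]
  obtain ⟨u, u1, u2⟩ : ∃ u : P2, u.1 = 2 * l1 v * v.1 / r1 ∧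
      u.2 + l u = 2 * l2 v * (v.2 + l v) / r2 + q := by
    generalize 2 * l1 v * v.1 / r1 = s
    generalize 2 * l2 v * (v.2 + l v) / r2 + q = t
    refine ⟨(s, (t - s * l (1, 0)) / (1 + l (0, 1))), rfl, ?_⟩
    rw [lb_coord l (s, _)]
    field_simp
    ring
  have key : ∀ (m : P2 →L[ℝ] ℝ) (y r : ℝ), ‖m‖ ≤ C → |y| ≤ 3 / 2 * ‖v‖ → c ≤ r →
      |2 * m v * y / r| ≤ 3 * C / c * ‖v‖ ^ 2 := fun m y r hm hy hr => by
    have j1 : |m v| ≤ C * ‖v‖ := m.le_of_opNorm_le hm v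
    rw [abs_div, abs_mul, abs_mul, abs_two, abs_of_pos (hc.trans_le hr)]
    calc 2 * |m v| * |y| / r ≤ 2 * (C * ‖v‖) * (3 / 2 * ‖v‖) / c := by gcongr
      _ = 3 * C / c * ‖v‖ ^ 2 := by ring
  have hu : ‖u‖ ≤ 2 * ((3 * C / c + C) * ‖v‖ ^ 2) := by
    have j1 := key l1 v.1 r1 b1 (by linarith [norm_nonneg v]) h1
    have j2 := key l2 _ r2 b2 v2 h2
    have j3 : 0 ≤ C * ‖v‖ ^ 2 := by positivity
    refine lb_u hl (by rw [u1]; linarith) ?_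
    rw [u2]
    linarith [abs_add_le (2 * l2 v * (v.2 + l v) / r2) q]
  refine ⟨x * r1 * v.1 ^ 2, x * r2 * (v.2 + l v) ^ 2, u, by positivity, by positivity, ?_, ?_⟩
  · have j1 := lb_u (u := v) hl (Real.abs_le_sqrt (le_add_of_nonneg_right (sq_nonneg (v.2 + l v))))
      (Real.abs_le_sqrt (le_add_of_nonneg_left (sq_nonneg v.1)))
    have j2 := pow_le_pow_left₀ (norm_nonneg _) j1 2
    rw [mul_pow, Real.sq_sqrt (by positivity)] at j2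
    have j3 : c ≤ x * r1 := h1.trans (le_mul_of_one_le_left p1.le hx)
    have j4 : c ≤ x * r2 := h2.trans (le_mul_of_one_le_left p2.le hx)
    nlinarith [mul_le_mul_of_nonneg_right j3 (sq_nonneg v.1),
      mul_le_mul_of_nonneg_right j4 (sq_nonneg (v.2 + l v)), mul_le_mul_of_nonneg_left j2 hc.le]
  · have key' : ∀ (m : P2 →L[ℝ] ℝ) (y : ℝ), ‖m‖ ≤ C → |y| ≤ C * ‖v‖ ^ 2 → |x⁻¹ * (y - m u)| ≤
        (C + C * (2 * (3 * C / c + C))) / x * ‖v‖ ^ 2 := fun m y hm hy => by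
      have j1 : |m u| ≤ C * (2 * ((3 * C / c + C) * ‖v‖ ^ 2)) :=
        (m.le_of_opNorm_le hm u).trans (mul_le_mul_of_nonneg_left hu hC)
      rw [abs_mul, abs_of_pos (inv_pos.2 x0), div_eq_inv_mul _ x, mul_assoc]
      refine mul_le_mul_of_nonneg_left ?_ (by positivity)
      linarith [abs_sub y (m u)]
    have j1 := lbv_le hO he he' (x⁻¹ * (q1 - l1 u)) (x⁻¹ * (q2 - l2 u))
    have j2 := key' l1 q1 b1 c1
    have j3 := key' l2 q2 b2 c2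
    rw [hT, lbv_sub, lbv_sub, u1, u2]
    refine le_trans (le_of_eq ?_) (j1.trans ((add_le_add j2 j3).trans_eq (by ring)))
    congr 2
    · ring
    · field_simp
      ring
    · ring
    · field_simp
      ring

theorem lb_has {p q θ : P2 → ℝ} {P Q Θ : P2 →L[ℝ] ℝ} {z : P2} (hp : HasFDerivAt p P z)
    (hq : HasFDerivAt q Q z) (hθ : HasFDerivAt θ Θ z) : ∃ T : P2 →L[ℝ] ℂ,
      HasFDerivAt (fun y => ((p y : ℂ) + q y * Complex.I) * cis (θ y)) T z ∧ ∀ v, T v =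
        ((P v - q z * Θ v : ℝ) + (Q v + p z * Θ v : ℝ) * Complex.I) * cis (θ z) := by
  refine ⟨_, ((Complex.ofRealCLM.hasFDerivAt.comp z hp).add
    ((Complex.ofRealCLM.hasFDerivAt.comp z hq).mul_const Complex.I)).mul
    ((Complex.ofRealCLM.hasFDerivAt.comp z hθ).mul_const Complex.I).cexp, fun v => ?_⟩
  simp only [cis, add_apply, smul_apply, smul_eq_mul,
    ContinuousLinearMap.comp_apply, Complex.ofRealCLM_apply, Function.comp_apply, Pi.add_apply]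
  push_cast
  linear_combination (q z * Θ v * Complex.exp (θ z * Complex.I)) * Complex.I_mul_I

end

namespace LData
variable {ι : Type*} {D : LData ι} {𝓕 : Filter ι}

theorem OK.lb_fd (h : D.OK) (i : ι) {z : P2} (hz : ‖z‖ < 5) (u : P2) :
    fderiv ℝ (D.f i) z u = lbv D.O (cis (D.x i * z.1)) (cis (D.x i * (z.2 + D.om i z)))
      (D.ε i * dd u (D.ρ1 i) z) (D.ρ1 i z * u.1) (D.ε i * dd u (D.ρ2 i) z)
      (D.ρ2 i z * (u.2 + dd u (D.om i) z)) := by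
  have e0 := bmp_ev_one (r := 5) (R := 6) (by norm_num) (by norm_num) hz
  have e1 : D.A1 i =ᶠ[𝓝 z] D.ρ1 i := by
    filter_upwards [e0, bmp_ev_one (r := 6) (R := 13 / 2) (z := z) (by norm_num) (by norm_num)
      (by linarith)] with y h1 h2
    simp [A1, h1, h2]
  have e2 : D.A2 i =ᶠ[𝓝 z] D.ρ2 i := by
    filter_upwards [e0] with y h1
    simp [A2, h1]
  have e3 := bmp_ev_one (r := 7) (R := 15 / 2) (z := z) (by norm_num) (by norm_num) (by linarith)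
  rw [h.fderiv_f i (mem_ball_zero_iff.2 (by linarith))]
  simp only [dd, e1.fderiv_eq, e2.fderiv_eq, e3.fderiv_eq, e1.eq_of_nhds, e2.eq_of_nhds,
    e3.eq_of_nhds, lbv, fderiv_fun_const, Pi.zero_apply, zero_apply, sub_self,
    zero_smul, smul_zero, add_zero]

theorem OK.lb_pos (h : D.OK) (i : ι) : 0 < D.ε i := inv_pos.2 (one_pos.trans_le (h.x1 i))

theorem OK.lb_le (h : D.OK) (i : ι) : D.ε i ≤ 1 := inv_le_one_of_one_le₀ (h.x1 i)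

theorem OK.lb_ρ1 (h : D.OK) : CT D.ε 0 D.ρ1 :=
  ((CT.le h.t1 h.lb_pos h.lb_le (Nat.zero_le _)).add (CT.fix fun z hz => (h.hR1 z hz).1)).congr_open
    (fun _ => Metric.isOpen_ball) fun _ _ _ => sub_add_cancel _ _

theorem OK.lb_ρ2 (h : D.OK) : CT D.ε 0 D.ρ2 :=
  ((CT.le h.t2 h.lb_pos h.lb_le (Nat.zero_le _)).add (CT.fix fun z hz => (h.hR2 z hz).1)).congr_open
    (fun _ => Metric.isOpen_ball) fun _ _ _ => sub_add_cancel _ _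

theorem OK.lb_d2 (h : D.OK) (i : ι) {z : P2} (hz : ‖z‖ < 5) (v : P2) :
    d2 (D.f i) z v v = lbv D.O (cis (D.x i * z.1)) (cis (D.x i * (z.2 + D.om i z)))
      ((D.x i)⁻¹ * d2 (D.ρ1 i) z v v - D.x i * D.ρ1 i z * v.1 ^ 2)
      (2 * fderiv ℝ (D.ρ1 i) z v * v.1)
      ((D.x i)⁻¹ * d2 (D.ρ2 i) z v v - D.x i * D.ρ2 i z * (v.2 + fderiv ℝ (D.om i) z v) ^ 2)
      (2 * fderiv ℝ (D.ρ2 i) z v * (v.2 + fderiv ℝ (D.om i) z v) +
        D.ρ2 i z * d2 (D.om i) z v v) := by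
  have hz' : z ∈ B10 := mem_ball_zero_iff.2 (by linarith)
  have x0 := (one_pos.trans_le (h.x1 i)).ne'
  have s1 := h.lb_ρ1.smooth i z hz'
  have s2 := h.lb_ρ2.smooth i z hz'
  have s3 := h.tom.smooth i z hz'
  have hd : ∀ {g : P2 → ℝ}, ContDiffAt ℝ ∞ g z → HasFDerivAt g (fderiv ℝ g z) z :=
    fun hg => (hg.differentiableAt (by simp)).hasFDerivAt
  have hf : ContDiffAt ℝ ∞ (D.f i) z := (h.tameW.smooth i z trivial).add
    ((D.O.contDiff.comp (contDiff_const.prodMk D.Lin.contDiff)).const_smul _).contDiffAt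
  obtain ⟨T1, h1, k1⟩ := lb_has ((hd (ContDiffAt_dd s1 v)).const_mul (D.ε i))
    ((hd s1).mul_const v.1) (hasFDerivAt_fst.const_mul (D.x i))
  obtain ⟨T2, h2, k2⟩ := lb_has ((hd (ContDiffAt_dd s2 v)).const_mul (D.ε i))
    ((hd s2).fun_mul ((hd (ContDiffAt_dd s3 v)).const_add v.2))
    ((hasFDerivAt_snd.fun_add (hd s3)).const_mul (D.x i))
  have e := ((D.O.hasFDerivAt.comp z (h1.prodMk h2)).congr_of_eventuallyEq (f₁ := dd v (D.f i))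
    (eventually_of_mem ((isOpen_lt continuous_norm continuous_const).mem_nhds hz)
      fun y hy => h.lb_fd i hy v)).fderiv
  rw [← dd_dd hf, ← dd_dd s1, ← dd_dd s2, ← dd_dd s3, dd, e, ContinuousLinearMap.comp_apply,
    ContinuousLinearMap.prod_apply, k1, k2, lbv]
  simp only [add_apply, smul_apply, smul_eq_mul,
    ContinuousLinearMap.coe_fst', ContinuousLinearMap.coe_snd', ε, dd]
  congr 6 <;> field_simp <;> ring


/-- the metric in the Clifford zone -/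
theorem OK.met (h : D.OK) (i : ι) {z : P2} (hz : ‖z‖ < 5) (u : P2) :
    ‖fderiv ℝ (D.f i) z u‖ ^ 2 =
      (D.ρ1 i z ^ 2 + D.ε i ^ 2 * dx (D.ρ1 i) z ^ 2 + D.ε i ^ 2 * dx (D.ρ2 i) z ^ 2 +
          D.ρ2 i z ^ 2 * dx (D.om i) z ^ 2) * u.1 ^ 2 +
      2 * (D.ε i ^ 2 * (dx (D.ρ1 i) z * dy (D.ρ1 i) z) +
          D.ε i ^ 2 * (dx (D.ρ2 i) z * dy (D.ρ2 i) z) +
          D.ρ2 i z ^ 2 * (dx (D.om i) z * (1 + dy (D.om i) z))) * u.1 * u.2 +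
      (D.ε i ^ 2 * dy (D.ρ1 i) z ^ 2 + D.ε i ^ 2 * dy (D.ρ2 i) z ^ 2 +
          D.ρ2 i z ^ 2 * (1 + dy (D.om i) z) ^ 2) * u.2 ^ 2 := by
  rw [h.lb_fd i hz, lbv_norm h.iso (lb_cis _) (lb_cis _)]
  simp only [dx, dy, dd, lb_coord _ u]
  ring

/-- second derivatives point inwards -/
theorem OK.nd (h : D.OK) (hx : Tendsto D.x 𝓕 atTop) : ∃ κ C : ℝ, 0 < κ ∧ ∀ᶠ i in 𝓕, ∀ z : P2,
    ‖z‖ < 5 → ∃ n1 : V,
      (∀ a b : ℝ, 0 ≤ a → 0 ≤ b → Tr (κ * (a + b)) (a • n1 + b • D.Bf i z) (fderiv ℝ (D.f i) z)) ∧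
      ∀ v : P2, ∃ (a b : ℝ) (u : P2), 0 ≤ a ∧ 0 ≤ b ∧ κ * ‖v‖ ^ 2 ≤ a + b ∧
        ‖d2 (D.f i) z v v - (a • n1 + b • D.Bf i z) - fderiv ℝ (D.f i) z u‖ ≤
          C / D.x i * ‖v‖ ^ 2 := by
  have low : ∀ {R : P2 → ℝ}, (∀ z ∈ Metric.closedBall (0 : P2) 10, ContDiffAt ℝ ∞ R z ∧ 0 < R z) →
      ∃ c, 0 < c ∧ ∀ z ∈ Metric.closedBall (0 : P2) 10, c ≤ R z := fun hR =>
    (isCompact_closedBall _ _).exists_forall_le'
      (fun z hz => (hR z hz).1.continuousAt.continuousWithinAt) fun z hz => (hR z hz).2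
  obtain ⟨c1, hc1, l1⟩ := low h.hR1
  obtain ⟨c2, hc2, l2⟩ := low h.hR2
  obtain ⟨A1, -, a1⟩ := h.t1.norm_le
  obtain ⟨A2, -, a2⟩ := h.t2.norm_le
  obtain ⟨A3, -, a3⟩ := h.tom.norm_fderiv_le
  obtain ⟨C1, p1, b1⟩ := h.lb_ρ1.norm_fderiv_le
  obtain ⟨C2, p2, b2⟩ := h.lb_ρ2.norm_fderiv_le
  obtain ⟨C3, p3, b3⟩ := h.lb_ρ1.norm_d2_le
  obtain ⟨C4, p4, b4⟩ := h.lb_ρ2.norm_d2_le
  obtain ⟨C5, p5, b5⟩ := (CT.le h.tom h.lb_pos h.lb_le (Nat.zero_le _)).norm_d2_le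
  simp only [one_pow, mul_one, pow_zero, Real.norm_eq_abs] at a1 a2 a3 b1 b2 b3 b4 b5
  have small : ∀ A δ : ℝ, 0 < δ → ∀ᶠ i in 𝓕, A * D.ε i ^ 2 ≤ δ := fun A δ hδ =>
    ((hx.inv_tendsto_atTop.pow 2).const_mul A).eventually_le_const (by simpa using hδ)
  obtain ⟨c, hc, hc3, hc4⟩ : ∃ c, 0 < c ∧ c ≤ c1 / 2 ∧ c ≤ c2 / 2 :=
    ⟨_, lt_min (half_pos hc1) (half_pos hc2), min_le_left _ _, min_le_right _ _⟩
  obtain ⟨C, hC⟩ : ∃ C, C = C1 + C2 + C3 + C4 + C5 := ⟨_, rfl⟩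
  have C0 : 0 ≤ C := by linarith
  refine ⟨min (c / 4) (c / (2 * c + 4 * C)), 2 * (C + C * (2 * (3 * C / c + C))),
    lt_min (by positivity) (by positivity), ?_⟩
  filter_upwards [small A1 _ (half_pos hc1), small A2 _ (half_pos hc2), small A3 _ one_half_pos]
    with i s1 s2 s3 z hz
  have hz' : z ∈ B10 := mem_ball_zero_iff.2 (by linarith)
  have hB : D.Bf i z = D.O (0, -cis (D.x i * (z.2 + D.om i z))) := by
    simp [Bf, bmp_one (r := 15 / 2) (R := 8) (z := z) (by norm_num) (by norm_num) (by linarith),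
      bmp_one (r := 13 / 2) (R := 15 / 2) (z := z) (by norm_num) (by norm_num) (by linarith)]
  have r1 : c ≤ D.ρ1 i z := by
    linarith [(abs_le.1 (a1 i z hz')).1, l1 z (Metric.ball_subset_closedBall hz')]
  have r2 : c ≤ D.ρ2 i z := by
    linarith [(abs_le.1 (a2 i z hz')).1, l2 z (Metric.ball_subset_closedBall hz')]
  have m1 : ‖fderiv ℝ (D.ρ1 i) z‖ ≤ C := by linarith [b1 i z hz']
  have m2 : ‖fderiv ℝ (D.ρ2 i) z‖ ≤ C := by linarith [b2 i z hz']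
  have m3 := (a3 i z hz').trans s3
  refine ⟨D.O (-cis (D.x i * z.1), 0), fun a b ha hb => ?_, fun v => ?_⟩
  · rw [hB, lbv_rad]
    exact (lb_tr h.iso (lb_cis _) (lb_cis _) hc C0 (h.lb_pos i).le (h.lb_le i) r1 r2 m1 m2 m3
      (h.lb_fd i hz) a b).mono (mul_le_mul_of_nonneg_right (min_le_right _ _) (add_nonneg ha hb))
  · have key : ∀ y K : ℝ, K ≤ C → y ≤ K * (‖v‖ * ‖v‖) → y ≤ C * ‖v‖ ^ 2 := fun y K h1 h2 =>
      h2.trans (by rw [← sq]; gcongr)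
    obtain ⟨a, b, u, ha, hb, h1, h2⟩ := lb_nd h.iso (lb_cis _) (lb_cis _) hc C0 (h.x1 i) r1 r2
      m1 m2 m3 (h.lb_fd i hz) v (key _ _ (by linarith) (b3 i z hz' v v))
      (key _ _ (by linarith) (b4 i z hz' v v)) (key _ _ (by linarith) (b5 i z hz' v v))
    refine ⟨a, b, u, ha, hb,
      (mul_le_mul_of_nonneg_right (min_le_left _ _) (sq_nonneg _)).trans h1, ?_⟩
    rwa [hB, lbv_rad, h.lb_d2 i hz]

end LData
end Vale.Agent.Iso4
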