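import Vale.Agent.Iso4.Geo
import Vale.Agent.Iso4.LocA
import Vale.Agent.Iso4.LocB

/-! The initial map: definition and local form. -/

open scoped ContDiff Topology Manifold
open Set Filter

noncomputable section
namespace Vale.Agent.Iso4

variable {M : Type*} [TopologicalSpace M] [ChartedSpace E2 M]

theorem ia_mem {z : P2} {r : ℝ} (hz : ‖z‖ < r) (hr : r ≤ 10) : z ∈ B10 :=
  mem_ball_zero_iff.2 (hz.trans_le hr)

theorem ia_quad {a b c C : ℝ} (ha : |a| ≤ C) (hb : |b| ≤ C) (hc : |c| ≤ C) (u : P2) :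
    |a * u.1 ^ 2 + 2 * b * u.1 * u.2 + c * u.2 ^ 2| ≤ 4 * C * ‖u‖ ^ 2 := by
  have h1 : |u.1| ≤ ‖u‖ := norm_fst_le u
  have h2 : |u.2| ≤ ‖u‖ := norm_snd_le u
  have C0 : 0 ≤ C := (abs_nonneg _).trans ha
  have k : ∀ {s v w : ℝ}, |s| ≤ C → |v| ≤ ‖u‖ → |w| ≤ ‖u‖ → |s * v * w| ≤ C * ‖u‖ ^ 2 :=
    fun hs hv hw => by
      rw [abs_mul, abs_mul, sq, ← mul_assoc]
      exact mul_le_mul (mul_le_mul hs hv (abs_nonneg _) C0) hw (abs_nonneg _) (by positivity)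
  have a1 := abs_le.1 (k ha h1 h1)
  have a2 := abs_le.1 (k hb h1 h2)
  have a3 := abs_le.1 (k hc h2 h2)
  exact abs_le.2 ⟨by nlinarith [a1.1, a2.1, a3.1], by nlinarith [a1.2, a2.2, a3.2]⟩

theorem Tr.ia_near {E X : Type} [NormedAddCommGroup E] [NormedSpace ℝ E] [NormedAddCommGroup X]
    [NormedSpace ℝ X] {T : E →L[ℝ] X} {x y : X} {D δ : ℝ} (h : Tr D y T) (u : E)
    (hδ : ‖x - y - T u‖ ≤ δ) : Tr (D - δ) x T := fun w => by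
  have h1 := h (w - u)
  have h2 : y - T (w - u) = (x - T w) - (x - y - T u) := by rw [map_sub]; abel
  rw [h2] at h1
  linarith [norm_sub_le (x - T w) (x - y - T u)]

namespace Geo
variable {g : Met M} (Γ : Geo g) {ι : Type*}

theorem glue_low {𝓕 : Filter ι} {P : ℝ → ι → M → Prop} (r : ℝ)
    (mono : ∀ κ κ' i p, 0 < κ' → κ' ≤ κ → P κ i p → P κ' i p)
    (h0 : ∃ κ, 0 < κ ∧ ∀ᶠ i in 𝓕, ∀ p ∈ Γ.Out r, P κ i p)
    (h1 : ∀ k, ∃ κ, 0 < κ ∧ ∀ᶠ i in 𝓕, ∀ p ∈ (Γ.c k).source, ‖(Γ.c k).to p‖ < r → P κ i p) :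
    ∃ κ, 0 < κ ∧ ∀ᶠ i in 𝓕, ∀ p, P κ i p := by
  obtain ⟨κ0, a0, b0⟩ := h0
  choose κ a b using h1
  obtain ⟨δ, ⟨d0, d1⟩, d2⟩ := ((eventually_mem_set.2 (Ioc_mem_nhdsGT a0)).and
    (eventually_all.2 fun k => eventually_mem_set.2 (Ioc_mem_nhdsGT (a k)))).exists
  refine ⟨δ, d0, ?_⟩
  filter_upwards [b0, eventually_all.2 b] with i e0 e1 p
  by_cases hp : p ∈ Γ.Out r
  · exact mono _ _ _ _ d0 d1 (e0 p hp)
  · obtain ⟨k, h1, h2⟩ := Γ.not_mem_Out.1 hp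
    exact mono _ _ _ _ d0 (d2 k).2 (e1 k p h1 h2)

theorem glue_up {𝓕 : Filter ι} {P : ℝ → ι → M → Prop} (r : ℝ)
    (mono : ∀ C C' i p, C ≤ C' → P C i p → P C' i p)
    (h0 : ∃ C, ∀ᶠ i in 𝓕, ∀ p ∈ Γ.Out r, P C i p)
    (h1 : ∀ k, ∃ C, ∀ᶠ i in 𝓕, ∀ p ∈ (Γ.c k).source, ‖(Γ.c k).to p‖ < r → P C i p) :
    ∃ C, ∀ᶠ i in 𝓕, ∀ p, P C i p := by
  obtain ⟨C0, b0⟩ := h0
  choose C b using h1
  obtain ⟨δ, d1, d2⟩ := ((eventually_ge_atTop C0).and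
    (eventually_all.2 fun k => eventually_ge_atTop (C k))).exists
  refine ⟨δ, ?_⟩
  filter_upwards [b0, eventually_all.2 b] with i e0 e1 p
  by_cases hp : p ∈ Γ.Out r
  · exact mono _ _ _ _ d1 (e0 p hp)
  · obtain ⟨k, h1, h2⟩ := Γ.not_mem_Out.1 hp
    exact mono _ _ _ _ (d2 k) (e1 k p h1 h2)

theorem sub_target (k : Fin Γ.n) {r : ℝ} (hr : r ≤ 10) :
    Metric.closedBall (0 : P2) r ⊆ (Γ.c k).target :=
  (Metric.closedBall_subset_closedBall hr).trans (Γ.ball k)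

theorem B10_target (k : Fin Γ.n) {z : P2} (hz : z ∈ B10) : z ∈ (Γ.c k).target :=
  Γ.ball k (Metric.ball_subset_closedBall hz)

/-- the initial map -/
def iF (x : ι → ℝ) (D : Fin Γ.n → LData ι) (i : ι) (p : M) : V :=
  (x i)⁻¹ ^ 3 • Γ.G p + ∑ k, (Γ.c k).ext ((D k).W i) p

/-- the initial transversal field -/
def iB (D : Fin Γ.n → LData ι) (i : ι) (p : M) : V :=
  Γ.B p + ∑ k, (Γ.c k).ext (fun z => (D k).Bf i z - Γ.O k (1, 0)) p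

/-- properties of the local data -/
structure IOK (x : ι → ℝ) (N : ℕ) (D : Fin Γ.n → LData ι) : Prop where
  x1 : ∀ i, 1 ≤ x i
  ok : ∀ k, (D k).OK
  hx : ∀ k, (D k).x = x
  hO : ∀ k, (D k).O = Γ.O k
  hL : ∀ k, (D k).Lin = Γ.Lin k
  r1 : ∀ k, ∀ z ∈ B10, 4 ≤ ‖z‖ → (D k).R1 z ^ 2 = 3 / 4 * g.cf (Γ.c k) (1, 0) (1, 0) z
  r2 : ∀ k, ∀ z ∈ B10, 4 ≤ ‖z‖ → (D k).R2 z ^ 2 = 3 / 4 * g.cf (Γ.c k) (0, 1) (0, 1) z
  met : ∀ k, ∃ C : ℝ, 0 ≤ C ∧ ∀ i z, ‖z‖ < 5 → ∀ u, |‖fderiv ℝ ((D k).f i) z u‖ ^ 2 -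
    ((1 - (1 - bmp 3 4 z) ^ (2 * N) / 4) * g.cf (Γ.c k) u u z - (1 - bmp 1 2 z) ^ (2 * N) *
      ((x i ^ 2)⁻¹ * fderiv ℝ ((Γ.c k).rep Γ.φ) z u ^ 2))| ≤ C / (x i ^ 3) ^ N * ‖u‖ ^ 2

theorem exists_iok {x : ι → ℝ} (hx1 : ∀ i, 1 ≤ x i) (N : ℕ) : ∃ D, Γ.IOK x N D := by
  have h0 : ∀ i, 0 < (x i)⁻¹ := fun i => inv_pos.2 (zero_lt_one.trans_le (hx1 i))
  have h1 : ∀ i, (x i)⁻¹ ≤ 1 := fun i => inv_le_one_of_one_le₀ (hx1 i)
  have hw : ∀ z, 0 < 1 - (1 - bmp 3 4 z) ^ (2 * N) / 4 := fun z => by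
    have := bmp_mem 3 4 z
    have : (1 - bmp 3 4 z) ^ (2 * N) ≤ 1 := pow_le_one₀ (by linarith [this.2]) (by linarith [this.1])
    linarith
  have hR : ∀ k (v : P2), v ≠ 0 → ∀ z ∈ Metric.closedBall (0 : P2) 10,
      ContDiffAt ℝ ∞ (fun z => √(g.cf (Γ.c k) v v z * (1 - (1 - bmp 3 4 z) ^ (2 * N) / 4))) z ∧
      0 < √(g.cf (Γ.c k) v v z * (1 - (1 - bmp 3 4 z) ^ (2 * N) / 4)) := fun k v hv z hz => by
    have hp := mul_pos (g.cf_pos _ (Γ.ball k hz) hv) (hw z)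
    exact ⟨((g.contDiffAt_cf _ v v (Γ.ball k hz)).mul (contDiffAt_const.sub
      (((contDiffAt_const.sub (bmp_smooth 3 4).contDiffAt).pow _).div_const _))).sqrt hp.ne',
      Real.sqrt_pos.2 hp⟩
  have hP : ∀ k (v w : P2), CT (fun i => (x i)⁻¹) 2 fun i z => -((x i)⁻¹ ^ 2 *
      ((1 - bmp 1 2 z) ^ (2 * N) * (dd v ((Γ.c k).rep Γ.φ) z * dd w ((Γ.c k).rep Γ.φ) z))) :=
    fun k v w => by
      have s : ∀ v, ∀ z ∈ Metric.closedBall (0 : P2) 10, ContDiffAt ℝ ∞ (dd v ((Γ.c k).rep Γ.φ)) z :=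
        fun v z hz => ContDiffAt_dd ((Γ.c k).contDiffAt_rep Γ.smφ (Γ.ball k hz)) v
      have t := CT.fix (ε := fun i => (x i)⁻¹) (F := fun z => (1 - bmp 1 2 z) ^ (2 * N) *
        (dd v ((Γ.c k).rep Γ.φ) z * dd w ((Γ.c k).rep Γ.φ) z)) fun z hz =>
          ((contDiffAt_const.sub (bmp_smooth 1 2).contDiffAt).pow _).mul ((s v z hz).mul (s w z hz))
      exact ((t.m0 CT.eps).neg).congr_open (fun _ => Metric.isOpen_ball) fun i z _ => by ring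
  have e1 : ((1, 0) : P2) ≠ 0 := by simp
  have e2 : ((0, 1) : P2) ≠ 0 := by simp
  choose ρ1 ρ2 om a1 a2 a3 a4 a5 a6 using fun k => cliff (3 * N) h0 h1 (hR k _ e1) (hR k _ e2)
    (hP k (1, 0) (1, 0)) (hP k (1, 0) (0, 1)) (hP k (0, 1) (0, 1))
  have hsq : ∀ k (v : P2), v ≠ 0 → ∀ z ∈ B10,
      √(g.cf (Γ.c k) v v z * (1 - (1 - bmp 3 4 z) ^ (2 * N) / 4)) ^ 2 =
        g.cf (Γ.c k) v v z * (1 - (1 - bmp 3 4 z) ^ (2 * N) / 4) := fun k v hv z hz =>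
    Real.sq_sqrt (mul_pos (g.cf_pos _ (Γ.B10_target k hz) hv) (hw z)).le
  have ok : ∀ k, LData.OK ⟨x, _, _, ρ1 k, ρ2 k, om k, Γ.O k, Γ.Lin k⟩ := fun k =>
    ⟨hx1, hR k _ e1, hR k _ e2, a1 k, a2 k, a3 k, Γ.iso k, Γ.inj k, Γ.pos k⟩
  refine ⟨fun k => ⟨x, _, _, ρ1 k, ρ2 k, om k, Γ.O k, Γ.Lin k⟩, hx1, ok, fun _ => rfl, fun _ => rfl,
    fun _ => rfl, fun k z hz h4 => ?_, fun k z hz h4 => ?_, fun k => ?_⟩
  · exact (hsq k _ e1 z hz).trans (by rw [bmp_zero h4]; ring)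
  · exact (hsq k _ e2 z hz).trans (by rw [bmp_zero h4]; ring)
  obtain ⟨C1, c1, b1⟩ := (a4 k).norm_le
  obtain ⟨C2, c2, b2⟩ := (a5 k).norm_le
  obtain ⟨C3, c3, b3⟩ := (a6 k).norm_le
  refine ⟨4 * (C1 + C2 + C3), by positivity, fun i z hz u => ?_⟩
  have hz' := ia_mem hz (by norm_num)
  have m : ∀ {C : ℝ}, C ≤ C1 + C2 + C3 → C * ((x i)⁻¹ ^ (3 * N) * 1 ^ 0) ≤
      (C1 + C2 + C3) / (x i ^ 3) ^ N := fun hC => by
    rw [pow_zero, mul_one, inv_pow, pow_mul, div_eq_mul_inv]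
    exact mul_le_mul_of_nonneg_right hC (by have := hx1 i; positivity)
  have key := ia_quad ((b1 i z hz').trans (m (by linarith))) ((b2 i z hz').trans (m (by linarith)))
    ((b3 i z hz').trans (m (by linarith))) u
  rw [hsq k _ e1 z hz', hsq k _ e2 z hz'] at key
  rw [(ok k).met i hz, g.cf_expand, Γ.orth k z (Γ.B10_target k hz'), lb_coord _ u]
  refine le_of_eq_of_le (congrArg abs ?_) (key.trans_eq (by ring))
  simp only [LData.ε, dd, smul_eq_mul]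
  ring

variable {Γ} {x : ι → ℝ} {N : ℕ} {D : Fin Γ.n → LData ι}

theorem IOK.rep_iF (h : Γ.IOK x N D) (k : Fin Γ.n) (i : ι) {z : P2} (hz : z ∈ B10) :
    (Γ.c k).rep (Γ.iF x D i) =ᶠ[𝓝 z] fun y => (x i)⁻¹ ^ 3 • Γ.G0 k + (D k).f i y := by
  filter_upwards [Metric.isOpen_ball.mem_nhds hz] with y hy
  have h1 := Γ.B10_target k hy
  rw [Chart.rep, iF, Γ.sum_ext _ ((Γ.c k).inv_mem h1), (Γ.c k).to_inv h1,
    Γ.flatG k y (Metric.ball_subset_closedBall hy), LData.f, LData.ε, h.hx, h.hO, h.hL, smul_add]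
  abel

theorem IOK.fderiv_iF (h : Γ.IOK x N D) (k : Fin Γ.n) (i : ι) {z : P2} (hz : z ∈ B10) :
    fderiv ℝ ((Γ.c k).rep (Γ.iF x D i)) z = fderiv ℝ ((D k).f i) z := by
  rw [(h.rep_iF k i hz).fderiv_eq, fderiv_const_add]

theorem IOK.d2_iF (h : Γ.IOK x N D) (k : Fin Γ.n) (i : ι) {z : P2} (hz : z ∈ B10) (v w : P2) :
    d2 ((Γ.c k).rep (Γ.iF x D i)) z v w = d2 ((D k).f i) z v w := by
  have : fderiv ℝ ((Γ.c k).rep (Γ.iF x D i)) =ᶠ[𝓝 z] fderiv ℝ ((D k).f i) :=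
    mem_of_superset (Metric.isOpen_ball.mem_nhds hz) fun y hy => h.fderiv_iF k i hy
  rw [d2, d2, this.fderiv_eq]

theorem iB_in {k : Fin Γ.n} (i : ι) {p : M} (hp : p ∈ (Γ.c k).source) (hz : (Γ.c k).to p ∈ B10) :
    Γ.iB D i p = (D k).Bf i ((Γ.c k).to p) := by
  have := Γ.flatB k _ (Metric.ball_subset_closedBall hz)
  rw [(Γ.c k).inv_to hp] at this
  rw [iB, Γ.sum_ext _ hp, this]
  abel

variable [T2Space M]

theorem IOK.tameF (h : Γ.IOK x N D) : TameM (fun _ => 1) x 0 (Γ.iF x D) := by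
  refine TameM.add (((TameM.fixed h.x1 Γ.smG).smul_index (c := fun i => (x i)⁻¹ ^ 3)
    (t := fun _ => 1) fun i => ?_).weaken fun _ => (mul_one _).le)
    (TameM.sum h.x1 (fun _ => zero_le_one) _ fun k _ => TameM.ext _ (isCompact_closedBall 0 10)
      (Γ.ball k) (fun i z hz => LData.W_zero i ?_) (fun _ => zero_le_one) ?_)
  · have := h.x1 i
    rw [abs_of_nonneg (by positivity)]
    exact pow_le_one₀ (by positivity) (inv_le_one_of_one_le₀ this)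
  · rw [mem_closedBall_zero_iff, not_le] at hz
    linarith
  · exact h.hx k ▸ (h.ok k).tameW.mono_set fun _ => subset_univ _

theorem IOK.tameB (h : Γ.IOK x N D) : TameM (fun _ => 1) x 0 (Γ.iB D) := by
  refine TameM.add (TameM.fixed h.x1 Γ.smB)
    (TameM.sum h.x1 (fun _ => zero_le_one) _ fun k _ => TameM.ext _ (isCompact_closedBall 0 10)
      (Γ.ball k) (fun i z hz => ?_) (fun _ => zero_le_one) ?_)
  · rw [mem_closedBall_zero_iff, not_le] at hz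
    rw [LData.Bf_out i (by linarith), h.hO, sub_self]
  · exact Tame.sub (h.hx k ▸ (h.ok k).tameB.mono_set fun _ => subset_univ _)
      (Tame.const_one h.x1 _)

theorem IOK.dM_in (h : Γ.IOK x N D) {k : Fin Γ.n} (i : ι) {p : M} (hp : p ∈ (Γ.c k).source)
    (hz : (Γ.c k).to p ∈ B10) (u : E2) :
    dM (Γ.iF x D i) p u = fderiv ℝ ((D k).f i) ((Γ.c k).to p) ((Γ.c k).push p u) := by
  rw [(Γ.c k).dM_eq (h.tameF.smooth i) hp, h.fderiv_iF k i hz]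

theorem dM_out (i : ι) {p : M} (hp : p ∈ Γ.Out (19 / 2)) :
    dM (Γ.iF x D i) p = (x i)⁻¹ ^ 3 • dM Γ.G p := by
  rw [← dM_const_smul Γ.smG]
  refine dM_congr ?_
  filter_upwards [Γ.sum_ext_ev (r := 9) (by norm_num) (by norm_num)
    (fun k z hz => LData.W_zero (D := D k) i hz) hp] with q hq
  rw [iF, hq, add_zero]

theorem IOK.iB_out (h : Γ.IOK x N D) (i : ι) {p : M} (hp : p ∈ Γ.Out (19 / 2)) :
    Γ.iB D i p = Γ.B p := by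
  have := (Γ.sum_ext_ev (r := 9) (w := fun k z => (D k).Bf i z - Γ.O k (1, 0)) (by norm_num)
    (by norm_num) (fun k z hz => by rw [LData.Bf_out i hz, h.hO, sub_self]) hp).eq_of_nhds
  rw [iB, this, add_zero]

end Geo

end Vale.Agent.Iso4
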