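import Vale.Agent.Iso4.Geo
import Vale.Agent.Iso4.LocA
import Vale.Agent.Iso4.LocB
import Vale.Agent.Iso4.InitA

/-! The initial map. -/

open scoped ContDiff Topology Manifold
open Set Filter

noncomputable section
namespace Vale.Agent.Iso4

variable {M : Type*} [TopologicalSpace M] [ChartedSpace E2 M] [T2Space M] [CompactSpace M]
  [IsManifold (𝓡 2) ∞ M]

namespace Geo
variable {g : Met M} {Γ : Geo g} {ι : Type*} {𝓕 : Filter ι} {x : ι → ℝ} {N : ℕ}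
  {D : Fin Γ.n → LData ι}

omit [T2Space M] [CompactSpace M] [IsManifold (𝓡 2) ∞ M] in
theorem ζ_mem (p : M) : Γ.ζ p ∈ Icc (0 : ℝ) 1 :=
  ⟨sub_nonneg.2 (Γ.bm_mem _ _ p).2, sub_le_self _ (Γ.bm_mem _ _ p).1⟩

omit [T2Space M] [CompactSpace M] [IsManifold (𝓡 2) ∞ M] in
theorem ζ_one {p : M} (hp : p ∈ Γ.Out 5) : Γ.ζ p = 1 := by rw [ζ, Γ.bm_zero hp, sub_zero]

omit [T2Space M] [CompactSpace M] [IsManifold (𝓡 2) ∞ M] in
theorem ζ_zero {k : Fin Γ.n} {p : M} (hp : p ∈ (Γ.c k).source) (h : ‖(Γ.c k).to p‖ ≤ 9 / 2) :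
    Γ.ζ p = 0 := by
  rw [ζ, Γ.bm_of_mem hp, bmp_one (by norm_num) (by norm_num) h, sub_self]

theorem IOK.imm (h : Γ.IOK x N D) (hx : Tendsto x 𝓕 atTop) : ∃ κ : ℝ, 0 < κ ∧ ∀ᶠ i in 𝓕, ∀ p u,
    (κ / x i ^ 3) ^ 2 * g.q p u ≤ ‖dM (Γ.iF x D i) p u‖ ^ 2 := by
  have x0 : ∀ i, 0 < x i := fun i => zero_lt_one.trans_le (h.x1 i)
  refine Γ.glue_low (19 / 2) (fun κ κ' i p h0 h1 H u => le_trans ?_ (H u)) ?_ fun k => ?_
  · have := x0 i
    have := g.q_nonneg p u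
    gcongr
  · obtain ⟨c, hc, hb⟩ := g.imm_low Γ.smG fun p u hu => Γ.tr p u 0 (by rw [hu, zero_smul])
    refine ⟨√c, Real.sqrt_pos.2 hc, Eventually.of_forall fun i p hp u => ?_⟩
    have := x0 i
    rw [dM_out i hp, ContinuousLinearMap.smul_apply, norm_smul, mul_pow, div_pow, Real.sq_sqrt hc.le,
      Real.norm_eq_abs, sq_abs]
    exact le_of_eq_of_le (by field_simp) (mul_le_mul_of_nonneg_left (hb p u) (sq_nonneg _))
  · obtain ⟨κ, hκ, hb⟩ := (h.ok k).imm (𝓕 := 𝓕) (by rwa [h.hx])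
    obtain ⟨c, C, -, hC, hq⟩ := g.compare (Γ.c k) (isCompact_closedBall 0 10) (Γ.ball k)
    refine ⟨κ / √C, div_pos hκ (Real.sqrt_pos.2 hC), hb.mono fun i hi p hp hz u => ?_⟩
    have hz' := ia_mem hz (by norm_num)
    have := x0 i
    have h1 := hi _ hz' ((Γ.c k).push p u)
    rw [h.hx] at h1
    rw [h.dM_in i hp hz', g.q_eq _ hp]
    refine (mul_le_mul_of_nonneg_left (hq _ (Metric.ball_subset_closedBall hz') _).2
      (sq_nonneg _)).trans (le_of_eq_of_le ?_ (pow_le_pow_left₀ (by positivity) h1 2))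
    rw [div_pow, div_pow, Real.sq_sqrt hC.le]
    field_simp

omit [T2Space M] [CompactSpace M] [IsManifold (𝓡 2) ∞ M] in
theorem ia_small (hx : Tendsto x 𝓕 atTop) (C : ℝ) {δ : ℝ} (hδ : 0 < δ) : ∀ᶠ i in 𝓕, C / x i ≤ δ :=
  (hx.const_div_atTop C).eventually_le_const hδ

omit [T2Space M] [CompactSpace M] [IsManifold (𝓡 2) ∞ M] in
theorem ia_div {κ t : ℝ} (hκ : 0 < κ) (ht : 1 ≤ t) : κ / t ^ 3 ≤ κ :=
  div_le_self hκ.le (one_le_pow₀ ht)

omit [CompactSpace M] [IsManifold (𝓡 2) ∞ M] in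
theorem IOK.nd_in (h : Γ.IOK x N D) (hx : Tendsto x 𝓕 atTop) (A : Atl M (Γ.Out (1 / 2)))
    (k : Fin Γ.n) : ∃ κ : ℝ, 0 < κ ∧ ∀ᶠ i in 𝓕, ∀ p ∈ (Γ.c k).source, ‖(Γ.c k).to p‖ < 5 →
      p ∈ Γ.Out (1 / 2) → ∀ t ∈ Icc (0 : ℝ) 1, Tr κ (A.D (Γ.iF x D i) p +
        t • (Γ.iB D i p - A.D (Γ.iF x D i) p)) (dM (Γ.iF x D i) p) := by
  obtain ⟨κ, C, hκ, hb⟩ := (h.ok k).nd (𝓕 := 𝓕) (by rwa [h.hx])
  obtain ⟨c, C', hc, hC', hD⟩ := A.D_rep (X := V) (Γ.c k) (isCompact_closedBall 0 5)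
    (Γ.sub_target k (by norm_num))
  have hm : 0 < κ * min (κ * c ^ 2) 1 := by positivity
  refine ⟨_, half_pos hm, ?_⟩
  filter_upwards [hb, ia_small hx (A.n * (|C| * C' ^ 2)) (half_pos hm)] with i hi hs p hp hz hS t ht
  have hz' := ia_mem hz (by norm_num)
  obtain ⟨n1, h1, h2⟩ := hi _ hz
  obtain ⟨β, v, u, hβ, hv, -, hj, hF⟩ := hD _ (mem_closedBall_zero_iff.2 hz.le)
  rw [(Γ.c k).inv_to hp] at hj hF
  obtain ⟨j0, hj1, hj2⟩ := hj hS
  choose a b w ha hb hab he using fun j => h2 (v j)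
  have x0 := zero_lt_one.trans_le (h.x1 i)
  have t0 : 0 ≤ 1 - t := sub_nonneg.2 ht.2
  have sa : 0 ≤ ∑ j, β j * a j := Finset.sum_nonneg fun j _ => mul_nonneg (hβ j).1 (ha j)
  have sb : 0 ≤ ∑ j, β j * b j := Finset.sum_nonneg fun j _ => mul_nonneg (hβ j).1 (hb j)
  have sab : κ * c ^ 2 ≤ ∑ j, β j * a j + ∑ j, β j * b j := by
    rw [← Finset.sum_add_distrib]
    refine le_trans ?_ (Finset.single_le_sum (f := fun j => β j * a j + β j * b j) (fun j _ =>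
      add_nonneg (mul_nonneg (hβ j).1 (ha j)) (mul_nonneg (hβ j).1 (hb j))) (Finset.mem_univ j0))
    simp only [hj1, one_mul]
    exact le_trans (by gcongr) (hab j0)
  rw [(Γ.c k).tr_iff (h.tameF.smooth i) hp, hF _ (h.tameF.smooth i), iB_in i hp hz',
    h.fderiv_iF k i hz']
  simp only [h.d2_iF k i hz']
  refine ((h1 ((1 - t) * ∑ j, β j * a j) ((1 - t) * ∑ j, β j * b j + t) (mul_nonneg t0 sa)
    (add_nonneg (mul_nonneg t0 sb) ht.1)).ia_near ((1 - t) • (∑ j, β j • w j + u))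
    (δ := A.n * (|C| * C' ^ 2) / x i) ?_).mono ?_
  · refine le_of_eq_of_le (congrArg norm (show _ = (1 - t) • ∑ j, β j •
      (d2 ((D k).f i) ((Γ.c k).to p) (v j) (v j) - (a j • n1 + b j • (D k).Bf i ((Γ.c k).to p)) -
        fderiv ℝ ((D k).f i) ((Γ.c k).to p) (w j)) from ?_)) ?_
    · simp only [smul_sub, smul_add, Finset.sum_sub_distrib, Finset.sum_add_distrib, smul_smul,
        ← Finset.sum_smul, map_add, map_smul, map_sum]
      module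
    · rw [norm_smul, Real.norm_of_nonneg t0]
      refine (mul_le_of_le_one_left (norm_nonneg _) (by linarith [ht.1])).trans
        ((norm_sum_le_of_le _ (n := fun _ => |C| * C' ^ 2 / x i) fun j _ => ?_).trans_eq ?_)
      · rw [norm_smul, Real.norm_of_nonneg (hβ j).1]
        refine (mul_le_of_le_one_left (norm_nonneg _) (hβ j).2).trans ((he j).trans ?_)
        rw [h.hx, div_mul_eq_mul_div]
        exact div_le_div_of_nonneg_right (mul_le_mul (le_abs_self _)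
          (pow_le_pow_left₀ (norm_nonneg _) (hv j) 2) (sq_nonneg _) (abs_nonneg _)) x0.le
      · simp [mul_div_assoc]
  · have h3 : min (κ * c ^ 2) 1 ≤
        (1 - t) * ∑ j, β j * a j + ((1 - t) * ∑ j, β j * b j + t) := by
      have e1 := mul_le_mul_of_nonneg_left ((min_le_left _ 1).trans sab) t0
      have e2 := mul_le_mul_of_nonneg_left (min_le_right (κ * c ^ 2) 1) ht.1
      linarith
    have := mul_le_mul_of_nonneg_left h3 hκ.le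
    linarith

theorem IOK.nd (h : Γ.IOK x N D) (hx : Tendsto x 𝓕 atTop) (A : Atl M (Γ.Out (1 / 2))) :
    ∃ κ : ℝ, 0 < κ ∧ ∀ᶠ i in 𝓕, ∀ p ∈ Γ.Out (1 / 2), Tr (κ / x i ^ 3) (A.D (Γ.iF x D i) p +
      Γ.ζ p • (Γ.iB D i p - A.D (Γ.iF x D i) p)) (dM (Γ.iF x D i) p) := by
  have x0 : ∀ i, 0 < x i := fun i => zero_lt_one.trans_le (h.x1 i)
  refine Γ.glue_low (19 / 2) (fun κ κ' i p h0 h1 H hp => (H hp).mono ?_) ?_ fun k => ?_
  · have := x0 i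
    gcongr
  · obtain ⟨c, hc, hb⟩ := tr_low Γ.smG Γ.smB Γ.tr Γ.B0
    refine ⟨c, hc, Eventually.of_forall fun i p hp _ u => ?_⟩
    rw [ζ_one (Γ.Out_mono (by norm_num) hp), one_smul, add_sub_cancel, h.iB_out i hp, dM_out i hp,
      ContinuousLinearMap.smul_apply, ← map_smul]
    exact (ia_div hc (h.x1 i)).trans (hb p _)
  · obtain ⟨κ1, k1, b1⟩ := h.nd_in hx A k
    obtain ⟨κ2, k2, b2⟩ := (h.ok k).tr (𝓕 := 𝓕) (by rwa [h.hx])
    refine ⟨min κ1 κ2, lt_min k1 k2, ?_⟩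
    filter_upwards [b1, b2] with i e1 e2 p hp hz hS
    have hz' := ia_mem hz (by norm_num)
    rcases lt_or_ge ‖(Γ.c k).to p‖ 5 with h5 | h5
    · exact (e1 p hp h5 hS _ (ζ_mem p)).mono
        ((ia_div (lt_min k1 k2) (h.x1 i)).trans (min_le_left _ _))
    · rw [ζ_one ((Γ.mem_Out hp).2 h5), one_smul, add_sub_cancel,
        (Γ.c k).tr_iff (h.tameF.smooth i) hp, iB_in i hp hz', h.fderiv_iF k i hz']
      refine (e2 _ hz').mono ?_
      rw [h.hx]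
      exact div_le_div_of_nonneg_right (min_le_right _ _) (pow_pos (x0 i) 3).le

omit [CompactSpace M] [IsManifold (𝓡 2) ∞ M] in
theorem IOK.err (h : Γ.IOK x N D) : ∃ C : ℝ, ∀ᶠ i in 𝓕, ∀ p u,
    |g.q p u - ‖dM (Γ.iF x D i) p u‖ ^ 2 - Γ.ϑ0 p ^ (2 * N) * Γ.Hq (x i) (Γ.iF x D i) p u -
      Γ.ρ0 p ^ (2 * N) * ((x i ^ 2)⁻¹ * dM Γ.φ p u ^ 2)| ≤ C / (x i ^ 3) ^ N * g.q p u := by
  have x0 : ∀ i, 0 < x i := fun i => zero_lt_one.trans_le (h.x1 i)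
  refine Γ.glue_up 5 (fun C C' i p h1 H u => (H u).trans ?_)
    ⟨0, Eventually.of_forall fun i p hp u => ?_⟩ fun k => ?_
  · have := x0 i
    have := g.q_nonneg p u
    gcongr
  · rw [Hq, ζ_one hp, ϑ0, ρ0, Γ.bm_zero (Γ.Out_mono (by norm_num) hp),
      Γ.bm_zero (Γ.Out_mono (by norm_num) hp)]
    simp
  · obtain ⟨C, hC, hb⟩ := h.met k
    obtain ⟨c, _, hc, -, hq⟩ := g.compare (Γ.c k) (isCompact_closedBall 0 10) (Γ.ball k)
    refine ⟨C / c, Eventually.of_forall fun i p hp hz u => ?_⟩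
    have hz' := ia_mem hz (by norm_num)
    have h1 := hb i _ hz ((Γ.c k).push p u)
    have h2 := (hq _ (Metric.ball_subset_closedBall hz') ((Γ.c k).push p u)).1
    rw [← g.q_eq _ hp] at h1 h2
    rw [← h.dM_in i hp hz', ← (Γ.c k).dM_eq Γ.smφ hp, ← Γ.bm_of_mem hp, ← Γ.bm_of_mem hp] at h1
    have := x0 i
    have h3 : C / (x i ^ 3) ^ N * ‖(Γ.c k).push p u‖ ^ 2 ≤ C / c / (x i ^ 3) ^ N * g.q p u :=
      le_of_eq_of_le (by field_simp) (mul_le_mul_of_nonneg_left h2 (by positivity))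
    replace h1 := h1.trans h3
    rcases le_or_gt ‖(Γ.c k).to p‖ (9 / 2) with h4 | h4
    · rw [Hq, ζ_zero hp h4, ϑ0, ρ0, ← abs_neg]
      exact le_of_eq_of_le (congrArg abs (by ring)) h1
    · have e1 : Γ.bm 3 4 p = 0 := Γ.bm_zero ((Γ.mem_Out hp).2 (by linarith))
      have e2 : Γ.bm 1 2 p = 0 := Γ.bm_zero ((Γ.mem_Out hp).2 (by linarith))
      rw [e1, e2] at h1
      rw [Hq, ϑ0, ρ0, e1, e2, ← abs_neg]
      refine le_trans (le_of_eq_of_le ?_ (mul_le_of_le_one_left (abs_nonneg _)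
        (sub_le_self 1 (ζ_mem (Γ := Γ) p).1))) h1
      rw [← abs_of_nonneg (sub_nonneg.2 (ζ_mem (Γ := Γ) p).2), ← abs_mul,
        abs_of_nonneg (sub_nonneg.2 (ζ_mem (Γ := Γ) p).2)]
      congr 1
      simp only [sub_zero, one_pow]
      ring

theorem IOK.close (h : Γ.IOK x N D) : ∃ C : ℝ, ∀ᶠ i in 𝓕, ∀ p, ∃ h ∈ Icc (1 / 4 : ℝ) 1, ∀ u,
    |Γ.Hq (x i) (Γ.iF x D i) p u - h * g.q p u| ≤ C / x i * g.q p u := by
  have x0 : ∀ i, 0 < x i := fun i => zero_lt_one.trans_le (h.x1 i)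
  obtain ⟨Cφ, cφ, bφ⟩ := g.dM_up Γ.smφ
  have hφ : ∀ i p u, 0 ≤ (x i ^ 2)⁻¹ * dM Γ.φ p u ^ 2 ∧
      (x i ^ 2)⁻¹ * dM Γ.φ p u ^ 2 ≤ Cφ / x i * g.q p u := fun i p u => by
    have := x0 i
    have h1 := bφ p u
    rw [Real.norm_eq_abs, sq_abs] at h1
    exact ⟨by positivity, (mul_le_mul (inv_anti₀ this (le_self_pow₀ (h.x1 i) two_ne_zero)) h1
      (sq_nonneg _) (by positivity)).trans_eq (by ring)⟩
  refine Γ.glue_up (19 / 2) (fun C C' i p h1 H => ?_) ?_ fun k => ?_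
  · refine H.imp fun t ht => ⟨ht.1, fun u => (ht.2 u).trans ?_⟩
    have := x0 i
    have := g.q_nonneg p u
    gcongr
  · obtain ⟨C, c, b⟩ := g.dM_up Γ.smG
    refine ⟨C + Cφ, Eventually.of_forall fun i p hp => ⟨1, ⟨by norm_num, le_rfl⟩, fun u => ?_⟩⟩
    have := x0 i
    have h1 : ‖dM (Γ.iF x D i) p u‖ ^ 2 ≤ C / x i * g.q p u := by
      rw [dM_out i hp, ContinuousLinearMap.smul_apply, norm_smul, mul_pow, Real.norm_eq_abs, sq_abs,
        ← pow_mul]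
      exact (mul_le_mul (pow_le_of_le_one (by positivity) (inv_le_one_of_one_le₀ (h.x1 i))
        (by norm_num)) (b p u) (sq_nonneg _) (by positivity)).trans_eq (by ring)
    obtain ⟨h2, h3⟩ := hφ i p u
    rw [Hq, ζ_one (Γ.Out_mono (by norm_num) hp), add_div, add_mul]
    exact abs_le.2 ⟨by linarith, by linarith [sq_nonneg ‖dM (Γ.iF x D i) p u‖]⟩
  · obtain ⟨C, hb⟩ := (h.ok k).close
    obtain ⟨c, _, hc, -, hq⟩ := g.compare (Γ.c k) (isCompact_closedBall 0 10) (Γ.ball k)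
    refine ⟨|C| / c + Cφ, Eventually.of_forall fun i p hp hz => ?_⟩
    have hz' := ia_mem hz (by norm_num)
    have := x0 i
    rcases le_or_gt ‖(Γ.c k).to p‖ (9 / 2) with h4 | h4
    · refine ⟨1 / 4, ⟨le_rfl, by norm_num⟩, fun u => ?_⟩
      have := g.q_nonneg p u
      rw [Hq, ζ_zero hp h4]
      exact le_of_eq_of_le (abs_eq_zero.2 (by ring)) (by positivity)
    obtain ⟨z0, z1⟩ := ζ_mem (Γ := Γ) p
    obtain ⟨b0, b1⟩ := bmp_mem 5 6 ((Γ.c k).to p)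
    have b2 := pow_le_one₀ (n := 2) b0 b1
    refine ⟨(1 - Γ.ζ p) / 4 + Γ.ζ p * (1 - 3 / 4 * bmp 5 6 ((Γ.c k).to p) ^ 2),
      ⟨by nlinarith, by nlinarith [mul_nonneg z0 (sq_nonneg (bmp 5 6 ((Γ.c k).to p)))]⟩, fun u => ?_⟩
    have h1 := hb i _ hz' ((Γ.c k).push p u)
    have h2 := (hq _ (Metric.ball_subset_closedBall hz') ((Γ.c k).push p u)).1
    have h3 := g.cf_expand (Γ.c k) ((Γ.c k).push p u) ((Γ.c k).to p)
    rw [Γ.orth k _ (Γ.B10_target k hz')] at h3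
    rw [← g.q_eq _ hp] at h2 h3
    rw [← h.dM_in i hp hz', h.r1 k _ hz' (by linarith), h.r2 k _ hz' (by linarith), h.hx] at h1
    have h5 : C / x i * ‖(Γ.c k).push p u‖ ^ 2 ≤ |C| / c / x i * g.q p u :=
      (mul_le_mul_of_nonneg_right (div_le_div_of_nonneg_right (le_abs_self C) this.le)
        (sq_nonneg _)).trans
        (le_of_eq_of_le (by field_simp) (mul_le_mul_of_nonneg_left h2 (by positivity)))
    have h6 : |‖dM (Γ.iF x D i) p u‖ ^ 2 - 3 / 4 * bmp 5 6 ((Γ.c k).to p) ^ 2 * g.q p u| ≤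
        |C| / c / x i * g.q p u :=
      le_of_eq_of_le (congrArg abs (by rw [h3]; ring)) (h1.trans h5)
    obtain ⟨h7, h8⟩ := hφ i p u
    have h9 : |-(‖dM (Γ.iF x D i) p u‖ ^ 2 - 3 / 4 * bmp 5 6 ((Γ.c k).to p) ^ 2 * g.q p u) -
        (x i ^ 2)⁻¹ * dM Γ.φ p u ^ 2| ≤ (|C| / c + Cφ) / x i * g.q p u := by
      rw [add_div, add_mul]
      exact abs_le.2 ⟨by linarith [(abs_le.1 h6).2], by linarith [(abs_le.1 h6).1]⟩
    refine le_trans (le_of_eq_of_le ?_ (mul_le_of_le_one_left (abs_nonneg _) z1)) h9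
    rw [← abs_of_nonneg z0, ← abs_mul, abs_of_nonneg z0, Hq]
    congr 1
    ring

omit [T2Space M] [CompactSpace M] [IsManifold (𝓡 2) ∞ M] in
theorem IOK.ndc (h : Γ.IOK x N D) (hx : Tendsto x 𝓕 atTop) : ∃ κ : ℝ, 0 < κ ∧ ∀ᶠ i in 𝓕, ∀ k,
    ∀ z : P2, ‖z‖ ≤ 1 → Tr (κ / x i ^ 3) (d2 ((Γ.c k).rep (Γ.iF x D i)) z (1, 0) (1, 0))
      (fderiv ℝ ((Γ.c k).rep (Γ.iF x D i)) z) := by
  choose κ C hκ hb using fun k => (h.ok k).nd (𝓕 := 𝓕) (by rwa [h.hx])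
  obtain ⟨δ, d0, d1⟩ := (eventually_mem_nhdsWithin.and (eventually_all.2 fun k =>
    eventually_mem_set.2 (Ioc_mem_nhdsGT (half_pos (mul_pos (hκ k) (hκ k)))))).exists
  refine ⟨δ, d0, ?_⟩
  filter_upwards [eventually_all.2 hb, eventually_all.2 fun k => ia_small hx (C k) d0]
    with i hi hs k z hz
  have hz' : z ∈ B10 := ia_mem (r := 5) (by linarith) (by norm_num)
  obtain ⟨n1, h1, h2⟩ := hi k z (by linarith)
  obtain ⟨a, b, u, ha, hb, hab, he⟩ := h2 (1, 0)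
  have e : ‖((1, 0) : P2)‖ = 1 := by simp
  rw [e, one_pow, mul_one] at hab he
  rw [h.hx] at he
  rw [h.fderiv_iF k i hz', h.d2_iF k i hz']
  refine ((h1 a b ha hb).ia_near u he).mono ((ia_div d0 (h.x1 i)).trans ?_)
  have := mul_le_mul_of_nonneg_left hab (hκ k).le
  linarith [(d1 k).2, hs k]

end Geo

theorem Geo.init {g : Met M} (Γ : Geo g) (A : Atl M (Γ.Out (1 / 2))) {ι : Type*} (𝓕 : Filter ι)
    (x : ι → ℝ) (hx1 : ∀ i, 1 ≤ x i) (hx : Tendsto x 𝓕 atTop) (N : ℕ) (hN : 1 ≤ N) :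
    ∃ F Ξ : ι → M → V, Γ.InitOut A 𝓕 x (fun i => x i ^ 3) N F Ξ := by
  obtain ⟨D, h⟩ := Γ.exists_iok hx1 N
  refine ⟨Γ.iF x D, fun i p => Γ.ζ p • (Γ.iB D i p - A.D (Γ.iF x D i) p),
    h.tameF.toPM (fun _ => le_rfl) (by omega) (by omega), ?_, h.imm hx, h.nd hx A,
    fun i p hp => ?_, h.err, h.close, h.ndc hx⟩
  · exact (TameM.fsmul ((Sm.const 1).sub (Γ.sm_bm (by norm_num)))
      ((h.tameB.mono_k (by omega)).sub (A.tame_D h.tameF))).toPM (fun _ => le_rfl) (by omega)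
      (by omega)
  · rw [Geo.ζ, Γ.bm_one (by norm_num) (by norm_num) hp, sub_self, zero_smul]

end Vale.Agent.Iso4
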