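import Vale.Agent.Iso4.Stage

/-! Blocks of stages: raising the level. -/

open scoped ContDiff Topology Manifold
open Set Filter

noncomputable section
namespace Vale.Agent.Iso4

variable {M : Type*} [TopologicalSpace M] [ChartedSpace E2 M] {A : Atl M univ} {g : Met M}

theorem itA_mono {m : ℕ} {c c' : ℝ} {F : M → V} (h : Bd A m c F) (hc : c ≤ c') : Bd A m c' F :=
  fun k z hz => (h k z hz).trans hc

theorem itA_add {m : ℕ} {c c' : ℝ} {F G : M → V} (hF : Sm F) (hG : Sm G) (h : Bd A m c F)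
    (h' : Bd A m c' G) : Bd A m (c + c') fun p => F p + G p := by
  intro k z hz
  have h1 := (A.e k).contDiffAt_rep hF (A.sub1 k hz)
  have h2 := (A.e k).contDiffAt_rep hG (A.sub1 k hz)
  rw [show (A.e k).rep (fun p => F p + G p) = (A.e k).rep F + (A.e k).rep G from rfl,
    iteratedFDeriv_add_apply (h1.of_le (tame_le m)) (h2.of_le (tame_le m))]
  exact (norm_add_le _ _).trans (add_le_add (h k z hz) (h' k z hz))

theorem itA_zero (m : ℕ) (F : M → V) : Bd A m 0 fun p => F p - F p := by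
  intro k z _
  have : (A.e k).rep (fun p => F p - F p) = fun _ => 0 := by
    funext y; simp [Chart.rep]
  rw [this]
  simp

theorem itA_exists (a : ℕ) {F : M → V} (hF : Sm F) : ∃ c : ℝ, 0 ≤ c ∧ ∀ m ≤ a, Bd A m c F := by
  have h : ∀ (m : ℕ) (k : Fin A.n), ∃ c : ℝ, ∀ z ∈ A.K1 k,
      ‖iteratedFDeriv ℝ m ((A.e k).rep F) z‖ ≤ c := fun m k =>
    (A.cK1 k).exists_bound_of_continuousOn fun z hz =>
      (((A.e k).contDiffAt_rep hF (A.sub1 k hz)).continuousAt_iteratedFDeriv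
        (tame_le m)).continuousWithinAt
  choose c hc using h
  refine ⟨∑ m ∈ Finset.range (a + 1), ∑ k, |c m k|, by positivity, fun m hm k z hz => ?_⟩
  refine (hc m k z hz).trans ((le_abs_self _).trans ?_)
  refine le_trans ?_ (Finset.single_le_sum (f := fun m => ∑ k, |c m k|)
    (fun _ _ => by positivity) (Finset.mem_range.2 (Nat.lt_succ_of_le hm)))
  exact Finset.single_le_sum (f := fun k => |c m k|) (fun _ _ => abs_nonneg _) (Finset.mem_univ k)

theorem itA_const (C : ℕ → ℝ) (a : ℕ) : ∃ c : ℝ, 0 ≤ c ∧ ∀ m ≤ a, C m ≤ c :=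
  ⟨∑ m ∈ Finset.range (a + 1), |C m|, by positivity, fun m hm => (le_abs_self _).trans
    (Finset.single_le_sum (f := fun m => |C m|) (fun _ _ => abs_nonneg _)
      (Finset.mem_range.2 (Nat.lt_succ_of_le hm)))⟩

theorem itA_pow {K : ℕ} (hK : 2 ≤ K) {L : ℝ} (hL : 2 ≤ L) : 2 * L ≤ L ^ K :=
  calc 2 * L ≤ L ^ 2 := by nlinarith
    _ ≤ L ^ K := pow_le_pow_right₀ (by linarith) hK

theorem itA_step {K b m : ℕ} (hK : 2 ≤ K) {L B c C : ℝ} (hL : 2 ≤ L) (hB : 0 ≤ B) (hc : 0 ≤ c)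
    (hC : C ≤ c) {F W : M → V} (hF : Sm F) (hW : Sm W) (h : Bd A m (B * L ^ (m + 1)) F)
    (h' : Bd A m (C * (L ^ K) ^ (m + 1) / L ^ (b + m + 1)) W) :
    Bd A m ((B / 2 + c / L) * (L ^ K) ^ (m + 1)) fun p => F p + W p := by
  refine itA_mono (itA_add hF hW h h') ?_
  have h0 : 0 < L := by linarith
  have h1 : 2 * L ^ (m + 1) ≤ (L ^ K) ^ (m + 1) :=
    calc 2 * L ^ (m + 1) ≤ 2 ^ (m + 1) * L ^ (m + 1) := by
          gcongr
          exact le_self_pow₀ one_le_two (Nat.succ_ne_zero m)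
      _ = (2 * L) ^ (m + 1) := (mul_pow _ _ _).symm
      _ ≤ _ := pow_le_pow_left₀ (by positivity) (itA_pow hK hL) _
  have h2 : L ≤ L ^ (b + m + 1) := le_self_pow₀ (by linarith) (Nat.succ_ne_zero _)
  have h3 : C * (L ^ K) ^ (m + 1) / L ^ (b + m + 1) ≤ c / L * (L ^ K) ^ (m + 1) := by
    rw [div_mul_eq_mul_div]
    gcongr
  nlinarith [mul_le_mul_of_nonneg_left h1 hB]

theorem itA_small {K b m : ℕ} {L c C : ℝ} (hL : 2 ≤ L) (hc : 0 ≤ c) (hC : C ≤ c)
    (hm : K * (m + 1) ≤ b + m) : C * (L ^ K) ^ (m + 1) / L ^ (b + m + 1) ≤ c / L := by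
  have h0 : 0 < L := by linarith
  have h1 : (L ^ K) ^ (m + 1) ≤ L ^ (b + m) := by
    rw [← pow_mul]; exact pow_le_pow_right₀ (by linarith) hm
  calc C * (L ^ K) ^ (m + 1) / L ^ (b + m + 1) ≤ c * L ^ (b + m) / L ^ (b + m + 1) := by gcongr
    _ = c / L := by rw [pow_succ]; field_simp

theorem itA_lim (B c : ℝ) : ∀ᶠ j : ℕ in atTop, (B + 2 * c * j) / 2 ^ j ≤ 1 := by
  have h1 := tendsto_pow_const_div_const_pow_of_one_lt 0 (one_lt_two (α := ℝ))
  have h2 := tendsto_pow_const_div_const_pow_of_one_lt 1 (one_lt_two (α := ℝ))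
  have h := (h1.const_mul B).add (h2.const_mul (2 * c))
  simp only [mul_zero, add_zero] at h
  filter_upwards [h.eventually_le_const one_pos] with j hj
  refine le_trans (le_of_eq ?_) hj
  simp only [pow_zero, pow_one]
  ring

variable [T2Space M]

theorem itA_block {K b0 : ℕ} (hK : 2 ≤ K) (hs : StageP A g K b0) {b : ℕ} (hb : b0 ≤ b) {ε : ℝ}
    (hε : 0 < ε) : ∃ (a : ℕ) (Λ : ℝ), ∀ (a' : ℕ) (Λ' L : ℝ) (F : M → V), Λ ≤ L →
      Inv A g a b L F → ∃ L' F', Λ' ≤ L' ∧ Inv A g a' (b + 1) L' F' ∧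
        ∀ m, K * (m + 1) ≤ b + m → Bd A m ε fun p => F' p - F p := by
  obtain ⟨a, Λ1, C1, h1⟩ := hs b hb b le_rfl
  obtain ⟨a2, Λ2, C2, h2⟩ := hs b hb (b + 1) (Nat.le_succ b)
  obtain ⟨c1, hc1, hC1⟩ := itA_const C1 (a + b)
  refine ⟨a, max (max Λ1 2) (max (2 * c1) (4 * c1 / ε)), fun a' Λ' L F hL hF => ?_⟩
  simp only [max_le_iff] at hL
  obtain ⟨⟨hL1, hL2⟩, hL3, hL4⟩ := hL
  have hL0 : 0 < L := by linarith
  have hgood : ∀ m, K * (m + 1) ≤ b + m → m ≤ b := fun m hm => by nlinarith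
  obtain ⟨c, hc, hC⟩ := itA_const C1 (a' + a2)
  obtain ⟨B, hB, hBF⟩ := itA_exists (A := A) (a' + a2) hF.sm
  have key : ∀ j : ℕ, ∃ L' F', 2 ^ j * L ≤ L' ∧ Inv A g a b L' F' ∧
      (∀ m ≤ a' + a2, Bd A m ((B + 2 * c * j) / 2 ^ j * L' ^ (m + 1)) F') ∧
      ∀ m, K * (m + 1) ≤ b + m → Bd A m (2 * c1 / L * (1 - 1 / 2 ^ j)) fun p => F' p - F p := by
    intro j
    induction j with
    | zero =>
      refine ⟨L, F, by simp, hF, fun m hm => itA_mono (hBF m hm) ?_, fun m _ =>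
        itA_mono (itA_zero m F) (by simp)⟩
      simpa using le_mul_of_one_le_right hB (one_le_pow₀ (by linarith))
    | succ j ih =>
      obtain ⟨L', F', hL', hF', hb1, hb2⟩ := ih
      have hj : (1 : ℝ) ≤ 2 ^ j := one_le_pow₀ one_le_two
      have hLL : L ≤ L' := le_trans (le_mul_of_one_le_left hL0.le hj) hL'
      have hL2' : 2 ≤ L' := hL2.trans hLL
      have hL0' : 0 < L' := by linarith
      obtain ⟨W, hW, hWb, hE, hN⟩ := h1 L' F' (hL1.trans hLL) hF'
      refine ⟨L' ^ K, fun p => F' p + W p, ?_, ⟨hF'.sm.add hW, fun m hm => ?_, hE, hN⟩,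
        fun m hm => ?_, fun m hm => ?_⟩
      · rw [pow_succ]; linarith [itA_pow hK hL2']
      · refine itA_mono (itA_step hK hL2' zero_le_one hc1 (hC1 m (by omega)) hF'.sm hW
          (by rw [one_mul]; exact hF'.bd m hm) (hWb m)) (mul_le_of_le_one_left (by positivity) ?_)
        have : c1 / L' ≤ 1 / 2 := by rw [div_le_iff₀ hL0']; linarith
        linarith
      · refine itA_mono (itA_step hK hL2' (by positivity) hc (hC m hm) hF'.sm hW (hb1 m hm)
          (hWb m)) (mul_le_mul_of_nonneg_right ?_ (by positivity))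
        have h3 : c / L' ≤ c / 2 ^ j := by
          gcongr
          nlinarith
        refine (add_le_add le_rfl h3).trans_eq ?_
        push_cast
        rw [pow_succ]; field_simp; ring
      · have h3 := itA_add (hF'.sm.sub hF.sm) hW (hb2 m hm) (itA_mono (hWb m)
          (itA_small hL2' hc1 (hC1 m (by have := hgood m hm; omega)) hm))
        have h4 : (fun p => F' p - F p + W p) = fun p => F' p + W p - F p := by
          funext p; abel
        rw [h4] at h3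
        refine itA_mono h3 ?_
        have h5 : c1 / L' ≤ c1 / (2 ^ j * L) := by gcongr
        refine (add_le_add le_rfl h5).trans_eq ?_
        rw [pow_succ]; field_simp; ring
  obtain ⟨c2, hc2, hC2⟩ := itA_const C2 (a' + a2 + b)
  have hev : ∀ᶠ j : ℕ in atTop, max (max Λ' Λ2) (max (2 * c2) (2 * c2 / ε)) ≤ 2 ^ j :=
    (tendsto_pow_atTop_atTop_of_one_lt one_lt_two).eventually_ge_atTop _
  obtain ⟨j, hj1, hj2⟩ := ((itA_lim B c).and hev).exists
  obtain ⟨L', F', hL', hF', hb1, hb2⟩ := key j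
  have hj : (0 : ℝ) < 2 ^ j := by positivity
  have hj' : 2 ^ j ≤ L' := le_trans (le_mul_of_one_le_right hj.le (by linarith)) hL'
  have hL2' : 2 ≤ L' :=
    hL2.trans (le_trans (le_mul_of_one_le_left hL0.le (one_le_pow₀ one_le_two)) hL')
  have hL0' : 0 < L' := by linarith
  have hj3 := hj2.trans hj'
  simp only [max_le_iff] at hj3
  obtain ⟨⟨h3, h4⟩, h5, h6⟩ := hj3
  have hb3 : ∀ m ≤ a' + a2, Bd A m (L' ^ (m + 1)) F' := fun m hm =>
    itA_mono (hb1 m hm) (mul_le_of_le_one_left (by positivity) hj1)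
  obtain ⟨W, hW, hWb, hE, hN⟩ := h2 L' F' h4
    ⟨hF'.sm, fun m hm => hb3 m (by omega), hF'.err, hF'.nd⟩
  refine ⟨L' ^ K, fun p => F' p + W p, by linarith [itA_pow hK hL2'],
    ⟨hF'.sm.add hW, fun m hm => ?_, hE, hN⟩, fun m hm => ?_⟩
  · refine itA_mono (itA_step hK hL2' zero_le_one hc2 (hC2 m (by omega)) hF'.sm hW
      (by rw [one_mul]; exact hb3 m (by omega)) (hWb m)) (mul_le_of_le_one_left (by positivity) ?_)
    have : c2 / L' ≤ 1 / 2 := by rw [div_le_iff₀ hL0']; linarith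
    linarith
  · have h7 := itA_add (hF'.sm.sub hF.sm) hW (hb2 m hm) (itA_mono (hWb m)
      (itA_small hL2' hc2 (hC2 m (by have := hgood m hm; omega)) hm))
    have h8 : (fun p => F' p - F p + W p) = fun p => F' p + W p - F p := by
      funext p; abel
    rw [h8] at h7
    refine itA_mono h7 ?_
    have h9 : c2 / L' ≤ ε / 2 := by
      rw [div_le_iff₀ hε] at h6
      rw [div_le_iff₀ hL0']; linarith
    have h10 : 2 * c1 / L ≤ ε / 2 := by
      rw [div_le_iff₀ hε] at hL4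
      rw [div_le_iff₀ hL0]; linarith
    have h11 : 2 * c1 / L * (1 - 1 / 2 ^ j) ≤ 2 * c1 / L :=
      mul_le_of_le_one_right (by positivity) (by have : (0 : ℝ) ≤ 1 / 2 ^ j := by positivity
                                                 linarith)
    linarith

theorem itA_seq {α : Type*} {P : ℕ → α → Prop} {R : ℕ → α → α → Prop} (h0 : ∃ x, P 0 x)
    (h : ∀ n x, P n x → ∃ y, P (n + 1) y ∧ R n x y) :
    ∃ f : ℕ → α, ∀ n, P n (f n) ∧ R n (f n) (f (n + 1)) := by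
  choose s hs using h
  obtain ⟨x0, hx0⟩ := h0
  let f : ∀ n, {x // P n x} := fun n =>
    Nat.rec ⟨x0, hx0⟩ (fun n x => ⟨s n x.1 x.2, (hs n x.1 x.2).1⟩) n
  exact ⟨fun n => (f n).1, fun n => ⟨(f n).2, (hs n _ (f n).2).2⟩⟩

end Vale.Agent.Iso4
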