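import Vale.Agent.Iso4.TameInt

/-! Loops on the circle and on the sphere with prescribed mean. -/

open scoped ContDiff Topology
open Set Filter

noncomputable section
namespace Vale.Agent.Iso4

/-- the parameter strip -/
def strip : Set (ℝ × ℝ) := Icc (0 : ℝ) 1 ×ˢ univ

/-- smooth, with bounded derivatives, periodic and of mean zero -/
structure Osc (Φ : ℝ × ℝ → ℝ) : Prop where
  sm : ∀ y ∈ strip, ContDiffAt ℝ ∞ Φ y
  bd : ∀ m : ℕ, ∃ C, ∀ y ∈ strip, ‖iteratedFDeriv ℝ m Φ y‖ ≤ C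
  per : ∀ k t, Φ (k, t + 2 * Real.pi) = Φ (k, t)
  mean : ∀ k ∈ Icc (0 : ℝ) 1, ∫ t in (0 : ℝ)..2 * Real.pi, Φ (k, t) = 0

/-- With `α ^ 2 = 1 - k ^ 2`, the point `(k + α ^ 2 * Φ0, α * Φ1, α * Φ2)` moves on the unit sphere
and has mean `(k, 0, 0)`. -/
structure Loop (Φ0 Φ1 Φ2 : ℝ × ℝ → ℝ) : Prop where
  o0 : Osc Φ0
  o1 : Osc Φ1
  o2 : Osc Φ2
  sphere : ∀ k ∈ Icc (0 : ℝ) 1, ∀ t,
    2 * k * Φ0 (k, t) + (1 - k ^ 2) * Φ0 (k, t) ^ 2 + Φ1 (k, t) ^ 2 + Φ2 (k, t) ^ 2 = 1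
  low : ∃ c : ℝ, 0 < c ∧ ∀ k ∈ Icc (0 : ℝ) 1,
    c ≤ ∫ t in (0 : ℝ)..2 * Real.pi, (Φ1 (k, t) ^ 2 + Φ2 (k, t) ^ 2)

/-- derivative in the phase -/
def dph (Φ : ℝ × ℝ → ℝ) (k t : ℝ) : ℝ := deriv (fun τ => Φ (k, τ)) t

/-- the figure eight property -/
def Eight (Φ0 Φ1 Φ2 : ℝ × ℝ → ℝ) : Prop :=
  ∃ c C : ℝ, 0 < c ∧ ∀ k α t : ℝ, 0 ≤ k → 0 < α → k ^ 2 + α ^ 2 = 1 → ∃ T0 T1 T2 : ℝ,
    T0 ^ 2 + T1 ^ 2 + T2 ^ 2 ≤ 2 ∧
    T0 * (k + α ^ 2 * Φ0 (k, t)) + T1 * (α * Φ1 (k, t)) + T2 * (α * Φ2 (k, t)) = 0 ∧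
    3 / 8 ≤ T2 ∧ |T0| ≤ C * α ∧
    c ≤ T0 * (α * dph Φ0 k t) + T1 * dph Φ1 k t + T2 * dph Φ2 k t

/-- the squared radius of the planar curve -/
def rho (η t : ℝ) : ℝ := Real.sin t ^ 2 + (η * Real.sin t * Real.cos t) ^ 2

theorem rho_nonneg (η t : ℝ) : 0 ≤ rho η t := by unfold rho; positivity

theorem sin_sq_le_rho (η t : ℝ) : Real.sin t ^ 2 ≤ rho η t := by
  unfold rho; nlinarith [sq_nonneg (η * Real.sin t * Real.cos t)]

theorem rho_le (η t : ℝ) : rho η t ≤ 1 + η ^ 2 := by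
  unfold rho
  have h1 := Real.sin_sq_le_one t
  have h2 := Real.cos_sq_le_one t
  have h3 : Real.sin t ^ 2 * Real.cos t ^ 2 ≤ 1 :=
    mul_le_one₀ h1 (sq_nonneg _) h2
  have : (η * Real.sin t * Real.cos t) ^ 2 = η ^ 2 * (Real.sin t ^ 2 * Real.cos t ^ 2) := by ring
  rw [this]
  nlinarith [sq_nonneg η]

theorem rho_smooth (η : ℝ) : ContDiff ℝ ∞ (rho η) := by unfold rho; fun_prop

theorem rho_cont (η : ℝ) : Continuous (rho η) := (rho_smooth η).continuous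

/-- the domain of the size equation -/
def lpD (η : ℝ) : Set ℝ := Ioi (-(1 + η ^ 2)⁻¹)

theorem lp_den_pos {η u : ℝ} (hu : u ∈ lpD η) (t : ℝ) : 0 < 1 + u * rho η t := by
  have h0 := rho_nonneg η t
  have h1 := rho_le η t
  have hp : 0 < 1 + η ^ 2 := by positivity
  rcases le_or_gt 0 u with h | h
  · positivity
  · have hu' : -(1 + η ^ 2)⁻¹ < u := hu
    have h2 : -1 < u * (1 + η ^ 2) := by
      have := mul_lt_mul_of_pos_right hu' hp
      rwa [neg_mul, inv_mul_cancel₀ hp.ne'] at this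
    nlinarith

theorem lpD_of_nonneg {η u : ℝ} (hu : 0 ≤ u) : u ∈ lpD η := by
  have : 0 < (1 + η ^ 2)⁻¹ := by positivity
  show -(1 + η ^ 2)⁻¹ < u
  linarith

/-- first mean -/
def lpφ (η u : ℝ) : ℝ := ∫ t in (0 : ℝ)..2 * Real.pi, (1 + u * rho η t)⁻¹
/-- second mean -/
def lpψ (η u : ℝ) : ℝ := ∫ t in (0 : ℝ)..2 * Real.pi, rho η t * (1 + u * rho η t)⁻¹

theorem lp_smA {η u : ℝ} (hu : u ∈ lpD η) (t : ℝ) :
    ContDiffAt ℝ ∞ (fun y : ℝ × ℝ => (1 + y.1 * rho η y.2)⁻¹) (u, t) :=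
  ContDiffAt.inv (contDiffAt_const.add
    (contDiffAt_fst.mul ((rho_smooth η).contDiffAt.comp _ contDiffAt_snd))) (lp_den_pos hu t).ne'

theorem lpφ_smooth {η u : ℝ} (hu : u ∈ lpD η) : ContDiffAt ℝ ∞ (lpφ η) u :=
  contDiffAt_integral (f := fun y : ℝ × ℝ => (1 + y.1 * rho η y.2)⁻¹) (by positivity)
    fun t _ => lp_smA hu t

theorem lpψ_smooth {η u : ℝ} (hu : u ∈ lpD η) : ContDiffAt ℝ ∞ (lpψ η) u :=
  contDiffAt_integral (f := fun y : ℝ × ℝ => rho η y.2 * (1 + y.1 * rho η y.2)⁻¹) (by positivity)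
    fun t _ => ((rho_smooth η).contDiffAt.comp _ contDiffAt_snd).mul (lp_smA hu t)

theorem lp_cont {η u : ℝ} (hu : u ∈ lpD η) : Continuous fun t => (1 + u * rho η t)⁻¹ :=
  Continuous.inv₀ (continuous_const.add (continuous_const.mul (rho_cont η)))
    fun t => (lp_den_pos hu t).ne'

theorem lp_pos_aux {η : ℝ} {g : ℝ → ℝ} (hg : Continuous g) (h0 : ∀ t, 0 < g t) :
    0 < ∫ t in (0 : ℝ)..2 * Real.pi, rho η t * g t := by
  have hπ := Real.pi_pos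
  refine intervalIntegral.integral_pos (by positivity) ((rho_cont η).mul hg).continuousOn
    (fun t _ => mul_nonneg (rho_nonneg η t) (h0 t).le) ⟨Real.pi / 2, ⟨by positivity, by linarith⟩, ?_⟩
  refine mul_pos ?_ (h0 _)
  have := sin_sq_le_rho η (Real.pi / 2)
  rw [Real.sin_pi_div_two] at this
  linarith

theorem lpψ_pos {η u : ℝ} (hu : u ∈ lpD η) : 0 < lpψ η u :=
  lp_pos_aux (lp_cont hu) fun t => inv_pos.2 (lp_den_pos hu t)

theorem lpφ_add {η u : ℝ} (hu : u ∈ lpD η) : lpφ η u + u * lpψ η u = 2 * Real.pi := by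
  unfold lpφ lpψ
  have hc : Continuous fun t => u * (rho η t * (1 + u * rho η t)⁻¹) :=
    continuous_const.mul ((rho_cont η).mul (lp_cont hu))
  rw [← intervalIntegral.integral_const_mul, ← intervalIntegral.integral_add
    ((lp_cont hu).intervalIntegrable _ _) (hc.intervalIntegrable _ _)]
  have : ∀ t, (1 + u * rho η t)⁻¹ + u * (rho η t * (1 + u * rho η t)⁻¹) = 1 := fun t => by
    have := (lp_den_pos hu t).ne'
    field_simp
  simp only [this]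
  simp

theorem lpφ_deriv {η u : ℝ} (hu : u ∈ lpD η) : deriv (lpφ η) u < 0 := by
  have h := fderiv_integral (f := fun y : ℝ × ℝ => (1 + y.1 * rho η y.2)⁻¹) (z := u)
    (c := 2 * Real.pi) (by positivity) (fun t _ => lp_smA hu t) 1
  have h2 : ∀ t, fderiv ℝ (fun y : ℝ × ℝ => (1 + y.1 * rho η y.2)⁻¹) (u, t) (1, 0) =
      -(rho η t * ((1 + u * rho η t)⁻¹) ^ 2) := fun t => by
    have hd := ((lp_smA hu t).differentiableAt (by simp)).hasFDerivAt
    have hl : HasDerivAt (fun x : ℝ => (x, t)) ((1, 0) : ℝ × ℝ) u :=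
      (hasDerivAt_id u).prodMk (hasDerivAt_const u t)
    have h3 := hd.comp_hasDerivAt u hl
    have h4 : HasDerivAt (fun x : ℝ => (1 + x * rho η t)⁻¹)
        (-(1 * rho η t) / (1 + u * rho η t) ^ 2) u :=
      (((hasDerivAt_id u).mul_const (rho η t)).const_add 1).inv (lp_den_pos hu t).ne'
    rw [h3.unique h4]
    have := (lp_den_pos hu t).ne'
    field_simp
  simp only [h2] at h
  have h5 : deriv (lpφ η) u = fderiv ℝ (lpφ η) u 1 := rfl
  rw [h5]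
  unfold lpφ
  rw [h, intervalIntegral.integral_neg, neg_lt_zero]
  exact lp_pos_aux ((lp_cont hu).pow 2) fun t => pow_pos (inv_pos.2 (lp_den_pos hu t)) 2

theorem lpφ_anti (η : ℝ) : StrictAntiOn (lpφ η) (lpD η) :=
  strictAntiOn_of_deriv_neg (convex_Ioi _)
    (fun _ hu => (lpφ_smooth hu).continuousAt.continuousWithinAt)
    fun _ hu => lpφ_deriv (interior_subset hu)

theorem lpφ_zero (η : ℝ) : lpφ η 0 = 2 * Real.pi := by simp [lpφ]

theorem lpφ_big (η : ℝ) : lpφ η 112 ≤ Real.pi := by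
  have hu : (112 : ℝ) ∈ lpD η := lpD_of_nonneg (by norm_num)
  have h1 : lpφ η 112 ≤ ∫ t in (0 : ℝ)..2 * Real.pi, (Real.cos t ^ (2 + 2) + 1 / 8) := by
    refine intervalIntegral.integral_mono_on (by positivity) ((lp_cont hu).intervalIntegrable _ _)
      (Continuous.intervalIntegrable (by fun_prop) _ _) fun t _ => ?_
    have h0 := sin_sq_le_rho η t
    have hc : Real.cos t ^ (2 + 2) = (1 - Real.sin t ^ 2) ^ 2 := by
      rw [← Real.cos_sq']; ring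
    rw [hc]
    have hs := sq_nonneg (Real.sin t)
    set x := Real.sin t ^ 2
    have hd := lp_den_pos hu t
    rcases le_or_gt x (1 / 16) with hx | hx
    · have : (1 + 112 * rho η t)⁻¹ ≤ 1 := inv_le_one_of_one_le₀ (by nlinarith)
      nlinarith
    · have : (1 + 112 * rho η t)⁻¹ ≤ 8⁻¹ := inv_anti₀ (by norm_num) (by linarith)
      nlinarith [sq_nonneg (1 - x)]
  rw [intervalIntegral.integral_add (Continuous.intervalIntegrable (by fun_prop) _ _)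
    (Continuous.intervalIntegrable (by fun_prop) _ _), integral_cos_pow, integral_cos_sq] at h1
  simp at h1
  linarith

theorem lp_exists (η : ℝ) {y : ℝ} (hy : y ∈ Icc Real.pi (2 * Real.pi)) :
    ∃ u, 0 ≤ u ∧ lpφ η u = y := by
  have hc : ContinuousOn (lpφ η) (Icc 0 112) := fun u hu =>
    (lpφ_smooth (lpD_of_nonneg hu.1)).continuousAt.continuousWithinAt
  obtain ⟨u, hu, h⟩ := intermediate_value_Icc' (by norm_num : (0 : ℝ) ≤ 112) hc
    (show y ∈ Icc (lpφ η 112) (lpφ η 0) from ⟨(lpφ_big η).trans hy.1, by rw [lpφ_zero]; exact hy.2⟩)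
  exact ⟨u, hu.1, h⟩

theorem lp_inv_smooth {η u : ℝ} (hu : u ∈ lpD η) :
    ContDiffAt ℝ ∞ (Function.invFunOn (lpφ η) (lpD η)) (lpφ η u) := by
  have hs := lpφ_smooth hu
  have hd : HasDerivAt (lpφ η) (deriv (lpφ η) u) u := (hs.differentiableAt (by simp)).hasDerivAt
  have hf := hd.hasFDerivAt_equiv (lpφ_deriv hu).ne
  have hg := hs.to_localInverse hf (by simp)
  refine hg.congr_of_eventuallyEq ?_
  have h1 : ∀ᶠ y in 𝓝 (lpφ η u), lpφ η (hs.localInverse hf (by simp) y) = y :=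
    (hs.hasStrictFDerivAt' hf (by simp)).eventually_right_inverse
  have h2 : ∀ᶠ y in 𝓝 (lpφ η u), hs.localInverse hf (by simp) y ∈ lpD η := by
    refine hg.continuousAt.preimage_mem_nhds ?_
    rw [hs.localInverse_apply_image]
    exact isOpen_Ioi.mem_nhds hu
  filter_upwards [h1, h2] with y e1 e2
  conv_lhs => rw [← e1]
  exact (lpφ_anti η).injOn.leftInvOn_invFunOn e2

/-- the size of the loop -/
theorem exists_size (η : ℝ) : ∃ m : ℝ → ℝ, (∀ k ∈ Icc (0 : ℝ) 1, ContDiffAt ℝ ∞ m k ∧ 0 < m k ∧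
    ∫ t in (0 : ℝ)..2 * Real.pi, (1 / (1 + k) - m k ^ 2 * rho η t * (1 + k)) /
      (1 + (1 - k ^ 2) * m k ^ 2 * rho η t) = 0) := by
  have hπ := Real.pi_pos
  set U : ℝ → ℝ := fun k => Function.invFunOn (lpφ η) (lpD η) (Real.pi * (1 + k)) with hU
  refine ⟨fun k => √(Real.pi / ((1 + k) * lpψ η (U k))), fun k hk => ?_⟩
  obtain ⟨u, hu0, hu⟩ := lp_exists η (y := Real.pi * (1 + k))
    ⟨by nlinarith [hk.1], by nlinarith [hk.2]⟩
  have hD : u ∈ lpD η := lpD_of_nonneg hu0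
  have hUk : U k = u := by
    simp only [hU]
    rw [← hu]
    exact (lpφ_anti η).injOn.leftInvOn_invFunOn hD
  have hψ := lpψ_pos hD
  have hk1 : 0 < 1 + k := by linarith [hk.1]
  have hpos : 0 < Real.pi / ((1 + k) * lpψ η (U k)) := by rw [hUk]; positivity
  have hUs : ContDiffAt ℝ ∞ U k := by
    have h := lp_inv_smooth hD
    rw [hu] at h
    exact ContDiffAt.comp (g := Function.invFunOn (lpφ η) (lpD η))
      (f := fun k => Real.pi * (1 + k)) k h (by fun_prop)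
  refine ⟨?_, Real.sqrt_pos.2 hpos, ?_⟩
  · refine ContDiffAt.sqrt (contDiffAt_const.div ((contDiffAt_const.add contDiffAt_id).mul ?_) ?_)
      hpos.ne'
    · exact ContDiffAt.comp (g := lpψ η) k (by rw [hUk]; exact lpψ_smooth hD) hUs
    · rw [hUk]; positivity
  · simp only
    rw [Real.sq_sqrt hpos.le, hUk]
    have hadd := lpφ_add hD
    have hM : (1 - k ^ 2) * (Real.pi / ((1 + k) * lpψ η u)) = u := by
      field_simp
      nlinarith
    have h3 : ∀ t, (1 / (1 + k) - Real.pi / ((1 + k) * lpψ η u) * rho η t * (1 + k)) /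
        (1 + (1 - k ^ 2) * (Real.pi / ((1 + k) * lpψ η u)) * rho η t) =
        (1 + k)⁻¹ * (1 + u * rho η t)⁻¹ -
          Real.pi / lpψ η u * (rho η t * (1 + u * rho η t)⁻¹) := fun t => by
      rw [hM]
      have := (lp_den_pos hD t).ne'
      field_simp
    simp only [h3]
    have c1 : Continuous fun t => (1 + k)⁻¹ * (1 + u * rho η t)⁻¹ :=
      continuous_const.mul (lp_cont hD)
    have c2 : Continuous fun t => Real.pi / lpψ η u * (rho η t * (1 + u * rho η t)⁻¹) :=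
      continuous_const.mul ((rho_cont η).mul (lp_cont hD))
    rw [intervalIntegral.integral_sub (c1.intervalIntegrable _ _) (c2.intervalIntegrable _ _),
      intervalIntegral.integral_const_mul, intervalIntegral.integral_const_mul]
    change (1 + k)⁻¹ * lpφ η u - Real.pi / lpψ η u * lpψ η u = 0
    rw [hu]
    field_simp
    ring

/-- periodic smooth functions have bounded derivatives on the strip -/
theorem Osc.of_per {Φ : ℝ × ℝ → ℝ} (sm : ∀ y ∈ strip, ContDiffAt ℝ ∞ Φ y)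
    (per : ∀ k t, Φ (k, t + 2 * Real.pi) = Φ (k, t))
    (mean : ∀ k ∈ Icc (0 : ℝ) 1, ∫ t in (0 : ℝ)..2 * Real.pi, Φ (k, t) = 0) : Osc Φ := by
  refine ⟨sm, fun m => ?_, per, mean⟩
  have hK : IsCompact (Icc (0 : ℝ) 1 ×ˢ Icc (0 : ℝ) (2 * Real.pi)) := isCompact_Icc.prod isCompact_Icc
  obtain ⟨C, hC⟩ := hK.exists_bound_of_continuousOn (f := iteratedFDeriv ℝ m Φ) fun y hy =>
    ((sm y ⟨hy.1, mem_univ _⟩).continuousAt_iteratedFDeriv (tame_le m)).continuousWithinAt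
  refine ⟨C, fun y hy => ?_⟩
  have hΦ : (fun z : ℝ × ℝ => Φ (z + (0, 2 * Real.pi))) = Φ := by
    funext z
    rw [← per z.1 z.2]
    congr 1
    ext <;> simp
  have hp : Function.Periodic (fun t => iteratedFDeriv ℝ m Φ (y.1, t)) (2 * Real.pi) := fun t => by
    have h := iteratedFDeriv_comp_add_right (𝕜 := ℝ) (f := Φ) m (0, 2 * Real.pi) (y.1, t)
    rw [hΦ] at h
    simp only
    rw [h]
    congr 1
    ext <;> simp
  obtain ⟨t, ht, e⟩ := hp.exists_mem_Ico₀ (by positivity) y.2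
  have e' : iteratedFDeriv ℝ m Φ y = iteratedFDeriv ℝ m Φ (y.1, t) := e
  rw [e']
  exact hC _ ⟨hy.1, Ico_subset_Icc_self ht⟩

theorem integral_odd {f : ℝ → ℝ} (h : ∀ t, f (2 * Real.pi - t) = -f t) :
    ∫ t in (0 : ℝ)..2 * Real.pi, f t = 0 := by
  have h1 := intervalIntegral.integral_comp_sub_left (a := 0) (b := 2 * Real.pi) f (2 * Real.pi)
  simp only [h, intervalIntegral.integral_neg, sub_self, sub_zero] at h1
  linarith

/-- the denominator -/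
def lpden (η : ℝ) (m : ℝ → ℝ) (y : ℝ × ℝ) : ℝ := 1 + (1 - y.1 ^ 2) * m y.1 ^ 2 * rho η y.2
/-- first component -/
def lp0 (η : ℝ) (m : ℝ → ℝ) (y : ℝ × ℝ) : ℝ :=
  (1 / (1 + y.1) - m y.1 ^ 2 * rho η y.2 * (1 + y.1)) / lpden η m y
/-- second component -/
def lp1 (η : ℝ) (m : ℝ → ℝ) (y : ℝ × ℝ) : ℝ := 2 * (m y.1 * Real.sin y.2) / lpden η m y
/-- third component -/
def lp2 (η : ℝ) (m : ℝ → ℝ) (y : ℝ × ℝ) : ℝ :=
  2 * (-(m y.1 * (η * Real.sin y.2 * Real.cos y.2))) / lpden η m y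

theorem one_le_lpden (η : ℝ) (m : ℝ → ℝ) {k : ℝ} (hk : k ∈ Icc (0 : ℝ) 1) (t : ℝ) :
    1 ≤ lpden η m (k, t) := by
  unfold lpden
  have h1 : 0 ≤ 1 - k ^ 2 := by nlinarith [hk.1, hk.2]
  have := rho_nonneg η t
  have : 0 ≤ (1 - k ^ 2) * m k ^ 2 * rho η t := by positivity
  simp only
  linarith

theorem lpden_le (η : ℝ) (m : ℝ → ℝ) {k M : ℝ} (hm : m k ^ 2 ≤ M) (t : ℝ) :
    lpden η m (k, t) ≤ 1 + M * (1 + η ^ 2) := by
  unfold lpden
  have h0 := rho_nonneg η t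
  have h1 := rho_le η t
  have h2 : m k ^ 2 * rho η t ≤ M * (1 + η ^ 2) :=
    mul_le_mul hm h1 h0 ((sq_nonneg _).trans hm)
  have h3 : 0 ≤ k ^ 2 * (m k ^ 2 * rho η t) := by positivity
  simp only
  nlinarith

theorem rho_per (η t : ℝ) : rho η (t + 2 * Real.pi) = rho η t := by
  simp [rho, Real.sin_add_two_pi, Real.cos_add_two_pi]

theorem rho_refl (η t : ℝ) : rho η (2 * Real.pi - t) = rho η t := by
  simp [rho, Real.sin_two_pi_sub, Real.cos_two_pi_sub]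

theorem lp_bounds {m : ℝ → ℝ} (hm : ∀ k ∈ Icc (0 : ℝ) 1, ContDiffAt ℝ ∞ m k ∧ 0 < m k) :
    ∃ a b : ℝ, 0 < a ∧ ∀ k ∈ Icc (0 : ℝ) 1, a ≤ m k ∧ m k ≤ b := by
  have hc : ContinuousOn m (Icc 0 1) := fun k hk => (hm k hk).1.continuousAt.continuousWithinAt
  obtain ⟨x, hx, h1⟩ := isCompact_Icc.exists_isMinOn (nonempty_Icc.2 zero_le_one) hc
  obtain ⟨y, -, h2⟩ := isCompact_Icc.exists_isMaxOn (nonempty_Icc.2 zero_le_one) hc
  exact ⟨m x, m y, (hm x hx).2, fun k hk => ⟨h1 hk, h2 hk⟩⟩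

theorem lp_loop (η : ℝ) {m : ℝ → ℝ} (hm : ∀ k ∈ Icc (0 : ℝ) 1, ContDiffAt ℝ ∞ m k ∧ 0 < m k ∧
    ∫ t in (0 : ℝ)..2 * Real.pi, (1 / (1 + k) - m k ^ 2 * rho η t * (1 + k)) /
      (1 + (1 - k ^ 2) * m k ^ 2 * rho η t) = 0) : Loop (lp0 η m) (lp1 η m) (lp2 η m) := by
  have hm1 : ∀ y ∈ strip, ContDiffAt ℝ ∞ (fun y : ℝ × ℝ => m y.1) y := fun y hy =>
    (hm y.1 hy.1).1.comp y contDiffAt_fst
  have hr : ∀ y : ℝ × ℝ, ContDiffAt ℝ ∞ (fun y : ℝ × ℝ => rho η y.2) y := fun y =>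
    (rho_smooth η).contDiffAt.comp y contDiffAt_snd
  have hd : ∀ y ∈ strip, ContDiffAt ℝ ∞ (lpden η m) y := fun y hy =>
    contDiffAt_const.add (((contDiffAt_const.sub (contDiffAt_fst.pow 2)).mul
      ((hm1 y hy).pow 2)).mul (hr y))
  have hd0 : ∀ y ∈ strip, lpden η m y ≠ 0 := fun y hy =>
    (zero_lt_one.trans_le (one_le_lpden η m hy.1 y.2)).ne'
  have s0 : ∀ y ∈ strip, ContDiffAt ℝ ∞ (lp0 η m) y := fun y hy => by
    refine ContDiffAt.div (ContDiffAt.sub (contDiffAt_const.div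
      (contDiffAt_const.add contDiffAt_fst) ?_) ((((hm1 y hy).pow 2).mul (hr y)).mul
      (contDiffAt_const.add contDiffAt_fst))) (hd y hy) (hd0 y hy)
    have : 0 ≤ y.1 := hy.1.1
    positivity
  have s1 : ∀ y ∈ strip, ContDiffAt ℝ ∞ (lp1 η m) y := fun y hy =>
    ContDiffAt.div (contDiffAt_const.mul ((hm1 y hy).mul (by fun_prop))) (hd y hy) (hd0 y hy)
  have s2 : ∀ y ∈ strip, ContDiffAt ℝ ∞ (lp2 η m) y := fun y hy =>
    ContDiffAt.div (contDiffAt_const.mul ((hm1 y hy).mul (by fun_prop)).neg) (hd y hy) (hd0 y hy)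
  refine ⟨Osc.of_per s0 (fun k t => by simp only [lp0, lpden, rho_per]) fun k hk => (hm k hk).2.2,
    Osc.of_per s1 (fun k t => by simp only [lp1, lpden, rho_per, Real.sin_add_two_pi])
      fun k _ => integral_odd fun t => ?_,
    Osc.of_per s2 (fun k t => by
      simp only [lp2, lpden, rho_per, Real.sin_add_two_pi, Real.cos_add_two_pi])
      fun k _ => integral_odd fun t => ?_, fun k hk t => ?_, ?_⟩
  · simp only [lp1, lpden, rho_refl, Real.sin_two_pi_sub]; ring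
  · simp only [lp2, lpden, rho_refl, Real.sin_two_pi_sub, Real.cos_two_pi_sub]; ring
  · have h0 := hd0 (k, t) ⟨hk, mem_univ _⟩
    have h1 : 1 + k ≠ 0 := by linarith [hk.1]
    simp only [lp0, lp1, lp2]
    field_simp
    simp only [lpden, rho]
    ring
  · obtain ⟨a, b, ha, hab⟩ := lp_bounds fun k hk => ⟨(hm k hk).1, (hm k hk).2.1⟩
    have hD : 0 < 1 + b ^ 2 * (1 + η ^ 2) := by positivity
    refine ⟨(2 * a / (1 + b ^ 2 * (1 + η ^ 2))) ^ 2 * Real.pi, by positivity, fun k hk => ?_⟩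
    have hc : ∀ {Φ : ℝ × ℝ → ℝ}, (∀ y ∈ strip, ContDiffAt ℝ ∞ Φ y) → Continuous fun t => Φ (k, t) :=
      fun h => continuous_iff_continuousAt.2 fun t =>
        ContinuousAt.comp (f := fun t : ℝ => (k, t)) (h (k, t) ⟨hk, mem_univ _⟩).continuousAt
          (by fun_prop)
    have c1 : Continuous fun t => lp1 η m (k, t) ^ 2 + lp2 η m (k, t) ^ 2 :=
      ((hc s1).pow 2).add ((hc s2).pow 2)
    have h1 : ∫ t in (0 : ℝ)..2 * Real.pi, (2 * a / (1 + b ^ 2 * (1 + η ^ 2))) ^ 2 * Real.sin t ^ 2 ≤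
        ∫ t in (0 : ℝ)..2 * Real.pi, (lp1 η m (k, t) ^ 2 + lp2 η m (k, t) ^ 2) := by
      refine intervalIntegral.integral_mono_on (by positivity)
        (Continuous.intervalIntegrable (by fun_prop) _ _) (c1.intervalIntegrable _ _) fun t _ => ?_
      have h2 : lp1 η m (k, t) ^ 2 = (2 * m k / lpden η m (k, t)) ^ 2 * Real.sin t ^ 2 := by
        simp only [lp1]; ring
      have h3 : 2 * a / (1 + b ^ 2 * (1 + η ^ 2)) ≤ 2 * m k / lpden η m (k, t) := by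
        have := (hab k hk).1
        refine div_le_div₀ (by linarith) (by linarith)
          (zero_lt_one.trans_le (one_le_lpden η m hk t)) (lpden_le η m ?_ t)
        exact pow_le_pow_left₀ (by linarith) (hab k hk).2 2
      have h4 := mul_le_mul_of_nonneg_right (pow_le_pow_left₀ (by positivity) h3 2)
        (sq_nonneg (Real.sin t))
      nlinarith [sq_nonneg (lp2 η m (k, t))]
    rw [intervalIntegral.integral_const_mul, integral_sin_sq] at h1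
    simpa using h1

theorem exists_loopF : ∃ Φ0 Φ1, Loop Φ0 Φ1 fun _ => 0 := by
  obtain ⟨m, hm⟩ := exists_size 0
  have h := lp_loop 0 hm
  have e : lp2 0 m = fun _ => 0 := by funext y; simp [lp2]
  rw [e] at h
  exact ⟨_, _, h⟩

theorem rho_deriv (η t : ℝ) : HasDerivAt (rho η) (2 * Real.sin t * Real.cos t +
    2 * (η * Real.sin t * Real.cos t) * (η * (Real.cos t ^ 2 - Real.sin t ^ 2))) t := by
  have h := ((Real.hasDerivAt_sin t).pow 2).add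
    ((((Real.hasDerivAt_sin t).const_mul η).mul (Real.hasDerivAt_cos t)).pow 2)
  refine HasDerivAt.congr_deriv (f := rho η) h ?_
  simp only [Nat.cast_ofNat, Nat.add_one_sub_one, pow_one, Pi.mul_apply]
  ring

theorem lp_alg {α σ x1 x2 y1 y2 D : ℝ} (hσ : σ ^ 2 = 1) (hD : D = 1 + α ^ 2 * (x1 ^ 2 + x2 ^ 2)) :
    (-2 * α * (σ * x1 + x2) / D) ^ 2 + (σ - 2 * α ^ 2 * (σ * x1 + x2) * x1 / D) ^ 2 +
      (1 - 2 * α ^ 2 * (σ * x1 + x2) * x2 / D) ^ 2 = 2 ∧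
    (-2 * α * (σ * x1 + x2) / D) * ((1 - α ^ 2 * (x1 ^ 2 + x2 ^ 2)) / D) +
      (σ - 2 * α ^ 2 * (σ * x1 + x2) * x1 / D) * (α * (2 * x1 / D)) +
      (1 - 2 * α ^ 2 * (σ * x1 + x2) * x2 / D) * (α * (2 * x2 / D)) = 0 ∧
    (-2 * α * (σ * x1 + x2) / D) * (α * (-2 * (2 * (x1 * y1 + x2 * y2)) / D ^ 2)) +
      (σ - 2 * α ^ 2 * (σ * x1 + x2) * x1 / D) *
        ((2 * y1 * D - 2 * x1 * (α ^ 2 * (2 * (x1 * y1 + x2 * y2)))) / D ^ 2) +
      (1 - 2 * α ^ 2 * (σ * x1 + x2) * x2 / D) *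
        ((2 * y2 * D - 2 * x2 * (α ^ 2 * (2 * (x1 * y1 + x2 * y2)))) / D ^ 2) =
      2 * (σ * y1 + y2) / D := by
  have h0 : D ≠ 0 := by rw [hD]; positivity
  refine ⟨?_, ?_, ?_⟩
  · field_simp
    rw [hD]
    linear_combination (1 + α ^ 2 * (x1 ^ 2 + x2 ^ 2)) ^ 2 * hσ
  · field_simp
    rw [hD]
    ring
  · field_simp
    rw [hD]
    ring

theorem lp_in1 {α x1 x2 w D : ℝ} (hD : D = 1 + α ^ 2 * (x1 ^ 2 + x2 ^ 2))
    (h2 : |x2| ≤ |x1| / 4) (hw : |w| ≤ 5 / 4 * |x1|) : 3 / 8 ≤ 1 - 2 * α ^ 2 * w * x2 / D := by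
  have hDp : 0 < D := by rw [hD]; positivity
  have h3 : w * x2 ≤ 5 / 16 * x1 ^ 2 := by
    have h4 := le_abs_self (w * x2)
    rw [abs_mul] at h4
    have h5 := mul_le_mul hw h2 (abs_nonneg _) (by positivity)
    have h6 := sq_abs x1
    nlinarith
  have h4 : 2 * α ^ 2 * w * x2 / D ≤ 5 / 8 := by
    rw [div_le_iff₀ hDp, hD]
    have := mul_le_mul_of_nonneg_left h3 (sq_nonneg α)
    have : 0 ≤ α ^ 2 * x2 ^ 2 := by positivity
    nlinarith
  linarith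

theorem lp_in2 {α x1 w D b : ℝ} (hα : 0 < α) (hD : 1 ≤ D) (h1 : |x1| ≤ b)
    (hw : |w| ≤ 5 / 4 * |x1|) : |-2 * α * w / D| ≤ 4 * b * α := by
  rw [abs_div, abs_of_pos (zero_lt_one.trans_le hD), abs_mul, abs_mul, abs_of_pos hα]
  refine (div_le_self (by positivity) hD).trans ?_
  have h3 : |(-2 : ℝ)| = 2 := by norm_num
  rw [h3]
  have := abs_nonneg x1
  nlinarith

theorem lp_in3 {M σ s c : ℝ} (hM : 0 < M) (hsc : s ^ 2 + c ^ 2 = 1) (hσc : σ * c = |c|)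
    (hca : |c| ≤ 1) : M / 4 ≤ σ * (M * c) + -(M * (1 / 4 * (c ^ 2 - s ^ 2))) := by
  have h4 : σ * (M * c) + -(M * (1 / 4 * (c ^ 2 - s ^ 2))) = M * (|c| - (2 * |c| ^ 2 - 1) / 4) := by
    rw [sq_abs, ← hσc]
    linear_combination (M / 4) * hsc
  have h5 : 1 / 4 ≤ |c| - (2 * |c| ^ 2 - 1) / 4 := by nlinarith [abs_nonneg c]
  rw [h4]
  nlinarith

theorem lp_eight {m : ℝ → ℝ} (hm : ∀ k ∈ Icc (0 : ℝ) 1, ContDiffAt ℝ ∞ m k ∧ 0 < m k) :
    Eight (lp0 (1 / 4) m) (lp1 (1 / 4) m) (lp2 (1 / 4) m) := by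
  obtain ⟨a, b, ha, hab⟩ := lp_bounds hm
  have hD1 : 0 < 1 + b ^ 2 * (1 + (1 / 4 : ℝ) ^ 2) := by positivity
  refine ⟨a / 2 / (1 + b ^ 2 * (1 + (1 / 4 : ℝ) ^ 2)), 4 * b, by positivity,
    fun k α t hk0 hα hkα => ?_⟩
  have hk : k ∈ Icc (0 : ℝ) 1 := ⟨hk0, by nlinarith⟩
  obtain ⟨h1, h2⟩ := hab k hk
  have hm0 : 0 < m k := ha.trans_le h1
  have hα2 : 1 - k ^ 2 = α ^ 2 := by linarith
  have hk1 : 1 + k ≠ 0 := by linarith
  obtain ⟨σ, hσ, hσc⟩ : ∃ σ : ℝ, (σ = 1 ∨ σ = -1) ∧ σ * Real.cos t = |Real.cos t| := by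
    rcases le_or_gt 0 (Real.cos t) with h | h
    · exact ⟨1, Or.inl rfl, by rw [abs_of_nonneg h, one_mul]⟩
    · exact ⟨-1, Or.inr rfl, by rw [abs_of_neg h, neg_one_mul]⟩
  have hσ2 : σ ^ 2 = 1 := by rcases hσ with h | h <;> simp [h]
  have hσa : |σ| = 1 := by rcases hσ with h | h <;> simp [h]
  set s := Real.sin t with hs
  set c := Real.cos t with hc
  set D := lpden (1 / 4) m (k, t) with hDdef
  set x1 := m k * s with hx1
  set x2 := -(m k * (1 / 4 * s * c)) with hx2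
  set y1 := m k * c with hy1
  set y2 := -(m k * (1 / 4 * (c ^ 2 - s ^ 2))) with hy2
  have hD : D = 1 + α ^ 2 * (x1 ^ 2 + x2 ^ 2) := by
    simp only [hDdef, lpden, rho, hα2, hx1, hx2, ← hs, ← hc]; ring
  have hD1' : 1 ≤ D := one_le_lpden _ m hk t
  have hDp : 0 < D := zero_lt_one.trans_le hD1'
  have hdD : HasDerivAt (fun τ => lpden (1 / 4) m (k, τ)) (α ^ 2 * (2 * (x1 * y1 + x2 * y2))) t := by
    refine (((rho_deriv (1 / 4) t).const_mul ((1 - k ^ 2) * m k ^ 2)).const_add 1).congr_deriv ?_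
    simp only [hα2, hx1, hx2, hy1, hy2, ← hs, ← hc]; ring
  have d0 : dph (lp0 (1 / 4) m) k t = -2 * (2 * (x1 * y1 + x2 * y2)) / D ^ 2 := by
    have h := ((((rho_deriv (1 / 4) t).const_mul (m k ^ 2)).mul_const (1 + k)).const_sub
      (1 / (1 + k))).div hdD hDp.ne'
    refine (HasDerivAt.deriv (f := fun τ => lp0 (1 / 4) m (k, τ)) h).trans ?_
    rw [← hDdef]
    congr 1
    rw [hD, ← hα2]
    simp only [rho, hx1, hx2, hy1, hy2, ← hs, ← hc]
    field_simp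
    ring
  have d1 : dph (lp1 (1 / 4) m) k t =
      (2 * y1 * D - 2 * x1 * (α ^ 2 * (2 * (x1 * y1 + x2 * y2)))) / D ^ 2 := by
    have h := (((Real.hasDerivAt_sin t).const_mul (m k)).const_mul 2).div hdD hDp.ne'
    exact HasDerivAt.deriv (f := fun τ => lp1 (1 / 4) m (k, τ)) h
  have d2 : dph (lp2 (1 / 4) m) k t =
      (2 * y2 * D - 2 * x2 * (α ^ 2 * (2 * (x1 * y1 + x2 * y2)))) / D ^ 2 := by
    have h := ((((((Real.hasDerivAt_sin t).const_mul (1 / 4)).mul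
      (Real.hasDerivAt_cos t)).const_mul (m k)).neg).const_mul 2).div hdD hDp.ne'
    refine (HasDerivAt.deriv (f := fun τ => lp2 (1 / 4) m (k, τ)) h).trans ?_
    rw [← hDdef]
    congr 1
    simp only [hx2, hy2, ← hs, ← hc, Pi.neg_apply, Pi.mul_apply]
    ring
  have p0 : k + α ^ 2 * lp0 (1 / 4) m (k, t) = (1 - α ^ 2 * (x1 ^ 2 + x2 ^ 2)) / D := by
    simp only [lp0]
    rw [← hDdef]
    field_simp
    rw [hD, ← hα2]
    simp only [rho, hx1, hx2, ← hs, ← hc]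
    ring
  have p1 : lp1 (1 / 4) m (k, t) = 2 * x1 / D := rfl
  have p2 : lp2 (1 / 4) m (k, t) = 2 * x2 / D := rfl
  obtain ⟨e1, e2, e3⟩ := lp_alg (y1 := y1) (y2 := y2) hσ2 hD
  have hsa : |s| ≤ 1 := Real.abs_sin_le_one t
  have hca : |c| ≤ 1 := Real.abs_cos_le_one t
  have hx21 : |x2| ≤ |x1| / 4 := by
    have : x2 = x1 * (-(c / 4)) := by rw [hx1, hx2]; ring
    rw [this, abs_mul, abs_neg, abs_div, abs_of_pos (by norm_num : (0 : ℝ) < 4)]
    have := mul_le_mul_of_nonneg_left hca (abs_nonneg x1)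
    linarith
  have hw : |σ * x1 + x2| ≤ 5 / 4 * |x1| := by
    have := abs_add_le (σ * x1) x2
    rw [abs_mul, hσa] at this
    linarith
  refine ⟨-2 * α * (σ * x1 + x2) / D, σ - 2 * α ^ 2 * (σ * x1 + x2) * x1 / D,
    1 - 2 * α ^ 2 * (σ * x1 + x2) * x2 / D, e1.le, by rw [p0, p1, p2]; exact e2,
    lp_in1 hD hx21 hw, lp_in2 hα hD1' ?_ hw, ?_⟩
  · rw [hx1, abs_mul, abs_of_pos hm0]
    exact (mul_le_of_le_one_right hm0.le hsa).trans h2
  · rw [d0, d1, d2, e3]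
    have h3 : m k / 4 ≤ σ * y1 + y2 := lp_in3 hm0 (Real.sin_sq_add_cos_sq t) hσc hca
    clear_value y1 y2
    exact div_le_div₀ (by linarith only [h3, hm0]) (by linarith only [h3, h1, ha]) hDp
      (lpden_le _ m (pow_le_pow_left₀ hm0.le h2 2) t)

theorem exists_loopP : ∃ Φ0 Φ1 Φ2, Loop Φ0 Φ1 Φ2 ∧ Eight Φ0 Φ1 Φ2 := by
  obtain ⟨m, hm⟩ := exists_size (1 / 4)
  exact ⟨_, _, _, lp_loop _ hm, lp_eight fun k hk => ⟨(hm k hk).1, (hm k hk).2.1⟩⟩

end Vale.Agent.Iso4
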