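import Vale.Agent.Iso4.LemZ

/-! Complex functions with prescribed simple zeros. -/

open scoped ContDiff Topology Manifold ComplexConjugate
open Set Filter

noncomputable section
namespace Vale.Agent.Iso4

variable {M : Type*} [TopologicalSpace M] [ChartedSpace E2 M] [T2Space M] [IsManifold (𝓡 2) ∞ M]

/-- smooth functions with simple zeros exactly on `S` -/
structure ZG (ϖ : M → ℂ) (S : Set M) : Prop where
  sm : Sm ϖ
  zero : ∀ p, ϖ p = 0 ↔ p ∈ S
  inj : ∀ p ∈ S, Function.Injective (dM ϖ p)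

omit [T2Space M] [IsManifold (𝓡 2) ∞ M] in
theorem zr_inj (e : Chart M) {f : M → ℂ} (hf : Sm f) {p : M} (hp : p ∈ e.source) :
    Function.Injective (dM f p) ↔ Function.Injective (fderiv ℝ (e.rep f) (e.to p)) := by
  refine ⟨fun h u v huv => ?_, fun h u v huv => ?_⟩
  · rw [← e.push_pull' hp u, ← e.push_pull' hp v, ← e.dM_eq hf hp, ← e.dM_eq hf hp] at huv
    rw [← e.push_pull' hp u, h huv, e.push_pull' hp]
  · rw [e.dM_eq hf hp, e.dM_eq hf hp] at huv
    rw [← e.pull_push hp u, h huv, e.pull_push hp]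

omit [T2Space M] [IsManifold (𝓡 2) ∞ M] in
theorem zr_sm_mul {f g : M → ℂ} (hf : Sm f) (hg : Sm g) : Sm fun p => f p * g p :=
  (hf.prod hg).outer (Φ := fun x : ℂ × ℂ => x.1 * x.2) fun _ => by fun_prop

omit [T2Space M] in
theorem zr_inj_mul {f g : M → ℂ} (hf : Sm f) (hg : Sm g) {p : M} (h0 : f p = 0) (h1 : g p ≠ 0)
    (hi : Function.Injective (dM f p)) : Function.Injective (dM (fun p => f p * g p) p) := by
  obtain ⟨e, hp, -⟩ := exists_chart p
  rw [zr_inj e hf hp] at hi
  rw [zr_inj e (zr_sm_mul hf hg) hp]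
  have h2 := ((e.contDiffAt_rep hf (e.to_mem hp)).differentiableAt (by simp)).hasFDerivAt.fun_mul
    ((e.contDiffAt_rep hg (e.to_mem hp)).differentiableAt (by simp)).hasFDerivAt
  have h3 : fderiv ℝ (e.rep fun p => f p * g p) (e.to p) = _ := h2.fderiv
  rw [h3, e.rep_to f hp, e.rep_to g hp, h0]
  refine (injective_iff_map_eq_zero _).2 fun v hv => (injective_iff_map_eq_zero _).1 hi v ?_
  simpa [h1] using hv

omit [T2Space M] in
theorem ZG.mul {f g : M → ℂ} {S T : Set M} (hf : ZG f S) (hg : ZG g T) (h : Disjoint S T) :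
    ZG (fun p => f p * g p) (S ∪ T) := by
  refine ⟨zr_sm_mul hf.sm hg.sm, fun p => by rw [mul_eq_zero, hf.zero, hg.zero, mem_union],
    fun p hp => ?_⟩
  rcases hp with hp | hp
  · exact zr_inj_mul hf.sm hg.sm ((hf.zero p).2 hp)
      (fun h0 => disjoint_left.1 h hp ((hg.zero p).1 h0)) (hf.inj p hp)
  · simp only [mul_comm (f _)]
    exact zr_inj_mul hg.sm hf.sm ((hg.zero p).2 hp)
      (fun h0 => disjoint_right.1 h hp ((hf.zero p).1 h0)) (hg.inj p hp)

omit [T2Space M] [IsManifold (𝓡 2) ∞ M] in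
theorem ZG.conj {f : M → ℂ} {S : Set M} (hf : ZG f S) : ZG (fun p => conj (f p)) S := by
  refine ⟨hf.sm.outer fun _ => Complex.conjCLE.contDiff.contDiffAt,
    fun p => by rw [map_eq_zero, hf.zero], fun p hp u v huv => hf.inj p hp ?_⟩
  have h := fun u => dM_clm (p := p) (Complex.conjCLE : ℂ →L[ℝ] ℂ) hf.sm u
  exact Complex.conjCLE.injective ((h u).symm.trans (huv.trans (h v)))

theorem zr_cancel {f g : M → ℂ} {p q r : M} (hf : ZG f {p, q}) (hg : ZG g {q, r}) (hpq : p ≠ q)
    (hqr : q ≠ r) (hpr : p ≠ r) (e : Chart M) (hq : q ∈ e.source) {α : ℂ} (hα : ‖α‖ = 1)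
    (h : ∀ᶠ z in 𝓝[≠] (e.to q), 0 < (α * (e.rep f z * e.rep g z)).re) : ∃ F, ZG F {p, r} := by
  obtain ⟨ρ, χ, hρ, hb, hχ, hχ0, hχ1, hχ2⟩ := lz_bump
    (inter_mem (e.open_target.mem_nhds (e.to_mem hq)) (eventually_nhdsWithin_iff.1 h))
  have hK : Metric.closedBall (e.to q) ρ ⊆ Metric.ball (e.to q) (2 * ρ) :=
    Metric.closedBall_subset_ball (by linarith)
  have hKt : Metric.closedBall (e.to q) ρ ⊆ e.target := fun z hz => (hb (hK hz)).1
  have hw : ∀ z ∉ Metric.closedBall (e.to q) ρ, χ z • conj α = 0 := fun z hz => by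
    rw [hχ2 z hz, zero_smul]
  have hpos : ∀ x ∈ e.inv '' Metric.closedBall (e.to q) ρ, x ≠ q → 0 < (α * (f x * g x)).re :=
    fun x hx hxq => by
      obtain ⟨hs, hx'⟩ := (e.mem_inv_image hKt).1 hx
      have h1 := (hb (hK hx')).2 fun h => hxq (by
        rw [← e.inv_to hs, mem_singleton_iff.1 h, e.inv_to hq])
      rwa [e.rep_to f hs, e.rep_to g hs] at h1
  have hout : ∀ x ∉ e.inv '' Metric.closedBall (e.to q) ρ,
      (fun x => f x * g x + e.ext (fun z => χ z • conj α) x) =ᶠ[𝓝 x] fun x => f x * g x :=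
    fun x hx => by
      filter_upwards [e.ext_ev_zero (isCompact_closedBall _ _) hKt hw hx] with y hy
      rw [hy, add_zero]
  have hfp : f p = 0 := (hf.zero p).2 (by simp)
  have hgr : g r = 0 := (hg.zero r).2 (by simp)
  have hp : p ∉ e.inv '' Metric.closedBall (e.to q) ρ := fun h => by
    simpa [hfp] using hpos p h hpq
  have hr : r ∉ e.inv '' Metric.closedBall (e.to q) ρ := fun h => by
    simpa [hgr] using hpos r h hqr.symm
  refine ⟨fun x => f x * g x + e.ext (fun z => χ z • conj α) x, (zr_sm_mul hf.sm hg.sm).add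
    (e.sm_ext (isCompact_closedBall _ _) hKt hw fun z _ => hχ.contDiffAt.smul contDiffAt_const),
    fun x => ?_, fun x hx => ?_⟩
  · by_cases hx : x ∈ e.inv '' Metric.closedBall (e.to q) ρ
    · refine iff_of_false ?_ ?_
      · rw [e.ext_of_mem _ ((e.mem_inv_image hKt).1 hx).1]
        refine lz_ne hα ?_
        by_cases hxq : x = q
        · simp [hxq, (hf.zero q).2 (by simp), hχ1.eq_of_nhds]
        · exact add_pos_of_pos_of_nonneg (hpos x hx hxq) (hχ0 _)
      · rintro (rfl | rfl)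
        exacts [hp hx, hr hx]
    · have hxq : x ≠ q := fun h => hx ((e.mem_inv_image hKt).2
        ⟨h ▸ hq, h ▸ Metric.mem_closedBall_self hρ.le⟩)
      rw [(hout x hx).eq_of_nhds, mul_eq_zero, hf.zero, hg.zero]
      simp [hxq]
  · rcases hx with rfl | rfl
    · rw [dM_congr (hout _ hp)]
      exact zr_inj_mul hf.sm hg.sm hfp (fun h => by simpa [hpq, hpr] using (hg.zero _).1 h)
        (hf.inj _ (by simp))
    · rw [dM_congr (hout _ hr)]
      simp only [mul_comm (f _)]
      exact zr_inj_mul hg.sm hf.sm hgr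
        (fun h => by simpa [hqr.symm, hpr.symm] using (hf.zero _).1 h) (hg.inj _ (by simp))

/-- points joined by a function with two simple zeros -/
def ZR (p q : M) : Prop := p = q ∨ ∃ F, ZG F {p, q}

omit [T2Space M] [IsManifold (𝓡 2) ∞ M] in
theorem ZR.symm {p q : M} (h : ZR p q) : ZR q p :=
  h.imp Eq.symm fun h => by rwa [pair_comm]

theorem ZR.trans {p q r : M} (h : ZR p q) (h' : ZR q r) : ZR p r := by
  by_cases hpq : p = q
  · rwa [hpq]
  by_cases hqr : q = r
  · rwa [← hqr]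
  by_cases hpr : p = r
  · exact Or.inl hpr
  obtain ⟨f, hf⟩ := h.resolve_left hpq
  obtain ⟨g, hg⟩ := h'.resolve_left hqr
  obtain ⟨e, hq, -⟩ := exists_chart q
  obtain ⟨α, hα, hc⟩ := lemZ (f1 := e.rep f) (f2 := e.rep g) (z0 := e.to q)
    ((e.contDiffAt_rep hf.sm (e.to_mem hq)).differentiableAt (by simp))
    ((e.contDiffAt_rep hg.sm (e.to_mem hq)).differentiableAt (by simp))
    (by rw [e.rep_to f hq, hf.zero]; simp) (by rw [e.rep_to g hq, hg.zero]; simp)
    ((zr_inj e hf.sm hq).1 (hf.inj q (by simp))) ((zr_inj e hg.sm hq).1 (hg.inj q (by simp)))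
  rcases hc with hc | hc
  · exact Or.inr (zr_cancel hf hg hpq hqr hpr e hq hα hc)
  · exact Or.inr (zr_cancel hf hg.conj hpq hqr hpr e hq hα hc)

/-- the complex coordinate -/
def zrC : P2 →L[ℝ] ℂ := (Complex.equivRealProdCLM.symm : ℝ × ℝ →L[ℝ] ℂ)

theorem zrC_inj : Function.Injective zrC := Complex.equivRealProdCLM.symm.injective

theorem zrC_norm (z : P2) : ‖z‖ ≤ ‖zrC z‖ :=
  max_le (Complex.abs_re_le_norm (zrC z)) (Complex.abs_im_le_norm (zrC z))

theorem zr_local (p : M) : ∀ᶠ q in 𝓝 p, ZR p q := by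
  obtain ⟨e, hp, hp0⟩ := exists_chart p
  obtain ⟨ε, hε, hb⟩ := Metric.nhds_basis_closedBall.mem_iff.1
    (e.open_target.mem_nhds (e.to_mem hp))
  rw [hp0] at hb
  have hε2 : ε / 2 < ε := half_lt_self hε
  have h1 : ∀ᶠ z in 𝓝 (e.to p), ‖zrC z‖ < ε / 2 :=
    zrC.continuous.norm.continuousAt.eventually_lt continuousAt_const (by simp [hp0, hε])
  filter_upwards [e.ev_to hp h1] with q ⟨hq, hβ⟩
  by_cases hpq : p = q
  · exact Or.inl hpq
  have hq0 : e.to q ≠ 0 := fun h => hpq (by rw [← e.inv_to hp, hp0, ← h, e.inv_to hq])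
  set z1 := e.to q with hz1
  let g : P2 → ℂ := fun z => zrC z * conj (zrC z - zrC z1)
  have hg : ∀ z, HasFDerivAt g (zrC z • (Complex.conjCLE : ℂ →L[ℝ] ℂ).comp zrC +
      conj (zrC z - zrC z1) • zrC) z := fun z =>
    zrC.hasFDerivAt.fun_mul ((Complex.conjCLE : ℂ →L[ℝ] ℂ).hasFDerivAt.comp z
      (zrC.hasFDerivAt.sub_const (zrC z1)))
  have hgs : ContDiff ℝ ∞ g :=
    zrC.contDiff.mul (Complex.conjCLE.contDiff.comp (zrC.contDiff.sub contDiff_const))
  have hw : ∀ z ∉ Metric.closedBall (0 : P2) ε, bmp (ε / 2) ε z • (g z - 1) = 0 := fun z hz => by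
    rw [bmp_zero (not_le.1 fun h => hz (mem_closedBall_zero_iff.2 h)).le, zero_smul]
  have hsm : Sm fun x => 1 + e.ext (fun z => bmp (ε / 2) ε z • (g z - 1)) x :=
    (Sm.const 1).add (e.sm_ext (isCompact_closedBall _ _) hb hw fun z _ =>
      ((bmp_smooth _ _).smul (hgs.sub contDiff_const)).contDiffAt)
  have hrep : ∀ z, ‖z‖ < ε / 2 → fderiv ℝ
      (e.rep fun x => 1 + e.ext (fun z => bmp (ε / 2) ε z • (g z - 1)) x) z = fderiv ℝ g z :=
    fun z hz => by
      refine Filter.EventuallyEq.fderiv_eq ?_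
      filter_upwards [e.rep_ext_ev (fun z => bmp (ε / 2) ε z • (g z - 1))
        (hb (mem_closedBall_zero_iff.2 (hz.trans hε2).le)), bmp_ev_one (half_pos hε) hε2 hz]
        with y h2 h3
      change 1 + e.rep (e.ext _) y = _
      rw [h2, h3, one_smul, add_sub_cancel]
  refine Or.inr ⟨_, hsm, fun x => ?_, fun x hx => ?_⟩
  · by_cases hx : x ∈ e.source
    · have hx1 : x = p ↔ zrC (e.to x) = 0 := ⟨fun h => by simp [h, hp0], fun h => by
        rw [← e.inv_to hx, zrC_inj (h.trans (map_zero zrC).symm), ← hp0, e.inv_to hp]⟩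
      have hx2 : x = q ↔ zrC (e.to x) = zrC z1 := ⟨fun h => by rw [h], fun h => by
        rw [← e.inv_to hx, zrC_inj h, e.inv_to hq]⟩
      rw [e.ext_of_mem _ hx, mem_insert_iff, mem_singleton_iff, hx1, hx2]
      generalize e.to x = z
      by_cases hz : ‖z‖ ≤ ε / 2
      · rw [bmp_one (half_pos hε) hε2 hz, one_smul, add_sub_cancel]
        simp only [g, mul_eq_zero, map_eq_zero, sub_eq_zero]
      · have h2 : ε / 2 < ‖zrC z‖ := (not_le.1 hz).trans_le (zrC_norm z)
        refine iff_of_false (fun h0 => ?_) ?_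
        · have h3 : 0 < (g z).re := by
            have h4 : g z = ((‖zrC z‖ ^ 2 : ℝ) : ℂ) - zrC z * conj (zrC z1) := by
              simp only [g, map_sub, mul_sub, Complex.mul_conj', Complex.ofReal_pow]
            have h5 := (abs_le.1 (Complex.abs_re_le_norm (zrC z * conj (zrC z1)))).2
            rw [norm_mul, Complex.norm_conj] at h5
            rw [h4, Complex.sub_re, Complex.ofReal_re]
            nlinarith
          have h4 := congrArg Complex.re h0
          obtain ⟨h5, h6⟩ := bmp_mem (ε / 2) ε z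
          simp only [Complex.add_re, Complex.one_re, Complex.smul_re, Complex.sub_re,
            smul_eq_mul, Complex.zero_re] at h4
          rcases h6.eq_or_lt with h6 | h6
          · rw [h6] at h4; linarith
          · nlinarith [mul_nonneg h5 h3.le]
        · rintro (h | h)
          · rw [h, norm_zero] at h2; linarith
          · rw [h] at h2; linarith
    · rw [e.ext_of_not_mem _ hx]
      refine iff_of_false (by simp) ?_
      rintro (rfl | rfl)
      exacts [hx hp, hx hq]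
  · have hβ0 : zrC z1 ≠ 0 := fun h => hq0 (zrC_inj (h.trans (map_zero zrC).symm))
    rcases hx with rfl | rfl
    · rw [zr_inj e hsm hp, hp0, hrep 0 (by simp [hε]), (hg 0).fderiv]
      refine (injective_iff_map_eq_zero _).2 fun v hv =>
        (injective_iff_map_eq_zero _).1 zrC_inj v ?_
      simpa [hβ0] using hv
    · rw [zr_inj e hsm hq, hrep _ ((zrC_norm _).trans_lt hβ), (hg _).fderiv]
      refine (injective_iff_map_eq_zero _).2 fun v hv =>
        (injective_iff_map_eq_zero _).1 zrC_inj v ?_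
      simpa [hβ0, ← hz1] using hv

theorem zr_clopen (p : M) : IsClopen {q | ZR p q} := by
  refine ⟨isOpen_compl_iff.1 (isOpen_iff_mem_nhds.2 fun q hq => ?_),
    isOpen_iff_mem_nhds.2 fun q hq => ?_⟩
  · filter_upwards [zr_local q] with r hr hn using hq (ZR.trans hn hr.symm)
  · filter_upwards [zr_local q] with r hr using ZR.trans hq hr

theorem zr_even (n : ℕ) : ∀ S : Set M, S.Finite → S.ncard = n →
    (∀ x, Even (S ∩ {q | ZR x q}).ncard) → ∃ F, ZG F S := by
  induction n using Nat.strong_induction_on with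
  | _ n ih =>
  intro S hS hn he
  rcases S.eq_empty_or_nonempty with rfl | ⟨p, hp⟩
  · exact ⟨fun _ => 1, Sm.const 1, by simp, by simp⟩
  obtain ⟨q, hq, hqp⟩ : ∃ q ∈ S ∩ {q | ZR p q}, q ≠ p := by
    refine exists_ne_of_one_lt_ncard ?_ p
    have h1 : 0 < (S ∩ {q | ZR p q}).ncard :=
      (ncard_pos (hS.inter_of_left _)).2 ⟨p, hp, Or.inl rfl⟩
    obtain ⟨k, hk⟩ := he p
    omega
  obtain ⟨f, hf⟩ := hq.2.resolve_left hqp.symm
  have hsub : {p, q} ⊆ S := insert_subset hp (singleton_subset_iff.2 hq.1)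
  obtain ⟨g, hg⟩ := ih (S \ {p, q}).ncard
    (hn ▸ ncard_lt_ncard (diff_ssubset_left_iff.2 ⟨p, hp, by simp⟩) hS) _ (hS.diff) rfl fun x => by
      by_cases hx : ZR x p
      · have h1 : {p, q} ⊆ S ∩ {q | ZR x q} :=
          insert_subset ⟨hp, hx⟩ (singleton_subset_iff.2 ⟨hq.1, hx.trans hq.2⟩)
        rw [← diff_inter_right_comm, ncard_diff h1, ncard_pair hqp.symm]
        exact (Nat.even_sub (ncard_pair hqp.symm ▸ ncard_le_ncard h1 (hS.inter_of_left _))).2
          (iff_of_true (he x) even_two)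
      · have h1 : (S \ {p, q}) ∩ {q | ZR x q} = S ∩ {q | ZR x q} := by
          rw [← diff_inter_right_comm]
          refine Disjoint.sdiff_eq_left (disjoint_right.2 ?_)
          rintro y (rfl | rfl) hy
          exacts [hx hy.2, hx (ZR.trans hy.2 (ZR.symm hq.2))]
        rw [h1]
        exact he x
  refine ⟨_, (union_diff_cancel hsub) ▸ hf.mul hg disjoint_sdiff_right⟩

theorem zr_one {S T : Set M} {f : M → ℂ} (hf : ZG f S) (hT : T.Finite)
    (h1 : ∀ p ∈ T, f =ᶠ[𝓝 p] fun _ => 1) {c : M} (hc : c ∉ S) (hcT : c ∉ T) :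
    ∃ F, ZG F S ∧ ∀ p ∈ insert c T, F =ᶠ[𝓝 p] fun _ => 1 := by
  obtain ⟨e, hp, -⟩ := exists_chart c
  have hm := e.to_mem hp
  have h0 : f c ≠ 0 := fun h => hc ((hf.zero c).1 h)
  have e1 : ∀ᶠ z in 𝓝 (e.to c), e.rep f z / f c ∈ Complex.slitPlane :=
    ((e.contDiffAt_rep hf.sm hm).continuousAt.div_const (f c)).eventually
      (Complex.isOpen_slitPlane.mem_nhds (by simp [e.rep_to f hp, h0]))
  have e2 : ∀ᶠ z in 𝓝 (e.to c), e.inv z ∉ T :=
    e.ev_inv hm (by rw [e.inv_to hp]; exact hT.isClosed.isOpen_compl.mem_nhds hcT)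
  obtain ⟨ρ, χ, hρ, hb, hχ, -, hχ1, hχ2⟩ := lz_bump
    (inter_mem (e.open_target.mem_nhds hm) (e1.and e2))
  have hK : Metric.closedBall (e.to c) ρ ⊆ Metric.ball (e.to c) (2 * ρ) :=
    Metric.closedBall_subset_ball (by linarith)
  have hKt : Metric.closedBall (e.to c) ρ ⊆ e.target := fun z hz => (hb (hK hz)).1
  let w : P2 → ℂ := fun z => χ z • (Complex.log (e.rep f z / f c) + Complex.log (f c))
  have hw : ∀ z ∉ Metric.closedBall (e.to c) ρ, w z = 0 := fun z hz => by
    simp only [w, hχ2 z hz, zero_smul]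
  have hws : Sm (e.ext w) := e.sm_ext (isCompact_closedBall _ _) hKt hw fun z hz => by
    by_cases hz' : z ∈ Metric.closedBall (e.to c) ρ
    · refine hχ.contDiffAt.smul (ContDiffAt.add ?_ contDiffAt_const)
      exact ((Complex.contDiffAt_log (hb (hK hz')).2.1).restrict_scalars ℝ).comp z
        (f := fun z => e.rep f z / f c) ((e.contDiffAt_rep hf.sm hz).div_const (f c))
    · refine (contDiffAt_const (c := 0)).congr_of_eventuallyEq ?_
      filter_upwards [Metric.isClosed_closedBall.isOpen_compl.mem_nhds hz'] with y hy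
        using hw y hy
  have hE : ZG (fun p => Complex.exp (-e.ext w p)) ∅ :=
    ⟨hws.neg.outer fun _ => (Complex.contDiff_exp (𝕜 := ℝ)).contDiffAt, by simp, by simp⟩
  refine ⟨_, union_empty S ▸ hf.mul hE (disjoint_empty S), fun p hp' => ?_⟩
  rcases hp' with rfl | hp'
  · filter_upwards [e.ev_to hp (hχ1.and e1)] with x ⟨hx, h2, h3⟩
    rw [e.rep_to f hx] at h3
    have h4 := Complex.slitPlane_ne_zero h3
    have h5 : f x ≠ 0 := fun h => h4 (by simp [h])
    rw [e.ext_of_mem _ hx]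
    simp only [w, h2, one_smul, e.rep_to f hx, Complex.exp_neg, Complex.exp_add,
      Complex.exp_log h4, Complex.exp_log h0]
    field_simp
  · have h2 : p ∉ e.inv '' Metric.closedBall (e.to c) ρ := by
      rintro ⟨z, hz, rfl⟩
      exact (hb (hK hz)).2.2 hp'
    filter_upwards [e.ext_ev_zero (isCompact_closedBall _ _) hKt hw h2, h1 p hp'] with x h3 h4
    simp [h3, h4]

theorem exists_zeros {S Cr : Set M} (hS : S.Finite) (hCr : Cr.Finite) (hd : Disjoint S Cr)
    (he : ∀ C : Set M, IsClopen C → Even (S ∩ C).ncard) :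
    ∃ ϖ : M → ℂ, Sm ϖ ∧ (∀ p, ϖ p = 0 ↔ p ∈ S) ∧ (∀ p ∈ S, Function.Injective (dM ϖ p)) ∧
      ∀ p ∈ Cr, ϖ =ᶠ[𝓝 p] fun _ => 1 := by
  obtain ⟨f, hf⟩ := zr_even _ S hS rfl fun x => he _ (zr_clopen x)
  have h : ∃ F, ZG F S ∧ ∀ p ∈ Cr, F =ᶠ[𝓝 p] fun _ => 1 := by
    induction Cr, hCr using Set.Finite.induction_on with
    | empty => exact ⟨f, hf, by simp⟩
    | insert hc hT ih =>
      obtain ⟨F, hF, h1⟩ := ih (hd.mono_right (subset_insert _ _))
      exact zr_one hF hT h1 (disjoint_right.1 hd (mem_insert _ _)) hc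
  obtain ⟨F, hF, h1⟩ := h
  exact ⟨F, hF.sm, hF.zero, hF.inj, h1⟩

end Vale.Agent.Iso4
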