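import Vale.Agent.Iso4.Parity
import Vale.Agent.Iso4.Zeros
import Vale.Agent.Iso4.Corr
import Vale.Agent.Iso4.Flat
import Vale.Agent.Iso4.AMain

/-! The main theorem. -/

open scoped ContDiff Topology Manifold
open Set Filter

noncomputable section
namespace Vale.Agent.Iso4

variable {M : Type*} [TopologicalSpace M] [ChartedSpace E2 M] [T2Space M] [CompactSpace M]
  [IsManifold (𝓡 2) ∞ M]

theorem sm_fst0 {G : M → V} (hG : Sm G) : Sm (fst0 G) :=
  hG.outer (Φ := fun x : V => x 0) fun _ =>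
    (EuclideanSpace.proj (0 : Fin 4) : V →L[ℝ] ℝ).contDiff.contDiffAt

theorem dM_fst0 {G : M → V} (hG : Sm G) (p : M) (u : E2) : dM (fst0 G) p u = dM G p u 0 :=
  dM_clm (EuclideanSpace.proj (0 : Fin 4) : V →L[ℝ] ℝ) hG u

theorem exists_geo' (g : Met M) : Nonempty (Geo g) := by
  obtain ⟨G, hG⟩ := exists_gen (M := M)
  obtain ⟨ϖ, h1, h2, h3, h4⟩ := exists_zeros hG.finite_umb hG.crit
    (Set.disjoint_left.2 fun p hp hq => hG.sep p hp hq) fun C hC => hG.even_umb hC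
  obtain ⟨A, B, U, hF⟩ := exists_formal g hG hG.finite_umb h1 h2 h3 h4
  obtain ⟨G', s1, s2, s3⟩ := corrugate g hG.sm hF
  refine exists_geo g (sm_fst0 hG.sm) s1 hF.smB hG.crit (fun p u t h => ?_) hF.B0
  by_contra hu
  refine s3 p u hu ?_ t h
  rw [← s2, dM_fst0 s1, h]
  simp [hF.B00]

theorem main (g : Met M) : ∃ F : M → V, Sm F ∧ ∀ p u, ‖dM F p u‖ ^ 2 = g.q p u := by
  obtain ⟨Γ⟩ := exists_geo' g
  exact Γ.solve

theorem main' (g : Met M) :
    ∃ F : M → V, Sm F ∧ ∀ p u w, inner ℝ (dM F p u) (dM F p w) = g.G p u w := by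
  obtain ⟨F, hF, h⟩ := main g
  refine ⟨F, hF, fun p u w => ?_⟩
  have h1 := h p (u + w)
  have h2 := h p u
  have h3 := h p w
  simp only [Met.q, map_add, ContinuousLinearMap.add_apply] at h1 h2 h3
  rw [norm_add_sq_real] at h1
  have := g.symm p w u
  linarith

end Vale.Agent.Iso4
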