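import Vale.Agent.Iso4.ManA

/-! Tame families on the surface, and metrics. -/

open scoped ContDiff Topology Manifold
open Set Filter

noncomputable section
namespace Vale.Agent.Iso4

variable {M : Type*} [TopologicalSpace M] [ChartedSpace E2 M]
  {X Y Z : Type} [NormedAddCommGroup X] [NormedSpace ℝ X] [NormedAddCommGroup Y] [NormedSpace ℝ Y]
  [NormedAddCommGroup Z] [NormedSpace ℝ Z]
  {ι : Type*} {s s' μ μ' L : ι → ℝ} {k k' : ℕ} {f g : ι → M → X}

/-- size one, scale `L` -/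
abbrev PM (L : ι → ℝ) (f : ι → M → X) : Prop := TameM (fun _ => 1) L 1 f

/-- from compact pieces of charts to the surface -/
theorem man_ev [CompactSpace M] [IsManifold (𝓡 2) ∞ M] {α : Type*} {l : Filter α}
    {P : α → M → Prop} (h : ∀ (e : Chart M) (K : Set P2), IsCompact K → K ⊆ e.target →
      ∀ᶠ a in l, ∀ z ∈ K, P a (e.inv z)) : ∀ᶠ a in l, ∀ p, P a p := by
  refine (isCompact_univ.induction_on (p := fun S => ∀ᶠ a in l, ∀ p ∈ S, P a p) (by simp)
    (fun S T hST hT => hT.mono fun a ha p hp => ha p (hST hp))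
    (fun S T hS hT => (hS.and hT).mono fun a ha p hp => hp.elim (ha.1 p) (ha.2 p))
    fun p _ => ?_).mono fun a ha p => ha p (mem_univ p)
  obtain ⟨e, he, -⟩ := exists_chart p
  obtain ⟨K, hK, h1, h2⟩ := exists_compact_subset e.open_target (e.to_mem he)
  refine ⟨_, mem_nhdsWithin_of_mem_nhds (e.ev_to (P := (· ∈ K)) he
    (mem_interior_iff_mem_nhds.1 h1)), (h e K hK h2).mono fun a ha q hq => ?_⟩
  simpa only [e.inv_to hq.1] using ha _ hq.2

/-- positive homogeneous functions -/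
theorem man_hom {W : Type} [NormedAddCommGroup W] [NormedSpace ℝ W] [FiniteDimensional ℝ W]
    {K : Set P2} (hK : IsCompact K) {Q : P2 → W → ℝ} {n : ℕ} (hn : n ≠ 0)
    (hc : ∀ z ∈ K, ∀ u, ContinuousAt (fun p : P2 × W => Q p.1 p.2) (z, u))
    (hp : ∀ z ∈ K, ∀ u, u ≠ 0 → 0 < Q z u)
    (hh : ∀ z u (t : ℝ), 0 ≤ t → Q z (t • u) = t ^ n * Q z u) : ∃ c C : ℝ, 0 < c ∧ 0 < C ∧
      ∀ z ∈ K, ∀ u, c * ‖u‖ ^ n ≤ Q z u ∧ Q z u ≤ C * ‖u‖ ^ n := by
  have h1 := hK.prod (isCompact_sphere (0 : W) 1)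
  have h2 : ContinuousOn (fun p : P2 × W => Q p.1 p.2) (K ×ˢ Metric.sphere 0 1) :=
    fun p hp => (hc _ hp.1 _).continuousWithinAt
  obtain ⟨c, hc0, hc⟩ := h1.exists_forall_le' h2 fun p h =>
    hp _ h.1 _ (Metric.ne_of_mem_sphere h.2 one_ne_zero)
  obtain ⟨C, hC⟩ := h1.exists_bound_of_continuousOn h2
  refine ⟨c, max C 1, hc0, by positivity, fun z hz u => ?_⟩
  rcases eq_or_ne u 0 with rfl | hu
  · have := hh z 0 0 le_rfl
    rw [zero_smul, zero_pow hn, zero_mul] at this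
    simp [this, hn]
  have hm : (z, ‖u‖⁻¹ • u) ∈ K ×ˢ Metric.sphere (0 : W) 1 :=
    ⟨hz, mem_sphere_zero_iff_norm.2 (norm_smul_inv_norm hu)⟩
  have := hh z (‖u‖⁻¹ • u) _ (norm_nonneg u)
  rw [smul_inv_smul₀ (norm_ne_zero_iff.2 hu), mul_comm] at this
  rw [this]
  exact ⟨mul_le_mul_of_nonneg_right (hc _ hm) (by positivity), mul_le_mul_of_nonneg_right
    ((le_abs_self _).trans ((hC _ hm).trans (le_max_left _ _))) (by positivity)⟩

namespace TameM

theorem absorb (h : TameM s μ k f) (hμ : ∀ i, μ i ≤ μ' i) {C : ℝ} (hC : 0 ≤ C)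
    (hs : ∀ i, s i * μ i ^ k ≤ C * (s' i * μ' i ^ k')) (h0 : ∀ i, 0 ≤ s' i) :
    TameM s' μ' k' f :=
  ⟨fun i => (h.1 i).trans (hμ i), h0, h.3, fun e K hK hs' => ((h.4 e K hK hs').absorb
    (s' := fun i _ => C * s' i) hμ (fun i _ _ => (hs i).trans_eq (mul_assoc _ _ _).symm)
    fun i _ _ => mul_nonneg hC (h0 i)).weakenC hC fun _ _ _ => le_rfl⟩
theorem mono_k (h : TameM s μ k f) (hk : k ≤ k') : TameM s μ k' f :=
  ⟨h.1, h.2, h.3, fun e K hK hs => (h.4 e K hK hs).mono_k hk⟩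
theorem mono_scale (h : TameM s μ k f) (hμ : ∀ i, μ i ≤ μ' i) : TameM s μ' k f :=
  ⟨fun i => (h.1 i).trans (hμ i), h.2, h.3, fun e K hK hs => (h.4 e K hK hs).mono_scale hμ⟩
theorem weaken (h : TameM s μ k f) (hs : ∀ i, s i ≤ s' i) : TameM s' μ k f :=
  ⟨h.1, fun i => (h.2 i).trans (hs i), h.3, fun e K hK hs' =>
    (h.4 e K hK hs').weaken fun i _ _ => hs i⟩
/-- a family of size at most one is polynomially tame at a power of the scale -/
theorem toPM (h : TameM s μ k f) (hs : ∀ i, s i ≤ 1) (hk : k ≤ k') (hk' : 1 ≤ k') :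
    PM (fun i => μ i ^ k') f :=
  (h.weaken hs).absorb (fun i => le_self_pow₀ (h.1 i) (by omega)) zero_le_one (fun i => by
    simpa using pow_le_pow_right₀ (h.1 i) hk) fun _ => zero_le_one
theorem reindex {ι' : Type*} (h : TameM s μ k f) (j : ι' → ι) :
    TameM (fun i => s (j i)) (fun i => μ (j i)) k fun i => f (j i) :=
  ⟨fun i => h.1 (j i), fun i => h.2 (j i), fun i => h.3 (j i), fun e K hK hs =>
    (h.4 e K hK hs).reindex j⟩
theorem zero (hμ : ∀ i, 1 ≤ μ i) (h0 : ∀ i, 0 ≤ s i) : TameM s μ k fun (_ : ι) (_ : M) => (0 : X) :=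
  ⟨hμ, h0, fun _ => Sm.const 0, fun _ _ _ _ => Tame.zero hμ⟩
theorem fixed (hμ : ∀ i, 1 ≤ μ i) {F : M → X} (hF : Sm F) : TameM (fun _ => 1) μ k fun _ => F :=
  ⟨hμ, fun _ => zero_le_one, fun _ => hF, fun e _ hK hs => Tame.fixed_compact hμ hK
    (fun _ hz => e.contDiffAt_rep hF (hs hz)) fun _ => subset_rfl⟩
theorem const (hμ : ∀ i, 1 ≤ μ i) {c : ι → X} (hc : ∀ i, ‖c i‖ ≤ s i) :
    TameM s μ k fun i (_ : M) => c i :=
  ⟨hμ, fun i => (norm_nonneg _).trans (hc i), fun _ => Sm.const _, fun _ _ _ _ =>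
    Tame.const hμ fun i _ _ => hc i⟩
theorem add (hf : TameM s μ k f) (hg : TameM s μ k g) : TameM s μ k fun i p => f i p + g i p :=
  ⟨hf.1, hf.2, fun i => (hf.3 i).add (hg.3 i), fun e K hK hs =>
    (hf.4 e K hK hs).add (hg.4 e K hK hs)⟩
theorem sub (hf : TameM s μ k f) (hg : TameM s μ k g) : TameM s μ k fun i p => f i p - g i p :=
  ⟨hf.1, hf.2, fun i => (hf.3 i).sub (hg.3 i), fun e K hK hs =>
    (hf.4 e K hK hs).sub (hg.4 e K hK hs)⟩
theorem neg (hf : TameM s μ k f) : TameM s μ k fun i p => -f i p :=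
  ⟨hf.1, hf.2, fun i => (hf.3 i).neg, fun e K hK hs => (hf.4 e K hK hs).neg⟩
theorem sum (hμ : ∀ i, 1 ≤ μ i) (h0 : ∀ i, 0 ≤ s i) {κ : Type*} (t : Finset κ) {F : κ → ι → M → X}
    (h : ∀ j ∈ t, TameM s μ k (F j)) : TameM s μ k fun i p => ∑ j ∈ t, F j i p :=
  ⟨hμ, h0, fun i => Sm.sum t fun j hj => (h j hj).3 i, fun e K hK hs =>
    Tame.sum hμ t fun j hj => (h j hj).4 e K hK hs⟩
theorem clm (hf : TameM s μ k f) (T : X →L[ℝ] Y) : TameM s μ k fun i p => T (f i p) :=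
  ⟨hf.1, hf.2, fun i => (hf.3 i).outer fun _ => T.contDiff.contDiffAt, fun e K hK hs =>
    (hf.4 e K hK hs).clm T⟩
theorem const_smul (hf : TameM s μ k f) (c : ℝ) : TameM s μ k fun i p => c • f i p :=
  hf.clm (c • ContinuousLinearMap.id ℝ X)
theorem smul_index (hf : TameM s μ k f) {c t : ι → ℝ} (hc : ∀ i, |c i| ≤ t i) :
    TameM (fun i => t i * s i) μ k fun i p => c i • f i p :=
  ⟨hf.1, fun i => mul_nonneg ((abs_nonneg _).trans (hc i)) (hf.2 i), fun i =>
    (Sm.const _).smul (hf.3 i), fun e K hK hs => (hf.4 e K hK hs).smul_index hc⟩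
theorem bilin {g : ι → M → Y} (B : X →L[ℝ] Y →L[ℝ] Z) (hf : TameM s μ k f) (hg : TameM s' μ k' g) :
    TameM (fun i => s i * s' i) μ (k + k') fun i p => B (f i p) (g i p) :=
  ⟨hf.1, fun i => mul_nonneg (hf.2 i) (hg.2 i), fun i => ContMDiff.clm_apply
    ((hf.clm B).3 i) (hg.3 i), fun e K hK hs => (hf.4 e K hK hs).bilin B (hg.4 e K hK hs)⟩
theorem smul1 {f : ι → M → ℝ} (hf : TameM (fun _ => 1) μ k f) (hg : TameM s' μ k' g) :
    TameM s' μ (k + k') fun i p => f i p • g i p :=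
  (hf.bilin (ContinuousLinearMap.lsmul ℝ ℝ) hg).weaken fun _ => (one_mul _).le
theorem mul1 {f g : ι → M → ℝ} (hf : TameM (fun _ => 1) μ k f) (hg : TameM s' μ k' g) :
    TameM s' μ (k + k') fun i p => f i p * g i p :=
  hf.smul1 hg
/-- multiplication by a fixed smooth function -/
theorem fsmul {c : M → ℝ} (hc : Sm c) (hg : TameM s μ k g) :
    TameM s μ k fun i p => c p • g i p := by
  simpa only [zero_add] using (fixed (k := 0) hg.1 hc).smul1 hg
theorem fmul {c : M → ℝ} {g : ι → M → ℝ} (hc : Sm c) (hg : TameM s μ k g) :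
    TameM s μ k fun i p => c p * g i p :=
  hg.fsmul hc

/-- extension by zero of a family supported in a compact subset of the target -/
theorem ext [T2Space M] (e : Chart M) {K : Set P2} (hK : IsCompact K) (h : K ⊆ e.target)
    {w : ι → P2 → X} (hw : ∀ i, ∀ z ∉ K, w i z = 0) (h0 : ∀ i, 0 ≤ s i)
    (ht : Tame (fun _ => K) (fun i _ => s i) μ k w) : TameM s μ k fun i => e.ext (w i) := by
  refine ⟨ht.1, h0, fun i => e.sm_ext hK h (hw i) fun z _ => ?_, fun e' K' hK' hs => ?_⟩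
  · by_cases hz : z ∈ K
    · exact ht.2 i z hz
    · exact contDiffAt_const.congr_of_eventuallyEq
        (mem_of_superset (hK.isClosed.isOpen_compl.mem_nhds hz) (hw i))
  have hA := e'.isCompact_to ((e'.isCompact_inv hK' hs).inter (e.isCompact_inv hK h))
    fun p hp => ((e'.mem_inv_image hs).1 hp.1).1
  have h1 : ∀ z ∈ e'.to '' (e'.inv '' K' ∩ e.inv '' K),
      z ∈ e'.target ∧ e'.inv z ∈ e.source ∧ e'.tr e z ∈ K := by
    rintro _ ⟨p, hp, rfl⟩
    have h2 := ((e'.mem_inv_image hs).1 hp.1).1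
    rw [Chart.tr, e'.inv_to h2]
    exact ⟨e'.to_mem h2, (e.mem_inv_image h).1 hp.2⟩
  have h2 := fun z hz => e'.contDiffAt_tr e (h1 z hz).1 (h1 z hz).2.1
  refine (((ht.comp_fixed h2 (fun m => hA.exists_bound_of_continuousOn fun z hz =>
    ((h2 z hz).continuousAt_iteratedFDeriv (tame_le _)).continuousWithinAt)
    (fun _ => subset_rfl) fun _ z hz => (h1 z hz).2.2).congr fun i z hz => ?_).union
    ((Tame.zero (Ω := fun _ => K' \ e'.inv ⁻¹' (e.inv '' K)) ht.1).congr fun i z hz => ?_)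
    fun i _ _ => h0 i).mono_set fun i z hz => ?_
  · exact (e'.ev_inv (P := (· ∈ e.source)) (h1 z hz).1
      (e.open_source.mem_nhds (h1 z hz).2.1)).mono fun x hx => (e.ext_of_mem _ hx).symm
  · exact EventuallyEq.symm (e'.ev_inv (hs hz.1) (e.ext_ev_zero hK h (hw i) hz.2))
  · by_cases h3 : e'.inv z ∈ e.inv '' K
    · exact Or.inl ⟨_, ⟨mem_image_of_mem _ hz, h3⟩, e'.to_inv (hs hz)⟩
    · exact Or.inr ⟨hz, h3⟩

theorem norm_le [CompactSpace M] [IsManifold (𝓡 2) ∞ M] (h : TameM s μ k f) :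
    ∃ C : ℝ, 0 ≤ C ∧ ∀ i p, ‖f i p‖ ≤ C * (s i * μ i ^ k) := by
  refine ((eventually_ge_atTop 0).and (man_ev (P := fun C p => ∀ i, ‖f i p‖ ≤ C * (s i * μ i ^ k))
    fun e K hK hs => ?_)).exists.imp fun C hC => ⟨hC.1, fun i p => hC.2 p i⟩
  obtain ⟨C, -, hC⟩ := (h.4 e K hK hs).norm_le
  filter_upwards [eventually_ge_atTop C] with D hD z hz i
  exact (hC i z hz).trans (mul_le_mul_of_nonneg_right hD
    (mul_nonneg (h.2 i) (pow_nonneg (zero_le_one.trans (h.1 i)) _)))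

end TameM

theorem PM.pow {f : ι → M → X} (h : PM L f) {n : ℕ} (hn : 1 ≤ n) : PM (fun i => L i ^ n) f :=
  h.mono_scale fun i => le_self_pow₀ (h.1 i) (by omega)

namespace Met
variable (g : Met M) (e : Chart M) {p : M} {z : P2}

theorem q_nonneg (p : M) (u : E2) : 0 ≤ g.q p u := by
  rcases eq_or_ne u 0 with rfl | h
  exacts [by simp [q], (g.pos p u h).le]
theorem q_eq (hp : p ∈ e.source) (u : E2) :
    g.q p u = g.cf e (e.push p u) (e.push p u) (e.to p) := by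
  rw [cf, e.pull_push hp, e.inv_to hp, q]
theorem cf_eq (u : P2) (z : P2) : g.cf e u u z = g.q (e.inv z) (e.pull z u) := rfl
theorem cf_symm (u w : P2) (z : P2) : g.cf e u w z = g.cf e w u z :=
  g.symm _ _ _
theorem cf_expand (u z : P2) : g.cf e u u z = g.cf e (1, 0) (1, 0) z * u.1 ^ 2 +
    2 * g.cf e (1, 0) (0, 1) z * u.1 * u.2 + g.cf e (0, 1) (0, 1) z * u.2 ^ 2 := by
  have h : u = u.1 • ((1, 0) : P2) + u.2 • ((0, 1) : P2) := by simp
  have h' := g.cf_symm e (0, 1) (1, 0) z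
  rw [congrArg (fun v => g.cf e v v z) h]
  simp only [cf, map_add, map_smul, add_apply, smul_apply, smul_eq_mul] at h' ⊢
  rw [h']
  ring
theorem cf_pos (hz : z ∈ e.target) {u : P2} (hu : u ≠ 0) : 0 < g.cf e u u z :=
  g.pos _ _ fun h => hu (by rw [← e.push_pull hz u, h, map_zero])
theorem contDiffAt_cf (u w : P2) (hz : z ∈ e.target) : ContDiffAt ℝ ∞ (g.cf e u w) z :=
  (g.smooth e u w).contDiffAt (e.open_target.mem_nhds hz)
/-- comparison with the flat metric on compact sets -/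
theorem compare {K : Set P2} (hK : IsCompact K) (h : K ⊆ e.target) : ∃ c C : ℝ, 0 < c ∧ 0 < C ∧
    ∀ z ∈ K, ∀ u : P2, c * ‖u‖ ^ 2 ≤ g.cf e u u z ∧ g.cf e u u z ≤ C * ‖u‖ ^ 2 := by
  refine man_hom hK (Q := fun z u => g.cf e u u z) two_ne_zero (fun z hz u => ?_)
    (fun z hz u hu => g.cf_pos e (h hz) hu) fun z u t _ => ?_
  · have := fun v w => ContinuousAt.comp (f := Prod.fst) (x := (z, u))
      (g.contDiffAt_cf e v w (h hz)).continuousAt continuousAt_fst
    simp only [funext fun p : P2 × P2 => g.cf_expand e p.2 p.1]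
    exact (((this _ _).mul (by fun_prop)).add (((continuousAt_const.mul (this _ _)).mul
      (by fun_prop)).mul (by fun_prop))).add ((this _ _).mul (by fun_prop))
  · simp only [cf, map_smul, smul_apply, smul_eq_mul]
    ring

theorem q_inv (hz : z ∈ e.target) (u : E2) :
    g.q (e.inv z) u = g.cf e (e.push (e.inv z) u) (e.push (e.inv z) u) z := by
  rw [g.q_eq e (e.inv_mem hz), e.to_inv hz]
/-- an immersion of a compact surface is uniformly injective -/
theorem imm_low [CompactSpace M] [IsManifold (𝓡 2) ∞ M] {F : M → X} (hF : Sm F)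
    (hi : ∀ p u, dM F p u = 0 → u = 0) :
    ∃ c : ℝ, 0 < c ∧ ∀ p u, c * g.q p u ≤ ‖dM F p u‖ ^ 2 := by
  refine (Eventually.and eventually_mem_nhdsWithin (man_ev (l := 𝓝[>] (0 : ℝ))
    (P := fun c p => ∀ u, c * g.q p u ≤ ‖dM F p u‖ ^ 2) fun e K hK hs => ?_)).exists
  obtain ⟨c', C, -, hC, h1⟩ := g.compare e hK hs
  obtain ⟨c, C', hc, -, h2⟩ := man_hom hK (Q := fun z u => ‖fderiv ℝ (e.rep F) z u‖ ^ 2) two_ne_zero
    (fun z hz u => (((ContinuousAt.comp (f := Prod.fst) (x := (z, u))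
      (tame_fd (e.contDiffAt_rep hF (hs hz))).continuousAt continuousAt_fst).clm_apply
      continuousAt_snd).norm).pow 2)
    (fun z hz u hu => pow_pos (norm_pos_iff.2 fun h => hu (by
      rw [e.fderiv_rep hF (hs hz)] at h
      rw [← e.push_pull (hs hz) u, hi _ _ h, map_zero])) 2)
    fun z u t ht => by rw [map_smul, norm_smul, mul_pow, Real.norm_of_nonneg ht]
  filter_upwards [Ioc_mem_nhdsGT (div_pos hc hC)] with a ha z hz u
  rw [e.dM_eq hF (e.inv_mem (hs hz)), e.to_inv (hs hz), g.q_inv e (hs hz)]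
  refine le_trans ?_ (h2 z hz _).1
  refine (mul_le_mul ha.2 (h1 z hz _).2 (g.q_nonneg _ _) (by positivity)).trans_eq ?_
  rw [← mul_assoc, div_mul_cancel₀ _ hC.ne']

end Met

theorem TameM.dM_le [CompactSpace M] [IsManifold (𝓡 2) ∞ M] (h : TameM s μ k f) (g : Met M) :
    ∃ C : ℝ, 0 ≤ C ∧ ∀ i p u, ‖dM (f i) p u‖ ≤ C * (s i * μ i ^ (k + 1)) * √(g.q p u) := by
  refine ((eventually_ge_atTop 0).and (man_ev (P := fun C p => ∀ i u, ‖dM (f i) p u‖ ≤
    C * (s i * μ i ^ (k + 1)) * √(g.q p u)) fun e K hK hs => ?_)).exists.imp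
    fun C hC => ⟨hC.1, fun i p => hC.2 p i⟩
  obtain ⟨C, hC0, hC⟩ := (h.4 e K hK hs).norm_fderiv_le
  obtain ⟨c, C', hc, -, h1⟩ := g.compare e hK hs
  filter_upwards [eventually_ge_atTop (C / √c)] with D hD z hz i u
  have h2 := mul_nonneg (h.2 i) (pow_nonneg (zero_le_one.trans (h.1 i)) (k + 1))
  have h3 := Real.sqrt_le_sqrt (h1 z hz (e.push (e.inv z) u)).1
  rw [Real.sqrt_mul hc.le, Real.sqrt_sq (norm_nonneg _)] at h3
  have h4 := Real.sqrt_pos.2 hc
  rw [e.dM_eq (h.3 i) (e.inv_mem (hs hz)), e.to_inv (hs hz), g.q_inv e (hs hz)]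
  refine (ContinuousLinearMap.le_of_opNorm_le _ (hC i z hz) _).trans (le_trans (le_of_eq ?_)
    (mul_le_mul (mul_le_mul_of_nonneg_right hD h2) h3 (by positivity)
    (mul_nonneg (le_trans (by positivity) hD) h2)))
  field_simp

namespace Met
variable (g : Met M)
theorem dM_up [CompactSpace M] [IsManifold (𝓡 2) ∞ M] {F : M → X} (hF : Sm F) :
    ∃ C : ℝ, 0 < C ∧ ∀ p u, ‖dM F p u‖ ^ 2 ≤ C * g.q p u := by
  obtain ⟨C, -, hC⟩ := (TameM.fixed (μ := fun _ : Unit => 1) (k := 0) (fun _ => le_rfl) hF).dM_le g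
  refine ⟨C ^ 2 + 1, by positivity, fun p u => ?_⟩
  have := pow_le_pow_left₀ (norm_nonneg _) (hC () p u) 2
  rw [one_pow, mul_one, mul_one, mul_pow, Real.sq_sqrt (g.q_nonneg p u)] at this
  linarith [g.q_nonneg p u]

end Met

/-- a transversal field along an immersion of a compact surface is uniformly transversal -/
theorem tr_low [CompactSpace M] [IsManifold (𝓡 2) ∞ M] {F B : M → X} (hF : Sm F) (hB : Sm B)
    (hi : ∀ p u (t : ℝ), dM F p u = t • B p → u = 0) (h0 : ∀ p, B p ≠ 0) :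
    ∃ c : ℝ, 0 < c ∧ ∀ p, Tr c (B p) (dM F p) := by
  refine (Eventually.and eventually_mem_nhdsWithin (man_ev (l := 𝓝[>] (0 : ℝ))
    (P := fun c p => Tr c (B p) (dM F p)) fun e K hK hs => ?_)).exists
  obtain ⟨c, C', hc, -, h2⟩ := man_hom hK (Q := fun z (u : P2 × ℝ) =>
    ‖u.2 • e.rep B z - fderiv ℝ (e.rep F) z u.1‖) one_ne_zero
    (fun z hz u => ((continuousAt_snd.snd.smul (ContinuousAt.comp (f := Prod.fst) (x := (z, u))
      (e.contDiffAt_rep hB (hs hz)).continuousAt continuousAt_fst)).sub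
      ((ContinuousAt.comp (f := Prod.fst) (x := (z, u))
      (tame_fd (e.contDiffAt_rep hF (hs hz))).continuousAt continuousAt_fst).clm_apply
      continuousAt_snd.fst)).norm)
    (fun z hz u hu => norm_pos_iff.2 fun h => hu (by
      rw [e.fderiv_rep hF (hs hz), sub_eq_zero] at h
      have h1 := hi _ _ _ h.symm
      rw [h1, map_zero] at h
      exact Prod.ext (by rw [← e.push_pull (hs hz) u.1, h1, map_zero]; rfl)
        ((smul_eq_zero.1 h).resolve_right (h0 _))))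
    fun z u t ht => by
      rw [Prod.smul_fst, Prod.smul_snd, map_smul, smul_assoc, ← smul_sub, norm_smul,
        Real.norm_of_nonneg ht, pow_one]
  filter_upwards [Ioc_mem_nhdsGT hc] with a ha z hz u
  have := (h2 z hz (e.push (e.inv z) u, 1)).1
  rw [one_smul, pow_one] at this
  rw [e.dM_eq hF (e.inv_mem (hs hz)), e.to_inv (hs hz)]
  exact (ha.2.trans (le_mul_of_one_le_right hc.le (norm_one.ge.trans (le_max_right _ _)))).trans
    this

/-- the metric of the library gives a metric in our sense -/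
theorem exists_met [IsManifold (𝓡 2) ∞ M]
    (g : Bundle.ContMDiffRiemannianMetric (𝓡 2) ∞ E2 (fun p : M => TangentSpace (𝓡 2) p)) :
    ∃ g' : Met M, ∀ p (u w : E2), g'.G p u w = g.inner p u w := by
  refine ⟨⟨fun p => g.inner p, g.symm, g.pos, fun e u w => ?_⟩, fun _ _ _ => rfl⟩
  have hs : ∀ u : P2, ContMDiffOn 𝓘(ℝ, P2) (𝓡 2).tangent ∞ (fun z => Bundle.TotalSpace.mk' E2
      (E := fun p : M => TangentSpace (𝓡 2) p) (e.inv z) (e.pull z u)) e.target := fun u => by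
    refine ((e.sm'.contMDiffOn_tangentMapWithin (m := ∞) (by simp)
      e.open_target.uniqueMDiffOn).comp (contMDiffOn_vectorSpace_iff_contDiffOn
      (V := fun _ => u) |>.2 contDiffOn_const) fun _ h => h).congr fun z hz => ?_
    simp only [Function.comp, tangentMapWithin, mfderivWithin_of_isOpen e.open_target hz]
    rfl
  intro z hz
  have : ContMDiffWithinAt 𝓘(ℝ, P2) ((𝓡 2).prod 𝓘(ℝ)) ∞ (fun z => Bundle.TotalSpace.mk' ℝ
      (E := Bundle.Trivial M ℝ) (e.inv z) (g.inner (e.inv z) (e.pull z u) (e.pull z w)))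
      e.target z := by
    apply ContMDiffWithinAt.clm_bundle_apply₂ (F₁ := E2) (F₂ := E2)
    · exact ContMDiffAt.comp_contMDiffWithinAt z g.contMDiff.contMDiffAt (e.sm' z hz)
    · exact hs u z hz
    · exact hs w z hz
  rw [Bundle.contMDiffWithinAt_totalSpace] at this
  exact this.2.contDiffWithinAt

end Vale.Agent.Iso4
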