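import Vale.Agent.Iso4.ManC
import Vale.Agent.Iso4.GS

/-! The second order operator of an atlas. -/

open scoped ContDiff Topology Manifold
open Set Filter

noncomputable section
namespace Vale.Agent.Iso4

variable {M : Type*} [TopologicalSpace M] [ChartedSpace E2 M] [T2Space M]
  {X : Type} [NormedAddCommGroup X] [NormedSpace ℝ X] {S : Set M} (A : Atl M S)

omit [T2Space M] in
theorem man_d2 (e e' : Chart M) {p : M} (hp : p ∈ e.source) (hp' : p ∈ e'.source) {F : M → X}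
    (hF : Sm F) (v w : P2) : d2 (e'.rep F) (e'.to p) v w =
      d2 (e.rep F) (e.to p) (fderiv ℝ (e'.tr e) (e'.to p) v) (fderiv ℝ (e'.tr e) (e'.to p) w) +
        fderiv ℝ (e.rep F) (e.to p) (d2 (e'.tr e) (e'.to p) v w) := by
  have h1 : e'.inv (e'.to p) ∈ e.source := by rwa [e'.inv_to hp']
  rw [d2_congr (e'.rep_tr e F (e'.to_mem hp') h1), d2_comp (e.contDiffAt_rep hF (e.to_mem h1))
    (e'.contDiffAt_tr e (e'.to_mem hp') h1), Chart.tr, e'.inv_to hp']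

omit [T2Space M] in
theorem man_inv (e e' : Chart M) {p : M} (hp : p ∈ e.source) (hp' : p ∈ e'.source) (v : P2) :
    fderiv ℝ (e.tr e') (e.to p) (fderiv ℝ (e'.tr e) (e'.to p) v) = v := by
  rw [e.fderiv_tr e' (e.to_mem hp) (by rwa [e.inv_to hp]), e'.fderiv_tr e (e'.to_mem hp')
    (by rwa [e'.inv_to hp']), e.inv_to hp, e'.inv_to hp', e.pull_push hp, e'.push_pull' hp']

omit [T2Space M] in
theorem man_bd (e e' : Chart M) {K : Set M} (hK : IsCompact K) (h : K ⊆ e.source)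
    (h' : K ⊆ e'.source) : ∃ C : ℝ, 0 ≤ C ∧ ∀ p ∈ K, ‖fderiv ℝ (e'.tr e) (e'.to p)‖ ≤ C ∧
      ∀ v w, ‖d2 (e'.tr e) (e'.to p) v w‖ ≤ C * (‖v‖ * ‖w‖) := by
  have ht := Tame.fixed_compact (Ω := fun _ : Unit => e'.to '' K) (μ := fun _ => 1) (k := 0)
    (F := e'.tr e) (fun _ => le_rfl) (e'.isCompact_to hK h') (by
      rintro _ ⟨p, hp, rfl⟩
      exact e'.contDiffAt_tr e (e'.to_mem (h' hp)) (by rw [e'.inv_to (h' hp)]; exact h hp))
    fun _ => subset_rfl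
  obtain ⟨C, hC, h1⟩ := ht.norm_fderiv_le
  obtain ⟨D, hD, h2⟩ := ht.norm_d2_le
  simp only [one_pow, mul_one] at h1 h2
  exact ⟨C + D, by positivity, fun p hp => ⟨(h1 () _ ⟨p, hp, rfl⟩).trans (by linarith), fun v w =>
    (h2 () _ ⟨p, hp, rfl⟩ v w).trans (by gcongr; linarith)⟩⟩

theorem man_scale {f : P2 → X} {z v : P2} {κ C : ℝ} {T : P2 →L[ℝ] X} (hC : 0 < C) (hv : ‖v‖ ≤ C)
    (h : Tr κ (d2 f z v v) T) : ∃ v : P2, ‖v‖ ≤ 1 ∧ Tr (C⁻¹ * C⁻¹ * κ) (d2 f z v v) T := by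
  refine ⟨C⁻¹ • v, ?_, ?_⟩
  · rwa [norm_smul, norm_inv, Real.norm_of_nonneg hC.le, inv_mul_le_one₀ hC]
  · simpa only [d2, map_smul, smul_apply, smul_smul] using
      h.smul (c := C⁻¹ * C⁻¹) (by positivity)

namespace Atl

omit [T2Space M] in
theorem D_eq (F : M → X) (p : M) :
    A.D F p = ∑ k, A.bM k p • dy (dy ((A.e k).rep F)) ((A.e k).to p) := by
  refine Finset.sum_congr rfl fun k _ => ?_
  unfold bM Chart.ext
  split_ifs
  exacts [rfl, (zero_smul ℝ _).symm]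

omit [T2Space M] in
theorem bM_zero {k : Fin A.n} {p : M} (hp : p ∉ (A.e k).inv '' A.K0 k) : A.bM k p = 0 := by
  unfold bM Chart.ext
  split_ifs with h
  exacts [A.b_zero k fun h' => hp (((A.e k).mem_inv_image (A.sub0 k)).2 ⟨h, h'⟩), rfl]

theorem sm_D {F : M → X} (hF : Sm F) : Sm (A.D F) :=
  Sm.sum _ fun k _ => (A.e k).sm_ext (A.cK0 k) (A.sub0 k)
    (fun _ hz => by rw [A.b_zero k hz, zero_smul]) fun _ hz => (A.smb k).contDiffAt.smul
      (ContDiffAt_dd (ContDiffAt_dd ((A.e k).contDiffAt_rep hF hz) _) _)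

theorem tame_D {ι : Type*} {s μ : ι → ℝ} {k : ℕ} {f : ι → M → X} (h : TameM s μ k f) :
    TameM s μ (k + 2) fun i => A.D (f i) :=
  TameM.sum h.1 h.2 _ fun j _ => TameM.ext (A.e j) (A.cK0 j) (A.sub0 j)
    (fun _ _ hz => by rw [A.b_zero j hz, zero_smul]) h.2 (by
      simpa only [zero_add] using (Tame.fixed_compact (k := 0) h.1 (A.cK0 j)
        (fun _ _ => (A.smb j).contDiffAt) fun _ => subset_rfl).smul1
        (((h.4 _ _ (A.cK0 j) (A.sub0 j)).dd (0, 1)).dd (0, 1)))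

theorem D_add {F G : M → X} (hF : Sm F) (hG : Sm G) (p : M) :
    A.D (fun p => F p + G p) p = A.D F p + A.D G p := by
  simp only [D_eq, ← Finset.sum_add_distrib, ← smul_add]
  refine Finset.sum_congr rfl fun k _ => ?_
  by_cases hp : p ∈ (A.e k).source
  · have h1 := (A.e k).contDiffAt_rep hF ((A.e k).to_mem hp)
    have h2 := (A.e k).contDiffAt_rep hG ((A.e k).to_mem hp)
    exact congrArg _ ((dd_dd (h1.add h2) _ _).trans ((d2_add h1 h2 _ _).trans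
      (congrArg₂ _ (dd_dd h1 _ _).symm (dd_dd h2 _ _).symm)))
  · rw [bM, Chart.ext_of_not_mem _ _ hp, zero_smul, zero_smul]

theorem D_congr {F G : M → X} {p : M} (h : F =ᶠ[𝓝 p] G) : A.D F p = A.D G p := by
  simp only [D_eq]
  refine Finset.sum_congr rfl fun k _ => ?_
  by_cases hp : p ∈ (A.e k).source
  · have h1 : (A.e k).rep F =ᶠ[𝓝 ((A.e k).to p)] (A.e k).rep G :=
      (A.e k).ev_inv (P := fun q => F q = G q) ((A.e k).to_mem hp) (by rwa [(A.e k).inv_to hp])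
    have h2 : dy ((A.e k).rep F) =ᶠ[𝓝 ((A.e k).to p)] dy ((A.e k).rep G) :=
      (h1.fderiv (𝕜 := ℝ)).mono fun x hx => DFunLike.congr_fun hx _
    exact congrArg _ (DFunLike.congr_fun h2.fderiv_eq _)
  · rw [bM, Chart.ext_of_not_mem _ _ hp, zero_smul, zero_smul]

theorem D_zero {F : M → X} {p : M} (h : F =ᶠ[𝓝 p] fun _ => 0) : A.D F p = 0 := by
  rw [A.D_congr h, D_eq]
  refine Finset.sum_eq_zero fun k _ => smul_eq_zero_of_right _ ?_
  refine (dd_dd (f := fun _ => (0 : X)) contDiffAt_const _ _).trans ?_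
  simp [d2]

theorem D_rep_aux (e : Chart M) {K : Set P2} (hK : IsCompact K) (h : K ⊆ e.target) :
    ∃ c C : ℝ, 0 < c ∧ 0 < C ∧ ∀ z ∈ K, ∃ (β : Fin A.n → ℝ) (v : Fin A.n → P2) (u : P2),
      (∀ j, 0 ≤ β j ∧ β j ≤ 1) ∧ (∀ j, ‖v j‖ ≤ C) ∧ ‖u‖ ≤ C ∧
      (e.inv z ∈ S → ∃ j, β j = 1 ∧ c ≤ ‖v j‖) ∧
      (∀ F : M → X, Sm F → A.D F (e.inv z) =
        ∑ j, β j • d2 (e.rep F) z (v j) (v j) + fderiv ℝ (e.rep F) z u) ∧
      ∀ φ : M → ℝ, (∀ k, (A.e k).Adapt φ) → e.Adapt φ → ∀ j, (v j).1 = 0 := by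
  classical
  have hk := fun j => (e.isCompact_inv hK h).inter ((A.e j).isCompact_inv (A.cK0 j) (A.sub0 j))
  have hs : ∀ j, e.inv '' K ∩ (A.e j).inv '' A.K0 j ⊆ e.source := fun j p hp =>
    ((e.mem_inv_image h).1 hp.1).1
  have hs' : ∀ j, e.inv '' K ∩ (A.e j).inv '' A.K0 j ⊆ (A.e j).source := fun j p hp =>
    (((A.e j).mem_inv_image (A.sub0 j)).1 hp.2).1
  choose C1 hC1 H1 using fun j => man_bd e (A.e j) (hk j) (hs j) (hs' j)
  choose C2 hC2 H2 using fun j => man_bd (A.e j) e (hk j) (hs' j) (hs j)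
  obtain ⟨C, hC⟩ := (finite_range fun j => max (C1 j) (C2 j)).bddAbove
  have hD : 0 < max C 1 := by positivity
  have h1 : ∀ j, C1 j ≤ max C 1 := fun j =>
    le_max_of_le_left ((le_max_left _ _).trans (hC ⟨j, rfl⟩))
  have h2 : ∀ j, C2 j ≤ max C 1 := fun j =>
    le_max_of_le_left ((le_max_right _ _).trans (hC ⟨j, rfl⟩))
  have hn : ‖((0, 1) : P2)‖ = 1 := by simp
  refine ⟨(max C 1)⁻¹, (A.n + 1) * max C 1, by positivity, by positivity, fun z hz => ?_⟩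
  have hp := e.inv_mem (h hz)
  have hm : ∀ {j}, e.inv z ∈ (A.e j).inv '' A.K0 j →
      e.inv z ∈ e.inv '' K ∩ (A.e j).inv '' A.K0 j := fun hj => ⟨mem_image_of_mem _ hz, hj⟩
  refine ⟨fun j => A.bM j (e.inv z), fun j => if e.inv z ∈ (A.e j).inv '' A.K0 j then
    fderiv ℝ ((A.e j).tr e) ((A.e j).to (e.inv z)) (0, 1) else 0,
    ∑ j, A.bM j (e.inv z) • d2 ((A.e j).tr e) ((A.e j).to (e.inv z)) (0, 1) (0, 1),
    fun j => A.bM_mem j _, fun j => ?_, ?_, fun hS => ?_, fun F hF => ?_, fun φ hA he j => ?_⟩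
  · beta_reduce
    split_ifs with hj
    · refine (ContinuousLinearMap.le_of_opNorm_le _ ((H1 j _ (hm hj)).1.trans (h1 j)) _).trans ?_
      rw [hn]
      nlinarith [Nat.cast_nonneg (α := ℝ) A.n]
    · rw [norm_zero]
      positivity
  · refine (norm_sum_le_of_le _ (n := fun _ => max C 1) fun j _ => ?_).trans (by simp [add_mul])
    by_cases hj : e.inv z ∈ (A.e j).inv '' A.K0 j
    · have := (H1 j _ (hm hj)).2 (0, 1) (0, 1)
      rw [hn, mul_one, mul_one] at this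
      rw [norm_smul, Real.norm_of_nonneg (A.bM_mem j _).1]
      exact (mul_le_of_le_one_left (norm_nonneg _) (A.bM_mem j _).2).trans (this.trans (h1 j))
    · rw [A.bM_zero hj, zero_smul, norm_zero]
      exact hD.le
  · obtain ⟨j, h3, h4, h5⟩ := A.cover0 hS
    have hj := ((A.e j).mem_inv_image (A.sub0 j)).2 ⟨h3, h4⟩
    refine ⟨j, (Chart.ext_of_mem _ _ h3).trans h5, ?_⟩
    have := ContinuousLinearMap.le_of_opNorm_le _ ((H2 j _ (hm hj)).1.trans (h2 j))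
      (fderiv ℝ ((A.e j).tr e) ((A.e j).to (e.inv z)) (0, 1))
    rw [man_inv _ _ hp h3, hn] at this
    simp only [if_pos hj]
    rwa [inv_le_iff_one_le_mul₀' hD]
  · rw [D_eq, map_sum, ← Finset.sum_add_distrib]
    refine Finset.sum_congr rfl fun j _ => ?_
    by_cases hj : e.inv z ∈ (A.e j).inv '' A.K0 j
    · have h3 := hs' j (hm hj)
      simp only [if_pos hj]
      rw [dy, dd_dd ((A.e j).contDiffAt_rep hF ((A.e j).to_mem h3)), man_d2 e _ hp h3 hF,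
        e.to_inv (h hz), smul_add, map_smul]
    · simp [A.bM_zero hj]
  · beta_reduce
    split_ifs with hj
    · have h3 := hs' j (hm hj)
      have h4 : (A.e j).inv ((A.e j).to (e.inv z)) ∈ e.source := by rwa [(A.e j).inv_to h3]
      exact DFunLike.congr_fun (((((A.e j).contDiffAt_tr e ((A.e j).to_mem h3) h4).differentiableAt
        (by simp)).hasFDerivAt.fst).unique (hasFDerivAt_fst.congr_of_eventuallyEq
        (Chart.Adapt.tr_fst _ _ (hA j) he ((A.e j).to_mem h3) h4))) (0, 1)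
    · rfl

/-- representation in an arbitrary chart -/
theorem D_rep (e : Chart M) {K : Set P2} (hK : IsCompact K) (h : K ⊆ e.target) :
    ∃ c C : ℝ, 0 < c ∧ 0 < C ∧ ∀ z ∈ K, ∃ (β : Fin A.n → ℝ) (v : Fin A.n → P2) (u : P2),
      (∀ j, 0 ≤ β j ∧ β j ≤ 1) ∧ (∀ j, ‖v j‖ ≤ C) ∧ ‖u‖ ≤ C ∧
      (e.inv z ∈ S → ∃ j, β j = 1 ∧ c ≤ ‖v j‖) ∧
      ∀ F : M → X, Sm F → A.D F (e.inv z) =
        ∑ j, β j • d2 (e.rep F) z (v j) (v j) + fderiv ℝ (e.rep F) z u := by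
  obtain ⟨c, C, hc, hC, H⟩ := A.D_rep_aux (X := X) e hK h
  refine ⟨c, C, hc, hC, fun z hz => ?_⟩
  obtain ⟨β, v, u, h1, h2, h3, h4, h5, -⟩ := H z hz
  exact ⟨β, v, u, h1, h2, h3, h4, h5⟩

/-- representation in a chart adapted to the same function as the atlas -/
theorem D_phi {φ : M → ℝ} (hA : ∀ k, (A.e k).Adapt φ) (e : Chart M) (he : e.Adapt φ) {K : Set P2}
    (hK : IsCompact K) (h : K ⊆ e.target) :
    ∃ C : ℝ, 0 < C ∧ ∀ z ∈ K, e.inv z ∈ S → ∃ (c : ℝ) (u : P2), 1 ≤ C * c ∧ c ≤ C ∧ ‖u‖ ≤ C ∧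
      ∀ F : M → X, Sm F → A.D F (e.inv z) =
        c • d2 (e.rep F) z (0, 1) (0, 1) + fderiv ℝ (e.rep F) z u := by
  obtain ⟨c, C, hc, hC, H⟩ := A.D_rep_aux (X := X) e hK h
  refine ⟨(c ^ 2)⁻¹ + A.n * C ^ 2 + C, by positivity, fun z hz hS => ?_⟩
  obtain ⟨β, v, u, h1, h2, h3, h4, h5, h6⟩ := H z hz
  have h7 : ∀ j, v j = (v j).2 • ((0, 1) : P2) := fun j =>
    Prod.ext (by simpa using h6 φ hA he j) (by simp)
  have h8 : ∀ j, (v j).2 ^ 2 = ‖v j‖ ^ 2 := fun j => by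
    rw [congrArg norm (h7 j), norm_smul]
    simp
  have h9 : 0 ≤ A.n * C ^ 2 := by positivity
  have h10 : 0 < (c ^ 2)⁻¹ := by positivity
  refine ⟨∑ j, β j * (v j).2 ^ 2, u, ?_, ?_, by linarith, fun F hF => ?_⟩
  · obtain ⟨j, h11, h12⟩ := h4 hS
    have := Finset.single_le_sum (f := fun j => β j * (v j).2 ^ 2)
      (fun j _ => mul_nonneg (h1 j).1 (sq_nonneg _)) (Finset.mem_univ j)
    simp only [h11, one_mul, h8 j] at this
    exact le_of_eq_of_le (inv_mul_cancel₀ (by positivity)).symm (mul_le_mul (by linarith)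
      ((pow_le_pow_left₀ hc.le h12 2).trans this) (by positivity) (by positivity))
  · refine (Finset.sum_le_card_nsmul _ _ (C ^ 2) fun j _ => ?_).trans (by simp; linarith)
    rw [h8]
    exact (mul_le_of_le_one_left (sq_nonneg _) (h1 j).2).trans
      (pow_le_pow_left₀ (norm_nonneg _) (h2 j) 2)
  · rw [h5 F hF, Finset.sum_smul]
    refine congrArg (· + _) (Finset.sum_congr rfl fun j _ => ?_)
    rw [congrArg (fun w => d2 (e.rep F) z w w) (h7 j)]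
    simp only [d2, map_smul, smul_apply, smul_smul, sq]

/-- transversality of `D F` gives a transversal second derivative in every chart -/
theorem nd_of_D (e : Chart M) {K : Set P2} (hK : IsCompact K) (h : K ⊆ e.target) :
    ∃ c : ℝ, 0 < c ∧ ∀ z ∈ K, ∀ F : M → X, Sm F → ∀ κ : ℝ, 0 < κ →
      Tr κ (A.D F (e.inv z)) (dM F (e.inv z)) →
      ∃ v : P2, ‖v‖ ≤ 1 ∧ Tr (c * κ) (d2 (e.rep F) z v v) (fderiv ℝ (e.rep F) z) := by
  obtain ⟨c, C, -, hC, H⟩ := A.D_rep (X := X) e hK h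
  refine ⟨C⁻¹ * C⁻¹ / (A.n + 1), by positivity, fun z hz F hF κ hκ hT => ?_⟩
  obtain ⟨β, v, u, h1, h2, -, -, h5⟩ := H z hz
  rw [e.tr_iff hF (e.inv_mem (h hz)), e.to_inv (h hz), h5 F hF] at hT
  have h6 := hT.add_range (-u)
  rw [map_neg, add_neg_cancel_right] at h6
  obtain ⟨j, hj⟩ := h6.exists_term (b := 1) hκ fun j => abs_le.2 ⟨by linarith [(h1 j).1], (h1 j).2⟩
  obtain ⟨w, h7, h8⟩ := man_scale hC (h2 j) hj
  refine ⟨w, h7, h8.mono ?_⟩
  have : (0 : ℝ) < A.n := by exact_mod_cast j.pos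
  rw [div_mul_eq_mul_div, mul_div_assoc, mul_one]
  gcongr
  linarith

end Atl

/-- nondegeneracy of the second derivative does not depend on the chart -/
theorem nd_change (e e' : Chart M) {K : Set M} (hK : IsCompact K) (h : K ⊆ e.source)
    (h' : K ⊆ e'.source) : ∃ c : ℝ, 0 < c ∧ ∀ p ∈ K, ∀ F : M → X, Sm F → ∀ κ : ℝ, 0 < κ →
      (∃ v : P2, ‖v‖ ≤ 1 ∧ Tr κ (d2 (e.rep F) (e.to p) v v) (fderiv ℝ (e.rep F) (e.to p))) →
      ∃ v : P2, ‖v‖ ≤ 1 ∧
        Tr (c * κ) (d2 (e'.rep F) (e'.to p) v v) (fderiv ℝ (e'.rep F) (e'.to p)) := by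
  obtain ⟨C, hC, H⟩ := man_bd e' e hK h' h
  refine ⟨(C + 1)⁻¹ * (C + 1)⁻¹, by positivity, fun p hp F hF κ _ ⟨v, hv, hT⟩ => ?_⟩
  rw [← e.tr_iff hF (h hp), e'.tr_iff hF (h' hp), man_d2 e' e (h' hp) (h hp) hF] at hT
  have h6 := hT.add_range (-d2 (e.tr e') (e.to p) v v)
  rw [map_neg, add_neg_cancel_right] at h6
  refine man_scale (by positivity) ?_ h6
  refine (ContinuousLinearMap.le_of_opNorm_le_of_le _ (H p hp).1 hv).trans ?_
  linarith

end Vale.Agent.Iso4
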