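import Vale.Agent.Iso4.StepPA

/-! Preliminary steps: the metric is prescribed modulo `dy ^ 2`, a transversal field `B` stays
transversal after adding positive multiples of `w_xx`. -/

open scoped ContDiff Topology
open Set Filter

noncomputable section
namespace Vale.Agent.Iso4
universe u

theorem sp_third {T : P2 →L[ℝ] V} {B e1 e2 e3 : V} {κ r1 r2 r3 s21 s31 s32 : ℝ} (hT : Tr κ B T)
    (h1 : r1 ≠ 0) (h2 : r2 ≠ 0) (h3 : 0 ≤ r3) (h33 : inner ℝ e3 e3 = (1 : ℝ))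
    (b1 : T (0, 1) = r1 • e1) (b2 : T (1, 0) = s21 • e1 + r2 • e2)
    (b3 : B = s31 • e1 + s32 • e2 + r3 • e3) : κ ≤ r3 := by
  have e : B - T (s32 / r2, s31 / r1 - s32 * s21 / (r1 * r2)) = r3 • e3 := by
    rw [sf_apply, b1, b2, b3]
    match_scalars <;> field_simp <;> ring
  have := hT (s32 / r2, s31 / r1 - s32 * s21 / (r1 * r2))
  rwa [e, norm_smul, sp_unit h33, mul_one, Real.norm_of_nonneg h3] at this

theorem frameP : ∃ q : ℕ, ∀ {ι : Type u} (D : SData ι) (B : ι → P2 → V), D.OK → (∀ i, D.Good i) →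
    PT D.Ω D.L 1 B → (∀ i, ∀ p ∈ D.Ω i, Tr (D.κ / D.L i) (B i p) (fderiv ℝ (D.F i) p)) →
    ∃ (e0 n1 n2 f1 : ι → P2 → V) (r0 : ι → P2 → ℝ),
      D.Frame q 0 D.κ e0 n1 n2 f1 (fun _ _ => 0) r0 ∧ ∀ i, ∀ p ∈ D.Ω i, D.κ / D.L i ^ 2 ≤ r0 i p ∧
        inner ℝ (B i p) (n1 i p) = (0 : ℝ) ∧ D.κ / D.L i ≤ inner ℝ (B i p) (n2 i p) := by
  obtain ⟨q, hq, hg⟩ := gram.{u} 2
  refine ⟨4 * q, fun {ι} D B hD hG tB hT => ?_⟩
  have hL := hD.L1
  have hκ := hD.κ0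
  have tx : PT D.Ω D.L 2 fun i => dx (D.F i) := hD.tF.dd hL _
  have ty : PT D.Ω D.L 2 fun i => dy (D.F i) := hD.tF.dd hL _
  have hc' : ∀ i, D.κ / D.L i ^ 2 ≤ D.κ / D.L i := fun i => sf_pow1 (by norm_num) (hL i) hκ.le
  obtain ⟨e1, e2, e3, e4, r1, r2, r3, s21, s31, s32, t1, t2, t3, t4, u1, u2, u3, u4, h⟩ :=
    hg hL hκ ty tx (tB.mono hL (by norm_num))
      (fun i z hz => (hc' i).trans (le_trans (by simp) ((hG i).imm z hz (0, 1))))
      (fun i z hz t => (hc' i).trans ((le_mul_of_one_le_right (div_pos hκ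
        (one_pos.trans_le (hL i))).le (by simp)).trans (((hG i).imm z hz (1, -t)).trans_eq (by
          rw [sf_apply _ (1, -t), one_smul, neg_smul, ← sub_eq_add_neg]
          rfl))))
      (fun i z hz t t' => (hc' i).trans ((hT i z hz (t', t)).trans_eq (by
        rw [sf_apply _ (t', t), add_comm, ← sub_sub]
        rfl)))
  have low : ∀ {i r n}, 2 ≤ n → D.κ / D.L i ^ 2 ≤ r → D.κ / D.L i ^ n ≤ r :=
    fun {i _ _} hn hr => (sf_pow hn (hL i) hκ.le).trans hr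
  have i1 := u1.inv hL hκ fun i z hz => low hq (h i z hz).2.1
  have pos : ∀ {i r}, D.κ / D.L i ^ 2 ≤ r → 0 < r :=
    fun {i _} hr => (div_pos hκ (pow_pos (one_pos.trans_le (hL i)) _)).trans_le hr
  refine ⟨e2, e4, e3, fun i z => (r1 i z)⁻¹ • e1 i z, r2, ⟨hκ, t2.mono hL (by omega),
    t4.mono hL (by omega), t3.mono hL (by omega), (i1.smul t1 hL).mono hL (by omega),
    PT.const hL 0, u2.mono hL (by omega), fun i z hz => low (by omega) (h i z hz).2.2.1, ?_, ?_,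
    ?_, ?_, ?_, ?_, ?_, ?_, ?_, ?_, ?_, ?_, ?_, ?_, fun _ _ _ => zero_mul _,
    fun _ _ _ => zero_mul _, fun _ _ _ => zero_mul _, fun _ _ _ => zero_mul _,
    fun _ _ _ => zero_mul _⟩, fun i z hz => ⟨(h i z hz).2.2.1, ?_, ?_⟩⟩
  iterate 14
    intro i z hz
    obtain ⟨o, q1, -, -, b1, b2, -⟩ := h i z hz
    have q2 := (pos q1).ne'
    have o43 := real_inner_comm (e3 i z) (e4 i z)
    rw [o.h34] at o43
    simp only [b1, b2, inner_add_left, real_inner_smul_left, real_inner_smul_right,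
      inner_zero_right, o.h11, o.h22, o.h33, o.h44, o.h12, o.h13, o.h14, o.h23, o.h24, o43,
      mul_zero, mul_one, add_zero, zero_add, sub_zero, inv_mul_cancel₀ q2]
  · obtain ⟨o, -, -, -, -, -, b3⟩ := h i z hz
    simp only [b3, inner_add_left, real_inner_smul_left, o.h14, o.h24, o.h34, mul_zero, add_zero]
  · obtain ⟨o, q1, q2, q3, b1, b2, b3⟩ := h i z hz
    have := sp_third (hT i z hz) (pos q1).ne' (pos q2).ne' (pos q3).le o.h33 b1 b2 b3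
    simpa only [b3, inner_add_left, real_inner_smul_left, o.h13, o.h23, o.h33, mul_zero, zero_add,
      mul_one] using this

theorem sp_E {x y : V} {L A B : ℝ} (hL : 1 ≤ L) (hA : 0 ≤ A) (hB : 0 ≤ B) (hx : ‖x‖ ≤ B * L ^ 2)
    (hy : ‖y‖ ≤ A / L ^ 9) : |2 * inner ℝ x y + inner ℝ y y| ≤ (2 * A * B + A ^ 2) / L ^ 3 := by
  have hL0 : 0 < L := one_pos.trans_le hL
  have h1 := (abs_real_inner_le_norm x y).trans (mul_le_mul hx hy (norm_nonneg _) (by positivity))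
  have h2 := (abs_real_inner_le_norm y y).trans (mul_le_mul hy hy (norm_nonneg _) (by positivity))
  have h3 : A * B / L ^ 7 ≤ A * B / L ^ 3 := sf_pow (by norm_num) hL (by positivity)
  have h4 : A ^ 2 / L ^ 18 ≤ A ^ 2 / L ^ 3 := sf_pow (by norm_num) hL (by positivity)
  have e1 : B * L ^ 2 * (A / L ^ 9) = A * B / L ^ 7 := by field_simp
  have e2 : A / L ^ 9 * (A / L ^ 9) = A ^ 2 / L ^ 18 := by field_simp
  have e3 : (2 * A * B + A ^ 2) / L ^ 3 = 2 * (A * B / L ^ 3) + A ^ 2 / L ^ 3 := by ring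
  rw [e1] at h1
  rw [e2] at h2
  rw [e3, abs_le]
  constructor <;> linarith [(abs_le.1 h1).1, (abs_le.1 h1).2, (abs_le.1 h2).1, (abs_le.1 h2).2]

theorem sp_flat {κ C CB : ℝ} (hκ : 0 < κ) (hC : 0 ≤ C) (hCB : 0 ≤ CB) : ∃ Λ : ℝ, ∀ L : ℝ, Λ ≤ L →
    1 ≤ L → ∀ (T S : P2 →L[ℝ] V) (B W : V), Imm (κ / L) T → Tr (κ / L) B T → ‖B‖ ≤ CB * L →
      ‖S (1, 0)‖ ≤ C / L ^ 20 → ‖S (0, 1)‖ ≤ C / L ^ 20 → ‖W‖ ≤ C / L ^ 20 →
      Imm (κ / (2 * L)) (T + S) ∧ ∀ (c : ℝ) (u0 : P2), κ / L ≤ c → c ≤ L / κ → ‖u0‖ ≤ L / κ →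
        Tr (κ / (16 * L)) (B + c • W + S u0 - 0) (T + S) := by
  have hA : 0 ≤ 2 * C + 3 * C / κ + CB := by positivity
  obtain ⟨Λ1, k1⟩ := sf_finI hκ hA
  obtain ⟨Λ2, k2⟩ := sf_finT hκ hA
  refine ⟨max Λ1 Λ2, fun L hΛ hL T S B W hI hT hB a1 a2 a3 => ?_⟩
  have hL0 : 0 < L := one_pos.trans_le hL
  have p1 : 0 ≤ 3 * C / κ := by positivity
  have hη : ∀ u, ‖(T + S) u - T u‖ ≤ (2 * C + 3 * C / κ + CB) / L ^ 8 * ‖u‖ := fun u => by
    rw [add_apply, add_sub_cancel_left]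
    refine (sf_norm a1 a2 u).trans (mul_le_mul_of_nonneg_right ?_ (norm_nonneg _))
    calc _ = 2 * C / L ^ 20 := by ring
      _ ≤ 2 * C / L ^ 8 := sf_pow (by norm_num) hL (by positivity)
      _ ≤ _ := by gcongr; linarith
  refine ⟨k1 L ((le_max_left _ _).trans hΛ) hL _ _ hI hη, fun c u0 hc hc' hu => ?_⟩
  have hc0 : 0 < c := lt_of_lt_of_le (by positivity) hc
  rw [sub_zero, add_assoc]
  refine (k2 L ((le_max_right _ _).trans hΛ) hL _ _ _ _ hI hT hη ?_ (hB.trans ?_)).mono ?_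
  · refine (norm_add_le _ _).trans ?_
    rw [norm_smul, Real.norm_of_nonneg hc0.le]
    have := sf_norm a1 a2 u0
    calc _ ≤ L / κ * (C / L ^ 20) + (C / L ^ 20 + C / L ^ 20) * (L / κ) := by
          gcongr
          exact this.trans (by gcongr)
      _ = 3 * C / κ / L ^ 19 := by field_simp; ring
      _ ≤ 3 * C / κ / L ^ 8 := sf_pow (by norm_num) hL p1
      _ ≤ _ := by gcongr; linarith
  · exact mul_le_mul (by linarith) (le_self_pow₀ hL (by norm_num)) hL0.le hA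
  · gcongr
    norm_num

theorem stepP : ∃ K : ℕ, 20 ≤ K ∧ ∀ N : ℕ, 2 * K ≤ N → ∀ {ι : Type u} (D : SData ι)
    (B : ι → P2 → V), D.OK → (∀ i, D.Good i) → PT D.Ω D.L 1 B →
    (∀ i, ∀ p ∈ D.Ω i, Tr (D.κ / D.L i) (B i p) (fderiv ℝ (D.F i) p)) →
    ∃ (w : ι → P2 → V) (E : ι → P2 → ℝ),
      Tame (fun _ => univ) (fun i _ => D.s i) (fun i => D.L i ^ K) 1 w ∧
      Tame (fun _ => univ) (fun _ _ => 1) (fun i => D.L i ^ K) 1 E ∧
      (∀ i p, D.ϖ i p < 1 / 2 → w i p = 0 ∧ E i p = 0) ∧ ∃ C Λ : ℝ, ∀ i, Λ ≤ D.L i → ∀ p ∈ D.Ω i,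
        (∀ u : P2, |‖(fderiv ℝ (D.F i) p + fderiv ℝ (w i) p) u‖ ^ 2 - ‖fderiv ℝ (D.F i) p u‖ ^ 2 -
          D.amp2 N i p * u.1 ^ 2 - E i p * u.2 ^ 2| ≤ C * D.L i ^ K / D.L i ^ N * ‖u‖ ^ 2) ∧
        |E i p| ≤ C / D.L i ^ 3 ∧
        Imm (D.κ / (2 * D.L i)) (fderiv ℝ (D.F i) p + fderiv ℝ (w i) p) ∧
        ∀ (c : ℝ) (u0 : P2) (Ξ : V), D.κ / D.L i ≤ c → c ≤ D.L i / D.κ → ‖u0‖ ≤ D.L i / D.κ →
          ‖Ξ‖ ≤ D.L i / D.κ → (Ξ ≠ 0 → D.κ / D.L i ≤ D.s i * D.ϱ i p ^ N) →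
          Tr (D.κ / (16 * D.L i)) (B i p + c • dx (dx (w i)) p + fderiv ℝ (w i) p u0 - Ξ)
            (fderiv ℝ (D.F i) p + fderiv ℝ (w i) p) := by
  obtain ⟨q, hq⟩ := frameP.{u}
  obtain ⟨K, hK, hc⟩ := step_core.{u} q
  refine ⟨5 * K, by omega, fun N hN ι D B hD hG tB hT => ?_⟩
  obtain ⟨e0, n1, n2, f1, r0, hF, hB⟩ := hq D B hD hG tB hT
  obtain ⟨Φ0, Φ1, Φ2, hΦ, h8⟩ := exists_loopP
  obtain ⟨w, lam, tw, vw, hlam, C, hC, h⟩ :=
    hc N (by omega) D 0 _ e0 n1 n2 f1 _ r0 Φ0 Φ1 Φ2 hD hG hF hΦ (Or.inl rfl)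
  clear hc hq
  have hL := hD.L1
  have hκ := hD.κ0
  have ty : PT D.Ω D.L 2 fun i => dy (D.F i) := hD.tF.dd hL _
  have tw' : PT (fun _ => univ) D.L K w := tw.weaken fun i _ _ => hD.s1 i
  have twy : PT D.Ω D.L (2 * K) fun i => dy (w i) :=
    Tame.mono_set (tw'.dd hL _) fun _ => subset_univ _
  have op : ∀ i, IsOpen {p | D.ϖ i p < 1 / 2} := fun i =>
    isOpen_lt (hD.tϖ.contDiff i).continuous continuous_const
  have vy : ∀ i p, D.ϖ i p < 1 / 2 → dy (w i) p = 0 := fun i p hp => by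
    have : w i =ᶠ[𝓝 p] fun _ => 0 := mem_of_superset ((op i).mem_nhds hp) (vw i)
    change fderiv ℝ (w i) p (0, 1) = 0
    rw [this.fderiv_eq, fderiv_fun_const]
    rfl
  obtain ⟨CB, hCB, bB⟩ := tB.norm_le
  obtain ⟨CF, hCF, bF⟩ := ty.norm_le
  obtain ⟨Λ1, k1⟩ := sp_case hκ hC hCB hΦ h8
  obtain ⟨Λ2, k2⟩ := sp_flat hκ hC hCB
  have vE : ∀ i p, D.ϖ i p < 1 / 2 →
      2 * inner ℝ (dy (D.F i) p) (dy (w i) p) + inner ℝ (dy (w i) p) (dy (w i) p) = (0 : ℝ) :=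
    fun i p hp => by rw [vy i p hp, inner_zero_right, inner_zero_right, mul_zero, add_zero]
  refine ⟨w, fun i p => 2 * inner ℝ (dy (D.F i) p) (dy (w i) p) + inner ℝ (dy (w i) p) (dy (w i) p),
    tw.mono_scale fun i => pow_le_pow_right₀ (hL i) (by omega), ?_,
    fun i p hp => ⟨vw i p hp, vE i p hp⟩, 4 * C + (2 * (C + C ^ 2) * CF + (C + C ^ 2) ^ 2),
    max Λ1 Λ2, fun i hi p hp => ?_⟩
  · have s1 := (PT.inner ty twy hL).mono (q := 5 * K) hL (by omega)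
    have s2 := (PT.inner twy twy hL).mono (q := 5 * K) hL (by omega)
    refine Tame.of_vanish (Tame.add (Tame.const_mul s1 2) s2) (fun i z hz => mem_of_superset
      ((op i).mem_nhds ?_) (vE i)) (fun _ _ => zero_le_one) fun _ _ _ => le_rfl
    have h0 : ¬0 < D.ϖ i z := hz
    exact lt_of_le_of_lt (not_lt.1 h0) (by norm_num)
  obtain ⟨m1, m2, -, m4, m5⟩ := h i p hp
  have hL0 : 0 < D.L i := one_pos.trans_le (hL i)
  have hI := (hG i).imm p hp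
  have hb := bB i p hp
  rw [pow_one] at hb
  have hε : 0 ≤ C * D.L i ^ K / D.L i ^ N := by positivity
  refine ⟨fun u => (sf_metric (T := fderiv ℝ (D.F i) p) (S := fderiv ℝ (w i) p) m1 m2
    (((congrArg abs (sub_self _)).trans abs_zero).trans_le hε) u).trans
      (mul_le_mul_of_nonneg_right ?_ (sq_nonneg _)), (sp_E (A := C + C ^ 2) (hL i) (by positivity)
        hCF (bF i p hp) ?_).trans ?_, ?_⟩
  · rw [← mul_div_assoc, ← mul_assoc]
    have := pow_le_pow_right₀ (hL i) (by omega : K ≤ 5 * K)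
    gcongr
    exact le_add_of_nonneg_right (by positivity)
  · rcases le_or_gt (D.ϖ i p) 1 with h1 | h1
    · exact (m4 h1).2.1.trans ((sf_pow (m := 9) (by norm_num) (hL i) hC).trans (by
        gcongr; exact le_add_of_nonneg_right (by positivity)))
    · obtain ⟨a, k, α, θ, ha, -, haL, -, -, -, -, -, a2, -⟩ := m5 h1
      calc _ ≤ _ := a2
        _ ≤ C * (C * D.L i) / D.L i ^ 10 := by gcongr
        _ = C ^ 2 / D.L i ^ 9 := by field_simp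
        _ ≤ _ := by gcongr; exact le_add_of_nonneg_left hC
  · exact div_le_div_of_nonneg_right (by linarith) (by positivity)
  rcases le_or_gt (D.ϖ i p) 1 with h1 | h1
  · obtain ⟨a1, a2, a3, -⟩ := m4 h1
    obtain ⟨b1, b2⟩ := k2 _ ((le_max_right _ _).trans hi) (hL i) _ (fderiv ℝ (w i) p) _ _ hI
      (hT i p hp) hb a1 a2 a3
    refine ⟨b1, fun c u0 Ξ c1 c2 hu _ hΞ => ?_⟩
    obtain rfl : Ξ = 0 := by
      by_contra h0
      have := hΞ h0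
      rw [hD.van i p h1, zero_pow (by omega), mul_zero] at this
      exact this.not_gt (by positivity)
    exact b2 c u0 c1 c2 hu
  · obtain ⟨a, k, α, θ, ha, hal, haL, hk, hα, hkα, hak, a1, a2, -, a4⟩ := m5 h1
    obtain ⟨b1, b2⟩ := k1 _ ((le_max_left _ _).trans hi) (hL i) _ (fderiv ℝ (w i) p) _ _ _ _ _ _
      a k α θ _ hI (hF.e00 i p hp) (hF.e11 i p hp) ((hF.e22 i p hp).trans (sub_zero _))
      (hF.e01 i p hp) (hF.e02 i p hp) (hF.e12 i p hp) (hF.x0 i p hp) (hF.x1 i p hp) (hF.x2 i p hp)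
      (hF.y0 i p hp) (hF.y1 i p hp) (hF.y2 i p hp) (hB i p hp).1 (hB i p hp).2.1 (hB i p hp).2.2
      hb ha haL hk hα hkα hak (hlam i) a1 a2 a4
    refine ⟨b1, fun c u0 Ξ c1 _ hu hΞ hΞ' => b2 c u0 Ξ c1 hu hΞ fun h0 => le_trans ?_ hal⟩
    exact mul_le_mul (hΞ' h0) (Real.sqrt_le_sqrt ((hG i).pos p hp)) (Real.sqrt_nonneg _)
      (le_trans (by positivity) (hΞ' h0))

end Vale.Agent.Iso4
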