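import Vale.Agent.Iso4.StepF
import Vale.Agent.Iso4.StepP

/-! The steps along a filter and after a fixed linear change of coordinates `A`: the phase is
`(A u).1`. -/

open scoped ContDiff Topology
open Set Filter

noncomputable section
namespace Vale.Agent.Iso4
universe u

/-- the data restricted to good indices and read in the coordinates `A` -/
def SData.tr {ι : Type u} (D : SData ι) (I : ι → Prop) (A : P2 ≃L[ℝ] P2) (κ' : ℝ) :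
    SData {i // I i} where
  L i := D.L i
  s i := D.s i
  F i z := D.F i (A.symm z)
  ϖ i z := D.ϖ i (A.symm z)
  ϱ i z := D.ϱ i (A.symm z)
  Pi i z := D.Pi i (A.symm z)
  R := ‖(A : P2 →L[ℝ] P2)‖ * D.R + 1
  κ := κ'

theorem sw_pt {ι : Type u} {X : Type} [NormedAddCommGroup X] [NormedSpace ℝ X] {Ω : ι → Set P2}
    {L : ι → ℝ} {f : ι → P2 → X} (h : PT Ω L 1 f) (I : ι → Prop) (A : P2 ≃L[ℝ] P2) :
    PT (fun i : {i // I i} => A.symm ⁻¹' Ω i) (fun i => L i) 1 fun i z => f i (A.symm z) :=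
  (h.reindex (Subtype.val : {i // I i} → ι)).comp_clm (A.symm : P2 →L[ℝ] P2)

theorem sw_ok {ι : Type u} {D : SData ι} (h : D.OK) (I : ι → Prop) (A : P2 ≃L[ℝ] P2) {κ' : ℝ}
    (hκ : 0 < κ') : (D.tr I A κ').OK where
  L1 i := h.L1 i
  κ0 := hκ
  s0 i := h.s0 i
  s1 i := h.s1 i
  tϖ := (sw_pt h.tϖ I A).mono_set fun _ _ _ => mem_univ _
  tF := sw_pt h.tF I A
  tϱ := sw_pt h.tϱ I A
  tPi := sw_pt h.tPi I A
  bdd i p hp := by
    have h1 := h.bdd i (A.symm p) hp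
    have h2 := (A : P2 →L[ℝ] P2).le_opNorm (A.symm p)
    rw [ContinuousLinearEquiv.coe_coe, A.apply_symm_apply] at h2
    have h3 := mul_le_mul_of_nonneg_left h1.le (norm_nonneg (A : P2 →L[ℝ] P2))
    change ‖p‖ < ‖(A : P2 →L[ℝ] P2)‖ * D.R + 1
    linarith
  ϱ0 i p hp := h.ϱ0 i (A.symm p) hp
  ϱ1 i p hp := h.ϱ1 i (A.symm p) hp
  van i p hp := h.van i (A.symm p) hp

theorem sw_fderiv {X : Type} [NormedAddCommGroup X] [NormedSpace ℝ X] (f : P2 → X)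
    (A : P2 ≃L[ℝ] P2) (z : P2) :
    fderiv ℝ (fun x => f (A x)) z = (fderiv ℝ f (A z)).comp (A : P2 →L[ℝ] P2) :=
  A.comp_right_fderiv

theorem sw_d2 {X : Type} [NormedAddCommGroup X] [NormedSpace ℝ X] {f : P2 → X}
    (A : P2 ≃L[ℝ] P2) {z : P2} (hf : ContDiffAt ℝ ∞ f (A z)) (v w : P2) :
    d2 (fun x => f (A x)) z v w = d2 f (A z) (A v) (A w) := by
  have h1 : fderiv ℝ A = fun _ => (A : P2 →L[ℝ] P2) := funext fun _ => A.fderiv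
  rw [d2_comp hf A.contDiff.contDiffAt]
  simp [d2, h1]

theorem sw_imm {T : P2 →L[ℝ] V} {κ κ' : ℝ} (h : Imm κ T) (A : P2 ≃L[ℝ] P2) (h0 : 0 ≤ κ')
    (hκ : κ' * ‖(A.symm : P2 →L[ℝ] P2)‖ ≤ κ) : Imm κ' (T.comp (A : P2 →L[ℝ] P2)) := by
  intro u
  have h2 := (A.symm : P2 →L[ℝ] P2).le_opNorm (A u)
  rw [ContinuousLinearEquiv.coe_coe, A.symm_apply_apply] at h2
  refine le_trans ?_ (h (A u))
  calc κ' * ‖u‖ ≤ κ' * (‖(A.symm : P2 →L[ℝ] P2)‖ * ‖A u‖) := mul_le_mul_of_nonneg_left h2 h0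
    _ ≤ κ * ‖A u‖ := by
      rw [← mul_assoc]
      exact mul_le_mul_of_nonneg_right hκ (norm_nonneg _)

theorem sw_good {ι : Type u} {D : SData ι} (h : D.OK) {I : ι → Prop} (A : P2 ≃L[ℝ] P2) {κ' : ℝ}
    (h0 : 0 < κ') (h1 : κ' ≤ D.κ) (h2 : κ' * ‖(A : P2 →L[ℝ] P2)‖ ≤ D.κ) (i : {i // I i})
    (hi : D.Good i) : (D.tr I A κ').Good i := by
  have hL : 0 < D.L i := one_pos.trans_le (h.L1 i)
  refine ⟨fun p hp => le_trans ?_ (hi.pos (A.symm p) hp), fun p hp => ?_⟩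
  · exact div_le_div_of_nonneg_right h1 hL.le
  · change Imm (κ' / D.L i) (fderiv ℝ (fun z => D.F i (A.symm z)) p)
    rw [sw_fderiv]
    refine sw_imm (hi.imm (A.symm p) hp) A.symm (by positivity) ?_
    rw [div_mul_eq_mul_div]
    exact div_le_div_of_nonneg_right h2 hL.le

theorem sw_const {κ a : ℝ} (hκ : 0 < κ) (ha : 0 ≤ a) (M : ℝ) :
    ∃ κ' : ℝ, 0 < κ' ∧ κ' ≤ κ ∧ κ' * a ≤ κ ∧ κ' * M ≤ 1 ∧ κ' * (a * M) ≤ 1 := by
  have hM := le_abs_self M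
  have hM0 := abs_nonneg M
  refine ⟨min (κ / (a + 1)) (1 / ((a + 1) * (|M| + 1))), by positivity, ?_⟩
  have h1 := min_le_left (κ / (a + 1)) (1 / ((a + 1) * (|M| + 1)))
  have h2 := min_le_right (κ / (a + 1)) (1 / ((a + 1) * (|M| + 1)))
  have h0 : 0 < min (κ / (a + 1)) (1 / ((a + 1) * (|M| + 1))) := by positivity
  generalize min (κ / (a + 1)) (1 / ((a + 1) * (|M| + 1))) = k at h0 h1 h2
  rw [le_div_iff₀ (by positivity)] at h1 h2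
  have h3 : 0 ≤ k * a := by positivity
  have h4 : 0 ≤ k * |M| := by positivity
  have h5 : 0 ≤ k * (a * |M|) := by positivity
  have h6 : k * M ≤ k * |M| := mul_le_mul_of_nonneg_left hM h0.le
  have h7 : k * (a * M) ≤ k * (a * |M|) :=
    mul_le_mul_of_nonneg_left (mul_le_mul_of_nonneg_left hM ha) h0.le
  refine ⟨by nlinarith, by nlinarith, by nlinarith, by nlinarith⟩

theorem sw_sum (F w : P2 → V) (A : P2 ≃L[ℝ] P2) (p : P2) :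
    fderiv ℝ F p + fderiv ℝ (fun x => w (A x)) p =
      (fderiv ℝ (fun z => F (A.symm z)) (A p) + fderiv ℝ w (A p)).comp (A : P2 →L[ℝ] P2) := by
  rw [sw_fderiv, sw_fderiv, A.symm_apply_apply]
  refine ContinuousLinearMap.ext fun u => ?_
  simp

theorem sw_base (F : P2 → V) (A : P2 ≃L[ℝ] P2) (p u : P2) :
    fderiv ℝ (fun z => F (A.symm z)) (A p) (A u) = fderiv ℝ F p u := by
  rw [sw_fderiv, A.symm_apply_apply]
  simp

theorem sw_err (A : P2 ≃L[ℝ] P2) {C x y : ℝ} (hx : 0 ≤ x) (hy : 0 ≤ y) (u : P2) :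
    C * x / y * ‖A u‖ ^ 2 ≤ |C| * (‖(A : P2 →L[ℝ] P2)‖ ^ 2 + 1) * x / y * ‖u‖ ^ 2 := by
  have h1 : ‖A u‖ ≤ ‖(A : P2 →L[ℝ] P2)‖ * ‖u‖ := (A : P2 →L[ℝ] P2).le_opNorm u
  have h2 : ‖A u‖ ^ 2 ≤ (‖(A : P2 →L[ℝ] P2)‖ ^ 2 + 1) * ‖u‖ ^ 2 := by
    have := pow_le_pow_left₀ (norm_nonneg _) h1 2
    nlinarith [sq_nonneg ‖u‖]
  have h3 : 0 ≤ x / y := by positivity
  calc C * x / y * ‖A u‖ ^ 2 = C * (x / y * ‖A u‖ ^ 2) := by ring
    _ ≤ |C| * (x / y * ((‖(A : P2 →L[ℝ] P2)‖ ^ 2 + 1) * ‖u‖ ^ 2)) :=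
      mul_le_mul (le_abs_self C) (mul_le_mul_of_nonneg_left h2 h3) (by positivity) (abs_nonneg C)
    _ = _ := by ring

theorem sw_small {κ a L c : ℝ} (hκ : 0 < κ) (ha : 0 ≤ a) (hL : 0 < L) (hc : 0 < c)
    (hc' : c ≤ 16) :
    κ / (16 * (a + 1)) / L ≤ κ / (c * L) ∧ κ / (16 * (a + 1)) / L * a ≤ κ / (c * L) := by
  have h1 : κ / (16 * (a + 1)) / L * (a + 1) ≤ κ / (c * L) := by
    have h2 : κ / (16 * (a + 1)) / L * (a + 1) = κ / (16 * L) := by field_simp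
    rw [h2]
    exact div_le_div_of_nonneg_left hκ.le (by positivity) (mul_le_mul_of_nonneg_right hc' hL.le)
  have h2 : 0 ≤ κ / (16 * (a + 1)) / L := by positivity
  have h3 := mul_nonneg h2 ha
  constructor <;> nlinarith

theorem stepF' : ∃ K : ℕ, 20 ≤ K ∧ ∀ N : ℕ, 2 * K ≤ N → ∀ {ι : Type u} (𝓕 : Filter ι)
    (D : SData ι) (A : P2 ≃L[ℝ] P2), D.OK → Tendsto D.L 𝓕 atTop →
    (∀ᶠ i in 𝓕, D.Good i ∧ ∀ p ∈ D.Ω i,
      Tr (D.κ / D.L i) (d2 (D.F i) p (A.symm (0, 1)) (A.symm (0, 1))) (fderiv ℝ (D.F i) p)) →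
    ∃ w : ι → P2 → V, Tame (fun _ => univ) (fun i _ => D.s i) (fun i => D.L i ^ K) 1 w ∧
      (∀ i p, D.ϖ i p < 1 / 2 → w i p = 0) ∧ ∃ C κ' : ℝ, 0 < κ' ∧ ∀ᶠ i in 𝓕, ∀ p ∈ D.Ω i,
        (∀ u : P2, |‖(fderiv ℝ (D.F i) p + fderiv ℝ (w i) p) u‖ ^ 2 - ‖fderiv ℝ (D.F i) p u‖ ^ 2 -
          D.amp2 N i p * (A u).1 ^ 2| ≤ C * D.L i ^ K / D.L i ^ N * ‖u‖ ^ 2) ∧
        Imm (κ' / D.L i) (fderiv ℝ (D.F i) p + fderiv ℝ (w i) p) ∧
        Tr (κ' / D.L i) (d2 (D.F i) p (A.symm (0, 1)) (A.symm (0, 1)) +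
          d2 (w i) p (A.symm (0, 1)) (A.symm (0, 1)))
          (fderiv ℝ (D.F i) p + fderiv ℝ (w i) p) := by
  classical
  obtain ⟨K, hK, H⟩ := stepF.{u}
  refine ⟨K, hK, fun N hN ι 𝓕 D A hD hL hev => ?_⟩
  obtain ⟨κ', k0, k1, k2, -, -⟩ := sw_const hD.κ0 (norm_nonneg (A : P2 →L[ℝ] P2)) 0
  obtain ⟨I, hI⟩ : ∃ I : ι → Prop, ∀ i, I i ↔ D.Good i ∧ ∀ p ∈ D.Ω i,
      Tr (D.κ / D.L i) (d2 (D.F i) p (A.symm (0, 1)) (A.symm (0, 1))) (fderiv ℝ (D.F i) p) :=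
    ⟨_, fun _ => Iff.rfl⟩
  simp only [← hI] at hev
  have hok := sw_ok hD I A k0
  have hyy : ∀ i : {i // I i}, ∀ p ∈ (D.tr I A κ').Ω i, dy (dy ((D.tr I A κ').F i)) p =
      d2 (D.F i) (A.symm p) (A.symm (0, 1)) (A.symm (0, 1)) := fun i p hp => by
    exact (dd_dd (hok.tF.smooth i p hp) _ _).trans (sw_d2 A.symm (hD.tF.smooth i _ hp) _ _)
  obtain ⟨w, hw, hv, C, Λ, hc⟩ := H N hN (D.tr I A κ') hok
    (fun i => sw_good hD A k0 k1 k2 i ((hI i).1 i.2).1) (fun i p hp => by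
      rw [hyy i p hp]
      change Tr (κ' / D.L i) _ (fderiv ℝ (fun z => D.F i (A.symm z)) p)
      rw [sw_fderiv]
      exact ((((hI i).1 i.2).2 _ hp).mono (div_le_div_of_nonneg_right k1
        (zero_le_one.trans (hD.L1 i)))).comp _)
  refine ⟨fun i => if h : I i then fun p => w ⟨i, h⟩ (A p) else fun _ => 0,
    Tame.extend (w := fun i p => w i (A p)) (fun i => one_le_pow₀ (hD.L1 i))
      (fun i _ _ => (hD.s0 i).le)
      ((hw.comp_clm (A : P2 →L[ℝ] P2)).mono_set fun _ _ _ => mem_univ _), fun i p hp => ?_,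
    |C| * (‖(A : P2 →L[ℝ] P2)‖ ^ 2 + 1), κ' / (16 * (‖(A.symm : P2 →L[ℝ] P2)‖ + 1)),
    by positivity, ?_⟩
  · by_cases h : I i
    · simp only [dif_pos h]
      refine hv ⟨i, h⟩ (A p) ?_
      change D.ϖ i (A.symm (A p)) < 1 / 2
      rwa [A.symm_apply_apply]
    · simp only [dif_neg h]
  filter_upwards [hev, hL.eventually_ge_atTop Λ] with i hi hΛ p hp
  have hL0 : 0 < D.L i := one_pos.trans_le (hD.L1 i)
  have hp' : A p ∈ (D.tr I A κ').Ω ⟨i, hi⟩ := by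
    change 0 < D.ϖ i (A.symm (A p))
    rwa [A.symm_apply_apply]
  obtain ⟨c1, c2, c3⟩ := hc ⟨i, hi⟩ hΛ (A p) hp'
  obtain ⟨s1, s2⟩ := sw_small k0 (norm_nonneg (A.symm : P2 →L[ℝ] P2)) hL0 two_pos (by norm_num)
  have hws := hw.smooth ⟨i, hi⟩ (A p) (mem_univ _)
  have hyy' : dy (dy (w ⟨i, hi⟩)) (A p) = _ := dd_dd hws _ _
  rw [hyy ⟨i, hi⟩ _ hp', hyy', A.symm_apply_apply] at c3
  simp only [dif_pos hi]
  rw [sw_sum (D.F i) (w ⟨i, hi⟩) A p, sw_d2 A hws, A.apply_symm_apply]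
  refine ⟨fun u => ?_, sw_imm c2 A (by positivity) s2, (c3.mono s1).comp _⟩
  have c4 := c1 (A u)
  simp only [SData.tr, SData.amp2, A.symm_apply_apply, sw_base] at c4
  exact c4.trans (sw_err A (by positivity) (by positivity) u)

theorem stepP' : ∃ K : ℕ, 20 ≤ K ∧ ∀ N : ℕ, 2 * K ≤ N → ∀ {ι : Type u} (𝓕 : Filter ι)
    (D : SData ι) (B : ι → P2 → V) (A : P2 ≃L[ℝ] P2) (M : ℝ), D.OK → Tendsto D.L 𝓕 atTop →
    PT D.Ω D.L 1 B →
    (∀ᶠ i in 𝓕, D.Good i ∧ ∀ p ∈ D.Ω i, Tr (D.κ / D.L i) (B i p) (fderiv ℝ (D.F i) p)) →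
    ∃ (w : ι → P2 → V) (E : ι → P2 → ℝ),
      Tame (fun _ => univ) (fun i _ => D.s i) (fun i => D.L i ^ K) 1 w ∧
      Tame (fun _ => univ) (fun _ _ => 1) (fun i => D.L i ^ K) 1 E ∧
      (∀ i p, D.ϖ i p < 1 / 2 → w i p = 0 ∧ E i p = 0) ∧
      ∃ C κ' : ℝ, 0 < κ' ∧ ∀ᶠ i in 𝓕, ∀ p ∈ D.Ω i,
        (∀ u : P2, |‖(fderiv ℝ (D.F i) p + fderiv ℝ (w i) p) u‖ ^ 2 - ‖fderiv ℝ (D.F i) p u‖ ^ 2 -
          D.amp2 N i p * (A u).1 ^ 2 - E i p * (A u).2 ^ 2| ≤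
            C * D.L i ^ K / D.L i ^ N * ‖u‖ ^ 2) ∧
        |E i p| ≤ C / D.L i ^ 3 ∧
        Imm (κ' / D.L i) (fderiv ℝ (D.F i) p + fderiv ℝ (w i) p) ∧
        ∀ (c : ℝ) (u0 : P2) (Ξ : V), 1 ≤ M * c → c ≤ M → ‖u0‖ ≤ M →
          ‖Ξ‖ ≤ M * D.L i → (Ξ ≠ 0 → 1 ≤ M * (D.s i * D.ϱ i p ^ N)) →
          Tr (κ' / D.L i)
            (B i p + c • d2 (w i) p (A.symm (1, 0)) (A.symm (1, 0)) + fderiv ℝ (w i) p u0 - Ξ)
            (fderiv ℝ (D.F i) p + fderiv ℝ (w i) p) := by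
  classical
  obtain ⟨K, hK, H⟩ := stepP.{u}
  refine ⟨K, hK, fun N hN ι 𝓕 D B A M hD hL hB hev => ?_⟩
  obtain ⟨κ', k0, k1, k2, k3, k4⟩ := sw_const hD.κ0 (norm_nonneg (A : P2 →L[ℝ] P2)) M
  obtain ⟨I, hI⟩ : ∃ I : ι → Prop, ∀ i, I i ↔ D.Good i ∧ ∀ p ∈ D.Ω i,
      Tr (D.κ / D.L i) (B i p) (fderiv ℝ (D.F i) p) := ⟨_, fun _ => Iff.rfl⟩
  simp only [← hI] at hev
  have hok := sw_ok hD I A k0
  obtain ⟨w, E, hw, hE, hv, C, Λ, hc⟩ := H N hN (D.tr I A κ') (fun i z => B i (A.symm z)) hok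
    (fun i => sw_good hD A k0 k1 k2 i ((hI i).1 i.2).1) (sw_pt hB I A) (fun i p hp => by
      change Tr (κ' / D.L i) _ (fderiv ℝ (fun z => D.F i (A.symm z)) p)
      rw [sw_fderiv]
      exact ((((hI i).1 i.2).2 _ hp).mono (div_le_div_of_nonneg_right k1
        (zero_le_one.trans (hD.L1 i)))).comp _)
  refine ⟨fun i => if h : I i then fun p => w ⟨i, h⟩ (A p) else fun _ => 0,
    fun i => if h : I i then fun p => E ⟨i, h⟩ (A p) else fun _ => 0,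
    Tame.extend (w := fun i p => w i (A p)) (fun i => one_le_pow₀ (hD.L1 i))
      (fun i _ _ => (hD.s0 i).le)
      ((hw.comp_clm (A : P2 →L[ℝ] P2)).mono_set fun _ _ _ => mem_univ _),
    Tame.extend (w := fun i p => E i (A p)) (fun i => one_le_pow₀ (hD.L1 i))
      (fun i _ _ => zero_le_one)
      ((hE.comp_clm (A : P2 →L[ℝ] P2)).mono_set fun _ _ _ => mem_univ _), fun i p hp => ?_,
    |C| * (‖(A : P2 →L[ℝ] P2)‖ ^ 2 + 1), κ' / (16 * (‖(A.symm : P2 →L[ℝ] P2)‖ + 1)),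
    by positivity, ?_⟩
  · by_cases h : I i
    · simp only [dif_pos h]
      refine hv ⟨i, h⟩ (A p) ?_
      change D.ϖ i (A.symm (A p)) < 1 / 2
      rwa [A.symm_apply_apply]
    · simp only [dif_neg h, and_self]
  filter_upwards [hev, hL.eventually_ge_atTop Λ] with i hi hΛ p hp
  have hL1 := hD.L1 i
  have hL0 : 0 < D.L i := one_pos.trans_le hL1
  have hp' : A p ∈ (D.tr I A κ').Ω ⟨i, hi⟩ := by
    change 0 < D.ϖ i (A.symm (A p))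
    rwa [A.symm_apply_apply]
  obtain ⟨c1, c0, c2, c3⟩ := hc ⟨i, hi⟩ hΛ (A p) hp'
  obtain ⟨-, s2⟩ := sw_small k0 (norm_nonneg (A.symm : P2 →L[ℝ] P2)) hL0 two_pos (by norm_num)
  obtain ⟨s1, -⟩ := sw_small k0 (norm_nonneg (A.symm : P2 →L[ℝ] P2)) hL0 (c := 16) (by norm_num)
    le_rfl
  have hws := hw.smooth ⟨i, hi⟩ (A p) (mem_univ _)
  simp only [dif_pos hi]
  rw [sw_sum (D.F i) (w ⟨i, hi⟩) A p, sw_d2 A hws, A.apply_symm_apply]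
  refine ⟨fun u => ?_, c0.trans ?_, sw_imm c2 A (by positivity) s2,
    fun c u0 Ξ m1 m2 m3 m4 m5 => ?_⟩
  · have c4 := c1 (A u)
    simp only [SData.tr, SData.amp2, A.symm_apply_apply, sw_base] at c4
    exact c4.trans (sw_err A (by positivity) (by positivity) u)
  · refine div_le_div_of_nonneg_right ?_ (pow_nonneg hL0.le 3)
    exact (le_abs_self C).trans (le_mul_of_one_le_right (abs_nonneg C)
      (le_add_of_nonneg_left (sq_nonneg _)))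
  have hM : 0 ≤ M := (norm_nonneg _).trans m3
  have hlow : ∀ x : ℝ, 1 ≤ M * x → κ' / D.L i ≤ x := fun x hx => by
    have hx0 : 0 ≤ x := by
      by_contra hn
      nlinarith [mul_nonneg hM (neg_nonneg.2 (not_le.1 hn).le)]
    refine (div_le_self k0.le hL1).trans ?_
    nlinarith [mul_le_mul_of_nonneg_left hx k0.le, mul_le_mul_of_nonneg_right k3 hx0]
  have hup : ∀ x y : ℝ, x ≤ y → κ' * y ≤ D.L i → x ≤ D.L i / κ' := fun x y h1 h2 => by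
    rw [le_div_iff₀ k0]
    nlinarith [mul_le_mul_of_nonneg_left h1 k0.le]
  have c5 := c3 c (A u0) Ξ (hlow c m1) (hup c M m2 (k3.trans hL1))
    (hup _ (‖(A : P2 →L[ℝ] P2)‖ * M) (((A : P2 →L[ℝ] P2).le_opNorm u0).trans
      (mul_le_mul_of_nonneg_left m3 (norm_nonneg _))) (k4.trans hL1))
    (hup _ _ m4 (by nlinarith [mul_le_mul_of_nonneg_right k3 hL0.le])) (fun h => by
      change κ' / D.L i ≤ D.s i * D.ϱ i (A.symm (A p)) ^ N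
      rw [A.symm_apply_apply]
      exact hlow _ (m5 h))
  have hxx : dx (dx (w ⟨i, hi⟩)) (A p) = _ := dd_dd hws _ _
  rw [hxx] at c5
  simp only [A.symm_apply_apply] at c5
  rw [sw_fderiv (w ⟨i, hi⟩) A p]
  exact (c5.mono s1).comp _

end Vale.Agent.Iso4
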