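import Vale.Agent.Iso4.StageDef
import Vale.Agent.Iso4.StepW

/-! The steps of a stage. -/

open scoped ContDiff Topology Manifold
open Set Filter

noncomputable section
namespace Vale.Agent.Iso4
universe u

variable {M : Type*} [TopologicalSpace M] [ChartedSpace E2 M] [T2Space M]

theorem st_pert {T T' : P2 →L[ℝ] V} {x x' : V} {κ D L ℓ s c : ℝ} (hκ : 0 < κ)
    (hc : 0 ≤ c) (hL : 1 ≤ L) (hℓ : 1 ≤ ℓ) (hs0 : 0 ≤ s) (hs : s * ℓ ^ 5 * L ^ 2 ≤ 1)
    (hT : Imm κ T) (h1 : ∀ u, ‖T' u - T u‖ ≤ c * (s * ℓ ^ 2) * ‖u‖) (hb1 : 2 * c ≤ κ * L)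
    (hb2 : 2 * (c + 4 * c ^ 2 / κ) ≤ D * L) : Imm (κ / 2) T' ∧ (Tr (D / L) x T →
      ‖x - x'‖ ≤ c * (s * ℓ ^ 3) → ‖x'‖ ≤ c * ℓ ^ 3 → Tr (D / (2 * L)) x' T') := by
  have L0 : 0 < L := by linarith
  have a5 : s * ℓ ^ 5 ≤ 1 / L ^ 2 := by rw [le_div_iff₀ (by positivity)]; exact hs
  have a3 : s * ℓ ^ 3 ≤ 1 / L ^ 2 :=
    le_trans (mul_le_mul_of_nonneg_left (pow_le_pow_right₀ hℓ (by norm_num)) hs0) a5
  have a2 : s * ℓ ^ 2 ≤ 1 / L ^ 2 :=
    le_trans (mul_le_mul_of_nonneg_left (pow_le_pow_right₀ hℓ (by norm_num)) hs0) a5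
  have b1 : 2 * (c * (s * ℓ ^ 2)) ≤ κ := by
    calc 2 * (c * (s * ℓ ^ 2)) ≤ 2 * (c * (1 / L ^ 2)) := by gcongr
      _ = 2 * c / L ^ 2 := by ring
      _ ≤ κ * L / L ^ 2 := by gcongr
      _ = κ / L := by field_simp
      _ ≤ κ := div_le_self hκ.le hL
  refine ⟨(hT.pert h1).mono (by linarith), fun h h2 h3 => ?_⟩
  refine (h.pert hT hκ (by positivity) h1 b1).mono ?_
  have b2 : ‖x - x'‖ ≤ c / L ^ 2 := by
    calc _ ≤ c * (s * ℓ ^ 3) := h2
      _ ≤ c * (1 / L ^ 2) := by gcongr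
      _ = _ := by ring
  have b3 : 4 * (c * (s * ℓ ^ 2)) * ‖x'‖ / κ ≤ 4 * c ^ 2 / κ / L ^ 2 := by
    calc _ ≤ 4 * (c * (s * ℓ ^ 2)) * (c * ℓ ^ 3) / κ := by gcongr
      _ = 4 * c ^ 2 / κ * (s * ℓ ^ 5) := by ring
      _ ≤ 4 * c ^ 2 / κ * (1 / L ^ 2) := by gcongr
      _ = _ := by ring
  have b4 : c / L ^ 2 + 4 * c ^ 2 / κ / L ^ 2 ≤ D / (2 * L) := by
    calc _ = 2 * (c + 4 * c ^ 2 / κ) / (2 * L ^ 2) := by field_simp
      _ ≤ D * L / (2 * L ^ 2) := by gcongr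
      _ = _ := by field_simp
  have b5 : D / L = D / (2 * L) + D / (2 * L) := by field_simp; ring
  linarith

theorem st_small {L : ℝ} (hL : 1 ≤ L) {e b : ℕ} (hb : 5 * e + 2 ≤ b) :
    (L ^ b)⁻¹ * (L ^ e) ^ 5 * L ^ 2 ≤ 1 := by
  have L0 : 0 < L := by linarith
  rw [mul_assoc, inv_mul_le_iff₀ (by positivity), mul_one, ← pow_mul, ← pow_add]
  exact pow_le_pow_right₀ hL (by omega)

theorem st_swap {a a' c : V} {P ε η : ℝ} (h : |‖a' + c‖ ^ 2 - ‖a'‖ ^ 2 - P| ≤ ε)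
    (h' : 2 * (‖a - a'‖ * ‖c‖) ≤ η) : |‖a + c‖ ^ 2 - ‖a‖ ^ 2 - P| ≤ ε + η := by
  have e : ‖a + c‖ ^ 2 - ‖a‖ ^ 2 - P = (‖a' + c‖ ^ 2 - ‖a'‖ ^ 2 - P) + 2 * inner ℝ (a - a') c := by
    rw [norm_add_sq_real, norm_add_sq_real, inner_sub_left]; ring
  rw [e]
  refine (abs_add_le _ _).trans (add_le_add h (le_trans ?_ h'))
  rw [abs_mul, abs_two]
  gcongr
  exact abs_real_inner_le_norm _ _

theorem st_ratio {L : ℝ} (hL : 1 ≤ L) {e K N : ℕ} (he : 1 ≤ e) (hN : K ≤ N) :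
    (L ^ e) ^ K / (L ^ e) ^ N ≤ L ^ K / L ^ N := by
  have L0 : 0 < L := by linarith
  obtain ⟨d, rfl⟩ := Nat.exists_eq_add_of_le hN
  have h1 : L ^ d ≤ (L ^ e) ^ d := pow_le_pow_left₀ L0.le (le_self_pow₀ hL (by omega)) d
  rw [pow_add, pow_add, div_mul_cancel_left₀ (by positivity), div_mul_cancel_left₀ (by positivity)]
  exact inv_anti₀ (by positivity) h1

/-- the form added by the step `(k, j, l)` -/
def addF (A : Atl M univ) {ι : Type*} (N b : ℕ) (L : ι → ℝ) (k : Fin A.n) (ϱ Pi : ι → P2 → ℝ)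
    (t : ℝ) (i : ι) (p : M) (u : E2) : ℝ :=
  (A.e k).ext (fun z => del b (L i) * ϱ i z ^ (2 * N) * Pi i z) p *
    (((A.e k).push p u).1 + t * ((A.e k).push p u).2) ^ 2

/-- One step. The previous corrections `W` are tame of size `L ^ (-b)` and scale `L ^ e`. -/
theorem stage_step : ∃ K : ℕ, 2 ≤ K ∧ ∀ (A : Atl M univ) (g : Met M) (q e : ℕ), 1 ≤ q → q ≤ e →
    ∀ N N1 b : ℕ, 2 * K ≤ N → 5 * e + 5 ≤ b → ∀ {ι : Type u} (𝓕 : Filter ι) (L δ' : ι → ℝ)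
      (F W : ι → M → V) (k : Fin A.n) (f : ι → P2 → V) (ϖ ϱ : Fin 3 → ι → P2 → ℝ)
      (Pi : Fin 3 → Fin 3 → ι → P2 → ℝ) (κ C : ℝ) (j l : Fin 3), (∀ i, 1 ≤ L i) →
      Tendsto L 𝓕 atTop → (∀ i, Sm (F i)) → Prep A g 𝓕 q N N1 b L δ' F k f ϖ ϱ Pi κ C →
      TameM (fun i => (L i ^ b)⁻¹) (fun i => L i ^ e) 1 W →
      ∃ w : ι → M → V, TameM (fun i => (L i ^ b)⁻¹) (fun i => L i ^ (e * K)) 1 w ∧
        ∃ C' : ℝ, ∀ᶠ i in 𝓕, ∀ p u,
          |‖dM (F i) p u + dM (W i) p u + dM (w i) p u‖ ^ 2 - ‖dM (F i) p u + dM (W i) p u‖ ^ 2 -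
            addF A N b L k (ϱ j) (Pi j l) (slope j l) i p u| ≤
            C' * (L i ^ K / L i ^ N + L i ^ (2 * e * K) / L i ^ N1) * g.q p u := by
  obtain ⟨K, hK, H⟩ := stepF'.{u}
  refine ⟨K, by omega, ?_⟩
  intro A g q e hq hqe N N1 b hN hb ι 𝓕 L δ' F W k f ϖ ϱ Pi κ C j l hL hT hF hP hW
  have L0 : ∀ i, 0 < L i := fun i => by linarith [hL i]
  have he : 1 ≤ e := hq.trans hqe
  have ℓ1 : ∀ i, 1 ≤ L i ^ e := fun i => one_le_pow₀ (hL i)
  have Lℓ : ∀ i, L i ≤ L i ^ e := fun i => le_self_pow₀ (hL i) (by omega)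
  have s0 : ∀ i, 0 < (L i ^ b)⁻¹ := fun i => inv_pos.2 (pow_pos (L0 i) b)
  have s1 : ∀ i, (L i ^ b)⁻¹ ≤ 1 := fun i => inv_le_one_of_one_le₀ (one_le_pow₀ (hL i))
  have up : ∀ {X : Type} [NormedAddCommGroup X] [NormedSpace ℝ X] {Ω : ι → Set P2}
      {φ : ι → P2 → X}, PT Ω L q φ → PT Ω (fun i => L i ^ e) 1 φ := fun h =>
    PT.pow_eq' (h.mono hL (by omega))
  obtain ⟨R, hR⟩ := A.bdd k
  have tW := hW.tame (A.e k) (A.K0 k) (A.cK0 k) (A.sub0 k)
  have tF0 : PT (fun _ => A.K0 k) (fun i => L i ^ e) 1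
      fun i z => f i z + (A.e k).rep (W i) z :=
    ((up hP.tf).mono_set fun _ => subset_univ _).add
      ((tW.weaken fun i _ _ => s1 i).mono_scale fun i => (pow_one _).ge)
  let D : SData ι := ⟨fun i => L i ^ e, fun i => (L i ^ b)⁻¹,
    fun i z => f i z + (A.e k).rep (W i) z, ϖ j, ϱ j, Pi j l, R, κ / 2⟩
  have sub : ∀ i, D.Ω i ⊆ A.K0 k := fun i z hz => hP.dom j i z hz
  have κ0 := hP.κ0
  have hD : D.OK :=
    { L1 := ℓ1
      κ0 := half_pos κ0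
      s0 := s0
      s1 := s1
      tϖ := up (hP.tϖ j)
      tF := tF0.mono_set sub
      tϱ := (up (hP.tϱ j)).mono_set fun _ => subset_univ _
      tPi := (up (hP.tPi j l)).mono_set sub
      bdd := fun i p hp => hR p (A.K01 k (sub i hp))
      ϱ0 := fun i p _ => hP.ϱ0 j i p
      ϱ1 := fun i p _ => hP.ϱ1 j i p
      van := hP.van j }
  obtain ⟨c1, p1, b1⟩ := tW.norm_fderiv_le
  obtain ⟨c2, p2, b2⟩ := tW.norm_d2_le
  obtain ⟨c3, p3, b3⟩ := tF0.norm_d2_le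
  have fs : ∀ i z, ContDiffAt ℝ ∞ (f i) z := fun i z => hP.tf.smooth i z (mem_univ z)
  have dF : ∀ i, ∀ z ∈ A.K0 k, fderiv ℝ (D.F i) z =
      fderiv ℝ (f i) z + fderiv ℝ ((A.e k).rep (W i)) z := fun i z hz =>
    fderiv_fun_add (hP.tf.differentiableAt (mem_univ z)) (tW.differentiableAt hz)
  have good : ∀ᶠ i in 𝓕, D.Good i ∧ ∀ p ∈ D.Ω i, Tr (D.κ / D.L i)
      (d2 (D.F i) p ((shear (slope j l)).symm (0, 1)) ((shear (slope j l)).symm (0, 1)))
      (fderiv ℝ (D.F i) p) := by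
    set c := c1 + 25 * c2 + 25 * c3 with hc
    have c0 : 0 ≤ c := by positivity
    filter_upwards [hP.pos, hP.imm, hP.nd, hT.eventually_ge_atTop (2 * c / κ),
      hT.eventually_ge_atTop (2 * (c + 4 * c ^ 2 / κ) / κ)] with i h1 h2 h3 h4 h5
    rw [div_le_iff₀' κ0] at h4 h5
    have key : ∀ p ∈ D.Ω i, Imm (κ / 2) (fderiv ℝ (D.F i) p) ∧
        Tr (κ / (2 * L i)) (d2 (D.F i) p (leaf j l) (leaf j l)) (fderiv ℝ (D.F i) p) := by
      intro p hp
      have hp0 := sub i hp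
      have := s0 i
      have := L0 i
      have nl : ‖leaf j l‖ * ‖leaf j l‖ ≤ 25 := by nlinarith [norm_leaf j l, norm_nonneg (leaf j l)]
      obtain ⟨k1, k2⟩ := st_pert (T' := fderiv ℝ (D.F i) p) (x := d2 (f i) p (leaf j l) (leaf j l))
        (x' := d2 (D.F i) p (leaf j l) (leaf j l)) κ0 c0 (hL i) (ℓ1 i) (s0 i).le
        (st_small (hL i) (by omega)) (h2 p hp0) (fun u => by
          rw [dF i p hp0, ContinuousLinearMap.add_apply, add_sub_cancel_left]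
          refine (ContinuousLinearMap.le_opNorm _ _).trans ?_
          refine mul_le_mul_of_nonneg_right ((b1 i p hp0).trans ?_) (norm_nonneg u)
          exact mul_le_mul_of_nonneg_right (by linarith) (by positivity)) h4 h5
      refine ⟨k1, k2 (h3 j l p hp) ?_ ?_⟩
      · have e1 : d2 (D.F i) p (leaf j l) (leaf j l) = d2 (f i) p (leaf j l) (leaf j l) +
            d2 ((A.e k).rep (W i)) p (leaf j l) (leaf j l) :=
          d2_add (fs i p) (tW.smooth i p hp0) _ _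
        rw [e1, sub_add_cancel_left, norm_neg]
        calc _ ≤ c2 * ((L i ^ b)⁻¹ * (L i ^ e) ^ (1 + 2)) * (‖leaf j l‖ * ‖leaf j l‖) :=
              b2 i p hp0 _ _
          _ ≤ c2 * ((L i ^ b)⁻¹ * (L i ^ e) ^ (1 + 2)) * 25 := by gcongr
          _ = 25 * c2 * ((L i ^ b)⁻¹ * (L i ^ e) ^ 3) := by ring
          _ ≤ _ := mul_le_mul_of_nonneg_right (by linarith) (by positivity)
      · calc _ ≤ c3 * (1 * ((L i ^ e) ^ 1) ^ (1 + 2)) * (‖leaf j l‖ * ‖leaf j l‖) :=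
              b3 i p hp0 _ _
          _ ≤ c3 * (1 * ((L i ^ e) ^ 1) ^ (1 + 2)) * 25 := by gcongr
          _ = 25 * c3 * (L i ^ e) ^ 3 := by ring
          _ ≤ _ := mul_le_mul_of_nonneg_right (by linarith) (by positivity)
    have m1 : κ / 2 / L i ^ e ≤ κ / 2 := div_le_self (half_pos κ0).le (ℓ1 i)
    refine ⟨⟨fun p hp => m1.trans ((half_le_self κ0.le).trans (h1 j l p (sub i hp))),
      fun p hp => (key p hp).1.mono m1⟩, fun p hp => ?_⟩
    rw [shear_leaf]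
    refine (key p hp).2.mono ?_
    have := L0 i
    have := Lℓ i
    calc κ / 2 / L i ^ e ≤ κ / 2 / L i := by gcongr
      _ = _ := by rw [div_div]
  obtain ⟨w, tw, hw0, C1, κ', -, hev⟩ := H N hN 𝓕 D (shear (slope j l)) hD
    ((tendsto_pow_atTop (by omega)).comp hT) good
  have wK : ∀ i, ∀ z ∉ A.K0 k, w i z = 0 := fun i z hz =>
    hw0 i z (lt_of_le_of_lt (not_lt.1 fun h => hz (sub i h)) (by norm_num))
  have tw' : Tame (fun _ => univ) (fun i _ => (L i ^ b)⁻¹) (fun i => L i ^ (e * K)) 1 w :=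
    tw.mono_scale fun i => (pow_mul _ _ _).ge
  refine ⟨fun i => (A.e k).ext (w i), TameM.ext (A.e k) (A.cK0 k) (A.sub0 k) wK (fun i => (s0 i).le)
    (tw'.mono_set fun _ => subset_univ _), ?_⟩
  obtain ⟨c0, c0', c00, -, hc0⟩ := g.compare (A.e k) (A.cK0 k) (A.sub0 k)
  obtain ⟨cw, pw, bw⟩ := tw'.norm_fderiv_le
  refine ⟨(|C1| + 2 * |C| * cw) / c0, ?_⟩
  filter_upwards [hev, hP.app] with i h1 h2 p u
  have := L0 i
  have qn := g.q_nonneg p u
  by_cases hp : p ∈ (A.e k).source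
  · have ew := (A.e k).dM_ext hp (tw.smooth i _ (mem_univ _)) u
    by_cases hz : (A.e k).to p ∈ D.Ω i
    · have hz0 := sub i hz
      have h3 := (h1 _ hz).1 ((A.e k).push p u)
      have h4 := (hc0 _ hz0 ((A.e k).push p u)).1
      rw [← g.q_eq (A.e k) hp] at h4
      rw [ew, (A.e k).dM_eq (hF i) hp, (A.e k).dM_eq (hW.smooth i) hp, addF,
        (A.e k).ext_of_mem _ hp]
      set z := (A.e k).to p
      set v := (A.e k).push p u
      have e2 : D.amp2 N i z * (shear (slope j l) v).1 ^ 2 =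
          del b (L i) * ϱ j i z ^ (2 * N) * Pi j l i z * (v.1 + slope j l * v.2) ^ 2 := by
        have : ((L i ^ b)⁻¹) ^ 2 = del b (L i) := by rw [del, inv_pow, ← pow_mul, mul_comm]
        rw [← this]; rfl
      rw [dF i z hz0, e2, ContinuousLinearMap.add_apply, ContinuousLinearMap.add_apply] at h3
      have h5 : 2 * (‖fderiv ℝ ((A.e k).rep (F i)) z v + fderiv ℝ ((A.e k).rep (W i)) z v -
          (fderiv ℝ (f i) z v + fderiv ℝ ((A.e k).rep (W i)) z v)‖ * ‖fderiv ℝ (w i) z v‖) ≤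
          2 * |C| * cw * (L i ^ (2 * e * K) / L i ^ N1) * ‖v‖ ^ 2 := by
        rw [add_sub_add_right_eq_sub, ← ContinuousLinearMap.sub_apply]
        have a1 : ‖(fderiv ℝ ((A.e k).rep (F i)) z - fderiv ℝ (f i) z) v‖ ≤ |C| / L i ^ N1 * ‖v‖ :=
          (ContinuousLinearMap.le_opNorm _ _).trans (mul_le_mul_of_nonneg_right
            ((h2 z hz0).trans (by gcongr; exact le_abs_self C)) (norm_nonneg v))
        have a2 : ‖fderiv ℝ (w i) z v‖ ≤ cw * L i ^ (2 * e * K) * ‖v‖ := by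
          refine (ContinuousLinearMap.le_opNorm _ _).trans (mul_le_mul_of_nonneg_right
            ((bw i z (mem_univ z)).trans ?_) (norm_nonneg v))
          have := s1 i
          calc cw * ((L i ^ b)⁻¹ * (L i ^ (e * K)) ^ (1 + 1))
              ≤ cw * (1 * (L i ^ (e * K)) ^ (1 + 1)) := by gcongr
            _ = _ := by ring
        calc _ ≤ 2 * (|C| / L i ^ N1 * ‖v‖ * (cw * L i ^ (2 * e * K) * ‖v‖)) := by gcongr
          _ = _ := by ring
      refine (st_swap h3 h5).trans ?_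
      have r := st_ratio (hL i) he (by omega : K ≤ N)
      have h6 : ‖v‖ ^ 2 ≤ g.q p u / c0 := by rw [le_div_iff₀' c00]; exact h4
      have h7 : C1 * D.L i ^ K / D.L i ^ N ≤ |C1| * (L i ^ K / L i ^ N) := by
        rw [mul_div_assoc]
        exact mul_le_mul (le_abs_self _) r (by positivity) (abs_nonneg _)
      calc _ ≤ |C1| * (L i ^ K / L i ^ N) * ‖v‖ ^ 2 +
            2 * |C| * cw * (L i ^ (2 * e * K) / L i ^ N1) * ‖v‖ ^ 2 := by gcongr
        _ ≤ (|C1| + 2 * |C| * cw) * (L i ^ K / L i ^ N) * ‖v‖ ^ 2 +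
            (|C1| + 2 * |C| * cw) * (L i ^ (2 * e * K) / L i ^ N1) * ‖v‖ ^ 2 := by
          gcongr
          · exact le_add_of_nonneg_right (by positivity)
          · exact le_add_of_nonneg_left (by positivity)
        _ = (|C1| + 2 * |C| * cw) * (L i ^ K / L i ^ N + L i ^ (2 * e * K) / L i ^ N1) *
            ‖v‖ ^ 2 := by ring
        _ ≤ (|C1| + 2 * |C| * cw) * (L i ^ K / L i ^ N + L i ^ (2 * e * K) / L i ^ N1) *
            (g.q p u / c0) := by gcongr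
        _ = _ := by ring
    · have hz' : ϖ j i ((A.e k).to p) ≤ 0 := not_lt.1 hz
      have ev : w i =ᶠ[𝓝 ((A.e k).to p)] fun _ => 0 := by
        have hc : ContinuousAt (ϖ j i) ((A.e k).to p) :=
          ((hP.tϖ j).smooth i _ (mem_univ _)).continuousAt
        filter_upwards [hc.eventually_lt_const (show _ < (1 / 2 : ℝ) by linarith)] with x hx
        exact hw0 i x hx
      rw [ew, ev.fderiv_eq, addF, (A.e k).ext_of_mem _ hp, hP.van j i _ (by linarith),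
        zero_pow (by omega)]
      simp only [fderiv_fun_const, _root_.Pi.zero_apply, ContinuousLinearMap.zero_apply, add_zero,
        sub_self, mul_zero, zero_mul, abs_zero]
      positivity
  · rw [(A.e k).dM_ext_zero (A.cK0 k) (A.sub0 k) (wK i)
      (fun h => hp (((A.e k).mem_inv_image (A.sub0 k)).1 h).1), addF, (A.e k).ext_of_not_mem _ hp]
    simp only [ContinuousLinearMap.zero_apply, add_zero, sub_self, zero_mul, abs_zero]
    positivity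

end Vale.Agent.Iso4
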