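import Vale.Agent.Iso4.ManD
import Vale.Agent.Iso4.StepW
import Vale.Agent.Iso4.StageStep

/-! The state of the large steps, and single steps on the surface. -/

open scoped ContDiff Topology Manifold
open Set Filter

noncomputable section
namespace Vale.Agent.Iso4
universe u

variable {M : Type*} [TopologicalSpace M] [ChartedSpace E2 M]

/-- fixed data of the large steps -/
structure PCtx (M : Type*) [TopologicalSpace M] [ChartedSpace E2 M] (ι : Type*) where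
  (g : Met M)
  (φ : M → ℝ)
  (S U1 U2 : Set M)
  (A : Atl M S)
  (𝓕 : Filter ι)
  (L0 : ι → ℝ)
  (K0 N : ℕ)
  (F1 : ι → M → V)
  L1 : ∀ i, 1 ≤ L0 i
  lim : Tendsto L0 𝓕 atTop
  adapt : ∀ k, (A.e k).Adapt φ

/-- State: map `F`, formal correction `Ξ` vanishing on `Z`, added form `Q`, uncontrolled part
`E * dφ ^ 2`. -/
structure PSt {ι : Type*} (c : PCtx M ι) (e : ℕ) (F Ξ : ι → M → V) (E : ι → M → ℝ)
    (Q : ι → M → E2 → ℝ) (Z : Set M) : Prop where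
  e1 : 1 ≤ e
  tF : PM (fun i => c.L0 i ^ e) F
  tΞ : PM (fun i => c.L0 i ^ e) Ξ
  tE : PM (fun i => c.L0 i ^ e) E
  imm : ∃ κ : ℝ, 0 < κ ∧ ∀ᶠ i in c.𝓕, ∀ p u,
    (κ / c.L0 i ^ e) ^ 2 * c.g.q p u ≤ ‖dM (F i) p u‖ ^ 2
  nd : ∃ κ : ℝ, 0 < κ ∧ ∀ᶠ i in c.𝓕, ∀ p ∈ c.S,
    Tr (κ / c.L0 i ^ e) (c.A.D (F i) p + Ξ i p) (dM (F i) p)
  Esm : ∃ C : ℝ, ∀ᶠ i in c.𝓕, ∀ p, |E i p| ≤ C / c.L0 i ^ 3
  E0 : ∀ i, ∀ p ∈ c.U2, E i p = 0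
  err : ∃ C : ℝ, ∀ᶠ i in c.𝓕, ∀ p u, |‖dM (F i) p u‖ ^ 2 - ‖dM (c.F1 i) p u‖ ^ 2 - Q i p u -
    E i p * dM c.φ p u ^ 2| ≤ C * c.L0 i ^ c.K0 / c.L0 i ^ c.N * c.g.q p u
  same : ∀ i, ∀ p ∈ c.U1, F i p = c.F1 i p
  Ξ0 : ∀ i, ∀ p ∈ Z, Ξ i p = 0

/-- level and weight of a step in chart `k` -/
structure Wt {ι : Type*} (c : PCtx M ι) (k : Fin c.A.n) (ϖ ϱ : M → ℝ) : Prop where
  smϖ : Sm ϖ
  smϱ : Sm ϱ
  ϖ0 : ∀ p, 0 ≤ ϖ p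
  ϱ0 : ∀ p, 0 ≤ ϱ p
  ϱ1 : ∀ p, ϱ p ≤ 1
  van : ∀ p, ϖ p ≤ 1 → ϱ p = 0
  dom : ∀ p, 0 < ϖ p → p ∈ c.S ∧ p ∉ c.U1 ∧ p ∈ (c.A.e k).source ∧ (c.A.e k).to p ∈ c.A.K0 k

theorem PCtx.L0_pos {ι : Type*} (c : PCtx M ι) (i : ι) : 0 < c.L0 i := by linarith [c.L1 i]

theorem PCtx.div_le {ι : Type*} (c : PCtx M ι) (i : ι) {e e' : ℕ} (he : e ≤ e') {κ κ' : ℝ}
    (h0 : 0 ≤ κ') (h : κ' ≤ κ) : κ' / c.L0 i ^ e' ≤ κ / c.L0 i ^ e := by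
  have := c.L0_pos i
  exact div_le_div₀ (h0.trans h) h (by positivity) (pow_le_pow_right₀ (c.L1 i) he)

theorem PCtx.sq_le {ι : Type*} (c : PCtx M ι) (i : ι) {e e' : ℕ} (he : e ≤ e') {κ κ' y : ℝ}
    (h0 : 0 ≤ κ') (h : κ' ≤ κ) {p : M} {u : E2} (hy : (κ / c.L0 i ^ e) ^ 2 * c.g.q p u ≤ y) :
    (κ' / c.L0 i ^ e') ^ 2 * c.g.q p u ≤ y := by
  have := c.L0_pos i
  exact le_trans (mul_le_mul_of_nonneg_right
    (pow_le_pow_left₀ (by positivity) (c.div_le i he h0 h) 2) (c.g.q_nonneg p u)) hy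

theorem PSt.mono {ι : Type*} {c : PCtx M ι} {e e' : ℕ} {F Ξ : ι → M → V} {E : ι → M → ℝ}
    {Q : ι → M → E2 → ℝ} {Z : Set M} (h : PSt c e F Ξ E Q Z) (he : e ≤ e') :
    PSt c e' F Ξ E Q Z := by
  have m : ∀ i, c.L0 i ^ e ≤ c.L0 i ^ e' := fun i => pow_le_pow_right₀ (c.L1 i) he
  refine ⟨h.e1.trans he, h.tF.mono_scale m, h.tΞ.mono_scale m, h.tE.mono_scale m, ?_, ?_, h.Esm,
    h.E0, h.err, h.same, h.Ξ0⟩
  · obtain ⟨κ, h0, h1⟩ := h.imm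
    exact ⟨κ, h0, h1.mono fun i hi p u => c.sq_le i he h0.le le_rfl (hi p u)⟩
  · obtain ⟨κ, h0, h1⟩ := h.nd
    exact ⟨κ, h0, h1.mono fun i hi p hp => (hi p hp).mono (c.div_le i he h0.le le_rfl)⟩

/-- a function read in a chart, extended by zero -/
def Chart.cut (e : Chart M) (f : M → ℝ) : P2 → ℝ := indicator e.target (e.rep f)

theorem Chart.cut_mem (e : Chart M) (f : M → ℝ) {z : P2} (hz : z ∈ e.target) :
    e.cut f z = f (e.inv z) := indicator_of_mem hz _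

theorem Chart.cut_to (e : Chart M) (f : M → ℝ) {p : M} (hp : p ∈ e.source) :
    e.cut f (e.to p) = f p := by rw [e.cut_mem f (e.to_mem hp), e.inv_to hp]

theorem Chart.cut_not_mem (e : Chart M) (f : M → ℝ) {z : P2} (hz : z ∉ e.target) :
    e.cut f z = 0 := indicator_of_notMem hz _

theorem Chart.cut_pt (e : Chart M) {f : M → ℝ} (hf : Sm f) {K : Set P2} (hK : IsCompact K)
    (h : K ⊆ e.target) (h0 : ∀ p, f p ≠ 0 → e.to p ∈ K) {ι : Type*} {μ : ι → ℝ}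
    (hμ : ∀ i, 1 ≤ μ i) : Tame (fun _ => univ) (fun _ _ => 1) μ 1 fun _ => e.cut f := by
  have z0 : ∀ z ∉ K, e.cut f z = 0 := fun z hz => by
    by_cases ht : z ∈ e.target
    · rw [e.cut_mem f ht]
      by_contra h1
      exact hz (e.to_inv ht ▸ h0 _ h1)
    · exact e.cut_not_mem f ht
  refine Tame.fixed_supp hμ (contDiff_iff_contDiffAt.2 fun z => ?_) (HasCompactSupport.intro hK z0)
  by_cases ht : z ∈ e.target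
  · refine (e.contDiffAt_rep hf ht).congr_of_eventuallyEq ?_
    filter_upwards [e.open_target.mem_nhds ht] with x hx using e.cut_mem f hx
  · refine (contDiffAt_const (c := (0 : ℝ))).congr_of_eventuallyEq ?_
    filter_upwards [hK.isClosed.isOpen_compl.mem_nhds fun h1 => ht (h h1)] with x hx using z0 x hx

theorem Met.imm_of_q (g : Met M) (e : Chart M) {K : Set P2} (hK : IsCompact K) (h : K ⊆ e.target) :
    ∃ c : ℝ, 0 < c ∧ ∀ z ∈ K, ∀ F : M → V, Sm F → ∀ κ : ℝ, 0 ≤ κ →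
      (∀ u, κ ^ 2 * g.q (e.inv z) u ≤ ‖dM F (e.inv z) u‖ ^ 2) →
      Imm (c * κ) (fderiv ℝ (e.rep F) z) := by
  obtain ⟨c, C, c0, -, hc⟩ := g.compare e hK h
  refine ⟨√c, Real.sqrt_pos.2 c0, fun z hz F hF κ h0 h1 v => ?_⟩
  refine (sq_le_sq₀ (by positivity) (norm_nonneg _)).1 ?_
  rw [e.fderiv_rep hF (h hz), mul_pow, mul_pow, Real.sq_sqrt c0.le]
  refine le_trans ?_ (h1 _)
  rw [← g.cf_eq, mul_comm c, mul_assoc]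
  exact mul_le_mul_of_nonneg_left (hc z hz v).1 (sq_nonneg κ)

theorem Met.q_of_imm (g : Met M) (e : Chart M) {K : Set P2} (hK : IsCompact K) (h : K ⊆ e.target) :
    ∃ c : ℝ, 0 < c ∧ ∀ p ∈ e.source, e.to p ∈ K → ∀ (T : P2 →L[ℝ] V) (κ : ℝ), 0 ≤ κ → Imm κ T →
      ∀ u, (c * κ) ^ 2 * g.q p u ≤ ‖T (e.push p u)‖ ^ 2 := by
  obtain ⟨c, C, -, C0, hc⟩ := g.compare e hK h
  refine ⟨(√C)⁻¹, inv_pos.2 (Real.sqrt_pos.2 C0), fun p hp hz T κ h0 h1 u => ?_⟩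
  have a1 := (hc _ hz (e.push p u)).2
  rw [← g.q_eq e hp] at a1
  calc _ ≤ ((√C)⁻¹ * κ) ^ 2 * (C * ‖e.push p u‖ ^ 2) := by gcongr
    _ = (κ * ‖e.push p u‖) ^ 2 := by
      rw [mul_pow, inv_pow, Real.sq_sqrt C0.le]; field_simp
    _ ≤ _ := pow_le_pow_left₀ (by positivity) (h1 _) 2

/-- the data of a step -/
def PCtx.sd {ι : Type*} (c : PCtx M ι) (e : ℕ) (F : ι → M → V) (k : Fin c.A.n) (ϖ ϱ : M → ℝ)
    (Pi : ι → P2 → ℝ) (R κ : ℝ) : SData ι :=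
  ⟨fun i => c.L0 i ^ e, fun _ => 1, fun i => (c.A.e k).rep (F i), fun _ => (c.A.e k).cut ϖ,
    fun _ => (c.A.e k).cut ϱ, Pi, R, κ⟩

namespace Wt
variable {ι : Type*} {c : PCtx M ι} {k : Fin c.A.n} {ϖ ϱ : M → ℝ} (hw : Wt c k ϖ ϱ) {p : M}
  {z : P2} {e e' : ℕ} {F Ξ Ξ' : ι → M → V} {w : ι → P2 → V}
include hw

theorem src (hp : 0 < ϖ p) : p ∈ (c.A.e k).source := (hw.dom p hp).2.2.1

theorem mem0 (hp : 0 < ϖ p) : (c.A.e k).to p ∈ c.A.K0 k := (hw.dom p hp).2.2.2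

theorem to_mem (hp : 0 < ϖ p) : 0 < (c.A.e k).cut ϖ ((c.A.e k).to p) := by
  rwa [(c.A.e k).cut_to ϖ (hw.src hp)]

theorem of_mem (hz : 0 < (c.A.e k).cut ϖ z) : ∃ p, 0 < ϖ p ∧ z = (c.A.e k).to p := by
  by_cases ht : z ∈ (c.A.e k).target
  · exact ⟨(c.A.e k).inv z, by rwa [(c.A.e k).cut_mem ϖ ht] at hz, ((c.A.e k).to_inv ht).symm⟩
  · rw [(c.A.e k).cut_not_mem ϖ ht] at hz
    exact absurd hz (lt_irrefl _)

theorem sub0 (hz : 0 < (c.A.e k).cut ϖ z) : z ∈ c.A.K0 k := by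
  obtain ⟨p, hp, rfl⟩ := hw.of_mem hz
  exact hw.mem0 hp

theorem ϱ_zero (hp : ¬0 < ϖ p) : ϱ p = 0 := hw.van p (by linarith [not_lt.1 hp])

theorem sd_ok {Pi : ι → P2 → ℝ} {R κ : ℝ} (hF : PM (fun i => c.L0 i ^ e) F)
    (hP : PT (fun _ => c.A.K0 k) (fun i => c.L0 i ^ e) 1 Pi) (hR : ∀ z ∈ c.A.K1 k, ‖z‖ < R)
    (hκ : 0 < κ) : (c.sd e F k ϖ ϱ Pi R κ).OK where
  L1 i := one_le_pow₀ (c.L1 i)
  κ0 := hκ
  s0 _ := one_pos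
  s1 _ := le_rfl
  tϖ := (c.A.e k).cut_pt hw.smϖ (c.A.cK0 k) (c.A.sub0 k)
    (fun p h => hw.mem0 ((hw.ϖ0 p).lt_of_ne' h)) hP.one_le
  tF := ((hF.tame (c.A.e k) _ (c.A.cK0 k) (c.A.sub0 k)).mono_scale
    fun _ => (pow_one _).ge).mono_set fun _ _ hz => hw.sub0 hz
  tϱ := ((c.A.e k).cut_pt hw.smϱ (c.A.cK0 k) (c.A.sub0 k)
    (fun _ h => hw.mem0 (by_contra fun h' => h (hw.ϱ_zero h'))) hP.one_le).mono_set
      fun _ => subset_univ _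
  tPi := hP.mono_set fun _ _ hz => hw.sub0 hz
  bdd _ _ hz := hR _ (c.A.K01 k (hw.sub0 hz))
  ϱ0 _ z hz := by
    obtain ⟨p, hp, rfl⟩ := hw.of_mem hz
    exact (hw.ϱ0 p).trans ((c.A.e k).cut_to ϱ (hw.src hp)).ge
  ϱ1 _ z hz := by
    obtain ⟨p, hp, rfl⟩ := hw.of_mem hz
    exact ((c.A.e k).cut_to ϱ (hw.src hp)).le.trans (hw.ϱ1 p)
  van _ z hz := by
    by_cases ht : z ∈ (c.A.e k).target
    · exact ((c.A.e k).cut_mem ϱ ht).trans (hw.van _ (((c.A.e k).cut_mem ϖ ht).ge.trans hz))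
    · exact (c.A.e k).cut_not_mem ϱ ht

theorem sd_imm (hF : ∀ i, Sm (F i)) (h : ∃ κ : ℝ, 0 < κ ∧ ∀ᶠ i in c.𝓕, ∀ p u,
    (κ / c.L0 i ^ e) ^ 2 * c.g.q p u ≤ ‖dM (F i) p u‖ ^ 2) : ∃ κ : ℝ, 0 < κ ∧ ∀ᶠ i in c.𝓕, ∀ z,
      0 < (c.A.e k).cut ϖ z → Imm (κ / c.L0 i ^ e) (fderiv ℝ ((c.A.e k).rep (F i)) z) := by
  obtain ⟨κ, h0, h1⟩ := h
  obtain ⟨a, a0, ha⟩ := c.g.imm_of_q (c.A.e k) (c.A.cK0 k) (c.A.sub0 k)
  refine ⟨a * κ, mul_pos a0 h0, h1.mono fun i hi z hz => ?_⟩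
  have := c.L0_pos i
  rw [mul_div_assoc]
  exact ha z (hw.sub0 hz) _ (hF i) _ (by positivity) (hi _)

theorem ext_ev {X : Type} [Zero X] {w : P2 → X} (h : ∀ z, (c.A.e k).cut ϖ z < 1 / 2 → w z = 0)
    (hp : ¬0 < ϖ p) : (c.A.e k).ext w =ᶠ[𝓝 p] fun _ => 0 := by
  filter_upwards [hw.smϖ.cont.continuousAt.eventually_lt_const
    (show ϖ p < 1 / 2 by linarith [not_lt.1 hp])] with q hq
  by_cases hs : q ∈ (c.A.e k).source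
  · rw [(c.A.e k).ext_of_mem w hs]
    exact h _ (by rwa [(c.A.e k).cut_to ϖ hs])
  · exact (c.A.e k).ext_of_not_mem w hs

theorem add_ev {X : Type} [AddMonoid X] {w : P2 → X} (f : M → X)
    (h : ∀ z, (c.A.e k).cut ϖ z < 1 / 2 → w z = 0) (hp : ¬0 < ϖ p) :
    (fun q => f q + (c.A.e k).ext w q) =ᶠ[𝓝 p] f := by
  filter_upwards [hw.ext_ev h hp] with q hq
  rw [hq, add_zero]

variable [T2Space M]

theorem pm_ext {X : Type} [NormedAddCommGroup X] [NormedSpace ℝ X] {w : ι → P2 → X} {μ : ι → ℝ}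
    (ht : Tame (fun _ => univ) (fun _ _ => 1) μ 1 w)
    (h : ∀ i z, (c.A.e k).cut ϖ z < 1 / 2 → w i z = 0) : PM μ fun i => (c.A.e k).ext (w i) :=
  TameM.ext (c.A.e k) (c.A.cK0 k) (c.A.sub0 k) (fun i z hz => h i z
    (lt_of_le_of_lt (not_lt.1 fun h' => hz (hw.sub0 h')) (by norm_num))) (fun _ => zero_le_one)
    (ht.mono_set fun _ => subset_univ _)

theorem dM_upd {F : M → V} {w : P2 → V} (hF : Sm F) (hs : ContDiff ℝ ∞ w)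
    (hs' : Sm ((c.A.e k).ext w)) (hp : 0 < ϖ p) (u : E2) :
    dM (fun q => F q + (c.A.e k).ext w q) p u =
      (fderiv ℝ ((c.A.e k).rep F) ((c.A.e k).to p) + fderiv ℝ w ((c.A.e k).to p))
        ((c.A.e k).push p u) := by
  rw [dM_add hF hs', add_apply, add_apply, (c.A.e k).dM_eq hF (hw.src hp),
    (c.A.e k).dM_ext (hw.src hp) hs.contDiffAt]

theorem upd_imm (he : e ≤ e') (hF : ∀ i, Sm (F i)) (hs : ∀ i, ContDiff ℝ ∞ (w i))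
    (hs' : ∀ i, Sm ((c.A.e k).ext (w i))) (h0 : ∀ i z, (c.A.e k).cut ϖ z < 1 / 2 → w i z = 0)
    (h1 : ∃ κ : ℝ, 0 < κ ∧ ∀ᶠ i in c.𝓕, ∀ p u,
      (κ / c.L0 i ^ e) ^ 2 * c.g.q p u ≤ ‖dM (F i) p u‖ ^ 2) {κ' : ℝ} (κ0 : 0 < κ')
    (h2 : ∀ᶠ i in c.𝓕, ∀ z, 0 < (c.A.e k).cut ϖ z →
      Imm (κ' / c.L0 i ^ e) (fderiv ℝ ((c.A.e k).rep (F i)) z + fderiv ℝ (w i) z)) :
    ∃ κ : ℝ, 0 < κ ∧ ∀ᶠ i in c.𝓕, ∀ p u, (κ / c.L0 i ^ e') ^ 2 * c.g.q p u ≤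
      ‖dM (fun q => F i q + (c.A.e k).ext (w i) q) p u‖ ^ 2 := by
  obtain ⟨κ, k0, h1⟩ := h1
  obtain ⟨a, a0, ha⟩ := c.g.q_of_imm (c.A.e k) (c.A.cK0 k) (c.A.sub0 k)
  have m0 : 0 < min κ (a * κ') := lt_min k0 (mul_pos a0 κ0)
  refine ⟨_, m0, ?_⟩
  filter_upwards [h1, h2] with i h1 h2 p u
  have := c.L0_pos i
  by_cases hp : 0 < ϖ p
  · refine c.sq_le i he m0.le (min_le_right _ _) ?_
    rw [hw.dM_upd (hF i) (hs i) (hs' i) hp, mul_div_assoc]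
    exact ha p (hw.src hp) (hw.mem0 hp) _ _ (by positivity) (h2 _ (hw.to_mem hp)) u
  · rw [dM_congr (hw.add_ev (F i) (h0 i) hp)]
    exact c.sq_le i he m0.le (min_le_left _ _) (h1 p u)

theorem upd_nd (he : e ≤ e') (hF : ∀ i, Sm (F i)) (hs : ∀ i, ContDiff ℝ ∞ (w i))
    (hs' : ∀ i, Sm ((c.A.e k).ext (w i))) (h0 : ∀ i z, (c.A.e k).cut ϖ z < 1 / 2 → w i z = 0)
    (hΞ : ∀ i p, ¬0 < ϖ p → Ξ' i p = Ξ i p)
    (h1 : ∃ κ : ℝ, 0 < κ ∧ ∀ᶠ i in c.𝓕, ∀ p ∈ c.S,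
      Tr (κ / c.L0 i ^ e) (c.A.D (F i) p + Ξ i p) (dM (F i) p)) {κ' : ℝ} (κ0 : 0 < κ')
    (h2 : ∀ᶠ i in c.𝓕, ∀ p, 0 < ϖ p →
      Tr (κ' / c.L0 i ^ e) (c.A.D (fun q => F i q + (c.A.e k).ext (w i) q) p + Ξ' i p)
        (fderiv ℝ ((c.A.e k).rep (F i)) ((c.A.e k).to p) + fderiv ℝ (w i) ((c.A.e k).to p))) :
    ∃ κ : ℝ, 0 < κ ∧ ∀ᶠ i in c.𝓕, ∀ p ∈ c.S, Tr (κ / c.L0 i ^ e')
      (c.A.D (fun q => F i q + (c.A.e k).ext (w i) q) p + Ξ' i p)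
      (dM (fun q => F i q + (c.A.e k).ext (w i) q) p) := by
  obtain ⟨κ, k0, h1⟩ := h1
  have m0 : 0 < min κ κ' := lt_min k0 κ0
  refine ⟨_, m0, ?_⟩
  filter_upwards [h1, h2] with i h1 h2 p hS
  by_cases hp : 0 < ϖ p
  · intro u
    rw [hw.dM_upd (hF i) (hs i) (hs' i) hp]
    exact (h2 p hp).mono (c.div_le i he m0.le (min_le_right _ _)) _
  · rw [dM_congr (hw.add_ev (F i) (h0 i) hp), c.A.D_congr (hw.add_ev (F i) (h0 i) hp), hΞ i p hp]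
    exact (h1 p hS).mono (c.div_le i he m0.le (min_le_left _ _))

theorem upd_err {K : ℕ} (he : 1 ≤ e) (hK : K ≤ c.K0) (hN : K ≤ c.N) (hF : ∀ i, Sm (F i))
    (hs : ∀ i, ContDiff ℝ ∞ (w i)) (hs' : ∀ i, Sm ((c.A.e k).ext (w i)))
    (h0 : ∀ i z, (c.A.e k).cut ϖ z < 1 / 2 → w i z = 0) {P P' : ι → M → E2 → ℝ}
    (hP : ∀ i p u, ¬0 < ϖ p → P' i p u = P i p u)
    (h1 : ∃ C : ℝ, ∀ᶠ i in c.𝓕, ∀ p u, |‖dM (F i) p u‖ ^ 2 - P i p u| ≤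
      C * c.L0 i ^ c.K0 / c.L0 i ^ c.N * c.g.q p u) {C' : ℝ}
    (h2 : ∀ᶠ i in c.𝓕, ∀ p u, 0 < ϖ p →
      |‖(fderiv ℝ ((c.A.e k).rep (F i)) ((c.A.e k).to p) + fderiv ℝ (w i) ((c.A.e k).to p))
        ((c.A.e k).push p u)‖ ^ 2 -
        ‖fderiv ℝ ((c.A.e k).rep (F i)) ((c.A.e k).to p) ((c.A.e k).push p u)‖ ^ 2 -
        (P' i p u - P i p u)| ≤
        C' * (c.L0 i ^ e) ^ K / (c.L0 i ^ e) ^ c.N * ‖(c.A.e k).push p u‖ ^ 2) :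
    ∃ C : ℝ, ∀ᶠ i in c.𝓕, ∀ p u,
      |‖dM (fun q => F i q + (c.A.e k).ext (w i) q) p u‖ ^ 2 - P' i p u| ≤
        C * c.L0 i ^ c.K0 / c.L0 i ^ c.N * c.g.q p u := by
  obtain ⟨C, h1⟩ := h1
  obtain ⟨a, a', a0, -, ha⟩ := c.g.compare (c.A.e k) (c.A.cK0 k) (c.A.sub0 k)
  refine ⟨C + |C'| / a, ?_⟩
  filter_upwards [h1, h2] with i h1 h2 p u
  have := c.L0_pos i
  have qn := c.g.q_nonneg p u
  have h3 := h1 p u
  rw [add_mul, add_div, add_mul]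
  by_cases hp : 0 < ϖ p
  · have h4 := (ha _ (hw.mem0 hp) ((c.A.e k).push p u)).1
    rw [← c.g.q_eq _ (hw.src hp), ← le_div_iff₀' a0] at h4
    have r := (st_ratio (c.L1 i) he hN).trans (show _ ≤ c.L0 i ^ c.K0 / c.L0 i ^ c.N by
      gcongr; exact c.L1 i)
    have h5 := (h2 p u hp).trans (show _ ≤ |C'| / a * c.L0 i ^ c.K0 / c.L0 i ^ c.N * c.g.q p u by
      calc _ ≤ |C'| * (c.L0 i ^ c.K0 / c.L0 i ^ c.N) * (c.g.q p u / a) := by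
            rw [mul_div_assoc]
            gcongr
            exact le_abs_self _
        _ = _ := by ring)
    rw [← (c.A.e k).dM_eq (hF i) (hw.src hp), ← hw.dM_upd (hF i) (hs i) (hs' i) hp] at h5
    rw [abs_le] at h3 h5 ⊢
    constructor <;> linarith [h3.1, h3.2, h5.1, h5.2]
  · rw [dM_congr (hw.add_ev (F i) (h0 i) hp), hP i p u hp]
    exact h3.trans (le_add_of_nonneg_right (by positivity))

end Wt

end Vale.Agent.Iso4
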