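import Vale.Agent.Iso4.Generic
import Vale.Agent.Iso4.Diag
import Vale.Agent.Iso4.Deg2M

/-! The number of umbrella points is even. -/

open scoped ContDiff Topology Manifold
open Set Filter

noncomputable section
namespace Vale.Agent.Iso4

theorem par_count {X : Type*} [TopologicalSpace X] [T2Space X] [CompactSpace X] {l : Filter ℝ}
    [l.NeBot] {P : ℝ → X → Prop} {S : Set X} {O : X → Set X} (hO : ∀ x, O x ∈ 𝓝 x)
    (hu : ∀ x ∈ S, ∀ᶠ τ in l, ∀ y ∈ O x, P τ y → ∀ y' ∈ O x, P τ y' → y' = y)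
    (hn : ∀ x ∉ S, ∀ᶠ τ in l, ∀ y ∈ O x, ¬ P τ y)
    (he : ∀ x ∈ S, ∀ O' ∈ 𝓝 x, ∀ᶠ τ in l, ∃ y ∈ O', P τ y) :
    S.Finite ∧ ∀ C, IsClopen C → ∀ᶠ τ in l, (S ∩ C).ncard = {y ∈ C | P τ y}.ncard ∧
      ∀ y, P τ y → ∃ s ∈ S, y ∈ O s := by
  classical
  have hfin : S.Finite := by
    obtain ⟨t, -, ht⟩ := isCompact_univ.elim_nhds_subcover (fun x => interior (O x))
      fun x _ => interior_mem_nhds.2 (hO x)
    refine t.finite_toSet.subset fun s hs => ?_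
    obtain ⟨x, hx, hsx⟩ := mem_iUnion₂.1 (ht (mem_univ s))
    have hsx' := mem_interior_iff_mem_nhds.1 hsx
    by_cases hxS : x ∈ S
    · by_cases e : s = x
      · exact e ▸ hx
      · obtain ⟨A, B, hA, hB, hAB⟩ := t2_separation_nhds e
        obtain ⟨τ, h1, ⟨y, hy, py⟩, y', hy', py'⟩ := ((hu x hxS).and ((he s hs _
          (inter_mem hA hsx')).and (he x hxS _ (inter_mem hB (hO x))))).exists
        exact absurd (h1 y hy.2 py y' hy'.2 py' ▸ hy'.1) (disjoint_left.1 hAB hy.1)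
    · obtain ⟨τ, h1, y, hy, py⟩ := ((hn x hxS).and (he s hs _ hsx')).exists
      exact absurd py (h1 y hy)
  refine ⟨hfin, fun C hC => ?_⟩
  obtain ⟨U, hU, hUd⟩ := hfin.t2_separation
  let W : X → Set X := fun s => U s ∩ interior (O s) ∩ if s ∈ C then C else Cᶜ
  have hWo : ∀ s, IsOpen (W s) := fun s => ((hU s).2.inter isOpen_interior).inter (by
    split_ifs
    exacts [hC.isOpen, hC.isClosed.isOpen_compl])
  have hWm : ∀ s, s ∈ W s := fun s => ⟨⟨(hU s).1, mem_interior_iff_mem_nhds.2 (hO s)⟩, by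
    split_ifs with h
    exacts [h, h]⟩
  have hWC : ∀ s, ∀ y ∈ W s, (y ∈ C ↔ s ∈ C) := fun s y hy => by
    have := hy.2
    split_ifs at this with h
    · exact iff_of_true this h
    · exact iff_of_false this h
  have hK : IsCompact (⋃ s ∈ S, W s)ᶜ :=
    (isOpen_biUnion fun s _ => hWo s).isClosed_compl.isCompact
  obtain ⟨t, ht1, ht⟩ := hK.elim_nhds_subcover O fun x _ => hO x
  have h1 : ∀ᶠ τ in l, ∀ x ∈ t, ∀ y ∈ O x, ¬ P τ y := (eventually_all_finset t).2 fun x hx =>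
    hn x fun h => ht1 x hx (mem_biUnion h (hWm x))
  filter_upwards [h1, (hfin.eventually_all).2 hu, (hfin.eventually_all).2 fun x hx =>
    he x hx _ ((hWo x).mem_nhds (hWm x))] with τ h1 h2 h3
  have h4 : ∀ y, P τ y → ∃ s ∈ S, y ∈ W s := fun y hy => by
    by_contra hc
    obtain ⟨x, hx, hyx⟩ := mem_iUnion₂.1 (ht (show y ∈ (⋃ s ∈ S, W s)ᶜ from fun h => hc (by
      simpa using h)))
    exact h1 x hx y hyx hy
  choose! p hp using h3
  refine ⟨ncard_congr (fun s _ => p s)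
    (fun s hs => ⟨(hWC s _ (hp s hs.1).1).2 hs.2, (hp s hs.1).2⟩) (fun s s' hs hs' e => ?_)
    fun y hy => ?_, fun y hy => ?_⟩
  · by_contra hne
    exact disjoint_left.1 (hUd hs.1 hs'.1 hne) (hp s hs.1).1.1.1 (e ▸ (hp s' hs'.1).1.1.1)
  · obtain ⟨s, hs, hys⟩ := h4 y hy.2
    exact ⟨s, ⟨hs, (hWC s y hys).1 hy.1⟩, h2 s hs y (interior_subset hys.1.2) hy.2 _
      (interior_subset (hp s hs).1.1.2) (hp s hs).2⟩
  · obtain ⟨s, hs, hys⟩ := h4 y hy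
    exact ⟨s, hs, interior_subset hys.1.2⟩

variable {M : Type*} [TopologicalSpace M] [ChartedSpace E2 M] {G : M → V}

/-- regularity of a pair of points -/
def ParReg (G : M → V) (y : M × M) : Prop := ∀ u w, dM G y.2 w = dM G y.1 u → u = 0

/-- special pairs -/
def ParS (G : M → V) : Set (M × M) :=
  (fun s => (s, s)) '' Umb G ∪ {y | y.1 ≠ y.2 ∧ G y.1 = G y.2}

theorem par_nhds (e e' : Chart M) {p q : M} (hp : p ∈ e.source) (hq : q ∈ e'.source)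
    {O : Set (P2 × P2)} (hO : O ∈ 𝓝 (e.to p, e'.to q)) :
    {y : M × M | y.1 ∈ e.source ∧ y.2 ∈ e'.source ∧ (e.to y.1, e'.to y.2) ∈ O} ∈ 𝓝 (p, q) :=
  inter_mem (continuous_fst.continuousAt.preimage_mem_nhds (e.open_source.mem_nhds hp))
    (inter_mem (continuous_snd.continuousAt.preimage_mem_nhds (e'.open_source.mem_nhds hq))
      (((e.continuousAt_to hp).prodMap' (e'.continuousAt_to hq)).preimage_mem_nhds hO))

theorem par_tr (hG : Sm G) (e e' : Chart M) {p q : M} (hp : p ∈ e.source) (hq : q ∈ e'.source)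
    (h1 : ∃ O ∈ 𝓝 (e.to p, e'.to q), ∀ᶠ τ : ℝ in 𝓝[>] 0, ∀ y ∈ O,
      e'.rep G y.2 - e.rep G y.1 = τ • ev3 →
      (∀ y' ∈ O, e'.rep G y'.2 - e.rep G y'.1 = τ • ev3 → y' = y) ∧
      ∀ ξ η : P2, fderiv ℝ (e'.rep G) y.2 η = fderiv ℝ (e.rep G) y.1 ξ → ξ = 0)
    (h2 : ∀ O ∈ 𝓝 (e.to p, e'.to q), ∀ᶠ τ : ℝ in 𝓝[>] 0, ∃ y ∈ O,
      e'.rep G y.2 - e.rep G y.1 = τ • ev3) :
    (∃ O ∈ 𝓝 (p, q), ∀ᶠ τ : ℝ in 𝓝[>] 0, ∀ y ∈ O, G y.2 - G y.1 = τ • ev3 →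
      (∀ y' ∈ O, G y'.2 - G y'.1 = τ • ev3 → y' = y) ∧ ParReg G y) ∧
    ∀ O ∈ 𝓝 (p, q), ∀ᶠ τ : ℝ in 𝓝[>] 0, ∃ y ∈ O, G y.2 - G y.1 = τ • ev3 := by
  constructor
  · obtain ⟨O, hO, h⟩ := h1
    refine ⟨_, par_nhds e e' hp hq hO, h.mono fun τ h y hy e1 => ?_⟩
    obtain ⟨h3, h4⟩ := h _ hy.2.2 (by simpa only [e.rep_to G hy.1, e'.rep_to G hy.2.1] using e1)
    refine ⟨fun y' hy' e2 => ?_, fun u w huw => ?_⟩
    · have := h3 _ hy'.2.2 (by simpa only [e.rep_to G hy'.1, e'.rep_to G hy'.2.1] using e2)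
      simp only [Prod.mk.injEq] at this
      refine Prod.ext ?_ ?_
      · rw [← e.inv_to hy'.1, this.1, e.inv_to hy.1]
      · rw [← e'.inv_to hy'.2.1, this.2, e'.inv_to hy.2.1]
    · rw [e.dM_eq hG hy.1, e'.dM_eq hG hy.2.1] at huw
      rw [← e.pull_push hy.1 u, h4 _ _ huw, map_zero]
  · intro O hO
    have hc := (e.continuousAt_inv (e.to_mem hp)).prodMap' (e'.continuousAt_inv (e'.to_mem hq))
    refine (h2 _ (hc.preimage_mem_nhds ?_)).mono fun τ ⟨y, hy, e1⟩ => ⟨_, hy, e1⟩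
    simpa only [Prod.map, e.inv_to hp, e'.inv_to hq] using hO

variable [IsManifold (𝓡 2) ∞ M]

omit [IsManifold (𝓡 2) ∞ M] in
theorem Gen.par_inj (h : Gen G) (e : Chart M) {z : P2} (hz : z ∈ e.target) :
    (∀ᶠ x in 𝓝 z, ContDiffAt ℝ ∞ (e.rep G) x) ∧ Function.Injective (fderiv ℝ (e.rep G) z) :=
  ⟨mem_of_superset (e.open_target.mem_nhds hz) fun _ hx => e.contDiffAt_rep h.sm hx,
    (injective_iff_map_eq_zero _).2 fun v hv => by
      rw [e.fderiv_rep h.sm hz] at hv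
      rw [← e.push_pull hz v, h.imm _ _ hv, map_zero]⟩

theorem Gen.par_in (h : Gen G) {x : M × M} (hx : x ∈ ParS G) :
    (∃ O ∈ 𝓝 x, ∀ᶠ τ : ℝ in 𝓝[>] 0, ∀ y ∈ O, G y.2 - G y.1 = τ • ev3 →
      (∀ y' ∈ O, G y'.2 - G y'.1 = τ • ev3 → y' = y) ∧ ParReg G y) ∧
    ∀ O ∈ 𝓝 x, ∀ᶠ τ : ℝ in 𝓝[>] 0, ∃ y ∈ O, G y.2 - G y.1 = τ • ev3 := by
  obtain ⟨p, q⟩ := x
  obtain ⟨e, he, -⟩ := exists_chart p
  obtain ⟨h1, h2⟩ := h.par_inj e (e.to_mem he)
  rcases hx with ⟨s, ⟨u, hu⟩, hs⟩ | ⟨hne, hG⟩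
  · obtain ⟨rfl, rfl⟩ := Prod.mk.inj hs
    rw [e.dM_eq h.sm he] at hu
    obtain ⟨h3, h4, -⟩ := diag_one h1 h2 hu (h.umb e _ (e.to_mem he) _ hu)
    exact par_tr h.sm e e he he h3 h4
  · obtain ⟨e', he', -⟩ := exists_chart q
    obtain ⟨h1', h2'⟩ := h.par_inj e' (e'.to_mem he')
    obtain ⟨⟨O, hO, h3⟩, h4⟩ := dbl_one (c := ev3) h1 h1'
      (by rw [e.rep_to G he, e'.rep_to G he']; exact hG) (fun ξ η hh => by
        have h5 : ξ = 0 := by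
          rw [e.fderiv_rep h.sm (e.to_mem he), e'.fderiv_rep h.sm (e'.to_mem he'), e.inv_to he,
            e'.inv_to he'] at hh
          rw [← e.push_pull' he ξ, h.dbl p q hne hG _ _ hh.symm, map_zero]
        rw [h5, map_zero, ← map_zero (fderiv ℝ (e'.rep G) (e'.to q))] at hh
        exact ⟨h5, h2' hh⟩)
    exact par_tr h.sm e e' he he' ⟨O, hO, Eventually.of_forall fun τ y hy e1 =>
      ⟨fun y' hy' e2 => (h3 y hy).1 y' hy' (e2.trans e1.symm), (h3 y hy).2⟩⟩ h4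

theorem Gen.par_out (h : Gen G) {x : M × M} (hx : x ∉ ParS G) :
    ∃ O ∈ 𝓝 x, ∀ᶠ τ : ℝ in 𝓝[>] 0, ∀ y ∈ O, ¬ G y.2 - G y.1 = τ • ev3 := by
  obtain ⟨p, q⟩ := x
  by_cases hpq : p = q
  · subst hpq
    obtain ⟨e, he, -⟩ := exists_chart p
    obtain ⟨h1, h2⟩ := h.par_inj e (e.to_mem he)
    obtain ⟨O, hO, h3⟩ := diag_none (c := ev3) h1 h2 fun u hu => hx (Or.inl ⟨p, ⟨_, by
      rw [e.fderiv_rep h.sm (e.to_mem he), e.inv_to he] at hu
      exact hu⟩, rfl⟩)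
    refine ⟨_, par_nhds e e he he hO, ?_⟩
    filter_upwards [self_mem_nhdsWithin] with τ hτ y hy
    simpa only [e.rep_to G hy.1, e.rep_to G hy.2.1] using h3 τ hτ _ hy.2.2
  · have hne : G q - G p ≠ 0 := fun e => hx (Or.inr ⟨hpq, (sub_eq_zero.1 e).symm⟩)
    obtain ⟨A, B, hA, hB, hAB⟩ := t2_separation_nhds hne
    have hc : Continuous fun y : M × M => G y.2 - G y.1 :=
      (h.sm.continuous.comp continuous_snd).sub (h.sm.continuous.comp continuous_fst)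
    have hc2 : ContinuousAt (fun τ : ℝ => τ • ev3) 0 := by fun_prop
    refine ⟨_, hc.continuousAt.preimage_mem_nhds hA, ?_⟩
    filter_upwards [nhdsWithin_le_nhds (hc2.preimage_mem_nhds (by simpa using hB))] with τ hτ y hy e
    exact disjoint_left.1 hAB (e ▸ hy : τ • ev3 ∈ A) hτ

variable [T2Space M] [CompactSpace M]

theorem Gen.par_main (h : Gen G) : (ParS G).Finite ∧ ∀ C, IsClopen C → ∀ᶠ τ : ℝ in 𝓝[>] 0,
    (ParS G ∩ C).ncard = {y ∈ C | G y.2 - G y.1 = τ • ev3}.ncard ∧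
      ∀ y, G y.2 - G y.1 = τ • ev3 → ParReg G y := by
  have hex : ∀ x : M × M, ∃ O ∈ 𝓝 x, (x ∈ ParS G → ∀ᶠ τ : ℝ in 𝓝[>] 0, ∀ y ∈ O,
      G y.2 - G y.1 = τ • ev3 → (∀ y' ∈ O, G y'.2 - G y'.1 = τ • ev3 → y' = y) ∧ ParReg G y) ∧
      (x ∉ ParS G → ∀ᶠ τ : ℝ in 𝓝[>] 0, ∀ y ∈ O, ¬ G y.2 - G y.1 = τ • ev3) := by
    intro x
    by_cases hx : x ∈ ParS G
    · obtain ⟨O, hO, h1⟩ := (h.par_in hx).1
      exact ⟨O, hO, fun _ => h1, fun h' => absurd hx h'⟩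
    · obtain ⟨O, hO, h1⟩ := h.par_out hx
      exact ⟨O, hO, fun h' => absurd h' hx, fun _ => h1⟩
  choose O hO h1 h2 using hex
  obtain ⟨hfin, h3⟩ := par_count (P := fun τ (y : M × M) => G y.2 - G y.1 = τ • ev3) hO
    (fun x hx => (h1 x hx).mono fun τ h y hy e => (h y hy e).1) h2 fun x hx => (h.par_in hx).2
  refine ⟨hfin, fun C hC => ?_⟩
  filter_upwards [h3 C hC, hfin.eventually_all.2 h1] with τ h4 h5
  refine ⟨h4.1, fun y hy => ?_⟩
  obtain ⟨s, hs, hys⟩ := h4.2 y hy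
  exact (h5 s hs y hys hy).2

theorem Gen.finite_umb (h : Gen G) : (Umb G).Finite :=
  (h.par_main.1.subset subset_union_left).of_finite_image fun _ _ _ _ e => congrArg Prod.fst e

theorem Gen.even_umb (h : Gen G) {C : Set M} (hC : IsClopen C) : Even (Umb G ∩ C).ncard := by
  classical
  obtain ⟨hfin, h1⟩ := h.par_main
  obtain ⟨τ, h2, h3⟩ := (h1 _ (hC.prod hC)).exists
  have hs : ContMDiff ((𝓡 2).prod (𝓡 2)) 𝓘(ℝ, V) ∞ fun y : M × M => G y.2 - G y.1 :=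
    (ContMDiff.comp (g := G) h.sm contMDiff_snd).sub (ContMDiff.comp (g := G) h.sm contMDiff_fst)
  have h4 := even_fibre ((𝓡 2).prod (𝓡 2)) (by simp) (by simp) hs (hC.prod hC) (y := τ • ev3)
    fun y _ e => by
      have d1 := ((h.sm y.2).mdifferentiableAt (by simp)).hasMFDerivAt.comp y
        (hasMFDerivAt_snd (I := 𝓡 2) (I' := 𝓡 2) y)
      have d2 := ((h.sm y.1).mdifferentiableAt (by simp)).hasMFDerivAt.comp y
        (hasMFDerivAt_fst (I := 𝓡 2) (I' := 𝓡 2) y)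
      rw [(show HasMFDerivAt ((𝓡 2).prod (𝓡 2)) 𝓘(ℝ, V) (fun y : M × M => G y.2 - G y.1) y _ from
        d1.sub d2).mfderiv]
      refine (injective_iff_map_eq_zero _).2 fun ⟨u, w⟩ huw => ?_
      have h5 : dM G y.2 w = dM G y.1 u := sub_eq_zero.1 huw
      have h6 := h3 y e u w h5
      rw [h6, map_zero] at h5
      exact Prod.ext h6 (h.imm _ _ h5)
  rw [← h2] at h4
  set D : Set (M × M) := {y | y.1 ≠ y.2 ∧ G y.1 = G y.2} ∩ C ×ˢ C with hD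
  have e : ParS G ∩ C ×ˢ C = (fun s => (s, s)) '' (Umb G ∩ C) ∪ D := by
    rw [ParS, union_inter_distrib_right]
    congr 1
    ext y
    constructor
    · rintro ⟨⟨s, hs, rfl⟩, hc⟩
      exact ⟨s, ⟨hs, hc.1⟩, rfl⟩
    · rintro ⟨s, hs, rfl⟩
      exact ⟨⟨s, hs.1, rfl⟩, hs.2, hs.2⟩
  have hf := hfin.inter_of_left (C ×ˢ C)
  rw [e] at h4 hf
  have hDf := hf.subset subset_union_right
  have hDe : Even D.ncard := by
    rw [ncard_eq_toFinset_card _ hDf, ← ZMod.natCast_eq_zero_iff_even, Finset.card_eq_sum_ones,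
      Nat.cast_sum]
    refine Finset.sum_involution (fun y _ => y.swap) (fun _ _ => by decide)
      (fun y hy _ e => (hDf.mem_toFinset.1 hy).1.1 (congrArg Prod.snd e)) (fun y hy => ?_)
      fun _ _ => rfl
    have := hDf.mem_toFinset.1 hy
    exact hDf.mem_toFinset.2 ⟨⟨this.1.1.symm, this.1.2.symm⟩, this.2.2, this.2.1⟩
  rw [ncard_union_eq (disjoint_left.2 (by
    rintro _ ⟨s, -, rfl⟩ hs
    exact hs.1.1 rfl)) (hf.subset subset_union_left) hDf,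
    ncard_image_of_injective _ fun _ _ e => congrArg Prod.fst e, Nat.even_add] at h4
  exact h4.2 hDe

end Vale.Agent.Iso4
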