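import Vale.Agent.Iso4.Tame2

/-! Smoothing operators. -/

open scoped ContDiff Topology Manifold Convolution
open Set Filter MeasureTheory

noncomputable section
namespace Vale.Agent.Iso4

/-- derivatives falling on the kernel -/
theorem smo_kernel {X : Type} [NormedAddCommGroup X] [NormedSpace ℝ X] (m : ℕ) :
    ∀ {Y Z : Type} [NormedAddCommGroup Y] [NormedSpace ℝ Y] [NormedAddCommGroup Z]
      [NormedSpace ℝ Z] (B : X →L[ℝ] Y →L[ℝ] Z) {φ : P2 → Y}, ContDiff ℝ ∞ φ →
      HasCompactSupport φ → ∃ C : ℝ, 0 ≤ C ∧ ∀ (H : P2 → X) (c : ℝ), Continuous H →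
        (∀ z, ‖H z‖ ≤ c) → ∀ z, ‖iteratedFDeriv ℝ m (H ⋆[B, volume] φ) z‖ ≤ C * c := by
  induction m with
  | zero =>
    intro Y Z _ _ _ _ B φ hφ hc
    have hi : Integrable (fun t => ‖φ t‖) volume :=
      (hφ.continuous.integrable_of_hasCompactSupport hc).norm
    refine ⟨‖B‖ * ∫ t, ‖φ t‖, mul_nonneg B.opNorm_nonneg (integral_nonneg fun _ => norm_nonneg _),
      fun H c hH hb z => ?_⟩
    rw [norm_iteratedFDeriv_zero, convolution_def]
    refine (norm_integral_le_of_norm_le ((hi.comp_sub_left z).const_mul (‖B‖ * c))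
      (Eventually.of_forall fun t => ?_)).trans_eq ?_
    · exact (B.le_opNorm₂ _ _).trans (by gcongr; exact hb t)
    · rw [integral_const_mul, integral_sub_left_eq_self (fun t => ‖φ t‖) volume z]; ring
  | succ m ih =>
    intro Y Z _ _ _ _ B φ hφ hc
    obtain ⟨C, hC, h⟩ := ih (B.precompR P2) (φ := fderiv ℝ φ)
      (hφ.fderiv_right (m := ∞) le_rfl) (hc.fderiv ℝ)
    refine ⟨C, hC, fun H c hH hb z => ?_⟩
    have hd : fderiv ℝ (H ⋆[B, volume] φ) = H ⋆[B.precompR P2, volume] fderiv ℝ φ :=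
      funext fun x => (hc.hasFDerivAt_convolution_right B hH.locallyIntegrable
        (hφ.of_le (by simp)) x).fderiv
    rw [← norm_iteratedFDeriv_fderiv, hd]
    exact h H c hH hb z

/-- the bump -/
def smoB : ContDiffBump (0 : P2) := ⟨1 / 2, 1, by norm_num, by norm_num⟩

/-- the smoothing operator at unit scale -/
def smoS {X : Type} [NormedAddCommGroup X] [NormedSpace ℝ X] (H : P2 → X) : P2 → X :=
  smoB.normed volume ⋆[ContinuousLinearMap.lsmul ℝ ℝ, volume] H

/-- the remainder -/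
def smoR {X : Type} [NormedAddCommGroup X] [NormedSpace ℝ X] (H : P2 → X) : P2 → X :=
  fun z => H z - smoS H z

section
variable {X : Type} [NormedAddCommGroup X] [NormedSpace ℝ X]

theorem smoS_smooth {H : P2 → X} (hH : ContDiff ℝ ∞ H) (hc : HasCompactSupport H) :
    ContDiff ℝ ∞ (smoS H) :=
  hc.contDiff_convolution_right _ smoB.continuous_normed.locallyIntegrable hH

theorem smoS_supp {H : P2 → X} (hc : HasCompactSupport H) : HasCompactSupport (smoS H) :=
  smoB.hasCompactSupport_normed.convolution _ hc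

theorem smoR_iter {H : P2 → X} (hH : ContDiff ℝ ∞ H) (hc : HasCompactSupport H) (r : ℕ) :
    ContDiff ℝ ∞ (smoR^[r] H) ∧ HasCompactSupport (smoR^[r] H) := by
  induction r with
  | zero => exact ⟨hH, hc⟩
  | succ r ih =>
    rw [Function.iterate_succ_apply']
    exact ⟨ih.1.sub (smoS_smooth ih.1 ih.2), ih.2.sub (smoS_supp ih.2)⟩

theorem smoS_le (m : ℕ) : ∃ C : ℝ, 0 ≤ C ∧ ∀ (H : P2 → X) (c : ℝ), Continuous H →
    (∀ z, ‖H z‖ ≤ c) → ∀ z, ‖iteratedFDeriv ℝ m (smoS H) z‖ ≤ C * c := by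
  obtain ⟨C, hC, h⟩ := smo_kernel m (ContinuousLinearMap.lsmul ℝ ℝ : ℝ →L[ℝ] X →L[ℝ] X).flip
    (smoB.contDiff_normed (μ := volume) (n := ⊤)) smoB.hasCompactSupport_normed
  refine ⟨C, hC, fun H c hH hb z => ?_⟩
  rw [smoS, ← convolution_flip]
  exact h H c hH hb z

theorem smoG_le (r : ℕ) : (∃ C : ℝ, 0 ≤ C ∧ ∀ (H : P2 → X) (c : ℝ), ContDiff ℝ ∞ H →
    HasCompactSupport H → (∀ z, ‖H z‖ ≤ c) → ∀ z, ‖smoR^[r] H z‖ ≤ C * c) ∧
    ∀ m : ℕ, ∃ C : ℝ, 0 ≤ C ∧ ∀ (H : P2 → X) (c : ℝ), ContDiff ℝ ∞ H →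
    HasCompactSupport H → (∀ z, ‖H z‖ ≤ c) → ∀ z,
      ‖iteratedFDeriv ℝ m (fun y => H y - smoR^[r] H y) z‖ ≤ C * c := by
  induction r with
  | zero =>
    refine ⟨⟨1, zero_le_one, fun H c _ _ hb z => by simpa using hb z⟩, fun m =>
      ⟨0, le_rfl, fun H c _ _ _ z => by simp⟩⟩
  | succ r ih =>
    obtain ⟨⟨C, hC, h⟩, h'⟩ := ih
    constructor
    · obtain ⟨D, hD, hS⟩ := smoS_le (X := X) 0
      refine ⟨C + D * C, by positivity, fun H c hH hc hb z => ?_⟩
      have h1 := hS _ _ (smoR_iter hH hc r).1.continuous (h H c hH hc hb) z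
      rw [norm_iteratedFDeriv_zero] at h1
      rw [Function.iterate_succ_apply']
      refine (norm_sub_le _ _).trans ?_
      linarith [h H c hH hc hb z]
    · intro m
      obtain ⟨D, hD, hS⟩ := smoS_le (X := X) m
      obtain ⟨C', hC', h'⟩ := h' m
      refine ⟨C' + D * C, by positivity, fun H c hH hc hb z => ?_⟩
      have hR := smoR_iter hH hc r
      have h1 := hS _ _ hR.1.continuous (h H c hH hc hb) z
      have h2 : (fun y => H y - smoR^[r + 1] H y) =
          (fun y => H y - smoR^[r] H y) + smoS (smoR^[r] H) := by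
        funext y
        rw [Function.iterate_succ_apply']
        simp only [smoR, Pi.add_apply]; abel
      rw [h2, iteratedFDeriv_add_apply ((hH.sub hR.1).of_le (tame_le m)).contDiffAt
        ((smoS_smooth hR.1 hR.2).of_le (tame_le m)).contDiffAt]
      refine (norm_add_le _ _).trans ?_
      linarith [h' H c hH hc hb z]

end

/-- derivatives falling on the function -/
theorem smoR_le (m : ℕ) : ∀ {X : Type} [NormedAddCommGroup X] [NormedSpace ℝ X] [CompleteSpace X]
    {H : P2 → X} {c : ℝ}, ContDiff ℝ ∞ H → HasCompactSupport H →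
      (∀ z, ‖iteratedFDeriv ℝ (m + 1) H z‖ ≤ c) → ∀ z, ‖iteratedFDeriv ℝ m (smoR H) z‖ ≤ c := by
  induction m with
  | zero =>
    intro X _ _ _ H c hH hc hb z
    have hc0 : 0 ≤ c := (norm_nonneg _).trans (hb z)
    rw [norm_iteratedFDeriv_zero, smoR, ← dist_eq_norm, dist_comm]
    refine smoB.dist_normed_convolution_le hH.continuous.aestronglyMeasurable fun x hx => ?_
    have h := (convex_univ (𝕜 := ℝ) (E := P2)).norm_image_sub_le_of_norm_fderiv_le
      (f := H) (C := c) (fun y _ => hH.differentiable (by simp) y)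
      (fun y _ => by simpa using hb y) (mem_univ z) (mem_univ x)
    rw [dist_eq_norm]
    have hx' : ‖x - z‖ ≤ 1 := by
      rw [← dist_eq_norm]; exact (Metric.mem_ball.1 hx).le
    exact h.trans (mul_le_of_le_one_right hc0 hx')
  | succ m ih =>
    intro X _ _ _ H c hH hc hb z
    have hd : fderiv ℝ (smoR H) = smoR (fderiv ℝ H) := by
      funext x
      have h1 := hc.hasFDerivAt_convolution_right (ContinuousLinearMap.lsmul ℝ ℝ)
        (smoB.continuous_normed (μ := volume)).locallyIntegrable (μ := volume)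
        (hH.of_le (by simp)) x
      have h2 : (ContinuousLinearMap.lsmul ℝ ℝ : ℝ →L[ℝ] X →L[ℝ] X).precompR P2 =
          ContinuousLinearMap.lsmul ℝ ℝ := by
        ext <;> simp
      rw [h2] at h1
      exact ((hH.differentiable (by simp) x).hasFDerivAt.sub h1).fderiv
    rw [← norm_iteratedFDeriv_fderiv, hd]
    exact ih (hH.fderiv_right (m := ∞) le_rfl) (hc.fderiv ℝ)
      (fun y => by rw [norm_iteratedFDeriv_fderiv]; exact hb y) z

theorem smoR_iter_le {X : Type} [NormedAddCommGroup X] [NormedSpace ℝ X] [CompleteSpace X]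
    {H : P2 → X} (hH : ContDiff ℝ ∞ H) (hc : HasCompactSupport H) (r : ℕ) : ∀ (m : ℕ) (c : ℝ),
      (∀ z, ‖iteratedFDeriv ℝ (m + r) H z‖ ≤ c) → ∀ z, ‖iteratedFDeriv ℝ m (smoR^[r] H) z‖ ≤ c := by
  induction r with
  | zero => exact fun m c h => h
  | succ r ih =>
    intro m c h
    rw [Function.iterate_succ_apply']
    exact smoR_le m (smoR_iter hH hc r).1 (smoR_iter hH hc r).2
      (ih (m + 1) c (by rwa [add_right_comm, add_assoc]))

theorem smo_scale {X : Type} [NormedAddCommGroup X] [NormedSpace ℝ X] {F : P2 → X}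
    (hF : ContDiff ℝ ∞ F) {a : ℝ} (ha : 0 ≤ a) (m : ℕ) (z : P2) :
    ‖iteratedFDeriv ℝ m (fun y => F (a • y)) z‖ = a ^ m * ‖iteratedFDeriv ℝ m F (a • z)‖ := by
  rw [iteratedFDeriv_comp_const_smul a (hF.of_le (tame_le m)), norm_smul, norm_pow,
    Real.norm_of_nonneg ha]

/-- The smoothed family is tame at scale `ell` with the size of the sup norm, and approximates up to
`A / ell ^ r`, where `A` bounds the derivatives up to order `r + 2`. -/
theorem smoothing {ι : Type*} {X : Type} [NormedAddCommGroup X] [NormedSpace ℝ X] [CompleteSpace X]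
    (r : ℕ) {K0 K1 : Set P2} (hK0 : IsCompact K0) (hK1 : IsCompact K1) (h01 : K0 ⊆ interior K1)
    {f : ι → P2 → X} {s ell A : ι → ℝ} (hl : ∀ i, 1 ≤ ell i) (hs0 : ∀ i, 0 ≤ s i)
    (hA0 : ∀ i, 0 ≤ A i) (hf : ∀ i, ∀ z ∈ K1, ContDiffAt ℝ ∞ (f i) z)
    (h0 : ∀ i, ∀ z ∈ K1, ‖f i z‖ ≤ s i)
    (hA : ∀ i, ∀ m ≤ r + 2, ∀ z ∈ K1, ‖iteratedFDeriv ℝ m (f i) z‖ ≤ A i) :
    ∃ g : ι → P2 → X, Tame (fun _ => univ) (fun i _ => s i) ell 0 g ∧ ∃ C : ℝ, 0 ≤ C ∧
      ∀ i, ∀ z ∈ K0, ‖f i z - g i z‖ ≤ C * A i / ell i ^ r ∧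
        ‖fderiv ℝ (f i) z - fderiv ℝ (g i) z‖ ≤ C * A i / ell i ^ r ∧
        ∀ v w, ‖d2 (f i) z v w - d2 (g i) z v w‖ ≤ C * A i / ell i ^ r * (‖v‖ * ‖w‖) := by
  obtain ⟨χ, hχs, h1, h2, h3⟩ : ∃ χ : P2 → ℝ, ContDiff ℝ ∞ χ ∧ (∀ᶠ x in 𝓝ˢ K0, χ x = 1) ∧
      (∀ x ∉ K1, χ x = 0) ∧ ∀ x, χ x ∈ Icc (0 : ℝ) 1 := by
    obtain ⟨χ', h⟩ := exists_contMDiffMap_one_nhds_of_subset_interior 𝓘(ℝ, P2) (n := ⊤)
      hK0.isClosed h01
    exact ⟨χ', χ'.contMDiff.contDiff, h⟩
  have hsupp : tsupport χ ⊆ K1 :=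
    closure_minimal (fun x hx => by_contra fun h => hx (h2 x h)) hK1.isClosed
  have hχc : HasCompactSupport χ := hK1.of_isClosed_subset (isClosed_tsupport χ) hsupp
  have hl0 : ∀ i, 0 < ell i := fun i => one_pos.trans_le (hl i)
  let f0 : ι → P2 → X := fun i z => χ z • f i z
  have hout : ∀ i, ∀ z ∉ K1, f0 i =ᶠ[𝓝 z] fun _ => 0 := fun i z hz =>
    (notMem_tsupport_iff_eventuallyEq.1 fun h => hz (hsupp h)).mono fun y hy => by
      simp only [f0, hy, Pi.zero_apply, zero_smul]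
  have hf0 : ∀ i, ContDiff ℝ ∞ (f0 i) := fun i => contDiff_iff_contDiffAt.2 fun z => by
    by_cases hz : z ∈ K1
    · exact hχs.contDiffAt.smul (hf i z hz)
    · exact contDiffAt_const.congr_of_eventuallyEq (hout i z hz)
  have hc0 : ∀ i, HasCompactSupport (f0 i) := fun i => hχc.smul_right
  have hb0 : ∀ i z, ‖f0 i z‖ ≤ s i := fun i z => by
    by_cases hz : z ∈ K1
    · rw [norm_smul, Real.norm_of_nonneg (h3 z).1]
      exact (mul_le_of_le_one_left (norm_nonneg _) (h3 z).2).trans (h0 i z hz)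
    · rw [(hout i z hz).self_of_nhds, norm_zero]; exact hs0 i
  have hD : ∀ m, ∃ C : ℝ, 0 ≤ C ∧ (m ≤ r + 2 → ∀ i z, ‖iteratedFDeriv ℝ m (f0 i) z‖ ≤ C * A i) := by
    intro m
    choose c hc using fun j => (hχs.continuous_iteratedFDeriv
      (tame_le j)).bounded_above_of_compact_support (hχc.iteratedFDeriv j)
    have hc' : ∀ j, 0 ≤ c j := fun j => (norm_nonneg _).trans (hc j 0)
    refine ⟨‖(ContinuousLinearMap.lsmul ℝ ℝ : ℝ →L[ℝ] X →L[ℝ] X)‖ *
      ∑ j ∈ Finset.range (m + 1), (m.choose j : ℝ) * c j, mul_nonneg (norm_nonneg _)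
        (Finset.sum_nonneg fun j _ => mul_nonneg (Nat.cast_nonneg _) (hc' j)), fun hm i z => ?_⟩
    by_cases hz : z ∈ K1
    · refine (tame_leib (ContinuousLinearMap.lsmul ℝ ℝ) hχs.contDiffAt (hf i z hz) m).trans ?_
      rw [mul_assoc, Finset.sum_mul]
      gcongr with j hj
      · exact mul_nonneg (Nat.cast_nonneg _) (hc' j)
      · exact hc j z
      · exact hA i _ (by omega) z hz
    · rw [((hout i z hz).iteratedFDeriv ℝ m).self_of_nhds]
      simp only [iteratedFDeriv_fun_zero, Pi.zero_apply, norm_zero]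
      exact mul_nonneg (mul_nonneg (norm_nonneg _) (Finset.sum_nonneg fun j _ =>
        mul_nonneg (Nat.cast_nonneg _) (hc' j))) (hA0 i)
  choose CD hCD hD using hD
  let H : ι → P2 → X := fun i y => f0 i ((ell i)⁻¹ • y)
  have hH : ∀ i, ContDiff ℝ ∞ (H i) := fun i => (hf0 i).comp (contDiff_id.const_smul _)
  have hHc : ∀ i, HasCompactSupport (H i) := fun i =>
    (hc0 i).comp_smul (inv_ne_zero (hl0 i).ne')
  have hR := fun i => smoR_iter (hH i) (hHc i) r
  let g : ι → P2 → X := fun i z => H i (ell i • z) - smoR^[r] (H i) (ell i • z)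
  have hg : ∀ i, ContDiff ℝ ∞ (g i) := fun i =>
    ((hH i).sub (hR i).1).comp (contDiff_id.const_smul _)
  have hdiff : ∀ i, ∀ z ∈ K0, (fun y => f i y - g i y) =ᶠ[𝓝 z]
      fun y => smoR^[r] (H i) (ell i • y) := by
    intro i z hz
    filter_upwards [(eventually_nhdsSet_iff_forall.1 h1) z hz] with y hy
    simp only [g, H, f0, smul_smul, inv_mul_cancel₀ (hl0 i).ne', one_smul]
    rw [show χ y = 1 from hy]
    simp
  have hest : ∀ m ≤ 2, ∀ i, ∀ z ∈ K0, ‖iteratedFDeriv ℝ m (fun y => f i y - g i y) z‖ ≤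
      (CD r + CD (1 + r) + CD (2 + r)) * A i / ell i ^ r := by
    intro m hm i z hz
    have := hl0 i
    rw [((hdiff i z hz).iteratedFDeriv ℝ m).self_of_nhds, smo_scale (hR i).1 (hl0 i).le]
    have h4 := smoR_iter_le (hH i) (hHc i) r m ((ell i)⁻¹ ^ (m + r) * (CD (m + r) * A i))
      (fun y => by
        rw [smo_scale (hf0 i) (inv_pos.2 (hl0 i)).le]
        exact mul_le_mul_of_nonneg_left (hD _ (by omega) i _) (by positivity)) (ell i • z)
    refine (mul_le_mul_of_nonneg_left h4 (by positivity)).trans ?_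
    rw [show ell i ^ m * ((ell i)⁻¹ ^ (m + r) * (CD (m + r) * A i)) =
      CD (m + r) * A i / ell i ^ r by rw [pow_add, inv_pow, inv_pow]; field_simp]
    have hC : CD (m + r) ≤ CD r + CD (1 + r) + CD (2 + r) := by
      have := hCD r
      have := hCD (1 + r)
      have := hCD (2 + r)
      interval_cases m
      · rw [zero_add]; linarith
      · linarith
      · linarith
    have := hA0 i
    gcongr
  refine ⟨g, ⟨hl, fun i z _ => (hg i).contDiffAt, fun m => ?_⟩, CD r + CD (1 + r) + CD (2 + r),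
    add_nonneg (add_nonneg (hCD _) (hCD _)) (hCD _), fun i z hz => ?_⟩
  · obtain ⟨C, hC, h⟩ := (smoG_le (X := X) r).2 m
    refine ⟨C, hC, fun i z _ => ?_⟩
    have := hl0 i
    rw [show g i = fun z => (fun y => H i y - smoR^[r] (H i) y) (ell i • z) from rfl,
      smo_scale ((hH i).sub (hR i).1) (hl0 i).le, zero_add]
    refine (mul_le_mul_of_nonneg_left (h (H i) (s i) (hH i) (hHc i) (fun y => hb0 i _) _)
      (by positivity)).trans_eq (by ring)
  · have hfz := hf i z (interior_subset (h01 hz))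
    have hgz := (hg i).contDiffAt (x := z)
    refine ⟨by simpa using hest 0 (by norm_num) i z hz, ?_, fun v w => ?_⟩
    · have h := hest 1 (by norm_num) i z hz
      rwa [norm_iteratedFDeriv_one, fderiv_fun_sub (hfz.differentiableAt (by simp))
        (hgz.differentiableAt (by simp))] at h
    · have h := d2_add (hfz.sub hgz) hgz v w
      simp only [sub_add_cancel] at h
      rw [show d2 (f i) z v w - d2 (g i) z v w = d2 (fun y => f i y - g i y) z v w by
        rw [sub_eq_iff_eq_add]; exact h]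
      exact (norm_d2_le_iter v w).trans
        (mul_le_mul_of_nonneg_right (hest 2 le_rfl i z hz) (by positivity))

end Vale.Agent.Iso4
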