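import Vale.Agent.Iso4.StagePrep
import Vale.Agent.Iso4.StageStep

/-! One stage of the iteration. -/

open scoped ContDiff Topology Manifold
open Set Filter

noncomputable section
namespace Vale.Agent.Iso4

variable {M : Type*} [TopologicalSpace M] [ChartedSpace E2 M] [T2Space M]

/-- the conclusion of a stage -/
def StageP (A : Atl M univ) (g : Met M) (K b0 : ℕ) : Prop :=
  ∀ b, b0 ≤ b → ∀ b', b ≤ b' → ∃ (a : ℕ) (Λ : ℝ) (C : ℕ → ℝ), ∀ (L : ℝ) (F : M → V), Λ ≤ L →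
    Inv A g a b L F → ∃ W : M → V, Sm W ∧
      (∀ m, Bd A m (C m * (L ^ K) ^ (m + 1) / L ^ (b + m + 1)) W) ∧
      Err g b' (L ^ K) (fun p => F p + W p) ∧ ND A (1 / L ^ K) fun p => F p + W p

theorem Inv.st_mono {A : Atl M univ} {g : Met M} {a a' b : ℕ} {L : ℝ} {F : M → V}
    (h : Inv A g a' b L F) (ha : a ≤ a') : Inv A g a b L F :=
  ⟨h.sm, fun m hm => h.bd m (hm.trans ha), h.err, h.nd⟩

/-- the forms of one chart add up to the localised deficit -/
theorem st_chart {A : Atl M univ} {g : Met M} {ι : Type*} {𝓕 : Filter ι} {q N N1 b : ℕ}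
    {L δ' : ι → ℝ} {F : ι → M → V} {k : Fin A.n} {f : ι → P2 → V} {ϖ ϱ : Fin 3 → ι → P2 → ℝ}
    {Pi : Fin 3 → Fin 3 → ι → P2 → ℝ} {κ C : ℝ} (hN : 1 ≤ N) (hL : ∀ i, 1 ≤ L i)
    (hF : ∀ i, Sm (F i)) (hP : Prep A g 𝓕 q N N1 b L δ' F k f ϖ ϱ Pi κ C) :
    ∃ C' : ℝ, ∀ᶠ i in 𝓕, ∀ p u,
      |∑ j, ∑ l, addF A N b L k (ϱ j) (Pi j l) (slope j l) i p u -
        A.bM k p ^ (2 * N) / A.SN N p * ((1 - δ' i) * g.q p u - ‖dM (F i) p u‖ ^ 2)| ≤
        C' / L i ^ N1 * g.q p u := by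
  obtain ⟨c0, c0', c00, -, hc0⟩ := g.compare (A.e k) (A.cK0 k) (A.sub0 k)
  refine ⟨|C| / c0, ?_⟩
  filter_upwards [hP.sum] with i h p u
  have L0 : 0 < L i := by linarith [hL i]
  have qn := g.q_nonneg p u
  have n0 : 2 * N ≠ 0 := by omega
  by_cases hp : p ∈ (A.e k).source
  · simp only [addF, Atl.bM, (A.e k).ext_of_mem _ hp]
    by_cases hz : (A.e k).to p ∈ A.K0 k
    · have h1 := h _ hz ((A.e k).push p u)
      have h4 := (hc0 _ hz ((A.e k).push p u)).1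
      rw [← g.q_eq (A.e k) hp] at h1 h4
      rw [← (A.e k).dM_eq (hF i) hp, (A.e k).inv_to hp] at h1
      refine h1.trans ?_
      have h6 : ‖(A.e k).push p u‖ ^ 2 ≤ g.q p u / c0 := by rw [le_div_iff₀' c00]; exact h4
      calc _ ≤ |C| / L i ^ N1 * (g.q p u / c0) := by gcongr; exact le_abs_self C
        _ = _ := by ring
    · simp only [hP.ϱK _ i _ hz, A.b_zero k hz, zero_pow n0, mul_zero, zero_mul, zero_div,
        Finset.sum_const_zero, sub_zero, abs_zero]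
      positivity
  · simp only [addF, Atl.bM, (A.e k).ext_of_not_mem _ hp, zero_pow n0, zero_mul, zero_div,
      Finset.sum_const_zero, sub_zero, abs_zero]
    positivity

universe v in
/-- all the steps of a stage -/
theorem st_steps : ∃ K : ℕ, 2 ≤ K ∧ ∀ (A : Atl M univ) (g : Met M) (q E : ℕ), 1 ≤ q →
    ∀ N N1 b X : ℕ, 2 * K ≤ N → K + X ≤ N → 2 * E * K + X ≤ N1 → 5 * E + 5 ≤ b →
    ∀ {ι : Type v} (𝓕 : Filter ι) (L δ' : ι → ℝ) (F : ι → M → V) (f : Fin A.n → ι → P2 → V)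
      (ϖ ϱ : Fin A.n → Fin 3 → ι → P2 → ℝ) (Pi : Fin A.n → Fin 3 → Fin 3 → ι → P2 → ℝ)
      (κ C : Fin A.n → ℝ), (∀ i, 1 ≤ L i) → Tendsto L 𝓕 atTop → (∀ i, Sm (F i)) →
      (∀ k, Prep A g 𝓕 q N N1 b L δ' F k (f k) (ϖ k) (ϱ k) (Pi k) (κ k) (C k)) →
      ∀ S : Finset (Fin A.n × Fin 3 × Fin 3), q * K ^ S.card ≤ E →
      ∃ W : ι → M → V, TameM (fun i => (L i ^ b)⁻¹) (fun i => L i ^ (q * K ^ S.card)) 1 W ∧
        ∃ C' : ℝ, ∀ᶠ i in 𝓕, ∀ p u,
          |‖dM (F i) p u + dM (W i) p u‖ ^ 2 - ‖dM (F i) p u‖ ^ 2 -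
            ∑ t ∈ S, addF A N b L t.1 (ϱ t.1 t.2.1) (Pi t.1 t.2.1 t.2.2) (slope t.2.1 t.2.2) i p u| ≤
            C' / L i ^ X * g.q p u := by
  obtain ⟨K, hK, H⟩ := stage_step.{v} (M := M)
  refine ⟨K, hK, ?_⟩
  intro A g q E hq N N1 b X hN hN' hN1 hb ι 𝓕 L δ' F f ϖ ϱ Pi κ C hL hT hF hP S
  have L0 : ∀ i, 0 < L i := fun i => by linarith [hL i]
  induction S using Finset.induction_on with
  | empty =>
    intro _
    refine ⟨fun _ _ => 0, TameM.zero (fun i => one_le_pow₀ (hL i))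
      (fun i => (inv_pos.2 (pow_pos (L0 i) b)).le), 0, Eventually.of_forall fun i p u => ?_⟩
    simp [dM_const]
  | insert t S ht ih =>
    intro hE
    rw [Finset.card_insert_of_notMem ht] at hE ⊢
    have e1 : q * K ^ (S.card + 1) = q * K ^ S.card * K := by ring
    have e2 : q * K ^ S.card ≤ q * K ^ (S.card + 1) := by
      rw [e1]; exact Nat.le_mul_of_pos_right _ (by omega)
    have e3 : q ≤ q * K ^ S.card := Nat.le_mul_of_pos_right _ (by positivity)
    obtain ⟨W, hW, C1, h1⟩ := ih (e2.trans hE)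
    obtain ⟨w, hw, C2, h2⟩ := H A g q (q * K ^ S.card) hq e3 N N1 b hN (by omega) 𝓕 L δ' F W t.1
      (f t.1) (ϖ t.1) (ϱ t.1) (Pi t.1) (κ t.1) (C t.1) t.2.1 t.2.2 hL hT hF (hP t.1) hW
    rw [← e1] at hw
    refine ⟨fun i p => W i p + w i p, (hW.mono_scale fun i => pow_le_pow_right₀ (hL i) e2).add hw,
      C1 + 2 * |C2|, ?_⟩
    filter_upwards [h1, h2] with i h1 h2 p u
    have := L0 i
    have qn := g.q_nonneg p u
    have r : ∀ {a n : ℕ}, a + X ≤ n → L i ^ a / L i ^ n ≤ 1 / L i ^ X := fun {a n} h => by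
      rw [div_le_div_iff₀ (by positivity) (by positivity), one_mul, ← pow_add]
      exact pow_le_pow_right₀ (hL i) h
    have r1 := r hN'
    have r2 : L i ^ (2 * (q * K ^ S.card) * K) / L i ^ N1 ≤ 1 / L i ^ X := by
      refine r (le_trans ?_ hN1)
      have := e2.trans hE
      gcongr
    have h3 := (h2 p u).trans (show _ ≤ 2 * |C2| / L i ^ X * g.q p u by
      calc _ ≤ |C2| * (1 / L i ^ X + 1 / L i ^ X) * g.q p u := by
            gcongr
            exact le_abs_self _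
        _ = _ := by ring)
    have h4 := h1 p u
    rw [Finset.sum_insert ht, dM_add (hW.smooth i) (hw.smooth i), ContinuousLinearMap.add_apply,
      ← add_assoc, add_div, add_mul]
    rw [abs_le] at h3 h4 ⊢
    constructor <;> linarith [h3.1, h3.2, h4.1, h4.2]

/-- nondegeneracy survives small corrections -/
theorem st_nd {A : Atl M univ} {g : Met M} {ι : Type*} {𝓕 : Filter ι} {a b E K : ℕ} {L : ι → ℝ}
    {F W : ι → M → V} (hL : ∀ i, 1 ≤ L i) (hT : Tendsto L 𝓕 atTop) (ha : 2 ≤ a) (hE : 1 ≤ E)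
    (hb : 5 * E + 2 ≤ b) (hK : 2 ≤ K) (hI : ∀ i, Inv A g a b (L i) (F i))
    (hW : TameM (fun i => (L i ^ b)⁻¹) (fun i => L i ^ E) 1 W) :
    ∀ᶠ i in 𝓕, ND A (1 / L i ^ K) fun p => F i p + W i p := by
  refine eventually_all.2 fun k => ?_
  obtain ⟨c0, c0', c00, -, hc0⟩ := g.compare (A.e k) (A.cK1 k) (A.sub1 k)
  have tW := hW.tame (A.e k) (A.K1 k) (A.cK1 k) (A.sub1 k)
  obtain ⟨c1, p1, b1⟩ := tW.norm_fderiv_le
  obtain ⟨c2, p2, b2⟩ := tW.norm_d2_le
  have κ0 : 0 < √(c0 / 2) := Real.sqrt_pos.2 (half_pos c00)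
  set κ := √(c0 / 2) with hκ
  set c := c1 + c2 + 1 with hc
  have cc : 0 ≤ c := by positivity
  filter_upwards [hT.eventually_ge_atTop 2, hT.eventually_ge_atTop (2 * c / κ),
    hT.eventually_ge_atTop (2 * (c + 4 * c ^ 2 / κ))] with i h2 h4 h5 z hz
  rw [div_le_iff₀' κ0] at h4
  have L0 : 0 < L i := by linarith
  have zt := A.sub1 k hz
  have sF := (A.e k).contDiffAt_rep (hI i).sm zt
  have sW := tW.smooth i z hz
  have ℓ1 : 1 ≤ L i ^ E := one_le_pow₀ (hL i)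
  have Lℓ : L i ≤ L i ^ E := le_self_pow₀ (hL i) (by omega)
  have s1 : (L i ^ b)⁻¹ ≤ 1 := inv_le_one_of_one_le₀ (one_le_pow₀ (hL i))
  obtain ⟨v, hv, htr⟩ := (hI i).nd k z hz
  have vv : ‖v‖ * ‖v‖ ≤ 1 := by nlinarith [norm_nonneg v]
  have imm : Imm κ (fderiv ℝ ((A.e k).rep (F i)) z) := fun u => by
    have e1 := (hI i).err ((A.e k).inv z) ((A.e k).pull z u)
    rw [← (A.e k).fderiv_rep (hI i).sm zt, ← g.cf_eq] at e1
    have e2 := (hc0 z hz u).1
    have d0 : 0 ≤ del b (L i) := by rw [del]; positivity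
    have d1 : del b (L i) ≤ 1 / 4 := by
      rw [del, one_div]
      refine inv_anti₀ (by norm_num) (le_trans ?_ (pow_le_pow_right₀ (hL i) (by omega : 2 ≤ 2 * b)))
      nlinarith
    have d2 : del b (L i) / L i ≤ 1 / 4 := (div_le_self d0 (hL i)).trans d1
    have q0 : 0 ≤ g.cf (A.e k) u u z := le_trans (by positivity) e2
    refine (sq_le_sq₀ (by positivity) (norm_nonneg _)).1 ?_
    rw [mul_pow, hκ, Real.sq_sqrt (half_pos c00).le]
    have e3 := (abs_le.1 e1).2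
    nlinarith [mul_le_mul_of_nonneg_right d1 q0, mul_le_mul_of_nonneg_right d2 q0]
  have e0 : (A.e k).rep (fun p => F i p + W i p) =
      fun x => (A.e k).rep (F i) x + (A.e k).rep (W i) x := rfl
  refine ⟨v, hv, ?_⟩
  rw [e0, d2_add sF sW, fderiv_fun_add (sF.differentiableAt (by simp)) (tW.differentiableAt hz)]
  have d2W : ‖d2 ((A.e k).rep (W i)) z v v‖ ≤ c2 * ((L i ^ b)⁻¹ * (L i ^ E) ^ 3) := by
    calc _ ≤ c2 * ((L i ^ b)⁻¹ * (L i ^ E) ^ (1 + 2)) * (‖v‖ * ‖v‖) := b2 i z hz v v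
      _ ≤ c2 * ((L i ^ b)⁻¹ * (L i ^ E) ^ (1 + 2)) * 1 := by gcongr
      _ = _ := by ring
  refine ((st_pert (D := 1) κ0 cc (hL i) ℓ1 (by positivity) (st_small (hL i) hb) imm (fun u => ?_)
    h4 (by linarith)).2 htr ?_ ?_).mono ?_
  · rw [ContinuousLinearMap.add_apply, add_sub_cancel_left]
    refine (ContinuousLinearMap.le_opNorm _ _).trans ?_
    refine mul_le_mul_of_nonneg_right ((b1 i z hz).trans ?_) (norm_nonneg u)
    exact mul_le_mul_of_nonneg_right (by linarith) (by positivity)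
  · rw [sub_add_cancel_left, norm_neg]
    exact d2W.trans (mul_le_mul_of_nonneg_right (by linarith) (by positivity))
  · have a1 : ‖d2 ((A.e k).rep (F i)) z v v‖ ≤ (L i ^ E) ^ 3 := by
      calc _ ≤ ‖iteratedFDeriv ℝ 2 ((A.e k).rep (F i)) z‖ * (‖v‖ * ‖v‖) := norm_d2_le_iter v v
        _ ≤ L i ^ (2 + 1) * 1 := by
          gcongr
          exact (hI i).bd 2 ha k z hz
        _ ≤ _ := by rw [mul_one]; gcongr
    calc _ ≤ (L i ^ E) ^ 3 + c2 * ((L i ^ b)⁻¹ * (L i ^ E) ^ 3) :=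
          (norm_add_le _ _).trans (add_le_add a1 d2W)
      _ ≤ (L i ^ E) ^ 3 + c2 * (1 * (L i ^ E) ^ 3) := by gcongr
      _ = (c2 + 1) * (L i ^ E) ^ 3 := by ring
      _ ≤ _ := mul_le_mul_of_nonneg_right (by linarith) (by positivity)
  · refine one_div_le_one_div_of_le (by positivity)
      (le_trans ?_ (pow_le_pow_right₀ (hL i) hK))
    nlinarith

theorem stage (A : Atl M univ) (g : Met M) (hA : ∀ k, (A.e k).Seven g) :
    ∃ K b0 : ℕ, 2 ≤ K ∧ 1 ≤ b0 ∧ StageP A g K b0 := by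
  obtain ⟨q, hq, HP⟩ := stage_prep (M := M)
  obtain ⟨K1, hK1, HS⟩ := st_steps (M := M)
  set E := q * K1 ^ (Finset.univ : Finset (Fin A.n × Fin 3 × Fin 3)).card with hE
  have E1 : 1 ≤ E := hq.trans (Nat.le_mul_of_pos_right _ (by positivity))
  refine ⟨E + 1, 5 * E + 10, by omega, by omega, fun b hb b' hb' => ?_⟩
  set X := 2 * b' * (E + 1) + (E + 1) + 1 with hX
  obtain ⟨a, HP⟩ := HP A g hA (2 * K1 + X) (2 * E * K1 + X) b (by omega) (by omega)
  let ι := {x : ℝ × (M → V) // 1 ≤ x.1 ∧ Inv A g (max a 2) b x.1 x.2}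
  let L : ι → ℝ := fun i => i.1.1
  let F : ι → M → V := fun i => i.1.2
  have hL : ∀ i, 1 ≤ L i := fun i => i.2.1
  have L0 : ∀ i, 0 < L i := fun i => by linarith [hL i]
  have hI : ∀ i, Inv A g (max a 2) b (L i) (F i) := fun i => i.2.2
  have hT : Tendsto L (comap L atTop) atTop := tendsto_comap
  have hδ : ∀ i, 0 ≤ del b' (L i ^ (E + 1)) ∧ del b' (L i ^ (E + 1)) ≤ del b (L i) / L i := by
    intro i
    have := L0 i
    refine ⟨by rw [del]; positivity, ?_⟩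
    rw [del, del, div_eq_mul_inv, ← mul_inv, ← pow_succ, ← pow_mul]
    refine inv_anti₀ (by positivity) (pow_le_pow_right₀ (hL i) ?_)
    nlinarith
  choose f ϖ ϱ Pi κ C hP using HP (comap L atTop) L (fun i => del b' (L i ^ (E + 1))) F hL hT
    (fun i => (hI i).st_mono (le_max_left _ _)) hδ
  obtain ⟨W, hW, C1, h1⟩ := HS A g q E hq (2 * K1 + X) (2 * E * K1 + X) b X (by omega) (by omega)
    le_rfl (by omega) (comap L atTop) L _ F f ϖ ϱ Pi κ C hL hT (fun i => (hI i).sm) hP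
    Finset.univ le_rfl
  rw [← hE] at hW
  choose C2 h2 using fun k => st_chart (by omega) hL (fun i => (hI i).sm) (hP k)
  have h3 := st_nd hL hT (le_max_right a 2) E1 (by omega) (by omega : 2 ≤ E + 1) hI hW
  choose C3 p3 b3 using fun m k => (hW.tame (A.e k) (A.K1 k) (A.cK1 k) (A.sub1 k)).bound m
  have h4 : ∀ᶠ i in comap L atTop, Err g b' (L i ^ (E + 1)) fun p => F i p + W i p := by
    filter_upwards [h1, eventually_all.2 h2, hT.eventually_ge_atTop (C1 + ∑ k, |C2 k|)]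
      with i h1 h2 h5 p u
    have := L0 i
    have qn := g.q_nonneg p u
    have S1 := A.one_le_SN (2 * K1 + X) (mem_univ p)
    have a1 := h1 p u
    rw [Fintype.sum_prod_type] at a1
    simp only [Fintype.sum_prod_type] at a1
    have a2 := (Finset.abs_sum_le_sum_abs _ _).trans
      (Finset.sum_le_sum fun k (_ : k ∈ Finset.univ) => (h2 k p u).trans
        (show _ ≤ |C2 k| * (1 / L i ^ X * g.q p u) by
          have r : 1 / L i ^ (2 * E * K1 + X) ≤ 1 / L i ^ X :=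
            one_div_le_one_div_of_le (by positivity) (pow_le_pow_right₀ (hL i) (by omega))
          calc _ = C2 k * (1 / L i ^ (2 * E * K1 + X) * g.q p u) := by ring
            _ ≤ _ := by
              gcongr
              exact le_abs_self _))
    rw [Finset.sum_sub_distrib, ← Finset.sum_mul, ← Finset.sum_div, ← Atl.SN,
      div_self (by linarith), one_mul, ← Finset.sum_mul] at a2
    rw [dM_add (hI i).sm (hW.smooth i), ContinuousLinearMap.add_apply]
    have a3 : C1 / L i ^ X * g.q p u + (∑ k, |C2 k|) * (1 / L i ^ X * g.q p u) ≤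
        del b' (L i ^ (E + 1)) / L i ^ (E + 1) * g.q p u := by
      calc _ = (C1 + ∑ k, |C2 k|) / L i ^ X * g.q p u := by ring
        _ ≤ L i / L i ^ X * g.q p u := by gcongr
        _ = _ := by
          rw [del, hX]
          field_simp
          ring
    rw [abs_le] at a1 a2 ⊢
    constructor <;> linarith [a1.1, a1.2, a2.1, a2.2]
  obtain ⟨Λ, hΛ⟩ := eventually_atTop.1 (eventually_comap.1 (h3.and h4))
  refine ⟨max a 2, max Λ 1, fun m => ∑ k, C3 m k, fun l G hl hG => ?_⟩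
  let i : ι := ⟨(l, G), (le_max_right _ _).trans hl, hG⟩
  obtain ⟨k1, k2⟩ := hΛ l ((le_max_left _ _).trans hl) i rfl
  refine ⟨W i, hW.smooth i, fun m k z hz => (b3 m k i z hz).trans ?_, k2, k1⟩
  have l0 : 0 < l := L0 i
  calc C3 m k * ((l ^ b)⁻¹ * (l ^ E) ^ (1 + m))
      ≤ (∑ k, C3 m k) * ((l ^ b)⁻¹ * (l ^ E) ^ (1 + m)) := by
        gcongr
        exact Finset.single_le_sum (fun k _ => p3 m k) (Finset.mem_univ k)
    _ = _ := by field_simp; ring

end Vale.Agent.Iso4
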