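import Vale.Agent.Iso4.ManD
import Vale.Agent.Iso4.Dirs

/-! The invariants of the iteration. -/

open scoped ContDiff Topology Manifold
open Set Filter

noncomputable section
namespace Vale.Agent.Iso4

variable {M : Type*} [TopologicalSpace M] [ChartedSpace E2 M] (A : Atl M univ) (g : Met M)

/-- bound on the derivatives of order `m` -/
def Bd (m : ℕ) (c : ℝ) (F : M → V) : Prop :=
  ∀ k, ∀ z ∈ A.K1 k, ‖iteratedFDeriv ℝ m ((A.e k).rep F) z‖ ≤ c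

/-- the slack -/
def del (b : ℕ) (L : ℝ) : ℝ := (L ^ (2 * b))⁻¹

/-- the metric error -/
def Err (b : ℕ) (L : ℝ) (F : M → V) : Prop :=
  ∀ p u, |(1 - del b L) * g.q p u - ‖dM F p u‖ ^ 2| ≤ del b L / L * g.q p u

/-- nondegeneracy of the second form -/
def ND (κ : ℝ) (F : M → V) : Prop :=
  ∀ k, ∀ z ∈ A.K1 k, ∃ v : P2, ‖v‖ ≤ 1 ∧
    Tr κ (d2 ((A.e k).rep F) z v v) (fderiv ℝ ((A.e k).rep F) z)

/-- the invariant -/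
structure Inv (a b : ℕ) (L : ℝ) (F : M → V) : Prop where
  sm : Sm F
  bd : ∀ m ≤ a, Bd A m (L ^ (m + 1)) F
  err : Err g b L F
  nd : ND A (1 / L) F

/-- Data prepared for a stage, in chart `k`: smoothed base `f`, levels `ϖ`, weights `ϱ`,
coefficients `Pi`. -/
structure Prep {ι : Type*} (𝓕 : Filter ι) (q N N1 b : ℕ) (L δ' : ι → ℝ) (F : ι → M → V)
    (k : Fin A.n) (f : ι → P2 → V) (ϖ ϱ : Fin 3 → ι → P2 → ℝ) (Pi : Fin 3 → Fin 3 → ι → P2 → ℝ)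
    (κ C : ℝ) : Prop where
  κ0 : 0 < κ
  tf : PT (fun _ => univ) L q f
  tϖ : ∀ j, PT (fun _ => univ) L q (ϖ j)
  tϱ : ∀ j, PT (fun _ => univ) L q (ϱ j)
  tPi : ∀ j l, PT (fun _ => A.K0 k) L q (Pi j l)
  dom : ∀ j i z, 0 < ϖ j i z → z ∈ A.K0 k
  ϱ0 : ∀ j i z, 0 ≤ ϱ j i z
  ϱ1 : ∀ j i z, ϱ j i z ≤ 1
  ϱK : ∀ j i z, z ∉ A.K0 k → ϱ j i z = 0
  van : ∀ j i z, ϖ j i z ≤ 1 → ϱ j i z = 0
  pos : ∀ᶠ i in 𝓕, ∀ j l, ∀ z ∈ A.K0 k, κ ≤ Pi j l i z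
  imm : ∀ᶠ i in 𝓕, ∀ z ∈ A.K0 k, Imm κ (fderiv ℝ (f i) z)
  nd : ∀ᶠ i in 𝓕, ∀ j l z, 0 < ϖ j i z →
    Tr (κ / L i) (d2 (f i) z (leaf j l) (leaf j l)) (fderiv ℝ (f i) z)
  app : ∀ᶠ i in 𝓕, ∀ z ∈ A.K0 k,
    ‖fderiv ℝ ((A.e k).rep (F i)) z - fderiv ℝ (f i) z‖ ≤ C / L i ^ N1
  sum : ∀ᶠ i in 𝓕, ∀ z ∈ A.K0 k, ∀ u : P2,
    |∑ j, ∑ l, del b (L i) * ϱ j i z ^ (2 * N) * Pi j l i z * (u.1 + slope j l * u.2) ^ 2 -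
      A.b k z ^ (2 * N) / A.SN N ((A.e k).inv z) *
        ((1 - δ' i) * g.cf (A.e k) u u z - ‖fderiv ℝ ((A.e k).rep (F i)) z u‖ ^ 2)| ≤
      C / L i ^ N1 * ‖u‖ ^ 2

end Vale.Agent.Iso4
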