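import Vale.Agent.Iso4.StagePrepB

/-! Preparation of a stage. -/

open scoped ContDiff Topology Manifold
open Set Filter

noncomputable section
namespace Vale.Agent.Iso4
universe u

theorem tameBd_sub {ι : Type*} {Ω : ι → Set P2} {s : ι → P2 → ℝ} {μ : ι → ℝ} {k m : ℕ}
    {f g : ι → P2 → ℝ} (hf : ∀ i, ∀ z ∈ Ω i, ContDiffAt ℝ ∞ (f i) z)
    (hg : ∀ i, ∀ z ∈ Ω i, ContDiffAt ℝ ∞ (g i) z) (bf : TameBd Ω s μ k f m)
    (bg : TameBd Ω s μ k g m) : TameBd Ω s μ k (fun i z => f i z - g i z) m := by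
  obtain ⟨C, hC, hb⟩ := bf
  obtain ⟨D, hD, hb'⟩ := bg
  refine ⟨C + D, by positivity, fun i z hz => ?_⟩
  rw [fun_iteratedFDeriv_sub_apply ((hf i z hz).of_le (tame_le m))
    ((hg i z hz).of_le (tame_le m)), add_mul]
  exact norm_sub_le_of_le (hb i z hz) (hb' i z hz)

theorem tameBd_dd {ι : Type*} {Ω : ι → Set P2} {s : ι → P2 → ℝ} {μ : ι → ℝ} {k m : ℕ}
    {f : ι → P2 → V} (hf : ∀ i, ∀ z ∈ Ω i, ContDiffAt ℝ ∞ (f i) z)
    (bf : TameBd Ω s μ k f (m + 1)) (u : P2) : TameBd Ω s μ (k + 1) (fun i => dd u (f i)) m := by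
  obtain ⟨C, hC, hb⟩ := bf
  refine ⟨‖ContinuousLinearMap.apply ℝ V u‖ * C, by positivity, fun i z hz =>
    ((ContinuousLinearMap.apply ℝ V u).norm_iteratedFDeriv_comp_left (tame_fd (hf i z hz))
      (tame_le m)).trans ?_⟩
  rw [mul_assoc, norm_iteratedFDeriv_fderiv, add_assoc, add_comm 1 m]
  exact mul_le_mul_of_nonneg_left (hb i z hz) (norm_nonneg _)

variable {M : Type*} [TopologicalSpace M] [ChartedSpace E2 M] [T2Space M]

/-- the normalised deficit -/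
def hq (g : Met M) (e : Chart M) (b : ℕ) (L δ' : ℝ) (F : M → V) (u z : P2) : ℝ :=
  L ^ (2 * b) * ((1 - δ') * g.cf e u u z - ‖fderiv ℝ (e.rep F) z u‖ ^ 2)

omit [T2Space M] in
theorem err_chart {g : Met M} {e : Chart M} {b : ℕ} {L : ℝ} {F : M → V} (hF : Sm F)
    (h : Err g b L F) {z : P2} (hz : z ∈ e.target) (u : P2) :
    |(1 - del b L) * g.cf e u u z - ‖fderiv ℝ (e.rep F) z u‖ ^ 2| ≤ del b L / L * g.cf e u u z := by
  rw [e.fderiv_rep hF hz]; exact h _ _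

omit [T2Space M] in
theorem hq_close {g : Met M} {e : Chart M} {b : ℕ} {L δ' : ℝ} {F : M → V} (hL : 1 ≤ L) (hF : Sm F)
    (h : Err g b L F) (h0 : 0 ≤ δ') (h1 : δ' ≤ del b L / L) {z : P2} (hz : z ∈ e.target) (u : P2) :
    |hq g e b L δ' F u z - g.cf e u u z| ≤ 2 / L * g.cf e u u z := by
  have h2 := err_chart hF h hz u
  have hq0 : 0 ≤ g.cf e u u z := g.q_nonneg _ _
  have hp : 0 < L ^ (2 * b) := by positivity
  have hd : L ^ (2 * b) * del b L = 1 := mul_inv_cancel₀ hp.ne'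
  have e1 : hq g e b L δ' F u z - g.cf e u u z = L ^ (2 * b) *
      (((1 - del b L) * g.cf e u u z - ‖fderiv ℝ (e.rep F) z u‖ ^ 2) - δ' * g.cf e u u z) := by
    unfold hq; linear_combination (g.cf e u u z) * hd
  rw [e1, abs_mul, abs_of_pos hp]
  calc _ ≤ L ^ (2 * b) * (del b L / L * g.cf e u u z + del b L / L * g.cf e u u z) := by
        gcongr
        refine (abs_sub _ _).trans (add_le_add h2 ?_)
        rw [abs_of_nonneg (by positivity)]; gcongr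
    _ = _ := by linear_combination (2 / L * g.cf e u u z) * hd

omit [T2Space M] in
theorem cf_bd {g : Met M} {e : Chart M} (he : e.Seven g) {z : P2} (hz : z ∈ e.target) (u : P2) :
    0.98 * ‖u‖ ^ 2 ≤ g.cf e u u z ∧ g.cf e u u z ≤ 8.1 * ‖u‖ ^ 2 := by
  rw [g.cf_expand]; exact seven_bd (he z hz).1 (he z hz).2.1 (he z hz).2.2 u

omit [T2Space M] in
theorem hq_expand (g : Met M) (e : Chart M) (b : ℕ) {L : ℝ} (hL : 0 < L) (δ' : ℝ) (F : M → V)
    (u z : P2) : (1 - δ') * g.cf e u u z - ‖fderiv ℝ (e.rep F) z u‖ ^ 2 =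
      del b L * (hq g e b L δ' F (1, 0) z * u.1 ^ 2 + (hq g e b L δ' F (1, 1) z -
        hq g e b L δ' F (1, 0) z - hq g e b L δ' F (0, 1) z) * u.1 * u.2 +
          hq g e b L δ' F (0, 1) z * u.2 ^ 2) := by
  have hd : del b L * L ^ (2 * b) = 1 := inv_mul_cancel₀ (by positivity)
  have x11 := g.cf_expand e (1, 1) z
  simp only [one_pow, mul_one] at x11
  rw [g.cf_expand _ u, norm_sq_expand _ u]
  simp only [hq, x11]
  generalize g.cf e (1, 0) (1, 0) z = a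
  generalize g.cf e (1, 0) (0, 1) z = a'
  generalize g.cf e (0, 1) (0, 1) z = a''
  generalize ‖fderiv ℝ (e.rep F) z (1, 0)‖ ^ 2 = c
  generalize ‖fderiv ℝ (e.rep F) z (1, 1)‖ ^ 2 = c'
  generalize ‖fderiv ℝ (e.rep F) z (0, 1)‖ ^ 2 = c''
  linear_combination (-((1 - δ') * (a * u.1 ^ 2 + 2 * a' * u.1 * u.2 + a'' * u.2 ^ 2) -
    (c * u.1 ^ 2 + (c' - c - c'') * u.1 * u.2 + c'' * u.2 ^ 2))) * hd

theorem sum_est {d w a1 a2 a3 h1 h2 h3 η : ℝ} (u : P2) (w0 : 0 ≤ d * w) (w1 : d * w ≤ 1)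
    (d1 : |a1 - h1| ≤ η) (d2 : |a2 - h2| ≤ η) (d3 : |a3 - h3| ≤ η) :
    |d * (w * (h1 * u.1 ^ 2 + 2 * (1 / 2 * (h3 - h1 - h2)) * u.1 * u.2 + h2 * u.2 ^ 2)) -
      w * (d * (a1 * u.1 ^ 2 + (a3 - a1 - a2) * u.1 * u.2 + a2 * u.2 ^ 2))| ≤ 5 * η * ‖u‖ ^ 2 := by
  have u1 : |u.1| ≤ ‖u‖ := norm_fst_le u
  have u2 : |u.2| ≤ ‖u‖ := norm_snd_le u
  have η0 : 0 ≤ η := (abs_nonneg _).trans d1
  have e3 : |(a1 - h1) * u.1 ^ 2 + ((a3 - h3) - (a1 - h1) - (a2 - h2)) * u.1 * u.2 +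
      (a2 - h2) * u.2 ^ 2| ≤ 5 * η * ‖u‖ ^ 2 :=
    calc _ ≤ |a1 - h1| * |u.1| ^ 2 + (|a3 - h3| + |a1 - h1| + |a2 - h2|) * |u.1| * |u.2| +
          |a2 - h2| * |u.2| ^ 2 := by
          refine (abs_add_three _ _ _).trans ?_
          simp only [abs_mul, abs_pow]
          gcongr
          exact (abs_sub _ _).trans (by gcongr; exact abs_sub _ _)
      _ ≤ η * ‖u‖ ^ 2 + (η + η + η) * ‖u‖ * ‖u‖ + η * ‖u‖ ^ 2 := by gcongr
      _ = _ := by ring
  calc _ = |d * w * ((a1 - h1) * u.1 ^ 2 + ((a3 - h3) - (a1 - h1) - (a2 - h2)) * u.1 * u.2 +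
        (a2 - h2) * u.2 ^ 2)| := by rw [← abs_neg]; congr 1; ring
    _ ≤ 1 * (5 * η * ‖u‖ ^ 2) := by rw [abs_mul, abs_of_nonneg w0]; gcongr
    _ = _ := one_mul _

theorem prep_def (A : Atl M univ) (g : Met M) (hA : ∀ k, (A.e k).Seven g) (r b : ℕ) {ι : Type u}
    {L δ' : ι → ℝ} {F : ι → M → V} (hL : ∀ i, 1 ≤ L i) (hI : ∀ i, Inv A g (r + 3) b (L i) (F i))
    (hδ : ∀ i, 0 ≤ δ' i ∧ δ' i ≤ del b (L i) / L i) (k : Fin A.n) (u : P2) (hu : ‖u‖ ≤ 1) :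
    ∃ h : ι → P2 → ℝ, Tame (fun _ => univ) (fun _ _ => 1) (fun i => L i ^ 2) 0 h ∧
      ∃ C : ℝ, 0 ≤ C ∧ ∀ i, ∀ z ∈ A.K0 k,
        |hq g (A.e k) b (L i) (δ' i) (F i) u z - h i z| ≤ C * L i ^ (2 * b + 6) / L i ^ r := by
  have sF : ∀ i, ∀ z ∈ A.K1 k, ContDiffAt ℝ ∞ ((A.e k).rep (F i)) z := fun i z hz =>
    (A.e k).contDiffAt_rep (hI i).sm (A.sub1 k hz)
  have bF : ∀ m ≤ r + 3, TameBd (fun _ => A.K1 k) (fun _ _ => 1) L 1
      (fun i => (A.e k).rep (F i)) m := fun m hm => ⟨1, zero_le_one, fun i z hz => by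
    simpa [add_comm] using (hI i).bd m hm k z hz⟩
  have sD : ∀ i, ∀ z ∈ A.K1 k, ContDiffAt ℝ ∞ (dd u ((A.e k).rep (F i))) z := fun i z hz =>
    ContDiffAt_dd (sF i z hz) u
  have δ1 : ∀ i, δ' i ≤ 1 := fun i => (hδ i).2.trans (by
    have := hL i
    exact div_le_one_of_le₀ ((inv_le_one_of_one_le₀ (one_le_pow₀ this)).trans this) (by linarith))
  have tg : Tame (fun _ => A.K1 k) (fun _ _ => 1) L 4 fun i z => (1 - δ' i) * g.cf (A.e k) u u z :=
    ((Tame.fixed_compact hL (A.cK1 k) (fun z hz => g.contDiffAt_cf _ u u (A.sub1 k hz))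
      fun _ => Subset.rfl).smul_index (c := fun i => 1 - δ' i) (t := fun _ => 1) fun i =>
        abs_le.2 ⟨by linarith [δ1 i], by linarith [(hδ i).1]⟩).weaken fun _ _ _ => by simp
  have sI : ∀ i, ∀ z ∈ A.K1 k, ContDiffAt ℝ ∞ (fun z => innerSL ℝ (dd u ((A.e k).rep (F i)) z)
      (dd u ((A.e k).rep (F i)) z)) z := fun i z hz => (sD i z hz).inner ℝ (sD i z hz)
  have tc : Tame (fun _ => A.K1 k) (fun i _ => L i ^ (2 * b)) L 0
      fun i (_ : P2) => L i ^ (2 * b) :=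
    Tame.const hL fun i _ _ => by rw [Real.norm_of_nonneg (by have := hL i; positivity)]
  have e : ∀ i, (fun z => hq g (A.e k) b (L i) (δ' i) (F i) u z) = fun z =>
      ContinuousLinearMap.mul ℝ ℝ (L i ^ (2 * b)) ((1 - δ' i) * g.cf (A.e k) u u z -
        innerSL ℝ (dd u ((A.e k).rep (F i)) z) (dd u ((A.e k).rep (F i)) z)) := fun i => by
    funext z; simp [hq, dd]
  obtain ⟨h, th, C, hC, hh⟩ := smooth_fin r 4 (A.cK0 k) (A.cK1 k) (A.sub01 k)
    (f := fun i z => hq g (A.e k) b (L i) (δ' i) (F i) u z) (s := fun _ => 30)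
    (t := fun i => L i ^ (2 * b)) hL (fun _ => by norm_num)
    (fun i => by have := hL i; positivity) (fun i z hz => by
      rw [e]; exact contDiffAt_const.mul ((tg.smooth i z hz).sub (sI i z hz)))
    (fun i z hz => by
      have h1 := hq_close (g := g) (hL i) (hI i).sm (hI i).err (hδ i).1 (hδ i).2 (A.sub1 k hz) u
      have h2 := cf_bd (hA k) (A.sub1 k hz) u
      have h3 : ‖u‖ ^ 2 ≤ 1 := pow_le_one₀ (norm_nonneg _) hu
      have h4 : 2 / L i ≤ 2 := div_le_self (by norm_num) (hL i)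
      have h5 : 0 ≤ g.cf (A.e k) u u z := g.q_nonneg _ _
      rw [Real.norm_eq_abs, abs_le]; rw [abs_le] at h1
      constructor <;> nlinarith)
    (fun m hm => by
      have := tame_bilin (ContinuousLinearMap.mul ℝ ℝ) m tc.smooth
        (fun i z hz => (tg.smooth i z hz).sub (sI i z hz)) (fun j _ => tc.bound j) fun j hj =>
          tameBd_sub tg.smooth sI (tg.bound j) (by
            have := tame_bilin (innerSL ℝ) j sD sD
              (fun l hl => tameBd_dd sF (bF (l + 1) (by omega)) u)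
              fun l hl => tameBd_dd sF (bF (l + 1) (by omega)) u
            simpa only [mul_one] using this)
      simp only [e]
      simpa using this)
  refine ⟨h, th.weakenC (C := 30) (by norm_num) fun _ _ _ => by norm_num, C, hC, fun i z hz => ?_⟩
  have := (hh i z hz).1
  rwa [← pow_add] at this

omit [T2Space M] in
theorem prep_key (A : Atl M univ) (g : Met M) (hA : ∀ k, (A.e k).Seven g) {a b : ℕ} (ha : 2 ≤ a)
    (hb : 1 ≤ b) {L δ' η h1 h2 h3 : ℝ} {F : M → V} (hI : Inv A g a b L F)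
    (hδ : 0 ≤ δ' ∧ δ' ≤ del b L / L) {k : Fin A.n} {z : P2} (hz : z ∈ A.K0 k) {f : P2 → V}
    (η0 : 0 ≤ η) (e1 : η * L ^ 4 ≤ 1 / 1000) (e2 : 10000 ≤ L)
    (hf1 : ‖fderiv ℝ ((A.e k).rep F) z - fderiv ℝ f z‖ ≤ η)
    (hf2 : ∀ v, ‖d2 ((A.e k).rep F) z v v - d2 f z v v‖ ≤ η * (‖v‖ * ‖v‖))
    (hh1 : |hq g (A.e k) b L δ' F (1, 0) z - h1| ≤ η)
    (hh2 : |hq g (A.e k) b L δ' F (0, 1) z - h2| ≤ η)
    (hh3 : |hq g (A.e k) b L δ' F (1, 1) z - h3| ≤ η) :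
    (|h1 - 1| ≤ 1 / 50 ∧ |1 / 2 * (h3 - h1 - h2)| ≤ 1 / 50 ∧ |h2 - 7| ≤ 1 / 50) ∧
      Imm (1 / 4) (fderiv ℝ f z) ∧
      (6 ≤ gram2 (fderiv ℝ f z (1, 0)) (fderiv ℝ f z (0, 1)) ∧
        gram2 (fderiv ℝ f z (1, 0)) (fderiv ℝ f z (0, 1)) ≤ 8) ∧
      ∃ v : P2, ‖v‖ ≤ 1 ∧ Tr (1 / (2 * L)) (d2 f z v v) (fderiv ℝ f z) := by
  have hL : 1 ≤ L := by linarith
  have Lp : 0 < L := by linarith
  have hz1 := A.K01 k hz
  have hzt := A.sub0 k hz
  have L4 : 1 ≤ L ^ 4 := one_le_pow₀ (hL)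
  have η1 : η ≤ 1 / 1000 := by nlinarith [η0]
  have iL : 2 / L ≤ 1 / 5000 := by rw [div_le_div_iff₀ Lp (by norm_num)]; linarith
  obtain ⟨s1, s2, s3⟩ := hA k z hzt
  have hcl : ∀ u : P2, ‖u‖ ≤ 1 →
      |hq g (A.e k) b L δ' F u z - g.cf (A.e k) u u z| ≤ 1 / 600 := fun u hu => by
    refine (hq_close (hL) hI.sm hI.err hδ.1 hδ.2 hzt u).trans ?_
    have h2 := cf_bd (hA k) hzt u
    have h3 : ‖u‖ ^ 2 ≤ 1 := pow_le_one₀ (norm_nonneg _) hu
    have h5 : 0 ≤ g.cf (A.e k) u u z := g.q_nonneg _ _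
    nlinarith
  have δs : del b L ≤ 1 / 10000 := by
    unfold del
    rw [inv_le_comm₀ (by have := Lp; positivity) (by norm_num)]
    refine le_trans (by norm_num; linarith) (le_self_pow₀ (hL) (by omega))
  have δ0 : 0 ≤ del b L := by unfold del; have := Lp; positivity
  have hF : ∀ u : P2, |‖fderiv ℝ ((A.e k).rep F) z u‖ ^ 2 - g.cf (A.e k) u u z| ≤
      1 / 500 * ‖u‖ ^ 2 := fun u => by
    have h1 := err_chart hI.sm hI.err hzt u
    have h2 := cf_bd (hA k) hzt u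
    have h5 : 0 ≤ g.cf (A.e k) u u z := g.q_nonneg _ _
    have h6 : del b L / L ≤ del b L := div_le_self δ0 (hL)
    have h7 := mul_le_mul_of_nonneg_right h6 h5
    have h8 := mul_le_mul_of_nonneg_right δs h5
    rw [abs_le] at h1 ⊢
    constructor <;> nlinarith
  have iF : Imm (1 / 2) (fderiv ℝ ((A.e k).rep F) z) := fun u => by
    have h1 := (abs_le.1 (hF u)).1
    have h2 := (cf_bd (hA k) hzt u).1
    exact (abs_le_of_sq_le_sq' (by nlinarith [sq_nonneg ‖u‖]) (norm_nonneg _)).2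
  have dF : ∀ u, ‖fderiv ℝ f z u - fderiv ℝ ((A.e k).rep F) z u‖ ≤ η * ‖u‖ :=
    fun u => by
      rw [norm_sub_rev, ← ContinuousLinearMap.sub_apply]
      exact (ContinuousLinearMap.le_opNorm _ _).trans
        (mul_le_mul_of_nonneg_right hf1 (norm_nonneg _))
  have hf' : ∀ u : P2, ‖u‖ ≤ 1 → |‖fderiv ℝ f z u‖ ^ 2 - g.cf (A.e k) u u z| ≤ 1 / 20 :=
    fun u hu => by
      have h1 := abs_le.1 (hF u)
      have h2 := (cf_bd (hA k) hzt u).2
      have h3 : ‖u‖ ^ 2 ≤ 1 := pow_le_one₀ (norm_nonneg _) hu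
      have h4 : ‖fderiv ℝ ((A.e k).rep F) z u‖ ≤ 3 :=
        (abs_le_of_sq_le_sq' (by nlinarith) (by norm_num)).2
      have h5 := abs_le.1 ((abs_norm_sub_norm_le _ _).trans ((dF u).trans
        (mul_le_mul η1 hu (norm_nonneg _) (by norm_num))))
      have h6 := norm_nonneg (fderiv ℝ ((A.e k).rep F) z u)
      have h7 := norm_nonneg (fderiv ℝ f z u)
      rw [abs_le]; constructor <;> nlinarith
  have x11 := g.cf_expand (A.e k) (1, 1) z
  refine ⟨?_, (iF.pert dF).mono (by linarith), gram2_bd s1 s2 s3 (hf' _ (by simp))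
    (hf' _ (by simp)) (by have := hf' (1, 1) (by simp); rw [x11] at this; simpa using this), ?_⟩
  · have c1 := abs_le.1 (hcl (1, 0) (by simp))
    have c2 := abs_le.1 (hcl (0, 1) (by simp))
    have c3 := abs_le.1 (hcl (1, 1) (by simp))
    have d1 := abs_le.1 (hh1.trans η1)
    have d2 := abs_le.1 (hh2.trans η1)
    have d3 := abs_le.1 (hh3.trans η1)
    rw [abs_le] at s1 s2 s3
    simp only [one_pow, mul_one] at x11
    refine ⟨abs_le.2 ⟨?_, ?_⟩, abs_le.2 ⟨?_, ?_⟩, abs_le.2 ⟨?_, ?_⟩⟩ <;> linarith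
  · obtain ⟨v, hv, ht⟩ := hI.nd k z hz1
    have vv : ‖v‖ * ‖v‖ ≤ 1 := mul_le_one₀ hv (norm_nonneg _) hv
    have h1 : ‖d2 ((A.e k).rep F) z v v - d2 f z v v‖ ≤ η :=
      (hf2 v).trans (mul_le_of_le_one_right η0 vv)
    have h2 : ‖d2 ((A.e k).rep F) z v v‖ ≤ L ^ 3 := (norm_d2_le_iter v v).trans
      ((mul_le_mul (hI.bd 2 (by omega) k z hz1) vv (by positivity)
        (by have := Lp; positivity)).trans_eq (mul_one _))
    have L3 : 1 ≤ L ^ 3 := one_le_pow₀ (hL)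
    have h3 : ‖d2 f z v v‖ ≤ 2 * L ^ 3 := by
      have := norm_sub_norm_le (d2 f z v v) (d2 ((A.e k).rep F) z v v)
      rw [norm_sub_rev] at this; linarith
    refine ⟨v, hv, (ht.pert iF (by norm_num) η0 dF (by linarith)).mono ?_⟩
    have h4 : η * L ^ 3 ≤ 1 / 1000 * (1 / L) := by
      rw [mul_one_div, le_div_iff₀ Lp]; linarith [pow_succ L 3, mul_assoc η (L ^ 3) L]
    have h5 : 1 / (2 * L) = 1 / 2 * (1 / L) := by field_simp
    have h6 : 4 * η * ‖d2 f z v v‖ / (1 / 2) ≤ 16 * (η * L ^ 3) := by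
      have := mul_le_mul_of_nonneg_left h3 η0; linarith
    have h7 : η ≤ η * L ^ 3 := le_mul_of_one_le_right η0 L3
    have h8 : 0 < 1 / L := by have := Lp; positivity
    linarith

theorem stage_prep : ∃ q : ℕ, 1 ≤ q ∧ ∀ (A : Atl M univ) (g : Met M), (∀ k, (A.e k).Seven g) →
    ∀ N N1 b : ℕ, 1 ≤ N → 1 ≤ b → ∃ a : ℕ, ∀ {ι : Type u} (𝓕 : Filter ι) (L δ' : ι → ℝ)
      (F : ι → M → V), (∀ i, 1 ≤ L i) → Tendsto L 𝓕 atTop → (∀ i, Inv A g a b (L i) (F i)) →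
      (∀ i, 0 ≤ δ' i ∧ δ' i ≤ del b (L i) / L i) → ∀ k, ∃ f ϖ ϱ Pi κ C,
        Prep A g 𝓕 q N N1 b L δ' F k f ϖ ϱ Pi κ C := by
  refine ⟨148, by norm_num, fun A g hA N N1 b hN hb => ⟨N1 + 2 * b + 11 + 3,
    fun {ι} 𝓕 L δ' F hL hlim hI hδ k => ?_⟩⟩
  obtain ⟨c, hc, hgood⟩ := good_triple
  have Lp : ∀ i, 0 < L i := fun i => one_pos.trans_le (hL i)
  have sF : ∀ i, ∀ z ∈ A.K1 k, ContDiffAt ℝ ∞ ((A.e k).rep (F i)) z := fun i z hz =>
    (A.e k).contDiffAt_rep (hI i).sm (A.sub1 k hz)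
  obtain ⟨f, tf, C0, hC0, hf⟩ := smooth_fin (N1 + 2 * b + 11) 1 (A.cK0 k) (A.cK1 k) (A.sub01 k)
    (f := fun i => (A.e k).rep (F i)) (s := L) (t := fun _ => 1) hL (fun i => (Lp i).le)
    (fun _ => zero_le_one) sF (fun i z hz => by simpa using (hI i).bd 0 (by omega) k z hz)
    fun m hm => ⟨1, zero_le_one, fun i z hz => by
      simpa [add_comm] using (hI i).bd m (by omega) k z hz⟩
  obtain ⟨h1, t1, C1, hC1, hh1⟩ := prep_def A g hA _ b hL hI hδ k (1, 0) (by simp)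
  obtain ⟨h2, t2, C2, hC2, hh2⟩ := prep_def A g hA _ b hL hI hδ k (0, 1) (by simp)
  obtain ⟨h3, t3, C3, hC3, hh3⟩ := prep_def A g hA _ b hL hI hδ k (1, 1) (by simp)
  have pf : PT (fun _ => univ) L 3 f :=
    PT.of_size (p := 2) (k := 0) (q := 1) tf hL zero_le_one fun i _ _ => by simp
  have hS : ∀ z ∈ A.K0 k, ContDiffAt ℝ ∞ ((A.e k).rep (A.SN N)) z ∧ 1 ≤ (A.e k).rep (A.SN N) z ∧
      (A.e k).rep (A.SN N) z ≤ A.n := fun z hz =>
    ⟨(A.e k).contDiffAt_rep (A.sm_SN N) (A.sub0 k hz), A.one_le_SN N (mem_univ _), A.SN_le N _⟩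
  obtain ⟨ϖ, ϱ, Pi, a1, a2, a3, a4, a5, a6, a7, a8, a9, a10, a11⟩ := prep_wt (N := N) hL hc
    (A.cK0 k) (A.smb k) (A.smbt k) (A.b_supp k) (A.bt_supp k) (A.memb k) (A.bt_one k)
    (fun z hz => A.b_zero k hz) (fun z hz => A.bt_zero k hz) hS pf t1
    (((t3.sub t1).sub t2).const_mul (1 / 2)) t2
  set C := C0 + C1 + C2 + C3
  have hC : 0 ≤ C := by positivity
  set η : ι → ℝ := fun i => C / L i ^ (N1 + 5)
  have η0 : ∀ i, 0 ≤ η i := fun i => by have := Lp i; positivity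
  have ηa : ∀ i D m, D ≤ C → 0 ≤ D → m ≤ 2 * b + 6 →
      D * L i ^ m / L i ^ (N1 + 2 * b + 11) ≤ η i := fun i D m h h0 hm => by
    have := Lp i
    rw [div_le_div_iff₀ (by positivity) (by positivity), mul_assoc, ← pow_add]
    exact mul_le_mul h (pow_le_pow_right₀ (hL i) (by omega)) (by positivity) hC
  have b0 : ∀ i, C0 * (1 * L i ^ (1 + 2)) / L i ^ (N1 + 2 * b + 11) ≤ η i := fun i => by
    rw [one_mul]; exact ηa i _ _ (by simp only [C]; linarith) hC0 (by omega)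
  have b1 := fun i => ηa i C1 _ (by simp only [C]; linarith) hC1 le_rfl
  have b2 := fun i => ηa i C2 _ (by simp only [C]; linarith) hC2 le_rfl
  have b3 := fun i => ηa i C3 _ (by simp only [C]; linarith) hC3 le_rfl
  have ηN : ∀ i, η i ≤ C / L i ^ N1 := fun i => by
    have := Lp i
    exact div_le_div_of_nonneg_left hC (by positivity) (pow_le_pow_right₀ (hL i) (by omega))
  have ev : ∀ᶠ i in 𝓕, η i * L i ^ 4 ≤ 1 / 1000 ∧ 10000 ≤ L i := by
    filter_upwards [ev_pow_le hlim C (ε := 1 / 1000) (by norm_num) (show 4 < N1 + 5 by omega),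
      hlim.eventually_ge_atTop 10000] with i h h'
    refine ⟨?_, h'⟩
    have := Lp i
    simp only [η]
    rwa [div_mul_eq_mul_div, div_le_iff₀ (by positivity)]
  have key := fun i (e1 : η i * L i ^ 4 ≤ 1 / 1000) (e2 : 10000 ≤ L i) z (hz : z ∈ A.K0 k) =>
    prep_key A g hA (by omega) hb (hI i) (hδ i) hz (η0 i) e1 e2 ((hf i z hz).2.1.trans (b0 i))
      (fun v => ((hf i z hz).2.2 v v).trans (mul_le_mul_of_nonneg_right (b0 i) (by positivity)))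
      ((hh1 i z hz).trans (b1 i)) ((hh2 i z hz).trans (b2 i)) ((hh3 i z hz).trans (b3 i))
  have n1 : (0 : ℝ) < A.n := by exact_mod_cast k.pos
  refine ⟨f, ϖ, ϱ, Pi, min (min (1 / (400 * A.n)) (1 / 4)) (c / 5), 5 * C,
    ⟨by positivity, pf.mono hL (by norm_num), a1, a2, a3, a4, a5, a6, a7, a8, ?_, ?_, ?_, ?_, ?_⟩⟩
  · filter_upwards [ev] with i hi j l z hz
    obtain ⟨⟨k1, k2, k3⟩, -⟩ := key i hi.1 hi.2 z hz
    exact ((min_le_left _ _).trans (min_le_left _ _)).trans (a9 i z hz k1 k2 k3 j l)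
  · filter_upwards [ev] with i hi z hz
    exact (key i hi.1 hi.2 z hz).2.1.mono ((min_le_left _ _).trans (min_le_right _ _))
  · filter_upwards [ev] with i hi j l z hz
    obtain ⟨-, -, ⟨k1, k2⟩, -⟩ := key i hi.1 hi.2 z (a4 j i z hz)
    exact (a10 i z j l hz (by linarith) k2).mono
      (div_le_div_of_nonneg_right (min_le_right _ _) (Lp i).le)
  · refine Eventually.of_forall fun i z hz => ((hf i z hz).2.1.trans ((b0 i).trans (ηN i))).trans ?_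
    have := Lp i
    gcongr; linarith
  · filter_upwards [ev] with i hi z hz u
    obtain ⟨-, -, ⟨k1, -⟩, k2⟩ := key i hi.1 hi.2 z hz
    have hs := a11 i z hz k1 (hgood _ _ _ (pf.smooth i z (mem_univ _))
      (by have := Lp i; positivity) k2) u
    have e1 : ∑ j, ∑ l, del b (L i) * ϱ j i z ^ (2 * N) * Pi j l i z *
        (u.1 + slope j l * u.2) ^ 2 = del b (L i) * ∑ j, ∑ l, ϱ j i z ^ (2 * N) * Pi j l i z *
        (u.1 + slope j l * u.2) ^ 2 := by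
      simp only [Finset.mul_sum, mul_assoc]
    have S0 := A.SN_nonneg N ((A.e k).inv z)
    have m0 := (A.memb k z).1
    have Li := Lp i
    rw [e1, hs, hq_expand g _ b Li]
    refine (sum_est u (mul_nonneg (by positivity) (div_nonneg (pow_nonneg m0 _) S0))
      (mul_le_one₀ (inv_le_one_of_one_le₀ (one_le_pow₀ (hL i)))
        (div_nonneg (pow_nonneg m0 _) S0) (div_le_one_of_le₀ ((pow_le_one₀ m0 (A.memb k z).2).trans
        (A.one_le_SN N (mem_univ _))) S0))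
      ((hh1 i z hz).trans (b1 i)) ((hh2 i z hz).trans (b2 i)) ((hh3 i z hz).trans (b3 i))).trans ?_
    rw [mul_div_assoc]
    gcongr
    exact ηN i

end Vale.Agent.Iso4
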