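import Vale.Agent.Iso4.StageDef
import Vale.Agent.Iso4.Smooth

/-! Auxiliary results for the preparation of a stage. -/

open scoped ContDiff Topology Manifold
open Set Filter

noncomputable section
namespace Vale.Agent.Iso4

theorem ev_pow_le {ι : Type*} {𝓕 : Filter ι} {L : ι → ℝ} (hL : Tendsto L 𝓕 atTop) (C : ℝ)
    {ε : ℝ} (hε : 0 < ε) {m n : ℕ} (h : m < n) : ∀ᶠ i in 𝓕, C * L i ^ m ≤ ε * L i ^ n := by
  filter_upwards [hL.eventually_ge_atTop (max 1 (|C| / ε))] with i hi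
  have h1 : 1 ≤ L i := (le_max_left _ _).trans hi
  have h2 : |C| ≤ ε * L i := by
    have := (le_max_right _ _).trans hi
    rwa [div_le_iff₀' hε] at this
  calc C * L i ^ m ≤ (ε * L i) * L i ^ m := by
        gcongr; exact (le_abs_self C).trans h2
    _ = ε * L i ^ (m + 1) := by ring
    _ ≤ ε * L i ^ n := mul_le_mul_of_nonneg_left (pow_le_pow_right₀ h1 h) hε.le

theorem smooth_fin {ι : Type*} {X : Type} [NormedAddCommGroup X] [NormedSpace ℝ X]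
    [CompleteSpace X] (r k : ℕ) {K0 K1 : Set P2} (hK0 : IsCompact K0) (hK1 : IsCompact K1)
    (h01 : K0 ⊆ interior K1) {f : ι → P2 → X} {s t L : ι → ℝ} (hl : ∀ i, 1 ≤ L i)
    (hs0 : ∀ i, 0 ≤ s i) (ht0 : ∀ i, 0 ≤ t i) (hf : ∀ i, ∀ z ∈ K1, ContDiffAt ℝ ∞ (f i) z)
    (h0 : ∀ i, ∀ z ∈ K1, ‖f i z‖ ≤ s i)
    (hA : ∀ m ≤ r + 2, TameBd (fun _ => K1) (fun i _ => t i) L k f m) :
    ∃ g : ι → P2 → X, Tame (fun _ => univ) (fun i _ => s i) (fun i => L i ^ 2) 0 g ∧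
      ∃ C : ℝ, 0 ≤ C ∧ ∀ i, ∀ z ∈ K0, ‖f i z - g i z‖ ≤ C * (t i * L i ^ (k + 2)) / L i ^ r ∧
        ‖fderiv ℝ (f i) z - fderiv ℝ (g i) z‖ ≤ C * (t i * L i ^ (k + 2)) / L i ^ r ∧
        ∀ v w, ‖d2 (f i) z v w - d2 (g i) z v w‖ ≤
          C * (t i * L i ^ (k + 2)) / L i ^ r * (‖v‖ * ‖w‖) := by
  choose! D hD hb using hA
  set D0 := ∑ m ∈ Finset.range (r + 3), D m with hD0
  have hD1 : ∀ m ≤ r + 2, D m ≤ D0 := fun m hm =>
    Finset.single_le_sum (f := D) (fun j hj => hD j (by simp at hj; omega)) (by simp; omega)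
  have hD2 : 0 ≤ D0 := (hD 0 (by omega)).trans (hD1 0 (by omega))
  obtain ⟨g, hg, C, hC, h⟩ := smoothing r hK0 hK1 h01 (f := f) (s := s) (ell := fun i => L i ^ 2)
    (A := fun i => D0 * (t i * L i ^ (k + r + 2))) (fun i => one_le_pow₀ (hl i)) hs0
    (fun i => by have := ht0 i; have := hl i; positivity) hf h0 (fun i m hm z hz => by
      refine (hb m hm i z hz).trans ?_
      have := ht0 i; have := hl i
      exact mul_le_mul (hD1 m hm) (mul_le_mul_of_nonneg_left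
        (pow_le_pow_right₀ (hl i) (by omega)) (ht0 i)) (by positivity) hD2)
  refine ⟨g, hg, C * D0, by positivity, fun i z hz => ?_⟩
  have e : C * (D0 * (t i * L i ^ (k + r + 2))) / (L i ^ 2) ^ r =
      C * D0 * (t i * L i ^ (k + 2)) / L i ^ r := by
    have : L i ≠ 0 := by have := hl i; positivity
    rw [← pow_mul, show k + r + 2 = (k + 2) + r by ring, pow_add, mul_comm 2 r, pow_mul]
    field_simp
  simpa only [e] using h i z hz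

/-- lower and upper bounds for a form close to `dx ^ 2 + 7 dy ^ 2` -/
theorem seven_bd {a b c : ℝ} (ha : |a - 1| ≤ 1 / 100) (hb : |b| ≤ 1 / 100) (hc : |c - 7| ≤ 1 / 100)
    (u : P2) : 0.98 * ‖u‖ ^ 2 ≤ a * u.1 ^ 2 + 2 * b * u.1 * u.2 + c * u.2 ^ 2 ∧
      a * u.1 ^ 2 + 2 * b * u.1 * u.2 + c * u.2 ^ 2 ≤ 8.1 * ‖u‖ ^ 2 := by
  have h1 : u.1 ^ 2 ≤ ‖u‖ ^ 2 := by
    rw [← sq_abs]; exact pow_le_pow_left₀ (abs_nonneg _) (norm_fst_le u) 2
  have h2 : u.2 ^ 2 ≤ ‖u‖ ^ 2 := by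
    rw [← sq_abs]; exact pow_le_pow_left₀ (abs_nonneg _) (norm_snd_le u) 2
  have h3 : ‖u‖ ^ 2 ≤ u.1 ^ 2 + u.2 ^ 2 := by
    rw [Prod.norm_def, Real.norm_eq_abs, Real.norm_eq_abs]
    rcases le_total |u.1| |u.2| with h | h
    · rw [max_eq_right h, sq_abs]; nlinarith [sq_nonneg u.1]
    · rw [max_eq_left h, sq_abs]; nlinarith [sq_nonneg u.2]
  rw [abs_le] at ha hb hc
  have h4 : 2 * b * u.1 * u.2 ≤ (u.1 ^ 2 + u.2 ^ 2) / 100 := by
    nlinarith [mul_nonneg (sub_nonneg.2 hb.2) (sq_nonneg (u.1 + u.2)),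
      mul_nonneg (neg_le_iff_add_nonneg.1 hb.1) (sq_nonneg (u.1 - u.2))]
  have h5 : -((u.1 ^ 2 + u.2 ^ 2) / 100) ≤ 2 * b * u.1 * u.2 := by
    nlinarith [mul_nonneg (sub_nonneg.2 hb.2) (sq_nonneg (u.1 - u.2)),
      mul_nonneg (neg_le_iff_add_nonneg.1 hb.1) (sq_nonneg (u.1 + u.2))]
  constructor
  · nlinarith [sq_nonneg u.1, sq_nonneg u.2]
  · nlinarith [sq_nonneg u.1, sq_nonneg u.2]

theorem norm_sq_expand (T : P2 →L[ℝ] V) (u : P2) : ‖T u‖ ^ 2 = ‖T (1, 0)‖ ^ 2 * u.1 ^ 2 +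
    (‖T (1, 1)‖ ^ 2 - ‖T (1, 0)‖ ^ 2 - ‖T (0, 1)‖ ^ 2) * u.1 * u.2 + ‖T (0, 1)‖ ^ 2 * u.2 ^ 2 := by
  have h1 : T u = u.1 • T (1, 0) + u.2 • T (0, 1) := by
    rw [← map_smul, ← map_smul, ← map_add]; congr 1; ext <;> simp
  have h2 : T (1, 1) = T (1, 0) + T (0, 1) := by rw [← map_add]; congr 1; ext <;> simp
  rw [h1, h2, norm_add_sq_real, norm_add_sq_real, norm_smul, norm_smul, inner_smul_left,
    inner_smul_right, mul_pow, mul_pow, Real.norm_eq_abs, Real.norm_eq_abs, sq_abs, sq_abs]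
  simp only [conj_trivial]
  ring

theorem gram2_bd {T : P2 →L[ℝ] V} {a b c : ℝ} (ha : |a - 1| ≤ 1 / 100) (hb : |b| ≤ 1 / 100)
    (hc : |c - 7| ≤ 1 / 100) (h1 : |‖T (1, 0)‖ ^ 2 - a| ≤ 1 / 20) (h2 : |‖T (0, 1)‖ ^ 2 - c| ≤ 1 / 20)
    (h3 : |‖T (1, 1)‖ ^ 2 - (a + 2 * b + c)| ≤ 1 / 20) :
    6 ≤ gram2 (T (1, 0)) (T (0, 1)) ∧ gram2 (T (1, 0)) (T (0, 1)) ≤ 8 := by
  have h4 : T (1, 1) = T (1, 0) + T (0, 1) := by rw [← map_add]; congr 1; ext <;> simp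
  rw [h4, norm_add_sq_real] at h3
  unfold gram2
  rw [real_inner_self_eq_norm_sq, real_inner_self_eq_norm_sq]
  set x := ‖T (1, 0)‖ ^ 2
  set y := ‖T (0, 1)‖ ^ 2
  set w := inner ℝ (T (1, 0)) (T (0, 1))
  rw [abs_le] at ha hb hc h1 h2 h3
  have hw : w ^ 2 ≤ 1 / 100 := by nlinarith
  constructor <;> nlinarith [sq_nonneg w]

/-- the cutoff used for the weights -/
theorem tame_st {ι : Type*} {L : ι → ℝ} (hL : ∀ i, 1 ≤ L i) {p : ℕ} {X : ι → P2 → ℝ}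
    (hX : PT (fun _ => univ) L p X) (c d : ℝ) :
    Tame (fun _ => univ) (fun _ _ => 1) (fun i => L i ^ (2 * p)) 0
      fun i z => Real.smoothTransition (c * X i z - d) :=
  PT.outer (S := univ) (fun _ _ => Real.smoothTransition.contDiff.contDiffAt)
    (fun m => (bdd_smoothTransition m).imp fun _ h y _ => h y)
    ((hX.const_mul c).sub (Tame.const_one hX.one_le d)) hL fun _ _ _ => mem_univ _

theorem st_ge_half {x : ℝ} (hx : 0 ≤ x) : 1 / 2 ≤ x + 1 - Real.smoothTransition (2 * x - 1) := by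
  rcases le_total x (1 / 2) with h | h
  · rw [Real.smoothTransition.zero_of_nonpos (by linarith)]; linarith
  · linarith [Real.smoothTransition.le_one (2 * x - 1)]

theorem tame_lag {ι : Type*} {Ω : ι → Set P2} {μ : ι → ℝ} {a b c : ι → P2 → ℝ}
    (ha : Tame Ω (fun _ _ => 1) μ 0 a) (hb : Tame Ω (fun _ _ => 1) μ 0 b)
    (hc : Tame Ω (fun _ _ => 1) μ 0 c) (j l : Fin 3) :
    Tame Ω (fun _ _ => 1) μ 0 fun i z => lag j l (a i z) (b i z) (c i z) := by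
  simp only [lag, div_eq_inv_mul]
  exact ((hc.sub (hb.const_mul _)).add (ha.const_mul _)).const_mul _

end Vale.Agent.Iso4
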