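import Vale.Agent.Iso4.StagePrepA

/-! The weights of a stage. -/

open scoped ContDiff Topology Manifold
open Set Filter

noncomputable section
namespace Vale.Agent.Iso4

theorem prep_wt {ι : Type*} {L : ι → ℝ} (hL : ∀ i, 1 ≤ L i) {c : ℝ} (hc : 0 < c) {N : ℕ}
    {K0 : Set P2} (hK : IsCompact K0) {b bt S : P2 → ℝ} (sb : ContDiff ℝ ∞ b)
    (sbt : ContDiff ℝ ∞ bt) (cb : HasCompactSupport b) (cbt : HasCompactSupport bt)
    (mb : ∀ z, b z ∈ Icc (0 : ℝ) 1) (b1 : ∀ z, b z ≠ 0 → bt z = 1)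
    (b0 : ∀ z ∉ K0, b z = 0) (bt0 : ∀ z ∉ K0, bt z = 0) {n : ℝ}
    (hS : ∀ z ∈ K0, ContDiffAt ℝ ∞ S z ∧ 1 ≤ S z ∧ S z ≤ n) {f : ι → P2 → V}
    (hf : PT (fun _ => univ) L 3 f) {h11 h12 h22 : ι → P2 → ℝ}
    (t11 : Tame (fun _ => univ) (fun _ _ => 1) (fun i => L i ^ 2) 0 h11)
    (t12 : Tame (fun _ => univ) (fun _ _ => 1) (fun i => L i ^ 2) 0 h12)
    (t22 : Tame (fun _ => univ) (fun _ _ => 1) (fun i => L i ^ 2) 0 h22) :
    ∃ (ϖ ϱ : Fin 3 → ι → P2 → ℝ) (Pi : Fin 3 → Fin 3 → ι → P2 → ℝ),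
      (∀ j, PT (fun _ => univ) L 148 (ϖ j)) ∧ (∀ j, PT (fun _ => univ) L 148 (ϱ j)) ∧
      (∀ j l, PT (fun _ => K0) L 148 (Pi j l)) ∧ (∀ j i z, 0 < ϖ j i z → z ∈ K0) ∧
      (∀ j i z, 0 ≤ ϱ j i z) ∧ (∀ j i z, ϱ j i z ≤ 1) ∧ (∀ j i z, z ∉ K0 → ϱ j i z = 0) ∧
      (∀ j i z, ϖ j i z ≤ 1 → ϱ j i z = 0) ∧
      (∀ i, ∀ z ∈ K0, |h11 i z - 1| ≤ 1 / 50 → |h12 i z| ≤ 1 / 50 → |h22 i z - 7| ≤ 1 / 50 →
        ∀ j l, 1 / (400 * n) ≤ Pi j l i z) ∧
      (∀ i z j l, 0 < ϖ j i z → 0 < gram2 (fderiv ℝ (f i) z (1, 0)) (fderiv ℝ (f i) z (0, 1)) →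
        gram2 (fderiv ℝ (f i) z (1, 0)) (fderiv ℝ (f i) z (0, 1)) ≤ 8 →
        Tr (c / 5 / L i) (d2 (f i) z (leaf j l) (leaf j l)) (fderiv ℝ (f i) z)) ∧
      ∀ i, ∀ z ∈ K0, 6 ≤ gram2 (fderiv ℝ (f i) z (1, 0)) (fderiv ℝ (f i) z (0, 1)) →
        (∃ j, ∀ l, Tr (c * (1 / (2 * L i))) (d2 (f i) z (leaf j l) (leaf j l)) (fderiv ℝ (f i) z)) →
        ∀ u : P2, ∑ j, ∑ l, ϱ j i z ^ (2 * N) * Pi j l i z * (u.1 + slope j l * u.2) ^ 2 =
          b z ^ (2 * N) / S z * (h11 i z * u.1 ^ 2 + 2 * h12 i z * u.1 * u.2 + h22 i z * u.2 ^ 2) := by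
  set x0 : ℝ := 3 * c ^ 2 / 4 with hx0
  have x0p : 0 < x0 := by positivity
  set X : Fin 3 → Fin 3 → ι → P2 → ℝ := fun j l i z => L i ^ 2 *
    gram3 (d2 (f i) z (leaf j l) (leaf j l)) (fderiv ℝ (f i) z (1, 0)) (fderiv ℝ (f i) z (0, 1))
    with hX
  have tX : ∀ j l, PT (fun _ => univ) L 74 (X j l) := fun j l =>
    PT.mul (p := 2) (q := 72) (PT.index hL fun i => by
      rw [abs_of_nonneg (by have := hL i; positivity)])
      (PT.gram3 (p := 12) hL (PT.of_tame (p := 3) (k := 3) (hf.d2 _ _) hL)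
        ((hf.dd hL (1, 0)).mono hL (by norm_num)) ((hf.dd hL (0, 1)).mono hL (by norm_num))) hL
  set σ : Fin 3 → Fin 3 → ι → P2 → ℝ := fun j l i z => Real.smoothTransition (x0⁻¹ * X j l i z - 1)
  set σ' : Fin 3 → Fin 3 → ι → P2 → ℝ :=
    fun j l i z => Real.smoothTransition (4 * x0⁻¹ * X j l i z - 2)
  have tσ : ∀ j l, Tame (fun _ => univ) (fun _ _ => 1) (fun i => L i ^ 148) 0 (σ j l) :=
    fun j l => tame_st hL (tX j l) _ _
  have tσ' : ∀ j l, Tame (fun _ => univ) (fun _ _ => 1) (fun i => L i ^ 148) 0 (σ' j l) :=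
    fun j l => tame_st hL (tX j l) _ _
  have h148 : ∀ i, 1 ≤ L i ^ 148 := fun i => one_le_pow₀ (hL i)
  set P : Fin 3 → ι → P2 → ℝ := fun j i z => σ j 0 i z * σ j 1 i z * σ j 2 i z
  set P' : Fin 3 → ι → P2 → ℝ := fun j i z => σ' j 0 i z * σ' j 1 i z * σ' j 2 i z
  have tP : ∀ j, Tame (fun _ => univ) (fun _ _ => 1) (fun i => L i ^ 148) 0 (P j) :=
    fun j => ((tσ j 0).mul1 (tσ j 1)).mul1 (tσ j 2)
  have tP' : ∀ j, Tame (fun _ => univ) (fun _ _ => 1) (fun i => L i ^ 148) 0 (P' j) :=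
    fun j => ((tσ' j 0).mul1 (tσ' j 1)).mul1 (tσ' j 2)
  have σ0 : ∀ j l i z, 0 ≤ σ j l i z := fun _ _ _ _ => Real.smoothTransition.nonneg _
  have σ1 : ∀ j l i z, σ j l i z ≤ 1 := fun _ _ _ _ => Real.smoothTransition.le_one _
  have P0 : ∀ j i z, 0 ≤ P j i z := fun j i z =>
    mul_nonneg (mul_nonneg (σ0 _ _ _ _) (σ0 _ _ _ _)) (σ0 _ _ _ _)
  have P1 : ∀ j i z, P j i z ≤ 1 := fun j i z =>
    mul_le_one₀ (mul_le_one₀ (σ1 _ _ _ _) (σ0 _ _ _ _) (σ1 _ _ _ _)) (σ0 _ _ _ _) (σ1 _ _ _ _)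
  set T : ι → P2 → ℝ := fun i z => ∑ j, P j i z ^ (2 * N)
  have tT : Tame (fun _ => univ) (fun _ _ => 1) (fun i => L i ^ 148) 0 T :=
    Tame.sum h148 _ fun j _ => by simpa using (tP j).pow (2 * N)
  have T0 : ∀ i z, 0 ≤ T i z := fun i z => Finset.sum_nonneg fun j _ => pow_nonneg (P0 _ _ _) _
  have T3 : ∀ i z, T i z ≤ 3 := fun i z => by
    refine (Finset.sum_le_sum fun j _ => pow_le_one₀ (P0 j i z) (P1 j i z)).trans ?_
    simp
  set T' : ι → P2 → ℝ := fun i z => T i z + 1 - Real.smoothTransition (2 * T i z - 1)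
  have tT' : Tame (fun _ => univ) (fun _ _ => 1) (fun i => L i ^ 148) 0 T' := by
    have h1 := (tT.const_mul 2).sub (Tame.const_one h148 (1 : ℝ))
    exact (tT.add (Tame.const_one h148 (1 : ℝ))).sub (Tame.outer (S := univ)
      (fun _ _ => Real.smoothTransition.contDiff.contDiffAt)
      (fun m => (bdd_smoothTransition m).imp fun _ h y _ => h y) h1.smooth
      (fun _ _ _ => mem_univ _) h1.fderiv)
  have T'0 : ∀ i z, 1 / 2 ≤ T' i z := fun i z => st_ge_half (T0 i z)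
  have T'4 : ∀ i z, T' i z ≤ 4 := fun i z => by
    have := Real.smoothTransition.nonneg (2 * T i z - 1); have := T3 i z; simp only [T']; linarith
  have h2 : ∀ i, L i ^ 2 ≤ L i ^ 148 := fun i => pow_le_pow_right₀ (hL i) (by norm_num)
  have σσ : ∀ j l i z, σ j l i z ≠ 0 → σ' j l i z = 1 := fun j l i z h => by
    have : 0 < x0⁻¹ * X j l i z - 1 := by
      by_contra h'
      exact h (Real.smoothTransition.zero_of_nonpos (not_lt.1 h'))
    exact Real.smoothTransition.one_of_one_le (by linarith)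
  refine ⟨fun j i z => 2 * (bt z * P' j i z), fun j i z => b z * P j i z,
    fun j l i z => (S z)⁻¹ * ((T' i z)⁻¹ * lag j l (h11 i z) (h12 i z) (h22 i z)),
    fun j => ((((Tame.fixed_supp (k := 0) h148 sbt cbt).mul1 (tP' j)).const_mul 2).mono_k
      (by norm_num)),
    fun j => (((Tame.fixed_supp (k := 0) h148 sb cb).mul1 (tP j)).mono_k (by norm_num)),
    fun j l => ?_, fun j i z h => ?_, fun j i z => mul_nonneg (mb z).1 (P0 _ _ _),
    fun j i z => mul_le_one₀ (mb z).2 (P0 _ _ _) (P1 _ _ _), fun j i z h => by simp [b0 z h],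
    fun j i z h => ?_, fun i z hz a1 a2 a3 j l => ?_, fun i z j l h g0 g8 => ?_,
    fun i z hz g6 ⟨j0, hj⟩ u => ?_⟩
  · refine ((Tame.fixed_compact (k := 0) h148 hK (F := fun z => (S z)⁻¹) (fun z hz =>
      (hS z hz).1.inv (by linarith [(hS z hz).2.1])) fun _ => Subset.rfl).mul1
      (((tT'.inv_const (c := 1 / 2) (by norm_num) fun i z _ => T'0 i z).mul1
        (tame_lag (t11.mono_scale h2) (t12.mono_scale h2) (t22.mono_scale h2) j l)).mono_set
        fun _ => subset_univ _)).mono_k (by norm_num)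
  · by_contra hz
    simp [bt0 z hz] at h
  · by_contra hne
    have hb : b z ≠ 0 := left_ne_zero_of_mul hne
    have hP : P j i z ≠ 0 := right_ne_zero_of_mul hne
    have e0 := σσ j 0 i z (left_ne_zero_of_mul (left_ne_zero_of_mul hP))
    have e1 := σσ j 1 i z (right_ne_zero_of_mul (left_ne_zero_of_mul hP))
    have e2 := σσ j 2 i z (right_ne_zero_of_mul hP)
    simp only [P', e0, e1, e2, b1 z hb] at h
    norm_num at h
  · have l0 := lag_pos j l a1 a2 a3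
    obtain ⟨-, s1, sn⟩ := hS z hz
    have := T'0 i z
    calc 1 / (400 * n) = n⁻¹ * (4⁻¹ * (1 / 100)) := by
          have : n ≠ 0 := by linarith
          field_simp; norm_num
      _ ≤ (S z)⁻¹ * ((T' i z)⁻¹ * lag j l (h11 i z) (h12 i z) (h22 i z)) := by
          gcongr
          exact T'4 i z
  · have hP : P' j i z ≠ 0 := fun h0 => by simp [h0] at h
    have hσ : σ' j l i z ≠ 0 := by
      fin_cases l
      · exact left_ne_zero_of_mul (left_ne_zero_of_mul hP)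
      · exact right_ne_zero_of_mul (left_ne_zero_of_mul hP)
      · exact right_ne_zero_of_mul hP
    have h3 : 0 < 4 * x0⁻¹ * X j l i z - 2 := by
      by_contra h'
      exact hσ (Real.smoothTransition.zero_of_nonpos (not_lt.1 h'))
    have h4 : x0 / 2 < X j l i z := by
      have : 4 * x0⁻¹ * X j l i z = 4 * X j l i z / x0 := by field_simp
      rw [this, sub_pos, lt_div_iff₀ x0p] at h3
      linarith
    refine tr_of_gram3 g0 ?_
    have Lp : 0 < L i := by have := hL i; positivity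
    rw [div_pow, div_mul_eq_mul_div, div_le_iff₀ (by positivity)]
    simp only [hX] at h4
    nlinarith [sq_nonneg c]
  · have Lp : 0 < L i := by have := hL i; positivity
    have hσ : ∀ l, σ j0 l i z = 1 := fun l => by
      have := gram3_of_tr (by positivity) (hj l) (by linarith)
      refine Real.smoothTransition.one_of_one_le ?_
      have h5 : 2 * x0 ≤ X j0 l i z := by
        simp only [hX]
        have e : (c * (1 / (2 * L i))) ^ 2 = c ^ 2 / 4 / L i ^ 2 := by field_simp; norm_num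
        rw [e, div_mul_eq_mul_div, div_le_iff₀ (by positivity)] at this
        nlinarith [sq_nonneg c]
      have : 2 ≤ x0⁻¹ * X j0 l i z := by rw [le_inv_mul_iff₀ x0p]; linarith
      linarith
    have hT : 1 ≤ T i z := by
      have := Finset.single_le_sum (f := fun j => P j i z ^ (2 * N))
        (fun j _ => pow_nonneg (P0 j i z) _) (Finset.mem_univ j0)
      simpa [P, hσ] using this
    have hT' : T' i z = T i z := by
      simp only [T']; rw [Real.smoothTransition.one_of_one_le (by linarith)]; ring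
    have e : ∀ j, ∑ l, (b z * P j i z) ^ (2 * N) *
        ((S z)⁻¹ * ((T' i z)⁻¹ * lag j l (h11 i z) (h12 i z) (h22 i z))) *
          (u.1 + slope j l * u.2) ^ 2 = P j i z ^ (2 * N) * ((T i z)⁻¹ * (b z ^ (2 * N) / S z *
          (h11 i z * u.1 ^ 2 + 2 * h12 i z * u.1 * u.2 + h22 i z * u.2 ^ 2))) := fun j => by
      rw [← lag_sum j, hT', Finset.mul_sum, Finset.mul_sum, Finset.mul_sum]
      refine Finset.sum_congr rfl fun l _ => ?_
      rw [mul_pow]; ring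
    simp only [e]
    rw [← Finset.sum_mul, ← mul_assoc, mul_inv_cancel₀ (by change T i z ≠ 0; linarith), one_mul]

end Vale.Agent.Iso4
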