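import Vale.Agent.Iso4.Core
import Vale.Agent.Iso4.Loop
import Vale.Agent.Iso4.GS

/-! Data of a step in a chart, and the common part of the two kinds of steps. -/

open scoped ContDiff Topology
open Set Filter

noncomputable section
namespace Vale.Agent.Iso4
universe u

/-- Data of a step: the squared amplitude is `s ^ 2 * ϱ ^ (2 * N) * Pi`. -/
structure SData (ι : Type*) where
  (L s : ι → ℝ)
  (F : ι → P2 → V)
  (ϖ ϱ Pi : ι → P2 → ℝ)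
  (R κ : ℝ)

namespace SData
variable {ι : Type*} (D : SData ι)

/-- the domain -/
def Ω (i : ι) : Set P2 := {p | 0 < D.ϖ i p}

/-- squared amplitude -/
def amp2 (N : ℕ) (i : ι) (p : P2) : ℝ := D.s i ^ 2 * D.ϱ i p ^ (2 * N) * D.Pi i p

/-- hypotheses for all indices -/
structure OK : Prop where
  L1 : ∀ i, 1 ≤ D.L i
  κ0 : 0 < D.κ
  s0 : ∀ i, 0 < D.s i
  s1 : ∀ i, D.s i ≤ 1
  tϖ : PT (fun _ => univ) D.L 1 D.ϖ
  tF : PT D.Ω D.L 1 D.F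
  tϱ : PT D.Ω D.L 1 D.ϱ
  tPi : PT D.Ω D.L 1 D.Pi
  bdd : ∀ i, ∀ p ∈ D.Ω i, ‖p‖ < D.R
  ϱ0 : ∀ i, ∀ p ∈ D.Ω i, 0 ≤ D.ϱ i p
  ϱ1 : ∀ i, ∀ p ∈ D.Ω i, D.ϱ i p ≤ 1
  van : ∀ i p, D.ϖ i p ≤ 1 → D.ϱ i p = 0

/-- lower bounds at one index -/
structure Good (i : ι) : Prop where
  pos : ∀ p ∈ D.Ω i, D.κ / D.L i ≤ D.Pi i p
  imm : ∀ p ∈ D.Ω i, Imm (D.κ / D.L i) (fderiv ℝ (D.F i) p)

/-- frames adapted to the base map -/
structure Frame (q : ℕ) (c κ' : ℝ) (e0 n1 n2 f1 f2 : ι → P2 → V) (r0 : ι → P2 → ℝ) : Prop where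
  κ0 : 0 < κ'
  te0 : PT D.Ω D.L q e0
  tn1 : PT D.Ω D.L q n1
  tn2 : PT D.Ω D.L q n2
  tf1 : PT D.Ω D.L q f1
  tf2 : PT D.Ω D.L q f2
  tr0 : PT D.Ω D.L q r0
  low : ∀ i, ∀ p ∈ D.Ω i, κ' / D.L i ^ q ≤ r0 i p
  e00 : ∀ i, ∀ p ∈ D.Ω i, inner ℝ (e0 i p) (e0 i p) = (1 : ℝ)
  e11 : ∀ i, ∀ p ∈ D.Ω i, inner ℝ (n1 i p) (n1 i p) = (1 : ℝ)
  e22 : ∀ i, ∀ p ∈ D.Ω i, inner ℝ (n2 i p) (n2 i p) = 1 - c
  e01 : ∀ i, ∀ p ∈ D.Ω i, inner ℝ (e0 i p) (n1 i p) = (0 : ℝ)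
  e02 : ∀ i, ∀ p ∈ D.Ω i, inner ℝ (e0 i p) (n2 i p) = (0 : ℝ)
  e12 : ∀ i, ∀ p ∈ D.Ω i, inner ℝ (n1 i p) (n2 i p) = (0 : ℝ)
  x0 : ∀ i, ∀ p ∈ D.Ω i, inner ℝ (dx (D.F i) p) (e0 i p) = r0 i p
  x1 : ∀ i, ∀ p ∈ D.Ω i, inner ℝ (dx (D.F i) p) (n1 i p) = (0 : ℝ)
  x2 : ∀ i, ∀ p ∈ D.Ω i, inner ℝ (dx (D.F i) p) (n2 i p) = (0 : ℝ)
  y0 : ∀ i, ∀ p ∈ D.Ω i, inner ℝ (dy (D.F i) p) (e0 i p) = (0 : ℝ)
  y1 : ∀ i, ∀ p ∈ D.Ω i, inner ℝ (dy (D.F i) p) (n1 i p) = (0 : ℝ)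
  y2 : ∀ i, ∀ p ∈ D.Ω i, inner ℝ (dy (D.F i) p) (n2 i p) = (0 : ℝ)
  yf1 : ∀ i, ∀ p ∈ D.Ω i, inner ℝ (dy (D.F i) p) (f1 i p) = (1 : ℝ)
  yf2 : ∀ i, ∀ p ∈ D.Ω i, inner ℝ (dy (D.F i) p) (f2 i p) = (0 : ℝ)
  yy0 : ∀ i, ∀ p ∈ D.Ω i, c * inner ℝ (dy (dy (D.F i)) p) (e0 i p) = 0
  yy1 : ∀ i, ∀ p ∈ D.Ω i, c * inner ℝ (dy (dy (D.F i)) p) (n1 i p) = 0
  yy2 : ∀ i, ∀ p ∈ D.Ω i, c * inner ℝ (dy (dy (D.F i)) p) (n2 i p) = 0
  yyf1 : ∀ i, ∀ p ∈ D.Ω i, c * inner ℝ (dy (dy (D.F i)) p) (f1 i p) = 0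
  yyf2 : ∀ i, ∀ p ∈ D.Ω i, c * inner ℝ (dy (dy (D.F i)) p) (f2 i p) = c

/-- the amplitude with a floor -/
def amp (N : ℕ) (i : ι) (p : P2) : ℝ := D.s i * ((D.ϱ i p ^ N + (D.L i ^ N)⁻¹) * √(D.Pi i p))
/-- the radius of the sphere -/
def rr (N : ℕ) (r0 : ι → P2 → ℝ) (i : ι) (p : P2) : ℝ := √(r0 i p ^ 2 + D.amp N i p ^ 2)
/-- the mean of the loop -/
def kk (N : ℕ) (r0 : ι → P2 → ℝ) (i : ι) (p : P2) : ℝ := r0 i p * (D.rr N r0 i p)⁻¹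
/-- the relative amplitude -/
def al (N : ℕ) (r0 : ι → P2 → ℝ) (i : ι) (p : P2) : ℝ := D.amp N i p * (D.rr N r0 i p)⁻¹

/-- the data of the oscillation -/
def toC (N q K : ℕ) (c : ℝ) (e0 n1 n2 f1 f2 : ι → P2 → V) (r0 : ι → P2 → ℝ)
    (Φ0 Φ1 Φ2 : ℝ × ℝ → ℝ) : CData ι where
  ell i := D.L i ^ q
  lam i := (D.L i ^ q) ^ K
  c := c
  R := D.R
  F := D.F
  e0 := e0
  n1 := n1
  n2 := n2
  f1 := f1
  f2 := f2
  a := D.amp N
  ϖ := D.ϖ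
  r0 := r0
  ir0 i p := (r0 i p)⁻¹
  irr i p := (r0 i p ^ 2 + D.amp N i p ^ 2)⁻¹
  nu i p := (mean (fun x => Φ1 (D.kk N r0 i x.1, x.2) ^ 2 +
    (1 - c) * Φ2 (D.kk N r0 i x.1, x.2) ^ 2) (p, 0))⁻¹
  v0 i z := D.al N r0 i z.1 * Φ0 (D.kk N r0 i z.1, z.2)
  v1 i z := Φ1 (D.kk N r0 i z.1, z.2)
  v2 i z := Φ2 (D.kk N r0 i z.1, z.2)

variable {D}

theorem OK.L0 (h : D.OK) (i : ι) : 0 < D.L i := zero_lt_one.trans_le (h.L1 i)

theorem OK.Pi_pos (h : D.OK) {i : ι} (hg : D.Good i) {p : P2} (hp : p ∈ D.Ω i) : 0 < D.Pi i p :=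
  (div_pos h.κ0 (h.L0 i)).trans_le (hg.pos p hp)

theorem OK.amp_pos (h : D.OK) (N : ℕ) {i : ι} (hg : D.Good i) {p : P2} (hp : p ∈ D.Ω i) :
    0 < D.amp N i p := by
  have := h.s0 i
  have := h.ϱ0 i p hp
  have := h.L0 i
  have := Real.sqrt_pos.2 (h.Pi_pos hg hp)
  unfold amp
  positivity

theorem OK.Pi_le (h : D.OK) : ∃ C : ℝ, 0 ≤ C ∧ ∀ i, ∀ p ∈ D.Ω i,
    D.Pi i p ≤ C * D.L i ∧ √(D.Pi i p) ≤ C * D.L i := by
  obtain ⟨C, hC, hb⟩ := h.tPi.norm_le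
  refine ⟨C + 1, by positivity, fun i p hp => ?_⟩
  have h1 : D.Pi i p ≤ C * D.L i := (le_abs_self _).trans (by simpa using hb i p hp)
  have h2 := h.L1 i
  refine ⟨by nlinarith, Real.sqrt_le_iff.2 ⟨by positivity, ?_⟩⟩
  have h3 : 1 ≤ (C + 1) * D.L i := by nlinarith
  nlinarith

theorem OK.amp_le (h : D.OK) : ∃ C : ℝ, 0 ≤ C ∧ ∀ N i, ∀ p ∈ D.Ω i,
    D.amp N i p ≤ C * (D.s i * D.L i) := by
  obtain ⟨C, hC, hb⟩ := h.Pi_le
  refine ⟨2 * C, by positivity, fun N i p hp => ?_⟩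
  have h1 : D.ϱ i p ^ N ≤ 1 := pow_le_one₀ (h.ϱ0 i p hp) (h.ϱ1 i p hp)
  have h2 : (D.L i ^ N)⁻¹ ≤ 1 := inv_le_one_of_one_le₀ (one_le_pow₀ (h.L1 i))
  have h3 : (D.ϱ i p ^ N + (D.L i ^ N)⁻¹) * √(D.Pi i p) ≤ 2 * (C * D.L i) :=
    mul_le_mul (by linarith) (hb i p hp).2 (Real.sqrt_nonneg _) (by norm_num)
  have := mul_le_mul_of_nonneg_left h3 (h.s0 i).le
  unfold amp
  linarith

theorem OK.amp_tame (h : D.OK) (hg : ∀ i, D.Good i) (N : ℕ) :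
    Tame D.Ω (D.amp N) (fun i => D.L i ^ 3) 0 (D.amp N) := by
  have t1 : Tame D.Ω (fun _ _ => 1) (fun i => D.L i ^ 2) 0 D.ϱ :=
    Tame.of_fderiv h.tϱ.smooth ⟨1, zero_le_one, fun i z hz => by
      simpa [abs_of_nonneg (h.ϱ0 i z hz)] using h.ϱ1 i z hz⟩ (h.tϱ.fderiv h.L1)
  have t2 := (t1.floor h.ϱ0 h.L1 N).mono_scale (μ' := fun i => D.L i ^ 3) fun i => le_of_eq (by ring)
  have t3 := (h.tPi.rel h.L1 h.κ0 fun i z hz => by simpa using (hg i).pos z hz).sqrt_rel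
    fun i z hz => h.Pi_pos (hg i) hz
  exact (t2.mul t3).smul_index (c := D.s) (t := D.s) fun i => (abs_of_pos (h.s0 i)).le

theorem OK.amp_PT (h : D.OK) (hg : ∀ i, D.Good i) (N : ℕ) : PT D.Ω D.L 4 (D.amp N) := by
  obtain ⟨C, hC, hb⟩ := h.amp_le
  refine PT.of_size (q := 1) (h.amp_tame hg N) h.L1 hC fun i z hz => (hb N i z hz).trans ?_
  rw [pow_one]
  exact mul_le_mul_of_nonneg_left (mul_le_of_le_one_left (h.L0 i).le (h.s1 i)) hC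

section Fr
variable {q : ℕ} {c κ' : ℝ} {e0 n1 n2 f1 f2 : ι → P2 → V} {r0 : ι → P2 → ℝ}
  {Φ0 Φ1 Φ2 : ℝ × ℝ → ℝ}

theorem Frame.r0_pos (hf : D.Frame q c κ' e0 n1 n2 f1 f2 r0) (h : D.OK) {i : ι} {p : P2}
    (hp : p ∈ D.Ω i) : 0 < r0 i p :=
  (div_pos hf.κ0 (pow_pos (h.L0 i) q)).trans_le (hf.low i p hp)

theorem Frame.rr_pos (hf : D.Frame q c κ' e0 n1 n2 f1 f2 r0) (h : D.OK) (N : ℕ) {i : ι} {p : P2}
    (hp : p ∈ D.Ω i) : 0 < D.rr N r0 i p := by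
  have := hf.r0_pos h hp
  exact Real.sqrt_pos.2 (by positivity)

theorem Frame.sq_add (hf : D.Frame q c κ' e0 n1 n2 f1 f2 r0) (h : D.OK) (N : ℕ) {i : ι} {p : P2}
    (hp : p ∈ D.Ω i) : D.kk N r0 i p ^ 2 + D.al N r0 i p ^ 2 = 1 := by
  have h1 := (hf.rr_pos h N hp).ne'
  have h2 : D.rr N r0 i p ^ 2 = r0 i p ^ 2 + D.amp N i p ^ 2 := Real.sq_sqrt (by positivity)
  unfold kk al
  field_simp
  exact h2.symm

theorem Frame.kk_mem (hf : D.Frame q c κ' e0 n1 n2 f1 f2 r0) (h : D.OK) (N : ℕ) {i : ι} {p : P2}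
    (hp : p ∈ D.Ω i) : D.kk N r0 i p ∈ Icc (0 : ℝ) 1 := by
  have h0 : 0 ≤ D.kk N r0 i p :=
    mul_nonneg (hf.r0_pos h hp).le (inv_nonneg.2 (hf.rr_pos h N hp).le)
  have h1 := hf.sq_add h N hp
  exact ⟨h0, by nlinarith [sq_nonneg (D.al N r0 i p)]⟩

theorem Frame.sum_PT (hf : D.Frame q c κ' e0 n1 n2 f1 f2 r0) (h : D.OK) (hg : ∀ i, D.Good i)
    (N : ℕ) : PT D.Ω D.L (2 * q + 8) (fun i p => r0 i p ^ 2 + D.amp N i p ^ 2) ∧
      ∀ i, ∀ p ∈ D.Ω i, κ' ^ 2 / D.L i ^ (2 * q + 8) ≤ r0 i p ^ 2 + D.amp N i p ^ 2 := by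
  refine ⟨?_, fun i p hp => ?_⟩
  · have := ((hf.tr0.mul hf.tr0 h.L1).add ((h.amp_PT hg N).mul (h.amp_PT hg N) h.L1) h.L1).mono
      (q := 2 * q + 8) h.L1 (by omega)
    simpa only [sq] using this
  · have h0 := h.L0 i
    have h1 : κ' ^ 2 / D.L i ^ (2 * q + 8) ≤ (κ' / D.L i ^ q) ^ 2 := by
      rw [div_pow, ← pow_mul]
      exact div_le_div_of_nonneg_left (sq_nonneg _) (by positivity)
        (pow_le_pow_right₀ (h.L1 i) (by omega))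
    have h2 := pow_le_pow_left₀ (div_pos hf.κ0 (pow_pos h0 q)).le (hf.low i p hp) 2
    nlinarith [sq_nonneg (D.amp N i p)]

theorem Frame.irr_PT (hf : D.Frame q c κ' e0 n1 n2 f1 f2 r0) (h : D.OK) (hg : ∀ i, D.Good i)
    (N : ℕ) : PT D.Ω D.L (3 * (3 * (2 * q + 8))) fun i p => (D.rr N r0 i p)⁻¹ := by
  obtain ⟨h1, h2⟩ := hf.sum_PT h hg N
  refine (h1.sqrt h.L1 (pow_pos hf.κ0 2) h2).inv h.L1 hf.κ0 fun i p hp => ?_
  have h0 := h.L0 i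
  refine le_trans ?_ ((hf.low i p hp).trans (Real.le_sqrt_of_sq_le (by
    nlinarith [sq_nonneg (D.amp N i p)])))
  exact div_le_div_of_nonneg_left hf.κ0.le (by positivity) (pow_le_pow_right₀ (h.L1 i) (by omega))

theorem Frame.osc (hf : D.Frame q c κ' e0 n1 n2 f1 f2 r0) (h : D.OK) (hg : ∀ i, D.Good i)
    (N : ℕ) {Φ : ℝ × ℝ → ℝ} (hΦ : Osc Φ) :
    Tame (fun i => tube (D.Ω i)) (fun _ _ => 1) (fun i => D.L i ^ (38 * q + 152)) 0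
      fun i z => Φ (D.kk N r0 i z.1, z.2) := by
  have t1 : PT D.Ω D.L (19 * q + 76) (D.kk N r0) :=
    (hf.tr0.mul (hf.irr_PT h hg N) h.L1).mono h.L1 (by omega)
  have t2 : PT (fun i => tube (D.Ω i)) D.L (19 * q + 76)
      fun i z => ContinuousLinearMap.inl ℝ ℝ ℝ (D.kk N r0 i z.1) :=
    (Tame.up t1).clm (ContinuousLinearMap.inl ℝ ℝ ℝ)
  set T : P3 →L[ℝ] ℝ × ℝ := (ContinuousLinearMap.inr ℝ ℝ ℝ).comp (ContinuousLinearMap.snd ℝ P2 ℝ)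
  have e : ∀ i, (fun z : P3 => (D.kk N r0 i z.1, z.2)) =
      fun z => ContinuousLinearMap.inl ℝ ℝ ℝ (D.kk N r0 i z.1) + T z := fun i => funext fun z => by
    ext <;> simp [T]
  refine Tame.outer (f := fun i (z : P3) => (D.kk N r0 i z.1, z.2)) hΦ.sm hΦ.bd
    (fun i z hz => e i ▸ (t2.smooth i z hz).add T.contDiff.contDiffAt)
    (fun i z hz => ⟨hf.kk_mem h N hz, mem_univ _⟩) ?_
  have t3 : PT (fun i => tube (D.Ω i)) D.L (38 * q + 152) _ :=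
    (t2.fderiv h.L1).mono h.L1 (by omega)
  refine (Tame.add t3 (Tame.const_one t3.one_le T)).congr fun i z hz => ?_
  filter_upwards [tame_ev (t2.smooth i z hz)] with x hx
  rw [e]
  exact (hx.hasFDerivAt.add T.hasFDerivAt).fderiv.symm

theorem sd_per {Φ : ℝ × ℝ → ℝ} (hΦ : Osc Φ) (k : P2 → ℝ) : Per fun z : P3 => Φ (k z.1, z.2) :=
  fun z => by simpa [et, Prod.mk_zero_zero] using hΦ.per (k z.1) z.2

theorem sd_mean {g : ℝ × ℝ → ℝ} (hg : ∀ k t, g (k, t + 2 * Real.pi) = g (k, t)) (k : P2 → ℝ)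
    (z : P3) : mean (fun z : P3 => g (k z.1, z.2)) z =
      (2 * Real.pi)⁻¹ * ∫ t in (0 : ℝ)..2 * Real.pi, g (k z.1, t) := by
  have hp : Per fun z : P3 => g (k z.1, z.2) := fun z => by simpa [et, Prod.mk_zero_zero] using hg (k z.1) z.2
  have := mean_phase hp z.1 z.2 0
  rw [show ((z.1, z.2) : P3) = z from rfl] at this
  rw [this]
  simp [mean, et, Prod.mk_zero_zero]

theorem Frame.toC_ok (hf : D.Frame q c κ' e0 n1 n2 f1 f2 r0) (h : D.OK) (hg : ∀ i, D.Good i)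
    (hl : Loop Φ0 Φ1 Φ2) (hc : c = 0 ∨ (c = 1 ∧ Φ2 = fun _ => 0)) (N K : ℕ) :
    (D.toC N (38 * q + 152) K c e0 n1 n2 f1 f2 r0 Φ0 Φ1 Φ2).OK := by
  have hc2 : ∀ y, (1 - c) * Φ2 y ^ 2 = Φ2 y ^ 2 := fun y => by
    rcases hc with hc | ⟨_, hc⟩ <;> simp [hc]
  obtain ⟨c0, hc0, hlow⟩ := hl.low
  have o0 := hf.osc h hg N hl.o0
  have o1 := hf.osc h hg N hl.o1
  have o2 := hf.osc h hg N hl.o2
  have hm : ∀ i (z : P3), mean (fun x : P3 => Φ1 (D.kk N r0 i x.1, x.2) ^ 2 +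
      (1 - c) * Φ2 (D.kk N r0 i x.1, x.2) ^ 2) z = (2 * Real.pi)⁻¹ *
      ∫ t in (0 : ℝ)..2 * Real.pi, (Φ1 (D.kk N r0 i z.1, t) ^ 2 + Φ2 (D.kk N r0 i z.1, t) ^ 2) :=
    fun i z => by
      simp only [hc2]
      exact sd_mean (g := fun y => Φ1 y ^ 2 + Φ2 y ^ 2)
        (fun k t => by simp only [hl.o1.per, hl.o2.per]) _ z
  have hπ : 0 < (2 * Real.pi)⁻¹ := by positivity
  have hm0 : ∀ i (z : P3), z.1 ∈ D.Ω i → (2 * Real.pi)⁻¹ * c0 ≤ mean (fun x : P3 =>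
      Φ1 (D.kk N r0 i x.1, x.2) ^ 2 + (1 - c) * Φ2 (D.kk N r0 i x.1, x.2) ^ 2) z := fun i z hz => by
    rw [hm]
    exact mul_le_mul_of_nonneg_left (hlow _ (hf.kk_mem h N hz)) hπ.le
  have tal : PT D.Ω D.L (38 * q + 152) (D.al N r0) :=
    ((h.amp_PT hg N).mul (hf.irr_PT h hg N) h.L1).mono h.L1 (by omega)
  obtain ⟨s1, s2⟩ := hf.sum_PT h hg N
  exact
  { c01 := hc.imp id And.left
    tϖ := h.tϖ.mono h.L1 (by omega)
    bdd := fun i p hp => (norm_snd_le p).trans_lt (h.bdd i p hp)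
    tF := h.tF.mono h.L1 (by omega)
    te0 := hf.te0.mono h.L1 (by omega)
    tn1 := hf.tn1.mono h.L1 (by omega)
    tn2 := hf.tn2.mono h.L1 (by omega)
    tf1 := hf.tf1.mono h.L1 (by omega)
    tf2 := hf.tf2.mono h.L1 (by omega)
    tr0 := hf.tr0.mono h.L1 (by omega)
    tir0 := (hf.tr0.inv h.L1 hf.κ0 hf.low).mono h.L1 (by omega)
    tirr := (s1.inv h.L1 (pow_pos hf.κ0 2) s2).mono h.L1 (by omega)
    tnu := ((Tame.down (a := fun _ _ => 1) (Tame.mean (a := fun _ _ => 1)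
      (((o1.pow 2).add ((o2.pow 2).const_mul (1 - c)))))).inv_const (mul_pos hπ hc0)
        fun i p hp => hm0 i (p, 0) hp).mono_k zero_le_one
    ta := (h.amp_tame hg N).mono_scale fun i => pow_le_pow_right₀ (h.L1 i) (by omega)
    ta1 := (h.amp_PT hg N).mono h.L1 (by omega)
    apos := fun i p hp => h.amp_pos N (hg i) hp
    tv0 := (Tame.up tal).mul1 o0
    tv1 := o1.mono_k zero_le_one
    tv2 := o2.mono_k zero_le_one
    pv0 := fun i => Per.map₂ (fun a b => a * b) (Per.up (D.al N r0 i)) (sd_per hl.o0 _)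
    pv1 := fun i => sd_per hl.o1 _
    pv2 := fun i => sd_per hl.o2 _
    mv0 := fun i z hz => (mean_mul (D.al N r0 i)).trans (by
      rw [sd_mean hl.o0.per, hl.o0.mean _ (hf.kk_mem h N hz), mul_zero, mul_zero])
    mv1 := fun i z hz => (sd_mean hl.o1.per _ z).trans (by
      rw [hl.o1.mean _ (hf.kk_mem h N hz), mul_zero])
    mv2 := fun i z hz => (sd_mean hl.o2.per _ z).trans (by
      rw [hl.o2.mean _ (hf.kk_mem h N hz), mul_zero])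
    e00 := hf.e00
    e11 := hf.e11
    e22 := hf.e22
    e01 := hf.e01
    e02 := hf.e02
    e12 := hf.e12
    x0 := hf.x0
    x1 := hf.x1
    x2 := hf.x2
    y0 := hf.y0
    y1 := hf.y1
    y2 := hf.y2
    yf1 := hf.yf1
    yf2 := hf.yf2
    yy0 := hf.yy0
    yy1 := hf.yy1
    yy2 := hf.yy2
    yyf1 := hf.yyf1
    yyf2 := hf.yyf2
    hir0 := fun i p hp => inv_mul_cancel₀ (hf.r0_pos h hp).ne'
    hirr := fun i p hp => inv_mul_cancel₀ (by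
      have := hf.r0_pos h hp
      change r0 i p ^ 2 + D.amp N i p ^ 2 ≠ 0
      positivity)
    sphere := fun i z hz => by
      have h1 := hl.sphere _ (hf.kk_mem h N hz) z.2
      have h2 := hf.sq_add h N hz
      have h3 : r0 i z.1 * D.al N r0 i z.1 = D.amp N i z.1 * D.kk N r0 i z.1 := by
        unfold al kk; ring
      change 2 * r0 i z.1 * (D.al N r0 i z.1 * Φ0 (D.kk N r0 i z.1, z.2)) + D.amp N i z.1 *
        ((D.al N r0 i z.1 * Φ0 (D.kk N r0 i z.1, z.2)) ^ 2 + Φ1 (D.kk N r0 i z.1, z.2) ^ 2 +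
          (1 - c) * Φ2 (D.kk N r0 i z.1, z.2) ^ 2) = D.amp N i z.1
      rw [hc2]
      linear_combination D.amp N i z.1 * h1 + 2 * Φ0 (D.kk N r0 i z.1, z.2) * h3 +
        D.amp N i z.1 * Φ0 (D.kk N r0 i z.1, z.2) ^ 2 * h2
    hnu := fun i z hz => by
      have h1 := (mul_pos hπ hc0).trans_le (hm0 i z hz)
      change (mean (fun x : P3 => Φ1 (D.kk N r0 i x.1, x.2) ^ 2 +
        (1 - c) * Φ2 (D.kk N r0 i x.1, x.2) ^ 2) (z.1, 0))⁻¹ * mean (fun x : P3 =>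
        Φ1 (D.kk N r0 i x.1, x.2) ^ 2 + (1 - c) * Φ2 (D.kk N r0 i x.1, x.2) ^ 2) z = 1
      rw [hm i (z.1, 0), ← hm i z]
      exact inv_mul_cancel₀ h1.ne' }

theorem Frame.dt_vel (hf : D.Frame q c κ' e0 n1 n2 f1 f2 r0) (h : D.OK) (hl : Loop Φ0 Φ1 Φ2)
    {N q' K : ℕ} (hO : (D.toC N q' K c e0 n1 n2 f1 f2 r0 Φ0 Φ1 Φ2).OK) {i : ι} {p : P2}
    (hp : p ∈ D.Ω i) (θ : ℝ) :
    dd et ((D.toC N q' K c e0 n1 n2 f1 f2 r0 Φ0 Φ1 Φ2).vel i) (p, θ) = D.amp N i p •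
      ((D.al N r0 i p * dph Φ0 (D.kk N r0 i p) θ) • e0 i p + dph Φ1 (D.kk N r0 i p) θ • n1 i p +
        dph Φ2 (D.kk N r0 i p) θ • n2 i p) := by
  have hz : ((p, θ) : P3) ∈ (D.toC N q' K c e0 n1 n2 f1 f2 r0 Φ0 Φ1 Φ2).Ω3 0 i := hp
  have up : ∀ {X : Type} [NormedAddCommGroup X] [NormedSpace ℝ X] {F : P2 → X},
      DifferentiableAt ℝ F p → DifferentiableAt ℝ (fun x : P3 => F x.1) (p, θ) :=
    fun hF => hF.comp ((p, θ) : P3) differentiableAt_fst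
  have hd : DifferentiableAt ℝ ((D.toC N q' K c e0 n1 n2 f1 f2 r0 Φ0 Φ1 Φ2).vel i) (p, θ) :=
    (up (hO.ta.differentiableAt hp)).smul
      ((((hO.tv0.differentiableAt hz).smul (up (hO.te0.differentiableAt hp))).add
      ((hO.tv1.differentiableAt hz).smul (up (hO.tn1.differentiableAt hp)))).add
      ((hO.tv2.differentiableAt hz).smul (up (hO.tn2.differentiableAt hp))))
  have hl0 : HasDerivAt (fun t : ℝ => ((p, t) : P3)) et θ :=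
    (hasDerivAt_const θ p).prodMk (hasDerivAt_id θ)
  have h1 := hd.hasFDerivAt.comp_hasDerivAt θ hl0
  have hk := hf.kk_mem h N hp
  have hΦ : ∀ {Φ : ℝ × ℝ → ℝ}, Osc Φ →
      HasDerivAt (fun τ => Φ (D.kk N r0 i p, τ)) (dph Φ (D.kk N r0 i p) θ) θ := fun hΦ =>
    DifferentiableAt.hasDerivAt (DifferentiableAt.comp (f := fun τ : ℝ => (D.kk N r0 i p, τ)) θ
      ((hΦ.sm _ ⟨hk, mem_univ _⟩).differentiableAt (by simp)) (by fun_prop))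
  have h2 := (((((hΦ hl.o0).const_mul (D.al N r0 i p)).smul_const (e0 i p)).add
    ((hΦ hl.o1).smul_const (n1 i p))).add ((hΦ hl.o2).smul_const (n2 i p))).const_smul
    (D.amp N i p)
  exact h1.unique h2

end Fr

end SData

theorem sd_small {X Y x y : V} {A B l δ ε c : ℝ} (hA : 0 ≤ A) (hB : 0 ≤ B) (hX : ‖X‖ ≤ A * l)
    (hY : ‖Y‖ ≤ A * l) (hx : ‖x‖ ≤ B * δ) (hy : ‖y‖ ≤ B * δ) (hδ0 : 0 ≤ δ) (hδ : δ ≤ 1)
    (hl : 1 ≤ l) (hε : l * δ ≤ ε) (hc : |c| ≤ 1) :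
    |2 * inner ℝ X x + inner ℝ x x| ≤ (2 * A * B + B ^ 2) * ε ∧
    |inner ℝ X y + inner ℝ Y x + inner ℝ x y| ≤ (2 * A * B + B ^ 2) * ε ∧
    |c * (2 * inner ℝ Y y + inner ℝ y y)| ≤ (2 * A * B + B ^ 2) * ε := by
  have k1 : ∀ {Z z : V}, ‖Z‖ ≤ A * l → ‖z‖ ≤ B * δ → |inner ℝ Z z| ≤ A * B * ε := fun hZ hz =>
    (abs_real_inner_le_norm _ _).trans ((mul_le_mul hZ hz (norm_nonneg _) (by positivity)).trans
      ((le_of_eq (by ring)).trans (mul_le_mul_of_nonneg_left hε (mul_nonneg hA hB))))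
  have h1 : δ * δ ≤ ε := le_trans (mul_le_mul_of_nonneg_right (hδ.trans hl) hδ0) hε
  have k2 : ∀ {Z z : V}, ‖Z‖ ≤ B * δ → ‖z‖ ≤ B * δ → |inner ℝ Z z| ≤ B ^ 2 * ε := fun hZ hz =>
    (abs_real_inner_le_norm _ _).trans ((mul_le_mul hZ hz (norm_nonneg _) (by positivity)).trans
      ((le_of_eq (by ring)).trans (mul_le_mul_of_nonneg_left h1 (sq_nonneg B))))
  have k3 : ∀ {Z z : V}, ‖Z‖ ≤ A * l → ‖z‖ ≤ B * δ →
      |2 * inner ℝ Z z + inner ℝ z z| ≤ (2 * A * B + B ^ 2) * ε := fun hZ hz => by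
    have a1 := abs_le.1 (k1 hZ hz)
    have a2 := abs_le.1 (k2 hz hz)
    exact abs_le.2 ⟨by linarith [a1.1, a2.1], by linarith [a1.2, a2.2]⟩
  refine ⟨k3 hX hx, ?_, ?_⟩
  · have a1 := abs_le.1 (k1 hX hy)
    have a2 := abs_le.1 (k1 hY hx)
    have a3 := abs_le.1 (k2 hx hy)
    exact abs_le.2 ⟨by linarith [a1.1, a2.1, a3.1], by linarith [a1.2, a2.2, a3.2]⟩
  · rw [abs_mul]
    exact (mul_le_of_le_one_left (abs_nonneg _) hc).trans (k3 hY hy)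

theorem SData.OK.amp_sq {ι : Type*} {D : SData ι} (h : D.OK) (hg : ∀ i, D.Good i) :
    ∃ C : ℝ, 0 ≤ C ∧ ∀ N i, ∀ p ∈ D.Ω i,
      |D.amp N i p ^ 2 - D.amp2 N i p| ≤ C * (D.L i / D.L i ^ N) := by
  obtain ⟨C, hC, hb⟩ := h.Pi_le
  refine ⟨3 * C, by positivity, fun N i p hp => ?_⟩
  have hP := (h.Pi_pos (hg i) hp).le
  have h0 := pow_nonneg (h.ϱ0 i p hp) N
  have h1 : D.ϱ i p ^ N ≤ 1 := pow_le_one₀ (h.ϱ0 i p hp) (h.ϱ1 i p hp)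
  have h2 : (D.L i ^ N)⁻¹ ≤ 1 := inv_le_one_of_one_le₀ (one_le_pow₀ (h.L1 i))
  have h3 : 0 ≤ (D.L i ^ N)⁻¹ := inv_nonneg.2 (pow_nonneg (h.L0 i).le N)
  have e : D.amp N i p ^ 2 - D.amp2 N i p =
      D.s i ^ 2 * ((2 * D.ϱ i p ^ N + (D.L i ^ N)⁻¹) * (D.Pi i p * (D.L i ^ N)⁻¹)) := by
    unfold SData.amp SData.amp2
    rw [mul_pow, mul_pow, Real.sq_sqrt hP]
    ring
  rw [e, abs_of_nonneg (by positivity)]
  refine (mul_le_of_le_one_left (by positivity) (pow_le_one₀ (h.s0 i).le (h.s1 i))).trans ?_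
  have h4 := mul_le_mul (show 2 * D.ϱ i p ^ N + (D.L i ^ N)⁻¹ ≤ 3 by linarith)
    (mul_le_mul_of_nonneg_right (hb i p hp).1 h3) (by positivity) (by norm_num)
  exact h4.trans_eq (by ring)

/-- the correction and its derivatives up to order two are small where the amplitude is -/
theorem SData.OK.small {ι : Type*} {D : SData ι} (h : D.OK) {N k : ℕ} (hN : N ≠ 0)
    {w : ι → P2 → V} (hw : Tame D.Ω (D.amp N) (fun i => D.L i ^ k) 0 w) :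
    ∃ C : ℝ, 0 ≤ C ∧ ∀ i, ∀ p ∈ D.Ω i, D.ϖ i p ≤ 1 →
      ‖dx (w i) p‖ ≤ C * (D.L i ^ (2 * k + 1) / D.L i ^ N) ∧
      ‖dy (w i) p‖ ≤ C * (D.L i ^ (2 * k + 1) / D.L i ^ N) ∧
      ‖dx (dx (w i)) p‖ ≤ C * (D.L i ^ (2 * k + 1) / D.L i ^ N) ∧
      ‖dy (dy (w i)) p‖ ≤ C * (D.L i ^ (2 * k + 1) / D.L i ^ N) := by
  obtain ⟨C, hC, hb⟩ := h.Pi_le
  have key : ∀ {f : ι → P2 → V}, Tame D.Ω (D.amp N) (fun i => D.L i ^ k) 2 f →
      ∃ C : ℝ, 0 ≤ C ∧ ∀ i, ∀ p ∈ D.Ω i, D.ϖ i p ≤ 1 →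
        ‖f i p‖ ≤ C * (D.L i ^ (2 * k + 1) / D.L i ^ N) := fun hf => by
    obtain ⟨B, hB, hf⟩ := hf.norm_le
    refine ⟨B * C, by positivity, fun i p hp h1 => (hf i p hp).trans ?_⟩
    have L0 := h.L0 i
    have h2 : D.amp N i p ≤ (D.L i ^ N)⁻¹ * (C * D.L i) := by
      unfold SData.amp
      rw [h.van i p h1, zero_pow hN, zero_add]
      exact (mul_le_of_le_one_left (by positivity) (h.s1 i)).trans
        (mul_le_mul_of_nonneg_left (hb i p hp).2 (by positivity))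
    exact (mul_le_mul_of_nonneg_left (mul_le_mul_of_nonneg_right h2 (by positivity)) hB).trans_eq
      (by ring)
  obtain ⟨C1, a1, b1⟩ := key ((hw.dd ((1, 0) : P2)).mono_k (by omega))
  obtain ⟨C2, a2, b2⟩ := key ((hw.dd ((0, 1) : P2)).mono_k (by omega))
  obtain ⟨C3, a3, b3⟩ := key ((hw.dd ((1, 0) : P2)).dd ((1, 0) : P2))
  obtain ⟨C4, a4, b4⟩ := key ((hw.dd ((0, 1) : P2)).dd ((0, 1) : P2))
  refine ⟨C1 + C2 + C3 + C4, by positivity, fun i p hp h1 => ?_⟩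
  have L0 := h.L0 i
  have m : ∀ {x : ℝ}, x ≤ C1 + C2 + C3 + C4 → x * (D.L i ^ (2 * k + 1) / D.L i ^ N) ≤
      (C1 + C2 + C3 + C4) * (D.L i ^ (2 * k + 1) / D.L i ^ N) := fun hx =>
    mul_le_mul_of_nonneg_right hx (by positivity)
  exact ⟨(b1 i p hp h1).trans (m (by linarith)), (b2 i p hp h1).trans (m (by linarith)),
    (b3 i p hp h1).trans (m (by linarith)), (b4 i p hp h1).trans (m (by linarith))⟩

/-- The common part of the steps. -/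
theorem step_core (q : ℕ) : ∃ K : ℕ, 20 ≤ K ∧ ∀ N : ℕ, 2 * K ≤ N → ∀ {ι : Type u} (D : SData ι)
    (c κ' : ℝ) (e0 n1 n2 f1 f2 : ι → P2 → V) (r0 : ι → P2 → ℝ) (Φ0 Φ1 Φ2 : ℝ × ℝ → ℝ),
    D.OK → (∀ i, D.Good i) → D.Frame q c κ' e0 n1 n2 f1 f2 r0 → Loop Φ0 Φ1 Φ2 →
    (c = 0 ∨ (c = 1 ∧ Φ2 = fun _ => 0)) →
    ∃ (w : ι → P2 → V) (lam : ι → ℝ),
      Tame (fun _ => univ) (fun i _ => D.s i) (fun i => D.L i ^ K) 1 w ∧
      (∀ i p, D.ϖ i p < 1 / 2 → w i p = 0) ∧ (∀ i, D.L i ^ 10 ≤ lam i) ∧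
      ∃ C : ℝ, 0 ≤ C ∧ ∀ i, ∀ p ∈ D.Ω i,
        |2 * inner ℝ (dx (D.F i) p) (dx (w i) p) + inner ℝ (dx (w i) p) (dx (w i) p) -
          D.amp2 N i p| ≤ C * D.L i ^ K / D.L i ^ N ∧
        |inner ℝ (dx (D.F i) p) (dy (w i) p) + inner ℝ (dy (D.F i) p) (dx (w i) p) +
          inner ℝ (dx (w i) p) (dy (w i) p)| ≤ C * D.L i ^ K / D.L i ^ N ∧
        |c * (2 * inner ℝ (dy (D.F i) p) (dy (w i) p) + inner ℝ (dy (w i) p) (dy (w i) p))| ≤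
          C * D.L i ^ K / D.L i ^ N ∧
        (D.ϖ i p ≤ 1 → ‖dx (w i) p‖ ≤ C / D.L i ^ 20 ∧ ‖dy (w i) p‖ ≤ C / D.L i ^ 20 ∧
          ‖dx (dx (w i)) p‖ ≤ C / D.L i ^ 20 ∧ ‖dy (dy (w i)) p‖ ≤ C / D.L i ^ 20) ∧
        (1 < D.ϖ i p → ∃ a k α θ : ℝ, 0 < a ∧ D.s i * D.ϱ i p ^ N * √(D.Pi i p) ≤ a ∧
          a ≤ C * D.L i ∧ 0 ≤ k ∧ 0 < α ∧ k ^ 2 + α ^ 2 = 1 ∧ a * k = r0 i p * α ∧
          ‖dx (w i) p - a • ((α * Φ0 (k, θ)) • e0 i p + Φ1 (k, θ) • n1 i p + Φ2 (k, θ) • n2 i p)‖ ≤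
            C * a / D.L i ^ 10 ∧
          ‖dy (w i) p‖ ≤ C * a / D.L i ^ 10 ∧ ‖dy (dy (w i)) p‖ ≤ C * a / D.L i ^ 10 ∧
          ‖dx (dx (w i)) p - (lam i * a) •
            ((α * dph Φ0 k θ) • e0 i p + dph Φ1 k θ • n1 i p + dph Φ2 k θ • n2 i p)‖ ≤
            C * a * lam i / D.L i ^ 10) := by
  obtain ⟨K0, hK0, hcore⟩ := core.{u}
  obtain ⟨k, hk⟩ : ∃ k, k = (38 * q + 152) * K0 * 2 := ⟨_, rfl⟩
  refine ⟨2 * k + 21, by omega, fun N hN ι D c κ' e0 n1 n2 f1 f2 r0 Φ0 Φ1 Φ2 h hg hf hl hc => ?_⟩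
  have hO := hf.toC_ok h hg hl hc N K0
  obtain ⟨w, Θ, -, w0, wt, C, hC⟩ := hcore N _ hO fun _ => rfl
  have wt' : Tame D.Ω (D.amp N) (fun i => D.L i ^ k) 0 w :=
    wt.mono_scale fun i => le_of_eq (by rw [hk, pow_mul, pow_mul]; rfl)
  obtain ⟨Ca, hCa, ha⟩ := h.amp_le
  obtain ⟨Cs, hCs, hs⟩ := h.amp_sq hg
  obtain ⟨Cw, hCw, hw⟩ := h.small (by omega) wt'
  obtain ⟨Cx, hCx, hx⟩ := (h.tF.dd h.L1 ((1, 0) : P2)).norm_le
  obtain ⟨Cy, hCy, hy⟩ := (h.tF.dd h.L1 ((0, 1) : P2)).norm_le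
  have hc1 : |c| ≤ 1 := by rcases hc with hc | ⟨hc, -⟩ <;> simp [hc]
  refine ⟨w, fun i => (D.L i ^ (38 * q + 152)) ^ K0, ?_, w0, fun i => ?_,
    |C| + Cs + Ca + Cw + (2 * (Cx + Cy) * Cw + Cw ^ 2), by positivity, fun i p hp => ?_⟩
  · refine Tame.of_vanish (Ω := D.Ω) (s := fun i _ => D.s i) ?_ (fun i z hz => ?_)
      (fun i _ => (h.s0 i).le) fun _ _ _ => le_rfl
    · refine (wt'.weakenC hCa (ha N)).absorb (fun i => pow_le_pow_right₀ (h.L1 i) (by omega))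
        (fun i z _ => ?_) fun i _ _ => (h.s0 i).le
      rw [pow_zero, mul_one, pow_one]
      exact mul_le_mul_of_nonneg_left (le_self_pow₀ (h.L1 i) (by omega)) (h.s0 i).le
    · have h1 : D.ϖ i z < 1 / 2 := lt_of_le_of_lt (not_lt.1 hz) (by norm_num)
      filter_upwards [(h.tϖ.contDiff i).continuous.continuousAt.eventually (gt_mem_nhds h1)]
        with y hy using w0 i y hy
  · exact (pow_le_pow_right₀ (h.L1 i) (by nlinarith)).trans_eq (pow_mul _ _ _)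
  have L1 := h.L1 i
  have L0 := h.L0 i
  have hCC := le_abs_self C
  have hC0 := abs_nonneg C
  set C' := |C| + Cs + Ca + Cw + (2 * (Cx + Cy) * Cw + Cw ^ 2) with hC'
  have hq : 0 ≤ 2 * (Cx + Cy) * Cw + Cw ^ 2 := by positivity
  set ε := D.L i ^ (2 * k + 21) / D.L i ^ N with hε
  have ε0 : 0 ≤ ε := by positivity
  have m : ∀ {x : ℝ}, x ≤ C' → x * ε ≤ C' * D.L i ^ (2 * k + 21) / D.L i ^ N := fun hx =>
    (mul_le_mul_of_nonneg_right hx ε0).trans_eq (by rw [hε, mul_div_assoc])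
  rcases le_or_gt (D.ϖ i p) 1 with h1 | h1
  · obtain ⟨b1, b2, b3, b4⟩ := hw i p hp h1
    have d1 : D.L i ^ (2 * k + 1) / D.L i ^ N ≤ (D.L i ^ 20)⁻¹ := by
      rw [div_le_iff₀ (by positivity), le_inv_mul_iff₀ (by positivity), ← pow_add]
      exact pow_le_pow_right₀ L1 (by omega)
    have d2 : D.L i ^ (2 * 1) * (D.L i ^ (2 * k + 1) / D.L i ^ N) ≤ ε := by
      rw [← mul_div_assoc, ← pow_add]
      exact div_le_div_of_nonneg_right (pow_le_pow_right₀ L1 (by omega)) (by positivity)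
    obtain ⟨c1, c2, c3⟩ := sd_small (A := Cx + Cy) (by positivity) hCw
      ((hx i p hp).trans (mul_le_mul_of_nonneg_right (by linarith) (by positivity)))
      ((hy i p hp).trans (mul_le_mul_of_nonneg_right (by linarith) (by positivity))) b1 b2
      (by positivity) (d1.trans (inv_le_one_of_one_le₀ (one_le_pow₀ L1))) (one_le_pow₀ L1) d2 hc1
    have e : D.amp2 N i p = 0 := by
      rw [SData.amp2, h.van i p h1, zero_pow (by omega), mul_zero, zero_mul]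
    have m2 : Cw * (D.L i ^ (2 * k + 1) / D.L i ^ N) ≤ C' / D.L i ^ 20 :=
      (mul_le_mul (by linarith) d1 (by positivity) (by positivity)).trans_eq (div_eq_mul_inv _ _).symm
    exact ⟨by rw [e, sub_zero]; exact c1.trans (m (by linarith)), c2.trans (m (by linarith)),
      c3.trans (m (by linarith)), fun _ => ⟨b1.trans m2, b2.trans m2, b3.trans m2, b4.trans m2⟩,
      fun h2 => absurd h1 h2.not_ge⟩
  · obtain ⟨b1, b2, b3, b4, b5, b6, b7⟩ := hC i p h1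
    have d1 : C / (D.L i ^ (38 * q + 152)) ^ N ≤ |C| * ε := by
      rw [hε, ← mul_div_assoc]
      exact div_le_div₀ (by positivity) (hCC.trans (le_mul_of_one_le_right hC0 (one_le_pow₀ L1)))
        (by positivity) (pow_le_pow_left₀ L0.le (le_self_pow₀ L1 (by omega)) N)
    have d2 : Cs * (D.L i / D.L i ^ N) ≤ Cs * ε := mul_le_mul_of_nonneg_left
      (div_le_div_of_nonneg_right (le_self_pow₀ L1 (by omega)) (by positivity)) hCs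
    have a0 := h.amp_pos N (hg i) hp
    have d3 : ∀ {x : ℝ}, 0 ≤ x → C * x / (D.L i ^ (38 * q + 152)) ^ 5 ≤ C' * x / D.L i ^ 10 :=
      fun hx => div_le_div₀ (by positivity) (mul_le_mul_of_nonneg_right (by linarith) hx)
        (by positivity) (by rw [← pow_mul]; exact pow_le_pow_right₀ L1 (by omega))
    refine ⟨?_, (b2.trans d1).trans (m (by linarith)), (b3.trans d1).trans (m (by linarith)),
      fun h2 => absurd h2 h1.not_ge, fun _ => ⟨D.amp N i p, D.kk N r0 i p, D.al N r0 i p, Θ i p, a0,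
        ?_, ?_, (hf.kk_mem h N hp).1, mul_pos a0 (inv_pos.2 (hf.rr_pos h N hp)), hf.sq_add h N hp,
        by unfold SData.kk SData.al; ring, b4.trans (d3 a0.le), b5.trans (d3 a0.le),
        b6.trans (d3 a0.le), ?_⟩⟩
    · refine (abs_sub_le _ (D.amp N i p ^ 2) _).trans ((add_le_add (b1.trans d1)
        ((hs N i p hp).trans d2)).trans ?_)
      rw [← add_mul]
      exact m (by linarith)
    · rw [mul_assoc]
      exact mul_le_mul_of_nonneg_left (mul_le_mul_of_nonneg_right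
        (le_add_of_nonneg_right (by positivity)) (Real.sqrt_nonneg _)) (h.s0 i).le
    · exact (ha N i p hp).trans (mul_le_mul (by linarith) (mul_le_of_le_one_left L0.le (h.s1 i))
        (mul_pos (h.s0 i) L0).le (by positivity))
    · rw [hf.dt_vel h hl hO hp, smul_smul, mul_assoc] at b7
      rw [mul_assoc C']
      exact b7.trans (d3 (mul_nonneg a0.le (pow_nonneg (pow_nonneg L0.le _) _)))

end Vale.Agent.Iso4
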