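import Vale.Agent.Iso4.StepFA

/-! Final steps: the whole metric is prescribed, `F_yy` stays transversal. -/

open scoped ContDiff Topology
open Set Filter

noncomputable section
namespace Vale.Agent.Iso4
universe u

theorem sf_third {T : P2 →L[ℝ] V} {x : V} {κ L C : ℝ} (hκ : 0 < κ) (hL : 1 ≤ L) (hC : 0 ≤ C)
    (hI : Imm (κ / L) T) (hT : Tr (κ / L) x T) (hx : ‖x‖ ≤ C * L ^ 4) (t t' : ℝ) :
    κ ^ 2 / (κ + C) / L ^ 6 ≤ ‖T (1, 0) - t • T (0, 1) - t' • x‖ := by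
  have hL0 : 0 < L := one_pos.trans_le hL
  set n := ‖T (1, 0) - t • T (0, 1) - t' • x‖ with hn
  have hn0 : 0 ≤ n := norm_nonneg _
  have h1 : |t'| * (κ / L) ≤ n := by
    rcases eq_or_ne t' 0 with h | h
    · rw [h, abs_zero, zero_mul]
      exact hn0
    · have e : T (1, 0) - t • T (0, 1) - t' • x = (-t') • (x - T (t'⁻¹, -t * t'⁻¹)) := by
        rw [sf_apply T (t'⁻¹, -t * t'⁻¹)]
        match_scalars <;> field_simp
      rw [hn, e, norm_smul, norm_neg]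
      exact mul_le_mul_of_nonneg_left (hT _) (abs_nonneg _)
  have h2 : κ / L ≤ n + |t'| * (C * L ^ 4) := by
    have a1 : (1 : ℝ) ≤ ‖((1, -t) : P2)‖ := by simp
    have a2 := hI (1, -t)
    have a3 : T (1, -t) = (T (1, 0) - t • T (0, 1) - t' • x) + t' • x := by
      rw [sf_apply T (1, -t)]
      module
    have a4 : ‖t' • x‖ ≤ |t'| * (C * L ^ 4) := by
      rw [norm_smul]
      exact mul_le_mul_of_nonneg_left hx (abs_nonneg _)
    have a5 := norm_add_le (T (1, 0) - t • T (0, 1) - t' • x) (t' • x)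
    have a6 : κ / L * 1 ≤ κ / L * ‖((1, -t) : P2)‖ := by gcongr
    rw [← a3] at a5
    linarith
  rw [div_div, div_le_iff₀ (by positivity)]
  rw [← mul_div_assoc, div_le_iff₀ hL0] at h1
  rw [div_le_iff₀ hL0] at h2
  have h3 : L ≤ L ^ 6 := le_self_pow₀ hL (by norm_num)
  have h4 : κ * κ ≤ κ * ((n + |t'| * (C * L ^ 4)) * L) := mul_le_mul_of_nonneg_left h2 hκ.le
  have h5 : |t'| * κ * (C * L ^ 5) ≤ n * L * (C * L ^ 5) :=
    mul_le_mul_of_nonneg_right h1 (by positivity)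
  have h6 : n * κ * L ≤ n * κ * L ^ 6 := mul_le_mul_of_nonneg_left h3 (by positivity)
  nlinarith

theorem sf_low {c L r : ℝ} {p q : ℕ} (hc : 0 < c) (hL : 1 ≤ L) (hpq : p ≤ q)
    (h : c / L ^ p ≤ r) : c / L ^ q ≤ r := (sf_pow hpq hL hc.le).trans h

theorem frameF : ∃ q : ℕ, ∀ {ι : Type u} (D : SData ι), D.OK → (∀ i, D.Good i) →
    (∀ i, ∀ p ∈ D.Ω i, Tr (D.κ / D.L i) (dy (dy (D.F i)) p) (fderiv ℝ (D.F i) p)) →
    ∃ (κ' : ℝ) (e0 n1 f1 f2 : ι → P2 → V) (r0 : ι → P2 → ℝ),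
      D.Frame q 1 κ' e0 n1 (fun _ _ => 0) f1 f2 r0 := by
  obtain ⟨q, hq, hg⟩ := gram.{u} 6
  refine ⟨12 * q, fun {ι} D hD hG hT => ?_⟩
  have hL := hD.L1
  have hκ := hD.κ0
  have tx : PT D.Ω D.L 2 fun i => dx (D.F i) := hD.tF.dd hL _
  have ty : PT D.Ω D.L 2 fun i => dy (D.F i) := hD.tF.dd hL _
  have tyy : PT D.Ω D.L 4 fun i => dy (dy (D.F i)) := ty.dd hL _
  obtain ⟨C, hC, hb⟩ := tyy.norm_le
  have hc : 0 < D.κ ^ 2 / (D.κ + C) := by positivity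
  have hc' : ∀ i, D.κ ^ 2 / (D.κ + C) / D.L i ^ 6 ≤ D.κ / D.L i := fun i => by
    refine (sf_pow1 (by norm_num) (hL i) hc.le).trans ?_
    have := hL i
    gcongr
    rw [div_le_iff₀ (by positivity)]
    nlinarith
  obtain ⟨e1, e2, e3, e4, r1, r2, r3, s21, s31, s32, t1, t2, t3, t4, u1, u2, u3, u4, h⟩ :=
    hg hL hc (ty.mono hL (by norm_num)) (tyy.mono hL (by norm_num)) (tx.mono hL (by norm_num))
      (fun i z hz => (hc' i).trans (le_trans (by simp) ((hG i).imm z hz (0, 1))))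
      (fun i z hz t => (hc' i).trans ((hT i z hz (0, t)).trans_eq (by
        rw [sf_apply _ (0, t), zero_smul, zero_add]
        rfl)))
      (fun i z hz t t' => sf_third hκ (hL i) hC ((hG i).imm z hz) (hT i z hz) (hb i z hz) t t')
  have i1 := u1.inv hL hc fun i z hz => sf_low hc (hL i) hq (h i z hz).2.1
  have i2 := u2.inv hL hc fun i z hz => sf_low hc (hL i) hq (h i z hz).2.2.1
  have p1 : ∀ i, ∀ z ∈ D.Ω i, r1 i z ≠ 0 := fun i z hz =>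
    ((div_pos hc (pow_pos (one_pos.trans_le (hL i)) _)).trans_le (h i z hz).2.1).ne'
  have p2 : ∀ i, ∀ z ∈ D.Ω i, r2 i z ≠ 0 := fun i z hz =>
    ((div_pos hc (pow_pos (one_pos.trans_le (hL i)) _)).trans_le (h i z hz).2.2.1).ne'
  refine ⟨_, e3, e4, fun i z => (r1 i z)⁻¹ • e1 i z - (s21 i z * ((r1 i z)⁻¹ * (r2 i z)⁻¹)) • e2 i z,
    fun i z => (r2 i z)⁻¹ • e2 i z, r3, hc, t3.mono hL (by omega), t4.mono hL (by omega),
    PT.const hL 0, ((i1.smul t1 hL).sub ((u4.mul (i1.mul i2 hL) hL).smul t2 hL) hL).mono hL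
      (by omega), (i2.smul t2 hL).mono hL (by omega), u3.mono hL (by omega),
    fun i z hz => sf_low hc (hL i) (by omega) (h i z hz).2.2.2.1, ?_, ?_, ?_, ?_, ?_, ?_, ?_, ?_,
    ?_, ?_, ?_, ?_, ?_, ?_, ?_, ?_, ?_, ?_, ?_⟩ <;> intro i z hz <;>
    obtain ⟨o, -, -, -, b1, b2, b3⟩ := h i z hz <;> have q1 := p1 i z hz <;>
    have q2 := p2 i z hz <;> have o21 := real_inner_comm (e1 i z) (e2 i z) <;>
    rw [o.h12] at o21 <;>
    simp only [b1, b2, b3, inner_add_left, inner_sub_right, real_inner_smul_left,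
      real_inner_smul_right, inner_zero_right, o.h11, o.h22, o.h33, o.h44, o.h12, o.h13, o.h14,
      o.h23, o.h24, o.h34, o21] <;> field_simp <;> ring

theorem stepF : ∃ K : ℕ, 20 ≤ K ∧ ∀ N : ℕ, 2 * K ≤ N → ∀ {ι : Type u} (D : SData ι), D.OK →
    (∀ i, D.Good i) →
    (∀ i, ∀ p ∈ D.Ω i, Tr (D.κ / D.L i) (dy (dy (D.F i)) p) (fderiv ℝ (D.F i) p)) →
    ∃ w : ι → P2 → V, Tame (fun _ => univ) (fun i _ => D.s i) (fun i => D.L i ^ K) 1 w ∧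
      (∀ i p, D.ϖ i p < 1 / 2 → w i p = 0) ∧ ∃ C Λ : ℝ, ∀ i, Λ ≤ D.L i → ∀ p ∈ D.Ω i,
        (∀ u : P2, |‖(fderiv ℝ (D.F i) p + fderiv ℝ (w i) p) u‖ ^ 2 - ‖fderiv ℝ (D.F i) p u‖ ^ 2 -
          D.amp2 N i p * u.1 ^ 2| ≤ C * D.L i ^ K / D.L i ^ N * ‖u‖ ^ 2) ∧
        Imm (D.κ / (2 * D.L i)) (fderiv ℝ (D.F i) p + fderiv ℝ (w i) p) ∧
        Tr (D.κ / (2 * D.L i)) (dy (dy (D.F i)) p + dy (dy (w i)) p)
          (fderiv ℝ (D.F i) p + fderiv ℝ (w i) p) := by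
  obtain ⟨q, hq⟩ := frameF.{u}
  obtain ⟨K, hK, hc⟩ := step_core.{u} q
  refine ⟨K, hK, fun N hN ι D hD hG hT => ?_⟩
  obtain ⟨κ', e0, n1, f1, f2, r0, hF⟩ := hq D hD hG hT
  obtain ⟨Φ0, Φ1, hΦ⟩ := exists_loopF
  obtain ⟨w, lam, tw, vw, -, C, hC, h⟩ :=
    hc N hN D 1 κ' e0 n1 _ f1 f2 r0 Φ0 Φ1 _ hD hG hF hΦ (Or.inr ⟨rfl, rfl⟩)
  have hL := hD.L1
  have tyy : PT D.Ω D.L 4 fun i => dy (dy (D.F i)) := (hD.tF.dd hL _).dd hL _
  obtain ⟨B, hB, hb⟩ := tyy.norm_le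
  have hA : 0 ≤ 2 * (C + C ^ 2) + B := by positivity
  obtain ⟨Λ1, k1⟩ := sf_finI hD.κ0 hA
  obtain ⟨Λ2, k2⟩ := sf_finT hD.κ0 hA
  refine ⟨w, tw, vw, 4 * C, max Λ1 Λ2, fun i hi p hp => ?_⟩
  obtain ⟨m1, m2, m3, m4, m5⟩ := h i p hp
  have hL0 : 0 < D.L i := one_pos.trans_le (hL i)
  have hI := (hG i).imm p hp
  have key : ∃ T0 : P2 →L[ℝ] V, Imm (D.κ / D.L i) T0 ∧ Tr (D.κ / D.L i) (dy (dy (D.F i)) p) T0 ∧
      (∀ u, ‖(fderiv ℝ (D.F i) p + fderiv ℝ (w i) p) u - T0 u‖ ≤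
        2 * ((C + C ^ 2) / D.L i ^ 8) * ‖u‖) ∧ ‖dy (dy (w i)) p‖ ≤ (C + C ^ 2) / D.L i ^ 8 := by
    rcases le_or_gt (D.ϖ i p) 1 with h1 | h1
    · obtain ⟨a1, a2, -, a4⟩ := m4 h1
      have e : C / D.L i ^ 20 ≤ (C + C ^ 2) / D.L i ^ 8 :=
        (sf_pow (m := 8) (by norm_num) (hL i) hC).trans (by gcongr; nlinarith)
      refine ⟨_, hI, hT i p hp, fun u => ?_, a4.trans e⟩
      rw [add_apply, add_sub_cancel_left, two_mul]
      exact sf_norm (a1.trans e) (a2.trans e) u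
    · obtain ⟨a, k, α, θ, ha, -, haL, hk, hα, hkα, hak, a1, a2, a3, -⟩ := m5 h1
      have e : C * a / D.L i ^ 10 ≤ (C + C ^ 2) / D.L i ^ 8 :=
        calc _ ≤ C * (C * D.L i) / D.L i ^ 10 := by gcongr
          _ = C ^ 2 / D.L i ^ 9 := by field_simp
          _ ≤ C ^ 2 / D.L i ^ 8 := sf_pow (by norm_num) (hL i) (by positivity)
          _ ≤ _ := by gcongr; linarith
      have hv := sf_vel (hF.e00 i p hp) (hF.e11 i p hp) (φ2 := 0) (by simp) (hF.e01 i p hp)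
        (hF.e02 i p hp) (hF.e12 i p hp) (hF.x0 i p hp) (hF.x1 i p hp) (hF.x2 i p hp) hkα hak
        (hΦ.sphere k ⟨hk, by nlinarith⟩ θ)
      have hy := sf_orth (hF.y0 i p hp) (hF.y1 i p hp) (hF.y2 i p hp) a (α * Φ0 (k, θ))
        (Φ1 (k, θ)) 0
      have hyy := sf_orth ((one_mul _).symm.trans (hF.yy0 i p hp))
        ((one_mul _).symm.trans (hF.yy1 i p hp)) ((one_mul _).symm.trans (hF.yy2 i p hp)) a
        (α * Φ0 (k, θ)) (Φ1 (k, θ)) 0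
      exact ⟨_, sf_imm hI (sfShear_le (inner_zero_left _) hy hv),
        fun u => (hT i p hp u).trans (sfShear_le hyy hy hv u),
        sfShear_pert (a1.trans e) (a2.trans e), a3.trans e⟩
  obtain ⟨T0, b1, b2, b3, b4⟩ := key
  have e : 2 * ((C + C ^ 2) / D.L i ^ 8) ≤ (2 * (C + C ^ 2) + B) / D.L i ^ 8 := by
    rw [← mul_div_assoc]
    gcongr
    linarith
  have b5 := fun u => (b3 u).trans (mul_le_mul_of_nonneg_right e (norm_nonneg u))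
  refine ⟨fun u => ?_, k1 _ ((le_max_left _ _).trans hi) (hL i) _ _ b1 b5,
    k2 _ ((le_max_right _ _).trans hi) (hL i) _ _ _ _ b1 b2 b5 (b4.trans (le_trans ?_ e))
      ((hb i p hp).trans ?_)⟩
  · have := sf_metric (T := fderiv ℝ (D.F i) p) (S := fderiv ℝ (w i) p) (E := 0) m1 m2
      (by rw [one_mul] at m3; rw [sub_zero]; exact m3) u
    rw [zero_mul, sub_zero] at this
    refine this.trans_eq ?_
    ring
  · have : 0 ≤ (C + C ^ 2) / D.L i ^ 8 := by positivity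
    linarith
  · gcongr
    nlinarith

end Vale.Agent.Iso4
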