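import Vale.Agent.Iso4.StepDef

/-! Pointwise linear algebra and numerical lemmas shared by the two kinds of steps. -/

open scoped ContDiff Topology
open Set Filter

noncomputable section
namespace Vale.Agent.Iso4

theorem sf_apply (T : P2 →L[ℝ] V) (u : P2) : T u = u.1 • T (1, 0) + u.2 • T (0, 1) := by
  rw [← map_smul, ← map_smul, ← map_add]
  simp

theorem sf_norm {T : P2 →L[ℝ] V} {a b : ℝ} (h1 : ‖T (1, 0)‖ ≤ a) (h2 : ‖T (0, 1)‖ ≤ b) (u : P2) :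
    ‖T u‖ ≤ (a + b) * ‖u‖ := by
  rw [sf_apply T u]
  refine (norm_add_le _ _).trans ?_
  rw [norm_smul, norm_smul]
  have h3 := mul_le_mul (norm_fst_le u) h1 (norm_nonneg _) (norm_nonneg _)
  have h4 := mul_le_mul (norm_snd_le u) h2 (norm_nonneg _) (norm_nonneg _)
  linarith

theorem sf_metric {T S : P2 →L[ℝ] V} {A E ε : ℝ}
    (h1 : |2 * inner ℝ (T (1, 0)) (S (1, 0)) + inner ℝ (S (1, 0)) (S (1, 0)) - A| ≤ ε)
    (h2 : |inner ℝ (T (1, 0)) (S (0, 1)) + inner ℝ (T (0, 1)) (S (1, 0)) +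
      inner ℝ (S (1, 0)) (S (0, 1))| ≤ ε)
    (h3 : |2 * inner ℝ (T (0, 1)) (S (0, 1)) + inner ℝ (S (0, 1)) (S (0, 1)) - E| ≤ ε) (u : P2) :
    |‖(T + S) u‖ ^ 2 - ‖T u‖ ^ 2 - A * u.1 ^ 2 - E * u.2 ^ 2| ≤ 4 * ε * ‖u‖ ^ 2 := by
  have hε : 0 ≤ ε := (abs_nonneg _).trans h1
  have e : ‖(T + S) u‖ ^ 2 - ‖T u‖ ^ 2 - A * u.1 ^ 2 - E * u.2 ^ 2 =
      (2 * inner ℝ (T (1, 0)) (S (1, 0)) + inner ℝ (S (1, 0)) (S (1, 0)) - A) * (u.1 * u.1) +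
      2 * ((inner ℝ (T (1, 0)) (S (0, 1)) + inner ℝ (T (0, 1)) (S (1, 0)) +
        inner ℝ (S (1, 0)) (S (0, 1))) * (u.1 * u.2)) +
      (2 * inner ℝ (T (0, 1)) (S (0, 1)) + inner ℝ (S (0, 1)) (S (0, 1)) - E) * (u.2 * u.2) := by
    rw [add_apply, ← real_inner_self_eq_norm_sq, ← real_inner_self_eq_norm_sq, sf_apply T u,
      sf_apply S u]
    simp only [inner_add_left, inner_add_right, real_inner_smul_left, real_inner_smul_right]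
    rw [real_inner_comm (T (1, 0)) (S (1, 0)), real_inner_comm (T (1, 0)) (S (0, 1)),
      real_inner_comm (T (0, 1)) (S (1, 0)), real_inner_comm (T (0, 1)) (S (0, 1)),
      real_inner_comm (S (1, 0)) (S (0, 1))]
    ring
  have a1 : |u.1| ≤ ‖u‖ := norm_fst_le u
  have a2 : |u.2| ≤ ‖u‖ := norm_snd_le u
  have key : ∀ x s t : ℝ, |x| ≤ ε → |s| ≤ ‖u‖ → |t| ≤ ‖u‖ → |x * (s * t)| ≤ ε * ‖u‖ ^ 2 := by
    intro x s t hx hs ht
    rw [abs_mul, abs_mul, sq]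
    exact mul_le_mul hx (mul_le_mul hs ht (abs_nonneg _) (norm_nonneg _)) (by positivity) hε
  have b1 := abs_le.1 (key _ _ _ h1 a1 a1)
  have b2 := abs_le.1 (key _ _ _ h2 a1 a2)
  have b3 := abs_le.1 (key _ _ _ h3 a2 a2)
  rw [e, abs_le]
  constructor <;> linarith [b1.1, b1.2, b2.1, b2.2, b3.1, b3.2]

/-- the model differential -/
def sfShear (T : P2 →L[ℝ] V) (v : V) : P2 →L[ℝ] V :=
  T + (ContinuousLinearMap.fst ℝ ℝ ℝ).smulRight v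

theorem sfShear_apply (T : P2 →L[ℝ] V) (v : V) (u : P2) : sfShear T v u = T u + u.1 • v := rfl

theorem sfShear_le {T : P2 →L[ℝ] V} {v x : V} (hx : inner ℝ x v = (0 : ℝ))
    (hy : inner ℝ (T (0, 1)) v = (0 : ℝ)) (h : 0 ≤ 2 * inner ℝ (T (1, 0)) v + inner ℝ v v)
    (u : P2) : ‖x - T u‖ ≤ ‖x - sfShear T v u‖ := by
  have e : ‖x - sfShear T v u‖ ^ 2 =
      ‖x - T u‖ ^ 2 + u.1 ^ 2 * (2 * inner ℝ (T (1, 0)) v + inner ℝ v v) := by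
    rw [sfShear_apply, ← sub_sub, norm_sub_sq_real, ← real_inner_self_eq_norm_sq (u.1 • v),
      inner_sub_left, sf_apply T u]
    simp only [inner_add_left, real_inner_smul_left, real_inner_smul_right, hx, hy]
    ring
  refine abs_le_of_sq_le_sq' ?_ (norm_nonneg _) |>.2
  rw [e]
  have := mul_nonneg (sq_nonneg u.1) h
  linarith

theorem sfShear_pert {T S : P2 →L[ℝ] V} {v : V} {ε : ℝ} (h1 : ‖S (1, 0) - v‖ ≤ ε)
    (h2 : ‖S (0, 1)‖ ≤ ε) (u : P2) : ‖(T + S) u - sfShear T v u‖ ≤ 2 * ε * ‖u‖ := by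
  have := sf_norm (T := T + S - sfShear T v) (a := ε) (b := ε) (by
    simpa [sfShear_apply] using h1) (by simpa [sfShear_apply] using h2) u
  rwa [← two_mul] at this

theorem sf_vel {X e0 n1 n2 : V} {r0 a k α φ0 φ1 φ2 : ℝ} (e00 : inner ℝ e0 e0 = (1 : ℝ))
    (e11 : inner ℝ n1 n1 = (1 : ℝ)) (e22 : φ2 ^ 2 * inner ℝ n2 n2 = φ2 ^ 2)
    (e01 : inner ℝ e0 n1 = (0 : ℝ)) (e02 : inner ℝ e0 n2 = (0 : ℝ))
    (e12 : inner ℝ n1 n2 = (0 : ℝ)) (x0 : inner ℝ X e0 = r0) (x1 : inner ℝ X n1 = (0 : ℝ))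
    (x2 : inner ℝ X n2 = (0 : ℝ)) (hk : k ^ 2 + α ^ 2 = 1) (hak : a * k = r0 * α)
    (hs : 2 * k * φ0 + (1 - k ^ 2) * φ0 ^ 2 + φ1 ^ 2 + φ2 ^ 2 = 1) :
    0 ≤ 2 * inner ℝ X (a • ((α * φ0) • e0 + φ1 • n1 + φ2 • n2)) +
      inner ℝ (a • ((α * φ0) • e0 + φ1 • n1 + φ2 • n2))
        (a • ((α * φ0) • e0 + φ1 • n1 + φ2 • n2)) := by
  have e10 : inner ℝ n1 e0 = (0 : ℝ) := by rw [real_inner_comm, e01]
  have e20 : inner ℝ n2 e0 = (0 : ℝ) := by rw [real_inner_comm, e02]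
  have e21 : inner ℝ n2 n1 = (0 : ℝ) := by rw [real_inner_comm, e12]
  simp only [inner_add_left, inner_add_right, real_inner_smul_left, real_inner_smul_right,
    e00, e11, e01, e02, e12, e10, e20, e21, x0, x1, x2]
  refine (sq_nonneg a).trans_eq ?_
  linear_combination (-a ^ 2) * hs - a ^ 2 * e22 - a ^ 2 * φ0 ^ 2 * hk + 2 * a * φ0 * hak

theorem sf_orth {x e0 n1 n2 : V} (h0 : inner ℝ x e0 = (0 : ℝ)) (h1 : inner ℝ x n1 = (0 : ℝ))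
    (h2 : inner ℝ x n2 = (0 : ℝ)) (a b0 b1 b2 : ℝ) :
    inner ℝ x (a • (b0 • e0 + b1 • n1 + b2 • n2)) = (0 : ℝ) := by
  simp only [inner_add_right, real_inner_smul_right, h0, h1, h2]
  ring

theorem sf_imm {T T0 : P2 →L[ℝ] V} {κ : ℝ} (h : Imm κ T) (h0 : ∀ u, ‖0 - T u‖ ≤ ‖0 - T0 u‖) :
    Imm κ T0 := fun u => (h u).trans (by simpa using h0 u)

theorem sf_small {A κ L : ℝ} {m : ℕ} (hm : 2 ≤ m) (hL : 1 ≤ L) (hA : 0 ≤ A) (h : A ≤ κ * L) :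
    A / L ^ m ≤ κ / L := by
  have hL0 : 0 < L := one_pos.trans_le hL
  calc A / L ^ m ≤ A / L ^ 2 := div_le_div_of_nonneg_left hA (by positivity) (pow_le_pow_right₀ hL hm)
    _ ≤ κ * L / L ^ 2 := by gcongr
    _ = κ / L := by field_simp

theorem sf_pow {A L : ℝ} {m n : ℕ} (hm : m ≤ n) (hL : 1 ≤ L) (hA : 0 ≤ A) :
    A / L ^ n ≤ A / L ^ m :=
  div_le_div_of_nonneg_left hA (pow_pos (one_pos.trans_le hL) _) (pow_le_pow_right₀ hL hm)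

theorem sf_pow1 {A L : ℝ} {n : ℕ} (hm : 1 ≤ n) (hL : 1 ≤ L) (hA : 0 ≤ A) :
    A / L ^ n ≤ A / L := by
  simpa using sf_pow hm hL hA

theorem sf_finI {κ A : ℝ} (hκ : 0 < κ) (hA : 0 ≤ A) : ∃ Λ : ℝ, ∀ L : ℝ, Λ ≤ L → 1 ≤ L →
    ∀ T0 T' : P2 →L[ℝ] V, Imm (κ / L) T0 → (∀ u, ‖T' u - T0 u‖ ≤ A / L ^ 8 * ‖u‖) →
      Imm (κ / (2 * L)) T' := by
  refine ⟨2 * A / κ, fun L hΛ hL T0 T' hI hη => (hI.pert hη).mono ?_⟩
  have hL0 : 0 < L := one_pos.trans_le hL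
  have h1 : A / L ^ 8 ≤ κ / 2 / L := sf_small (by norm_num) hL hA (by
    rw [div_le_iff₀ hκ] at hΛ; linarith)
  have h2 : κ / (2 * L) = κ / L - κ / 2 / L := by field_simp; ring
  linarith

theorem sf_finT {κ A : ℝ} (hκ : 0 < κ) (hA : 0 ≤ A) : ∃ Λ : ℝ, ∀ L : ℝ, Λ ≤ L → 1 ≤ L →
    ∀ (T0 T' : P2 →L[ℝ] V) (x y : V), Imm (κ / L) T0 → Tr (κ / L) x T0 →
      (∀ u, ‖T' u - T0 u‖ ≤ A / L ^ 8 * ‖u‖) → ‖y‖ ≤ A / L ^ 8 → ‖x‖ ≤ A * L ^ 4 →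
      Tr (κ / (2 * L)) (x + y) T' := by
  refine ⟨4 * A / κ + 32 * A ^ 2 / κ ^ 2, fun L hΛ hL T0 T' x y hI hT hη hy hx => ?_⟩
  have hL0 : 0 < L := one_pos.trans_le hL
  have p1 : 0 ≤ 4 * A / κ := by positivity
  have p2 : 0 ≤ 32 * A ^ 2 / κ ^ 2 := by positivity
  have h1 : A / L ^ 8 ≤ κ / 4 / L := sf_small (by norm_num) hL hA (by
    have : 4 * A / κ ≤ L := by linarith
    rw [div_le_iff₀ hκ] at this; linarith)
  have h2 : 8 * A ^ 2 / κ / L ^ 3 ≤ κ / 4 / L := sf_small (by norm_num) hL (by positivity) (by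
    have : 32 * A ^ 2 / κ ^ 2 ≤ L := by linarith
    rw [div_le_iff₀ (by positivity)] at this
    rw [div_le_iff₀ hκ]
    linarith)
  have h3 : κ / L = 4 * (κ / 4 / L) := by ring
  have h4 : κ / (2 * L) = 2 * (κ / 4 / L) := by field_simp; ring
  have h5 : 0 < κ / 4 / L := by positivity
  refine (hT.pert (x' := x + y) hI (by positivity) (by positivity) hη (by linarith)).mono ?_
  have h6 : ‖x + y‖ ≤ 2 * A * L ^ 4 := by
    have := norm_add_le x y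
    have h7 : A / L ^ 8 ≤ A / L ^ 0 := sf_pow (by norm_num) hL hA
    have h8 : A * 1 ≤ A * L ^ 4 := mul_le_mul_of_nonneg_left (one_le_pow₀ hL) hA
    rw [pow_zero, div_one] at h7
    linarith
  have h9 : 4 * (A / L ^ 8) * ‖x + y‖ / (κ / L) ≤ 8 * A ^ 2 / κ / L ^ 3 :=
    calc _ ≤ 4 * (A / L ^ 8) * (2 * A * L ^ 4) / (κ / L) := by gcongr
      _ = _ := by field_simp; ring
  rw [sub_add_cancel_left, norm_neg]
  linarith

end Vale.Agent.Iso4
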