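import Vale.Agent.Iso4.StepFA

/-! Pointwise estimates for the preliminary steps. -/

open scoped ContDiff Topology
open Set Filter

noncomputable section
namespace Vale.Agent.Iso4

theorem sp_num {κ A c' : ℝ} (hκ : 0 < κ) (hA : 0 ≤ A) (hc' : 0 < c') : ∃ Λ : ℝ, ∀ L : ℝ, Λ ≤ L →
    1 ≤ L → 2 * (A / L ^ 8) ≤ κ / L ∧ ∀ Z W nX X : ℝ, 0 ≤ W → κ * L * W ≤ Z →
      3 / 8 * (κ / L) + Z * (c' - A / L) - 5 * A * W ≤ nX → 0 ≤ X → X ≤ A * L + A * Z + 2 * A * W →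
      κ / (16 * L) ≤ nX / 2 - 4 * (A / L ^ 8) * X / (κ / L) := by
  set M := A + 5 * A / κ + 8 * A / κ * (A + 2 * A / κ) with hM
  have hM0 : 0 ≤ M := by positivity
  refine ⟨2 * A / κ + 32 * A ^ 2 / κ ^ 2 + M / c', fun L hΛ hL => ?_⟩
  have hL0 : 0 < L := one_pos.trans_le hL
  have p1 : 0 ≤ 2 * A / κ := by positivity
  have p2 : 0 ≤ 32 * A ^ 2 / κ ^ 2 := by positivity
  have p3 : 0 ≤ M / c' := by positivity
  have h1 : 2 * A / L ^ 8 ≤ κ / L := sf_small (by norm_num) hL (by positivity) (by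
    have : 2 * A / κ ≤ L := by linarith
    rw [div_le_iff₀ hκ] at this; linarith)
  refine ⟨by rwa [← mul_div_assoc], fun Z W nX X hW hZ hn hX0 hX => ?_⟩
  have hZ0 : 0 ≤ Z := le_trans (by positivity) hZ
  have h2 : 4 * A ^ 2 / κ / L ^ 6 ≤ κ / 8 / L := sf_small (by norm_num) hL (by positivity) (by
    have : 32 * A ^ 2 / κ ^ 2 ≤ L := by linarith
    rw [div_le_iff₀ (by positivity)] at this
    rw [div_le_iff₀ hκ]
    linarith)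
  have h3 : M / L ≤ c' := by
    have : M / c' ≤ L := by linarith
    rw [div_le_iff₀ hc'] at this
    rw [div_le_iff₀ hL0]
    linarith
  have h4 : W ≤ Z / (κ * L) := by rw [le_div_iff₀ (by positivity)]; linarith
  have h5 : W ≤ Z / κ := h4.trans (div_le_div_of_nonneg_left hZ0 hκ (by nlinarith))
  have h6 : 4 * A / κ / L ^ 7 ≤ 4 * A / κ / L := sf_pow1 (by norm_num) hL (by positivity)
  have h7 : 4 * (A / L ^ 8) * X / (κ / L) ≤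
      4 * A ^ 2 / κ / L ^ 6 + 4 * A / κ / L * (A * Z + 2 * A * (Z / κ)) :=
    calc _ = 4 * A / κ / L ^ 7 * X := by field_simp
      _ ≤ 4 * A / κ / L ^ 7 * (A * L + (A * Z + 2 * A * W)) := by gcongr; linarith
      _ = 4 * A ^ 2 / κ / L ^ 6 + 4 * A / κ / L ^ 7 * (A * Z + 2 * A * W) := by field_simp
      _ ≤ _ := by gcongr
  have h8 : 5 * A * W ≤ 5 * A * (Z / (κ * L)) := by gcongr
  have h9 : Z * (M / L) ≤ Z * c' := by gcongr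
  have e1 : Z * (M / L) = Z * (A / L) + 5 * A * (Z / (κ * L)) +
      2 * (4 * A / κ / L * (A * Z + 2 * A * (Z / κ))) := by rw [hM]; field_simp; ring
  have e2 : κ / (16 * L) = κ / L / 16 := by field_simp
  have e3 : κ / 8 / L = κ / L / 8 := by field_simp
  nlinarith

theorem sp_main {κ A c' : ℝ} (hκ : 0 < κ) (hA : 0 ≤ A) (hc' : 0 < c') : ∃ Λ : ℝ, ∀ L : ℝ, Λ ≤ L →
    1 ≤ L → ∀ (T0 T' : P2 →L[ℝ] V) (B W Y Ξ n : V) (a lam c : ℝ), Imm (κ / L) T0 →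
      (∀ u, ‖T' u - T0 u‖ ≤ A / L ^ 8 * ‖u‖) → ‖n‖ ≤ 2 → (∀ u, inner ℝ n (T0 u) = (0 : ℝ)) →
      0 < a → L ^ 10 ≤ lam → κ / L ≤ c → 3 / 8 * (κ / L) - A * (a * L ^ 3) ≤ inner ℝ n B →
      lam * a * (c' - A / L) ≤ inner ℝ n W → ‖W‖ ≤ A * (lam * a) → ‖Y‖ ≤ A * (a * L ^ 3) →
      ‖Ξ‖ ≤ A * (a * L ^ 3) → ‖B‖ ≤ A * L → Tr (κ / (16 * L)) (B + c • W + Y - Ξ) T' := by
  obtain ⟨Λ, h⟩ := sp_num hκ hA hc'
  refine ⟨Λ, fun L hΛ hL T0 T' B W Y Ξ n a lam c hI hη hn hT ha hl hc nB nW bW bY bΞ bB => ?_⟩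
  obtain ⟨h1, h2⟩ := h L hΛ hL
  have hL0 : 0 < L := one_pos.trans_le hL
  have hc0 : 0 < c := lt_of_lt_of_le (by positivity) hc
  refine ((Tr.of_test (x := B + c • W + Y - Ξ) hn hT).pert (x' := B + c • W + Y - Ξ) hI
    (by positivity) (by positivity) hη h1).mono ?_
  rw [sub_self, norm_zero, sub_zero]
  have key : ∀ y : V, ‖y‖ ≤ A * (a * L ^ 3) → |inner ℝ n y| ≤ 2 * (A * (a * L ^ 3)) :=
    fun y hy => (abs_real_inner_le_norm n y).trans (mul_le_mul hn hy (norm_nonneg _) two_pos.le)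
  refine h2 (c * (lam * a)) (a * L ^ 3) _ _ (by positivity) ?_ ?_ (norm_nonneg _) ?_
  · calc κ * L * (a * L ^ 3) = κ / L * (L ^ 5 * a) := by field_simp
      _ ≤ c * (lam * a) := by
        have := (pow_le_pow_right₀ hL (by norm_num : 5 ≤ 10)).trans hl
        gcongr
  · rw [inner_sub_right, inner_add_right, inner_add_right, real_inner_smul_right]
    have a1 := abs_le.1 (key Y bY)
    have a2 := abs_le.1 (key Ξ bΞ)
    have a3 := mul_le_mul_of_nonneg_left nW hc0.le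
    linarith [a1.1, a2.2]
  · have a1 := norm_sub_le (B + c • W + Y) Ξ
    have a2 := norm_add_le (B + c • W) Y
    have a3 := norm_add_le B (c • W)
    have a4 := mul_le_mul_of_nonneg_left bW hc0.le
    rw [norm_smul, Real.norm_of_nonneg hc0.le] at a3
    linarith

theorem sp_osc {Φ : ℝ × ℝ → ℝ} (h : Osc Φ) :
    ∃ C : ℝ, 0 ≤ C ∧ ∀ k ∈ Icc (0 : ℝ) 1, ∀ t, |Φ (k, t)| ≤ C ∧ |dph Φ k t| ≤ C := by
  obtain ⟨C0, h0⟩ := h.bd 0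
  obtain ⟨C1, h1⟩ := h.bd 1
  refine ⟨|C0| + |C1|, by positivity, fun k hk t => ?_⟩
  have hy : (k, t) ∈ strip := ⟨hk, mem_univ _⟩
  have a0 := h0 _ hy
  have a1 := h1 _ hy
  rw [norm_iteratedFDeriv_zero] at a0
  rw [norm_iteratedFDeriv_one] at a1
  have hd : HasDerivAt (fun τ => Φ (k, τ)) (fderiv ℝ Φ (k, t) (0, 1)) t :=
    ((h.sm _ hy).differentiableAt (by simp)).hasFDerivAt.comp_hasDerivAt t
      ((hasDerivAt_const t k).prodMk (hasDerivAt_id t))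
  have a2 := (fderiv ℝ Φ (k, t)).le_opNorm (0, 1)
  have a3 : ‖((0, 1) : ℝ × ℝ)‖ = 1 := by simp
  rw [a3, mul_one] at a2
  rw [dph, hd.deriv]
  have := le_abs_self C0
  have := le_abs_self C1
  have := abs_nonneg C0
  have := abs_nonneg C1
  exact ⟨a0.trans (by linarith), a2.trans (a1.trans (by linarith))⟩

theorem sp_unit {e : V} (h : inner ℝ e e = (1 : ℝ)) : ‖e‖ = 1 := by
  rw [real_inner_self_eq_norm_sq] at h
  exact (pow_eq_one_iff_of_nonneg (norm_nonneg _) two_ne_zero).1 h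

theorem sp_comb {e0 n1 n2 : V} (e00 : inner ℝ e0 e0 = (1 : ℝ)) (e11 : inner ℝ n1 n1 = (1 : ℝ))
    (e22 : inner ℝ n2 n2 = (1 : ℝ)) {a α b0 b1 b2 C : ℝ} (ha : 0 ≤ a) (h : |α| ≤ 1)
    (h0 : |b0| ≤ C) (h1 : |b1| ≤ C) (h2 : |b2| ≤ C) :
    ‖a • ((α * b0) • e0 + b1 • n1 + b2 • n2)‖ ≤ 3 * C * a := by
  rw [norm_smul, Real.norm_of_nonneg ha, mul_comm]
  refine mul_le_mul_of_nonneg_right (norm_add₃_le.trans ?_) ha
  simp only [norm_smul, sp_unit e00, sp_unit e11, sp_unit e22, mul_one, Real.norm_eq_abs, abs_mul]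
  have := mul_le_mul h h0 (abs_nonneg _) zero_le_one
  linarith

theorem sp_le_one {k α : ℝ} (h : k ^ 2 + α ^ 2 = 1) : k ≤ 1 ∧ |α| ≤ 1 :=
  ⟨by nlinarith [sq_nonneg (k - 1)], abs_le_one_iff_mul_self_le_one.2 (by nlinarith)⟩

theorem sp_nB {κ L CE CB A r0 a k α T0 T2 b0 b2 : ℝ} (hκ : 0 < κ) (hL0 : 0 < L) (hCB : 0 ≤ CB)
    (hA : |CE| * CB / κ ≤ A) (hr : κ / L ^ 2 ≤ r0) (ha : 0 < a) (hk : k ≤ 1) (hα : 0 < α)
    (hak : a * k = r0 * α) (t3 : 3 / 8 ≤ T2) (t4 : |T0| ≤ CE * α) (q1 : |b0| ≤ CB * L)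
    (B2 : κ / L ≤ b2) : 3 / 8 * (κ / L) - A * (a * L ^ 3) ≤ T0 * b0 + T2 * b2 := by
  have q2 : α ≤ a * L ^ 2 / κ := by
    rw [div_le_iff₀ (by positivity)] at hr
    rw [le_div_iff₀ hκ]
    have q3 : a * k ≤ a * 1 := mul_le_mul_of_nonneg_left hk ha.le
    have q4 : α * κ ≤ α * (r0 * L ^ 2) := mul_le_mul_of_nonneg_left hr hα.le
    have q5 : a * k * L ^ 2 ≤ a * 1 * L ^ 2 := mul_le_mul_of_nonneg_right q3 (by positivity)
    rw [hak] at q5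
    linarith
  have q3 : |T0 * b0| ≤ A * (a * L ^ 3) :=
    calc _ = |T0| * |b0| := abs_mul _ _
      _ ≤ |CE| * (a * L ^ 2 / κ) * (CB * L) := by
        gcongr
        exact t4.trans (mul_le_mul (le_abs_self _) q2 hα.le (abs_nonneg _))
      _ = |CE| * CB / κ * (a * L ^ 3) := by field_simp
      _ ≤ _ := by gcongr
  have q4 : 3 / 8 * (κ / L) ≤ T2 * b2 := mul_le_mul t3 B2 (by positivity) (by linarith)
  linarith [(abs_le.1 q3).1]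

theorem sp_nW {L C A a lam c' x y : ℝ} (hL : 1 ≤ L) (hC : 0 ≤ C) (hA : 2 * C ≤ A) (ha : 0 < a)
    (hlam : 0 < lam) (t5 : c' ≤ y) (q1 : |x - lam * a * y| ≤ 2 * (C * a * lam / L ^ 10)) :
    lam * a * (c' - A / L) ≤ x := by
  have q2 : 2 * (C * a * lam / L ^ 10) ≤ lam * a * (A / L) :=
    calc _ = lam * a * (2 * C / L ^ 10) := by ring
      _ ≤ lam * a * (2 * C / L) := by
        have := sf_pow1 (A := 2 * C) (n := 10) (by norm_num) hL (by positivity)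
        gcongr
      _ ≤ _ := by gcongr
  have q3 := mul_le_mul_of_nonneg_left t5 (mul_pos hlam ha).le
  linarith [(abs_le.1 q1).1]

theorem sp_Xi {κ L A a x : ℝ} (hκ : 0 < κ) (hL : 1 ≤ L) (hA : 1 / (κ ^ 2 * √κ) ≤ A)
    (hx : x ≤ L / κ) (h : κ / L * √(κ / L) ≤ a) : x ≤ A * (a * L ^ 3) := by
  have hL0 : 0 < L := one_pos.trans_le hL
  have q1 : √κ / L ≤ √(κ / L) := by
    rw [Real.sqrt_div hκ.le]
    gcongr
    rw [Real.sqrt_le_left hL0.le]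
    nlinarith
  have q2 : κ / L * (√κ / L) ≤ a := le_trans (by gcongr) h
  have q3 : 0 < √κ := Real.sqrt_pos.2 hκ
  have q4 : 0 ≤ A := le_trans (by positivity) hA
  calc _ ≤ L / κ := hx
    _ = 1 / (κ ^ 2 * √κ) * (κ / L * (√κ / L) * L ^ 3) := by field_simp
    _ ≤ _ := by gcongr

theorem sp_eta {L C A a : ℝ} (hL : 1 ≤ L) (hC : 0 ≤ C) (hA : 2 * C ^ 2 ≤ A) (haL : a ≤ C * L) :
    2 * (C * a / L ^ 10) ≤ A / L ^ 8 :=
  calc 2 * (C * a / L ^ 10) ≤ 2 * (C * (C * L) / L ^ 10) := by gcongr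
    _ = 2 * C ^ 2 / L ^ 9 := by field_simp
    _ ≤ 2 * C ^ 2 / L ^ 8 := sf_pow (by norm_num) hL (by positivity)
    _ ≤ _ := by gcongr

theorem sp_Y {S : P2 →L[ℝ] V} {v : V} {u0 : P2} {κ L C G A a : ℝ} (hκ : 0 < κ) (hL : 1 ≤ L)
    (hC : 0 ≤ C) (hG : 0 ≤ G) (hA : (3 * G + 2 * C) / κ ≤ A) (ha : 0 < a) (nv : ‖v‖ ≤ 3 * G * a)
    (a1 : ‖S (1, 0) - v‖ ≤ C * a / L ^ 10) (a2 : ‖S (0, 1)‖ ≤ C * a / L ^ 10)
    (hu : ‖u0‖ ≤ L / κ) : ‖S u0‖ ≤ A * (a * L ^ 3) := by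
  have hL3 : L ≤ L ^ 3 := le_self_pow₀ hL (by norm_num)
  have hCa : C * a / L ^ 10 ≤ C * a := div_le_self (by positivity) (one_le_pow₀ hL)
  have q1 := norm_le_norm_sub_add (S (1, 0)) v
  calc _ ≤ (3 * G * a + C * a + C * a) * ‖u0‖ := sf_norm (by linarith) (a2.trans hCa) u0
    _ ≤ (3 * G * a + C * a + C * a) * (L ^ 3 / κ) := by
      have : L / κ ≤ L ^ 3 / κ := by gcongr
      gcongr
      exact hu.trans this
    _ = (3 * G + 2 * C) / κ * (a * L ^ 3) := by ring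
    _ ≤ _ := by gcongr

theorem sp_W {W v : V} {L C G A a lam : ℝ} (hL : 1 ≤ L) (hC : 0 ≤ C) (hA : 3 * G + C ≤ A)
    (ha : 0 < a) (hlam : 0 < lam) (nw : ‖v‖ ≤ 3 * G * (lam * a))
    (a3 : ‖W - v‖ ≤ C * a * lam / L ^ 10) : ‖W‖ ≤ A * (lam * a) := by
  have q1 := norm_le_norm_sub_add W v
  have q2 : C * a * lam / L ^ 10 ≤ C * a * lam := div_le_self (by positivity) (one_le_pow₀ hL)
  have q3 := mul_le_mul_of_nonneg_right hA (mul_pos hlam ha).le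
  linarith

theorem sp_inner {e0 n1 n2 : V} (e00 : inner ℝ e0 e0 = (1 : ℝ)) (e11 : inner ℝ n1 n1 = (1 : ℝ))
    (e22 : inner ℝ n2 n2 = (1 : ℝ)) (e01 : inner ℝ e0 n1 = (0 : ℝ))
    (e02 : inner ℝ e0 n2 = (0 : ℝ)) (e12 : inner ℝ n1 n2 = (0 : ℝ)) (T0 T1 T2 z0 z1 z2 : ℝ) :
    inner ℝ (T0 • e0 + T1 • n1 + T2 • n2) (z0 • e0 + z1 • n1 + z2 • n2) =
      T0 * z0 + T1 * z1 + T2 * z2 := by
  have e10 : inner ℝ n1 e0 = (0 : ℝ) := by rw [real_inner_comm, e01]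
  have e20 : inner ℝ n2 e0 = (0 : ℝ) := by rw [real_inner_comm, e02]
  have e21 : inner ℝ n2 n1 = (0 : ℝ) := by rw [real_inner_comm, e12]
  simp only [inner_add_left, inner_add_right, real_inner_smul_left, real_inner_smul_right,
    e00, e11, e22, e01, e02, e12, e10, e20, e21]
  ring

theorem sp_two {n : V} {T0 T1 T2 : ℝ} (h : inner ℝ n n = T0 * T0 + T1 * T1 + T2 * T2)
    (t1 : T0 ^ 2 + T1 ^ 2 + T2 ^ 2 ≤ 2) : ‖n‖ ≤ 2 := by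
  rw [real_inner_self_eq_norm_sq] at h
  nlinarith [norm_nonneg n]

theorem sp_case {κ C CB : ℝ} {Φ0 Φ1 Φ2 : ℝ × ℝ → ℝ} (hκ : 0 < κ) (hC : 0 ≤ C) (hCB : 0 ≤ CB)
    (hl : Loop Φ0 Φ1 Φ2) (he : Eight Φ0 Φ1 Φ2) : ∃ Λ : ℝ, ∀ L : ℝ, Λ ≤ L → 1 ≤ L →
    ∀ (T S : P2 →L[ℝ] V) (B W e0 n1 n2 : V) (r0 a k α θ lam : ℝ), Imm (κ / L) T →
      inner ℝ e0 e0 = (1 : ℝ) → inner ℝ n1 n1 = (1 : ℝ) → inner ℝ n2 n2 = (1 : ℝ) →
      inner ℝ e0 n1 = (0 : ℝ) → inner ℝ e0 n2 = (0 : ℝ) → inner ℝ n1 n2 = (0 : ℝ) →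
      inner ℝ (T (1, 0)) e0 = r0 → inner ℝ (T (1, 0)) n1 = (0 : ℝ) →
      inner ℝ (T (1, 0)) n2 = (0 : ℝ) → inner ℝ (T (0, 1)) e0 = (0 : ℝ) →
      inner ℝ (T (0, 1)) n1 = (0 : ℝ) → inner ℝ (T (0, 1)) n2 = (0 : ℝ) → κ / L ^ 2 ≤ r0 →
      inner ℝ B n1 = (0 : ℝ) → κ / L ≤ inner ℝ B n2 → ‖B‖ ≤ CB * L → 0 < a → a ≤ C * L → 0 ≤ k →
      0 < α → k ^ 2 + α ^ 2 = 1 → a * k = r0 * α → L ^ 10 ≤ lam →
      ‖S (1, 0) - a • ((α * Φ0 (k, θ)) • e0 + Φ1 (k, θ) • n1 + Φ2 (k, θ) • n2)‖ ≤ C * a / L ^ 10 →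
      ‖S (0, 1)‖ ≤ C * a / L ^ 10 →
      ‖W - (lam * a) • ((α * dph Φ0 k θ) • e0 + dph Φ1 k θ • n1 + dph Φ2 k θ • n2)‖ ≤
        C * a * lam / L ^ 10 →
      Imm (κ / (2 * L)) (T + S) ∧ ∀ (c : ℝ) (u0 : P2) (Ξ : V), κ / L ≤ c → ‖u0‖ ≤ L / κ →
        ‖Ξ‖ ≤ L / κ → (Ξ ≠ 0 → κ / L * √(κ / L) ≤ a) →
        Tr (κ / (16 * L)) (B + c • W + S u0 - Ξ) (T + S) := by
  obtain ⟨c', CE, hc', he⟩ := he
  obtain ⟨C0, p0, b0⟩ := sp_osc hl.o0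
  obtain ⟨C1, p1, b1⟩ := sp_osc hl.o1
  obtain ⟨C2, p2, b2⟩ := sp_osc hl.o2
  obtain ⟨G, hG0, g0, g1, g2⟩ : ∃ G, 0 ≤ G ∧ C0 ≤ G ∧ C1 ≤ G ∧ C2 ≤ G :=
    ⟨C0 + C1 + C2, by positivity, by linarith, by linarith, by linarith⟩
  obtain ⟨A, hA, A1, A2, A3, A4, A5, A6, A7⟩ := ((eventually_ge_atTop 0).and
    ((eventually_ge_atTop (2 * C ^ 2)).and ((eventually_ge_atTop (|CE| * CB / κ)).and
    ((eventually_ge_atTop (2 * C)).and ((eventually_ge_atTop (3 * G + C)).and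
    ((eventually_ge_atTop ((3 * G + 2 * C) / κ)).and ((eventually_ge_atTop (1 / (κ ^ 2 * √κ))).and
    (eventually_ge_atTop CB)))))))).exists
  obtain ⟨Λ1, k1⟩ := sf_finI hκ hA
  obtain ⟨Λ2, k2⟩ := sp_main hκ hA hc'
  refine ⟨max Λ1 Λ2, fun L hΛ hL T S B W e0 n1 n2 r0 a k α θ lam hI e00 e11 e22 e01 e02 e12
    x0 x1 x2 y0 y1 y2 hr B1 B2 hB ha haL hk hα hkα hak hlam a1 a2 a3 => ?_⟩
  have hL0 : 0 < L := one_pos.trans_le hL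
  have hk1 : k ∈ Icc (0 : ℝ) 1 := ⟨hk, (sp_le_one hkα).1⟩
  have hα1 : |α| ≤ 1 := (sp_le_one hkα).2
  have hlam0 : 0 < lam := lt_of_lt_of_le (by positivity) hlam
  obtain ⟨T0, T1, T2, t1, t2, t3, t4, t5⟩ := he k α θ hk hα hkα
  have hv := sf_vel e00 e11 (φ2 := Φ2 (k, θ)) (by rw [e22, mul_one]) e01 e02 e12 x0 x1 x2 hkα hak
    (hl.sphere k hk1 θ)
  have hy := sf_orth y0 y1 y2 a (α * Φ0 (k, θ)) (Φ1 (k, θ)) (Φ2 (k, θ))
  have hI0 := sf_imm hI (sfShear_le (inner_zero_left _) hy hv)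
  have nv := sp_comb e00 e11 e22 ha.le hα1 ((b0 k hk1 θ).1.trans g0) ((b1 k hk1 θ).1.trans g1)
    ((b2 k hk1 θ).1.trans g2)
  have nw := sp_comb e00 e11 e22 (mul_pos hlam0 ha).le hα1 ((b0 k hk1 θ).2.trans g0)
    ((b1 k hk1 θ).2.trans g1) ((b2 k hk1 θ).2.trans g2)
  have hη : ∀ u, ‖(T + S) u - sfShear T _ u‖ ≤ A / L ^ 8 * ‖u‖ := fun u =>
    (sfShear_pert a1 a2 u).trans (mul_le_mul_of_nonneg_right (sp_eta hL hC A1 haL) (norm_nonneg _))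
  refine ⟨k1 L ((le_max_left _ _).trans hΛ) hL _ _ hI0 hη, fun c u0 Ξ hc hu hΞ hΞ' => ?_⟩
  have hn := sp_inner e00 e11 e22 e01 e02 e12 T0 T1 T2
  have hx : ∀ x : V, inner ℝ (T0 • e0 + T1 • n1 + T2 • n2) x =
      T0 * inner ℝ x e0 + T1 * inner ℝ x n1 + T2 * inner ℝ x n2 := fun x => by
    rw [real_inner_comm]
    simp only [inner_add_right, real_inner_smul_right]
  have hn2 := sp_two (hn T0 T1 T2) t1
  refine k2 L ((le_max_right _ _).trans hΛ) hL _ _ B W (S u0) Ξ (T0 • e0 + T1 • n1 + T2 • n2) a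
    lam c hI0 hη hn2 (fun u => ?_) ha hlam hc ?_ ?_ (sp_W hL hC A4 ha hlam0 nw a3)
    (sp_Y hκ hL hC hG0 A5 ha nv a1 a2 hu) ?_ (hB.trans (mul_le_mul_of_nonneg_right A7 hL0.le))
  · rw [sfShear_apply, sf_apply T u, inner_add_right, inner_add_right, real_inner_smul_right,
      real_inner_smul_right, real_inner_smul_right, real_inner_smul_right, hn, hx, hx, x0, x1, x2,
      y0, y1, y2]
    refine mul_left_cancel₀ hα.ne' ?_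
    linear_combination u.1 * a * t2 - u.1 * T0 * hak
  · rw [hx, B1, mul_zero, add_zero]
    exact sp_nB hκ hL0 hCB A2 hr ha hk1.2 hα hak t3 t4 ((abs_real_inner_le_norm B e0).trans (by
      rw [sp_unit e00, mul_one]; exact hB)) B2
  · have q1 := (abs_real_inner_le_norm (T0 • e0 + T1 • n1 + T2 • n2) _).trans
      (mul_le_mul hn2 a3 (norm_nonneg _) two_pos.le)
    rw [inner_sub_right, real_inner_smul_right, hn] at q1
    exact sp_nW hL hC A3 ha hlam0 t5 q1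
  · rcases eq_or_ne Ξ 0 with h | h
    · rw [h, norm_zero]
      positivity
    · exact sp_Xi hκ hL A6 hΞ (hΞ' h)

end Vale.Agent.Iso4
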