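import Vale.Agent.Iso4.Defs

/-! Closure properties of tame families. -/

open scoped ContDiff Topology
open Set Filter

noncomputable section
namespace Vale.Agent.Iso4

variable {ι : Type*} {E X Y Z : Type} [NormedAddCommGroup E] [NormedSpace ℝ E]
  [NormedAddCommGroup X] [NormedSpace ℝ X] [NormedAddCommGroup Y] [NormedSpace ℝ Y]
  [NormedAddCommGroup Z] [NormedSpace ℝ Z]
  {Ω Ω' : ι → Set E} {s s' : ι → E → ℝ} {μ μ' : ι → ℝ} {k k' : ℕ} {f g : ι → E → X}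

theorem tame_le (m : ℕ) : (m : ℕ∞ω) ≤ ∞ := by exact_mod_cast le_top

theorem tame_loc {f : E → X} {z : E} (hf : ContDiffAt ℝ ∞ f z) (m : ℕ) :
    ∃ u, IsOpen u ∧ z ∈ u ∧ ContDiffOn ℝ m f u := by
  obtain ⟨u, hu, h⟩ := hf.contDiffOn (tame_le m) (by simp)
  exact ⟨interior u, isOpen_interior, mem_interior_iff_mem_nhds.2 hu, h.mono interior_subset⟩

theorem tame_ev {f : E → X} {z : E} (hf : ContDiffAt ℝ ∞ f z) :
    ∀ᶠ y in 𝓝 z, DifferentiableAt ℝ f y :=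
  ((hf.of_le (tame_le 1)).eventually (by simp)).mono fun _ h => h.differentiableAt (by simp)

theorem tame_fd {f : E → X} {z : E} (hf : ContDiffAt ℝ ∞ f z) :
    ContDiffAt ℝ ∞ (fderiv ℝ f) z := hf.fderiv_right (by simp)

theorem tame_leib (B : X →L[ℝ] Y →L[ℝ] Z) {f : E → X} {g : E → Y} {z : E}
    (hf : ContDiffAt ℝ ∞ f z) (hg : ContDiffAt ℝ ∞ g z) (m : ℕ) :
    ‖iteratedFDeriv ℝ m (fun y => B (f y) (g y)) z‖ ≤ ‖B‖ * ∑ j ∈ Finset.range (m + 1),
      (m.choose j : ℝ) * ‖iteratedFDeriv ℝ j f z‖ * ‖iteratedFDeriv ℝ (m - j) g z‖ := by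
  obtain ⟨u, hu, hz, h⟩ := tame_loc hf m
  obtain ⟨v, hv, hz', h'⟩ := tame_loc hg m
  have ho := hu.inter hv
  have := B.norm_iteratedFDerivWithin_le_of_bilinear (h.mono inter_subset_left)
    (h'.mono inter_subset_right) ho.uniqueDiffOn ⟨hz, hz'⟩ (n := m) le_rfl
  simpa only [iteratedFDerivWithin_of_isOpen _ ho ⟨hz, hz'⟩] using this

theorem norm_d2_le_iter {f : E → X} {z : E} (v w : E) :
    ‖d2 f z v w‖ ≤ ‖iteratedFDeriv ℝ 2 f z‖ * (‖v‖ * ‖w‖) := by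
  have := (iteratedFDeriv ℝ 2 f z).le_opNorm ![v, w]
  rw [iteratedFDeriv_two_apply, Fin.prod_univ_two] at this
  exact this

/-- the bound of one order -/
def TameBd (Ω : ι → Set E) (s : ι → E → ℝ) (μ : ι → ℝ) (k : ℕ) (f : ι → E → X) (m : ℕ) : Prop :=
  ∃ C : ℝ, 0 ≤ C ∧ ∀ i, ∀ z ∈ Ω i, ‖iteratedFDeriv ℝ m (f i) z‖ ≤ C * (s i z * μ i ^ (k + m))

theorem tame_bilin {g : ι → E → Y} (B : X →L[ℝ] Y →L[ℝ] Z) (m : ℕ)
    (hf : ∀ i, ∀ z ∈ Ω i, ContDiffAt ℝ ∞ (f i) z) (hg : ∀ i, ∀ z ∈ Ω i, ContDiffAt ℝ ∞ (g i) z)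
    (bf : ∀ j ≤ m, TameBd Ω s μ k f j) (bg : ∀ j ≤ m, TameBd Ω s' μ k' g j) :
    TameBd Ω (fun i z => s i z * s' i z) μ (k + k') (fun i z => B (f i z) (g i z)) m := by
  choose! C hC bf using bf
  choose! D hD bg using bg
  refine ⟨‖B‖ * ∑ j ∈ Finset.range (m + 1), (m.choose j : ℝ) * C j * D (m - j),
    mul_nonneg B.opNorm_nonneg (Finset.sum_nonneg fun j hj => mul_nonneg (mul_nonneg
      (by positivity) (hC j (Finset.mem_range_succ_iff.1 hj))) (hD _ (Nat.sub_le _ _))),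
    fun i z hz => (tame_leib B (hf i z hz) (hg i z hz) m).trans ?_⟩
  rw [mul_assoc, Finset.sum_mul]
  refine mul_le_mul_of_nonneg_left (Finset.sum_le_sum fun j hj => ?_) B.opNorm_nonneg
  have hj := Finset.mem_range_succ_iff.1 hj
  have h1 := bf j hj i z hz
  rw [mul_assoc]
  refine (mul_le_mul_of_nonneg_left (mul_le_mul h1 (bg _ (Nat.sub_le m j) i z hz)
    (norm_nonneg _) ((norm_nonneg _).trans h1)) (by positivity)).trans_eq ?_
  rw [show k + k' + m = k + j + (k' + (m - j)) by omega, pow_add _ (k + j)]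
  ring

namespace Tame

theorem mono_set (h : Tame Ω s μ k f) (hΩ : ∀ i, Ω' i ⊆ Ω i) : Tame Ω' s μ k f :=   ⟨h.1, fun i z hz => h.2 i z (hΩ i hz), fun m =>
    (h.3 m).imp fun _ hC => ⟨hC.1, fun i z hz => hC.2 i z (hΩ i hz)⟩⟩

theorem weakenC (h : Tame Ω s μ k f) {C : ℝ} (hC : 0 ≤ C)
    (hs : ∀ i, ∀ z ∈ Ω i, s i z ≤ C * s' i z) : Tame Ω s' μ k f := by
  refine ⟨h.1, h.2, fun m => ?_⟩
  obtain ⟨D, hD, hb⟩ := h.3 m
  refine ⟨D * C, by positivity, fun i z hz => (hb i z hz).trans ?_⟩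
  have := (h.1 i).trans' zero_le_one
  rw [mul_assoc, ← mul_assoc C]
  gcongr
  exact hs i z hz

theorem weaken (h : Tame Ω s μ k f) (hs : ∀ i, ∀ z ∈ Ω i, s i z ≤ s' i z) : Tame Ω s' μ k f :=
  h.weakenC zero_le_one fun i z hz => by rw [one_mul]; exact hs i z hz

theorem mono_aux (h : Tame Ω s μ k f) (h1 : ∀ i, 1 ≤ μ' i)
    (h2 : ∀ i m, μ i ^ (k + m) ≤ μ' i ^ (k' + m)) : Tame Ω s μ' k' f := by
  refine ⟨h1, h.2, fun m => (h.3 m).imp fun C hC => ⟨hC.1, fun i z hz => ?_⟩⟩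
  have h3 := hC.2 i z hz
  have h4 : 0 < μ i ^ (k + m) := pow_pos (one_pos.trans_le (h.1 i)) _
  rw [← mul_assoc] at h3 ⊢
  exact h3.trans (mul_le_mul_of_nonneg_left (h2 i m)
    (nonneg_of_mul_nonneg_left ((norm_nonneg _).trans h3) h4))

theorem mono_k (h : Tame Ω s μ k f) (hk : k ≤ k') : Tame Ω s μ k' f :=   h.mono_aux h.1 fun i m => pow_le_pow_right₀ (h.1 i) (by omega)

theorem mono_scale (h : Tame Ω s μ k f) (hμ : ∀ i, μ i ≤ μ' i) : Tame Ω s μ' k f :=   h.mono_aux (fun i => (h.1 i).trans (hμ i)) fun i _ =>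
    pow_le_pow_left₀ (zero_le_one.trans (h.1 i)) (hμ i) _

/-- the most general change of size and scale -/
theorem absorb (h : Tame Ω s μ k f) (hμ : ∀ i, μ i ≤ μ' i)
    (hs : ∀ i, ∀ z ∈ Ω i, s i z * μ i ^ k ≤ s' i z * μ' i ^ k') (h0 : ∀ i, ∀ z ∈ Ω i, 0 ≤ s' i z) :
    Tame Ω s' μ' k' f := by
  refine ⟨fun i => (h.1 i).trans (hμ i), h.2, fun m => (h.3 m).imp fun C hC =>
    ⟨hC.1, fun i z hz => (hC.2 i z hz).trans (mul_le_mul_of_nonneg_left ?_ hC.1)⟩⟩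
  have h1 := zero_le_one.trans (h.1 i)
  have h2 := h1.trans (hμ i)
  have h3 := h0 i z hz
  rw [pow_add, pow_add, ← mul_assoc, ← mul_assoc]
  exact mul_le_mul (hs i z hz) (pow_le_pow_left₀ h1 (hμ i) _) (by positivity) (by positivity)

theorem shift {j : ℕ} (h : Tame Ω (fun i z => s i z * μ i ^ k) μ j f) : Tame Ω s μ (k + j) f :=
  ⟨h.1, h.2, fun m => (h.3 m).imp fun C hC => ⟨hC.1, fun i z hz => (hC.2 i z hz).trans_eq (by
    rw [add_assoc, pow_add _ k, mul_assoc])⟩⟩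

theorem unshift {j : ℕ} (h : Tame Ω s μ (k + j) f) : Tame Ω (fun i z => s i z * μ i ^ k) μ j f :=
  ⟨h.1, h.2, fun m => (h.3 m).imp fun C hC => ⟨hC.1, fun i z hz => (hC.2 i z hz).trans_eq (by
    rw [add_assoc, pow_add _ k, mul_assoc])⟩⟩

theorem congr (h : Tame Ω s μ k f) (hfg : ∀ i, ∀ z ∈ Ω i, f i =ᶠ[𝓝 z] g i) :
    Tame Ω s μ k g :=   ⟨h.1, fun i z hz => (h.2 i z hz).congr_of_eventuallyEq (hfg i z hz).symm, fun m =>
    (h.3 m).imp fun _ hC => ⟨hC.1, fun i z hz => by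
      rw [← ((hfg i z hz).iteratedFDeriv ℝ m).eq_of_nhds]
      exact hC.2 i z hz⟩⟩

theorem congr_open (h : Tame Ω s μ k f) (hΩ : ∀ i, IsOpen (Ω i))
    (hfg : ∀ i, ∀ z ∈ Ω i, f i z = g i z) : Tame Ω s μ k g :=   h.congr fun i _ hz => mem_of_superset ((hΩ i).mem_nhds hz) (hfg i)

theorem reindex {ι' : Type*} (h : Tame Ω s μ k f) (j : ι' → ι) :
    Tame (fun i => Ω (j i)) (fun i => s (j i)) (fun i => μ (j i)) k fun i => f (j i) :=   ⟨fun i => h.1 (j i), fun i => h.2 (j i), fun m =>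
    (h.3 m).imp fun _ hC => ⟨hC.1, fun i => hC.2 (j i)⟩⟩

theorem union (h : Tame Ω s μ k f) (h' : Tame Ω' s μ k f) (h0 : ∀ i, ∀ z ∈ Ω i ∪ Ω' i, 0 ≤ s i z) :
    Tame (fun i => Ω i ∪ Ω' i) s μ k f := by
  refine ⟨h.1, fun i z hz => hz.elim (h.2 i z) (h'.2 i z), fun m => ?_⟩
  obtain ⟨C, hC, hb⟩ := h.3 m
  obtain ⟨D, hD, hb'⟩ := h'.3 m
  refine ⟨C + D, by positivity, fun i z hz => ?_⟩
  have h1 : 0 ≤ s i z * μ i ^ (k + m) :=
    mul_nonneg (h0 i z hz) (pow_nonneg (zero_le_one.trans (h.1 i)) _)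
  rcases hz with hz | hz
  · exact (hb i z hz).trans (by gcongr; linarith)
  · exact (hb' i z hz).trans (by gcongr; linarith)

theorem norm_le (h : Tame Ω s μ k f) :
    ∃ C : ℝ, 0 ≤ C ∧ ∀ i, ∀ z ∈ Ω i, ‖f i z‖ ≤ C * (s i z * μ i ^ k) := by
  simpa only [norm_iteratedFDeriv_zero, add_zero] using h.3 0

theorem norm_fderiv_le (h : Tame Ω s μ k f) :
    ∃ C : ℝ, 0 ≤ C ∧ ∀ i, ∀ z ∈ Ω i, ‖fderiv ℝ (f i) z‖ ≤ C * (s i z * μ i ^ (k + 1)) := by
  simpa only [norm_iteratedFDeriv_one] using h.3 1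

theorem norm_d2_le (h : Tame Ω s μ k f) : ∃ C : ℝ, 0 ≤ C ∧ ∀ i, ∀ z ∈ Ω i, ∀ v w,
    ‖d2 (f i) z v w‖ ≤ C * (s i z * μ i ^ (k + 2)) * (‖v‖ * ‖w‖) :=   (h.3 2).imp fun _ hC => ⟨hC.1, fun i z hz v w => (norm_d2_le_iter v w).trans
    (mul_le_mul_of_nonneg_right (hC.2 i z hz) (by positivity))⟩

theorem differentiableAt (h : Tame Ω s μ k f) {i : ι} {z : E} (hz : z ∈ Ω i) :
    DifferentiableAt ℝ (f i) z :=   (h.2 i z hz).differentiableAt (by simp)

theorem zero (hμ : ∀ i, 1 ≤ μ i) : Tame Ω s μ k fun _ _ => (0 : X) :=   ⟨hμ, fun _ _ _ => contDiffAt_const, fun m => ⟨0, le_rfl, fun i z _ => by simp⟩⟩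

/-- a function is tame if it is bounded and its derivative is tame -/
theorem of_fderiv (hs : ∀ i, ∀ z ∈ Ω i, ContDiffAt ℝ ∞ (f i) z)
    (h0 : ∃ C, 0 ≤ C ∧ ∀ i, ∀ z ∈ Ω i, ‖f i z‖ ≤ C * (s i z * μ i ^ k))
    (h1 : Tame Ω s μ (k + 1) fun i => _root_.fderiv ℝ (f i)) : Tame Ω s μ k f := by
  refine ⟨h1.1, hs, fun m => ?_⟩
  cases m with
  | zero => simpa only [norm_iteratedFDeriv_zero, add_zero] using h0
  | succ m =>
    simpa only [norm_iteratedFDeriv_fderiv, add_assoc, add_comm 1 m] using h1.3 m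

theorem const (hμ : ∀ i, 1 ≤ μ i) {c : ι → X} (hc : ∀ i, ∀ z ∈ Ω i, ‖c i‖ ≤ s i z) :
    Tame Ω s μ k fun i _ => c i := by
  refine of_fderiv (fun _ _ _ => contDiffAt_const) ⟨1, zero_le_one, fun i z hz => ?_⟩ (by
    simp only [fderiv_fun_const]
    exact zero hμ)
  rw [one_mul]
  exact (hc i z hz).trans (le_mul_of_one_le_right ((norm_nonneg _).trans (hc i z hz))
    (one_le_pow₀ (hμ i)))

theorem const_one (hμ : ∀ i, 1 ≤ μ i) (c : X) : Tame Ω (fun _ _ => 1) μ k fun _ _ => c :=   (const (s := fun _ _ => ‖c‖) hμ fun _ _ _ => le_rfl).weakenC (norm_nonneg c)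
    fun _ _ _ => (mul_one _).ge

/-- a fixed function with bounded derivatives -/
theorem fixed (hμ : ∀ i, 1 ≤ μ i) {F : E → X} {S : Set E} (hF : ∀ z ∈ S, ContDiffAt ℝ ∞ F z)
    (hb : ∀ m : ℕ, ∃ C, ∀ z ∈ S, ‖iteratedFDeriv ℝ m F z‖ ≤ C) (hΩ : ∀ i, Ω i ⊆ S) :
    Tame Ω (fun _ _ => 1) μ k fun _ => F := by
  refine ⟨hμ, fun i z hz => hF z (hΩ i hz), fun m => ?_⟩
  obtain ⟨C, hC⟩ := hb m
  refine ⟨max C 0, le_max_right _ _, fun i z hz => (hC z (hΩ i hz)).trans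
    ((le_max_left _ _).trans (le_mul_of_one_le_right (le_max_right _ _) ?_))⟩
  rw [one_mul]
  exact one_le_pow₀ (hμ i)

theorem fixed_compact (hμ : ∀ i, 1 ≤ μ i) {F : E → X} {K : Set E} (hK : IsCompact K)
    (hF : ∀ z ∈ K, ContDiffAt ℝ ∞ F z) (hΩ : ∀ i, Ω i ⊆ K) :
    Tame Ω (fun _ _ => 1) μ k fun _ => F :=   fixed hμ hF (fun m => hK.exists_bound_of_continuousOn fun z hz =>
    ((hF z hz).continuousAt_iteratedFDeriv (tame_le m)).continuousWithinAt) hΩ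

theorem fixed_supp (hμ : ∀ i, 1 ≤ μ i) {F : E → X} (hF : ContDiff ℝ ∞ F)
    (hc : HasCompactSupport F) : Tame Ω (fun _ _ => 1) μ k fun _ => F :=   fixed (S := univ) hμ (fun _ _ => hF.contDiffAt) (fun m =>
    ((hF.continuous_iteratedFDeriv (tame_le m)).bounded_above_of_compact_support
      (hc.iteratedFDeriv m)).imp fun _ h z _ => h z) fun _ => subset_univ _

/-- a fixed linear map on a bounded set -/
theorem fixed_clm (hμ : ∀ i, 1 ≤ μ i) (T : E →L[ℝ] X) {R : ℝ} (hΩ : ∀ i, ∀ z ∈ Ω i, ‖z‖ ≤ R) :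
    Tame Ω (fun _ _ => 1) μ k fun _ => T := by
  refine of_fderiv (fun _ _ _ => T.contDiff.contDiffAt) ⟨‖T‖ * max R 0, by positivity,
    fun i z hz => ?_⟩ ?_
  · refine (T.le_of_opNorm_le_of_le le_rfl ((hΩ i z hz).trans (le_max_left R 0))).trans
      (le_mul_of_one_le_right (by positivity) ?_)
    rw [one_mul]
    exact one_le_pow₀ (hμ i)
  · exact (const_one hμ T).congr fun _ _ _ => Eventually.of_forall fun _ => T.fderiv.symm

theorem add (hf : Tame Ω s μ k f) (hg : Tame Ω s μ k g) :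
    Tame Ω s μ k fun i z => f i z + g i z := by
  refine ⟨hf.1, fun i z hz => (hf.2 i z hz).add (hg.2 i z hz), fun m => ?_⟩
  obtain ⟨C, hC, hb⟩ := hf.3 m
  obtain ⟨D, hD, hb'⟩ := hg.3 m
  refine ⟨C + D, by positivity, fun i z hz => ?_⟩
  rw [fun_iteratedFDeriv_add_apply ((hf.2 i z hz).of_le (tame_le m))
    ((hg.2 i z hz).of_le (tame_le m)), add_mul]
  exact norm_add_le_of_le (hb i z hz) (hb' i z hz)

theorem clm (hf : Tame Ω s μ k f) (T : X →L[ℝ] Y) : Tame Ω s μ k fun i z => T (f i z) := by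
  refine ⟨hf.1, fun i z hz => T.contDiff.contDiffAt.comp z (hf.2 i z hz), fun m => ?_⟩
  obtain ⟨C, hC, hb⟩ := hf.3 m
  refine ⟨‖T‖ * C, by positivity, fun i z hz =>
    (T.norm_iteratedFDeriv_comp_left (hf.2 i z hz) (tame_le m)).trans ?_⟩
  rw [mul_assoc]
  exact mul_le_mul_of_nonneg_left (hb i z hz) (norm_nonneg _)

theorem neg (hf : Tame Ω s μ k f) : Tame Ω s μ k fun i z => -f i z :=   hf.clm (-ContinuousLinearMap.id ℝ X)

theorem sub (hf : Tame Ω s μ k f) (hg : Tame Ω s μ k g) :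
    Tame Ω s μ k fun i z => f i z - g i z := by
  simpa only [sub_eq_add_neg] using hf.add hg.neg

theorem sum (hμ : ∀ i, 1 ≤ μ i) {κ : Type*} (t : Finset κ) {F : κ → ι → E → X}
    (h : ∀ j ∈ t, Tame Ω s μ k (F j)) : Tame Ω s μ k fun i z => ∑ j ∈ t, F j i z := by
  classical
  induction t using Finset.induction_on with
  | empty => simpa only [Finset.sum_empty] using zero hμ
  | insert j t hj ih =>
    simpa only [Finset.sum_insert hj] using (h j (Finset.mem_insert_self j t)).add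
      (ih fun l hl => h l (Finset.mem_insert_of_mem hl))

theorem const_smul (hf : Tame Ω s μ k f) (c : ℝ) : Tame Ω s μ k fun i z => c • f i z :=   hf.clm (c • ContinuousLinearMap.id ℝ X)

theorem const_mul {f : ι → E → ℝ} (hf : Tame Ω s μ k f) (c : ℝ) :
    Tame Ω s μ k fun i z => c * f i z :=   hf.const_smul c

/-- multiplication by constants depending on the index -/
theorem smul_index (hf : Tame Ω s μ k f) {c t : ι → ℝ} (hc : ∀ i, |c i| ≤ t i) :
    Tame Ω (fun i z => t i * s i z) μ k fun i z => c i • f i z := by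
  refine ⟨hf.1, fun i z hz => (hf.2 i z hz).const_smul _, fun m => (hf.3 m).imp fun C hC =>
    ⟨hC.1, fun i z hz => ?_⟩⟩
  rw [iteratedFDeriv_const_smul_apply' ((hf.2 i z hz).of_le (tame_le m)), norm_smul]
  exact (mul_le_mul (hc i) (hC.2 i z hz) (norm_nonneg _) ((abs_nonneg _).trans (hc i))).trans_eq
    (by ring)

theorem bilin {g : ι → E → Y} (B : X →L[ℝ] Y →L[ℝ] Z) (hf : Tame Ω s μ k f)
    (hg : Tame Ω s' μ k' g) :
    Tame Ω (fun i z => s i z * s' i z) μ (k + k') fun i z => B (f i z) (g i z) :=   ⟨hf.1, fun i z hz => (B.contDiff.contDiffAt.comp z (hf.2 i z hz)).clm_apply (hg.2 i z hz),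
    fun m => tame_bilin B m hf.2 hg.2 (fun j _ => hf.3 j) fun j _ => hg.3 j⟩

theorem smul {f : ι → E → ℝ} (hf : Tame Ω s μ k f) (hg : Tame Ω s' μ k' g) :
    Tame Ω (fun i z => s i z * s' i z) μ (k + k') fun i z => f i z • g i z :=   hf.bilin (ContinuousLinearMap.lsmul ℝ ℝ) hg

theorem mul {f g : ι → E → ℝ} (hf : Tame Ω s μ k f) (hg : Tame Ω s' μ k' g) :
    Tame Ω (fun i z => s i z * s' i z) μ (k + k') fun i z => f i z * g i z :=   hf.smul hg

theorem inner {f g : ι → E → V} (hf : Tame Ω s μ k f) (hg : Tame Ω s' μ k' g) :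
    Tame Ω (fun i z => s i z * s' i z) μ (k + k') fun i z => inner ℝ (f i z) (g i z) :=   hf.bilin (innerSL ℝ) hg

/-- left factor of size one -/
theorem smul1 {f : ι → E → ℝ} (hf : Tame Ω (fun _ _ => 1) μ k f) (hg : Tame Ω s' μ k' g) :
    Tame Ω s' μ (k + k') fun i z => f i z • g i z := by
  simpa only [one_mul] using hf.smul hg

/-- right factor of size one -/
theorem smul2 {f : ι → E → ℝ} (hf : Tame Ω s μ k f) (hg : Tame Ω (fun _ _ => 1) μ k' g) :
    Tame Ω s μ (k + k') fun i z => f i z • g i z := by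
  simpa only [mul_one] using hf.smul hg

theorem mul1 {f g : ι → E → ℝ} (hf : Tame Ω (fun _ _ => 1) μ k f) (hg : Tame Ω s' μ k' g) :
    Tame Ω s' μ (k + k') fun i z => f i z * g i z :=   hf.smul1 hg

theorem mul2 {f g : ι → E → ℝ} (hf : Tame Ω s μ k f) (hg : Tame Ω (fun _ _ => 1) μ k' g) :
    Tame Ω s μ (k + k') fun i z => f i z * g i z :=   hf.smul2 hg

theorem inner1 {f g : ι → E → V} (hf : Tame Ω (fun _ _ => 1) μ k f) (hg : Tame Ω s' μ k' g) :
    Tame Ω s' μ (k + k') fun i z => Inner.inner ℝ (f i z) (g i z) := by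
  simpa only [one_mul] using hf.inner hg

theorem pow {f : ι → E → ℝ} (hf : Tame Ω (fun _ _ => 1) μ k f) (n : ℕ) :
    Tame Ω (fun _ _ => 1) μ (n * k) fun i z => f i z ^ n := by
  induction n with
  | zero => simpa only [pow_zero] using const_one hf.1 (1 : ℝ)
  | succ n ih => simpa only [pow_succ, Nat.succ_mul] using ih.mul1 hf

theorem prod {g : ι → E → Y} (hf : Tame Ω s μ k f) (hg : Tame Ω s μ k g) :
    Tame Ω s μ k fun i z => (f i z, g i z) := by
  simpa using (hf.clm (ContinuousLinearMap.inl ℝ X Y)).add (hg.clm (ContinuousLinearMap.inr ℝ X Y))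

theorem fderiv (hf : Tame Ω s μ k f) : Tame Ω s μ (k + 1) fun i => fderiv ℝ (f i) :=   ⟨hf.1, fun i z hz => tame_fd (hf.2 i z hz), fun m => by
    simpa only [norm_iteratedFDeriv_fderiv, add_assoc, add_comm 1 m] using hf.3 (m + 1)⟩

theorem dd (hf : Tame Ω s μ k f) (v : E) : Tame Ω s μ (k + 1) fun i => dd v (f i) :=   hf.fderiv.clm (ContinuousLinearMap.apply ℝ X v)

theorem d2 (hf : Tame Ω s μ k f) (v w : E) :
    Tame Ω s μ (k + 2) fun i z => d2 (f i) z v w :=   (hf.fderiv.dd v).clm (ContinuousLinearMap.apply ℝ X w)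

/-- composition with a fixed linear map -/
theorem comp_clm {E' : Type} [NormedAddCommGroup E'] [NormedSpace ℝ E'] (hf : Tame Ω s μ k f)
    (T : E' →L[ℝ] E) :
    Tame (fun i => T ⁻¹' Ω i) (fun i z => s i (T z)) μ k fun i z => f i (T z) := by
  refine ⟨hf.1, fun i z hz => (hf.2 i _ hz).comp z T.contDiff.contDiffAt, fun m => ?_⟩
  obtain ⟨C, hC, hb⟩ := hf.3 m
  refine ⟨C * ‖T‖ ^ m, by positivity, fun i z hz => ?_⟩
  obtain ⟨u, hu, hz', h⟩ := tame_loc (hf.2 i _ hz) m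
  have ho := hu.preimage T.continuous
  have := T.iteratedFDerivWithin_comp_right h hu.uniqueDiffOn ho.uniqueDiffOn hz' (i := m) le_rfl
  rw [iteratedFDerivWithin_of_isOpen _ ho hz', iteratedFDerivWithin_of_isOpen _ hu hz'] at this
  refine (congrArg norm this).trans_le
    ((ContinuousMultilinearMap.norm_compContinuousLinearMap_le _ _).trans ?_)
  rw [Finset.prod_const, Finset.card_fin, mul_right_comm]
  exact mul_le_mul_of_nonneg_right (hb i _ hz) (by positivity)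

/-- a function vanishing near the points outside the domain -/
theorem of_vanish (hf : Tame Ω s μ k f) (hv : ∀ i, ∀ z ∉ Ω i, f i =ᶠ[𝓝 z] fun _ => 0)
    (h0 : ∀ i z, 0 ≤ s' i z) (hs : ∀ i, ∀ z ∈ Ω i, s i z ≤ s' i z) :
    Tame (fun _ => univ) s' μ k f := by
  have := (hf.weaken hs).union (((zero hf.1).mono_set (Ω' := fun i => (Ω i)ᶜ) fun _ =>
    subset_rfl).congr fun i z hz => (hv i z hz).symm) fun i z _ => h0 i z
  simpa only [union_compl_self] using this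

/-- multiplication by a cutoff function supported in the domain -/
theorem cut {χ : ι → E → ℝ} (hχ : Tame (fun _ => univ) (fun _ _ => 1) μ k χ)
    (hf : Tame Ω s μ k' f) (hsupp : ∀ i, tsupport (χ i) ⊆ Ω i) (h0 : ∀ i z, 0 ≤ s' i z)
    (hs : ∀ i, ∀ z ∈ Ω i, s i z ≤ s' i z) :
    Tame (fun _ => univ) s' μ (k + k') fun i z => χ i z • f i z :=   ((hχ.mono_set fun _ => subset_univ _).smul1 hf).of_vanish (fun i z hz =>
    (notMem_tsupport_iff_eventuallyEq.1 fun h => hz (hsupp i h)).mono fun y hy => by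
      simp only [hy, Pi.zero_apply, zero_smul]) h0 hs

open Classical in
/-- extension by zero from a set of good indices -/
theorem extend {I : ι → Prop} {w : {i // I i} → E → X} (hμ : ∀ i, 1 ≤ μ i)
    (h0 : ∀ i, ∀ z ∈ Ω i, 0 ≤ s i z)
    (h : Tame (fun i : {i // I i} => Ω i) (fun i => s i) (fun i => μ i) k w) :
    Tame Ω s μ k fun i => if h : I i then w ⟨i, h⟩ else fun _ => 0 := by
  refine ⟨hμ, fun i z hz => ?_, fun m => (h.3 m).imp fun C hC => ⟨hC.1, fun i z hz => ?_⟩⟩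
  · split_ifs with hi
    exacts [h.2 ⟨i, hi⟩ z hz, contDiffAt_const]
  · split_ifs with hi
    · exact hC.2 ⟨i, hi⟩ z hz
    · rw [iteratedFDeriv_fun_zero, Pi.zero_apply, norm_zero]
      exact mul_nonneg hC.1 (mul_nonneg (h0 i z hz) (pow_nonneg (zero_le_one.trans (hμ i)) _))

theorem contDiff (h : Tame (fun _ => univ) s μ k f) (i : ι) : ContDiff ℝ ∞ (f i) :=   contDiff_iff_contDiffAt.2 fun z => h.2 i z (mem_univ z)

end Tame

/-! Calculus rules for `dd` and `d2` at a point. -/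

theorem dd_dd {f : E → X} {z : E} (hf : ContDiffAt ℝ ∞ f z) (v w : E) :
    dd v (dd w f) z = d2 f z v w := by
  have := ((tame_fd hf).differentiableAt (by simp)).hasFDerivAt.clm_apply (hasFDerivAt_const w z)
  change fderiv ℝ (fun y => fderiv ℝ f y w) z v = _
  rw [this.fderiv]
  simp [d2]

theorem d2_symm {f : E → X} {z : E} (hf : ContDiffAt ℝ ∞ f z) (v w : E) :
    d2 f z v w = d2 f z w v :=   hf.isSymmSndFDerivAt (by simpa using tame_le 2) v w

theorem d2_add {f g : E → X} {z : E} (hf : ContDiffAt ℝ ∞ f z) (hg : ContDiffAt ℝ ∞ g z)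
    (v w : E) : d2 (fun x => f x + g x) z v w = d2 f z v w + d2 g z v w := by
  have h : fderiv ℝ (fun x => f x + g x) =ᶠ[𝓝 z] fun x => fderiv ℝ f x + fderiv ℝ g x := by
    filter_upwards [tame_ev hf, tame_ev hg] with y h1 h2 using fderiv_fun_add h1 h2
  rw [d2, h.fderiv_eq, fderiv_fun_add ((tame_fd hf).differentiableAt (by simp))
    ((tame_fd hg).differentiableAt (by simp))]
  rfl

theorem d2_congr {f g : E → X} {z : E} (h : f =ᶠ[𝓝 z] g) (v w : E) :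
    d2 f z v w = d2 g z v w := by
  rw [d2, d2, h.fderiv.fderiv_eq]

theorem ContDiffAt_dd {f : E → X} {z : E} (hf : ContDiffAt ℝ ∞ f z) (v : E) :
    ContDiffAt ℝ ∞ (dd v f) z :=   (tame_fd hf).clm_apply contDiffAt_const

/-- second order chain rule -/
theorem d2_comp {E' : Type} [NormedAddCommGroup E'] [NormedSpace ℝ E'] {f : E → X} {T : E' → E}
    {z : E'} (hf : ContDiffAt ℝ ∞ f (T z)) (hT : ContDiffAt ℝ ∞ T z) (v w : E') :
    d2 (fun x => f (T x)) z v w =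
      d2 f (T z) (fderiv ℝ T z v) (fderiv ℝ T z w) + fderiv ℝ f (T z) (d2 T z v w) := by
  have h : fderiv ℝ (fun x => f (T x)) =ᶠ[𝓝 z]
      fun x => (fderiv ℝ f (T x)).comp (fderiv ℝ T x) := by
    filter_upwards [hT.continuousAt.eventually (tame_ev hf), tame_ev hT] with y h1 h2
      using fderiv_comp y h1 h2
  have h1 := (((tame_fd hf).differentiableAt (by simp)).hasFDerivAt.comp z
    (hT.differentiableAt (by simp)).hasFDerivAt).clm_comp
    ((tame_fd hT).differentiableAt (by simp)).hasFDerivAt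
  rw [d2, h.fderiv_eq, (show HasFDerivAt (fun x => (fderiv ℝ f (T x)).comp (fderiv ℝ T x)) _ z
    from h1).fderiv]
  simp [d2, add_comm]

end Vale.Agent.Iso4
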