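import Vale.Agent.Iso4.Tame

/-! Composition, inverses, roots and amplitudes. -/

open scoped ContDiff Topology
open Set Filter

noncomputable section
namespace Vale.Agent.Iso4

variable {ι : Type*} {E E' X Y Z : Type} [NormedAddCommGroup E] [NormedSpace ℝ E]
  [NormedAddCommGroup E'] [NormedSpace ℝ E']
  [NormedAddCommGroup X] [NormedSpace ℝ X] [NormedAddCommGroup Y] [NormedSpace ℝ Y]
  [NormedAddCommGroup Z] [NormedSpace ℝ Z]
  {Ω : ι → Set E} {s : ι → E → ℝ} {μ L : ι → ℝ} {k p q : ℕ} {f g : ι → E → X}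

/-- Composition. The derivatives of order `j ≥ 1` of the inner map are at most `μ' ^ j / μ`. -/
theorem Tame.comp {Ω' : ι → Set E'} {μ' : ι → ℝ} {φ : ι → E' → E} (hf : Tame Ω s μ k f)
    (hφ : ∀ i, ∀ z ∈ Ω' i, φ i z ∈ Ω i) (hs : ∀ i, ∀ z ∈ Ω' i, ContDiffAt ℝ ∞ (φ i) z)
    (hd : Tame Ω' (fun i _ => (μ i)⁻¹) μ' 1 fun i => _root_.fderiv ℝ (φ i)) :
    Tame Ω' (fun i z => s i (φ i z) * μ i ^ k) μ' 0 fun i z => f i (φ i z) := by
  refine ⟨hd.1, fun i z hz => (hf.2 i _ (hφ i z hz)).comp z (hs i z hz), fun m => ?_⟩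
  change TameBd _ _ _ _ (fun i z => f i (φ i z)) m
  induction m using Nat.strong_induction_on generalizing X k with
  | _ m ih =>
  cases m with
  | zero =>
    exact hf.norm_le.imp fun C hC => ⟨hC.1, fun i z hz => by
      simpa using hC.2 i _ (hφ i z hz)⟩
  | succ m =>
    obtain ⟨C, hC, hb⟩ := tame_bilin (ContinuousLinearMap.compL ℝ E' E X) m
      (fun i z hz => (tame_fd (hf.2 i _ (hφ i z hz))).comp z (hs i z hz)) hd.2
      (fun j hj => ih j (by omega) hf.fderiv) fun j _ => hd.3 j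
    refine ⟨C, hC, fun i z hz => ?_⟩
    have h : _root_.fderiv ℝ (fun x => f i (φ i x)) =ᶠ[𝓝 z]
        fun x => (_root_.fderiv ℝ (f i) (φ i x)).comp (_root_.fderiv ℝ (φ i) x) := by
      filter_upwards [(hs i z hz).continuousAt.eventually (tame_ev (hf.2 i _ (hφ i z hz))),
        tame_ev (hs i z hz)] with y h1 h2 using fderiv_comp y h1 h2
    rw [← norm_iteratedFDeriv_fderiv, (h.iteratedFDeriv ℝ m).eq_of_nhds]
    refine (hb i z hz).trans_eq ?_
    have := (one_pos.trans_le (hf.1 i)).ne'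
    field_simp
    ring

/-- Composition with a fixed smooth map having bounded derivatives of positive order. -/
theorem Tame.comp_fixed {Ω' : ι → Set E'} {T : E' → E} {S : Set E'} (hf : Tame Ω s μ k f)
    (hT : ∀ z ∈ S, ContDiffAt ℝ ∞ T z)
    (hb : ∀ m : ℕ, ∃ C, ∀ z ∈ S, ‖iteratedFDeriv ℝ (m + 1) T z‖ ≤ C) (hS : ∀ i, Ω' i ⊆ S)
    (hφ : ∀ i, ∀ z ∈ Ω' i, T z ∈ Ω i) :
    Tame Ω' (fun i z => s i (T z)) μ k fun i z => f i (T z) := by
  refine Tame.shift (j := 0) (hf.comp hφ (fun i z hz => hT z (hS i hz)) ?_)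
  refine ((Tame.fixed (k := 0) hf.1 (fun z hz => tame_fd (hT z hz)) (fun m => ?_) hS).absorb
    (fun _ => le_rfl) (fun i z _ => ?_) fun i z _ => ?_)
  · simpa only [norm_iteratedFDeriv_fderiv] using hb m
  · rw [pow_one, inv_mul_cancel₀ (one_pos.trans_le (hf.1 i)).ne', one_mul, pow_zero]
  · exact inv_nonneg.2 (zero_le_one.trans (hf.1 i))

/-- A fixed outer function with bounded derivatives on `S`. -/
theorem Tame.outer {Φ : X → Y} {S : Set X} (hΦ : ∀ y ∈ S, ContDiffAt ℝ ∞ Φ y)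
    (hb : ∀ m : ℕ, ∃ C, ∀ y ∈ S, ‖iteratedFDeriv ℝ m Φ y‖ ≤ C) {μ' : ι → ℝ}
    (hs : ∀ i, ∀ z ∈ Ω i, ContDiffAt ℝ ∞ (f i) z) (hS : ∀ i, ∀ z ∈ Ω i, f i z ∈ S)
    (hd : Tame Ω (fun _ _ => 1) μ' 1 fun i => _root_.fderiv ℝ (f i)) :
    Tame Ω (fun _ _ => 1) μ' 0 fun i z => Φ (f i z) := by
  simpa only [pow_zero, mul_one] using (Tame.fixed (Ω := fun _ : ι => S) (μ := fun _ => 1) (k := 0)
    (fun _ => le_rfl) hΦ hb fun _ => subset_rfl).comp hS hs (by simpa only [inv_one] using hd)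

theorem bdd_smoothTransition (m : ℕ) :
    ∃ C, ∀ y, ‖iteratedFDeriv ℝ m Real.smoothTransition y‖ ≤ C := by
  obtain ⟨C, hC⟩ := (isCompact_Icc (a := (0 : ℝ)) (b := 1)).exists_bound_of_continuousOn
    ((Real.smoothTransition.contDiff (n := m)).continuous_iteratedFDeriv (m := m)
      (by exact_mod_cast le_rfl)).continuousOn
  have key : ∀ c y : ℝ, |c| ≤ 1 → Real.smoothTransition =ᶠ[𝓝 y] (fun _ => c) →
      ‖iteratedFDeriv ℝ m Real.smoothTransition y‖ ≤ max C 1 := fun c y hc h => by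
    rw [(h.iteratedFDeriv ℝ m).eq_of_nhds]
    refine le_trans ?_ (le_max_right _ _)
    cases m with
    | zero => simpa using hc
    | succ m => simp [iteratedFDeriv_succ_const]
  refine ⟨max C 1, fun y => ?_⟩
  rcases lt_or_ge y 0 with h | h
  · exact key 0 y (by simp) ((gt_mem_nhds h).mono fun _ hx =>
      Real.smoothTransition.zero_of_nonpos hx.le)
  rcases lt_or_ge 1 y with h' | h'
  · exact key 1 y (by simp) ((lt_mem_nhds h').mono fun _ hx =>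
      Real.smoothTransition.one_of_one_le hx.le)
  · exact (hC y ⟨h, h'⟩).trans (le_max_left _ _)

theorem bdd_cis (m : ℕ) :
    ∃ C, ∀ y : ℝ, ‖iteratedFDeriv ℝ m (fun t : ℝ => Complex.exp (t * Complex.I)) y‖ ≤ C := by
  have key : ∀ m : ℕ, iteratedDeriv m (fun t : ℝ => Complex.exp (t * Complex.I)) =
      fun t : ℝ => Complex.exp (t * Complex.I) * Complex.I ^ m := fun m => by
    induction m with
    | zero => simp
    | succ m ih =>
      rw [iteratedDeriv_succ, ih]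
      funext t
      have := ((((hasDerivAt_id (t : ℂ)).mul_const Complex.I).cexp).mul_const
        (Complex.I ^ m)).comp_ofReal
      refine this.deriv.trans ?_
      simp only [id, one_mul, pow_succ]
      ring
  refine ⟨1, fun y => ?_⟩
  rw [norm_iteratedFDeriv_eq_norm_iteratedDeriv, key]
  simp

theorem Tame.homog {u : ι → E → ℝ} (hu : Tame Ω u μ 0 u) (h0 : ∀ i, ∀ z ∈ Ω i, 0 < u i z)
    {Φ : ℝ → ℝ} (hΦ : ContDiffAt ℝ ∞ Φ 1) (hp : ∀ a, 0 < a → 0 ≤ Φ a)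
    (hh : ∀ a, 0 < a → ∀ x, Φ x = Φ a * Φ (a⁻¹ * x)) :
    Tame Ω (fun i z => Φ (u i z)) μ 0 fun i z => Φ (u i z) := by
  have h1 := (((hu.reindex fun j : {p : ι × E // p.2 ∈ Ω p.1} => j.1.1).mono_set
    (Ω' := fun j => {j.1.2}) fun j => singleton_subset_iff.2 j.2).smul_index
    (c := fun j => (u j.1.1 j.1.2)⁻¹) fun j => (abs_of_pos (inv_pos.2 (h0 _ _ j.2))).le).weaken
    (s' := fun _ _ => 1) fun j z hz => by
      rw [mem_singleton_iff.1 hz, inv_mul_cancel₀ (h0 _ _ j.2).ne']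
  have h2 := (Tame.outer (S := {1}) (Φ := Φ) (fun y hy => hy ▸ hΦ)
    (fun m => ⟨_, fun y hy => by rw [mem_singleton_iff.1 hy]⟩) h1.2 (fun j z hz => by
      rw [mem_singleton_iff.1 hz]
      exact inv_mul_cancel₀ (h0 _ _ j.2).ne') h1.fderiv).smul_index
    (c := fun j => Φ (u j.1.1 j.1.2)) fun j => (abs_of_nonneg (hp _ (h0 _ _ j.2))).le
  have h3 := h2.congr (g := fun j z => Φ (u j.1.1 z)) fun j z _ =>
    Eventually.of_forall fun y => (hh _ (h0 _ _ j.2) _).symm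
  exact ⟨hu.1, fun i z hz => h3.2 ⟨(i, z), hz⟩ z rfl, fun m => (h3.3 m).imp fun C hC =>
    ⟨hC.1, fun i z hz => by simpa only [mul_one] using hC.2 ⟨(i, z), hz⟩ z rfl⟩⟩

/-- if `u` is tame relative to itself then so is its inverse -/
theorem Tame.inv_rel {u : ι → E → ℝ} (hu : Tame Ω u μ 0 u) (h0 : ∀ i, ∀ z ∈ Ω i, 0 < u i z) :
    Tame Ω (fun i z => (u i z)⁻¹) μ 0 fun i z => (u i z)⁻¹ :=
  hu.homog h0 (Φ := fun x => x⁻¹) (contDiffAt_inv ℝ one_ne_zero) (fun _ ha => (inv_pos.2 ha).le)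
    fun a ha x => by
      rw [mul_inv, inv_inv, ← mul_assoc, inv_mul_cancel₀ ha.ne', one_mul]

theorem Tame.sqrt_rel {u : ι → E → ℝ} (hu : Tame Ω u μ 0 u) (h0 : ∀ i, ∀ z ∈ Ω i, 0 < u i z) :
    Tame Ω (fun i z => √(u i z)) μ 0 fun i z => √(u i z) :=
  hu.homog h0 (Φ := fun x => √x) (Real.contDiffAt_sqrt one_ne_zero) (fun _ _ => Real.sqrt_nonneg _)
    fun a ha x => by
      rw [← Real.sqrt_mul ha.le, ← mul_assoc, mul_inv_cancel₀ ha.ne', one_mul]

/-- inverse of a function bounded below by a constant -/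
theorem Tame.inv_const {u : ι → E → ℝ} (hu : Tame Ω (fun _ _ => 1) μ 0 u) {c : ℝ} (hc : 0 < c)
    (h0 : ∀ i, ∀ z ∈ Ω i, c ≤ u i z) : Tame Ω (fun _ _ => 1) μ 0 fun i z => (u i z)⁻¹ :=
  ((hu.weakenC (inv_pos.2 hc).le fun i z hz => (one_le_inv_mul₀ hc).2 (h0 i z hz)).inv_rel
    fun i z hz => hc.trans_le (h0 i z hz)).weakenC (inv_pos.2 hc).le fun i z hz => by
      rw [mul_one]
      exact inv_anti₀ hc (h0 i z hz)

theorem Tame.sqrt_const {u : ι → E → ℝ} (hu : Tame Ω (fun _ _ => 1) μ 0 u) {c : ℝ} (hc : 0 < c)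
    (h0 : ∀ i, ∀ z ∈ Ω i, c ≤ u i z) : Tame Ω (fun _ _ => 1) μ 0 fun i z => √(u i z) := by
  obtain ⟨C, -, hC⟩ := hu.norm_le
  refine ((hu.weakenC (inv_pos.2 hc).le fun i z hz => (one_le_inv_mul₀ hc).2 (h0 i z hz)).sqrt_rel
    fun i z hz => hc.trans_le (h0 i z hz)).weakenC (Real.sqrt_nonneg C) fun i z hz => ?_
  rw [mul_one]
  exact Real.sqrt_le_sqrt ((le_abs_self _).trans (by simpa using hC i z hz))

/-- the amplitude with a floor is tame relative to itself -/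
theorem Tame.floor {ϱ : ι → E → ℝ} (h : Tame Ω (fun _ _ => 1) μ 0 ϱ)
    (h0 : ∀ i, ∀ z ∈ Ω i, 0 ≤ ϱ i z) (hL : ∀ i, 1 ≤ L i) (N : ℕ) :
    Tame Ω (fun i z => ϱ i z ^ N + (L i ^ N)⁻¹) (fun i => μ i * L i) 0
      fun i z => ϱ i z ^ N + (L i ^ N)⁻¹ := by
  have hL0 : ∀ i, 0 < L i := fun i => one_pos.trans_le (hL i)
  have hμ : ∀ i, μ i ≤ μ i * L i := fun i =>
    le_mul_of_one_le_right (zero_le_one.trans (h.1 i)) (hL i)
  have h1 : Tame Ω (fun i z => ϱ i z + (L i)⁻¹) (fun i => μ i * L i) 0 ϱ := by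
    refine Tame.of_fderiv h.2 ⟨1, zero_le_one, fun i z hz => ?_⟩
      (h.fderiv.absorb hμ (fun i z hz => ?_) fun i z hz =>
        add_nonneg (h0 i z hz) (inv_pos.2 (hL0 i)).le)
    · rw [pow_zero, mul_one, one_mul, Real.norm_of_nonneg (h0 i z hz)]
      exact le_add_of_nonneg_right (inv_pos.2 (hL0 i)).le
    · have := mul_nonneg (h0 i z hz) ((zero_le_one.trans (h.1 i)).trans (hμ i))
      rw [zero_add, pow_one, pow_one, add_mul, mul_comm (μ i), ← mul_assoc (L i)⁻¹,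
        inv_mul_cancel₀ (hL0 i).ne', mul_comm (L i)]
      linarith
  have h2 : ∀ N : ℕ, Tame Ω (fun i z => (ϱ i z + (L i)⁻¹) ^ N) (fun i => μ i * L i) 0
      fun i z => ϱ i z ^ N := fun N => by
    induction N with
    | zero => simpa only [pow_zero] using Tame.const_one h1.1 (1 : ℝ)
    | succ N ih => simpa only [pow_succ] using ih.mul h1
  refine ((h2 N).weakenC (C := 2 ^ (N - 1)) (by positivity) fun i z hz => ?_).add
    (Tame.const h1.1 fun i z hz => ?_)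
  · rw [← inv_pow]
    exact add_pow_le (h0 i z hz) (inv_pos.2 (hL0 i)).le N
  · rw [Real.norm_of_nonneg (inv_pos.2 (pow_pos (hL0 i) N)).le]
    exact le_add_of_nonneg_left (pow_nonneg (h0 i z hz) N)

namespace PT

theorem mono (h : PT Ω L p f) (hL : ∀ i, 1 ≤ L i) (hp : p ≤ q) : PT Ω L q f :=
  h.mono_scale fun i => pow_le_pow_right₀ (hL i) hp

/-- a size which is a power of `L` -/
theorem of_size (h : Tame Ω s (fun i => L i ^ p) k f) (hL : ∀ i, 1 ≤ L i) {C : ℝ} (hC : 0 ≤ C)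
    (hs : ∀ i, ∀ z ∈ Ω i, s i z ≤ C * L i ^ q) : PT Ω L (p * (k + 1) + q) f :=
  (h.weakenC hC hs).absorb (fun i => pow_le_pow_right₀ (hL i) (by nlinarith)) (fun i _ _ => by
    rw [← pow_mul, ← pow_add, one_mul, pow_one]
    exact pow_le_pow_right₀ (hL i) (by nlinarith)) fun _ _ _ => zero_le_one

theorem of_tame (h : Tame Ω (fun _ _ => 1) (fun i => L i ^ p) k f) (hL : ∀ i, 1 ≤ L i) :
    PT Ω L (p * (k + 1)) f :=
  of_size (q := 0) h hL zero_le_one fun _ _ _ => by simp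

theorem pow_eq (h : PT Ω (fun i => L i ^ q) p f) : PT Ω L (q * p) f := by
  simpa only [PT, ← pow_mul] using h

theorem pow_eq' (h : PT Ω L (q * p) f) : PT Ω (fun i => L i ^ q) p f := by
  simpa only [PT, ← pow_mul] using h

theorem fixed (hL : ∀ i, 1 ≤ L i) {F : E → X} {K : Set E} (hK : IsCompact K)
    (hF : ∀ z ∈ K, ContDiffAt ℝ ∞ F z) (hΩ : ∀ i, Ω i ⊆ K) : PT Ω L p fun _ => F :=
  Tame.fixed_compact (fun i => one_le_pow₀ (hL i)) hK hF hΩ

theorem const (hL : ∀ i, 1 ≤ L i) (c : X) : PT Ω L p fun _ _ => c :=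
  Tame.const_one (fun i => one_le_pow₀ (hL i)) c

theorem index (hL : ∀ i, 1 ≤ L i) {c : ι → ℝ} (hc : ∀ i, |c i| ≤ L i ^ p) :
    PT Ω L p fun i _ => c i := by
  refine Tame.shift (k := 1) (j := 0) (Tame.const (fun i => one_le_pow₀ (hL i)) fun i _ _ => ?_)
  simpa using hc i

theorem add (hf : PT Ω L p f) (hg : PT Ω L q g) (hL : ∀ i, 1 ≤ L i) :
    PT Ω L (p + q) fun i z => f i z + g i z :=
  Tame.add (hf.mono hL (Nat.le_add_right p q)) (hg.mono hL (Nat.le_add_left q p))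

theorem sub (hf : PT Ω L p f) (hg : PT Ω L q g) (hL : ∀ i, 1 ≤ L i) :
    PT Ω L (p + q) fun i z => f i z - g i z :=
  Tame.sub (hf.mono hL (Nat.le_add_right p q)) (hg.mono hL (Nat.le_add_left q p))

theorem bilin {g : ι → E → Y} (B : X →L[ℝ] Y →L[ℝ] Z) (hf : PT Ω L p f) (hg : PT Ω L q g)
    (hL : ∀ i, 1 ≤ L i) : PT Ω L (p + q) fun i z => B (f i z) (g i z) := by
  refine Tame.shift (k := 1) (j := 0) ((Tame.bilin B ((Tame.unshift (k := 1) (j := 0) hf).mono_scale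
    fun i => pow_le_pow_right₀ (hL i) (Nat.le_add_right p q))
    ((Tame.unshift (k := 1) (j := 0) hg).mono_scale
    fun i => pow_le_pow_right₀ (hL i) (Nat.le_add_left q p))).weaken fun i _ _ => ?_)
  simp [pow_add]

theorem smul {f : ι → E → ℝ} (hf : PT Ω L p f) (hg : PT Ω L q g) (hL : ∀ i, 1 ≤ L i) :
    PT Ω L (p + q) fun i z => f i z • g i z :=
  hf.bilin (ContinuousLinearMap.lsmul ℝ ℝ) hg hL

theorem mul {f g : ι → E → ℝ} (hf : PT Ω L p f) (hg : PT Ω L q g) (hL : ∀ i, 1 ≤ L i) :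
    PT Ω L (p + q) fun i z => f i z * g i z :=
  hf.smul hg hL

theorem inner {f g : ι → E → V} (hf : PT Ω L p f) (hg : PT Ω L q g) (hL : ∀ i, 1 ≤ L i) :
    PT Ω L (p + q) fun i z => Inner.inner ℝ (f i z) (g i z) :=
  hf.bilin (innerSL ℝ) hg hL

theorem fderiv (hf : PT Ω L p f) (hL : ∀ i, 1 ≤ L i) :
    PT Ω L (2 * p) fun i => fderiv ℝ (f i) :=
  (Tame.fderiv hf).absorb (fun i => pow_le_pow_right₀ (hL i) (by omega)) (fun i _ _ => by
    rw [← pow_mul, pow_one, mul_comm p]) fun _ _ _ => zero_le_one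

theorem dd (hf : PT Ω L p f) (hL : ∀ i, 1 ≤ L i) (v : E) :
    PT Ω L (2 * p) fun i => dd v (f i) :=
  (hf.fderiv hL).clm (ContinuousLinearMap.apply ℝ X v)

theorem norm_le (hf : PT Ω L p f) :
    ∃ C : ℝ, 0 ≤ C ∧ ∀ i, ∀ z ∈ Ω i, ‖f i z‖ ≤ C * L i ^ p := by
  simpa only [one_mul, pow_one] using Tame.norm_le hf

/-- a function bounded below is tame relative to itself -/
theorem rel {u : ι → E → ℝ} (hu : PT Ω L p u) (hL : ∀ i, 1 ≤ L i) {c : ℝ} (hc : 0 < c)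
    (h0 : ∀ i, ∀ z ∈ Ω i, c / L i ^ p ≤ u i z) : Tame Ω u (fun i => L i ^ (3 * p)) 0 u := by
  have hL0 : ∀ i, 0 < L i ^ p := fun i => pow_pos (one_pos.trans_le (hL i)) _
  have hp : ∀ i, ∀ z ∈ Ω i, 0 ≤ u i z := fun i z hz =>
    (div_pos hc (hL0 i)).le.trans (h0 i z hz)
  refine Tame.of_fderiv hu.2 ⟨1, zero_le_one, fun i z hz => ?_⟩
    (((Tame.fderiv hu).weakenC (s' := fun i z => u i z * L i ^ p) (inv_pos.2 hc).le
      fun i z hz => (one_le_inv_mul₀ hc).2 ((div_le_iff₀ (hL0 i)).1 (h0 i z hz))).absorb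
      (fun i => pow_le_pow_right₀ (hL i) (by omega)) (fun i z hz => le_of_eq (by ring)) hp)
  rw [pow_zero, mul_one, one_mul, Real.norm_of_nonneg (hp i z hz)]

theorem inv {u : ι → E → ℝ} (hu : PT Ω L p u) (hL : ∀ i, 1 ≤ L i) {c : ℝ} (hc : 0 < c)
    (h0 : ∀ i, ∀ z ∈ Ω i, c / L i ^ p ≤ u i z) : PT Ω L (3 * p) fun i z => (u i z)⁻¹ := by
  have hL0 : ∀ i, 0 < L i ^ p := fun i => pow_pos (one_pos.trans_le (hL i)) _
  refine Tame.shift (k := 1) (j := 0) (((hu.rel hL hc h0).inv_rel fun i z hz =>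
    (div_pos hc (hL0 i)).trans_le (h0 i z hz)).weakenC (inv_pos.2 hc).le fun i z hz => ?_)
  refine (inv_anti₀ (div_pos hc (hL0 i)) (h0 i z hz)).trans ?_
  rw [inv_div, div_eq_inv_mul, one_mul, pow_one]
  exact mul_le_mul_of_nonneg_left (pow_le_pow_right₀ (hL i) (by omega)) (inv_pos.2 hc).le

theorem sqrt {u : ι → E → ℝ} (hu : PT Ω L p u) (hL : ∀ i, 1 ≤ L i) {c : ℝ} (hc : 0 < c)
    (h0 : ∀ i, ∀ z ∈ Ω i, c / L i ^ p ≤ u i z) : PT Ω L (3 * p) fun i z => √(u i z) := by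
  have hL0 : ∀ i, 0 < L i ^ p := fun i => pow_pos (one_pos.trans_le (hL i)) _
  obtain ⟨C, hC0, hC⟩ := hu.norm_le
  refine Tame.shift (k := 1) (j := 0) (((hu.rel hL hc h0).sqrt_rel fun i z hz =>
    (div_pos hc (hL0 i)).trans_le (h0 i z hz)).weakenC (Real.sqrt_nonneg C) fun i z hz => ?_)
  refine (Real.sqrt_le_sqrt ((le_abs_self _).trans (hC i z hz))).trans ?_
  rw [Real.sqrt_mul hC0, one_mul, pow_one]
  refine mul_le_mul_of_nonneg_left (Real.sqrt_le_iff.2 ⟨(pow_pos (one_pos.trans_le (hL i)) _).le,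
    ?_⟩) (Real.sqrt_nonneg C)
  rw [← pow_mul]
  exact pow_le_pow_right₀ (hL i) (by omega)

/-- the norm of a vector bounded below -/
theorem norm {u : ι → E → V} (hu : PT Ω L p u) (hL : ∀ i, 1 ≤ L i) {c : ℝ} (hc : 0 < c)
    (h0 : ∀ i, ∀ z ∈ Ω i, c / L i ^ p ≤ ‖u i z‖) : PT Ω L (6 * p) fun i z => ‖u i z‖ := by
  have := (hu.inner hu hL).sqrt hL (mul_pos hc hc) fun i z hz => by
    have h1 := (div_pos hc (pow_pos (one_pos.trans_le (hL i)) p)).le
    rw [real_inner_self_eq_norm_mul_norm, pow_add, ← div_mul_div_comm]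
    exact mul_self_le_mul_self h1 (h0 i z hz)
  simpa only [← norm_eq_sqrt_real_inner, show 3 * (p + p) = 6 * p by ring] using this

/-- a fixed outer function with bounded derivatives -/
theorem outer {Φ : X → Y} {S : Set X} (hΦ : ∀ y ∈ S, ContDiffAt ℝ ∞ Φ y)
    (hb : ∀ m : ℕ, ∃ C, ∀ y ∈ S, ‖iteratedFDeriv ℝ m Φ y‖ ≤ C) (hf : PT Ω L p f)
    (hL : ∀ i, 1 ≤ L i) (hS : ∀ i, ∀ z ∈ Ω i, f i z ∈ S) :
    Tame Ω (fun _ _ => 1) (fun i => L i ^ (2 * p)) 0 fun i z => Φ (f i z) :=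
  Tame.outer hΦ hb hf.2 hS (hf.fderiv hL)

end PT

end Vale.Agent.Iso4
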