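import Vale.Agent.Iso4.Tame2

/-! Integrals depending on parameters, means and primitives in the phase. -/

open scoped ContDiff Topology
open Set Filter

noncomputable section
namespace Vale.Agent.Iso4

variable {ι : Type*} {E X Y Z : Type} [NormedAddCommGroup E] [NormedSpace ℝ E]
  [FiniteDimensional ℝ E] [NormedAddCommGroup X] [NormedSpace ℝ X] [CompleteSpace X]
  [NormedAddCommGroup Y] [NormedSpace ℝ Y] [CompleteSpace Y]
  [NormedAddCommGroup Z] [NormedSpace ℝ Z] [CompleteSpace Z]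

/-- derivative in the parameter -/
def tiD (f : E × ℝ → X) (p : E × ℝ) : E →L[ℝ] X :=
  (ContinuousLinearMap.compL ℝ E (E × ℝ) X).flip (ContinuousLinearMap.inl ℝ E ℝ) (fderiv ℝ f p)

omit [FiniteDimensional ℝ E] [CompleteSpace X] in
theorem ti_ev {f : E × ℝ → X} {z : E} {c : ℝ} {n : ℕ}
    (hf : ∀ t ∈ Icc 0 c, ContDiffAt ℝ n f (z, t)) :
    ∀ᶠ x in 𝓝 z, ∀ t ∈ Icc 0 c, ContDiffAt ℝ n f (x, t) :=
  isCompact_Icc.eventually_forall_of_forall_eventually (P := fun x t => ContDiffAt ℝ n f (x, t))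
    fun t ht => (hf t ht).eventually (by simp)

omit [FiniteDimensional ℝ E] [CompleteSpace X] [NormedSpace ℝ E] [NormedSpace ℝ X] in
theorem ti_cont {f : E × ℝ → X} {z : E} {c : ℝ} (hf : ∀ t ∈ Icc 0 c, ContinuousAt f (z, t)) :
    ContinuousOn (fun t => f (z, t)) (Icc 0 c) := fun t ht =>
  (ContinuousAt.comp (f := Prod.mk z) (hf t ht) (by fun_prop)).continuousWithinAt

omit [FiniteDimensional ℝ E] [CompleteSpace X] in
theorem ti_D {f : E × ℝ → X} {p : E × ℝ} {n : ℕ∞ω} (hf : ContDiffAt ℝ (n + 1) f p) :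
    ContDiffAt ℝ n (tiD f) p :=
  (ContinuousLinearMap.contDiff _).contDiffAt.comp p hf.fderiv_right_succ

omit [FiniteDimensional ℝ E] [CompleteSpace X] in
theorem ti_has {f : E × ℝ → X} {z : E} {c : ℝ} (hc : 0 ≤ c)
    (hf : ∀ t ∈ Icc 0 c, ContDiffAt ℝ ((0 + 1 : ℕ) : ℕ∞ω) f (z, t)) :
    HasFDerivAt (fun x => ∫ t in (0 : ℝ)..c, f (x, t)) (∫ t in (0 : ℝ)..c, tiD f (z, t)) z := by
  have hD : ∀ t ∈ Icc 0 c, ContinuousAt (tiD f) (z, t) := fun t ht =>
    (ti_D (n := 0) (hf t ht)).continuousAt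
  obtain ⟨M, hM⟩ := isCompact_Icc.exists_bound_of_continuousOn (ti_cont hD)
  have h1 := isCompact_Icc.eventually_forall_of_forall_eventually (x₀ := z)
    (P := fun x t => ‖tiD f (x, t)‖ < M + 1) fun t ht =>
      (hD t ht).norm.eventually (gt_mem_nhds ((hM t ht).trans_lt (lt_add_one M)))
  have hI : uIoc 0 c ⊆ Icc 0 c := by
    rw [uIoc_of_le hc]
    exact Ioc_subset_Icc_self
  refine intervalIntegral.hasFDerivAt_integral_of_dominated_of_fderiv_le
    (F := fun x t => f (x, t)) (F' := fun x t => tiD f (x, t)) (bound := fun _ => M + 1)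
    ((ti_ev hf).and h1) ((ti_ev hf).mono fun x hx => ((ti_cont fun t ht =>
      (hx t ht).continuousAt).mono hI).aestronglyMeasurable measurableSet_uIoc)
    ((ti_cont fun t ht => (hf t ht).continuousAt).intervalIntegrable_of_Icc hc)
    (((ti_cont hD).mono hI).aestronglyMeasurable measurableSet_uIoc)
    (Eventually.of_forall fun t ht x hx => (hx.2 t (hI ht)).le) intervalIntegrable_const
    (Eventually.of_forall fun t ht x hx => ?_)
  exact ((hx.1 t (hI ht)).differentiableAt (by simp)).hasFDerivAt.comp x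
    (hasFDerivAt_prodMk_left x t)

omit [FiniteDimensional ℝ E] [CompleteSpace X] in
theorem ti_cd {z : E} {c : ℝ} (hc : 0 ≤ c) (n : ℕ) {f : E × ℝ → X}
    (hf : ∀ t ∈ Icc 0 c, ContDiffAt ℝ ((n + 1 : ℕ) : ℕ∞ω) f (z, t)) :
    ContDiffAt ℝ n (fun x => ∫ t in (0 : ℝ)..c, f (x, t)) z := by
  induction n generalizing X with
  | zero =>
    exact contDiffAt_zero.2 ⟨_, ti_ev hf, fun x hx =>
      (ti_has hc hx).continuousAt.continuousWithinAt⟩
  | succ n ih =>
    exact contDiffAt_succ_iff_hasFDerivAt.2 ⟨fun x => ∫ t in (0 : ℝ)..c, tiD f (x, t),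
      ⟨_, ti_ev hf, fun x hx => ti_has hc fun t ht => (hx t ht).of_le (by simp)⟩,
      ih fun t ht => ti_D (hf t ht)⟩

theorem contDiffAt_integral {f : E × ℝ → X} {z : E} {c : ℝ} (hc : 0 ≤ c)
    (hf : ∀ t ∈ Icc 0 c, ContDiffAt ℝ ∞ f (z, t)) :
    ContDiffAt ℝ ∞ (fun x => ∫ t in (0 : ℝ)..c, f (x, t)) z :=
  contDiffAt_infty.2 fun n => ti_cd hc n fun t ht => (hf t ht).of_le (tame_le (n + 1))

theorem fderiv_integral {f : E × ℝ → X} {z : E} {c : ℝ} (hc : 0 ≤ c)
    (hf : ∀ t ∈ Icc 0 c, ContDiffAt ℝ ∞ f (z, t)) (v : E) :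
    fderiv ℝ (fun x => ∫ t in (0 : ℝ)..c, f (x, t)) z v =
      ∫ t in (0 : ℝ)..c, fderiv ℝ f (z, t) (v, 0) := by
  rw [(ti_has hc fun t ht => (hf t ht).of_le (tame_le _)).fderiv,
    ContinuousLinearMap.intervalIntegral_apply ((ti_cont fun t ht =>
      (ti_D (n := 0) ((hf t ht).of_le (tame_le 1))).continuousAt).intervalIntegrable_of_Icc hc)]
  rfl

theorem ti_ftc {f : E × ℝ → X} {z : E} {c : ℝ} (hc : 0 ≤ c)
    (hf : ∀ t ∈ Icc 0 c, ContDiffAt ℝ ∞ f (z, t)) (v : E) {G : ℝ → X}
    (hG : ∀ t ∈ Icc 0 c, HasDerivAt G (fderiv ℝ f (z, t) (v, 0)) t) :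
    fderiv ℝ (fun x => ∫ t in (0 : ℝ)..c, f (x, t)) z v = G c - G 0 := by
  rw [fderiv_integral hc hf]
  exact intervalIntegral.integral_eq_sub_of_hasDerivAt (by rwa [uIcc_of_le hc])
    ((ti_cont (f := Iso4.dd (v, 0) f) fun t ht =>
      (ContDiffAt_dd (hf t ht) _).continuousAt).intervalIntegrable_of_Icc hc)

theorem Tame.integral {Ω : ι → Set E} {s : ι → E → ℝ} {μ : ι → ℝ} {k : ℕ} {f : ι → E × ℝ → X}
    {c : ℝ} (hc : 0 ≤ c) (hf : Tame (fun i => Ω i ×ˢ Icc 0 c) (fun i z => s i z.1) μ k f) :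
    Tame Ω s μ k fun i x => ∫ t in (0 : ℝ)..c, f i (x, t) := by
  refine ⟨hf.1, fun i z hz => contDiffAt_integral hc fun t ht => hf.2 i _ ⟨hz, ht⟩, fun m => ?_⟩
  induction m generalizing X k with
  | zero =>
    obtain ⟨C, hC, hb⟩ := hf.norm_le
    refine ⟨C * |c - 0|, by positivity, fun i z hz => ?_⟩
    rw [norm_iteratedFDeriv_zero, mul_right_comm]
    refine intervalIntegral.norm_integral_le_of_norm_le_const fun t ht => hb i (z, t) ⟨hz, ?_⟩
    rw [uIoc_of_le hc] at ht
    exact Ioc_subset_Icc_self ht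
  | succ m ih =>
    obtain ⟨C, hC, hb⟩ := ih (f := fun i => tiD (f i)) (hf.fderiv.clm _)
    refine ⟨C, hC, fun i z hz => ?_⟩
    have h : _root_.fderiv ℝ (fun x => ∫ t in (0 : ℝ)..c, f i (x, t)) =ᶠ[𝓝 z]
        fun x => ∫ t in (0 : ℝ)..c, tiD (f i) (x, t) :=
      (ti_ev fun t ht => (hf.2 i (z, t) ⟨hz, ht⟩).of_le (tame_le (0 + 1))).mono fun x hx =>
        (ti_has hc hx).fderiv
    rw [← norm_iteratedFDeriv_fderiv, (h.iteratedFDeriv ℝ m).eq_of_nhds, add_comm m, ← add_assoc]
    exact hb i z hz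

/-- Primitive along the second coordinate of a family supported in a strip. -/
theorem Tame.prim_y {s μ : ι → ℝ} {k : ℕ} {H : ι → P2 → ℝ} {R : ℝ}
    (hH : Tame (fun _ => univ) (fun i _ => s i) μ k H) (hR : ∀ i z, R ≤ |z.2| → H i z = 0) :
    ∃ β : ι → P2 → ℝ, Tame (fun _ => univ) (fun i _ => s i) μ k β ∧
      ∀ i z, |z.2| < R → dy (β i) z = H i z := by
  rcases le_or_gt R 0 with h | h
  · exact ⟨fun _ _ => 0, Tame.zero hH.1, fun i z hz => by linarith [abs_nonneg z.2]⟩
  let T : P2 × ℝ →L[ℝ] P2 :=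
    ContinuousLinearMap.fst ℝ P2 ℝ - (ContinuousLinearMap.snd ℝ P2 ℝ).smulRight (0, 1)
  have h1 := hH.comp_clm T
  refine ⟨fun i x => ∫ t in (0 : ℝ)..2 * R, H i (T (x, t)), Tame.integral
    (f := fun i p => H i (T p)) (by positivity) (h1.mono_set fun _ _ _ => mem_univ _),
    fun i z hz => ?_⟩
  have hd : ∀ y, HasFDerivAt (H i) (_root_.fderiv ℝ (H i) y) y := fun y =>
    (hH.differentiableAt (mem_univ y)).hasFDerivAt
  refine (ti_ftc (f := fun p => H i (T p)) (by positivity) (fun t _ => h1.2 i _ (mem_univ _)) _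
    (G := fun t => -H i (T (z, t))) fun t _ => ?_).trans ?_
  · have h2 := ((hd _).comp_hasDerivAt t (T.hasFDerivAt.comp_hasDerivAt t
      ((hasDerivAt_const t z).prodMk (hasDerivAt_id t)))).neg
    have h3 : _root_.fderiv ℝ (fun p => H i (T p)) (z, t) = _ :=
      ((hd _).comp (z, t) T.hasFDerivAt).fderiv
    rw [h3]
    refine h2.congr_deriv ?_
    rw [← map_neg]
    simp [T]
  · rw [hR i (T (z, 2 * R)) (by
      simp only [T, sub_apply, ContinuousLinearMap.coe_fst',
        ContinuousLinearMap.smulRight_apply, ContinuousLinearMap.coe_snd', Prod.snd_sub,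
        Prod.smul_snd, smul_eq_mul, mul_one]
      exact le_abs.2 (Or.inr (by linarith [(abs_lt.1 hz).2])))]
    simp [T]

/-- Primitive along the first coordinate on a square. -/
theorem Tame.prim_x {s μ : ι → ℝ} {k : ℕ} {H : ι → P2 → ℝ} {R : ℝ}
    (hH : Tame (fun _ => Metric.ball 0 R) (fun i _ => s i) μ k H) :
    ∃ β : ι → P2 → ℝ, Tame (fun _ => Metric.ball 0 R) (fun i _ => s i) μ k β ∧
      ∀ i, ∀ z ∈ Metric.ball (0 : P2) R, dx (β i) z = H i z := by
  have hK := (isCompact_closedBall (0 : P2) R).prod (isCompact_Icc (a := (0 : ℝ)) (b := 1))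
  have hT : ContDiff ℝ ∞ fun p : P2 × ℝ => ((p.2 * p.1.1, p.1.2) : P2) := by fun_prop
  have hm : ∀ p ∈ Metric.ball (0 : P2) R ×ˢ Icc (0 : ℝ) 1,
      ((p.2 * p.1.1, p.1.2) : P2) ∈ Metric.ball (0 : P2) R := fun p hp => by
    have h1 := hp.1
    rw [mem_ball_zero_iff] at h1 ⊢
    refine lt_of_le_of_lt (max_le_max_right _ ?_) h1
    rw [norm_mul, Real.norm_of_nonneg hp.2.1]
    exact mul_le_of_le_one_left (norm_nonneg _) hp.2.2
  have hs := prod_mono (Metric.ball_subset_closedBall (x := (0 : P2)) (ε := R))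
    (subset_refl (Icc (0 : ℝ) 1))
  have h1 := (Tame.fixed_compact (k := 0) (F := fun p : P2 × ℝ => p.1.1) hH.1 hK
    (fun _ _ => by fun_prop) fun _ => hs).mul1 (hH.comp_fixed (fun _ _ => hT.contDiffAt)
    (fun m => hK.exists_bound_of_continuousOn
      (hT.continuous_iteratedFDeriv (tame_le (m + 1))).continuousOn) (fun _ => hs) fun _ => hm)
  rw [zero_add] at h1
  refine ⟨_, Tame.integral (s := fun i _ => s i) zero_le_one h1, fun i z hz => ?_⟩
  refine (ti_ftc (f := fun p : P2 × ℝ => p.1.1 * H i (p.2 * p.1.1, p.1.2)) zero_le_one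
    (fun t ht => h1.2 i _ ⟨hz, ht⟩) _ (G := fun t => t * H i (t * z.1, z.2)) fun t ht => ?_).trans
    (by simp)
  have hd := (hH.differentiableAt (i := i) (hm (z, t) ⟨hz, ht⟩)).hasFDerivAt
  have h2 := (hasDerivAt_id t).mul (hd.comp_hasDerivAt t
    (((hasDerivAt_id t).mul_const z.1).prodMk (hasDerivAt_const t z.2)))
  have hf0 : HasFDerivAt (fun p : P2 × ℝ => p.1) (ContinuousLinearMap.fst ℝ P2 ℝ) (z, t) :=
    hasFDerivAt_fst
  have hf := hf0.fst
  have h3 : _root_.fderiv ℝ (fun p : P2 × ℝ => p.1.1 * H i (p.2 * p.1.1, p.1.2)) (z, t) = _ :=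
    (hf.mul (hd.comp (z, t) ((hasFDerivAt_snd.mul hf).prodMk hf0.snd))).fderiv
  rw [h3]
  refine h2.congr_deriv ?_
  have e : ∀ a : ℝ, ((a, 0) : P2) = a • ((1, 0) : P2) := fun a => by simp
  simp only [id, one_mul, add_apply, smul_apply,
    ContinuousLinearMap.comp_apply, ContinuousLinearMap.prod_apply, ContinuousLinearMap.coe_fst',
    ContinuousLinearMap.coe_snd', smul_eq_mul, mul_one, mul_zero, add_zero, Function.comp,
    Pi.mul_apply]
  rw [e t, e z.1, map_smul, map_smul, smul_eq_mul, smul_eq_mul]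
  ring

/-- translation along the phase -/
def tiT : P3 × ℝ →L[ℝ] P3 :=
  ContinuousLinearMap.fst ℝ P3 ℝ + (ContinuousLinearMap.snd ℝ P3 ℝ).smulRight et

theorem tiT_apply (z : P3) (s : ℝ) : tiT (z, s) = z + s • et := rfl

theorem ti_line (z : P3) (s : ℝ) : z + s • et = (z.1, z.2 + s) := by
  ext <;> simp [et]

/-- weighted mean over the phase -/
def tiA (w : ℝ → ℝ) (f : P3 → X) : P3 → X :=
  fun z => (2 * Real.pi)⁻¹ • ∫ s in (0 : ℝ)..2 * Real.pi, w s • f (z + s • et)

omit [CompleteSpace X] in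
theorem ti_mean (f : P3 → X) : mean f = tiA (fun _ => 1) f := by
  funext z
  simp only [mean, tiA, one_smul]

section Phase
variable {Ω : ι → Set P2} {a : ι → P2 → ℝ} {μ : ι → ℝ} {k : ℕ} {f : ι → P3 → X}

theorem Tame.tiA (hf : Tame (fun i => tube (Ω i)) (fun i z => a i z.1) μ k f) {w : ℝ → ℝ}
    (hw : ContDiff ℝ ∞ w) :
    Tame (fun i => tube (Ω i)) (fun i z => a i z.1) μ k fun i => tiA w (f i) := by
  have h1 := (((Tame.fixed_compact (Ω := fun _ => Icc 0 (2 * Real.pi)) (k := 0) hf.1 isCompact_Icc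
    (fun _ _ => hw.contDiffAt) fun _ => subset_rfl).comp_clm
      (ContinuousLinearMap.snd ℝ P3 ℝ)).mono_set
      (Ω' := fun i => tube (Ω i) ×ˢ Icc 0 (2 * Real.pi)) fun _ _ h => h.2).smul1
    (((hf.comp_clm tiT).mono_set fun i p h => by
      change (tiT (p.1, p.2)).1 ∈ Ω i
      rw [tiT_apply, ti_line]
      exact h.1).weaken (s' := fun i p => a i p.1.1) fun i p _ => by
        change a i (tiT (p.1, p.2)).1 ≤ _
        rw [tiT_apply, ti_line])
  rw [zero_add] at h1
  exact (Tame.integral (s := fun i (z : P3) => a i z.1) (by positivity) h1).const_smul _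

theorem Tame.mean (hf : Tame (fun i => tube (Ω i)) (fun i z => a i z.1) μ k f) :
    Tame (fun i => tube (Ω i)) (fun i z => a i z.1) μ k fun i => mean (f i) := by
  simpa only [ti_mean] using hf.tiA contDiff_const

theorem Tame.prim (hf : Tame (fun i => tube (Ω i)) (fun i z => a i z.1) μ k f) :
    Tame (fun i => tube (Ω i)) (fun i z => a i z.1) μ k fun i => prim (f i) :=
  hf.tiA (w := fun s => s - Real.pi) (by fun_prop)

/-- functions of the base point -/
theorem Tame.up {F : ι → P2 → X} (hF : Tame Ω a μ k F) :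
    Tame (fun i => tube (Ω i)) (fun i z => a i z.1) μ k fun i z => F i z.1 :=
  hF.comp_clm (ContinuousLinearMap.fst ℝ P2 ℝ)

/-- restriction to phase zero -/
theorem Tame.down (hf : Tame (fun i => tube (Ω i)) (fun i z => a i z.1) μ k f) :
    Tame Ω a μ k fun i p => f i (p, 0) :=
  hf.comp_clm (ContinuousLinearMap.inl ℝ P2 ℝ)

end Phase

theorem isOpen_tube {S : Set P2} (hS : IsOpen S) : IsOpen (tube S) :=
  hS.preimage continuous_fst

/-- smooth along the phase line through `z` -/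
def SmL {X : Type} [NormedAddCommGroup X] [NormedSpace ℝ X] (f : P3 → X) (z : P3) : Prop :=
  ∀ t, ContDiffAt ℝ ∞ f (z.1, t)

theorem Tame.smL {Ω : ι → Set P2} {s : ι → P3 → ℝ} {μ : ι → ℝ} {k : ℕ} {f : ι → P3 → X}
    (hf : Tame (fun i => tube (Ω i)) s μ k f) {i : ι} {z : P3} (hz : z.1 ∈ Ω i) :
    SmL (f i) z :=
  fun t => hf.2 i (z.1, t) hz

section Point
variable {f g : P3 → X} {z : P3}

omit [CompleteSpace X] in
theorem SmL.at (hf : SmL f z) (s : ℝ) : ContDiffAt ℝ ∞ f (z + s • et) := by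
  rw [ti_line]
  exact hf _

omit [CompleteSpace X] in
theorem SmL.cont (hf : SmL f z) : Continuous fun s : ℝ => f (z + s • et) :=
  continuous_iff_continuousAt.2 fun s =>
    ContinuousAt.comp (f := fun s : ℝ => z + s • et) (hf.at s).continuousAt (by fun_prop)

omit [CompleteSpace X] in
theorem SmL.der (hf : SmL f z) (s : ℝ) :
    HasDerivAt (fun s : ℝ => f (z + s • et)) (dd et f (z + s • et)) s := by
  have := ((hf.at s).differentiableAt (by simp)).hasFDerivAt.comp_hasDerivAt s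
    (((hasDerivAt_id s).smul_const et).const_add z)
  rwa [one_smul] at this

omit [CompleteSpace X] in
theorem SmL.cd (hf : SmL f z) {w : ℝ → ℝ} (hw : ContDiff ℝ ∞ w) (s : ℝ) :
    ContDiffAt ℝ ∞ (fun p : P3 × ℝ => w p.2 • f (tiT p)) (z, s) :=
  (hw.comp contDiff_snd).contDiffAt.smul ((hf.at s).comp (z, s) tiT.contDiff.contDiffAt)

theorem SmL.tiA (hf : SmL f z) {w : ℝ → ℝ} (hw : ContDiff ℝ ∞ w) : SmL (tiA w f) z := fun t =>
  (contDiffAt_integral (by positivity) fun s _ => SmL.cd (z := (z.1, t)) hf hw s).const_smul _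

theorem dd_tiA (hf : SmL f z) {w : ℝ → ℝ} (hw : ContDiff ℝ ∞ w) (v : P3) :
    dd v (tiA w f) z = tiA w (dd v f) z := by
  have h0 : (0 : ℝ) ≤ 2 * Real.pi := by positivity
  have h1 : fderiv ℝ (tiA w f) z = _ := fderiv_const_smul ((contDiffAt_integral h0
    fun s _ => hf.cd hw s).differentiableAt (by simp)) (2 * Real.pi)⁻¹
  rw [dd, h1, smul_apply, fderiv_integral h0 fun s _ => hf.cd hw s]
  refine congrArg _ (intervalIntegral.integral_congr fun s _ => ?_)
  have h2 : fderiv ℝ (fun p : P3 × ℝ => w p.2 • f (tiT p)) (z, s) = _ :=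
    (((hw.differentiable (by simp) s).hasFDerivAt.comp (z, s) hasFDerivAt_snd).smul
      (((hf.at s).differentiableAt (by simp)).hasFDerivAt.comp (z, s) tiT.hasFDerivAt)).fderiv
  simp [h2, tiT_apply, dd]

theorem tiA_bilin (B : Y →L[ℝ] X →L[ℝ] Z) (c : P2 → Y) (hf : SmL f z) {w : ℝ → ℝ}
    (hw : Continuous w) : tiA w (fun x => B (c x.1) (f x)) z = B (c z.1) (tiA w f z) := by
  rw [tiA, tiA, map_smul, ← ContinuousLinearMap.intervalIntegral_comp_comm _
    ((hw.fun_smul hf.cont).intervalIntegrable _ _)]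
  simp only [map_smul, ti_line]

omit [CompleteSpace X] in
theorem ti_phase (hf : Per f) (z : P3) (s : ℝ) :
    ∫ t in (0 : ℝ)..2 * Real.pi, f (z + s • et + t • et) =
      ∫ t in (0 : ℝ)..2 * Real.pi, f (z + t • et) := by
  have h : Function.Periodic (fun t : ℝ => f (z + t • et)) (2 * Real.pi) := fun t => by
    simp only [add_smul, ← add_assoc]
    exact hf _
  simp only [add_assoc, ← add_smul]
  rw [intervalIntegral.integral_comp_add_left (fun t : ℝ => f (z + t • et)), add_zero,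
    h.intervalIntegral_add_eq s 0, zero_add]

theorem Per.dd (hf : Per f) (v : P3) : Per (dd v f) := by
  intro z
  rw [Iso4.dd, ← fderiv_comp_add_right, funext hf]
  rfl
theorem Per.mean (hf : Per f) : Per (mean f) := by
  intro z
  simp only [Iso4.mean, add_right_comm z, hf _]
theorem Per.prim (hf : Per f) : Per (prim f) := by
  intro z
  simp only [Iso4.prim, add_right_comm z, hf _]
theorem Per.up (F : P2 → X) : Per fun z : P3 => F z.1 := by
  intro z
  simp only [ti_line]
theorem Per.shift (hf : Per f) (β : P2 → ℝ) : Per fun z : P3 => f (z.1, z.2 + β z.1) := by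
  intro z
  have := hf (z.1, z.2 + β z.1)
  simpa only [ti_line, add_right_comm z.2] using this
theorem Per.map₂ {g : P3 → Y} (B : X → Y → Z) (hf : Per f) (hg : Per g) :
    Per fun z => B (f z) (g z) := by
  intro z
  simp only [hf z, hg z]

theorem mean_congr (h : ∀ t, f (z.1, t) = g (z.1, t)) : mean f z = mean g z := by
  simp only [mean, ti_line, h]
theorem prim_congr (h : ∀ t, f (z.1, t) = g (z.1, t)) : prim f z = prim g z := by
  simp only [prim, ti_line, h]
theorem mean_phase (hf : Per f) (p : P2) (t t' : ℝ) : mean f (p, t) = mean f (p, t') := by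
  have h : ∀ t : ℝ, mean f (p, t) = mean f (p, 0) := fun t => by
    rw [mean, mean, ← ti_phase hf (p, 0) t, ti_line (p, 0) t, zero_add]
  rw [h t, h t']
theorem mean_shift (hf : Per f) (β : P2 → ℝ) :
    mean (fun z : P3 => f (z.1, z.2 + β z.1)) z = mean f z := by
  refine Eq.trans ?_ (mean_phase hf z.1 (z.2 + β z.1) z.2)
  simp only [mean, ti_line, add_right_comm z.2]
theorem mean_add (hf : SmL f z) (hg : SmL g z) :
    mean (fun x => f x + g x) z = mean f z + mean g z := by
  rw [mean, mean, mean, ← smul_add, intervalIntegral.integral_add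
    (hf.cont.intervalIntegrable _ _) (hg.cont.intervalIntegrable _ _)]
theorem mean_sub (hf : SmL f z) (hg : SmL g z) :
    mean (fun x => f x - g x) z = mean f z - mean g z := by
  rw [mean, mean, mean, ← smul_sub, intervalIntegral.integral_sub
    (hf.cont.intervalIntegrable _ _) (hg.cont.intervalIntegrable _ _)]
theorem mean_up (F : P2 → X) : mean (fun x : P3 => F x.1) z = F z.1 := by
  simp only [mean, ti_line, intervalIntegral.integral_const, sub_zero]
  exact inv_smul_smul₀ (by positivity) _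
theorem mean_bilin (B : Y →L[ℝ] X →L[ℝ] Z) (c : P2 → Y) (hf : SmL f z) :
    mean (fun x => B (c x.1) (f x)) z = B (c z.1) (mean f z) := by
  simpa only [ti_mean] using tiA_bilin B c hf continuous_const
theorem mean_smul (c : P2 → ℝ) : mean (fun x => c x.1 • f x) z = c z.1 • mean f z := by
  simp only [mean, ti_line, intervalIntegral.integral_smul]
  exact smul_comm _ _ _
theorem mean_mul {f : P3 → ℝ} (c : P2 → ℝ) : mean (fun x => c x.1 * f x) z = c z.1 * mean f z :=
  mean_smul c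
theorem mean_smul_vec {f : P3 → ℝ} (c : P2 → X) :
    mean (fun x => f x • c x.1) z = mean f z • c z.1 := by
  simp only [mean, ti_line, intervalIntegral.integral_smul_const, smul_assoc]
theorem mean_inner {f : P3 → V} (c : P2 → V) (hf : SmL f z) :
    mean (fun x => inner ℝ (c x.1) (f x)) z = inner ℝ (c z.1) (mean f z) :=
  mean_bilin (innerSL ℝ) c hf
theorem prim_inner {f : P3 → V} (c : P2 → V) (hf : SmL f z) :
    prim (fun x => inner ℝ (c x.1) (f x)) z = inner ℝ (c z.1) (prim f z) :=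
  tiA_bilin (innerSL ℝ) c hf (w := fun s => s - Real.pi) (by fun_prop)
theorem SmL.dd (hf : SmL f z) (v : P3) : SmL (dd v f) z :=
  fun t => ContDiffAt_dd (hf t) v
theorem mean_dt (hp : Per f) (hf : SmL f z) : mean (dd et f) z = 0 := by
  rw [mean, intervalIntegral.integral_eq_sub_of_hasDerivAt (fun s _ => hf.der s)
    ((hf.dd et).cont.intervalIntegrable _ _), hp, zero_smul, add_zero, sub_self, smul_zero]
theorem dd_mean (hf : SmL f z) (v : P3) : dd v (mean f) z = mean (dd v f) z := by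
  simpa only [ti_mean] using dd_tiA hf contDiff_const v
theorem dt_prim (hp : Per f) (hf : SmL f z) : dd et (prim f) z = f z - mean f z := by
  refine (dd_tiA hf (w := fun s => s - Real.pi) (by fun_prop) et).trans ?_
  rw [tiA, intervalIntegral.integral_smul_deriv_eq_deriv_smul (u' := fun _ => (1 : ℝ))
    (fun s _ => (hasDerivAt_id' s).sub_const Real.pi) (fun s _ => hf.der s)
    intervalIntegrable_const ((hf.dd et).cont.intervalIntegrable _ _), hp, zero_smul, add_zero,
    ← sub_smul, smul_sub, ti_mean, smul_smul]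
  congr 1
  rw [show 2 * Real.pi - Real.pi - (0 - Real.pi) = 2 * Real.pi by ring,
    inv_mul_cancel₀ (by positivity), one_smul]
theorem mean_prim (hp : Per f) (hf : SmL f z) : mean (prim f) z = 0 := by
  have h : Continuous fun p : ℝ × ℝ => (p.2 - Real.pi) • f (z + p.1 • et + p.2 • et) := by
    simp only [add_assoc, ← add_smul]
    exact (continuous_snd.sub continuous_const).smul (hf.cont.comp continuous_add)
  simp only [mean, prim, intervalIntegral.integral_smul]
  rw [MeasureTheory.intervalIntegral_intervalIntegral_swap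
    (F := fun t s => (s - Real.pi) • f (z + t • et + s • et)) ((h.continuousOn.integrableOn_compact
    (isCompact_uIcc.prod isCompact_uIcc)).mono_set (prod_mono uIoc_subset_uIcc uIoc_subset_uIcc))]
  have e : ∀ s : ℝ, ∫ t in (0 : ℝ)..2 * Real.pi, f (z + t • et + s • et) =
      ∫ t in (0 : ℝ)..2 * Real.pi, f (z + t • et) := fun s => by
    rw [← ti_phase hp z s]
    exact intervalIntegral.integral_congr fun t _ => congrArg f (add_right_comm _ _ _)
  simp only [intervalIntegral.integral_smul, e, intervalIntegral.integral_smul_const]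
  rw [intervalIntegral.integral_sub (continuous_id'.intervalIntegrable _ _)
    intervalIntegrable_const, integral_id, intervalIntegral.integral_const, smul_eq_mul,
    show ((2 * Real.pi) ^ 2 - 0 ^ 2) / 2 - (2 * Real.pi - 0) * Real.pi = 0 by ring]
  simp
theorem mean_mean (hp : Per f) : mean (mean f) z = mean f z := by
  rw [mean_congr (g := fun x : P3 => mean f (x.1, z.2)) fun t => mean_phase hp z.1 t z.2]
  exact mean_up fun p => mean f (p, z.2)
theorem SmL.mean (hf : SmL f z) : SmL (mean f) z := by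
  simpa only [ti_mean] using hf.tiA contDiff_const
theorem SmL.prim (hf : SmL f z) : SmL (prim f) z :=
  hf.tiA (w := fun s => s - Real.pi) (by fun_prop)
theorem dd_up {F : P2 → X} (hF : DifferentiableAt ℝ F z.1) (v : P3) :
    dd v (fun x : P3 => F x.1) z = dd v.1 F z.1 :=
  congrArg (fun T : P3 →L[ℝ] X => T v) (hF.hasFDerivAt.comp z hasFDerivAt_fst).fderiv

/-- derivative after a phase shift -/
theorem dd_shift {β : P2 → ℝ} (hβ : DifferentiableAt ℝ β z.1)
    (hf : DifferentiableAt ℝ f (z.1, z.2 + β z.1)) (v : P3) :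
    dd v (fun x : P3 => f (x.1, x.2 + β x.1)) z =
      dd v f (z.1, z.2 + β z.1) + dd v.1 β z.1 • dd et f (z.1, z.2 + β z.1) := by
  have h : fderiv ℝ (fun x : P3 => f (x.1, x.2 + β x.1)) z = _ :=
    (hf.hasFDerivAt.comp z (hasFDerivAt_fst.prodMk (hasFDerivAt_snd.add
      (hβ.hasFDerivAt.comp z hasFDerivAt_fst)))).fderiv
  rw [dd, h, dd, dd, dd, ← map_smul, ← map_add, ti_line]
  rfl

end Point

end Vale.Agent.Iso4
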